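import Mathlib
import Crest.Prelude.Def_AsymptoticConvexity

/-!
# Row 125 (S0166-S0169): common lemmas (helper file)

Typeclass versions of the notions of `Def_AsymptoticConvexity`, the "bounded tree" obstruction to
asymptotically uniformly convex renormings, and the averaging lemma producing vectors that are
almost in a given closed finite-codimensional subspace.
-/

set_option autoImplicit false

namespace Crest.Agent.R125

open Crest.AnalysisR

variable {X : Type} [NormedAddCommGroup X] [NormedSpace ℝ X]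

/-- typeclass version of `RealBanach.IsCof`. -/
def Cof (F : Set X) : Prop :=
  ∃ S : Submodule ℝ X, (S : Set X) = F ∧ IsClosed F ∧ FiniteDimensional ℝ (X ⧸ S)

/-- typeclass version of `RealBanach.IsEquivNorm`. -/
def EquivNorm (N : X → ℝ) : Prop :=
  (∀ x y : X, N (x + y) ≤ N x + N y) ∧ (∀ (a : ℝ) (x : X), N (a • x) = abs a * N x) ∧
    ∃ a b : ℝ, 0 < a ∧ ∀ x : X, a * ‖x‖ ≤ N x ∧ N x ≤ b * ‖x‖

/-- typeclass version of `RealBanach.IsAUC`. -/
def AUC (N : X → ℝ) : Prop :=
  ∀ t : ℝ, 0 < t → ∃ c : ℝ, 0 < c ∧ ∀ x : X, N x = 1 → ∃ F : Set X, Cof F ∧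
    ∀ y ∈ F, N y = 1 → c ≤ N (x + t • y) - 1

theorem isCof_mk_iff [CompleteSpace X] (F : Set X) :
    (RealBanach.mk X inferInstance inferInstance inferInstance).IsCof F ↔ Cof F := Iff.rfl

theorem isEquivNorm_mk_iff [CompleteSpace X] (N : X → ℝ) :
    (RealBanach.mk X inferInstance inferInstance inferInstance).IsEquivNorm N ↔ EquivNorm N :=
  Iff.rfl

theorem isAUC_mk_iff [CompleteSpace X] (N : X → ℝ) :
    (RealBanach.mk X inferInstance inferInstance inferInstance).IsAUC N ↔ AUC N := Iff.rfl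

/-- The common kernel of finitely many continuous functionals is closed of finite codimension. -/
theorem cof_of_functionals {ι : Type} [Finite ι] (φ : ι → X →L[ℝ] ℝ) :
    Cof {y : X | ∀ j, φ j y = 0} := by
  classical
  have := Fintype.ofFinite ι
  let L : X →ₗ[ℝ] (ι → ℝ) := LinearMap.pi fun j => (φ j : X →ₗ[ℝ] ℝ)
  refine ⟨LinearMap.ker L, ?_, ?_, ?_⟩
  · ext y
    simp only [SetLike.mem_coe, LinearMap.mem_ker, Set.mem_ofPred_eq]
    constructor
    · intro h j
      have := congrFun h j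
      simpa [L] using this
    · intro h
      funext j
      simpa [L] using h j
  · have : {y : X | ∀ j, φ j y = 0} = ⋂ j, {y : X | φ j y = 0} := by
      ext y; simp
    rw [this]
    exact isClosed_iInter fun j => isClosed_eq (φ j).continuous continuous_const
  · exact (LinearMap.quotKerEquivRange L).symm.finiteDimensional

namespace EquivNorm

variable {N : X → ℝ}

theorem neg (hN : EquivNorm N) (x : X) : N (-x) = N x := by
  have := hN.2.1 (-1) x
  simpa using this

theorem sub_le (hN : EquivNorm N) (x y : X) : N x - N y ≤ N (x + y) := by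
  have h := hN.1 (x + y) (-y)
  rw [hN.neg] at h
  simp only [add_neg_cancel_right] at h
  linarith

theorem nonneg (hN : EquivNorm N) (x : X) : 0 ≤ N x := by
  obtain ⟨a, b, ha, h⟩ := hN.2.2
  exact le_trans (mul_nonneg ha.le (norm_nonneg x)) (h x).1

end EquivNorm

/-- One step: an AUC estimate at the normalisation of `x` propagates to every `z' ∈ F` which is not
too small compared with `x`. -/
theorem auc_step {N : X → ℝ} (hN : EquivNorm N) {t c : ℝ} (ht : 0 < t) (hc : 0 ≤ c) {F : Set X}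
    (hF : Cof F) {x : X} (hx : 0 < N x)
    (h : ∀ y ∈ F, N y = 1 → c ≤ N ((N x)⁻¹ • x + t • y) - 1) {z' : X} (hz' : z' ∈ F)
    (hz : t * N x ≤ N z') : N x * (1 + c) ≤ N (x + z') := by
  obtain ⟨S, rfl, -, -⟩ := hF
  obtain ⟨ν, hν⟩ : ∃ ν, ν = N x := ⟨_, rfl⟩
  rw [← hν] at hx hz h ⊢
  have hzpos : 0 < N z' := lt_of_lt_of_le (mul_pos ht hx) hz
  obtain ⟨τ, hτ⟩ : ∃ τ, τ = N z' / ν := ⟨_, rfl⟩
  have hτt : t ≤ τ := by rw [hτ, le_div_iff₀ hx]; exact hz
  have hτpos : 0 < τ := lt_of_lt_of_le ht hτt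
  obtain ⟨y, hy⟩ : ∃ y, y = (N z')⁻¹ • z' := ⟨_, rfl⟩
  have hyS : y ∈ (S : Set X) := by rw [hy]; exact S.smul_mem _ hz'
  have hNy : N y = 1 := by
    rw [hy, hN.2.1, abs_of_pos (inv_pos.mpr hzpos), inv_mul_cancel₀ hzpos.ne']
  have h1 := h y hyS hNy
  obtain ⟨xh, hxh⟩ : ∃ xh, xh = ν⁻¹ • x := ⟨_, rfl⟩
  rw [← hxh] at h1
  have hNxh : N xh = 1 := by
    rw [hxh, hN.2.1, abs_of_pos (inv_pos.mpr hx), ← hν, inv_mul_cancel₀ hx.ne']
  have hconv : xh + t • y = (1 - t / τ) • xh + (t / τ) • (xh + τ • y) := by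
    have : (t / τ) * τ = t := div_mul_cancel₀ t hτpos.ne'
    rw [smul_add, smul_smul, this, sub_smul, one_smul]
    abel
  have hr : 0 ≤ t / τ := (div_pos ht hτpos).le
  have hr1 : t / τ ≤ 1 := (div_le_one hτpos).mpr hτt
  have h2 : N (xh + t • y) ≤ (1 - t / τ) + (t / τ) * N (xh + τ • y) := by
    rw [hconv]
    refine (hN.1 _ _).trans ?_
    rw [hN.2.1, hN.2.1, abs_of_nonneg hr, abs_of_nonneg (by linarith), hNxh, mul_one]
  have h3 : 1 + c ≤ N (xh + τ • y) := by
    have h4 : c ≤ (t / τ) * (N (xh + τ • y) - 1) := by nlinarith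
    have h5 : (t / τ) * (N (xh + τ • y) - 1) ≤ N (xh + τ • y) - 1 := by
      have h6 : 0 ≤ N (xh + τ • y) - 1 := by
        by_contra hneg
        push Not at hneg
        have : (t / τ) * (N (xh + τ • y) - 1) ≤ 0 :=
          mul_nonpos_of_nonneg_of_nonpos hr hneg.le
        have hc0 : c ≤ 0 := h4.trans this
        have hc00 : c = 0 := le_antisymm hc0 hc
        have hpos : 0 < t / τ := div_pos ht hτpos
        nlinarith
      nlinarith
    linarith
  have h7 : xh + τ • y = ν⁻¹ • (x + z') := by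
    rw [hxh, hy, hτ, smul_add, smul_smul]
    congr 2
    field_simp
  rw [h7, hN.2.1, abs_of_pos (inv_pos.mpr hx)] at h3
  have := mul_le_mul_of_nonneg_left h3 hx.le
  rwa [← mul_assoc, mul_inv_cancel₀ hx.ne', one_mul] at this

/-- **Bounded trees kill AUC renormings.**  If for every height `n` there are levels
`L 0, …, L n` of vectors of norm at most `C`, starting with a vector of norm at least `θ`, such that
from every vector of level `k < n` one can move to level `k+1` by an increment of norm at least `θ`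
which is as close as we wish to any prescribed closed finite-codimensional subspace, then no
equivalent norm is asymptotically uniformly convex. -/
theorem not_auc_of_levels {C θ : ℝ} (hθ : 0 < θ)
    (h : ∀ n : ℕ, ∃ L : ℕ → Set X, (∃ x ∈ L 0, θ ≤ ‖x‖) ∧ (∀ k, ∀ x ∈ L k, ‖x‖ ≤ C) ∧
      ∀ k < n, ∀ x ∈ L k, ∀ F : Set X, Cof F → ∀ ε : ℝ, 0 < ε →
        ∃ z z' : X, x + z ∈ L (k + 1) ∧ θ ≤ ‖z‖ ∧ z' ∈ F ∧ ‖z - z'‖ < ε)
    (N : X → ℝ) (hN : EquivNorm N) : ¬ AUC N := by
  intro hA
  obtain ⟨a, b, ha, hab⟩ := hN.2.2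
  have hC : θ ≤ C := by
    obtain ⟨L, ⟨x, hx, hxθ⟩, hb, -⟩ := h 0
    exact hxθ.trans (hb 0 x hx)
  have hCpos : 0 < C := lt_of_lt_of_le hθ hC
  have hb : 0 < b := by
    obtain ⟨L, ⟨x, hx, hxθ⟩, -, -⟩ := h 0
    have hxpos : 0 < ‖x‖ := lt_of_lt_of_le hθ hxθ
    have h1 := (hab x).1.trans (hab x).2
    by_contra hneg
    push Not at hneg
    have : b * ‖x‖ ≤ 0 := mul_nonpos_of_nonpos_of_nonneg hneg hxpos.le
    have : 0 < a * ‖x‖ := mul_pos ha hxpos
    linarith
  set t₀ := a * θ / (2 * b * C) with ht₀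
  have ht₀pos : 0 < t₀ := by positivity
  obtain ⟨c, hc, hAc⟩ := hA t₀ ht₀pos
  -- choose the height
  obtain ⟨n, hn⟩ : ∃ n : ℕ, b * C / (a * θ) < (1 + c / 2) ^ n :=
    pow_unbounded_of_one_lt _ (by linarith)
  obtain ⟨L, ⟨x₀, hx₀, hx₀θ⟩, hbd, hstep⟩ := h n
  have key : ∀ k ≤ n, ∃ x ∈ L k, a * θ * (1 + c / 2) ^ k ≤ N x := by
    intro k
    induction k with
    | zero =>
      intro _
      refine ⟨x₀, hx₀, ?_⟩
      have := (hab x₀).1
      have h2 : a * θ ≤ a * ‖x₀‖ := mul_le_mul_of_nonneg_left hx₀θ ha.le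
      simpa using h2.trans this
    | succ k ih =>
      intro hk
      obtain ⟨x, hx, hxN⟩ := ih (by omega)
      have hpow : 1 ≤ (1 + c / 2) ^ k := one_le_pow₀ (by linarith)
      have hν : a * θ ≤ N x := by
        have : a * θ * 1 ≤ a * θ * (1 + c / 2) ^ k :=
          mul_le_mul_of_nonneg_left hpow (by positivity)
        linarith
      have hνpos : 0 < N x := lt_of_lt_of_le (by positivity) hν
      have hNxh : N ((N x)⁻¹ • x) = 1 := by
        rw [hN.2.1, abs_of_pos (inv_pos.mpr hνpos), inv_mul_cancel₀ hνpos.ne']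
      obtain ⟨F, hF, hFy⟩ := hAc _ hNxh
      set ε := min (a * θ / (2 * b)) (N x * c / (2 * b)) with hε
      have hεpos : 0 < ε := by
        apply lt_min <;> positivity
      obtain ⟨z, z', hzL, hzθ, hz'F, hzz'⟩ := hstep k (by omega) x hx F hF ε hεpos
      have hbε1 : b * ε ≤ a * θ / 2 := by
        have : ε ≤ a * θ / (2 * b) := min_le_left _ _
        calc b * ε ≤ b * (a * θ / (2 * b)) := mul_le_mul_of_nonneg_left this hb.le
          _ = a * θ / 2 := by field_simp
      have hbε2 : b * ε ≤ N x * c / 2 := by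
        have : ε ≤ N x * c / (2 * b) := min_le_right _ _
        calc b * ε ≤ b * (N x * c / (2 * b)) := mul_le_mul_of_nonneg_left this hb.le
          _ = N x * c / 2 := by field_simp
      have hNdiff : N (z - z') ≤ b * ε :=
        ((hab _).2).trans (mul_le_mul_of_nonneg_left hzz'.le hb.le)
      have hNz : a * θ ≤ N z := (mul_le_mul_of_nonneg_left hzθ ha.le).trans (hab z).1
      have hNz' : a * θ / 2 ≤ N z' := by
        have h1 := hN.1 z' (z - z')
        have h2 : z' + (z - z') = z := by abel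
        rw [h2] at h1
        linarith
      have hxC : N x ≤ b * C := ((hab x).2).trans (mul_le_mul_of_nonneg_left (hbd k x hx) hb.le)
      have ht : t₀ * N x ≤ N z' := by
        have : t₀ * N x ≤ t₀ * (b * C) := mul_le_mul_of_nonneg_left hxC ht₀pos.le
        have h2 : t₀ * (b * C) = a * θ / 2 := by rw [ht₀]; field_simp
        linarith
      have h3 := auc_step hN ht₀pos hc.le hF hνpos hFy hz'F ht
      have h4 : N (x + z') ≤ N (x + z) + N (z - z') := by
        have h1 := hN.1 (x + z) (-(z - z'))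
        have h2 : x + z + -(z - z') = x + z' := by abel
        rw [h2, hN.neg] at h1
        exact h1
      refine ⟨x + z, hzL, ?_⟩
      have h5 : N x * (1 + c / 2) ≤ N (x + z) := by nlinarith
      calc a * θ * (1 + c / 2) ^ (k + 1) = (a * θ * (1 + c / 2) ^ k) * (1 + c / 2) := by ring
        _ ≤ N x * (1 + c / 2) := mul_le_mul_of_nonneg_right hxN (by linarith)
        _ ≤ N (x + z) := h5
  obtain ⟨x, hx, hxN⟩ := key n le_rfl
  have hxC : N x ≤ b * C := ((hab x).2).trans (mul_le_mul_of_nonneg_left (hbd n x hx) hb.le)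
  have haθ : 0 < a * θ := by positivity
  rw [div_lt_iff₀ haθ] at hn
  nlinarith

/-- **Averaging lemma.**  A bounded sequence all of whose long averages (over arbitrary finite index
sets) are small comes arbitrarily close to every closed finite-codimensional subspace, at
arbitrarily large indices. -/
theorem exists_close_of_averages {z : ℕ → X} {B : ℝ} (hB : ∀ k, ‖z k‖ ≤ B)
    (hav : ∀ δ : ℝ, 0 < δ → ∃ K : ℕ, ∀ A : Finset ℕ, K ≤ A.card →
      ‖∑ k ∈ A, z k‖ ≤ δ * A.card)
    {F : Set X} (hF : Cof F) {ε : ℝ} (hε : 0 < ε) (n₀ : ℕ) :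
    ∃ k, n₀ ≤ k ∧ ∃ z' ∈ F, ‖z k - z'‖ < ε := by
  obtain ⟨S, rfl, hcl, hfd⟩ := hF
  have : IsClosed (S : Set X) := hcl
  have := hfd
  have : ProperSpace (X ⧸ S) := FiniteDimensional.proper ℝ (X ⧸ S)
  by_contra hcon
  push Not at hcon
  -- all quotient norms are at least ε (for k ≥ n₀)
  have hq : ∀ k, n₀ ≤ k → ε ≤ ‖(S.mkQ (z k) : X ⧸ S)‖ := by
    intro k hk
    by_contra hlt
    push Not at hlt
    obtain ⟨m, hm, hmlt⟩ := Submodule.Quotient.norm_mk_lt (S.mkQ (z k))
      (sub_pos.mpr hlt)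
    have hmem : z k - m ∈ S := by
      rw [← Submodule.Quotient.mk_eq_zero, Submodule.Quotient.mk_sub, hm]
      simp
    have := hcon k hk (z k - m) hmem
    have h2 : z k - (z k - m) = m := by abel
    rw [h2] at this
    linarith
  let w : ℕ → X ⧸ S := fun k => S.mkQ (z (n₀ + k))
  have hwB : ∀ k, w k ∈ Metric.closedBall (0 : X ⧸ S) B := by
    intro k
    rw [mem_closedBall_zero_iff]
    exact (Submodule.Quotient.norm_mk_le S (z (n₀ + k))).trans (hB _)
  obtain ⟨ζ, -, φ, hφ, hlim⟩ := tendsto_subseq_of_bounded Metric.isBounded_closedBall hwB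
  have hζ : ε ≤ ‖ζ‖ := by
    have h1 : Filter.Tendsto (fun k => ‖w (φ k)‖) Filter.atTop (nhds ‖ζ‖) := hlim.norm
    exact ge_of_tendsto' h1 fun k => hq _ (Nat.le_add_right _ _)
  obtain ⟨K₀, hK₀⟩ := (Metric.tendsto_atTop.mp hlim) (ε / 2) (by positivity)
  obtain ⟨K, hK⟩ := hav (ε / 4) (by positivity)
  set K' := K + 1 with hK'
  let A : Finset ℕ := (Finset.range K').image fun i => n₀ + φ (K₀ + i)
  have hinj : Function.Injective fun i => n₀ + φ (K₀ + i) := by
    intro i j hij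
    have : φ (K₀ + i) = φ (K₀ + j) := by simpa using hij
    have := hφ.injective this
    omega
  have hcard : A.card = K' := by
    rw [Finset.card_image_of_injective _ hinj, Finset.card_range]
  have hsum : ∑ k ∈ A, z k = ∑ i ∈ Finset.range K', z (n₀ + φ (K₀ + i)) :=
    Finset.sum_image fun i _ j _ hij => hinj hij
  have h1 : ‖∑ k ∈ A, z k‖ ≤ ε / 4 * K' := by
    have := hK A (by rw [hcard]; omega)
    rwa [hcard] at this
  have h2 : ‖(S.mkQ (∑ k ∈ A, z k) : X ⧸ S)‖ ≤ ε / 4 * K' :=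
    (Submodule.Quotient.norm_mk_le S _).trans h1
  have h3 : (S.mkQ (∑ k ∈ A, z k) : X ⧸ S) = ∑ i ∈ Finset.range K', w (φ (K₀ + i)) := by
    rw [hsum, map_sum]
  have h4 : ‖(∑ i ∈ Finset.range K', w (φ (K₀ + i))) - (K' : ℝ) • ζ‖ ≤ K' * (ε / 2) := by
    have : (∑ i ∈ Finset.range K', w (φ (K₀ + i))) - (K' : ℝ) • ζ
        = ∑ i ∈ Finset.range K', (w (φ (K₀ + i)) - ζ) := by
      rw [Finset.sum_sub_distrib, Finset.sum_const, Finset.card_range, Nat.cast_smul_eq_nsmul]
    rw [this]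
    refine (norm_sum_le _ _).trans ?_
    calc ∑ i ∈ Finset.range K', ‖w (φ (K₀ + i)) - ζ‖ ≤ ∑ _i ∈ Finset.range K', ε / 2 := by
          refine Finset.sum_le_sum fun i _ => ?_
          have := hK₀ (K₀ + i) (Nat.le_add_right _ _)
          rw [dist_eq_norm] at this
          exact this.le
      _ = K' * (ε / 2) := by simp
  have h5 : (K' : ℝ) * ε ≤ ‖(K' : ℝ) • ζ‖ := by
    rw [norm_smul, Real.norm_of_nonneg (Nat.cast_nonneg _)]
    exact mul_le_mul_of_nonneg_left hζ (Nat.cast_nonneg _)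
  have h6 : ‖(K' : ℝ) • ζ‖ ≤ ‖∑ i ∈ Finset.range K', w (φ (K₀ + i))‖ + K' * (ε / 2) := by
    have := norm_sub_norm_le ((K' : ℝ) • ζ) (∑ i ∈ Finset.range K', w (φ (K₀ + i)))
    rw [norm_sub_rev] at this
    linarith
  rw [h3] at h2
  have hKpos : (0 : ℝ) < K' := by rw [hK']; positivity
  nlinarith

/-- A closed finite-codimensional subspace is the common kernel of finitely many continuous
functionals. -/
theorem exists_functionals_of_cof {F : Set X} (hF : Cof F) :
    ∃ (m : ℕ) (φ : Fin m → X →L[ℝ] ℝ), F = {y : X | ∀ j, φ j y = 0} := by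
  obtain ⟨S, rfl, hcl, hfd⟩ := hF
  have : IsClosed (S : Set X) := hcl
  have := hfd
  let b := Module.finBasis ℝ (X ⧸ S)
  refine ⟨Module.finrank ℝ (X ⧸ S),
    fun j => (LinearMap.toContinuousLinearMap (b.coord j)).comp S.mkQL, ?_⟩
  ext y
  simp only [SetLike.mem_coe, Set.mem_ofPred_eq, ContinuousLinearMap.comp_apply,
    LinearMap.coe_toContinuousLinearMap']
  constructor
  · intro hy j
    have : S.mkQL y = 0 := by
      show S.mkQ y = 0
      simpa using hy
    rw [this]; simp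
  · intro h
    have h0 : S.mkQ y = 0 := by
      apply b.ext_elem
      intro j
      have := h j
      simpa using this
    simpa using h0

/-- The intersection of two closed finite-codimensional subspaces is one. -/
theorem Cof.inter {F G : Set X} (hF : Cof F) (hG : Cof G) : Cof (F ∩ G) := by
  obtain ⟨m, φ, rfl⟩ := exists_functionals_of_cof hF
  obtain ⟨n, ψ, rfl⟩ := exists_functionals_of_cof hG
  have := cof_of_functionals (Sum.elim φ ψ)
  convert this using 1
  ext y
  simp [Set.mem_inter_iff]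

/-- **Pigeonhole.**  Among the terms of a bounded sequence two (with distinct indices) have a
difference which is almost in a prescribed closed finite-codimensional subspace. -/
theorem exists_pair_close {z : ℕ → X} {B : ℝ} (hB : ∀ k, ‖z k‖ ≤ B)
    {F : Set X} (hF : Cof F) {ε : ℝ} (hε : 0 < ε) :
    ∃ i j, i ≠ j ∧ ∃ z' ∈ F, ‖(z i - z j) - z'‖ < ε := by
  obtain ⟨S, rfl, hcl, hfd⟩ := hF
  have : IsClosed (S : Set X) := hcl
  have := hfd
  have : ProperSpace (X ⧸ S) := FiniteDimensional.proper ℝ (X ⧸ S)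
  let w : ℕ → X ⧸ S := fun k => S.mkQ (z k)
  have hwB : ∀ k, w k ∈ Metric.closedBall (0 : X ⧸ S) B := by
    intro k
    rw [mem_closedBall_zero_iff]
    exact (Submodule.Quotient.norm_mk_le S (z k)).trans (hB _)
  obtain ⟨ζ, -, φ, hφ, hlim⟩ := tendsto_subseq_of_bounded Metric.isBounded_closedBall hwB
  obtain ⟨K₀, hK₀⟩ := (Metric.tendsto_atTop.mp hlim) (ε / 2) (by positivity)
  have h1 := hK₀ K₀ le_rfl
  have h2 := hK₀ (K₀ + 1) (Nat.le_succ _)
  have h3 : ‖w (φ K₀) - w (φ (K₀ + 1))‖ < ε := by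
    rw [← dist_eq_norm]
    calc dist (w (φ K₀)) (w (φ (K₀ + 1))) ≤ dist (w (φ K₀)) ζ + dist ζ (w (φ (K₀ + 1))) :=
          dist_triangle _ _ _
      _ < ε / 2 + ε / 2 := by rw [dist_comm ζ]; exact add_lt_add h1 h2
      _ = ε := by ring
  refine ⟨φ K₀, φ (K₀ + 1), (hφ (Nat.lt_succ_self _)).ne, ?_⟩
  have h4 : w (φ K₀) - w (φ (K₀ + 1)) = S.mkQ (z (φ K₀) - z (φ (K₀ + 1))) := by
    simp [w]
  rw [h4] at h3
  obtain ⟨m, hm, hmlt⟩ := Submodule.Quotient.norm_mk_lt
    (S.mkQ (z (φ K₀) - z (φ (K₀ + 1)))) (sub_pos.mpr h3)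
  have hmem : (z (φ K₀) - z (φ (K₀ + 1))) - m ∈ S := by
    rw [← Submodule.Quotient.mk_eq_zero, Submodule.Quotient.mk_sub, hm]
    simp
  refine ⟨_, hmem, ?_⟩
  have h5 : (z (φ K₀) - z (φ (K₀ + 1))) - ((z (φ K₀) - z (φ (K₀ + 1))) - m) = m := by abel
  rw [h5]
  linarith

end Crest.Agent.R125
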