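import Mathlib
import Crest.Prelude.Def_AsymptoticConvexity
import Crest.Prelude.Def_DaugavetL1
import Crest.Agent.R125_Common

/-!
# Row 125: consequences of the Daugavet property (abstract part of S0167)

Key lemma `daugavet_key`: in a space with the Daugavet property, for every `x` in the unit ball,
every closed finite-codimensional `F` and `ε > 0` there is `z` in the unit ball with
`‖z - x‖ ≥ 1 + ‖x‖ - ε` and `z - x` within `ε` of `F`.  The proof combines the slice lemma with a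
Blackwell-approachability iteration in the (Euclidean) finite-dimensional quotient.
-/

set_option autoImplicit false

namespace Crest.Agent.R125

open Crest.AnalysisR Crest.AnalysisR.L1Subspace

variable {V : Type} [NormedAddCommGroup V] [NormedSpace ℝ V]

/-- slice lemma (normalised form). -/
theorem daugavet_slice (hD : HasDaugavetProperty V) (φ : V →L[ℝ] ℝ) (hφ : ‖φ‖ = 1) (u : V)
    (hu : ‖u‖ = 1) (ε : ℝ) (hε : 0 < ε) :
    ∃ z : V, ‖z‖ ≤ 1 ∧ 1 - ε ≤ φ z ∧ 2 - ε ≤ ‖u + z‖ := by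
  have h1 : ‖ContinuousLinearMap.id ℝ V + φ.smulRight u‖ = 2 := by
    rw [hD φ u, ContinuousLinearMap.norm_smulRight_apply, hφ, hu]; norm_num
  obtain ⟨z₀, hz₀, hlt⟩ := ContinuousLinearMap.exists_lt_apply_of_lt_opNorm
    (ContinuousLinearMap.id ℝ V + φ.smulRight u) (r := 2 - ε / 2) (by rw [h1]; linarith)
  have hval : (ContinuousLinearMap.id ℝ V + φ.smulRight u) z₀ = z₀ + φ z₀ • u := by simp
  rw [hval] at hlt
  -- choose the sign
  obtain ⟨z, hz1, hz2, hz3⟩ : ∃ z : V, ‖z‖ ≤ 1 ∧ 0 ≤ φ z ∧ 2 - ε / 2 < ‖z + φ z • u‖ := by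
    rcases le_total 0 (φ z₀) with h | h
    · exact ⟨z₀, hz₀.le, h, hlt⟩
    · refine ⟨-z₀, by rw [norm_neg]; exact hz₀.le, by rw [map_neg]; linarith, ?_⟩
      have : -z₀ + φ (-z₀) • u = -(z₀ + φ z₀ • u) := by
        rw [map_neg, neg_smul, neg_add]
      rw [this, norm_neg]; exact hlt
  have hφz : φ z ≤ 1 := by
    have := φ.le_opNorm z
    rw [hφ, one_mul, Real.norm_eq_abs] at this
    exact (le_abs_self _).trans (this.trans hz1)
  have h2 : ‖z + φ z • u‖ ≤ 1 + φ z := by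
    calc ‖z + φ z • u‖ ≤ ‖z‖ + ‖φ z • u‖ := norm_add_le _ _
      _ = ‖z‖ + φ z := by rw [norm_smul, hu, mul_one, Real.norm_eq_abs, abs_of_nonneg hz2]
      _ ≤ 1 + φ z := by linarith
  refine ⟨z, hz1, by linarith, ?_⟩
  have h3 : z + φ z • u = (u + z) - (1 - φ z) • u := by
    rw [sub_smul, one_smul]; abel
  have h4 : ‖z + φ z • u‖ ≤ ‖u + z‖ + (1 - φ z) := by
    rw [h3]
    calc ‖(u + z) - (1 - φ z) • u‖ ≤ ‖u + z‖ + ‖(1 - φ z) • u‖ := norm_sub_le _ _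
      _ = ‖u + z‖ + (1 - φ z) := by
        rw [norm_smul, hu, mul_one, Real.norm_eq_abs, abs_of_nonneg (by linarith)]
  linarith

/-- slice lemma, general form. -/
theorem daugavet_slice' [Nontrivial V] (hD : HasDaugavetProperty V) (ψ : V →L[ℝ] ℝ) (u : V)
    (ε : ℝ) (hε : 0 < ε) :
    ∃ z : V, ‖z‖ ≤ 1 ∧ ‖ψ‖ - ε ≤ ψ z ∧ ‖u‖ + 1 - ε ≤ ‖u + z‖ := by
  -- a normalised functional
  obtain ⟨φ, hφ, c, hc, hψ⟩ : ∃ φ : V →L[ℝ] ℝ, ‖φ‖ = 1 ∧ ∃ c : ℝ, 0 ≤ c ∧ ψ = c • φ := by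
    by_cases h : ψ = 0
    · obtain ⟨v, hv⟩ := exists_ne (0 : V)
      obtain ⟨g, hg, -⟩ := exists_dual_vector ℝ v (norm_ne_zero_iff.mpr hv)
      exact ⟨g, hg, 0, le_refl _, by rw [h, zero_smul]⟩
    · have hn : ‖ψ‖ ≠ 0 := norm_ne_zero_iff.mpr h
      refine ⟨‖ψ‖⁻¹ • ψ, ?_, ‖ψ‖, norm_nonneg _, ?_⟩
      · rw [norm_smul, norm_inv, norm_norm, inv_mul_cancel₀ hn]
      · rw [smul_smul, mul_inv_cancel₀ hn, one_smul]
  have hψn : ‖ψ‖ = c := by rw [hψ, norm_smul, hφ, mul_one, Real.norm_eq_abs, abs_of_nonneg hc]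
  -- a normalised vector
  obtain ⟨y₀, hy₀, hu⟩ : ∃ y₀ : V, ‖y₀‖ = 1 ∧ u = ‖u‖ • y₀ := by
    by_cases h : u = 0
    · obtain ⟨v, hv⟩ := exists_ne (0 : V)
      have hn : ‖v‖ ≠ 0 := norm_ne_zero_iff.mpr hv
      refine ⟨‖v‖⁻¹ • v, ?_, by rw [h, norm_zero, zero_smul]⟩
      rw [norm_smul, norm_inv, norm_norm, inv_mul_cancel₀ hn]
    · have hn : ‖u‖ ≠ 0 := norm_ne_zero_iff.mpr h
      refine ⟨‖u‖⁻¹ • u, ?_, ?_⟩
      · rw [norm_smul, norm_inv, norm_norm, inv_mul_cancel₀ hn]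
      · rw [smul_smul, mul_inv_cancel₀ hn, one_smul]
  set a := ‖u‖ with ha
  have ha0 : 0 ≤ a := norm_nonneg _
  set ε' := ε / (a + c + 1) with hε'
  have hden : 0 < a + c + 1 := by linarith
  have hε'0 : 0 < ε' := div_pos hε hden
  obtain ⟨z, hz1, hz2, hz3⟩ := daugavet_slice hD φ hφ y₀ hy₀ ε' hε'0
  have e1 : c * ε' ≤ ε := by
    rw [hε', ← mul_div_assoc, div_le_iff₀ hden]; nlinarith
  have e2 : a * ε' ≤ ε := by
    rw [hε', ← mul_div_assoc, div_le_iff₀ hden]; nlinarith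
  have e3 : ε' ≤ ε := by
    rw [hε', div_le_iff₀ hden]; nlinarith
  refine ⟨z, hz1, ?_, ?_⟩
  · rw [hψn, hψ]
    have hcz : (c • φ) z = c * φ z := rfl
    rw [hcz]
    nlinarith
  · rcases le_total 1 a with h | h
    · -- u + z = a (y₀ + z) - (a - 1) z
      have : a • (y₀ + z) = (u + z) + (a - 1) • z := by
        rw [hu, smul_add, sub_smul, one_smul]
        abel
      have h5 : a * ‖y₀ + z‖ ≤ ‖u + z‖ + (a - 1) * ‖z‖ := by
        have h6 := norm_add_le (u + z) ((a - 1) • z)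
        rw [← this, norm_smul, norm_smul, Real.norm_eq_abs, Real.norm_eq_abs, abs_of_nonneg ha0,
          abs_of_nonneg (by linarith)] at h6
        exact h6
      nlinarith
    · have : y₀ + z = (u + z) + (1 - a) • y₀ := by
        rw [hu, sub_smul, one_smul]
        abel
      have h5 : ‖y₀ + z‖ ≤ ‖u + z‖ + (1 - a) := by
        have h6 := norm_add_le (u + z) ((1 - a) • y₀)
        rw [← this, norm_smul, hy₀, mul_one, Real.norm_eq_abs, abs_of_nonneg (by linarith)] at h6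
        exact h6
      linarith

/-- the Blackwell iteration. -/
theorem daugavet_iter [Nontrivial V] (hD : HasDaugavetProperty V) {n : ℕ}
    (T : V →L[ℝ] EuclideanSpace ℝ (Fin n)) (x : V) (hx : ‖x‖ ≤ 1) (ε : ℝ) (hε : 0 < ε)
    (hε1 : ε ≤ 1) (M : ℝ) (m : ℕ) :
    ∃ s : V, ‖s‖ ≤ m ∧ ‖T s - (m : ℝ) • T x‖ ^ 2 ≤ m * (2 + (2 * ‖T‖) ^ 2) ∧
      ‖M • x‖ + m * (1 - ε) ≤ ‖s - M • x‖ := by
  induction m with
  | zero => exact ⟨0, by simp, by simp, by simp⟩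
  | succ m ih =>
    obtain ⟨s, hs1, hs2, hs3⟩ := ih
    set e := T s - (m : ℝ) • T x with he
    obtain ⟨z, hz1, hz2, hz3⟩ := daugavet_slice' hD ((innerSL ℝ (-e)).comp T) (s - M • x) ε hε
    have hψx : ((innerSL ℝ (-e)).comp T) x ≤ ‖(innerSL ℝ (-e)).comp T‖ := by
      have h1 := ((innerSL ℝ (-e)).comp T).le_opNorm x
      have h2 : ‖(innerSL ℝ (-e)).comp T‖ * ‖x‖ ≤ ‖(innerSL ℝ (-e)).comp T‖ :=
        mul_le_of_le_one_right (norm_nonneg _) hx
      exact (le_abs_self _).trans (h1.trans h2)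
    have hin : inner ℝ e (T z - T x) ≤ ε := by
      have h1 : ((innerSL ℝ (-e)).comp T) x = -inner ℝ e (T x) := by
        simp [innerSL_apply_apply]
      have h2 : ((innerSL ℝ (-e)).comp T) z = -inner ℝ e (T z) := by
        simp [innerSL_apply_apply]
      rw [h1] at hψx
      rw [h2] at hz2
      rw [inner_sub_right]
      linarith
    have hTz : ‖T z - T x‖ ≤ 2 * ‖T‖ := by
      rw [← map_sub]
      have h1 := T.le_opNorm (z - x)
      have h2 : ‖z - x‖ ≤ 2 := (norm_sub_le _ _).trans (by linarith)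
      have h3 : ‖T‖ * ‖z - x‖ ≤ ‖T‖ * 2 := mul_le_mul_of_nonneg_left h2 (norm_nonneg _)
      linarith
    refine ⟨s + z, ?_, ?_, ?_⟩
    · push_cast
      exact (norm_add_le _ _).trans (by linarith)
    · have h1 : T (s + z) - ((m + 1 : ℕ) : ℝ) • T x = e + (T z - T x) := by
        rw [he, map_add]; push_cast; rw [add_smul, one_smul]; abel
      rw [h1, norm_add_sq_real]
      have h2 : ‖T z - T x‖ ^ 2 ≤ (2 * ‖T‖) ^ 2 := pow_le_pow_left₀ (norm_nonneg _) hTz 2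
      push_cast
      nlinarith
    · have h1 : s + z - M • x = (s - M • x) + z := by abel
      rw [h1]
      push_cast
      linarith

theorem daugavet_blackwell [Nontrivial V] (hD : HasDaugavetProperty V) {n : ℕ}
    (T : V →L[ℝ] EuclideanSpace ℝ (Fin n)) (x : V) (hx : ‖x‖ ≤ 1) (ε : ℝ) (hε : 0 < ε) :
    ∃ z : V, ‖z‖ ≤ 1 ∧ ‖T z - T x‖ ≤ ε ∧ 1 + ‖x‖ - ε ≤ ‖z - x‖ := by
  set ε' := min ε 1 with hε'
  have hε'0 : 0 < ε' := lt_min hε one_pos
  have hε'1 : ε' ≤ 1 := min_le_right _ _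
  have hε'ε : ε' ≤ ε := min_le_left _ _
  set K := 2 + (2 * ‖T‖) ^ 2 with hK
  have hK0 : 0 < K := by positivity
  obtain ⟨M, hM⟩ := exists_nat_gt (K / ε ^ 2)
  have hMpos : (0 : ℝ) < M := lt_of_le_of_lt (by positivity) hM
  obtain ⟨s, hs1, hs2, hs3⟩ := daugavet_iter hD T x hx ε' hε'0 hε'1 (M : ℝ) M
  have hMne : (M : ℝ) ≠ 0 := hMpos.ne'
  refine ⟨(M : ℝ)⁻¹ • s, ?_, ?_, ?_⟩
  · rw [norm_smul, norm_inv, Real.norm_eq_abs, abs_of_pos hMpos, inv_mul_le_iff₀ hMpos]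
    linarith
  · have h1 : T ((M : ℝ)⁻¹ • s) - T x = (M : ℝ)⁻¹ • (T s - (M : ℝ) • T x) := by
      rw [map_smul, smul_sub, smul_smul, inv_mul_cancel₀ hMne, one_smul]
    rw [h1, norm_smul, norm_inv, Real.norm_eq_abs, abs_of_pos hMpos, inv_mul_le_iff₀ hMpos]
    have h2 : K < M * ε ^ 2 := by rwa [div_lt_iff₀ (by positivity)] at hM
    have h3 : ‖T s - (M : ℝ) • T x‖ ^ 2 ≤ (M * ε) ^ 2 := by
      calc ‖T s - (M : ℝ) • T x‖ ^ 2 ≤ M * K := hs2
        _ ≤ M * (M * ε ^ 2) := mul_le_mul_of_nonneg_left h2.le hMpos.le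
        _ = (M * ε) ^ 2 := by ring
    exact (abs_le_of_sq_le_sq' h3 (by positivity)).2 |> fun h => h
  · have h1 : (M : ℝ)⁻¹ • s - x = (M : ℝ)⁻¹ • (s - (M : ℝ) • x) := by
      rw [smul_sub, smul_smul, inv_mul_cancel₀ hMne, one_smul]
    rw [h1, norm_smul, norm_inv, Real.norm_eq_abs, abs_of_pos hMpos, le_inv_mul_iff₀ hMpos]
    rw [norm_smul, Real.norm_eq_abs, abs_of_pos hMpos] at hs3
    nlinarith

/-- **Key lemma.** -/
theorem daugavet_key [Nontrivial V] (hD : HasDaugavetProperty V) (x : V) (hx : ‖x‖ ≤ 1)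
    {F : Set V} (hF : Cof F) (ε : ℝ) (hε : 0 < ε) :
    ∃ z : V, ‖z‖ ≤ 1 ∧ 1 + ‖x‖ - ε ≤ ‖z - x‖ ∧ ∃ w ∈ F, ‖(z - x) - w‖ < ε := by
  obtain ⟨S, rfl, hcl, hfd⟩ := hF
  have : IsClosed (S : Set V) := hcl
  have := hfd
  let Φ : (V ⧸ S) ≃L[ℝ] EuclideanSpace ℝ (Fin (Module.finrank ℝ (V ⧸ S))) := toEuclidean
  let T : V →L[ℝ] EuclideanSpace ℝ (Fin (Module.finrank ℝ (V ⧸ S))) :=
    (Φ : (V ⧸ S) →L[ℝ] _).comp S.mkQL
  set C := ‖(Φ.symm : EuclideanSpace ℝ (Fin (Module.finrank ℝ (V ⧸ S))) →L[ℝ] (V ⧸ S))‖ with hC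
  have hC0 : 0 ≤ C := ContinuousLinearMap.opNorm_nonneg _
  set ε₁ := min ε (ε / (2 * (C + 1))) with hε₁
  have hε₁0 : 0 < ε₁ := lt_min hε (by positivity)
  obtain ⟨z, hz1, hz2, hz3⟩ := daugavet_blackwell hD T x hx ε₁ hε₁0
  refine ⟨z, hz1, by linarith [min_le_left ε (ε / (2 * (C + 1)))], ?_⟩
  have h1 : S.mkQ (z - x) = Φ.symm (T z - T x) := by
    rw [← map_sub]
    simp [T]
  have h2 : ‖(S.mkQ (z - x) : V ⧸ S)‖ < ε := by
    rw [h1]
    have h3 := (Φ.symm : EuclideanSpace ℝ (Fin (Module.finrank ℝ (V ⧸ S))) →L[ℝ] (V ⧸ S)).le_opNorm (T z - T x)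
    have h4 : C * ‖T z - T x‖ ≤ C * (ε / (2 * (C + 1))) :=
      mul_le_mul_of_nonneg_left (hz2.trans (min_le_right _ _)) hC0
    have h5 : C * (ε / (2 * (C + 1))) < ε := by
      rw [← mul_div_assoc, div_lt_iff₀ (by positivity)]
      nlinarith
    calc ‖Φ.symm (T z - T x)‖ ≤ C * ‖T z - T x‖ := h3
      _ ≤ C * (ε / (2 * (C + 1))) := h4
      _ < ε := h5
  obtain ⟨m, hm, hmlt⟩ := Submodule.Quotient.norm_mk_lt (S.mkQ (z - x)) (sub_pos.mpr h2)
  have hmem : (z - x) - m ∈ S := by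
    rw [← Submodule.Quotient.mk_eq_zero, Submodule.Quotient.mk_sub, hm]
    simp
  refine ⟨_, hmem, ?_⟩
  have h5 : (z - x) - ((z - x) - m) = m := by abel
  rw [h5]
  linarith

/-- a unit direction in `F` along which the norm of `x + t y` is as small as possible. -/
theorem daugavet_dir [Nontrivial V] (hD : HasDaugavetProperty V) (x : V) (hx : ‖x‖ = 1)
    {F : Set V} (hF : Cof F) (t : ℝ) (ht : 0 < t) (η : ℝ) (hη : 0 < η) :
    ∃ y ∈ F, ‖y‖ = 1 ∧ ‖x + t • y‖ ≤ max 1 (t - 1) + η := by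
  set ε := min (1 / 4) (η / (3 * t)) with hε
  have hε0 : 0 < ε := lt_min (by norm_num) (by positivity)
  have hε4 : ε ≤ 1 / 4 := min_le_left _ _
  have hεη : 3 * t * ε ≤ η := by
    have : ε ≤ η / (3 * t) := min_le_right _ _
    rw [le_div_iff₀ (by positivity)] at this
    linarith
  obtain ⟨z, hz1, hz2, w, hw, hwd⟩ := daugavet_key hD x hx.le hF ε hε0
  obtain ⟨S, rfl, -, -⟩ := hF
  rw [hx] at hz2
  set d := (z - x) - w with hd
  have hwz : w = (z - x) - d := by rw [hd]; abel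
  set r := ‖w‖ with hr
  have hr1 : 2 - 2 * ε ≤ r := by
    have : ‖z - x‖ ≤ ‖w‖ + ‖d‖ := by
      have h := norm_add_le w d
      have e : w + d = z - x := by rw [hd]; abel
      rwa [e] at h
    linarith
  have hr0 : 0 < r := by linarith
  refine ⟨r⁻¹ • w, S.smul_mem _ hw, ?_, ?_⟩
  · rw [norm_smul, norm_inv, Real.norm_eq_abs, abs_of_pos hr0, ← hr, inv_mul_cancel₀ hr0.ne']
  · set q := t * r⁻¹ with hq
    have hq0 : 0 < q := by positivity
    have hqr : q * r = t := by rw [hq, mul_assoc, inv_mul_cancel₀ hr0.ne', mul_one]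
    have e1 : x + t • r⁻¹ • w = (1 - q) • x + q • z - q • d := by
      rw [smul_smul, ← hq, hwz, smul_sub, smul_sub, sub_smul, one_smul]; abel
    have h1 : ‖x + t • r⁻¹ • w‖ ≤ |1 - q| + q + q * ε := by
      rw [e1]
      calc ‖(1 - q) • x + q • z - q • d‖ ≤ ‖(1 - q) • x + q • z‖ + ‖q • d‖ := norm_sub_le _ _
        _ ≤ ‖(1 - q) • x‖ + ‖q • z‖ + ‖q • d‖ := by
          have := norm_add_le ((1 - q) • x) (q • z); linarith
        _ = |1 - q| + q * ‖z‖ + q * ‖d‖ := by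
          rw [norm_smul, norm_smul, norm_smul, hx, mul_one, Real.norm_eq_abs, Real.norm_eq_abs,
            abs_of_pos hq0]
        _ ≤ |1 - q| + q + q * ε := by
          have a1 : q * ‖z‖ ≤ q * 1 := mul_le_mul_of_nonneg_left hz1 hq0.le
          have a2 : q * ‖d‖ ≤ q * ε := mul_le_mul_of_nonneg_left hwd.le hq0.le
          linarith
    have hqt : q ≤ t := by nlinarith
    have hqε : q * ε ≤ t * ε := mul_le_mul_of_nonneg_right hqt hε0.le
    refine h1.trans ?_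
    rcases le_total q 1 with h | h
    · rw [abs_of_nonneg (by linarith)]
      have := le_max_left 1 (t - 1)
      nlinarith
    · rw [abs_of_nonpos (by linarith)]
      have := le_max_right 1 (t - 1)
      have h2 : 2 * q ≤ t * (1 + 2 * ε) := by
        rw [← hqr]
        have : q * 2 ≤ q * (r * (1 + 2 * ε)) := by
          apply mul_le_mul_of_nonneg_left _ hq0.le
          nlinarith
        linarith
      nlinarith

theorem daugavet_oneSidedLE [Nontrivial V] (hD : HasDaugavetProperty V) (t : ℝ) (ht : 0 < t)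
    (x : V) (hx : ‖x‖ = 1) (F : Set V) (hF : Cof F) (η : ℝ) (hη : 0 < η) :
    ∃ y ∈ F, ‖y‖ = 1 ∧ ‖x + t • y‖ - 1 ≤ max 0 (t - 2) + η := by
  obtain ⟨y, hy, hy1, h⟩ := daugavet_dir hD x hx hF t ht η hη
  refine ⟨y, hy, hy1, ?_⟩
  have : max 1 (t - 1) = max 0 (t - 2) + 1 := by
    rw [← max_add_add_right]; congr 1 <;> ring
  linarith

theorem daugavet_midpointLE [Nontrivial V] (hD : HasDaugavetProperty V) (t : ℝ) (ht : 0 < t)
    (x : V) (hx : ‖x‖ = 1) (F : Set V) (hF : Cof F) (η : ℝ) (hη : 0 < η) :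
    ∃ y ∈ F, ‖y‖ = 1 ∧ (‖x + t • y‖ + ‖x - t • y‖) / 2 - 1 ≤ max (t / 2) (t - 1) + η := by
  obtain ⟨y, hy, hy1, h⟩ := daugavet_dir hD x hx hF t ht η hη
  refine ⟨y, hy, hy1, ?_⟩
  have h2 : ‖x - t • y‖ ≤ 1 + t := by
    calc ‖x - t • y‖ ≤ ‖x‖ + ‖t • y‖ := norm_sub_le _ _
      _ = 1 + t := by rw [hx, norm_smul, hy1, mul_one, Real.norm_eq_abs, abs_of_pos ht]
  have h3 : max 1 (t - 1) = 2 * max (t / 2) (t - 1) + 1 - t := by
    rcases le_total t 2 with h | h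
    · rw [max_eq_left (by linarith), max_eq_left (by linarith)]; ring
    · rw [max_eq_right (by linarith), max_eq_right (by linarith)]; ring
  linarith

theorem daugavet_not_auc [Nontrivial V] (hD : HasDaugavetProperty V) (N : V → ℝ)
    (hN : EquivNorm N) : ¬ AUC N := by
  refine not_auc_of_levels (C := 1) (θ := 1 / 2) (by norm_num) (fun n => ?_) N hN
  refine ⟨fun _ => {x : V | ‖x‖ ≤ 1}, ?_, fun k x hx => hx, ?_⟩
  · obtain ⟨v, hv⟩ := exists_ne (0 : V)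
    have hn : ‖v‖ ≠ 0 := norm_ne_zero_iff.mpr hv
    have h1 : ‖(‖v‖⁻¹ • v)‖ = 1 := by
      rw [norm_smul, norm_inv, norm_norm, inv_mul_cancel₀ hn]
    exact ⟨‖v‖⁻¹ • v, h1.le, by rw [h1]; norm_num⟩
  · intro k _ x hx F hF ε hε
    have hx' : ‖x‖ ≤ 1 := hx
    obtain ⟨z, hz1, hz2, w, hw, hwd⟩ := daugavet_key hD x hx' hF (min ε (1 / 2))
      (lt_min hε (by norm_num))
    refine ⟨z - x, w, ?_, ?_, hw, lt_of_lt_of_le hwd (min_le_left _ _)⟩
    · have : x + (z - x) = z := by abel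
      rw [this]; exact hz1
    · have := min_le_right ε (1 / 2)
      have := norm_nonneg x
      linarith

/-- the one-sided lower bound holds in every normed space. -/
theorem oneSidedGE_general (t : ℝ) (ht : 0 < t) (x : V) (hx : ‖x‖ = 1) :
    ∃ F : Set V, Cof F ∧ ∀ y ∈ F, ‖y‖ = 1 → max 0 (t - 2) ≤ ‖x + t • y‖ - 1 := by
  obtain ⟨g, hg, hgx⟩ := exists_dual_vector ℝ x (by rw [hx]; norm_num)
  refine ⟨{y : V | ∀ _ : Unit, g y = 0}, cof_of_functionals (fun _ : Unit => g), ?_⟩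
  intro y hy hy1
  have hgy : g y = 0 := hy ()
  have h1 : 1 ≤ ‖x + t • y‖ := by
    have h2 := g.le_opNorm (x + t • y)
    rw [hg, one_mul, map_add, map_smul, hgy, smul_zero, add_zero, hgx] at h2
    simpa [hx] using h2
  have h3 : t - 1 ≤ ‖x + t • y‖ := by
    have h4 : ‖t • y‖ ≤ ‖x + t • y‖ + ‖x‖ := by
      have := norm_sub_le (x + t • y) x
      simpa using this
    rw [norm_smul, hy1, mul_one, Real.norm_eq_abs, abs_of_pos ht, hx] at h4
    linarith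
  exact max_le (by linarith) (by linarith)

end Crest.Agent.R125
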