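import Crest.Agent.R125_Common
import Crest.Prelude.Def_Diamond
import Crest.Prelude.Def_TreePotentials

/-!
# Row 125 (S0166-S0169): shared definitions / interface (helper file)

* `TP X`, `TPx X`: the "two point property" from which the midpoint moduli and the diamond
  distortion bound follow.
* `Refl X`: typeclass version of reflexivity.
* `TestSys T act`: abstract test system on the countably branching tree.
* `Realization T X`: a normed space generated by coordinate vectors `e v`, normed by the tests.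
* `genSpace T hT`: the closure of the span of the coordinate vectors in `ℓ^∞(tests)`;
  `modelSpace m = genSpace (IsTest m) _` by `rfl`.
-/

set_option autoImplicit false

namespace Crest.Agent.R125

open Crest.AnalysisR Crest.AnalysisR.TreePotential

section basic

variable {X : Type} [NormedAddCommGroup X] [NormedSpace ℝ X]

/-- **Two-point property** (approximate form, at every centre). -/
def TP (X : Type) [NormedAddCommGroup X] [NormedSpace ℝ X] : Prop :=
  ∀ x : X, ∀ δ : ℝ, 0 < δ → ∃ F : Set X, Cof F ∧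
    ∀ y ∈ F, Real.sqrt (‖x‖ ^ 2 + ‖y‖ ^ 2 / 4) - δ ≤ (‖x + y‖ + ‖x - y‖) / 2

/-- **Two-point property** (exact form, at a dense set of centres). -/
def TPx (X : Type) [NormedAddCommGroup X] [NormedSpace ℝ X] : Prop :=
  ∀ x : X, ∀ δ : ℝ, 0 < δ → ∃ x' : X, ‖x - x'‖ < δ ∧ ∃ F : Set X, Cof F ∧
    ∀ y ∈ F, 2 * Real.sqrt (‖x'‖ ^ 2 + ‖y‖ ^ 2 / 4) ≤ ‖x' + y‖ + ‖x' - y‖

/-- typeclass version of `RealBanach.IsReflexive`. -/
def Refl (X : Type) [NormedAddCommGroup X] [NormedSpace ℝ X] : Prop :=
  Function.Surjective (NormedSpace.inclusionInDoubleDual ℝ X)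

theorem isReflexive_mk_iff [CompleteSpace X] :
    (RealBanach.mk X inferInstance inferInstance inferInstance).IsReflexive ↔ Refl X := Iff.rfl

theorem isSepInf_mk_iff [CompleteSpace X] :
    (RealBanach.mk X inferInstance inferInstance inferInstance).IsSeparableInfiniteDim ↔
      (TopologicalSpace.SeparableSpace X ∧ ¬ FiniteDimensional ℝ X) := Iff.rfl

theorem norm_mk [CompleteSpace X] :
    (RealBanach.mk X inferInstance inferInstance inferInstance).norm = fun x : X => ‖x‖ := rfl

theorem midGE_mk_iff [CompleteSpace X] (N : X → ℝ) (t c : ℝ) :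
    (RealBanach.mk X inferInstance inferInstance inferInstance).MidpointModulusGE N t c ↔
    ∀ x : X, N x = 1 → ∀ η : ℝ, 0 < η → ∃ F : Set X, Cof F ∧
      ∀ y ∈ F, N y = 1 → c - η ≤ (N (x + t • y) + N (x - t • y)) / 2 - 1 := Iff.rfl

theorem maxGE_mk_iff [CompleteSpace X] (N : X → ℝ) (t c : ℝ) :
    (RealBanach.mk X inferInstance inferInstance inferInstance).MaxMidpointModulusGE N t c ↔
    ∀ x : X, N x = 1 → ∀ η : ℝ, 0 < η → ∃ F : Set X, Cof F ∧
      ∀ y ∈ F, N y = 1 → c - η ≤ max (N (x + t • y)) (N (x - t • y)) - 1 := Iff.rfl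

theorem midLE_mk_iff [CompleteSpace X] (N : X → ℝ) (t c : ℝ) :
    (RealBanach.mk X inferInstance inferInstance inferInstance).MidpointModulusLE N t c ↔
    ∀ x : X, N x = 1 → ∀ F : Set X, Cof F → ∀ η : ℝ, 0 < η →
      ∃ y ∈ F, N y = 1 ∧ (N (x + t • y) + N (x - t • y)) / 2 - 1 ≤ c + η := Iff.rfl

theorem oneGE_mk_iff [CompleteSpace X] (N : X → ℝ) (t c : ℝ) :
    (RealBanach.mk X inferInstance inferInstance inferInstance).OneSidedModulusGE N t c ↔
    ∀ x : X, N x = 1 → ∀ η : ℝ, 0 < η → ∃ F : Set X, Cof F ∧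
      ∀ y ∈ F, N y = 1 → c - η ≤ N (x + t • y) - 1 := Iff.rfl

theorem oneLE_mk_iff [CompleteSpace X] (N : X → ℝ) (t c : ℝ) :
    (RealBanach.mk X inferInstance inferInstance inferInstance).OneSidedModulusLE N t c ↔
    ∀ x : X, N x = 1 → ∀ F : Set X, Cof F → ∀ η : ℝ, 0 < η →
      ∃ y ∈ F, N y = 1 ∧ N (x + t • y) - 1 ≤ c + η := Iff.rfl

theorem distortion_mk_iff [CompleteSpace X] (k : ℕ) (f : DiamondVertex k → X) (D : ℝ) :
    (RealBanach.mk X inferInstance inferInstance inferInstance).HasDistortionLE k f D ↔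
    ∃ s : ℝ, 0 < s ∧ ∀ u v : DiamondVertex k,
      s * (diamondDist k u v : ℝ) ≤ ‖f u - f v‖ ∧ ‖f u - f v‖ ≤ D * s * (diamondDist k u v : ℝ) :=
  Iff.rfl

end basic

section tree

/-- Abstract test system on the tree `List ℕ` (`act u`: the coordinate `u` is active). -/
structure TestSys (T : (List ℕ → ℝ) → Prop) (act : List ℕ → Prop) : Prop where
  /-- the zero family is a test -/
  zero : T (fun _ => 0)
  /-- potentials of tests are bounded by one -/
  pot : ∀ f, T f → ∀ s, |pathPotential f s| ≤ 1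
  /-- mixing: a family with potentials bounded by one which is dominated by `α |f|` on `S` and by
  `β |g|` off `S`, `α² + β² ≤ 1`, is a test -/
  mix : ∀ (f g h : List ℕ → ℝ) (S : Set (List ℕ)) (α β : ℝ), T f → T g → 0 ≤ α → 0 ≤ β →
      α ^ 2 + β ^ 2 ≤ 1 → (∀ s, |pathPotential h s| ≤ 1) →
      (∀ v ∈ S, |h v| ≤ α * |f v|) → (∀ v ∉ S, |h v| ≤ β * |g v|) → T h
  /-- the delta function at an active vertex is a test -/
  delta : ∀ u, act u → T (Pi.single u 1)
  /-- tests vanish at inactive vertices -/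
  inact : ∀ u, ¬ act u → ∀ f, T f → f u = 0
  /-- sibling square sums are at most one -/
  sib : ∀ f, T f → ∀ (r : List ℕ) (A : Finset ℕ), ∑ n ∈ A, f (n :: r) ^ 2 ≤ 1

/-- A normed space generated by coordinate vectors `e v` and normed by the tests `T`. -/
structure Realization (T : (List ℕ → ℝ) → Prop) (X : Type) [NormedAddCommGroup X]
    [NormedSpace ℝ X] where
  /-- coordinate vectors -/
  e : List ℕ → X
  /-- evaluation at a test -/
  ev : (f : List ℕ → ℝ) → T f → X →L[ℝ] ℝ
  ev_le : ∀ f hf x, ev f hf x ≤ ‖x‖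
  ev_e : ∀ f hf v, ev f hf (e v) = f v
  norming : ∀ x : X, ∀ ε : ℝ, 0 < ε → ∃ f, ∃ hf : T f, ‖x‖ - ε ≤ ev f hf x
  dense : ∀ x : X, ∀ ε : ℝ, 0 < ε → ∃ x' ∈ Submodule.span ℝ (Set.range e), ‖x - x'‖ < ε

/-- the values of a family with potentials bounded by one are bounded by two -/
theorem abs_le_two_of_pot {g : List ℕ → ℝ} (hg : ∀ u, |pathPotential g u| ≤ 1) (s : List ℕ) :
    |g s| ≤ 2 := by
  cases s with
  | nil =>
    have h0 := hg []
    simp only [pathPotential] at h0
    linarith
  | cons a v =>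
    have h1 := hg (a :: v)
    have h2 := hg v
    simp only [pathPotential] at h1
    rw [abs_le] at h1 h2 ⊢
    constructor <;> linarith [h1.1, h1.2, h2.1, h2.2]

/-- generic coordinate vector. -/
noncomputable def gcoord (T : (List ℕ → ℝ) → Prop)
    (hT : ∀ f, T f → ∀ s, |pathPotential f s| ≤ 1) (s : List ℕ) :
    lp (fun _ : {f : List ℕ → ℝ // T f} => ℝ) ⊤ :=
  ⟨fun f => f.1 s, memℓp_infty ⟨2, by
    rintro _ ⟨f, rfl⟩
    simpa [Real.norm_eq_abs] using abs_le_two_of_pot (hT f.1 f.2) s⟩⟩

/-- generic space: closure of the span of the coordinate vectors. -/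
noncomputable def genSpace (T : (List ℕ → ℝ) → Prop)
    (hT : ∀ f, T f → ∀ s, |pathPotential f s| ≤ 1) :
    Submodule ℝ (lp (fun _ : {f : List ℕ → ℝ // T f} => ℝ) ⊤) :=
  (Submodule.span ℝ (Set.range (gcoord T hT))).topologicalClosure

instance (T : (List ℕ → ℝ) → Prop) (hT : ∀ f, T f → ∀ s, |pathPotential f s| ≤ 1) :
    CompleteSpace (genSpace T hT) :=
  (Submodule.isClosed_topologicalClosure _).completeSpace_coe

theorem coordVector_eq (m : PotentialModel) (s : List ℕ) :
    coordVector m s = gcoord (IsTest m) (fun _ hf => hf.1) s := rfl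

theorem modelSpace_eq (m : PotentialModel) :
    modelSpace m = genSpace (IsTest m) (fun _ hf => hf.1) := rfl

theorem modelBanach_eq (m : PotentialModel) :
    modelBanach m = RealBanach.mk (genSpace (IsTest m) (fun _ hf => hf.1))
      inferInstance inferInstance inferInstance := rfl

/-- tests of the height `≤ n` global model (used for the summands of the space of S0166). -/
def HT (n : ℕ) (f : List ℕ → ℝ) : Prop :=
  IsTest .global f ∧ ∀ v : List ℕ, n < v.length → f v = 0

theorem HT.pot {n : ℕ} (f : List ℕ → ℝ) (hf : HT n f) (s : List ℕ) : |pathPotential f s| ≤ 1 :=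
  hf.1.1 s

/-- the `n`-th summand of the space of S0166. -/
abbrev XH (n : ℕ) : Type := genSpace (HT n) (fun f hf => HT.pot f hf)

/-- the space of S0166. -/
abbrev ES : Type := lp (fun n => XH n) 2

end tree

end Crest.Agent.R125
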