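import Crest.Agent.R125_Defs

/-!
# Row 125, WP-C: the two point property forces distortion of the countably branching diamonds
-/

set_option autoImplicit false

namespace Crest.Agent.R125

open Crest.AnalysisR

/-- edge-Lipschitz potentials on the diamond. -/
def EL (k : ℕ) (G : DiamondVertex k → ℝ) : Prop :=
  ∀ e : DiamondEdge k, |G (diamondTgt k e) - G (diamondSrc k e)| ≤ 1

/-- extension of a potential to the next diamond. -/
def extG (k : ℕ) (G : DiamondVertex k → ℝ) : DiamondVertex (k + 1) → ℝ :=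
  fun w => Sum.elim (fun v => 2 * G v)
    (fun p : DiamondEdge k × ℕ => G (diamondSrc k p.1) + G (diamondTgt k p.1)) w

theorem EL.ext {k : ℕ} {G : DiamondVertex k → ℝ} (h : EL k G) : EL (k + 1) (extG k G) := by
  rintro ⟨e, i, b⟩
  have he := h e
  cases b
  · show |(G (diamondSrc k e) + G (diamondTgt k e)) - 2 * G (diamondSrc k e)| ≤ 1
    have : (G (diamondSrc k e) + G (diamondTgt k e)) - 2 * G (diamondSrc k e) =
      G (diamondTgt k e) - G (diamondSrc k e) := by ring
    rwa [this]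
  · show |2 * G (diamondTgt k e) - (G (diamondSrc k e) + G (diamondTgt k e))| ≤ 1
    have : 2 * G (diamondTgt k e) - (G (diamondSrc k e) + G (diamondTgt k e)) =
      G (diamondTgt k e) - G (diamondSrc k e) := by ring
    rwa [this]

/-- top and bottom vertices. -/
def dTop : (k : ℕ) → DiamondVertex k
  | 0 => true
  | k + 1 => Sum.inl (dTop k)

def dBot : (k : ℕ) → DiamondVertex k
  | 0 => false
  | k + 1 => Sum.inl (dBot k)

/-- the height potential. -/
def heightG : (k : ℕ) → DiamondVertex k → ℝ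
  | 0 => fun b : Bool => if b then 1 else 0
  | k + 1 => extG k (heightG k)

theorem EL_height : ∀ k, EL k (heightG k)
  | 0 => by
    intro e
    show |(if true then (1 : ℝ) else 0) - (if false then 1 else 0)| ≤ 1
    simp
  | k + 1 => (EL_height k).ext

theorem height_top_bot : ∀ k, heightG k (dTop k) - heightG k (dBot k) = 2 ^ k
  | 0 => by
    show (if true then (1 : ℝ) else 0) - (if false then 1 else 0) = 2 ^ 0
    simp
  | k + 1 => by
    show 2 * heightG k (dTop k) - 2 * heightG k (dBot k) = 2 ^ (k + 1)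
    rw [← mul_sub, height_top_bot k, pow_succ]; ring

/-- the two-peak potential. -/
noncomputable def peakG (k : ℕ) (e : DiamondEdge k) (i l : ℕ) : DiamondVertex (k + 1) → ℝ :=
  open Classical in
  fun w => Sum.elim (fun _ => 0)
    (fun p : DiamondEdge k × ℕ => if p = (e, i) then 1 else if p = (e, l) then -1 else 0) w

theorem EL_peak (k : ℕ) (e : DiamondEdge k) (i l : ℕ) : EL (k + 1) (peakG k e i l) := by
  classical
  rintro ⟨e', j, b⟩
  cases b
  · show |(if (e', j) = (e, i) then (1 : ℝ) else if (e', j) = (e, l) then -1 else 0) - 0| ≤ 1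
    split_ifs <;> simp
  · show |0 - (if (e', j) = (e, i) then (1 : ℝ) else if (e', j) = (e, l) then -1 else 0)| ≤ 1
    split_ifs <;> simp

theorem peak_diff (k : ℕ) (e : DiamondEdge k) (i l : ℕ) (hil : i ≠ l) :
    peakG k e i l (Sum.inr (e, i)) - peakG k e i l (Sum.inr (e, l)) = 2 := by
  classical
  show (if (e, i) = (e, i) then (1 : ℝ) else if (e, i) = (e, l) then -1 else 0) -
    (if (e, l) = (e, i) then (1 : ℝ) else if (e, l) = (e, l) then -1 else 0) = 2
  have : (e, l) ≠ (e, i) := by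
    intro h
    exact hil (Prod.mk.inj h).2.symm
  simp [this]
  norm_num

section step

variable {X : Type} [NormedAddCommGroup X] [NormedSpace ℝ X]

/-- quantitative step with an error `δ`. -/
theorem TP.step_aux (h : TP X) (a b : X) (z : ℕ → X) (R s : ℝ) (hR : 0 ≤ R) (hs : 0 ≤ s)
    (h1 : ∀ i, ‖z i - a‖ ≤ R) (h2 : ∀ i, ‖b - z i‖ ≤ R)
    (h3 : ∀ i l, i ≠ l → 2 * s ≤ ‖z i - z l‖) (δ : ℝ) (hδ : 0 < δ) (hδ1 : δ ≤ 1) :
    ‖(1 / 2 : ℝ) • (b - a)‖ ^ 2 + s ^ 2 / 4 ≤ R ^ 2 + δ * (4 * R + 4 + s / 2) := by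
  set x := (1 / 2 : ℝ) • (b - a) with hx
  set u : ℕ → X := fun i => z i - (1 / 2 : ℝ) • (a + b) with hu
  have e1 : ∀ i, x + u i = z i - a := by
    intro i
    have : a = (1 / 2 : ℝ) • a + (1 / 2 : ℝ) • a := by rw [← add_smul]; norm_num
    rw [hx, hu]
    simp only [smul_sub, smul_add]
    nth_rewrite 3 [this]
    abel
  have e2 : ∀ i, x - u i = b - z i := by
    intro i
    have : b = (1 / 2 : ℝ) • b + (1 / 2 : ℝ) • b := by rw [← add_smul]; norm_num
    rw [hx, hu]
    simp only [smul_sub, smul_add]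
    nth_rewrite 3 [this]
    abel
  obtain ⟨F, hF, hin⟩ := h x δ hδ
  have hB : ∀ i, ‖u i‖ ≤ R + ‖x‖ := by
    intro i
    have : u i = (x + u i) - x := by abel
    rw [this]
    exact (norm_sub_le _ _).trans (by rw [e1]; linarith [h1 i])
  obtain ⟨i, l, hil, z', hz', hclose⟩ := exists_pair_close hB hF (ε := 2 * δ) (by positivity)
  obtain ⟨S, rfl, -, -⟩ := hF
  set w := (1 / 2 : ℝ) • (u i - u l) with hw
  set w' := (1 / 2 : ℝ) • z' with hw'
  have hw'S : w' ∈ (S : Set X) := S.smul_mem _ hz'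
  have hww : ‖w - w'‖ < δ := by
    rw [hw, hw', ← smul_sub, norm_smul]
    norm_num
    linarith
  have hxw1 : ‖x + w‖ ≤ R := by
    have : x + w = (1 / 2 : ℝ) • ((x + u i) + (x - u l)) := by
      have hxx : x = (1 / 2 : ℝ) • x + (1 / 2 : ℝ) • x := by rw [← add_smul]; norm_num
      rw [hw]
      simp only [smul_sub, smul_add]
      nth_rewrite 1 [hxx]
      abel
    rw [this, norm_smul, e1, e2]
    have := norm_add_le (z i - a) (b - z l)
    norm_num
    linarith [h1 i, h2 l]
  have hxw2 : ‖x - w‖ ≤ R := by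
    have : x - w = (1 / 2 : ℝ) • ((x - u i) + (x + u l)) := by
      have hxx : x = (1 / 2 : ℝ) • x + (1 / 2 : ℝ) • x := by rw [← add_smul]; norm_num
      rw [hw]
      simp only [smul_sub, smul_add]
      nth_rewrite 1 [hxx]
      abel
    rw [this, norm_smul, e1, e2]
    have := norm_add_le (b - z i) (z l - a)
    norm_num
    linarith [h2 i, h1 l]
  have hwn : s ≤ ‖w‖ := by
    have : u i - u l = z i - z l := by simp only [hu]; abel
    rw [hw, this, norm_smul]
    norm_num
    linarith [h3 i l hil]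
  have hw'n : s - δ ≤ ‖w'‖ := by
    have : ‖w‖ ≤ ‖w'‖ + ‖w - w'‖ := by
      have e : w = w' + (w - w') := by abel
      calc ‖w‖ = ‖w' + (w - w')‖ := by rw [← e]
        _ ≤ _ := norm_add_le _ _
    linarith
  have h4 : ‖x + w'‖ ≤ R + δ := by
    have e : x + w' = (x + w) - (w - w') := by abel
    rw [e]
    exact (norm_sub_le _ _).trans (by linarith)
  have h5 : ‖x - w'‖ ≤ R + δ := by
    have e : x - w' = (x - w) + (w - w') := by abel
    rw [e]
    exact (norm_add_le _ _).trans (by linarith)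
  have h6 := hin w' hw'S
  have h7 : Real.sqrt (‖x‖ ^ 2 + ‖w'‖ ^ 2 / 4) ≤ R + 2 * δ := by linarith
  have h8 : ‖x‖ ^ 2 + ‖w'‖ ^ 2 / 4 ≤ (R + 2 * δ) ^ 2 := by
    have := (Real.sqrt_le_left (by positivity)).mp h7
    exact this
  have h9 : s ^ 2 - 2 * s * δ ≤ ‖w'‖ ^ 2 := by
    rcases le_total δ s with hc | hc
    · have : (s - δ) ^ 2 ≤ ‖w'‖ ^ 2 := pow_le_pow_left₀ (by linarith) hw'n 2
      nlinarith
    · have : 0 ≤ ‖w'‖ ^ 2 := by positivity
      nlinarith
  nlinarith

/-- the key step. -/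
theorem TP.step (h : TP X) (a b : X) (z : ℕ → X) (Q s : ℝ) (hs : 0 ≤ s)
    (h1 : ∀ i, ‖z i - a‖ ^ 2 ≤ Q) (h2 : ∀ i, ‖b - z i‖ ^ 2 ≤ Q)
    (h3 : ∀ i l, i ≠ l → 2 * s ≤ ‖z i - z l‖) : ‖b - a‖ ^ 2 ≤ 4 * Q - s ^ 2 := by
  have hQ : 0 ≤ Q := le_trans (by positivity) (h1 0)
  set R := Real.sqrt Q with hR
  have hR0 : 0 ≤ R := Real.sqrt_nonneg _
  have hR2 : R ^ 2 = Q := Real.sq_sqrt hQ
  have h1' : ∀ i, ‖z i - a‖ ≤ R := fun i => Real.le_sqrt_of_sq_le (h1 i)
  have h2' : ∀ i, ‖b - z i‖ ≤ R := fun i => Real.le_sqrt_of_sq_le (h2 i)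
  have key : ‖(1 / 2 : ℝ) • (b - a)‖ ^ 2 + s ^ 2 / 4 ≤ Q := by
    apply le_of_forall_pos_le_add
    intro ε hε
    set C := 4 * R + 4 + s / 2 with hC
    have hC0 : 0 < C := by positivity
    have := h.step_aux a b z R s hR0 hs h1' h2' h3 (min 1 (ε / C)) (lt_min one_pos (by positivity))
      (min_le_left _ _)
    rw [hR2] at this
    have h4 : min 1 (ε / C) * C ≤ ε := by
      have : min 1 (ε / C) ≤ ε / C := min_le_right _ _
      calc min 1 (ε / C) * C ≤ ε / C * C := mul_le_mul_of_nonneg_right this hC0.le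
        _ = ε := by field_simp
    rw [← hC] at this
    linarith
  rw [norm_smul] at key
  norm_num at key
  nlinarith

/-- the inductive claim. -/
theorem TP.claim (h : TP X) : ∀ (k : ℕ) (f : DiamondVertex k → X) (Q s : ℝ), 0 ≤ s →
    (∀ e, ‖f (diamondTgt k e) - f (diamondSrc k e)‖ ^ 2 ≤ Q) →
    (∀ G, EL k G → ∀ u v, s * |G u - G v| ≤ ‖f u - f v‖) →
    ‖f (dTop k) - f (dBot k)‖ ^ 2 ≤ 4 ^ k * (Q - k * s ^ 2 / 4)
  | 0, f, Q, s, _, ha, _ => by
    have := ha ()
    simpa [dTop, dBot, diamondTgt, diamondSrc] using this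
  | k + 1, f, Q, s, hs, ha, hb => by
    have ih := TP.claim h k (fun v => f (Sum.inl v)) (4 * Q - s ^ 2) (2 * s) (by positivity)
      (by
        intro e
        refine h.step (f (Sum.inl (diamondSrc k e))) (f (Sum.inl (diamondTgt k e)))
          (fun i => f (Sum.inr (e, i))) Q s hs (fun i => ha (e, i, false))
          (fun i => ha (e, i, true)) ?_
        intro i l hil
        have := hb (peakG k e i l) (EL_peak k e i l) (Sum.inr (e, i)) (Sum.inr (e, l))
        rw [peak_diff k e i l hil] at this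
        simpa [mul_comm] using this)
      (by
        intro G hG u v
        have := hb (extG k G) hG.ext (Sum.inl u) (Sum.inl v)
        have e : extG k G (Sum.inl u) - extG k G (Sum.inl v) = 2 * (G u - G v) := by
          show 2 * G u - 2 * G v = _
          ring
        rw [e, abs_mul, abs_of_pos (by norm_num : (0 : ℝ) < 2)] at this
        linarith)
    show ‖f (Sum.inl (dTop k)) - f (Sum.inl (dBot k))‖ ^ 2 ≤ _
    refine ih.trans (le_of_eq ?_)
    push_cast
    ring

end step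

section graph

theorem adj_src_mid (k : ℕ) (e : DiamondEdge k) (i : ℕ) :
    (diamondGraph (k + 1)).Adj (Sum.inl (diamondSrc k e)) (Sum.inr (e, i)) :=
  (SimpleGraph.fromRel_adj _ _ _).mpr ⟨Sum.inl_ne_inr, Or.inl ⟨(e, i, false), rfl, rfl⟩⟩

theorem adj_mid_tgt (k : ℕ) (e : DiamondEdge k) (i : ℕ) :
    (diamondGraph (k + 1)).Adj (Sum.inr (e, i)) (Sum.inl (diamondTgt k e)) :=
  (SimpleGraph.fromRel_adj _ _ _).mpr ⟨Sum.inr_ne_inl, Or.inl ⟨(e, i, true), rfl, rfl⟩⟩

theorem reachable_inl (k : ℕ) {u v : DiamondVertex k} (h : (diamondGraph k).Reachable u v) :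
    (diamondGraph (k + 1)).Reachable (Sum.inl u) (Sum.inl v) := by
  obtain ⟨p⟩ := h
  induction p with
  | nil => exact SimpleGraph.Reachable.refl _
  | cons hadj _ ih =>
    refine SimpleGraph.Reachable.trans ?_ ih
    rw [diamondGraph, SimpleGraph.fromRel_adj] at hadj
    obtain ⟨-, ⟨e, rfl, rfl⟩ | ⟨e, rfl, rfl⟩⟩ := hadj
    · exact (adj_src_mid k e 0).reachable.trans (adj_mid_tgt k e 0).reachable
    · exact ((adj_src_mid k e 0).reachable.trans (adj_mid_tgt k e 0).reachable).symm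

theorem diamond_reachable : ∀ (k : ℕ) (u v : DiamondVertex k), (diamondGraph k).Reachable u v
  | 0, u, v => by
    have h : (diamondGraph 0).Adj false true :=
      (SimpleGraph.fromRel_adj _ _ _).mpr ⟨Bool.false_ne_true, Or.inl ⟨(), rfl, rfl⟩⟩
    cases u <;> cases v
    · exact SimpleGraph.Reachable.refl _
    · exact h.reachable
    · exact h.reachable.symm
    · exact SimpleGraph.Reachable.refl _
  | k + 1, u, v => by
    have key : ∀ w : DiamondVertex (k + 1),
        (diamondGraph (k + 1)).Reachable w (Sum.inl (dBot k)) := by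
      rintro (w | ⟨e, i⟩)
      · exact reachable_inl k (diamond_reachable k w (dBot k))
      · exact (adj_src_mid k e i).reachable.symm.trans
          (reachable_inl k (diamond_reachable k _ (dBot k)))
    exact (key u).trans (key v).symm

theorem EL.walk {k : ℕ} {G : DiamondVertex k → ℝ} (h : EL k G) {u v : DiamondVertex k}
    (p : (diamondGraph k).Walk u v) : |G u - G v| ≤ p.length := by
  induction p with
  | nil => simp
  | @cons a b c hadj p ih =>
    have h1 : |G a - G b| ≤ 1 := by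
      rw [diamondGraph, SimpleGraph.fromRel_adj] at hadj
      obtain ⟨-, ⟨e, rfl, rfl⟩ | ⟨e, rfl, rfl⟩⟩ := hadj
      · rw [abs_sub_comm]; exact h e
      · exact h e
    have h2 : |G a - G c| ≤ |G a - G b| + |G b - G c| := abs_sub_le _ _ _
    rw [SimpleGraph.Walk.length_cons]
    push_cast
    linarith

theorem EL.dist {k : ℕ} {G : DiamondVertex k → ℝ} (h : EL k G) (u v : DiamondVertex k) :
    |G u - G v| ≤ (diamondDist k u v : ℝ) := by
  obtain ⟨p, hp⟩ := (diamond_reachable k u v).exists_walk_length_eq_dist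
  rw [diamondDist, ← hp]
  exact h.walk p

theorem dist_edge_le (k : ℕ) (e : DiamondEdge k) :
    diamondDist k (diamondTgt k e) (diamondSrc k e) ≤ 1 := by
  by_cases hne : diamondTgt k e = diamondSrc k e
  · rw [hne, diamondDist, SimpleGraph.dist_self]; exact Nat.zero_le _
  · have : (diamondGraph k).Adj (diamondTgt k e) (diamondSrc k e) := by
      rw [diamondGraph, SimpleGraph.fromRel_adj]
      exact ⟨hne, Or.inr ⟨e, rfl, rfl⟩⟩
    rw [diamondDist, SimpleGraph.dist_eq_one_iff_adj.mpr this]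

end graph

theorem TP.diamond {X : Type} [NormedAddCommGroup X] [NormedSpace ℝ X] [CompleteSpace X]
    (h : TP X) (k : ℕ) (f : DiamondVertex k → X) (D : ℝ)
    (hf : (RealBanach.mk X inferInstance inferInstance inferInstance).HasDistortionLE k f D) :
    1 + (k : ℝ) / 4 ≤ D ^ 2 := by
  rw [distortion_mk_iff] at hf
  obtain ⟨s, hs, hd⟩ := hf
  have ha : ∀ e, ‖f (diamondTgt k e) - f (diamondSrc k e)‖ ^ 2 ≤ (D * s) ^ 2 := by
    intro e
    have h1 := (hd (diamondTgt k e) (diamondSrc k e)).2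
    have h2 := dist_edge_le k e
    have h3 : diamondDist k (diamondTgt k e) (diamondSrc k e) = 0 ∨
        diamondDist k (diamondTgt k e) (diamondSrc k e) = 1 := by omega
    rcases h3 with h3 | h3
    · rw [h3] at h1
      have : ‖f (diamondTgt k e) - f (diamondSrc k e)‖ = 0 :=
        le_antisymm (by simpa using h1) (norm_nonneg _)
      rw [this]; nlinarith [sq_nonneg (D * s)]
    · rw [h3] at h1
      exact pow_le_pow_left₀ (norm_nonneg _) (by simpa using h1) 2
  have hb : ∀ G, EL k G → ∀ u v, s * |G u - G v| ≤ ‖f u - f v‖ := by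
    intro G hG u v
    exact (mul_le_mul_of_nonneg_left (hG.dist u v) hs.le).trans (hd u v).1
  have h1 := h.claim k f ((D * s) ^ 2) s hs.le ha hb
  have h2 := hb (heightG k) (EL_height k) (dTop k) (dBot k)
  rw [height_top_bot, abs_of_pos (by positivity)] at h2
  have h3 : (s * 2 ^ k) ^ 2 ≤ ‖f (dTop k) - f (dBot k)‖ ^ 2 :=
    pow_le_pow_left₀ (by positivity) h2 2
  have h4 : (s * 2 ^ k) ^ 2 = 4 ^ k * s ^ 2 := by
    rw [mul_pow, ← pow_mul, mul_comm k 2, pow_mul]; norm_num; ring
  have h5 : (4 : ℝ) ^ k * s ^ 2 ≤ 4 ^ k * ((D * s) ^ 2 - k * s ^ 2 / 4) := by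
    rw [← h4]; exact h3.trans h1
  have h6 : s ^ 2 ≤ (D * s) ^ 2 - k * s ^ 2 / 4 := le_of_mul_le_mul_left h5 (by positivity)
  have h7 : s ^ 2 * (1 + (k : ℝ) / 4) ≤ s ^ 2 * D ^ 2 := by nlinarith
  exact le_of_mul_le_mul_left h7 (by positivity)

end Crest.Agent.R125
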