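import Crest.Agent.R125_Defs

/-!
# Row 125, WP-H: the generic space `genSpace T hT` is a realization of the test system (helper8)
-/

set_option autoImplicit false

namespace Crest.Agent.R125

open Crest.AnalysisR Crest.AnalysisR.TreePotential

namespace Gen

variable {T : (List ℕ → ℝ) → Prop}

/-- the ambient space. -/
abbrev LL (T : (List ℕ → ℝ) → Prop) := lp (fun _ : {f : List ℕ → ℝ // T f} => ℝ) ⊤

/-- evaluation at a test. -/
noncomputable def evL (φ : {f : List ℕ → ℝ // T f}) : LL T →L[ℝ] ℝ :=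
  LinearMap.mkContinuous
    { toFun := fun y => y φ
      map_add' := fun x y => by simp
      map_smul' := fun c x => by simp } 1
    (by
      intro y
      show ‖y φ‖ ≤ 1 * ‖y‖
      rw [one_mul]
      exact lp.norm_apply_le_norm ENNReal.top_ne_zero y φ)

@[simp] theorem evL_apply (φ : {f : List ℕ → ℝ // T f}) (y : LL T) : evL φ y = y φ := rfl

theorem apply_le_norm (y : LL T) (φ : {f : List ℕ → ℝ // T f}) : y φ ≤ ‖y‖ :=
  (le_abs_self _).trans (by simpa using lp.norm_apply_le_norm ENNReal.top_ne_zero y φ)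

/-- a continuous functional killing all coordinate vectors kills the generic space. -/
theorem clm_zero (hT : ∀ f, T f → ∀ s, |pathPotential f s| ≤ 1) (Λ : LL T →L[ℝ] ℝ)
    (h : ∀ u, Λ (gcoord T hT u) = 0) {y : LL T} (hy : y ∈ genSpace T hT) : Λ y = 0 := by
  have hle : genSpace T hT ≤ LinearMap.ker (Λ : LL T →ₗ[ℝ] ℝ) := by
    apply Submodule.topologicalClosure_minimal
    · rw [Submodule.span_le]
      rintro _ ⟨u, rfl⟩
      exact h u
    · exact Λ.isClosed_ker
  exact hle hy

theorem pot_neg (f : List ℕ → ℝ) (s : List ℕ) :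
    pathPotential (fun u => -f u) s = -pathPotential f s := by
  induction s with
  | nil => rfl
  | cons a v ih => simp only [pathPotential, ih]; ring

theorem test_neg {act : List ℕ → Prop} (hT : TestSys T act) {f : List ℕ → ℝ} (hf : T f) :
    T (fun u => -f u) := by
  refine hT.mix f f (fun u => -f u) Set.univ 1 0 hf hf zero_le_one le_rfl (by norm_num) ?_ ?_ ?_
  · intro s
    rw [pot_neg, abs_neg]
    exact hT.pot f hf s
  · intro v _
    simp
  · intro v hv
    exact absurd (Set.mem_univ v) hv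

theorem apply_neg {act : List ℕ → Prop} (hT : TestSys T act) {y : LL T}
    (hy : y ∈ genSpace T hT.pot) {f : List ℕ → ℝ} (hf : T f) :
    y ⟨fun u => -f u, test_neg hT hf⟩ = -y ⟨f, hf⟩ := by
  have := clm_zero hT.pot (evL ⟨fun u => -f u, test_neg hT hf⟩ + evL ⟨f, hf⟩)
    (fun u => by show -f u + f u = 0; ring) hy
  simp only [add_apply, evL_apply] at this
  linarith

theorem exists_norming {act : List ℕ → Prop} (hT : TestSys T act) {y : LL T}
    (hy : y ∈ genSpace T hT.pot) {ε : ℝ} (hε : 0 < ε) :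
    ∃ φ : {f : List ℕ → ℝ // T f}, ‖y‖ - ε < y φ := by
  have : Nonempty {f : List ℕ → ℝ // T f} := ⟨⟨_, hT.zero⟩⟩
  have h1 : ‖y‖ - ε < ⨆ i, ‖y i‖ := by rw [← lp.norm_eq_ciSup]; linarith
  obtain ⟨φ, hφ⟩ := exists_lt_of_lt_ciSup h1
  rw [Real.norm_eq_abs] at hφ
  rcases abs_cases (y φ) with ⟨h, -⟩ | ⟨h, -⟩
  · exact ⟨φ, by rwa [h] at hφ⟩
  · refine ⟨⟨fun u => -φ.1 u, test_neg hT φ.2⟩, ?_⟩
    rw [apply_neg hT hy φ.2]
    rwa [h] at hφ

/-- coordinate vectors as elements of the generic space -/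
noncomputable def eG (hT : ∀ f, T f → ∀ s, |pathPotential f s| ≤ 1) (v : List ℕ) :
    genSpace T hT :=
  ⟨gcoord T hT v, Submodule.le_topologicalClosure _ (Submodule.subset_span ⟨v, rfl⟩)⟩

theorem dense_aux (hT : ∀ f, T f → ∀ s, |pathPotential f s| ≤ 1) (x : genSpace T hT) (ε : ℝ)
    (hε : 0 < ε) : ∃ x' ∈ Submodule.span ℝ (Set.range (eG hT)), ‖x - x'‖ < ε := by
  have hx : (x : LL T) ∈ closure ((Submodule.span ℝ (Set.range (gcoord T hT)) :
      Submodule ℝ (LL T)) : Set (LL T)) := by
    have h := x.2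
    unfold genSpace at h
    rwa [← SetLike.mem_coe, Submodule.topologicalClosure_coe] at h
  obtain ⟨z, hz, hxz⟩ := Metric.mem_closure_iff.1 hx ε hε
  have hmap : Submodule.map (genSpace T hT).subtype (Submodule.span ℝ (Set.range (eG hT))) =
      Submodule.span ℝ (Set.range (gcoord T hT)) := by
    rw [Submodule.map_span]
    congr 1
    ext w
    constructor
    · rintro ⟨_, ⟨v, rfl⟩, rfl⟩
      exact ⟨v, rfl⟩
    · rintro ⟨v, rfl⟩
      exact ⟨eG hT v, ⟨v, rfl⟩, rfl⟩
  have hz' : z ∈ Submodule.map (genSpace T hT).subtype (Submodule.span ℝ (Set.range (eG hT))) := by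
    rw [hmap]; exact hz
  obtain ⟨x', hx', rfl⟩ := hz'
  refine ⟨x', hx', ?_⟩
  rw [dist_eq_norm] at hxz
  exact hxz

end Gen

open Gen

theorem exists_genRealization {T : (List ℕ → ℝ) → Prop} {act : List ℕ → Prop}
    (hT : TestSys T act) : Nonempty (Realization T (genSpace T hT.pot)) :=
  ⟨{ e := eG hT.pot
     ev := fun f hf => (evL ⟨f, hf⟩).comp (genSpace T hT.pot).subtypeL
     ev_le := fun f hf x => apply_le_norm (x : LL T) ⟨f, hf⟩
     ev_e := fun f hf v => rfl
     norming := by
       intro x ε hε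
       obtain ⟨φ, hφ⟩ := exists_norming hT x.2 hε
       exact ⟨φ.1, φ.2, hφ.le⟩
     dense := dense_aux hT.pot }⟩

theorem separable_genSpace (T : (List ℕ → ℝ) → Prop)
    (hT : ∀ f, T f → ∀ s, |pathPotential f s| ≤ 1) :
    TopologicalSpace.SeparableSpace (genSpace T hT) := by
  have h1 : TopologicalSpace.IsSeparable (Set.range (gcoord T hT)) :=
    (Set.countable_range _).isSeparable
  have h2 : TopologicalSpace.IsSeparable
      ((Submodule.span ℝ (Set.range (gcoord T hT)) : Submodule ℝ (LL T)) : Set (LL T)) := h1.span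
  have h3 : TopologicalSpace.IsSeparable ((genSpace T hT : Submodule ℝ (LL T)) : Set (LL T)) := by
    have := h2.closure
    simpa [genSpace, Submodule.topologicalClosure_coe] using this
  exact h3.separableSpace

end Crest.Agent.R125
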