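import Crest.Agent.R125_Defs

/-!
# Row 125, WP-I: the height `≤ n` global space `XH n` is isomorphic to a Hilbert space
-/

set_option autoImplicit false

namespace Crest.Agent.R125

open Crest.AnalysisR Crest.AnalysisR.TreePotential

/-- vertices of height at most `n` -/
abbrev HV (n : ℕ) : Type := {v : List ℕ // v.length ≤ n}

/-- the Hilbert space `ℓ²(HV n)` -/
abbrev HH (n : ℕ) : Type := lp (fun _ : HV n => ℝ) 2

/-- tests as a type -/
abbrev HTest (n : ℕ) : Type := {f : List ℕ → ℝ // HT n f}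

/-- potentials of families supported on height `≤ n` are sums of at most `n+1` values -/
theorem exists_finset_pot (n : ℕ) (g : List ℕ → ℝ) (hg : ∀ v : List ℕ, n < v.length → g v = 0)
    (s : List ℕ) : ∃ A : Finset (List ℕ), (∀ u ∈ A, u.length ≤ s.length) ∧ A.card ≤ n + 1 ∧
      A.card ≤ s.length + 1 ∧ pathPotential g s = ∑ u ∈ A, g u := by
  induction s with
  | nil => exact ⟨{[]}, by simp, by simp, by simp, by simp [pathPotential]⟩
  | cons a v ih =>
    obtain ⟨A, h1, h2, h3, h4⟩ := ih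
    by_cases hlen : (a :: v).length ≤ n
    · have hnot : (a :: v) ∉ A := by
        intro hmem
        have := h1 _ hmem
        simp at this
      refine ⟨insert (a :: v) A, ?_, ?_, ?_, ?_⟩
      · intro u hu
        rcases Finset.mem_insert.1 hu with rfl | hu
        · exact le_rfl
        · exact (h1 u hu).trans (by simp)
      · rw [Finset.card_insert_of_notMem hnot]
        simp only [List.length_cons] at hlen
        omega
      · rw [Finset.card_insert_of_notMem hnot]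
        simp only [List.length_cons]
        omega
      · rw [Finset.sum_insert hnot, pathPotential, h4]; ring
    · refine ⟨A, fun u hu => (h1 u hu).trans (by simp), h2, h3.trans (by simp), ?_⟩
      rw [pathPotential, h4, hg _ (not_le.1 hlen), add_zero]

theorem abs_pot_le (n : ℕ) (g : List ℕ → ℝ) (hg : ∀ v : List ℕ, n < v.length → g v = 0)
    (c : ℝ) (hc : ∀ A : Finset (List ℕ), ∑ u ∈ A, g u ^ 2 ≤ c) (hc1 : ((n : ℝ) + 1) * c ≤ 1)
    (s : List ℕ) : |pathPotential g s| ≤ 1 := by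
  obtain ⟨A, _, h2, _, h4⟩ := exists_finset_pot n g hg s
  have hcs : (∑ u ∈ A, g u) ^ 2 ≤ (A.card : ℝ) * ∑ u ∈ A, g u ^ 2 := sq_sum_le_card_mul_sum_sq
  have hc0 : 0 ≤ c := by simpa using hc ∅
  have h5 : (pathPotential g s) ^ 2 ≤ 1 := by
    rw [h4]
    calc (∑ u ∈ A, g u) ^ 2 ≤ (A.card : ℝ) * ∑ u ∈ A, g u ^ 2 := hcs
      _ ≤ ((n : ℝ) + 1) * c := by
          have : (A.card : ℝ) ≤ (n : ℝ) + 1 := by exact_mod_cast h2
          exact mul_le_mul this (hc A) (Finset.sum_nonneg fun _ _ => sq_nonneg _) (by positivity)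
      _ ≤ 1 := hc1
  exact abs_le_of_sq_le_sq' (by simpa using h5) (by norm_num) |> fun h => abs_le.2 h

theorem sum_sq_HV_le {n : ℕ} (f : List ℕ → ℝ) (c : ℝ)
    (hf : ∀ A : Finset (List ℕ), ∑ u ∈ A, f u ^ 2 ≤ c) (s : Finset (HV n)) :
    ∑ v ∈ s, ‖f v.1‖ ^ (2 : ENNReal).toReal ≤ c := by
  have h := hf (s.map (Function.Embedding.subtype _))
  rw [Finset.sum_map] at h
  simpa using h

/-- the restriction of a test to `HV n`, as an element of `ℓ²`. -/
noncomputable def hphi {n : ℕ} (f : HTest n) : HH n :=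
  ⟨fun v => f.1 v.1, memℓp_gen' (C := 1) (sum_sq_HV_le f.1 1 f.2.1.2)⟩

@[simp] theorem hphi_apply {n : ℕ} (f : HTest n) (v : HV n) : hphi f v = f.1 v.1 := rfl

theorem norm_hphi_le {n : ℕ} (f : HTest n) : ‖hphi f‖ ≤ 1 := by
  refine lp.norm_le_of_forall_sum_le (by simp) (by norm_num) ?_
  intro s
  simpa using sum_sq_HV_le f.1 1 f.2.1.2 s

/-- the map `J`. -/
noncomputable def hJfun {n : ℕ} (a : HH n) : lp (fun _ : HTest n => ℝ) ⊤ :=
  ⟨fun f => inner ℝ (hphi f) a, memℓp_infty ⟨‖a‖, by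
    rintro _ ⟨f, rfl⟩
    calc ‖inner ℝ (hphi f) a‖ ≤ ‖hphi f‖ * ‖a‖ := norm_inner_le_norm _ _
      _ ≤ 1 * ‖a‖ := by gcongr; exact norm_hphi_le f
      _ = ‖a‖ := one_mul _⟩⟩

@[simp] theorem hJfun_apply {n : ℕ} (a : HH n) (f : HTest n) :
    hJfun a f = inner ℝ (hphi f) a := rfl

theorem norm_hJfun_le {n : ℕ} (a : HH n) : ‖hJfun a‖ ≤ ‖a‖ := by
  refine lp.norm_le_of_forall_le (norm_nonneg _) ?_
  intro f
  calc ‖inner ℝ (hphi f) a‖ ≤ ‖hphi f‖ * ‖a‖ := norm_inner_le_norm _ _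
    _ ≤ 1 * ‖a‖ := by gcongr; exact norm_hphi_le f
    _ = ‖a‖ := one_mul _

noncomputable def hJ (n : ℕ) : HH n →L[ℝ] lp (fun _ : HTest n => ℝ) ⊤ :=
  LinearMap.mkContinuous
    { toFun := hJfun
      map_add' := by
        intro a b; ext f; simp [inner_add_right]
      map_smul' := by
        intro c a; ext f; simp [inner_smul_right] } 1
    (by intro a; simpa using norm_hJfun_le a)

@[simp] theorem hJ_apply {n : ℕ} (a : HH n) (f : HTest n) :
    hJ n a f = inner ℝ (hphi f) a := rfl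


/-- extension by zero of `c • a`. -/
noncomputable def hext {n : ℕ} (a : HH n) (c : ℝ) (u : List ℕ) : ℝ :=
  if h : u.length ≤ n then c * a ⟨u, h⟩ else 0

theorem hext_val {n : ℕ} (a : HH n) (c : ℝ) (v : HV n) : hext a c v.1 = c * a v := by
  unfold hext; rw [dif_pos v.2]

theorem hext_zero {n : ℕ} (a : HH n) (c : ℝ) (u : List ℕ) (hu : n < u.length) :
    hext a c u = 0 := by
  unfold hext; rw [dif_neg (not_le.2 hu)]

theorem sum_hext_sq_le {n : ℕ} (a : HH n) (c : ℝ) (A : Finset (List ℕ)) :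
    ∑ u ∈ A, hext a c u ^ 2 ≤ c ^ 2 * ‖a‖ ^ 2 := by
  have h1 : ∑ u ∈ A, hext a c u ^ 2 = ∑ u ∈ A with u.length ≤ n, hext a c u ^ 2 := by
    rw [Finset.sum_filter]
    refine Finset.sum_congr rfl fun u _ => ?_
    split_ifs with h
    · rfl
    · rw [hext_zero a c u (not_le.1 h)]; simp
  rw [h1, ← Finset.sum_subtype_eq_sum_filter]
  have h2 := lp.sum_rpow_le_norm_rpow (p := 2) (by simp) a (A.subtype fun u => u.length ≤ n)
  simp only [ENNReal.toReal_ofNat, Real.rpow_ofNat, Real.norm_eq_abs, sq_abs] at h2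
  calc ∑ x ∈ A.subtype fun u => u.length ≤ n, hext a c x.1 ^ 2
      = c ^ 2 * ∑ x ∈ A.subtype fun u => u.length ≤ n, a x ^ 2 := by
        rw [Finset.mul_sum]
        refine Finset.sum_congr rfl fun x _ => ?_
        rw [hext_val]; ring
    _ ≤ c ^ 2 * ‖a‖ ^ 2 := by gcongr

theorem hext_HT {n : ℕ} (a : HH n) (c : ℝ) (hc : ((n : ℝ) + 1) * (c ^ 2 * ‖a‖ ^ 2) ≤ 1) :
    HT n (hext a c) := by
  have h0 : 0 ≤ c ^ 2 * ‖a‖ ^ 2 := by positivity
  refine ⟨⟨abs_pot_le n _ (hext_zero a c) _ (sum_hext_sq_le a c) hc, ?_⟩, hext_zero a c⟩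
  intro A
  refine (sum_hext_sq_le a c A).trans ?_
  have : (1 : ℝ) * (c ^ 2 * ‖a‖ ^ 2) ≤ ((n : ℝ) + 1) * (c ^ 2 * ‖a‖ ^ 2) := by
    gcongr
    have : (0 : ℝ) ≤ n := Nat.cast_nonneg n
    linarith
  linarith

theorem hphi_hext {n : ℕ} (a : HH n) (c : ℝ) (h : HT n (hext a c)) :
    hphi ⟨hext a c, h⟩ = c • a := by
  ext v
  simp [hext_val]

theorem norm_le_hJ {n : ℕ} (a : HH n) : ‖a‖ ≤ Real.sqrt ((n : ℝ) + 1) * ‖hJ n a‖ := by
  by_cases ha : a = 0
  · simp [ha]
  have hpos : 0 < ‖a‖ := norm_pos_iff.2 ha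
  have hn : (0 : ℝ) < (n : ℝ) + 1 := by positivity
  have hs : 0 < Real.sqrt ((n : ℝ) + 1) := Real.sqrt_pos.2 hn
  set c : ℝ := (‖a‖ * Real.sqrt ((n : ℝ) + 1))⁻¹ with hc
  have hc2 : ((n : ℝ) + 1) * (c ^ 2 * ‖a‖ ^ 2) ≤ 1 := by
    have : c ^ 2 * ‖a‖ ^ 2 = ((n : ℝ) + 1)⁻¹ := by
      rw [hc, inv_pow, mul_pow, Real.sq_sqrt hn.le]
      field_simp
    rw [this, mul_inv_cancel₀ hn.ne']
  have hT := hext_HT a c hc2
  have h1 := lp.norm_apply_le_norm (p := ⊤) (by simp) (hJ n a) ⟨hext a c, hT⟩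
  rw [hJ_apply, hphi_hext, inner_smul_left, real_inner_self_eq_norm_sq] at h1
  have h2 : c * ‖a‖ ^ 2 = ‖a‖ / Real.sqrt ((n : ℝ) + 1) := by
    rw [hc]; field_simp
  simp only [conj_trivial] at h1
  rw [h2, Real.norm_eq_abs, abs_of_pos (by positivity)] at h1
  rw [div_le_iff₀ hs] at h1
  linarith


theorem hJ_single {n : ℕ} (v : HV n) (c : ℝ) :
    hJ n (lp.single 2 v c) = c • gcoord (HT n) (fun f hf => HT.pot f hf) v.1 := by
  ext f
  rw [hJ_apply, lp.inner_single_right]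
  simp [gcoord]

theorem gcoord_eq_zero {n : ℕ} (u : List ℕ) (hu : n < u.length) :
    gcoord (HT n) (fun f hf => HT.pot f hf) u = 0 := by
  ext f
  simp [gcoord, f.2.2 u hu]

theorem antilipschitz_hJ (n : ℕ) :
    AntilipschitzWith (Real.toNNReal (Real.sqrt ((n : ℝ) + 1))) (hJ n) := by
  refine AddMonoidHomClass.antilipschitz_of_bound (hJ n) ?_
  intro a
  rw [Real.coe_toNNReal _ (Real.sqrt_nonneg _)]
  exact norm_le_hJ a

theorem isClosed_range_hJ (n : ℕ) : IsClosed (Set.range (hJ n)) :=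
  (antilipschitz_hJ n).isClosed_range (hJ n).uniformContinuous

theorem range_hJ (n : ℕ) :
    (hJ n).range = genSpace (HT n) (fun f hf => HT.pot f hf) := by
  apply le_antisymm
  · rintro _ ⟨a, rfl⟩
    have hs := (hJ n).hasSum (lp.hasSum_single (p := 2) (by simp) a)
    refine mem_closure_of_tendsto hs (Filter.Eventually.of_forall fun s => ?_)
    refine Submodule.sum_mem _ fun v _ => ?_
    show hJ n (lp.single 2 v (a v)) ∈ _
    rw [hJ_single]
    exact Submodule.smul_mem _ _ (Submodule.subset_span ⟨v.1, rfl⟩)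
  · refine Submodule.topologicalClosure_minimal _ ?_ (isClosed_range_hJ n)
    rw [Submodule.span_le]
    rintro _ ⟨u, rfl⟩
    by_cases hu : u.length ≤ n
    · exact ⟨lp.single 2 ⟨u, hu⟩ 1, by
        show hJ n (lp.single 2 ⟨u, hu⟩ 1) = _
        rw [hJ_single]; simp⟩
    · rw [gcoord_eq_zero u (not_le.1 hu)]
      exact Submodule.zero_mem _

/-- `XH n` is isomorphic to the Hilbert space `ℓ²(HV n)`. -/
noncomputable def equivXH (n : ℕ) : XH n ≃L[ℝ] HH n :=
  (((hJ n).equivRange (antilipschitz_hJ n).injective (isClosed_range_hJ n)).trans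
    (ContinuousLinearEquiv.ofEq _ _ (range_hJ n))).symm


end Crest.Agent.R125
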