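import Mathlib
import Crest.Prelude.Def_AsymptoticConvexity
import Crest.Prelude.Def_DaugavetL1
import Crest.Agent.R125_Common

/-!
# Row 125: midpoint modulus lower bound in subspaces of `L¹` with measure-compact ball (S0167)
-/

set_option autoImplicit false

namespace Crest.Agent.R125

open MeasureTheory Crest.AnalysisR Crest.AnalysisR.L1Subspace

variable {Ω : Type} [MeasurableSpace Ω] {P : Measure Ω}

/-- absolute continuity of the integral, real form. -/
theorem exists_setIntegral_abs_le {x : Ω → ℝ} (hx : Integrable x P) (η : ℝ) (hη : 0 < η) :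
    ∃ δ : ℝ, 0 < δ ∧ ∀ A : Set Ω, P A < ENNReal.ofReal δ → ∫ z in A, |x z| ∂P ≤ η := by
  have h1 : ∫⁻ z, ‖x z‖ₑ ∂P ≠ ⊤ := hx.2.ne
  obtain ⟨δ, hδ, h⟩ := exists_pos_setLIntegral_lt_of_measure_lt h1
    (ε := ENNReal.ofReal η) (by simpa using hη)
  obtain ⟨δ', hδ'0, hδ'⟩ : ∃ δ' : ℝ, 0 < δ' ∧ ENNReal.ofReal δ' ≤ δ := by
    rcases eq_or_ne δ ⊤ with h | h
    · exact ⟨1, one_pos, by rw [h]; exact le_top⟩
    · refine ⟨δ.toReal, ENNReal.toReal_pos hδ.ne' h, by rw [ENNReal.ofReal_toReal h]⟩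
  refine ⟨δ', hδ'0, fun A hA => ?_⟩
  have h2 := h A (lt_of_lt_of_le hA hδ')
  have h3 : ∫ z in A, |x z| ∂P = (∫⁻ z in A, ‖x z‖ₑ ∂P).toReal := by
    have := integral_norm_eq_lintegral_enorm (μ := P.restrict A) hx.1.restrict
    simpa [Real.norm_eq_abs] using this
  rw [h3]
  have h4 := ENNReal.toReal_mono ENNReal.ofReal_ne_top h2.le
  rwa [ENNReal.toReal_ofReal hη.le] at h4

/-- first estimate. -/
theorem mid_est1 [IsProbabilityMeasure P] {y σ : Ω → ℝ} (hy : Integrable y P) (hσm : Measurable σ)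
    (hσ : ∀ z, |σ z| ≤ 1) {A : Set Ω} (hA : MeasurableSet A) {a : ℝ} (ha : 0 ≤ a)
    (hA' : ∀ z, z ∉ A → |y z| - 2 * a ≤ y z * σ z) (h0 : ∫ z, y z * σ z ∂P = 0) :
    ∫ z in Aᶜ, |y z| ∂P ≤ ∫ z in A, |y z| ∂P + 2 * a := by
  have hyσ : Integrable (fun z => y z * σ z) P :=
    hy.mul_bdd (c := 1) hσm.aestronglyMeasurable (Filter.Eventually.of_forall hσ)
  have h1 := integral_add_compl hA hyσ
  rw [h0] at h1
  have h2 : -∫ z in A, |y z| ∂P ≤ ∫ z in A, y z * σ z ∂P := by
    rw [← integral_neg]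
    apply setIntegral_mono hy.abs.neg.integrableOn hyσ.integrableOn
    intro z
    have : |y z * σ z| ≤ |y z| := by
      rw [abs_mul]; exact mul_le_of_le_one_right (abs_nonneg _) (hσ z)
    simp only [Pi.neg_apply]
    linarith [neg_abs_le (y z * σ z)]
  have h3 : ∫ z in Aᶜ, (|y z| - 2 * a) ∂P ≤ ∫ z in Aᶜ, y z * σ z ∂P := by
    apply setIntegral_mono_on (hy.abs.sub (integrable_const _)).integrableOn hyσ.integrableOn
      hA.compl
    intro z hz
    exact hA' z hz
  have h4 : ∫ z in Aᶜ, (|y z| - 2 * a) ∂P = ∫ z in Aᶜ, |y z| ∂P - 2 * a * P.real Aᶜ := by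
    rw [integral_sub hy.abs.integrableOn (integrable_const _)]
    simp [mul_comm]
  have h5 : P.real Aᶜ ≤ 1 := by
    have := measureReal_le_one (μ := P) (s := Aᶜ)
    exact this
  have h6 : 2 * a * P.real Aᶜ ≤ 2 * a := by nlinarith
  linarith

/-- second estimate. -/
theorem mid_est2 {x y : Ω → ℝ} (hx : Integrable x P) (hy : Integrable y P) {A : Set Ω}
    (hA : MeasurableSet A) {t : ℝ} (ht : 0 < t) :
    2 * ∫ z in Aᶜ, |x z| ∂P + 2 * t * ∫ z in A, |y z| ∂P ≤
      ∫ z, |x z + t * y z| ∂P + ∫ z, |x z - t * y z| ∂P := by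
  have i1 : Integrable (fun z => |x z + t * y z|) P := (hx.add (hy.const_mul t)).abs
  have i2 : Integrable (fun z => |x z - t * y z|) P := (hx.sub (hy.const_mul t)).abs
  have i3 : Integrable (fun z => |x z + t * y z| + |x z - t * y z|) P := i1.add i2
  rw [← integral_add i1 i2, ← integral_add_compl hA i3]
  have h1 : 2 * t * ∫ z in A, |y z| ∂P ≤ ∫ z in A, (|x z + t * y z| + |x z - t * y z|) ∂P := by
    rw [← integral_const_mul]
    apply setIntegral_mono (hy.abs.const_mul _).integrableOn i3.integrableOn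
    intro z
    have e : 2 * t * |y z| = |(x z + t * y z) - (x z - t * y z)| := by
      rw [show (x z + t * y z) - (x z - t * y z) = 2 * t * y z by ring, abs_mul,
        abs_of_pos (by positivity : (0 : ℝ) < 2 * t)]
    show 2 * t * |y z| ≤ |x z + t * y z| + |x z - t * y z|
    rw [e]
    exact abs_sub _ _
  have h2 : 2 * ∫ z in Aᶜ, |x z| ∂P ≤ ∫ z in Aᶜ, (|x z + t * y z| + |x z - t * y z|) ∂P := by
    rw [← integral_const_mul]
    apply setIntegral_mono (hx.abs.const_mul _).integrableOn i3.integrableOn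
    intro z
    have e : 2 * |x z| = |(x z + t * y z) + (x z - t * y z)| := by
      rw [show (x z + t * y z) + (x z - t * y z) = 2 * x z by ring, abs_mul,
        abs_of_pos (by positivity : (0 : ℝ) < 2)]
    show 2 * |x z| ≤ |x z + t * y z| + |x z - t * y z|
    rw [e]
    exact abs_add_le _ _
  linarith

/-- the sign function, written with `if`. -/
noncomputable def sgnFun (g : Ω → ℝ) : Ω → ℝ := fun z => if 0 < g z then 1 else if g z < 0 then -1 else 0

theorem measurable_sgnFun {g : Ω → ℝ} (hg : Measurable g) : Measurable (sgnFun g) := by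
  unfold sgnFun
  exact Measurable.ite (measurableSet_lt measurable_const hg) measurable_const
    (Measurable.ite (measurableSet_lt hg measurable_const) measurable_const measurable_const)

theorem abs_sgnFun_le (g : Ω → ℝ) (z : Ω) : |sgnFun g z| ≤ 1 := by
  unfold sgnFun
  split_ifs <;> simp

theorem sgnFun_key (g : Ω → ℝ) (z : Ω) (v a : ℝ) (h : |v - g z| ≤ a) :
    |v| - 2 * a ≤ v * sgnFun g z := by
  unfold sgnFun
  obtain ⟨h1, h2⟩ := abs_le.mp h
  split_ifs with c1 c2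
  · rcases abs_cases v with ⟨e, _⟩ | ⟨e, _⟩ <;> rw [e] <;> linarith
  · rcases abs_cases v with ⟨e, _⟩ | ⟨e, _⟩ <;> rw [e] <;> linarith
  · have : g z = 0 := le_antisymm (not_lt.mp c1) (not_lt.mp c2)
    rw [this] at h1 h2
    rcases abs_cases v with ⟨e, _⟩ | ⟨e, _⟩ <;> rw [e] <;> linarith

/-- integration against a bounded measurable function, as a continuous functional on `L¹`. -/
noncomputable def mulFunctional (P : Measure Ω) (σ : Ω → ℝ) (hm : Measurable σ)
    (hb : ∀ z, |σ z| ≤ 1) : Lp ℝ 1 P →L[ℝ] ℝ :=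
  LinearMap.mkContinuous
    { toFun := fun f => ∫ z, f z * σ z ∂P
      map_add' := by
        intro f g
        have hf : Integrable (fun z => f z * σ z) P := (L1.integrable_coeFn f).mul_bdd (c := 1)
          hm.aestronglyMeasurable (Filter.Eventually.of_forall hb)
        have hg : Integrable (fun z => g z * σ z) P := (L1.integrable_coeFn g).mul_bdd (c := 1)
          hm.aestronglyMeasurable (Filter.Eventually.of_forall hb)
        rw [← integral_add hf hg]
        apply integral_congr_ae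
        filter_upwards [Lp.coeFn_add f g] with z hz
        rw [hz, Pi.add_apply, add_mul]
      map_smul' := by
        intro c f
        rw [RingHom.id_apply, smul_eq_mul, ← integral_const_mul]
        apply integral_congr_ae
        filter_upwards [Lp.coeFn_smul c f] with z hz
        rw [hz, Pi.smul_apply, smul_eq_mul, mul_assoc] }
    1 (by
      intro f
      rw [one_mul, L1.norm_eq_integral_norm]
      show ‖∫ z, f z * σ z ∂P‖ ≤ _
      refine (norm_integral_le_integral_norm _).trans ?_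
      apply integral_mono_of_nonneg (Filter.Eventually.of_forall fun z => norm_nonneg _)
        (L1.integrable_coeFn f).norm
      refine Filter.Eventually.of_forall fun z => ?_
      show ‖f z * σ z‖ ≤ ‖f z‖
      rw [norm_mul]
      exact mul_le_of_le_one_right (norm_nonneg _) (hb z))

theorem mulFunctional_apply (σ : Ω → ℝ) (hm : Measurable σ) (hb : ∀ z, |σ z| ≤ 1)
    (f : Lp ℝ 1 P) : mulFunctional P σ hm hb f = ∫ z, f z * σ z ∂P := rfl

theorem norm_add_smul_eq (x y : Lp ℝ 1 P) (t : ℝ) :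
    ‖x + t • y‖ = ∫ z, |x z + t * y z| ∂P := by
  rw [L1.norm_eq_integral_norm]
  apply integral_congr_ae
  filter_upwards [Lp.coeFn_add x (t • y), Lp.coeFn_smul t y] with z h1 h2
  rw [h1, Pi.add_apply, h2, Pi.smul_apply, smul_eq_mul, Real.norm_eq_abs]

theorem norm_sub_smul_eq (x y : Lp ℝ 1 P) (t : ℝ) :
    ‖x - t • y‖ = ∫ z, |x z - t * y z| ∂P := by
  rw [L1.norm_eq_integral_norm]
  apply integral_congr_ae
  filter_upwards [Lp.coeFn_sub x (t • y), Lp.coeFn_smul t y] with z h1 h2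
  rw [h1, Pi.sub_apply, h2, Pi.smul_apply, smul_eq_mul, Real.norm_eq_abs]

theorem norm_eq_integral_abs (x : Lp ℝ 1 P) : ‖x‖ = ∫ z, |x z| ∂P := by
  rw [L1.norm_eq_integral_norm]
  rfl

/-- the midpoint lower bound. -/
theorem l1_midpointGE [IsProbabilityMeasure P] (E : Submodule ℝ (Lp ℝ 1 P))
    (htb : UnitBallTotallyBoundedInMeasure P E) (t : ℝ) (ht : 0 < t) (x : E) (hx : ‖x‖ = 1)
    (η : ℝ) (hη : 0 < η) :
    ∃ F : Set E, Cof F ∧ ∀ y ∈ F, ‖y‖ = 1 →
      max (t / 2) (t - 1) - η ≤ (‖x + t • y‖ + ‖x - t • y‖) / 2 - 1 := by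
  obtain ⟨δ, hδ0, hδ⟩ := exists_setIntegral_abs_le (L1.integrable_coeFn (x : Lp ℝ 1 P)) (η / 2)
    (by positivity)
  set ε := min δ (η / (2 * t)) with hε
  have hε0 : 0 < ε := lt_min hδ0 (by positivity)
  obtain ⟨s, hs1, hs2⟩ := htb ε hε0
  let φ : s → E →L[ℝ] ℝ := fun g =>
    (mulFunctional P (sgnFun (g : Lp ℝ 1 P)) (measurable_sgnFun (Lp.stronglyMeasurable _).measurable)
      (abs_sgnFun_le _)).comp E.subtypeL
  refine ⟨{y : E | ∀ g, φ g y = 0}, cof_of_functionals φ, ?_⟩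
  intro y hy hy1
  -- the trivial bound
  have hxL : ‖(x : Lp ℝ 1 P)‖ = 1 := hx
  have hyL : ‖(y : Lp ℝ 1 P)‖ = 1 := hy1
  have hn1 : ‖x + t • y‖ = ‖(x : Lp ℝ 1 P) + t • (y : Lp ℝ 1 P)‖ := rfl
  have hn2 : ‖x - t • y‖ = ‖(x : Lp ℝ 1 P) - t • (y : Lp ℝ 1 P)‖ := rfl
  have triv : t - 1 ≤ (‖x + t • y‖ + ‖x - t • y‖) / 2 - 1 := by
    have h1 : ‖(2 * t) • y‖ ≤ ‖x + t • y‖ + ‖x - t • y‖ := by
      have e : (2 * t) • y = (x + t • y) - (x - t • y) := by
        rw [two_mul, add_smul]; abel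
      rw [e]; exact norm_sub_le _ _
    rw [norm_smul, hy1, mul_one, Real.norm_eq_abs, abs_of_pos (by positivity)] at h1
    linarith
  -- the main bound
  obtain ⟨g, hg, hgd⟩ := hs2 y y.2 hyL.le
  have hne : {a : ℝ | 0 < a ∧ P {z | a < abs (((y : Lp ℝ 1 P) : Ω → ℝ) z - (g : Ω → ℝ) z)} <
      ENNReal.ofReal a}.Nonempty := by
    refine ⟨2, by norm_num, lt_of_le_of_lt prob_le_one ?_⟩
    rw [show (1 : ENNReal) = ENNReal.ofReal 1 by simp]
    exact (ENNReal.ofReal_lt_ofReal_iff (by norm_num)).mpr (by norm_num)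
  obtain ⟨a, ⟨ha0, haP⟩, haε⟩ := exists_lt_of_csInf_lt hne hgd
  set A : Set Ω := {z | a < abs (((y : Lp ℝ 1 P) : Ω → ℝ) z - (g : Ω → ℝ) z)} with hA
  have hAm : MeasurableSet A :=
    measurableSet_lt measurable_const
      (((Lp.stronglyMeasurable _).measurable.sub (Lp.stronglyMeasurable _).measurable).abs)
  have h0 : ∫ z, (y : Lp ℝ 1 P) z * sgnFun g z ∂P = 0 := hy ⟨g, hg⟩
  have e1 := mid_est1 (L1.integrable_coeFn (y : Lp ℝ 1 P))
    (measurable_sgnFun (Lp.stronglyMeasurable g).measurable) (abs_sgnFun_le _) hAm ha0.le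
    (fun z hz => sgnFun_key g z _ a (not_lt.mp hz)) h0
  have e2 := mid_est2 (L1.integrable_coeFn (x : Lp ℝ 1 P)) (L1.integrable_coeFn (y : Lp ℝ 1 P))
    hAm ht
  rw [← norm_add_smul_eq, ← norm_sub_smul_eq, ← hn1, ← hn2] at e2
  have e3 : ∫ z in A, |(x : Lp ℝ 1 P) z| ∂P ≤ η / 2 := by
    apply hδ
    refine lt_of_lt_of_le haP (ENNReal.ofReal_le_ofReal ?_)
    exact haε.le.trans (min_le_left _ _)
  have e4 := integral_add_compl hAm (L1.integrable_coeFn (x : Lp ℝ 1 P)).abs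
  have e5 := integral_add_compl hAm (L1.integrable_coeFn (y : Lp ℝ 1 P)).abs
  rw [← norm_eq_integral_abs, hxL] at e4
  rw [← norm_eq_integral_abs, hyL] at e5
  have e6 : t * a ≤ η / 2 := by
    have : a ≤ η / (2 * t) := haε.le.trans (min_le_right _ _)
    rw [le_div_iff₀ (by positivity)] at this
    linarith
  have main : t / 2 - η ≤ (‖x + t • y‖ + ‖x - t • y‖) / 2 - 1 := by
    have e7 : 1 / 2 - a ≤ ∫ z in A, |(y : Lp ℝ 1 P) z| ∂P := by linarith
    have e8 : t * (1 / 2 - a) ≤ t * ∫ z in A, |(y : Lp ℝ 1 P) z| ∂P :=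
      mul_le_mul_of_nonneg_left e7 ht.le
    nlinarith
  rcases le_total (t / 2) (t - 1) with h | h
  · rw [max_eq_right h]; linarith
  · rw [max_eq_left h]; exact main

end Crest.Agent.R125
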