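import Crest.Agent.R125_Defs

/-!
# Row 125, WP-E: `ℓ²`-sums: two point property, separability, embeddings of the summands
-/

set_option autoImplicit false

namespace Crest.Agent.R125

open Crest.AnalysisR
open scoped ENNReal

variable (Y : ℕ → Type) [∀ n, NormedAddCommGroup (Y n)] [∀ n, NormedSpace ℝ (Y n)]

/-- the isometric embedding of the `n`-th summand -/
theorem exists_lp2_embedding (n : ℕ) : Nonempty (Y n →ₗᵢ[ℝ] lp Y 2) :=
  ⟨{ toLinearMap := lp.lsingle (𝕜 := ℝ) 2 n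
     norm_map' := fun x => lp.norm_single (by norm_num) n x }⟩

theorem separable_lp2 (h : ∀ n, TopologicalSpace.SeparableSpace (Y n)) :
    TopologicalSpace.SeparableSpace (lp Y 2) := by
  rw [← TopologicalSpace.isSeparable_univ_iff]
  have h1 : TopologicalSpace.IsSeparable (⋃ n, Set.range (lp.single (E := Y) 2 n)) :=
    TopologicalSpace.IsSeparable.iUnion fun n =>
      TopologicalSpace.isSeparable_range (lp.isometry_single n).continuous
  have h2 := (h1.span (R := ℝ)).closure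
  refine h2.mono ?_
  intro f _
  have h3 := (lp.hasSum_single (by norm_num : (2 : ℝ≥0∞) ≠ ⊤) f)
  refine mem_closure_of_tendsto h3 (Filter.Eventually.of_forall fun s => ?_)
  refine Submodule.sum_mem _ fun i _ => Submodule.subset_span ?_
  exact Set.mem_iUnion.mpr ⟨i, ⟨f i, rfl⟩⟩

variable {Y}

theorem lp2_hasSum_sq (f : lp Y 2) : HasSum (fun n => ‖f n‖ ^ 2) (‖f‖ ^ 2) := by
  have h := lp.hasSum_norm (p := 2) (by norm_num) f
  simpa using h

theorem lp2_hasSum_sq_real (f : lp (fun _ : ℕ => ℝ) 2) : HasSum (fun n => (f n) ^ 2) (‖f‖ ^ 2) := by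
  have h := lp2_hasSum_sq f
  simpa using h

/-- Minkowski + coordinatewise inequality. -/
theorem lp2_two_point (x y : lp Y 2)
    (h : ∀ n, 2 * Real.sqrt (‖x n‖ ^ 2 + ‖y n‖ ^ 2 / 4) ≤ ‖x n + y n‖ + ‖x n - y n‖) :
    2 * Real.sqrt (‖x‖ ^ 2 + ‖y‖ ^ 2 / 4) ≤ ‖x + y‖ + ‖x - y‖ := by
  have h1 : ‖lp.toNorm (x + y) + lp.toNorm (x - y)‖ ≤ ‖x + y‖ + ‖x - y‖ := by
    have := norm_add_le (lp.toNorm (x + y)) (lp.toNorm (x - y))
    rwa [lp.norm_toNorm, lp.norm_toNorm] at this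
  have h2 := lp2_hasSum_sq_real (lp.toNorm (x + y) + lp.toNorm (x - y))
  have h3 : HasSum (fun n => 4 * ‖x n‖ ^ 2 + ‖y n‖ ^ 2) (4 * ‖x‖ ^ 2 + ‖y‖ ^ 2) :=
    ((lp2_hasSum_sq x).mul_left 4).add (lp2_hasSum_sq y)
  have h4 : 4 * ‖x‖ ^ 2 + ‖y‖ ^ 2 ≤ ‖lp.toNorm (x + y) + lp.toNorm (x - y)‖ ^ 2 := by
    refine hasSum_le (fun n => ?_) h3 h2
    have e : (lp.toNorm (x + y) + lp.toNorm (x - y)) n = ‖x n + y n‖ + ‖x n - y n‖ := rfl
    rw [e]
    have hn := h n
    have h5 : 0 ≤ ‖x n‖ ^ 2 + ‖y n‖ ^ 2 / 4 := by positivity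
    have h6 : (2 * Real.sqrt (‖x n‖ ^ 2 + ‖y n‖ ^ 2 / 4)) ^ 2 = 4 * ‖x n‖ ^ 2 + ‖y n‖ ^ 2 := by
      rw [mul_pow, Real.sq_sqrt h5]; ring
    rw [← h6]
    exact pow_le_pow_left₀ (by positivity) hn 2
  have h7 : 4 * ‖x‖ ^ 2 + ‖y‖ ^ 2 ≤ (‖x + y‖ + ‖x - y‖) ^ 2 :=
    h4.trans (pow_le_pow_left₀ (norm_nonneg _) h1 2)
  have h8 : Real.sqrt (‖x‖ ^ 2 + ‖y‖ ^ 2 / 4) ≤ (‖x + y‖ + ‖x - y‖) / 2 := by
    apply Real.sqrt_le_iff.mpr
    refine ⟨by positivity, ?_⟩
    nlinarith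
  linarith

theorem cof_univ' {X : Type} [NormedAddCommGroup X] [NormedSpace ℝ X] : Cof (Set.univ : Set X) := by
  have := cof_of_functionals (X := X) (ι := Empty) (fun e => e.elim)
  convert this using 1
  ext y
  simp

theorem cof_lp2_coords (Fn : ∀ n, Set (Y n)) (hFn : ∀ n, Cof (Fn n)) (N : ℕ) :
    Cof {y : lp Y 2 | ∀ n < N, y n ∈ Fn n} := by
  induction N with
  | zero =>
    convert cof_univ' (X := lp Y 2) using 1
    ext y
    simp
  | succ N ih =>
    obtain ⟨m, φ, hφ⟩ := exists_functionals_of_cof (hFn N)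
    have h1 : Cof {y : lp Y 2 | y N ∈ Fn N} := by
      have := cof_of_functionals (fun j => (φ j).comp (lp.evalCLM ℝ Y 2 N))
      convert this using 1
      ext y
      rw [Set.mem_ofPred_eq, hφ]
      rfl
    convert ih.inter h1 using 1
    ext y
    simp only [Set.mem_ofPred_eq, Set.mem_inter_iff]
    constructor
    · intro h
      exact ⟨fun n hn => h n (Nat.lt_succ_of_lt hn), h N (Nat.lt_succ_self N)⟩
    · rintro ⟨h2, h3⟩ n hn
      rcases Nat.lt_succ_iff_lt_or_eq.mp hn with h | rfl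
      · exact h2 n h
      · exact h3

theorem lp2_sum_single_apply (c : ∀ n, Y n) (N k : ℕ) :
    (∑ n ∈ Finset.range N, lp.single 2 n (c n) : lp Y 2) k = if k < N then c k else 0 := by
  rw [lp.coeFn_sum, Finset.sum_apply]
  split_ifs with hk
  · rw [Finset.sum_eq_single k]
    · exact lp.single_apply_self 2 k (c k)
    · intro n _ hn
      exact lp.single_apply_ne 2 n (c n) (Ne.symm hn)
    · intro hk'
      exact absurd (Finset.mem_range.mpr hk) hk'
  · apply Finset.sum_eq_zero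
    intro n hn
    have : k ≠ n := by
      rintro rfl
      exact hk (Finset.mem_range.mp hn)
    exact lp.single_apply_ne 2 n (c n) this

theorem tpx_lp2 (Y : ℕ → Type) [∀ n, NormedAddCommGroup (Y n)] [∀ n, NormedSpace ℝ (Y n)]
    (h : ∀ n, TPx (Y n)) : TPx (lp Y 2) := by
  intro x δ hδ
  have ht := (lp.hasSum_single (by norm_num : (2 : ℝ≥0∞) ≠ ⊤) x).tendsto_sum_nat
  obtain ⟨N, hN⟩ := (Metric.tendsto_atTop.mp ht) (δ / 2) (by positivity)
  have hN' := hN N le_rfl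
  have hδN : 0 < δ / (2 * ((N : ℝ) + 1)) := by positivity
  choose c hc Fn hFn hineq using fun n => h n (x n) (δ / (2 * ((N : ℝ) + 1))) hδN
  refine ⟨∑ n ∈ Finset.range N, lp.single 2 n (c n), ?_, {y : lp Y 2 | ∀ n < N, y n ∈ Fn n},
    cof_lp2_coords Fn hFn N, ?_⟩
  · have h1 : ‖(∑ n ∈ Finset.range N, lp.single 2 n (x n) : lp Y 2) -
        ∑ n ∈ Finset.range N, lp.single 2 n (c n)‖ ≤ δ / 2 := by
      rw [← Finset.sum_sub_distrib]
      calc ‖∑ n ∈ Finset.range N, (lp.single 2 n (x n) - lp.single 2 n (c n) : lp Y 2)‖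
          ≤ ∑ n ∈ Finset.range N, ‖(lp.single 2 n (x n) - lp.single 2 n (c n) : lp Y 2)‖ :=
            norm_sum_le _ _
        _ ≤ ∑ n ∈ Finset.range N, δ / (2 * ((N : ℝ) + 1)) := by
            apply Finset.sum_le_sum
            intro n _
            rw [← lp.single_sub, lp.norm_single (by norm_num)]
            exact (hc n).le
        _ = N * (δ / (2 * ((N : ℝ) + 1))) := by simp
        _ ≤ δ / 2 := by
            rw [← mul_div_assoc, div_le_div_iff₀ (by positivity) (by norm_num)]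
            nlinarith
    rw [dist_comm, dist_eq_norm] at hN'
    calc ‖x - ∑ n ∈ Finset.range N, lp.single 2 n (c n)‖
        = ‖(x - ∑ n ∈ Finset.range N, lp.single 2 n (x n)) +
            ((∑ n ∈ Finset.range N, lp.single 2 n (x n) : lp Y 2) -
              ∑ n ∈ Finset.range N, lp.single 2 n (c n))‖ := by congr 1; abel
      _ ≤ ‖x - ∑ n ∈ Finset.range N, lp.single 2 n (x n)‖ + _ := norm_add_le _ _
      _ < δ / 2 + δ / 2 := add_lt_add_of_lt_of_le hN' h1
      _ = δ := by ring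
  · intro y hy
    apply lp2_two_point
    intro k
    rw [lp2_sum_single_apply]
    split_ifs with hk
    · exact hineq k (y k) (hy k hk)
    · have e : Real.sqrt (‖(0 : Y k)‖ ^ 2 + ‖y k‖ ^ 2 / 4) = ‖y k‖ / 2 := by
        rw [norm_zero, show (0 : ℝ) ^ 2 + ‖y k‖ ^ 2 / 4 = (‖y k‖ / 2) ^ 2 by ring,
          Real.sqrt_sq (by positivity)]
      rw [e, zero_add, zero_sub, norm_neg]
      have := norm_nonneg (y k)
      linarith

end Crest.Agent.R125
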