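import Crest.Agent.R125_Defs

/-!
# Row 125, WP-F1: the combinatorial mixing lemma (helper1)
-/

set_option autoImplicit false

namespace Crest.Agent.R125

open Crest.AnalysisR Crest.AnalysisR.TreePotential

/-- increments of a potential. -/
def incr (Q : List ℕ → ℝ) : List ℕ → ℝ
  | [] => Q []
  | a :: v => Q (a :: v) - Q v

theorem pathPotential_incr (Q : List ℕ → ℝ) (s : List ℕ) : pathPotential (incr Q) s = Q s := by
  induction s with
  | nil => rfl
  | cons a v ih => simp only [pathPotential, ih, incr]; ring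

open Classical in
/-- value of the potential `P` at the last ancestor in `S`. -/
noncomputable def baseOf (S : Set (List ℕ)) (P : List ℕ → ℝ) : List ℕ → ℝ
  | [] => P []
  | a :: v => if a :: v ∈ S then P (a :: v) else baseOf S P v

theorem baseOf_abs_le (S : Set (List ℕ)) (P : List ℕ → ℝ) (hP : ∀ s, |P s| ≤ 1) (s : List ℕ) :
    |baseOf S P s| ≤ 1 := by
  induction s with
  | nil => exact hP []
  | cons a v ih =>
    simp only [baseOf]
    split_ifs
    · exact hP _
    · exact ih

theorem baseOf_mem (S : Set (List ℕ)) (P : List ℕ → ℝ) (s : List ℕ) (hs : s ∈ S) :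
    baseOf S P s = P s := by
  cases s with
  | nil => rfl
  | cons a v => simp only [baseOf, if_pos hs]

theorem baseOf_not_mem (S : Set (List ℕ)) (P : List ℕ → ℝ) (a : ℕ) (v : List ℕ)
    (hs : a :: v ∉ S) : baseOf S P (a :: v) = baseOf S P v := by
  simp only [baseOf, if_neg hs]

theorem abs_min_zero_sub (a b : ℝ) : |min a 0 - min b 0| ≤ |a - b| := by
  have := abs_min_sub_min_le_max a 0 b 0
  simpa using this

theorem abs_max_zero_sub (a b : ℝ) : |max a 0 - max b 0| ≤ |a - b| := by
  have := abs_max_sub_max_le_max a 0 b 0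
  simpa using this

/-- combinatorial mixing lemma -/
theorem exists_mix (f g : List ℕ → ℝ) (hf : ∀ s, |pathPotential f s| ≤ 1)
    (hg : ∀ s, |pathPotential g s| ≤ 1) (S : Set (List ℕ)) (h0 : [] ∈ S)
    (hS : ∀ (a : ℕ) (v : List ℕ), a :: v ∈ S → v ∈ S) (α β : ℝ) (hα : 0 ≤ α) (hα1 : α ≤ 1)
    (hβ : 0 ≤ β) (hβ1 : 2 * β ≤ 1) :
    ∃ hp hm : List ℕ → ℝ, (∀ s, |pathPotential hp s| ≤ 1) ∧ (∀ s, |pathPotential hm s| ≤ 1) ∧
      (∀ v ∈ S, hp v = α * f v ∧ hm v = α * f v) ∧
      (∀ v ∉ S, |hp v| ≤ β * |g v| ∧ |hm v| ≤ β * |g v| ∧ hp v - hm v = β * g v) := by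
  classical
  set b : List ℕ → ℝ := baseOf S (pathPotential f) with hb
  set Δ : List ℕ → ℝ := fun v => pathPotential g v - baseOf S (pathPotential g) v with hΔ
  set Qp : List ℕ → ℝ := fun v => α * b v + β * (if 0 ≤ b v then min (Δ v) 0 else max (Δ v) 0)
    with hQp
  set Qm : List ℕ → ℝ := fun v => α * b v - β * (if 0 ≤ b v then max (Δ v) 0 else min (Δ v) 0)
    with hQm
  have hb1 : ∀ v, |b v| ≤ 1 := baseOf_abs_le S _ hf
  have hΔ2 : ∀ v, |Δ v| ≤ 2 := by
    intro v
    have h1 := abs_le.mp (hg v)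
    have h2 := abs_le.mp (baseOf_abs_le S _ hg v)
    rw [abs_le]
    constructor <;> simp only [hΔ] <;> linarith [h1.1, h1.2, h2.1, h2.2]
  have hΔS : ∀ v ∈ S, Δ v = 0 := by
    intro v hv
    simp only [hΔ, baseOf_mem S _ v hv, sub_self]
  have hbS : ∀ v ∈ S, b v = pathPotential f v := fun v hv => baseOf_mem S _ v hv
  have hmin : ∀ v, -1 ≤ β * min (Δ v) 0 ∧ β * min (Δ v) 0 ≤ 0 := by
    intro v
    have h1 := abs_le.mp (hΔ2 v)
    have h2 : -2 ≤ min (Δ v) 0 := le_min h1.1 (by norm_num)
    have h3 : min (Δ v) 0 ≤ 0 := min_le_right _ _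
    constructor <;> nlinarith
  have hmax : ∀ v, 0 ≤ β * max (Δ v) 0 ∧ β * max (Δ v) 0 ≤ 1 := by
    intro v
    have h1 := abs_le.mp (hΔ2 v)
    have h2 : max (Δ v) 0 ≤ 2 := max_le h1.2 (by norm_num)
    have h3 : 0 ≤ max (Δ v) 0 := le_max_right _ _
    constructor <;> nlinarith
  have hαb : ∀ v, 0 ≤ b v → 0 ≤ α * b v ∧ α * b v ≤ 1 := by
    intro v hv
    have h1 := abs_le.mp (hb1 v)
    constructor <;> nlinarith [h1.2]
  have hαb' : ∀ v, b v < 0 → -1 ≤ α * b v ∧ α * b v ≤ 0 := by
    intro v hv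
    have h1 := abs_le.mp (hb1 v)
    constructor <;> nlinarith [h1.1]
  have hQp1 : ∀ v, |Qp v| ≤ 1 := by
    intro v
    simp only [hQp]
    rw [abs_le]
    split_ifs with h
    · constructor <;> linarith [(hαb v h).1, (hαb v h).2, (hmin v).1, (hmin v).2]
    · push Not at h
      constructor <;> linarith [(hαb' v h).1, (hαb' v h).2, (hmax v).1, (hmax v).2]
  have hQm1 : ∀ v, |Qm v| ≤ 1 := by
    intro v
    simp only [hQm]
    rw [abs_le]
    split_ifs with h
    · constructor <;> linarith [(hαb v h).1, (hαb v h).2, (hmax v).1, (hmax v).2]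
    · push Not at h
      constructor <;> linarith [(hαb' v h).1, (hαb' v h).2, (hmin v).1, (hmin v).2]
  have hQpS : ∀ v ∈ S, Qp v = α * pathPotential f v := by
    intro v hv
    simp only [hQp, hΔS v hv, hbS v hv]
    simp
  have hQmS : ∀ v ∈ S, Qm v = α * pathPotential f v := by
    intro v hv
    simp only [hQm, hΔS v hv, hbS v hv]
    simp
  refine ⟨incr Qp, incr Qm, fun s => by rw [pathPotential_incr]; exact hQp1 s,
    fun s => by rw [pathPotential_incr]; exact hQm1 s, ?_, ?_⟩
  · intro v hv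
    cases v with
    | nil =>
      simp only [incr, hQpS [] hv, hQmS [] hv, pathPotential, and_self]
    | cons a w =>
      have hw := hS a w hv
      simp only [incr, hQpS _ hv, hQmS _ hv, hQpS _ hw, hQmS _ hw, pathPotential]
      constructor <;> ring
  · intro v hv
    cases v with
    | nil => exact absurd h0 hv
    | cons a w =>
      have hbv : b (a :: w) = b w := baseOf_not_mem S _ a w hv
      have hΔv : Δ (a :: w) = Δ w + g (a :: w) := by
        simp only [hΔ, baseOf_not_mem S _ a w hv, pathPotential]; ring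
      have hd : Δ (a :: w) - Δ w = g (a :: w) := by rw [hΔv]; ring
      have e1 := abs_min_zero_sub (Δ (a :: w)) (Δ w)
      have e2 := abs_max_zero_sub (Δ (a :: w)) (Δ w)
      rw [hd] at e1 e2
      have mm : ∀ z : ℝ, min z 0 + max z 0 = z := fun z => by
        rw [min_add_max]; ring
      simp only [incr, hQp, hQm, hbv]
      split_ifs with h
      · refine ⟨?_, ?_, ?_⟩
        · have : α * b w + β * min (Δ (a :: w)) 0 - (α * b w + β * min (Δ w) 0) =
              β * (min (Δ (a :: w)) 0 - min (Δ w) 0) := by ring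
          rw [this, abs_mul, abs_of_nonneg hβ]
          exact mul_le_mul_of_nonneg_left e1 hβ
        · have : α * b w - β * max (Δ (a :: w)) 0 - (α * b w - β * max (Δ w) 0) =
              -(β * (max (Δ (a :: w)) 0 - max (Δ w) 0)) := by ring
          rw [this, abs_neg, abs_mul, abs_of_nonneg hβ]
          exact mul_le_mul_of_nonneg_left e2 hβ
        · have h1 := mm (Δ (a :: w))
          have h2 := mm (Δ w)
          have : α * b w + β * min (Δ (a :: w)) 0 - (α * b w + β * min (Δ w) 0) -
              (α * b w - β * max (Δ (a :: w)) 0 - (α * b w - β * max (Δ w) 0)) =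
              β * ((min (Δ (a :: w)) 0 + max (Δ (a :: w)) 0) - (min (Δ w) 0 + max (Δ w) 0)) := by
            ring
          rw [this, h1, h2, hd]
      · refine ⟨?_, ?_, ?_⟩
        · have : α * b w + β * max (Δ (a :: w)) 0 - (α * b w + β * max (Δ w) 0) =
              β * (max (Δ (a :: w)) 0 - max (Δ w) 0) := by ring
          rw [this, abs_mul, abs_of_nonneg hβ]
          exact mul_le_mul_of_nonneg_left e2 hβ
        · have : α * b w - β * min (Δ (a :: w)) 0 - (α * b w - β * min (Δ w) 0) =
              -(β * (min (Δ (a :: w)) 0 - min (Δ w) 0)) := by ring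
          rw [this, abs_neg, abs_mul, abs_of_nonneg hβ]
          exact mul_le_mul_of_nonneg_left e1 hβ
        · have h1 := mm (Δ (a :: w))
          have h2 := mm (Δ w)
          have : α * b w + β * max (Δ (a :: w)) 0 - (α * b w + β * max (Δ w) 0) -
              (α * b w - β * min (Δ (a :: w)) 0 - (α * b w - β * min (Δ w) 0)) =
              β * ((min (Δ (a :: w)) 0 + max (Δ (a :: w)) 0) - (min (Δ w) 0 + max (Δ w) 0)) := by
            ring
          rw [this, h1, h2, hd]

end Crest.Agent.R125
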