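import Crest.Agent.R125_Defs

/-!
# Row 125, WP-M: the concrete test systems (helper8)
-/

set_option autoImplicit false

namespace Crest.Agent.R125

open Crest.AnalysisR Crest.AnalysisR.TreePotential

namespace Models

theorem pot_zero (s : List ℕ) : pathPotential (fun _ => (0 : ℝ)) s = 0 := by
  induction s with
  | nil => rfl
  | cons a v ih => simp [pathPotential, ih]

theorem pot_single (u s : List ℕ) :
    pathPotential (Pi.single u (1 : ℝ)) s = if u <:+ s then 1 else 0 := by
  induction s with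
  | nil =>
    simp only [pathPotential, List.suffix_nil]
    by_cases h : u = []
    · subst h; simp
    · rw [if_neg h, Pi.single_apply, if_neg (fun h' => h h'.symm)]
  | cons a v ih =>
    simp only [pathPotential, ih, List.suffix_cons_iff]
    by_cases h1 : u = a :: v
    · subst h1
      have h2 : ¬ (a :: v) <:+ v := by
        intro h
        have := h.length_le
        simp at this
      simp [h2]
    · have h3 : (Pi.single u (1 : ℝ) : List ℕ → ℝ) (a :: v) = 0 := by
        rw [Pi.single_apply, if_neg (fun h' => h1 h'.symm)]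
      rw [h3]
      simp [h1]

theorem abs_pot_single_le (u s : List ℕ) : |pathPotential (Pi.single u (1 : ℝ)) s| ≤ 1 := by
  rw [pot_single]
  split_ifs <;> simp

theorem sum_single_sq_le {ι : Type} (φ : ι → List ℕ) (hφ : Function.Injective φ) (u : List ℕ)
    (A : Finset ι) : ∑ i ∈ A, (Pi.single u (1 : ℝ) : List ℕ → ℝ) (φ i) ^ 2 ≤ 1 := by
  classical
  have h : ∀ i ∈ A, (Pi.single u (1 : ℝ) : List ℕ → ℝ) (φ i) ^ 2 = if φ i = u then 1 else 0 := by
    intro i _
    rw [Pi.single_apply]
    split_ifs <;> simp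
  rw [Finset.sum_congr rfl h, Finset.sum_ite, Finset.sum_const_zero, add_zero, Finset.sum_const,
    nsmul_eq_mul, mul_one]
  have : (A.filter (fun i => φ i = u)).card ≤ 1 := by
    rw [Finset.card_le_one]
    intro a ha b hb
    simp only [Finset.mem_filter] at ha hb
    exact hφ (ha.2.trans hb.2.symm)
  exact_mod_cast this

/-- the square sum estimate behind `mix` -/
theorem sum_sq_mix {ι : Type} (F G Hh : ι → ℝ) (P : ι → Prop) (A : Finset ι) (α β : ℝ)
    (hα : 0 ≤ α) (hβ : 0 ≤ β) (hαβ : α ^ 2 + β ^ 2 ≤ 1)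
    (hF : ∀ B ⊆ A, ∑ i ∈ B, F i ^ 2 ≤ 1) (hG : ∀ B ⊆ A, ∑ i ∈ B, G i ^ 2 ≤ 1)
    (h1 : ∀ i, P i → |Hh i| ≤ α * |F i|) (h2 : ∀ i, ¬ P i → |Hh i| ≤ β * |G i|) :
    ∑ i ∈ A, Hh i ^ 2 ≤ 1 := by
  classical
  rw [← Finset.sum_filter_add_sum_filter_not A P]
  have e1 : ∑ i ∈ A.filter P, Hh i ^ 2 ≤ α ^ 2 * ∑ i ∈ A.filter P, F i ^ 2 := by
    rw [Finset.mul_sum]
    apply Finset.sum_le_sum
    intro i hi
    have := h1 i (Finset.mem_filter.1 hi).2
    have h3 : |Hh i| ^ 2 ≤ (α * |F i|) ^ 2 := pow_le_pow_left₀ (abs_nonneg _) this 2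
    rw [sq_abs, mul_pow, sq_abs] at h3
    exact h3
  have e2 : ∑ i ∈ A.filter (fun i => ¬ P i), Hh i ^ 2 ≤
      β ^ 2 * ∑ i ∈ A.filter (fun i => ¬ P i), G i ^ 2 := by
    rw [Finset.mul_sum]
    apply Finset.sum_le_sum
    intro i hi
    have := h2 i (Finset.mem_filter.1 hi).2
    have h3 : |Hh i| ^ 2 ≤ (β * |G i|) ^ 2 := pow_le_pow_left₀ (abs_nonneg _) this 2
    rw [sq_abs, mul_pow, sq_abs] at h3
    exact h3
  have f1 := hF _ (Finset.filter_subset P A)
  have f2 := hG _ (Finset.filter_subset (fun i => ¬ P i) A)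
  have g1 : α ^ 2 * ∑ i ∈ A.filter P, F i ^ 2 ≤ α ^ 2 * 1 :=
    mul_le_mul_of_nonneg_left f1 (sq_nonneg α)
  have g2 : β ^ 2 * ∑ i ∈ A.filter (fun i => ¬ P i), G i ^ 2 ≤ β ^ 2 * 1 :=
    mul_le_mul_of_nonneg_left f2 (sq_nonneg β)
  linarith

theorem cons_injective (r : List ℕ) : Function.Injective (fun n : ℕ => n :: r) := by
  intro a b h
  simpa using h

theorem sum_sibling_eq (h : List ℕ → ℝ) (r : List ℕ) (A : Finset ℕ) :
    ∑ n ∈ A, h (n :: r) ^ 2 = ∑ u ∈ A.image (fun n : ℕ => n :: r), h u ^ 2 := by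
  rw [Finset.sum_image]
  intro a _ b _ hab
  exact cons_injective r hab

theorem antichain_siblings (r : List ℕ) (A : Finset ℕ) :
    IsTreeAntichain (A.image (fun n : ℕ => n :: r)) := by
  intro u hu v hv huv hsuf
  simp only [Finset.mem_image] at hu hv
  obtain ⟨a, _, rfl⟩ := hu
  obtain ⟨b, _, rfl⟩ := hv
  rw [List.suffix_cons_iff] at hsuf
  rcases hsuf with h | h
  · exact huv h
  · have := h.length_le
    simp at this

theorem antichain_subset {A B : Finset (List ℕ)} (hA : IsTreeAntichain A) (hB : B ⊆ A) :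
    IsTreeAntichain B := fun u hu v hv => hA u (hB hu) v (hB hv)

/-- zero of `h` where the dominating family vanishes -/
theorem eq_zero_of_dom {f g h : List ℕ → ℝ} {S : Set (List ℕ)} {α β : ℝ}
    (h1 : ∀ v ∈ S, |h v| ≤ α * |f v|) (h2 : ∀ v ∉ S, |h v| ≤ β * |g v|) {v : List ℕ}
    (hf : f v = 0) (hg : g v = 0) : h v = 0 := by
  by_cases hv : v ∈ S
  · have := h1 v hv
    rw [hf] at this
    simpa using this
  · have := h2 v hv
    rw [hg] at this
    simpa using this

theorem extra_mix (m : PotentialModel) (f g h : List ℕ → ℝ) (S : Set (List ℕ)) (α β : ℝ)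
    (hf : ExtraCondition m f) (hg : ExtraCondition m g) (hα : 0 ≤ α) (hβ : 0 ≤ β)
    (hαβ : α ^ 2 + β ^ 2 ≤ 1)
    (h1 : ∀ v ∈ S, |h v| ≤ α * |f v|) (h2 : ∀ v ∉ S, |h v| ≤ β * |g v|) :
    ExtraCondition m h := by
  cases m with
  | rootlessSibling =>
    refine ⟨eq_zero_of_dom h1 h2 hf.1 hg.1, fun r A => ?_⟩
    exact sum_sq_mix (fun n => f (n :: r)) (fun n => g (n :: r)) (fun n => h (n :: r))
      (fun n => n :: r ∈ S) A α β hα hβ hαβ (fun B _ => hf.2 r B) (fun B _ => hg.2 r B)
      (fun n hn => h1 _ hn) (fun n hn => h2 _ hn)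
  | rootedSibling =>
    intro r A
    exact sum_sq_mix (fun n => f (n :: r)) (fun n => g (n :: r)) (fun n => h (n :: r))
      (fun n => n :: r ∈ S) A α β hα hβ hαβ (fun B _ => hf r B) (fun B _ => hg r B)
      (fun n hn => h1 _ hn) (fun n hn => h2 _ hn)
  | antichain =>
    refine ⟨(hf.1.union hg.1).subset ?_, fun A hA => ?_⟩
    · intro v hv
      by_contra hcon
      simp only [Set.mem_union, Function.mem_support, not_or, not_not] at hcon
      exact hv (eq_zero_of_dom h1 h2 hcon.1 hcon.2)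
    · exact sum_sq_mix f g h (fun v => v ∈ S) A α β hα hβ hαβ
        (fun B hB => hf.2 B (antichain_subset hA hB)) (fun B hB => hg.2 B (antichain_subset hA hB))
        h1 h2
  | global =>
    intro A
    exact sum_sq_mix f g h (fun v => v ∈ S) A α β hα hβ hαβ (fun B _ => hf B) (fun B _ => hg B)
      h1 h2

theorem extra_zero (m : PotentialModel) : ExtraCondition m (fun _ => (0 : ℝ)) := by
  cases m with
  | rootlessSibling => exact ⟨rfl, fun r A => by simp⟩
  | rootedSibling => intro r A; simp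
  | antichain => exact ⟨by simp, fun A _ => by simp⟩
  | global => intro A; simp

theorem extra_single (m : PotentialModel) (u : List ℕ) (hu : u ≠ [] ∨ m ≠ .rootlessSibling) :
    ExtraCondition m (Pi.single u (1 : ℝ)) := by
  cases m with
  | rootlessSibling =>
    have hu' : u ≠ [] := by
      rcases hu with h | h
      · exact h
      · exact absurd rfl h
    refine ⟨?_, fun r A => sum_single_sq_le _ (cons_injective r) u A⟩
    rw [Pi.single_apply, if_neg (fun h => hu' h.symm)]
  | rootedSibling => exact fun r A => sum_single_sq_le _ (cons_injective r) u A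
  | antichain =>
    refine ⟨?_, fun A _ => sum_single_sq_le id Function.injective_id u A⟩
    apply (Set.finite_singleton u).subset
    intro v hv
    by_contra hne
    apply hv
    rw [Pi.single_apply, if_neg (by simpa using hne)]
  | global => exact fun A => sum_single_sq_le id Function.injective_id u A

theorem extra_sib (m : PotentialModel) (f : List ℕ → ℝ) (hf : ExtraCondition m f) (r : List ℕ)
    (A : Finset ℕ) : ∑ n ∈ A, f (n :: r) ^ 2 ≤ 1 := by
  cases m with
  | rootlessSibling => exact hf.2 r A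
  | rootedSibling => exact hf r A
  | antichain => rw [sum_sibling_eq]; exact hf.2 _ (antichain_siblings r A)
  | global => rw [sum_sibling_eq]; exact hf _

end Models

open Models

theorem testSys_model (m : PotentialModel) :
    TestSys (IsTest m) (fun u => u ≠ [] ∨ m ≠ .rootlessSibling) where
  zero := ⟨fun s => by rw [pot_zero]; simp, extra_zero m⟩
  pot := fun f hf => hf.1
  mix := fun f g h S α β hf hg hα hβ hαβ hpot h1 h2 =>
    ⟨hpot, extra_mix m f g h S α β hf.2 hg.2 hα hβ hαβ h1 h2⟩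
  delta := fun u hu => ⟨abs_pot_single_le u, extra_single m u hu⟩
  inact := by
    intro u hu f hf
    simp only [not_or, not_not] at hu
    obtain ⟨rfl, rfl⟩ := hu
    exact hf.2.1
  sib := fun f hf r A => extra_sib m f hf.2 r A

theorem testSys_HT (n : ℕ) : TestSys (HT n) (fun u => u.length ≤ n) where
  zero := ⟨⟨fun s => by rw [pot_zero]; simp, extra_zero _⟩, fun _ _ => rfl⟩
  pot := fun f hf => hf.1.1
  mix := fun f g h S α β hf hg hα hβ hαβ hpot h1 h2 =>
    ⟨⟨hpot, extra_mix _ f g h S α β hf.1.2 hg.1.2 hα hβ hαβ h1 h2⟩,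
      fun v hv => eq_zero_of_dom h1 h2 (hf.2 v hv) (hg.2 v hv)⟩
  delta := by
    intro u hu
    refine ⟨⟨abs_pot_single_le u, extra_single _ u (Or.inr (by simp))⟩, fun v hv => ?_⟩
    rw [Pi.single_apply, if_neg]
    rintro rfl
    omega
  inact := fun u hu f hf => hf.2 u (not_le.1 hu)
  sib := fun f hf r A => extra_sib _ f hf.1.2 r A

end Crest.Agent.R125
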