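import Crest.Agent.R125_Defs

/-!
# Row 125, WP-D: reflexivity (Hilbert spaces, isomorphic invariance, `ℓ²`-sums)  (helper3)
-/

set_option autoImplicit false

namespace Crest.Agent.R125

open Filter Topology

section
variable {X : Type} [NormedAddCommGroup X] [NormedSpace ℝ X]

theorem refl_iff : Refl X ↔ ∀ Φ : StrongDual ℝ (StrongDual ℝ X), ∃ x : X, ∀ φ : StrongDual ℝ X, Φ φ = φ x := by
  constructor
  · intro h Φ
    obtain ⟨x, hx⟩ := h Φ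
    exact ⟨x, fun φ => by rw [← hx]; rfl⟩
  · intro h Φ
    obtain ⟨x, hx⟩ := h Φ
    exact ⟨x, by ext φ; rw [hx]; rfl⟩

theorem refl_of_hilbert (H : Type) [NormedAddCommGroup H] [InnerProductSpace ℝ H]
    [CompleteSpace H] : Refl H := by
  rw [refl_iff]
  intro Φ
  -- the functional `y ↦ Φ ⟪y, ·⟫`
  let ψ : StrongDual ℝ H := Φ.comp (innerSL ℝ : H →L[ℝ] H →L[ℝ] ℝ)
  refine ⟨(InnerProductSpace.toDual ℝ H).symm ψ, fun φ => ?_⟩
  obtain ⟨y, rfl⟩ := (InnerProductSpace.toDual ℝ H).surjective φ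
  rw [InnerProductSpace.toDual_apply_apply, real_inner_comm,
    InnerProductSpace.toDual_symm_apply]
  rfl

theorem Refl.of_equiv {Y : Type} [NormedAddCommGroup Y] [NormedSpace ℝ Y] (e : X ≃L[ℝ] Y)
    (h : Refl Y) : Refl X := by
  rw [refl_iff] at h ⊢
  intro Φ
  let Ψ : StrongDual ℝ (StrongDual ℝ Y) :=
    Φ.comp ((ContinuousLinearMap.compL ℝ X Y ℝ).flip (e : X →L[ℝ] Y))
  obtain ⟨y, hy⟩ := h Ψ
  refine ⟨e.symm y, fun φ => ?_⟩
  have h1 := hy (φ.comp (e.symm : Y →L[ℝ] X))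
  have h2 : Ψ (φ.comp (e.symm : Y →L[ℝ] X)) = Φ φ := by
    show Φ ((φ.comp (e.symm : Y →L[ℝ] X)).comp (e : X →L[ℝ] Y)) = Φ φ
    congr 1
    ext x
    simp
  rw [← h2, h1]
  rfl

end

open scoped ENNReal

section lp2
variable (Y : ℕ → Type) [∀ n, NormedAddCommGroup (Y n)] [∀ n, NormedSpace ℝ (Y n)]

/-- the coordinate projection onto the coordinates in `s`. -/
noncomputable def PP (s : Finset ℕ) : lp Y 2 →L[ℝ] lp Y 2 :=
  ∑ i ∈ s, (lp.singleContinuousLinearMap ℝ Y 2 i).comp (lp.evalCLM ℝ Y 2 i)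

variable {Y}

theorem PP_apply (s : Finset ℕ) (y : lp Y 2) : PP Y s y = ∑ i ∈ s, lp.single 2 i (y i) := by
  unfold PP
  rw [sum_apply]
  rfl

theorem PP_coord (s : Finset ℕ) (y : lp Y 2) (k : ℕ) :
    (PP Y s y) k = if k ∈ s then y k else 0 := by
  rw [PP_apply]
  simp only [lp.coeFn_single, lp.coeFn_sum, Finset.sum_apply, Finset.sum_pi_single]

theorem two_toReal_pos : 0 < (2 : ℝ≥0∞).toReal := by norm_num

theorem norm_PP_sq (s : Finset ℕ) (y : lp Y 2) : ‖PP Y s y‖ ^ 2 = ∑ i ∈ s, ‖y i‖ ^ 2 := by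
  have := lp.norm_sum_single two_toReal_pos (fun i => y i) s
  rw [PP_apply]
  simpa using this

theorem norm_sub_PP_sq (s : Finset ℕ) (y : lp Y 2) :
    ‖y - PP Y s y‖ ^ 2 = ‖y‖ ^ 2 - ∑ i ∈ s, ‖y i‖ ^ 2 := by
  have := lp.norm_compl_sum_single two_toReal_pos y s
  rw [PP_apply]
  simpa using this

theorem pyth (s : Finset ℕ) (y : lp Y 2) : ‖y‖ ^ 2 = ‖PP Y s y‖ ^ 2 + ‖y - PP Y s y‖ ^ 2 := by
  rw [norm_PP_sq, norm_sub_PP_sq]; ring

theorem norm_PP_le (s : Finset ℕ) (y : lp Y 2) : ‖PP Y s y‖ ≤ ‖y‖ := by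
  have := pyth s y
  exact abs_le_of_sq_le_sq' (by nlinarith [sq_nonneg ‖y - PP Y s y‖]) (norm_nonneg _) |>.2

theorem norm_sub_PP_le (s : Finset ℕ) (y : lp Y 2) : ‖y - PP Y s y‖ ≤ ‖y‖ := by
  have := pyth s y
  exact abs_le_of_sq_le_sq' (by nlinarith [sq_nonneg ‖PP Y s y‖]) (norm_nonneg _) |>.2

theorem PP_PP (s : Finset ℕ) (y : lp Y 2) : PP Y s (PP Y s y) = PP Y s y := by
  rw [PP_apply s (PP Y s y), PP_apply s y]
  refine Finset.sum_congr rfl fun i hi => ?_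
  rw [← PP_apply, PP_coord, if_pos hi]

theorem norm_comb_sq (s : Finset ℕ) (u v : lp Y 2) (μ : ℝ) :
    ‖PP Y s u + μ • (v - PP Y s v)‖ ^ 2 = ‖PP Y s u‖ ^ 2 + μ ^ 2 * ‖v - PP Y s v‖ ^ 2 := by
  have h1 : PP Y s (PP Y s u + μ • (v - PP Y s v)) = PP Y s u := by
    rw [map_add, map_smul, map_sub, PP_PP, PP_PP, sub_self, smul_zero, add_zero]
  rw [pyth s (PP Y s u + μ • (v - PP Y s v)), h1, add_sub_cancel_left, norm_smul, mul_pow,
    Real.norm_eq_abs, sq_abs]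

theorem tendsto_PP (y : lp Y 2) : Tendsto (fun s => PP Y s y) atTop (𝓝 y) := by
  have := lp.hasSum_single (p := 2) (by norm_num) y
  simp_rw [PP_apply]
  exact this


theorem real_aux {M ε A B : ℝ} (hM : 0 < M) (hε : 0 < ε) (h1 : M - 2 * (ε ^ 2 / (4 * M)) < A)
    (h2 : A + ε / M * B ≤ M * (1 + (ε / M) ^ 2 / 2)) : B < ε := by
  have hμ : 0 < ε / M := by positivity
  have h3 : ε / M * B < ε / M * ε := by
    have e1 : M * (1 + (ε / M) ^ 2 / 2) = M + ε ^ 2 / (2 * M) := by field_simp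
    have e2 : 2 * (ε ^ 2 / (4 * M)) = ε ^ 2 / (2 * M) := by field_simp; ring
    have e3 : ε / M * ε = ε ^ 2 / (2 * M) + ε ^ 2 / (2 * M) := by field_simp; ring
    rw [e1] at h2; rw [e2] at h1; rw [e3]
    linarith
  exact lt_of_mul_lt_mul_left h3 hμ.le

theorem tendsto_comp_PP (φ : StrongDual ℝ (lp Y 2)) :
    Tendsto (fun s => φ.comp (PP Y s)) atTop (𝓝 φ) := by
  rw [Metric.tendsto_atTop]
  intro ε₀ hε₀
  obtain ⟨ε, hε⟩ : ∃ ε, ε = ε₀ / 2 := ⟨_, rfl⟩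
  have hεpos : 0 < ε := by rw [hε]; positivity
  obtain ⟨M, hM⟩ : ∃ M, M = ‖φ‖ := ⟨_, rfl⟩
  rcases (norm_nonneg φ).eq_or_lt with h0 | hpos
  · have : φ = 0 := norm_eq_zero.mp h0.symm
    subst this
    exact ⟨∅, fun s _ => by simpa using hε₀⟩
  rw [← hM] at hpos
  have hδ : 0 < ε ^ 2 / (4 * M) := by positivity
  -- an almost norming vector
  obtain ⟨u, hu1, hu2⟩ : ∃ u : lp Y 2, ‖u‖ ≤ 1 ∧ M - ε ^ 2 / (4 * M) < φ u := by
    obtain ⟨u, hu1, hu2⟩ := φ.exists_lt_apply_of_lt_opNorm (r := M - ε ^ 2 / (4 * M))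
      (by rw [← hM]; linarith)
    rw [Real.norm_eq_abs] at hu2
    rcases abs_cases (φ u) with ⟨h, -⟩ | ⟨h, -⟩
    · exact ⟨u, hu1.le, by rwa [h] at hu2⟩
    · exact ⟨-u, by rw [norm_neg]; exact hu1.le, by rw [map_neg]; rwa [h] at hu2⟩
  have ht : Tendsto (fun s => φ (PP Y s u)) atTop (𝓝 (φ u)) :=
    (φ.continuous.tendsto _).comp (tendsto_PP u)
  have hev := ht.eventually_const_lt (show φ u - ε ^ 2 / (4 * M) < φ u by linarith)
  obtain ⟨s₀, hs₀⟩ := eventually_atTop.mp hev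
  refine ⟨s₀, fun s hs => ?_⟩
  have hA : M - 2 * (ε ^ 2 / (4 * M)) < φ (PP Y s u) := by linarith [hs₀ s hs]
  have key : ∀ v : lp Y 2, ‖v‖ = 1 → φ (v - PP Y s v) < ε := by
    intro v hv
    apply real_aux hpos hεpos hA
    have h1 : φ (PP Y s u) + ε / M * φ (v - PP Y s v)
        = φ (PP Y s u + (ε / M) • (v - PP Y s v)) := by
      rw [map_add, map_smul, smul_eq_mul]
    rw [h1]
    have h2 : φ (PP Y s u + (ε / M) • (v - PP Y s v))
        ≤ M * ‖PP Y s u + (ε / M) • (v - PP Y s v)‖ := by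
      rw [hM]
      exact (le_abs_self _).trans (φ.le_opNorm _)
    refine h2.trans (mul_le_mul_of_nonneg_left ?_ hpos.le)
    have h3 := norm_comb_sq s u v (ε / M)
    have h4 : ‖PP Y s u‖ ≤ 1 := (norm_PP_le s u).trans hu1
    have h5 : ‖v - PP Y s v‖ ≤ 1 := (norm_sub_PP_le s v).trans hv.le
    have h6 : ‖PP Y s u‖ ^ 2 ≤ 1 := by nlinarith [norm_nonneg (PP Y s u)]
    have h7 : ‖v - PP Y s v‖ ^ 2 ≤ 1 := by nlinarith [norm_nonneg (v - PP Y s v)]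
    have h8 : (ε / M) ^ 2 * ‖v - PP Y s v‖ ^ 2 ≤ (ε / M) ^ 2 := by
      nlinarith [sq_nonneg (ε / M)]
    apply abs_le_of_sq_le_sq' _ (by positivity) |>.2
    nlinarith [sq_nonneg ((ε / M) ^ 2)]
  have hnorm : ‖φ.comp (PP Y s) - φ‖ ≤ ε := by
    apply ContinuousLinearMap.opNorm_le_of_unit_norm hεpos.le
    intro v hv
    have e1 : (φ.comp (PP Y s) - φ) v = -φ (v - PP Y s v) := by
      simp [sub_apply]
    rw [e1, norm_neg, Real.norm_eq_abs, abs_le]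
    constructor
    · have := key (-v) (by rw [norm_neg]; exact hv)
      have e2 : φ (-v - PP Y s (-v)) = -φ (v - PP Y s v) := by
        rw [map_neg, ← neg_sub', map_neg]
      rw [e2] at this
      linarith
    · exact (key v hv).le
  rw [dist_eq_norm]
  rw [hε] at hnorm
  linarith

variable (Y) in
theorem refl_lp2 (h : ∀ n, Refl (Y n)) : Refl (lp Y 2) := by
  rw [refl_iff]
  intro Φ
  have hx : ∀ n, ∃ x : Y n, ∀ ψ : StrongDual ℝ (Y n),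
      Φ (ψ.comp (lp.evalCLM ℝ Y 2 n)) = ψ x := by
    intro n
    let Φn : StrongDual ℝ (StrongDual ℝ (Y n)) :=
      Φ.comp ((ContinuousLinearMap.compL ℝ (lp Y 2) (Y n) ℝ).flip (lp.evalCLM ℝ Y 2 n))
    obtain ⟨x, hx⟩ := (refl_iff.mp (h n)) Φn
    exact ⟨x, fun ψ => hx ψ⟩
  choose x hx using hx
  have hψ : ∀ n, ∃ g : StrongDual ℝ (Y n), ‖g‖ ≤ 1 ∧ g (x n) = ‖x n‖ := fun n => by
    simpa using exists_dual_vector'' ℝ (x n)
  choose ψ hψ1 hψ2 using hψ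
  have hbound : ∀ s : Finset ℕ, ∑ i ∈ s, ‖x i‖ ^ 2 ≤ ‖Φ‖ ^ 2 := by
    intro s
    obtain ⟨S, hS⟩ : ∃ S, S = ∑ i ∈ s, ‖x i‖ ^ 2 := ⟨_, rfl⟩
    have hS0 : 0 ≤ S := by rw [hS]; positivity
    let φs : StrongDual ℝ (lp Y 2) := ∑ i ∈ s, ‖x i‖ • (ψ i).comp (lp.evalCLM ℝ Y 2 i)
    have h1 : Φ φs = S := by
      simp only [φs, map_sum, map_smul, hx, hψ2, smul_eq_mul]
      rw [hS]
      exact Finset.sum_congr rfl fun i _ => by ring
    have h2 : ‖φs‖ ≤ Real.sqrt S := by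
      apply ContinuousLinearMap.opNorm_le_bound _ (Real.sqrt_nonneg _)
      intro y
      have e1 : φs y = ∑ i ∈ s, ‖x i‖ * ψ i (y i) := by
        simp only [φs, sum_apply, smul_apply, smul_eq_mul]
        rfl
      rw [e1]
      calc ‖∑ i ∈ s, ‖x i‖ * ψ i (y i)‖ ≤ ∑ i ∈ s, ‖‖x i‖ * ψ i (y i)‖ := norm_sum_le _ _
        _ ≤ ∑ i ∈ s, ‖x i‖ * ‖y i‖ := by
            refine Finset.sum_le_sum fun i _ => ?_
            rw [norm_mul, norm_norm]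
            refine mul_le_mul_of_nonneg_left ?_ (norm_nonneg _)
            calc ‖ψ i (y i)‖ ≤ ‖ψ i‖ * ‖y i‖ := (ψ i).le_opNorm _
              _ ≤ 1 * ‖y i‖ := mul_le_mul_of_nonneg_right (hψ1 i) (norm_nonneg _)
              _ = ‖y i‖ := one_mul _
        _ ≤ Real.sqrt (∑ i ∈ s, ‖x i‖ ^ 2) * Real.sqrt (∑ i ∈ s, ‖y i‖ ^ 2) :=
            Real.sum_mul_le_sqrt_mul_sqrt _ _ _
        _ ≤ Real.sqrt S * ‖y‖ := by
            rw [← hS, ← norm_PP_sq, Real.sqrt_sq (norm_nonneg _)]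
            exact mul_le_mul_of_nonneg_left (norm_PP_le s y) (Real.sqrt_nonneg _)
    have h3 : S ≤ ‖Φ‖ * Real.sqrt S := by
      calc S = Φ φs := h1.symm
        _ ≤ ‖Φ φs‖ := le_abs_self _
        _ ≤ ‖Φ‖ * ‖φs‖ := Φ.le_opNorm _
        _ ≤ ‖Φ‖ * Real.sqrt S := mul_le_mul_of_nonneg_left h2 (norm_nonneg Φ)
    rw [← hS]
    have h4 : Real.sqrt S ^ 2 = S := Real.sq_sqrt hS0
    have h5 := Real.sqrt_nonneg S
    by_cases h6 : Real.sqrt S ≤ ‖Φ‖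
    · nlinarith [norm_nonneg Φ]
    · push Not at h6
      nlinarith [norm_nonneg Φ]
  have hmem : Memℓp x 2 := memℓp_gen' (C := ‖Φ‖ ^ 2) (by intro s; simpa using hbound s)
  refine ⟨⟨x, hmem⟩, fun φ => ?_⟩
  have h1 : Tendsto (fun s => Φ (φ.comp (PP Y s))) atTop (𝓝 (Φ φ)) :=
    (Φ.continuous.tendsto _).comp (tendsto_comp_PP φ)
  have h2 : Tendsto (fun s => φ (PP Y s ⟨x, hmem⟩)) atTop (𝓝 (φ ⟨x, hmem⟩)) :=
    (φ.continuous.tendsto _).comp (tendsto_PP _)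
  have h3 : ∀ s, Φ (φ.comp (PP Y s)) = φ (PP Y s ⟨x, hmem⟩) := by
    intro s
    have e1 : φ.comp (PP Y s) = ∑ i ∈ s,
        (φ.comp (lp.singleContinuousLinearMap ℝ Y 2 i)).comp (lp.evalCLM ℝ Y 2 i) := by
      ext y
      simp only [ContinuousLinearMap.comp_apply, PP, sum_apply, map_sum]
    rw [e1, map_sum, PP_apply, map_sum]
    refine Finset.sum_congr rfl fun i _ => ?_
    rw [hx]
    rfl
  exact tendsto_nhds_unique (h1.congr h3) h2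

end lp2

end Crest.Agent.R125
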