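import Crest.Agent.R125_Defs

/-!
# Row 125, WP-B: the two point property and its consequences for the moduli
-/

set_option autoImplicit false

namespace Crest.Agent.R125

open Crest.AnalysisR

variable {X : Type} [NormedAddCommGroup X] [NormedSpace ℝ X]

/-- `a ↦ √(a² + b)` is `1`-Lipschitz on nonnegative reals. -/
theorem sqrt_sq_add_le (a a' b d : ℝ) (ha : 0 ≤ a) (ha' : 0 ≤ a') (hb : 0 ≤ b) (hd : a ≤ a' + d)
    (hd0 : 0 ≤ d) : Real.sqrt (a ^ 2 + b) ≤ Real.sqrt (a' ^ 2 + b) + d := by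
  have hs : 0 ≤ Real.sqrt (a' ^ 2 + b) := Real.sqrt_nonneg _
  have hs2 : Real.sqrt (a' ^ 2 + b) ^ 2 = a' ^ 2 + b := Real.sq_sqrt (by positivity)
  have hs3 : a' ≤ Real.sqrt (a' ^ 2 + b) := Real.le_sqrt_of_sq_le (by linarith)
  apply Real.sqrt_le_iff.mpr
  refine ⟨by positivity, ?_⟩
  have h1 : a ^ 2 ≤ (a' + d) ^ 2 := pow_le_pow_left₀ ha hd 2
  nlinarith

theorem TPx.tp (h : TPx X) : TP X := by
  intro x δ hδ
  obtain ⟨x', hx', F, hF, hin⟩ := h x (δ / 2) (by positivity)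
  refine ⟨F, hF, fun y hy => ?_⟩
  have h1 := hin y hy
  have h2 : ‖x' + y‖ ≤ ‖x + y‖ + ‖x - x'‖ := by
    have e : x' + y = (x + y) - (x - x') := by abel
    rw [e]; exact norm_sub_le _ _
  have h3 : ‖x' - y‖ ≤ ‖x - y‖ + ‖x - x'‖ := by
    have e : x' - y = (x - y) - (x - x') := by abel
    rw [e]; exact norm_sub_le _ _
  have h4 : ‖x‖ ≤ ‖x'‖ + ‖x - x'‖ := by
    have e : x = x' + (x - x') := by abel
    calc ‖x‖ = ‖x' + (x - x')‖ := by rw [← e]
      _ ≤ _ := norm_add_le _ _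
  have h5 := sqrt_sq_add_le ‖x‖ ‖x'‖ (‖y‖ ^ 2 / 4) ‖x - x'‖ (norm_nonneg _) (norm_nonneg _)
    (by positivity) h4 (norm_nonneg _)
  linarith

theorem TP.core (h : TP X) {t : ℝ} (ht : 0 < t) (x : X) (hx : ‖x‖ = 1) (η : ℝ) (hη : 0 < η) :
    ∃ F : Set X, Cof F ∧ ∀ y ∈ F, ‖y‖ = 1 →
      Real.sqrt (1 + t ^ 2 / 4) - 1 - η ≤ (‖x + t • y‖ + ‖x - t • y‖) / 2 - 1 := by
  obtain ⟨F, hF, hin⟩ := h x η hη
  refine ⟨F, hF, fun y hy hy1 => ?_⟩
  obtain ⟨S, rfl, -, -⟩ := hF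
  have h1 := hin (t • y) (S.smul_mem t hy)
  rw [hx, norm_smul, hy1, mul_one, Real.norm_eq_abs, abs_of_pos ht, one_pow] at h1
  linarith

theorem TP.midGE [CompleteSpace X] (h : TP X) {t c : ℝ} (ht : 0 < t)
    (hc : c ≤ Real.sqrt (1 + t ^ 2 / 4) - 1) :
    (RealBanach.mk X inferInstance inferInstance inferInstance).MidpointModulusGE
      (RealBanach.mk X inferInstance inferInstance inferInstance).norm t c := by
  rw [midGE_mk_iff, norm_mk]
  intro x hx η hη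
  obtain ⟨F, hF, hin⟩ := h.core ht x hx η hη
  exact ⟨F, hF, fun y hy hy1 => by have := hin y hy hy1; linarith⟩

theorem TP.maxGE [CompleteSpace X] (h : TP X) {t c : ℝ} (ht : 0 < t)
    (hc : c ≤ Real.sqrt (1 + t ^ 2 / 4) - 1) :
    (RealBanach.mk X inferInstance inferInstance inferInstance).MaxMidpointModulusGE
      (RealBanach.mk X inferInstance inferInstance inferInstance).norm t c := by
  rw [maxGE_mk_iff, norm_mk]
  intro x hx η hη
  obtain ⟨F, hF, hin⟩ := h.core ht x hx η hη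
  refine ⟨F, hF, fun y hy hy1 => ?_⟩
  have h1 := hin y hy hy1
  have h2 := le_max_left ‖x + t • y‖ ‖x - t • y‖
  have h3 := le_max_right ‖x + t • y‖ ‖x - t • y‖
  show c - η ≤ max ‖x + t • y‖ ‖x - t • y‖ - 1
  linarith

/-- in finite dimension `{0}` is cofinite, so every norm is (vacuously) AUC -/
theorem not_finiteDimensional_of_not_auc (h : ¬ AUC (fun x : X => ‖x‖)) :
    ¬ FiniteDimensional ℝ X := by
  intro hfd
  apply h
  intro t _
  refine ⟨1, one_pos, fun x _ => ⟨{0}, ⟨⊥, by simp, isClosed_singleton, inferInstance⟩, ?_⟩⟩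
  intro y hy hy1
  rw [Set.mem_singleton_iff] at hy
  rw [hy] at hy1
  simp at hy1

theorem equivNorm_norm : EquivNorm (fun x : X => ‖x‖) :=
  ⟨fun x y => norm_add_le x y, fun a x => by simp [norm_smul], 1, 1, one_pos,
    fun x => by simp⟩

end Crest.Agent.R125
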