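import Crest.Agent.R125_Mix

/-!
# Row 125, WP-F2: realizations of a test system have the exact two point property (helper1)
-/

set_option autoImplicit false

namespace Crest.Agent.R125

open Crest.AnalysisR Crest.AnalysisR.TreePotential

namespace Realization

variable {X : Type} [NormedAddCommGroup X] [NormedSpace ℝ X]
  {T : (List ℕ → ℝ) → Prop} {act : List ℕ → Prop}

/-- linear combinations of the coordinate vectors. -/
noncomputable def L (R : Realization T X) : (List ℕ →₀ ℝ) →ₗ[ℝ] X :=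
  Finsupp.linearCombination ℝ R.e

theorem ev_L (R : Realization T X) (f : List ℕ → ℝ) (hf : T f) (c : List ℕ →₀ ℝ) :
    R.ev f hf (R.L c) = c.sum fun v a => a * f v := by
  simp only [L, Finsupp.linearCombination_apply, map_finsuppSum, map_smul, R.ev_e, smul_eq_mul]

theorem abs_ev_le (R : Realization T X) (f : List ℕ → ℝ) (hf : T f) (x : X) :
    |R.ev f hf x| ≤ ‖x‖ := by
  rw [abs_le]
  refine ⟨?_, R.ev_le f hf x⟩
  have := R.ev_le f hf (-x)
  rw [map_neg, norm_neg] at this
  linarith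

theorem norm_e_le (hT : TestSys T act) (R : Realization T X) (v : List ℕ) : ‖R.e v‖ ≤ 2 := by
  apply le_of_forall_pos_le_add
  intro ε hε
  obtain ⟨f, hf, h⟩ := R.norming (R.e v) ε hε
  rw [R.ev_e] at h
  have := (abs_le.mp (abs_le_two_of_pot (hT.pot f hf) v)).2
  linarith

theorem e_inact (hT : TestSys T act) (R : Realization T X) (v : List ℕ) (hv : ¬ act v) :
    R.e v = 0 := by
  rw [← norm_le_zero_iff]
  apply le_of_forall_pos_le_add
  intro ε hε
  obtain ⟨f, hf, h⟩ := R.norming (R.e v) ε hε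
  rw [R.ev_e, hT.inact v hv f hf] at h
  linarith

theorem exact_ineq (hT : TestSys T act) (R : Realization T X) (S : Set (List ℕ)) (h0 : [] ∈ S)
    (hS : ∀ (a : ℕ) (v : List ℕ), a :: v ∈ S → v ∈ S)
    (a c : List ℕ →₀ ℝ) (ha : ∀ v ∈ a.support, v ∈ S) (hc : ∀ v ∈ c.support, v ∉ S) :
    2 * Real.sqrt (‖R.L a‖ ^ 2 + ‖R.L c‖ ^ 2 / 4) ≤ ‖R.L a + R.L c‖ + ‖R.L a - R.L c‖ := by
  set x := R.L a with hx
  set y := R.L c with hy
  set A := ‖x‖ with hA
  set B := ‖y‖ with hB
  have hA0 : 0 ≤ A := norm_nonneg _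
  have hB0 : 0 ≤ B := norm_nonneg _
  by_cases hcase : A ^ 2 ≤ 3 / 4 * B ^ 2
  · have h1 : Real.sqrt (A ^ 2 + B ^ 2 / 4) ≤ B := by
      rw [Real.sqrt_le_left hB0]; nlinarith
    have h2 : 2 * B ≤ ‖x + y‖ + ‖x - y‖ := by
      have h3 : (2 : ℝ) • y = (x + y) - (x - y) := by rw [two_smul]; abel
      have h4 : ‖(2 : ℝ) • y‖ = 2 * B := by rw [norm_smul]; simp [hB]
      rw [← h4, h3]
      exact norm_sub_le _ _
    linarith
  · push Not at hcase
    set r := Real.sqrt (A ^ 2 + B ^ 2 / 4) with hr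
    have hr2 : r ^ 2 = A ^ 2 + B ^ 2 / 4 := Real.sq_sqrt (by positivity)
    have hrpos : 0 < r := Real.sqrt_pos.mpr (by nlinarith [sq_nonneg B])
    set α := A / r with hα
    set β := B / (2 * r) with hβ
    have hα0 : 0 ≤ α := by positivity
    have hβ0 : 0 ≤ β := by positivity
    have hAr : A ≤ r := by
      apply Real.le_sqrt_of_sq_le; nlinarith [sq_nonneg B]
    have hBr : B ≤ r := by
      apply Real.le_sqrt_of_sq_le; nlinarith
    have hα1 : α ≤ 1 := (div_le_one hrpos).mpr hAr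
    have hβ1 : 2 * β ≤ 1 := by
      have : 2 * β = B / r := by rw [hβ]; field_simp
      rw [this]; exact (div_le_one hrpos).mpr hBr
    have hαβ : α ^ 2 + β ^ 2 ≤ 1 := by
      have : α ^ 2 + β ^ 2 = (A ^ 2 + B ^ 2 / 4) / r ^ 2 := by
        rw [hα, hβ]; field_simp; ring
      rw [this, hr2, div_self (by rw [← hr2]; positivity)]
    have hsum : α * A + β * B / 2 = r := by
      have : α * A + β * B / 2 = (A ^ 2 + B ^ 2 / 4) / r := by
        rw [hα, hβ]; field_simp; ring
      rw [this, ← hr2]; field_simp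
    apply le_of_forall_pos_le_add
    intro ε hε
    obtain ⟨f, hf, hfx⟩ := R.norming x (ε / 3) (by positivity)
    obtain ⟨g, hg, hgy⟩ := R.norming y (ε / 3) (by positivity)
    obtain ⟨hp, hm, hpP, hmP, hSin, hSout⟩ :=
      exists_mix f g (hT.pot f hf) (hT.pot g hg) S h0 hS α β hα0 hα1 hβ0 hβ1
    have hTp : T hp := hT.mix f g hp S α β hf hg hα0 hβ0 hαβ hpP
      (fun v hv => by rw [(hSin v hv).1, abs_mul, abs_of_nonneg hα0])
      (fun v hv => (hSout v hv).1)
    have hTm : T hm := hT.mix f g hm S α β hf hg hα0 hβ0 hαβ hmP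
      (fun v hv => by rw [(hSin v hv).2, abs_mul, abs_of_nonneg hα0])
      (fun v hv => (hSout v hv).2.1)
    have e1 : R.ev hp hTp x = α * R.ev f hf x := by
      rw [hx, ev_L, ev_L, Finsupp.sum, Finsupp.sum, Finset.mul_sum]
      apply Finset.sum_congr rfl
      intro v hv
      rw [(hSin v (ha v hv)).1]; ring
    have e2 : R.ev hm hTm x = α * R.ev f hf x := by
      rw [hx, ev_L, ev_L, Finsupp.sum, Finsupp.sum, Finset.mul_sum]
      apply Finset.sum_congr rfl
      intro v hv
      rw [(hSin v (ha v hv)).2]; ring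
    have e3 : R.ev hp hTp y - R.ev hm hTm y = β * R.ev g hg y := by
      rw [hy, ev_L, ev_L, ev_L, Finsupp.sum, Finsupp.sum, Finsupp.sum, Finset.mul_sum,
        ← Finset.sum_sub_distrib]
      apply Finset.sum_congr rfl
      intro v hv
      rw [← mul_sub, (hSout v (hc v hv)).2.2]; ring
    have b1 := R.ev_le hp hTp (x + y)
    have b2 := R.ev_le hm hTm (x - y)
    rw [map_add] at b1
    rw [map_sub] at b2
    have k1 : α * (A - ε / 3) ≤ α * R.ev f hf x := mul_le_mul_of_nonneg_left hfx hα0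
    have k2 : β * (B - ε / 3) ≤ β * R.ev g hg y := mul_le_mul_of_nonneg_left hgy hβ0
    have k3 : α * (ε / 3) ≤ ε / 3 := by nlinarith
    have k4 : β * (ε / 3) ≤ ε / 3 := by nlinarith
    nlinarith

theorem ev_delta_L (hT : TestSys T act) (R : Realization T X) (v : List ℕ) (hv : act v)
    (c : List ℕ →₀ ℝ) : R.ev (Pi.single v 1) (hT.delta v hv) (R.L c) = c v := by
  classical
  rw [ev_L]
  have : ∀ (u : List ℕ) (a : ℝ), a * (Pi.single v (1 : ℝ) : List ℕ → ℝ) u = if v = u then a else 0 := by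
    intro u a
    by_cases h : v = u
    · subst h; simp
    · rw [if_neg h, Pi.single_eq_of_ne (Ne.symm h), mul_zero]
  simp only [this]
  rw [Finsupp.sum_ite_eq]
  split_ifs with h
  · rfl
  · exact (Finsupp.notMem_support_iff.mp h).symm

omit [NormedAddCommGroup X] [NormedSpace ℝ X] in
theorem approx_aux (n e : ℝ) (hn : 0 ≤ n) : e / (2 * n + 1) + n * (2 * (e / (2 * n + 1))) = e := by
  have : 2 * n + 1 ≠ 0 := by positivity
  field_simp
  ring

theorem approx (hT : TestSys T act) (R : Realization T X) (S : Finset (List ℕ)) (y : X)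
    (hy : ∀ u ∈ S, ∀ hu : act u, R.ev (Pi.single u 1) (hT.delta u hu) y = 0) (ε : ℝ)
    (hε : 0 < ε) :
    ∃ c : List ℕ →₀ ℝ, (∀ v ∈ c.support, v ∉ S) ∧ ‖y - R.L c‖ < ε := by
  classical
  obtain ⟨ε', hε'⟩ : ∃ e : ℝ, e = ε / (2 * (S.card : ℝ) + 1) := ⟨_, rfl⟩
  have hε'pos : 0 < ε' := by rw [hε']; positivity
  obtain ⟨y₁, hy₁span, hy₁⟩ := R.dense y ε' hε'pos
  obtain ⟨c₁, hc₁⟩ := (Finsupp.mem_span_range_iff_exists_finsupp).mp hy₁span
  have hLc₁ : R.L c₁ = y₁ := by rw [← hc₁]; rfl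
  refine ⟨c₁.filter (fun v => v ∉ S), ?_, ?_⟩
  · intro v hv
    rw [Finsupp.support_filter, Finset.mem_filter] at hv
    exact hv.2
  · have hsplit : c₁ = c₁.filter (fun v => v ∈ S) + c₁.filter (fun v => v ∉ S) :=
      (Finsupp.filter_add_filter_not c₁ _).symm
    have hdiff : R.L c₁ - R.L (c₁.filter (fun v => v ∉ S)) = R.L (c₁.filter (fun v => v ∈ S)) := by
      conv_lhs => rw [hsplit]
      rw [map_add]
      simp
    have hsum : R.L (c₁.filter (fun v => v ∈ S)) = ∑ v ∈ S, c₁ v • R.e v := by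
      have hsub : (c₁.filter (fun v => v ∈ S)).support ⊆ S := by
        intro v hv
        rw [Finsupp.support_filter, Finset.mem_filter] at hv
        exact hv.2
      rw [L, Finsupp.linearCombination_apply,
        Finsupp.sum_of_support_subset (c₁.filter (fun v => v ∈ S)) hsub
          (fun i a => a • R.e i) (fun i _ => zero_smul _ _)]
      apply Finset.sum_congr rfl
      intro v hv
      rw [Finsupp.filter_apply_pos _ _ hv]
    have hterm : ∀ v ∈ S, ‖c₁ v • R.e v‖ ≤ 2 * ε' := by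
      intro v hv
      by_cases hact : act v
      · have h1 : c₁ v = R.ev (Pi.single v 1) (hT.delta v hact) (y₁ - y) := by
          rw [map_sub, hy v hv hact, sub_zero, ← hLc₁, ev_delta_L hT R v hact c₁]
        have h2 : |c₁ v| ≤ ε' := by
          rw [h1]
          refine (R.abs_ev_le _ _ _).trans ?_
          rw [norm_sub_rev]; exact hy₁.le
        rw [norm_smul, Real.norm_eq_abs]
        have h3 := norm_e_le hT R v
        have h4 : 0 ≤ ‖R.e v‖ := norm_nonneg _
        nlinarith [abs_nonneg (c₁ v)]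
      · rw [e_inact hT R v hact, smul_zero, norm_zero]; positivity
    have hbound : ‖R.L (c₁.filter (fun v => v ∈ S))‖ ≤ S.card * (2 * ε') := by
      rw [hsum]
      refine (norm_sum_le _ _).trans ((Finset.sum_le_sum hterm).trans ?_)
      rw [Finset.sum_const, nsmul_eq_mul]
    have htri : ‖y - R.L (c₁.filter (fun v => v ∉ S))‖ ≤
        ‖y - y₁‖ + ‖R.L (c₁.filter (fun v => v ∈ S))‖ := by
      rw [← hdiff, hLc₁]
      have : y - R.L (c₁.filter (fun v => v ∉ S)) =
          (y - y₁) + (y₁ - R.L (c₁.filter (fun v => v ∉ S))) := by abel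
      rw [this]
      exact norm_add_le _ _
    have hfin : ε' + S.card * (2 * ε') = ε := by
      rw [hε']; exact approx_aux _ _ (Nat.cast_nonneg _)
    linarith

theorem tpx (hT : TestSys T act) (R : Realization T X) : TPx X := by
  classical
  intro x δ hδ
  obtain ⟨x', hx'span, hx'⟩ := R.dense x δ hδ
  obtain ⟨a, ha⟩ := (Finsupp.mem_span_range_iff_exists_finsupp).mp hx'span
  have hLa : R.L a = x' := by rw [← ha]; rfl
  set S : Finset (List ℕ) := a.support.biUnion (fun u => u.tails.toFinset) ∪ {[]} with hSdef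
  have h0 : [] ∈ (S : Set (List ℕ)) := by simp [hSdef]
  have hS : ∀ (b : ℕ) (v : List ℕ), b :: v ∈ (S : Set (List ℕ)) → v ∈ (S : Set (List ℕ)) := by
    intro b v hv
    simp only [hSdef, Finset.coe_union, Finset.coe_biUnion, Set.mem_union, Set.mem_iUnion,
      Finset.mem_coe, List.mem_toFinset, List.mem_tails, Finset.coe_singleton,
      Set.mem_singleton_iff] at hv ⊢
    rcases hv with ⟨u, hu, hsuf⟩ | h
    · exact Or.inl ⟨u, hu, (List.suffix_cons b v).trans hsuf⟩
    · exact absurd h (by simp)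
  have haS : ∀ v ∈ a.support, v ∈ (S : Set (List ℕ)) := by
    intro v hv
    simp only [hSdef, Finset.coe_union, Finset.coe_biUnion, Set.mem_union, Set.mem_iUnion,
      Finset.mem_coe, List.mem_toFinset, List.mem_tails]
    exact Or.inl ⟨v, hv, List.suffix_rfl⟩
  have : Finite {u : List ℕ // u ∈ S ∧ act u} :=
    Set.Finite.to_subtype ((S.finite_toSet).subset (fun u hu => hu.1))
  refine ⟨x', hx', {y | ∀ j : {u : List ℕ // u ∈ S ∧ act u},
    R.ev (Pi.single j.1 1) (hT.delta _ j.2.2) y = 0},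
    cof_of_functionals (fun j : {u : List ℕ // u ∈ S ∧ act u} =>
      R.ev (Pi.single j.1 1) (hT.delta _ j.2.2)), ?_⟩
  intro y hy
  have hclosed : IsClosed {y : X | 2 * Real.sqrt (‖x'‖ ^ 2 + ‖y‖ ^ 2 / 4) ≤ ‖x' + y‖ + ‖x' - y‖} :=
    isClosed_le (by fun_prop) (by fun_prop)
  have hmem : y ∈ closure {y : X | 2 * Real.sqrt (‖x'‖ ^ 2 + ‖y‖ ^ 2 / 4) ≤
      ‖x' + y‖ + ‖x' - y‖} := by
    rw [Metric.mem_closure_iff]
    intro ε hε
    obtain ⟨c, hc, hyc⟩ := approx hT R S y (fun u hu hact => hy ⟨u, hu, hact⟩) ε hε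
    refine ⟨R.L c, ?_, by rw [dist_eq_norm]; exact hyc⟩
    rw [← hLa]
    exact exact_ineq hT R (S : Set (List ℕ)) h0 hS a c haS (fun v hv => by
      simpa using hc v hv)
  rw [hclosed.closure_eq] at hmem
  exact hmem

end Realization

end Crest.Agent.R125
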