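import Crest.Agent.R125_Defs

/-!
# Row 125, WP-G: the bounded tree in a realization of a test system
-/

set_option autoImplicit false

namespace Crest.Agent.R125

open Crest.AnalysisR Crest.AnalysisR.TreePotential

variable {X : Type} [NormedAddCommGroup X] [NormedSpace ℝ X]

/-- potentials of a delta function vanish at shorter vertices. -/
theorem pot_single_of_length_lt (s : List ℕ) :
    ∀ v : List ℕ, v.length < s.length → pathPotential (Pi.single s (1 : ℝ)) v = 0
  | [], h => by
    have : ([] : List ℕ) ≠ s := by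
      rintro rfl; simp at h
    simp [pathPotential, this]
  | a :: v, h => by
    have h1 : v.length < s.length := by
      simp only [List.length_cons] at h; omega
    have : (a :: v) ≠ s := by
      rintro rfl; simp at h
    simp [pathPotential, pot_single_of_length_lt s v h1, this]

theorem pot_single_self (s : List ℕ) : pathPotential (Pi.single s (1 : ℝ)) s = 1 := by
  cases s with
  | nil => simp [pathPotential]
  | cons a v =>
    simp [pathPotential, pot_single_of_length_lt (a :: v) v (by simp)]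

namespace Realization

variable {T : (List ℕ → ℝ) → Prop} (R : Realization T X)

/-- the nodes of the tree: sums of the coordinate vectors along the root path. -/
def node : List ℕ → X
  | [] => R.e []
  | a :: v => node v + R.e (a :: v)

theorem ev_node (f : List ℕ → ℝ) (hf : T f) :
    ∀ s : List ℕ, R.ev f hf (R.node s) = pathPotential f s
  | [] => by simp [node, pathPotential, R.ev_e]
  | a :: v => by simp [node, pathPotential, R.ev_e, ev_node f hf v]

theorem norm_le_of_ev_le (x : X) (c : ℝ) (h : ∀ f (hf : T f), R.ev f hf x ≤ c) : ‖x‖ ≤ c := by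
  by_contra hcon
  push Not at hcon
  obtain ⟨f, hf, h1⟩ := R.norming x ((‖x‖ - c) / 2) (by linarith)
  have := h f hf
  linarith

theorem norm_node_le {act : List ℕ → Prop} (hT : TestSys T act) (s : List ℕ) : ‖R.node s‖ ≤ 1 := by
  apply R.norm_le_of_ev_le
  intro f hf
  rw [R.ev_node]
  exact (le_abs_self _).trans (hT.pot f hf s)

theorem one_le_norm_node {act : List ℕ → Prop} (hT : TestSys T act) (s : List ℕ) (hs : act s) :
    1 ≤ ‖R.node s‖ := by
  have h := R.ev_le _ (hT.delta s hs) (R.node s)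
  rwa [R.ev_node, pot_single_self] at h

theorem one_le_norm_e {act : List ℕ → Prop} (hT : TestSys T act) (s : List ℕ) (hs : act s) :
    1 ≤ ‖R.e s‖ := by
  have h := R.ev_le _ (hT.delta s hs) (R.e s)
  rwa [R.ev_e, Pi.single_eq_same] at h

theorem norm_sum_children_le {act : List ℕ → Prop} (hT : TestSys T act) (s : List ℕ)
    (A : Finset ℕ) : ‖∑ a ∈ A, R.e (a :: s)‖ ≤ Real.sqrt A.card := by
  apply R.norm_le_of_ev_le
  intro f hf
  rw [map_sum]
  simp only [R.ev_e]
  apply Real.le_sqrt_of_sq_le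
  calc (∑ a ∈ A, f (a :: s)) ^ 2 ≤ A.card * ∑ a ∈ A, f (a :: s) ^ 2 := sq_sum_le_card_mul_sum_sq
    _ ≤ A.card * 1 := mul_le_mul_of_nonneg_left (hT.sib f hf s A) (Nat.cast_nonneg _)
    _ = A.card := mul_one _

end Realization

/-- the hypothesis of `not_auc_of_levels` (for one height `n`, `C = θ = 1`), for a space `Z`
containing isometrically a realization whose vertices of length `1 … n+1` are active -/
theorem Realization.levels {T : (List ℕ → ℝ) → Prop} {act : List ℕ → Prop} (hT : TestSys T act)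
    (R : Realization T X) {Z : Type} [NormedAddCommGroup Z] [NormedSpace ℝ Z] (ι : X →ₗᵢ[ℝ] Z)
    (n : ℕ) (hact : ∀ u : List ℕ, u ≠ [] → u.length ≤ n + 1 → act u) :
    ∃ L : ℕ → Set Z, (∃ x ∈ L 0, (1 : ℝ) ≤ ‖x‖) ∧ (∀ k, ∀ x ∈ L k, ‖x‖ ≤ 1) ∧
      ∀ k < n, ∀ x ∈ L k, ∀ F : Set Z, Cof F → ∀ ε : ℝ, 0 < ε →
        ∃ z z' : Z, x + z ∈ L (k + 1) ∧ 1 ≤ ‖z‖ ∧ z' ∈ F ∧ ‖z - z'‖ < ε := by
  refine ⟨fun k => {x | ∃ s : List ℕ, s.length = k + 1 ∧ x = ι (R.node s)}, ?_, ?_, ?_⟩
  · refine ⟨ι (R.node [0]), ⟨[0], rfl, rfl⟩, ?_⟩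
    rw [ι.norm_map]
    exact R.one_le_norm_node hT _ (hact _ (by simp) (by simp))
  · rintro k x ⟨s, -, rfl⟩
    rw [ι.norm_map]
    exact R.norm_node_le hT s
  · rintro k hk x ⟨s, hs, rfl⟩ F hF ε hε
    have hsum : ∀ A : Finset ℕ, ‖∑ a ∈ A, ι (R.e (a :: s))‖ ≤ Real.sqrt A.card := by
      intro A
      rw [← map_sum, ι.norm_map]
      exact R.norm_sum_children_le hT s A
    have hB : ∀ a, ‖ι (R.e (a :: s))‖ ≤ 1 := by
      intro a
      have := hsum {a}
      simpa using this
    have hav : ∀ δ : ℝ, 0 < δ → ∃ K : ℕ, ∀ A : Finset ℕ, K ≤ A.card →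
        ‖∑ a ∈ A, ι (R.e (a :: s))‖ ≤ δ * A.card := by
      intro δ hδ
      obtain ⟨K, hK⟩ := exists_nat_gt (1 / δ ^ 2)
      refine ⟨K, fun A hA => (hsum A).trans ?_⟩
      have hc : (1 / δ ^ 2 : ℝ) < A.card := lt_of_lt_of_le hK (by exact_mod_cast hA)
      have hc0 : (0 : ℝ) < A.card := lt_of_le_of_lt (by positivity) hc
      apply Real.sqrt_le_iff.mpr
      refine ⟨by positivity, ?_⟩
      rw [div_lt_iff₀ (by positivity)] at hc
      nlinarith
    obtain ⟨a, -, z', hz', hlt⟩ := exists_close_of_averages hB hav hF hε 0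
    refine ⟨ι (R.e (a :: s)), z', ⟨a :: s, by simp [hs], ?_⟩, ?_, hz', hlt⟩
    · rw [← map_add]; rfl
    · rw [ι.norm_map]
      exact R.one_le_norm_e hT _ (hact _ (by simp) (by simp [hs]; omega))

end Crest.Agent.R125
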