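import Mathlib

/-!
# Row 211 (S0324 -- S0329): common definitions (helper file, no sorry)
-/

set_option autoImplicit false

namespace Crest.Agent.R211

open MeasureTheory
open scoped ENNReal

abbrev E2 : Type := EuclideanSpace ℝ (Fin 2)
abbrev E3 : Type := EuclideanSpace ℝ (Fin 3)

/-- Gram determinant of two vectors (= squared area of the parallelogram they span). -/
noncomputable def gram (a b : E3) : ℝ := ‖a‖ ^ 2 * ‖b‖ ^ 2 - inner ℝ a b ^ 2

/-- the 3 x 3 determinant, written out. -/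
def det3 (a b c : E3) : ℝ :=
  a 0 * (b 1 * c 2 - b 2 * c 1) - a 1 * (b 0 * c 2 - b 2 * c 0) + a 2 * (b 0 * c 1 - b 1 * c 0)

/-- the 2 x 2 determinant, written out. -/
def det2 (a b : E2) : ℝ := a 0 * b 1 - a 1 * b 0

/-- closed parallelogram `c + [0,1] a + [0,1] b`. -/
def pgram (c a b : E3) : Set E3 :=
  {x | ∃ s ∈ Set.Icc (0 : ℝ) 1, ∃ t ∈ Set.Icc (0 : ℝ) 1, x = c + s • a + t • b}

/-- cylinder with base `B` and axis direction `u`. -/
def cyl (B : Set E3) (u : E3) : Set E3 := {x | ∃ y ∈ B, ∃ τ : ℝ, x = y + τ • u}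

/-- the standard regular tetrahedron of edge 2. -/
noncomputable def Kstd : Set E3 :=
  convexHull ℝ {!₂[1, 0, 0], !₂[-1, 0, 0], !₂[0, 1, Real.sqrt 2], !₂[0, -1, Real.sqrt 2]}

/-- orthogonal projection onto `v^⊥` (for a unit vector `v`). -/
noncomputable def prj (v y : E3) : E3 := y - inner ℝ y v • v

end Crest.Agent.R211
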