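import Mathlib
import Crest.Agent.R211_Defs

/-!
# Row 211 (S0324–S0329): area toolkit, part 0 (helper3)

`μHE[2]` of affine images of planar sets.
-/

open MeasureTheory
open scoped ENNReal

namespace Crest.Agent.R211

variable {W : Type*} [NormedAddCommGroup W] [InnerProductSpace ℝ W]

/-- the linear map `(x,y) ↦ x a + y b`. -/
noncomputable def lin2 (a b : W) : E2 →ₗ[ℝ] W where
  toFun x := x 0 • a + x 1 • b
  map_add' x y := by
    simp only [PiLp.add_apply, add_smul]; abel
  map_smul' r x := by
    simp only [PiLp.smul_apply, smul_eq_mul, RingHom.id_apply, smul_add, mul_smul]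

@[simp] theorem lin2_apply (a b : W) (x : E2) : lin2 a b x = x 0 • a + x 1 • b := rfl

/-- Gram determinant of two vectors. -/
noncomputable def gram2 (a b : W) : ℝ := ‖a‖ ^ 2 * ‖b‖ ^ 2 - (inner ℝ a b) ^ 2

theorem gram2_nonneg (a b : W) : 0 ≤ gram2 a b := by
  unfold gram2
  have h := abs_real_inner_le_norm a b
  have h2 : (inner ℝ a b) ^ 2 ≤ (‖a‖ * ‖b‖) ^ 2 := by
    rw [← sq_abs (inner ℝ a b)]
    exact pow_le_pow_left₀ (abs_nonneg _) h 2
  nlinarith [h2]

theorem normDet_lin2 (a b : W) : (lin2 a b).normDet = Real.sqrt (gram2 a b) := by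
  have h := LinearMap.normDet_sq_eq_det_gram (𝕜 := ℝ) (lin2 a b) (EuclideanSpace.basisFun (Fin 2) ℝ)
  rw [Matrix.det_fin_two] at h
  simp only [Matrix.gram_apply, lin2_apply, EuclideanSpace.basisFun_apply] at h
  simp at h
  have h2 : (lin2 a b).normDet ^ 2 = gram2 a b := by
    rw [h]; unfold gram2; rw [real_inner_comm a b]; ring
  rw [← h2, Real.sqrt_sq (LinearMap.normDet_nonneg _)]

variable [MeasurableSpace W] [BorelSpace W]

/-- **Area formula** for affine images of planar sets. -/
theorem area_affine_image (c a b : W) (s : Set E2) :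
    μHE[2] ((fun x : E2 => c + (x 0 • a + x 1 • b)) '' s)
      = ENNReal.ofReal (Real.sqrt (gram2 a b)) * volume s := by
  have h := LinearMap.euclideanHausdorffMeasure_image_eq_normDet_mul_volume (lin2 a b) s
  rw [normDet_lin2] at h
  have hr : Module.finrank ℝ E2 = 2 := by simp
  rw [hr] at h
  rw [← h]
  have : (fun x : E2 => c + (x 0 • a + x 1 • b)) '' s = (fun y => c + y) '' ((lin2 a b) '' s) := by
    rw [Set.image_image]; rfl
  rw [this]
  exact (isometry_add_left c).euclideanHausdorffMeasure_image _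

/-- the measure preserving identification `E2 → ℝ × ℝ`. -/
theorem measurePreserving_E2_prod :
    MeasurePreserving (fun x : E2 => ((x 0, x 1) : ℝ × ℝ)) volume volume :=
  (volume_preserving_finTwoArrow ℝ).comp (PiLp.volume_preserving_ofLp (Fin 2))

theorem volume_E2_preimage {s : Set (ℝ × ℝ)} (hs : MeasurableSet s) :
    volume {x : E2 | ((x 0, x 1) : ℝ × ℝ) ∈ s} = volume s :=
  measurePreserving_E2_prod.measure_preimage hs.nullMeasurableSet

theorem volume_E2_box (s t : Set ℝ) (hs : MeasurableSet s) (ht : MeasurableSet t) :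
    volume {x : E2 | x 0 ∈ s ∧ x 1 ∈ t} = volume s * volume t := by
  have := volume_E2_preimage (hs.prod ht)
  rw [Measure.volume_eq_prod, Measure.prod_prod] at this
  rw [← this]; rfl


/-- the standard triangle in `ℝ × ℝ`. -/
def stdTriProd : Set (ℝ × ℝ) := {z | 0 ≤ z.1 ∧ 0 ≤ z.2 ∧ z.1 + z.2 ≤ 1}

theorem measurableSet_stdTriProd : MeasurableSet stdTriProd := by
  apply IsClosed.measurableSet
  unfold stdTriProd
  have h1 : IsClosed {z : ℝ × ℝ | 0 ≤ z.1} := isClosed_le continuous_const continuous_fst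
  have h2 : IsClosed {z : ℝ × ℝ | 0 ≤ z.2} := isClosed_le continuous_const continuous_snd
  have h3 : IsClosed {z : ℝ × ℝ | z.1 + z.2 ≤ 1} :=
    isClosed_le (continuous_fst.add continuous_snd) continuous_const
  exact h1.inter (h2.inter h3)

theorem volume_stdTriProd : volume stdTriProd = ENNReal.ofReal (1 / 2) := by
  rw [Measure.volume_eq_prod, Measure.prod_apply measurableSet_stdTriProd]
  have h : ∀ x : ℝ, volume (Prod.mk x ⁻¹' stdTriProd)
      = (Set.Icc (0:ℝ) 1).indicator (fun x => ENNReal.ofReal (1 - x)) x := by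
    intro x
    by_cases hx : x ∈ Set.Icc (0:ℝ) 1
    · rw [Set.indicator_of_mem hx]
      have : Prod.mk x ⁻¹' stdTriProd = Set.Icc 0 (1 - x) := by
        ext y
        simp only [stdTriProd, Set.mem_preimage, Set.mem_ofPred_eq, Set.mem_Icc]
        constructor
        · rintro ⟨_, h2, h3⟩; exact ⟨h2, by linarith⟩
        · rintro ⟨h2, h3⟩; exact ⟨hx.1, h2, by linarith⟩
      rw [this, Real.volume_Icc, sub_zero]
    · rw [Set.indicator_of_notMem hx]
      have : Prod.mk x ⁻¹' stdTriProd = ∅ := by
        ext y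
        simp only [stdTriProd, Set.mem_preimage, Set.mem_ofPred_eq, Set.mem_empty_iff_false,
          iff_false]
        rintro ⟨h1, h2, h3⟩
        exact hx ⟨h1, by linarith⟩
      rw [this, measure_empty]
  simp_rw [h]
  rw [lintegral_indicator measurableSet_Icc]
  rw [← ofReal_integral_eq_lintegral_ofReal]
  · congr 1
    rw [integral_Icc_eq_integral_Ioc, ← intervalIntegral.integral_of_le zero_le_one]
    rw [intervalIntegral.integral_sub (by simp) (by simp)]
    simp
    norm_num
  · exact (continuous_const.sub continuous_id).integrableOn_Icc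
  · filter_upwards [ae_restrict_mem measurableSet_Icc] with x hx
    simp only [Pi.zero_apply]; linarith [hx.2]

/-- the standard triangle in `E2`. -/
def stdTri : Set E2 := {x | 0 ≤ x 0 ∧ 0 ≤ x 1 ∧ x 0 + x 1 ≤ 1}

theorem volume_stdTri : volume stdTri = ENNReal.ofReal (1 / 2) := by
  rw [← volume_stdTriProd, ← volume_E2_preimage measurableSet_stdTriProd]; rfl

omit [MeasurableSpace W] [BorelSpace W] in
theorem convexHull_triple_eq_image (p q r : W) :
    convexHull ℝ {p, q, r} = (fun x : E2 => p + (x 0 • (q - p) + x 1 • (r - p))) '' stdTri := by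
  apply Set.Subset.antisymm
  · apply convexHull_min
    · intro z hz
      simp only [Set.mem_insert_iff, Set.mem_singleton_iff] at hz
      rcases hz with rfl | rfl | rfl
      · exact ⟨!₂[0, 0], by simp [stdTri], by simp⟩
      · exact ⟨!₂[1, 0], by simp [stdTri], by simp⟩
      · exact ⟨!₂[0, 1], by simp [stdTri], by simp⟩
    · have hc : Convex ℝ stdTri := by
        intro x hx y hy s t hs ht hst
        simp only [stdTri, Set.mem_ofPred_eq, PiLp.add_apply, PiLp.smul_apply, smul_eq_mul] at *
        refine ⟨by nlinarith [hx.1, hy.1], by nlinarith [hx.2.1, hy.2.1], ?_⟩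
        nlinarith [hx.2.2, hy.2.2]
      have : (fun x : E2 => p + (x 0 • (q - p) + x 1 • (r - p))) '' stdTri
          = (fun y => p + y) '' ((lin2 (q - p) (r - p)) '' stdTri) := by
        rw [Set.image_image]; rfl
      rw [this]
      exact (hc.linear_image _).translate p
  · rintro _ ⟨x, ⟨h0, h1, h2⟩, rfl⟩
    have hC := convex_convexHull ℝ ({p, q, r} : Set W)
    have hp : p ∈ convexHull ℝ ({p, q, r} : Set W) := subset_convexHull ℝ _ (by simp)
    have hq : q ∈ convexHull ℝ ({p, q, r} : Set W) := subset_convexHull ℝ _ (by simp)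
    have hr : r ∈ convexHull ℝ ({p, q, r} : Set W) := subset_convexHull ℝ _ (by simp)
    have := hC.sum_mem (t := Finset.univ) (w := ![1 - x 0 - x 1, x 0, x 1]) (z := ![p, q, r])
      (by intro i _; fin_cases i <;> simp <;> linarith)
      (by simp only [Fin.sum_univ_three, Matrix.cons_val_zero, Matrix.cons_val_one, Matrix.cons_val_two, Matrix.head_cons, Matrix.tail_cons]; ring)
      (by intro i _; fin_cases i <;> simp [hp, hq, hr])
    simp only [Fin.sum_univ_three, Matrix.cons_val_zero, Matrix.cons_val_one,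
      Matrix.cons_val_two, Matrix.head_cons, Matrix.tail_cons] at this
    convert this using 1
    simp only [smul_sub, sub_smul, one_smul]
    abel

/-- **Area of a triangle.** -/
theorem area_triangle (p q r : W) :
    μHE[2] (convexHull ℝ {p, q, r}) = ENNReal.ofReal (Real.sqrt (gram2 (q - p) (r - p)) / 2) := by
  rw [convexHull_triple_eq_image, area_affine_image, volume_stdTri,
    ← ENNReal.ofReal_mul (Real.sqrt_nonneg _)]
  congr 1; ring

theorem area_triangle_toReal (p q r : W) :
    (μHE[2] (convexHull ℝ {p, q, r})).toReal = Real.sqrt (gram2 (q - p) (r - p)) / 2 := by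
  rw [area_triangle, ENNReal.toReal_ofReal (by positivity)]


/-- **Area of a parallelogram** (in the form used by S0327). -/
theorem area_parallelogram (c a b : W) :
    μHE[2] {x : W | ∃ s ∈ Set.Icc (0 : ℝ) 1, ∃ t ∈ Set.Icc (0 : ℝ) 1, x = c + s • a + t • b}
      = ENNReal.ofReal (Real.sqrt (gram2 a b)) := by
  have : {x : W | ∃ s ∈ Set.Icc (0 : ℝ) 1, ∃ t ∈ Set.Icc (0 : ℝ) 1, x = c + s • a + t • b}
      = (fun x : E2 => c + (x 0 • a + x 1 • b)) '' {x : E2 | x 0 ∈ Set.Icc (0:ℝ) 1 ∧ x 1 ∈ Set.Icc (0:ℝ) 1} := by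
    ext z
    constructor
    · rintro ⟨s, hs, t, ht, rfl⟩
      exact ⟨!₂[s, t], ⟨by simpa using hs, by simpa using ht⟩, by simp [add_assoc]⟩
    · rintro ⟨x, ⟨h0, h1⟩, rfl⟩
      exact ⟨x 0, h0, x 1, h1, by simp [add_assoc]⟩
  rw [this, area_affine_image, volume_E2_box _ _ measurableSet_Icc measurableSet_Icc]
  simp

/-! ### The names of the plan file -/

theorem gram_eq_gram2 (a b : E3) : gram a b = gram2 a b := rfl

theorem gram_nonneg (a b : E3) : 0 ≤ gram a b := gram2_nonneg a b

theorem area_pgram (c a b : E3) :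
    μHE[2] (pgram c a b) = ENNReal.ofReal (Real.sqrt (gram a b)) := area_parallelogram c a b

theorem area_tri (p q r : E3) :
    μHE[2] (convexHull ℝ {p, q, r}) = ENNReal.ofReal (Real.sqrt (gram (q - p) (r - p)) / 2) :=
  area_triangle p q r

theorem area_image_chart (ι : E2 →ₗᵢ[ℝ] E3) (s : Set E2) : μHE[2] (ι '' s) = volume s := by
  rw [ι.isometry.euclideanHausdorffMeasure_image, EuclideanSpace.euclideanHausdorffMeasure_eq_volume]

end Crest.Agent.R211
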