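import Mathlib
import Crest.Agent.R211_Defs
import Crest.Agent.R211_Area0

/-!
# Row 211: the AREA toolkit (2-dimensional Euclidean Hausdorff measure of planar sets in `ℝ³`)
-/

set_option autoImplicit false

namespace Crest.Agent.R211

open MeasureTheory
open scoped ENNReal

/-! ### coordinates -/

theorem inner3 (a b : E3) : inner ℝ a b = a 0 * b 0 + a 1 * b 1 + a 2 * b 2 := by
  simp [PiLp.inner_apply, Fin.sum_univ_three]
  ring

theorem normsq3 (a : E3) : ‖a‖ ^ 2 = a 0 ^ 2 + a 1 ^ 2 + a 2 ^ 2 := by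
  rw [← real_inner_self_eq_norm_sq, inner3]; ring

theorem inner2 (a b : E2) : inner ℝ a b = a 0 * b 0 + a 1 * b 1 := by
  simp [PiLp.inner_apply, Fin.sum_univ_two]
  ring

theorem normsq2 (a : E2) : ‖a‖ ^ 2 = a 0 ^ 2 + a 1 ^ 2 := by
  rw [← real_inner_self_eq_norm_sq, inner2]; ring

theorem gram_coord (a b : E3) : gram a b =
    (a 0 ^ 2 + a 1 ^ 2 + a 2 ^ 2) * (b 0 ^ 2 + b 1 ^ 2 + b 2 ^ 2)
      - (a 0 * b 0 + a 1 * b 1 + a 2 * b 2) ^ 2 := by
  unfold gram; rw [normsq3, normsq3, inner3]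

@[simp] theorem prj_apply (v y : E3) (i : Fin 3) : prj v y i = y i - inner ℝ y v * v i := by
  simp [prj]

theorem prj_sub (v x y : E3) : prj v x - prj v y = prj v (x - y) := by
  unfold prj; rw [inner_sub_left, sub_smul]; abel

theorem prj_add (v x y : E3) : prj v (x + y) = prj v x + prj v y := by
  unfold prj; rw [inner_add_left, add_smul]; abel

theorem prj_smul (v : E3) (c : ℝ) (x : E3) : prj v (c • x) = c • prj v x := by
  unfold prj; rw [inner_smul_left, smul_sub, smul_smul]; simp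

theorem inner_prj (v y : E3) (hv : ‖v‖ = 1) : inner ℝ (prj v y) v = 0 := by
  unfold prj; rw [inner_sub_left, inner_smul_left, real_inner_self_eq_norm_sq, hv]; simp

theorem prj_of_inner_eq_zero (v y : E3) (h : inner ℝ y v = 0) : prj v y = y := by
  unfold prj; rw [h]; simp

/-- polynomial identity in the coordinates -/
theorem gram_prj (v a b : E3) (hv : ‖v‖ = 1) : gram (prj v a) (prj v b) = det3 a b v ^ 2 := by
  have hn : v 0 ^ 2 + v 1 ^ 2 + v 2 ^ 2 = 1 := by rw [← normsq3, hv]; norm_num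
  rw [gram_coord]
  simp only [prj_apply, inner3, det3]
  generalize a 0 = a0
  generalize a 1 = a1
  generalize a 2 = a2
  generalize b 0 = b0
  generalize b 1 = b1
  generalize b 2 = b2
  generalize v 0 = v0 at *
  generalize v 1 = v1 at *
  generalize v 2 = v2 at *
  linear_combination (-((a0 ^ 2 + a1 ^ 2 + a2 ^ 2) * (b0 ^ 2 + b1 ^ 2 + b2 ^ 2)
    - (a0 * b0 + a1 * b1 + a2 * b2) ^ 2
    - ((a0 ^ 2 + a1 ^ 2 + a2 ^ 2) * (b0 * v0 + b1 * v1 + b2 * v2) ^ 2
      + (b0 ^ 2 + b1 ^ 2 + b2 ^ 2) * (a0 * v0 + a1 * v1 + a2 * v2) ^ 2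
      - 2 * (a0 * b0 + a1 * b1 + a2 * b2) * (a0 * v0 + a1 * v1 + a2 * v2)
        * (b0 * v0 + b1 * v1 + b2 * v2)))) * hn

/-- barycentric description of a triangle. -/
theorem mem_tri_iff {E : Type*} [AddCommGroup E] [Module ℝ E] (p q r x : E) :
    x ∈ convexHull ℝ ({p, q, r} : Set E) ↔
      ∃ α β γ : ℝ, 0 ≤ α ∧ 0 ≤ β ∧ 0 ≤ γ ∧ α + β + γ = 1 ∧ x = α • p + β • q + γ • r := by
  constructor
  · intro hx
    have hconv : Convex ℝ {x : E | ∃ α β γ : ℝ, 0 ≤ α ∧ 0 ≤ β ∧ 0 ≤ γ ∧ α + β + γ = 1 ∧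
        x = α • p + β • q + γ • r} := by
      rintro x ⟨α, β, γ, h1, h2, h3, h4, rfl⟩ y ⟨α', β', γ', h1', h2', h3', h4', rfl⟩ s t hs ht hst
      refine ⟨s * α + t * α', s * β + t * β', s * γ + t * γ', by positivity, by positivity,
        by positivity, ?_, ?_⟩
      · calc s * α + t * α' + (s * β + t * β') + (s * γ + t * γ')
            = s * (α + β + γ) + t * (α' + β' + γ') := by ring
          _ = 1 := by rw [h4, h4']; linarith
      · simp only [smul_add, add_smul, mul_smul]; abel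
    refine convexHull_min ?_ hconv hx
    rintro y (rfl | rfl | rfl)
    · exact ⟨1, 0, 0, by norm_num, le_rfl, le_rfl, by norm_num, by simp⟩
    · exact ⟨0, 1, 0, le_rfl, by norm_num, le_rfl, by norm_num, by simp⟩
    · exact ⟨0, 0, 1, le_rfl, le_rfl, by norm_num, by norm_num, by simp⟩
  · rintro ⟨α, β, γ, h1, h2, h3, h4, rfl⟩
    have hc := convex_convexHull ℝ ({p, q, r} : Set E)
    have := hc.sum_mem (t := Finset.univ) (w := ![α, β, γ]) (z := ![p, q, r])
      (by intro i _; fin_cases i <;> simp [h1, h2, h3])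
      (by simp [Fin.sum_univ_three, h4])
      (by
        intro i _
        apply subset_convexHull
        fin_cases i <;> simp)
    simpa [Fin.sum_univ_three] using this

theorem norm_unit (d : E3) (hd : d ≠ 0) : ‖(‖d‖⁻¹ • d)‖ = 1 := by
  rw [norm_smul, norm_inv, norm_norm, inv_mul_cancel₀ (norm_ne_zero_iff.2 hd)]

theorem det3_smul_right (a b d : E3) (c : ℝ) : det3 a b (c • d) = c * det3 a b d := by
  simp [det3]; ring

theorem sqrt_gram_prj (a b d : E3) (hd : d ≠ 0) :
    Real.sqrt (gram (prj (‖d‖⁻¹ • d) a) (prj (‖d‖⁻¹ • d) b)) = |det3 a b d| / ‖d‖ := by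
  rw [gram_prj _ _ _ (norm_unit d hd), Real.sqrt_sq_eq_abs, det3_smul_right, abs_mul, abs_inv,
    abs_norm]
  field_simp

/-- the triangular cylinder through `P Q R` with axis direction `d`. -/
theorem cylTri (P Q R d : E3) (hd : d ≠ 0) :
    ‖(‖d‖⁻¹ • d)‖ = 1 ∧
    (∀ X : E3, inner ℝ (prj (‖d‖⁻¹ • d) X) (‖d‖⁻¹ • d) = 0) ∧
    (∀ α β γ τ : ℝ, 0 ≤ α → 0 ≤ β → 0 ≤ γ → α + β + γ = 1 →
      α • P + β • Q + γ • R + τ • d ∈
        {x : E3 | ∃ y ∈ convexHull ℝ {prj (‖d‖⁻¹ • d) P, prj (‖d‖⁻¹ • d) Q, prj (‖d‖⁻¹ • d) R},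
          ∃ t : ℝ, x = y + t • (‖d‖⁻¹ • d)}) ∧
    μHE[2] (convexHull ℝ {prj (‖d‖⁻¹ • d) P, prj (‖d‖⁻¹ • d) Q, prj (‖d‖⁻¹ • d) R}) =
      ENNReal.ofReal (|det3 (Q - P) (R - P) d| / (2 * ‖d‖)) := by
  have hu := norm_unit d hd
  have hdn : ‖d‖ ≠ 0 := norm_ne_zero_iff.2 hd
  refine ⟨hu, fun X => inner_prj _ _ hu, ?_, ?_⟩
  · intro α β γ τ hα hβ hγ hs
    set u := ‖d‖⁻¹ • d with hu_def
    refine ⟨α • prj u P + β • prj u Q + γ • prj u R,
      (mem_tri_iff _ _ _ _).2 ⟨α, β, γ, hα, hβ, hγ, hs, rfl⟩,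
      inner ℝ (α • P + β • Q + γ • R) u + τ * ‖d‖, ?_⟩
    have hd' : d = ‖d‖ • u := by
      rw [hu_def, smul_smul, mul_inv_cancel₀ hdn, one_smul]
    have h1 : α • prj u P + β • prj u Q + γ • prj u R = prj u (α • P + β • Q + γ • R) := by
      rw [prj_add, prj_add, prj_smul, prj_smul, prj_smul]
    rw [h1, add_smul, mul_smul, ← hd']
    unfold prj
    abel
  · rw [area_tri, prj_sub, prj_sub, sqrt_gram_prj _ _ _ hd]
    congr 1
    field_simp

/-- same for parallelograms. -/
theorem cylPgram (c a b d : E3) (hd : d ≠ 0) :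
    (∀ s t τ : ℝ, c + s • a + t • b + τ • d =
      prj (‖d‖⁻¹ • d) c + s • prj (‖d‖⁻¹ • d) a + t • prj (‖d‖⁻¹ • d) b +
        (inner ℝ (c + s • a + t • b) (‖d‖⁻¹ • d) + τ * ‖d‖) • (‖d‖⁻¹ • d)) ∧
    μHE[2] (pgram (prj (‖d‖⁻¹ • d) c) (prj (‖d‖⁻¹ • d) a) (prj (‖d‖⁻¹ • d) b)) =
      ENNReal.ofReal (|det3 a b d| / ‖d‖) := by
  have hdn : ‖d‖ ≠ 0 := norm_ne_zero_iff.2 hd
  refine ⟨?_, ?_⟩
  · intro s t τ
    set u := ‖d‖⁻¹ • d with hu_def
    have hd' : d = ‖d‖ • u := by
      rw [hu_def, smul_smul, mul_inv_cancel₀ hdn, one_smul]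
    have h1 : prj u c + s • prj u a + t • prj u b = prj u (c + s • a + t • b) := by
      rw [prj_add, prj_add, prj_smul, prj_smul]
    rw [h1, add_smul, mul_smul, ← hd']
    unfold prj
    abel
  · rw [area_pgram, sqrt_gram_prj _ _ _ hd]

/-- relation between the two normalisations (needed for S0324 only). -/
theorem exists_muH_const : ∃ κ : ℝ, 0 < κ ∧ ∀ s : Set E3,
    (μHE[2] s).toReal = κ * (μH[(2 : ℝ)] s).toReal := by
  refine ⟨(Measure.addHaarScalarFactor (volume : Measure (EuclideanSpace ℝ (Fin 2)))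
    μH[((2 : ℕ) : ℝ)] : NNReal), ?_, ?_⟩
  · have := Measure.addHaarScalarFactor_volume_hausdorffMeasure_ne_zero 2
    exact_mod_cast pos_iff_ne_zero.2 this
  · intro s
    rw [Measure.euclideanHausdorffMeasure_def, Measure.smul_apply]
    simp [ENNReal.smul_def]


theorem gram_eq_det3_sq (u a b : E3) (hu : ‖u‖ = 1) (ha : inner ℝ a u = 0) (hb : inner ℝ b u = 0) :
    gram a b = det3 a b u ^ 2 := by
  have h := gram_prj u a b hu
  rwa [prj_of_inner_eq_zero _ _ ha, prj_of_inner_eq_zero _ _ hb] at h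

theorem area_line_eq_zero (A v : E3) : μHE[2] {x : E3 | ∃ t : ℝ, x = A + t • v} = 0 := by
  have h := area_affine_image A v (0 : E3) (Set.univ : Set E2)
  have hg : gram2 v (0 : E3) = 0 := by simp [gram2]
  rw [hg] at h
  simp only [Real.sqrt_zero, ENNReal.ofReal_zero, zero_mul] at h
  refine measure_mono_null ?_ h
  rintro x ⟨t, rfl⟩
  exact ⟨!₂[t, 0], trivial, by simp⟩

theorem area_tri_eq_abs_det3 (u A B C : E3) (hu : ‖u‖ = 1) (hB : inner ℝ (B - A) u = 0)
    (hC : inner ℝ (C - A) u = 0) :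
    μHE[2] (convexHull ℝ {A, B, C}) = ENNReal.ofReal (|det3 (B - A) (C - A) u| / 2) := by
  rw [area_tri, gram_eq_det3_sq u _ _ hu hB hC, Real.sqrt_sq_eq_abs]

/-- hull of two coplanar segments `AB`, `CD`. -/
theorem area_quad_ge (u A B C D : E3) (hu : ‖u‖ = 1) (hB : inner ℝ (B - A) u = 0)
    (hC : inner ℝ (C - A) u = 0) (hD : inner ℝ (D - A) u = 0) :
    ENNReal.ofReal (Real.sqrt (gram (B - A) (D - C)) / 2) ≤ μHE[2] (convexHull ℝ {A, B, C, D}) := by
  have hDC : inner ℝ (D - C) u = 0 := by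
    have : D - C = (D - A) - (C - A) := by abel
    rw [this, inner_sub_left, hD, hC, sub_zero]
  set sC := det3 (B - A) (C - A) u with hsC
  set sD := det3 (B - A) (D - A) u with hsD
  have hdet : det3 (B - A) (D - C) u = sD - sC := by
    simp only [hsC, hsD, det3, PiLp.sub_apply]; ring
  rw [gram_eq_det3_sq u _ _ hu hB hDC, Real.sqrt_sq_eq_abs, hdet]
  have hTC : convexHull ℝ ({A, B, C} : Set E3) ⊆ convexHull ℝ {A, B, C, D} := by
    apply convexHull_mono
    intro x hx
    simp only [Set.mem_insert_iff, Set.mem_singleton_iff] at hx ⊢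
    tauto
  have hTD : convexHull ℝ ({A, B, D} : Set E3) ⊆ convexHull ℝ {A, B, C, D} := by
    apply convexHull_mono
    intro x hx
    simp only [Set.mem_insert_iff, Set.mem_singleton_iff] at hx ⊢
    tauto
  have aC := area_tri_eq_abs_det3 u A B C hu hB hC
  have aD := area_tri_eq_abs_det3 u A B D hu hB hD
  rw [← hsC] at aC
  rw [← hsD] at aD
  by_cases hsign : 0 ≤ sC * sD
  · -- same side
    have hmax : |sD - sC| ≤ |sC| ∨ |sD - sC| ≤ |sD| := by
      rcases le_total 0 sC with h1 | h1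
      · have h2 : 0 ≤ sD ∨ sC = 0 := by
          by_contra hcon
          push Not at hcon
          have : 0 < sC := lt_of_le_of_ne h1 (Ne.symm hcon.2)
          nlinarith [hcon.1]
        rcases h2 with h2 | h2
        · rcases le_total sC sD with h3 | h3
          · right; rw [abs_of_nonneg (by linarith), abs_of_nonneg h2]; linarith
          · left; rw [abs_of_nonpos (by linarith), abs_of_nonneg h1]; linarith
        · right; rw [h2]; simp
      · have h2 : sD ≤ 0 ∨ sC = 0 := by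
          by_contra hcon
          push Not at hcon
          have : sC < 0 := lt_of_le_of_ne h1 hcon.2
          nlinarith [hcon.1]
        rcases h2 with h2 | h2
        · rcases le_total sC sD with h3 | h3
          · left; rw [abs_of_nonneg (by linarith), abs_of_nonpos h1]; linarith
          · right; rw [abs_of_nonpos (by linarith), abs_of_nonpos h2]; linarith
        · right; rw [h2]; simp
    rcases hmax with h | h
    · calc ENNReal.ofReal (|sD - sC| / 2) ≤ ENNReal.ofReal (|sC| / 2) :=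
            ENNReal.ofReal_le_ofReal (by linarith)
        _ = μHE[2] (convexHull ℝ {A, B, C}) := aC.symm
        _ ≤ _ := measure_mono hTC
    · calc ENNReal.ofReal (|sD - sC| / 2) ≤ ENNReal.ofReal (|sD| / 2) :=
            ENNReal.ofReal_le_ofReal (by linarith)
        _ = μHE[2] (convexHull ℝ {A, B, D}) := aD.symm
        _ ≤ _ := measure_mono hTD
  · -- opposite sides
    push Not at hsign
    have hint : μHE[2] (convexHull ℝ ({A, B, C} : Set E3) ∩ convexHull ℝ {A, B, D}) = 0 := by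
      refine measure_mono_null ?_ (area_line_eq_zero A (B - A))
      rintro x ⟨hx1, hx2⟩
      obtain ⟨α, β, γ, h1, h2, h3, h4, rfl⟩ := (mem_tri_iff _ _ _ _).1 hx1
      obtain ⟨α', β', γ', h1', h2', h3', h4', hx⟩ := (mem_tri_iff _ _ _ _).1 hx2
      have e1 : det3 (B - A) (α • A + β • B + γ • C - A) u = γ * sC := by
        have hα : α = 1 - β - γ := by linarith
        subst hα
        simp only [hsC, det3, PiLp.sub_apply, PiLp.add_apply, PiLp.smul_apply, smul_eq_mul]; ring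
      have e2 : det3 (B - A) (α • A + β • B + γ • C - A) u = γ' * sD := by
        rw [hx]
        have hα : α' = 1 - β' - γ' := by linarith
        subst hα
        simp only [hsD, det3, PiLp.sub_apply, PiLp.add_apply, PiLp.smul_apply, smul_eq_mul]; ring
      have e3 : γ * sC = γ' * sD := by rw [← e1, e2]
      have hγ : γ = 0 := by
        by_contra hne
        have hpos : 0 < γ := lt_of_le_of_ne h3 (Ne.symm hne)
        have hsC0 : sC ≠ 0 := by
          intro h0; rw [h0] at hsign; simp at hsign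
        have : 0 < γ * sC ^ 2 := by positivity
        have h5 : γ * sC ^ 2 = γ' * (sC * sD) := by
          calc γ * sC ^ 2 = (γ * sC) * sC := by ring
            _ = (γ' * sD) * sC := by rw [e3]
            _ = _ := by ring
        nlinarith
      refine ⟨β, ?_⟩
      have hα : α = 1 - β := by linarith
      rw [hγ, hα]
      simp only [smul_sub, sub_smul, one_smul, zero_smul]; abel
    have hmeas : MeasurableSet (convexHull ℝ ({A, B, D} : Set E3)) := by
      apply IsClosed.measurableSet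
      apply IsCompact.isClosed
      apply Set.Finite.isCompact_convexHull
      simp
    have h := measure_union_add_inter (convexHull ℝ ({A, B, C} : Set E3)) hmeas (μ := μHE[2])
    rw [hint, add_zero, aC, aD, ← ENNReal.ofReal_add (by positivity) (by positivity)] at h
    have habs : |sD - sC| = |sC| + |sD| := by
      rcases lt_or_ge 0 sC with h1 | h1
      · have h2 : sD < 0 := by nlinarith
        rw [abs_of_neg (by linarith), abs_of_pos h1, abs_of_neg h2]; ring
      · have h1' : sC < 0 := by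
          rcases eq_or_lt_of_le h1 with h0 | h0
          · rw [h0] at hsign; simp at hsign
          · exact h0
        have h2 : 0 < sD := by nlinarith
        rw [abs_of_pos (by linarith), abs_of_neg h1', abs_of_pos h2]; ring
    calc ENNReal.ofReal (|sD - sC| / 2) = ENNReal.ofReal (|sC| / 2 + |sD| / 2) := by
          rw [habs]; congr 1; ring
      _ = μHE[2] (convexHull ℝ ({A, B, C} : Set E3) ∪ convexHull ℝ {A, B, D}) := h.symm
      _ ≤ _ := measure_mono (Set.union_subset hTC hTD)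


instance : Fact (Module.finrank ℝ E3 = 2 + 1) := ⟨by simp⟩

/-- chart of the plane `u^⊥`. -/
theorem exists_chart (u : E3) (hu : ‖u‖ = 1) :
    ∃ ι : E2 →ₗᵢ[ℝ] E3, (∀ x, inner ℝ (ι x) u = 0) ∧ ∀ y : E3, inner ℝ y u = 0 → ∃ x, ι x = y := by
  have hu0 : u ≠ 0 := by
    intro h; rw [h] at hu; simp at hu
  let b := OrthonormalBasis.fromOrthogonalSpanSingleton (𝕜 := ℝ) 2 hu0
  refine ⟨(Submodule.subtypeₗᵢ (ℝ ∙ u)ᗮ).comp b.repr.symm.toLinearIsometry, ?_, ?_⟩
  · intro x
    have : ((b.repr.symm x : (ℝ ∙ u)ᗮ) : E3) ∈ (ℝ ∙ u)ᗮ := (b.repr.symm x).2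
    exact (Submodule.mem_orthogonal_singleton_iff_inner_left).1 this
  · intro y hy
    have hy' : y ∈ (ℝ ∙ u)ᗮ := (Submodule.mem_orthogonal_singleton_iff_inner_left).2 hy
    refine ⟨b.repr ⟨y, hy'⟩, ?_⟩
    simp

theorem area_lt_top (u : E3) (hu : ‖u‖ = 1) (P : Set E3) (hP : ∀ y ∈ P, inner ℝ y u = 0)
    (hb : Bornology.IsBounded P) : μHE[2] P < ⊤ := by
  obtain ⟨ι, h1, h2⟩ := exists_chart u hu
  have hPeq : P = ι '' (ι ⁻¹' P) := by
    ext y
    constructor
    · intro hy
      obtain ⟨x, rfl⟩ := h2 y (hP y hy)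
      exact ⟨x, hy, rfl⟩
    · rintro ⟨x, hx, rfl⟩; exact hx
  rw [hPeq, area_image_chart]
  apply Bornology.IsBounded.measure_lt_top
  exact ι.isometry.antilipschitz.isBounded_preimage hb

/-- outer regularity inside the plane `u^⊥`. -/
theorem exists_open_base (u : E3) (hu : ‖u‖ = 1) (P : Set E3) (hP : ∀ y ∈ P, inner ℝ y u = 0)
    (hb : Bornology.IsBounded P) (ε : ℝ) (hε : 0 < ε) :
    ∃ O : Set E3, IsOpen O ∧ Bornology.IsBounded (O ∩ {x | inner ℝ x u = 0}) ∧ P ⊆ O ∧
      (μHE[2] (O ∩ {x | inner ℝ x u = 0})).toReal ≤ (μHE[2] P).toReal + ε := by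
  obtain ⟨ι, h1, h2⟩ := exists_chart u hu
  have hPeq : P = ι '' (ι ⁻¹' P) := by
    ext y
    constructor
    · intro hy
      obtain ⟨x, rfl⟩ := h2 y (hP y hy)
      exact ⟨x, hy, rfl⟩
    · rintro ⟨x, hx, rfl⟩; exact hx
  set P' : Set E2 := ι ⁻¹' P with hP'
  have hb' : Bornology.IsBounded P' := ι.isometry.antilipschitz.isBounded_preimage hb
  have hfin : volume P' ≠ ⊤ := hb'.measure_lt_top.ne
  obtain ⟨W, hPW, hWo, hWv⟩ := P'.exists_isOpen_lt_add hfin
    (ε := ENNReal.ofReal ε) (by simpa using hε)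
  obtain ⟨R, hR⟩ := hb'.subset_ball 0
  set W' : Set E2 := W ∩ Metric.ball 0 R with hW'
  -- the coordinate map
  let χ : E3 → E2 := fun y => !₂[inner ℝ (ι (EuclideanSpace.single 0 1)) y,
    inner ℝ (ι (EuclideanSpace.single 1 1)) y]
  have hχc : Continuous χ := by
    have : Continuous fun y : E3 => (![inner ℝ (ι (EuclideanSpace.single 0 1)) y,
      inner ℝ (ι (EuclideanSpace.single 1 1)) y] : Fin 2 → ℝ) := by
      apply continuous_pi
      intro i
      fin_cases i <;> simp <;> fun_prop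
    exact (PiLp.continuous_toLp 2 _).comp this
  have hχι : ∀ x, χ (ι x) = x := by
    intro x
    ext i
    fin_cases i <;> simp [χ, ι.inner_map_map, inner2]
  have hOeq : χ ⁻¹' W' ∩ {x | inner ℝ x u = 0} = ι '' W' := by
    ext y
    constructor
    · rintro ⟨hy1, hy2⟩
      obtain ⟨x, rfl⟩ := h2 y hy2
      refine ⟨x, ?_, rfl⟩
      simpa [hχι] using hy1
    · rintro ⟨x, hx, rfl⟩
      exact ⟨by simpa [hχι] using hx, h1 x⟩
  refine ⟨χ ⁻¹' W', (hWo.inter Metric.isOpen_ball).preimage hχc, ?_, ?_, ?_⟩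
  · rw [hOeq]
    exact ι.lipschitz.isBounded_image (Metric.isBounded_ball.subset Set.inter_subset_right)
  · intro y hy
    obtain ⟨x, rfl⟩ := h2 y (hP y hy)
    have hx : x ∈ P' := hy
    have hx' : x ∈ W' := ⟨hPW hx, hR hx⟩
    show χ (ι x) ∈ W'
    rw [hχι]; exact hx'
  · rw [hOeq, area_image_chart]
    conv_rhs => rw [hPeq, area_image_chart]
    have h3 : volume W' ≤ volume P' + ENNReal.ofReal ε :=
      (measure_mono Set.inter_subset_left).trans hWv.le
    have h4 := ENNReal.toReal_mono (by simp [hfin]) h3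
    rwa [ENNReal.toReal_add hfin (by simp), ENNReal.toReal_ofReal hε.le] at h4


end Crest.Agent.R211
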