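import Mathlib
import Crest.Agent.R211_Defs

/-!
# Row 211: definitions of the discrete twisted sweep (TWIST block of the plan), sorry-free.
Same names as in `R211_Plan.lean` but in namespace `Crest.Agent.R211`.
-/

set_option autoImplicit false

namespace Crest.Agent.R211

noncomputable def lam : ℝ := 1 / 100
def NN : ℕ := 100000
noncomputable def hh : ℝ := 1 / 100000
noncomputable def tt (i : ℕ) : ℝ := -1 + 2 * i * hh
noncomputable def cc (i : ℕ) : ℝ := -1 + (2 * i + 1) * hh
noncomputable def del (i : ℕ) : ℝ := (1 + 2 * lam) * (lam ^ 2 * (cc i ^ 2 + cc i ^ 4) / 4 + lam * hh)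
noncomputable def RR (i : ℕ) : ℝ := 1 / 2 + del i
noncomputable def wy (i : ℕ) : ℝ := lam * (cc i ^ 2 + 1 - hh ^ 2) / 2
noncomputable def wm (i : ℕ) : ℝ := lam * cc i
noncomputable def qq (i : ℕ) : ℝ := wy i ^ 2 + 2 * wm i ^ 2

end Crest.Agent.R211
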