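import Mathlib
import Crest.Agent.R211_Defs
import Crest.Agent.R211_Area0
import Crest.Agent.R211_Area
import Crest.Agent.R211_TwistDefs

/-!
# Row 211, (COVER): from the real inequalities (TWIST) and `cylTri` to the fixed cover of `Kstd`.
-/

set_option autoImplicit false

namespace Crest.Agent.R211.Cover

open MeasureTheory
open scoped ENNReal

/-- statement of `twist_cover` -/
def TwistCover : Prop := ∀ (x y m : ℝ), |x| ≤ 1 - m → |y| ≤ m →
    (∃ i < NN, tt i * (m - x * wm i) ≤ y - x * wy i ∧ y - x * wy i ≤ tt (i + 1) * (m - x * wm i) ∧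
      m - x * wm i ≤ RR i) ∨
    (∃ j < NN, tt j * (1 - m - y * wm j) ≤ -x - y * wy j ∧
      -x - y * wy j ≤ tt (j + 1) * (1 - m - y * wm j) ∧ 1 - m - y * wm j ≤ RR j)

/-- statement of `twist_sum` -/
def TwistSum : Prop :=
    2 * hh * ∑ i ∈ Finset.range NN, RR i ^ 2 / Real.sqrt (1 + qq i) ≤ 1 / 2 - 1 / 10 ^ 7

theorem hh_pos : 0 < hh := by unfold hh; norm_num

theorem RR_pos (i : ℕ) : 0 < RR i := by
  unfold RR del lam hh
  positivity

theorem tt_succ (i : ℕ) : tt (i + 1) = tt i + 2 * hh := by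
  unfold tt; push_cast; ring

theorem qq_nonneg (i : ℕ) : 0 ≤ qq i := by unfold qq; positivity

/-! ### the tetrahedron in coordinates -/

theorem Kstd_subset : Kstd ⊆ {X : E3 | |X 0| ≤ 1 - X 2 / Real.sqrt 2 ∧ |X 1| ≤ X 2 / Real.sqrt 2} := by
  have h2 : (0 : ℝ) < Real.sqrt 2 := by positivity
  apply convexHull_min
  · intro X hX
    simp only [Set.mem_insert_iff, Set.mem_singleton_iff] at hX
    rcases hX with rfl | rfl | rfl | rfl <;> simp [h2.ne']
  · intro X hX Y hY a b ha hb hab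
    simp only [Set.mem_ofPred_eq, abs_le] at hX hY ⊢
    obtain ⟨⟨x1, x2⟩, x3, x4⟩ := hX
    obtain ⟨⟨y1, y2⟩, y3, y4⟩ := hY
    simp only [PiLp.add_apply, PiLp.smul_apply, smul_eq_mul]
    have e : (a * X 2 + b * Y 2) / Real.sqrt 2 = a * (X 2 / Real.sqrt 2) + b * (Y 2 / Real.sqrt 2) := by
      ring
    rw [e]
    refine ⟨⟨?_, ?_⟩, ?_, ?_⟩ <;> nlinarith

/-! ### the lower family -/

noncomputable def dL (i : ℕ) : E3 := !₂[1, wy i, Real.sqrt 2 * wm i]
noncomputable def QL (i : ℕ) : E3 := !₂[0, RR i * tt i, Real.sqrt 2 * RR i]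
noncomputable def RL (i : ℕ) : E3 := !₂[0, RR i * tt (i + 1), Real.sqrt 2 * RR i]

/-! ### the upper family -/

noncomputable def dU (i : ℕ) : E3 := !₂[-wy i, 1, -(Real.sqrt 2 * wm i)]
noncomputable def PU : E3 := !₂[0, 0, Real.sqrt 2]
noncomputable def QU (i : ℕ) : E3 := !₂[-(RR i * tt i), 0, Real.sqrt 2 * (1 - RR i)]
noncomputable def RU (i : ℕ) : E3 := !₂[-(RR i * tt (i + 1)), 0, Real.sqrt 2 * (1 - RR i)]

theorem norm_dL (i : ℕ) : ‖dL i‖ = Real.sqrt (1 + qq i) := by
  have h : ‖dL i‖ ^ 2 = 1 + qq i := by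
    rw [normsq3]
    simp only [dL, qq]
    simp
    have : Real.sqrt 2 ^ 2 = 2 := Real.sq_sqrt (by norm_num)
    nlinarith
  rw [← h, Real.sqrt_sq (norm_nonneg _)]

theorem norm_dU (i : ℕ) : ‖dU i‖ = Real.sqrt (1 + qq i) := by
  have h : ‖dU i‖ ^ 2 = 1 + qq i := by
    rw [normsq3]
    simp only [dU, qq]
    simp
    have : Real.sqrt 2 ^ 2 = 2 := Real.sq_sqrt (by norm_num)
    nlinarith
  rw [← h, Real.sqrt_sq (norm_nonneg _)]

theorem sqrt_one_add_qq_pos (i : ℕ) : 0 < Real.sqrt (1 + qq i) := by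
  have := qq_nonneg i
  positivity

theorem dL_ne (i : ℕ) : dL i ≠ 0 := by
  rw [← norm_ne_zero_iff, norm_dL]; exact (sqrt_one_add_qq_pos i).ne'

theorem dU_ne (i : ℕ) : dU i ≠ 0 := by
  rw [← norm_ne_zero_iff, norm_dU]; exact (sqrt_one_add_qq_pos i).ne'

theorem det_L (i : ℕ) : |det3 (QL i - 0) (RL i - 0) (dL i)| = 2 * Real.sqrt 2 * hh * RR i ^ 2 := by
  have h : det3 (QL i - 0) (RL i - 0) (dL i) = -(2 * Real.sqrt 2 * hh * RR i ^ 2) := by
    simp only [det3, QL, RL, dL, tt_succ]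
    simp
    ring
  rw [h, abs_neg, abs_of_nonneg]
  have := hh_pos
  positivity

theorem det_U (i : ℕ) : |det3 (QU i - PU) (RU i - PU) (dU i)| = 2 * Real.sqrt 2 * hh * RR i ^ 2 := by
  have h : det3 (QU i - PU) (RU i - PU) (dU i) = 2 * Real.sqrt 2 * hh * RR i ^ 2 := by
    simp only [det3, QU, RU, PU, dU, tt_succ]
    simp
    ring
  rw [h, abs_of_nonneg]
  have := hh_pos
  positivity

/-- unit axis -/
noncomputable def unit (d : E3) : E3 := ‖d‖⁻¹ • d

/-- the set appearing in the statements -/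
def cylSet (u p q r : E3) : Set E3 :=
  {x : E3 | ∃ b ∈ convexHull ℝ {p, q, r}, ∃ t : ℝ, x = b + t • u}

theorem lower_mem (x y m : ℝ) (i : ℕ) (h1 : tt i * (m - x * wm i) ≤ y - x * wy i)
    (h2 : y - x * wy i ≤ tt (i + 1) * (m - x * wm i)) (h3 : m - x * wm i ≤ RR i) :
    (!₂[x, y, Real.sqrt 2 * m] : E3) ∈ cylSet (unit (dL i)) (prj (unit (dL i)) 0)
      (prj (unit (dL i)) (QL i)) (prj (unit (dL i)) (RL i)) := by
  have hR := RR_pos i
  have hh0 := hh_pos
  have key := (cylTri 0 (QL i) (RL i) (dL i) (dL_ne i)).2.2.1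
    (1 - (m - x * wm i) / RR i)
    ((tt (i + 1) * (m - x * wm i) - (y - x * wy i)) / (2 * hh * RR i))
    (((y - x * wy i) - tt i * (m - x * wm i)) / (2 * hh * RR i)) x
    (by rw [sub_nonneg, div_le_one hR]; exact h3)
    (by apply div_nonneg <;> [linarith; positivity])
    (by apply div_nonneg <;> [linarith; positivity])
    (by rw [tt_succ]; field_simp; ring)
  have e : (1 - (m - x * wm i) / RR i) • (0 : E3) +
      ((tt (i + 1) * (m - x * wm i) - (y - x * wy i)) / (2 * hh * RR i)) • QL i +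
      (((y - x * wy i) - tt i * (m - x * wm i)) / (2 * hh * RR i)) • RL i + x • dL i =
      !₂[x, y, Real.sqrt 2 * m] := by
    ext k
    fin_cases k
    · simp [QL, RL, dL]
    · simp [QL, RL, dL, tt_succ]
      field_simp
      ring
    · simp [QL, RL, dL, tt_succ]
      field_simp
      ring
  rw [e] at key
  exact key

theorem upper_mem (x y m : ℝ) (j : ℕ) (h1 : tt j * (1 - m - y * wm j) ≤ -x - y * wy j)
    (h2 : -x - y * wy j ≤ tt (j + 1) * (1 - m - y * wm j)) (h3 : 1 - m - y * wm j ≤ RR j) :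
    (!₂[x, y, Real.sqrt 2 * m] : E3) ∈ cylSet (unit (dU j)) (prj (unit (dU j)) PU)
      (prj (unit (dU j)) (QU j)) (prj (unit (dU j)) (RU j)) := by
  have hR := RR_pos j
  have hh0 := hh_pos
  have key := (cylTri PU (QU j) (RU j) (dU j) (dU_ne j)).2.2.1
    (1 - (1 - m - y * wm j) / RR j)
    ((tt (j + 1) * (1 - m - y * wm j) - (-x - y * wy j)) / (2 * hh * RR j))
    (((-x - y * wy j) - tt j * (1 - m - y * wm j)) / (2 * hh * RR j)) y
    (by rw [sub_nonneg, div_le_one hR]; exact h3)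
    (by apply div_nonneg <;> [linarith; positivity])
    (by apply div_nonneg <;> [linarith; positivity])
    (by rw [tt_succ]; field_simp; ring)
  have e : (1 - (1 - m - y * wm j) / RR j) • PU +
      ((tt (j + 1) * (1 - m - y * wm j) - (-x - y * wy j)) / (2 * hh * RR j)) • QU j +
      (((-x - y * wy j) - tt j * (1 - m - y * wm j)) / (2 * hh * RR j)) • RU j + y • dU j =
      !₂[x, y, Real.sqrt 2 * m] := by
    ext k
    fin_cases k
    · simp [PU, QU, RU, dU, tt_succ]
      field_simp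
      ring
    · simp [PU, QU, RU, dU]
    · simp [PU, QU, RU, dU, tt_succ]
      field_simp
      ring
  rw [e] at key
  exact key

theorem area_L (i : ℕ) :
    (μHE[2] (convexHull ℝ ({prj (unit (dL i)) 0, prj (unit (dL i)) (QL i),
      prj (unit (dL i)) (RL i)} : Set E3))).toReal =
      Real.sqrt 2 * (hh * (RR i ^ 2 / Real.sqrt (1 + qq i))) := by
  have h := (cylTri 0 (QL i) (RL i) (dL i) (dL_ne i)).2.2.2
  unfold unit
  rw [h, det_L, norm_dL, ENNReal.toReal_ofReal]
  · have := sqrt_one_add_qq_pos i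
    field_simp
  · have := sqrt_one_add_qq_pos i
    have := hh_pos
    positivity

theorem area_U (i : ℕ) :
    (μHE[2] (convexHull ℝ ({prj (unit (dU i)) PU, prj (unit (dU i)) (QU i),
      prj (unit (dU i)) (RU i)} : Set E3))).toReal =
      Real.sqrt 2 * (hh * (RR i ^ 2 / Real.sqrt (1 + qq i))) := by
  have h := (cylTri PU (QU i) (RU i) (dU i) (dU_ne i)).2.2.2
  unfold unit
  rw [h, det_U, norm_dU, ENNReal.toReal_ofReal]
  · have := sqrt_one_add_qq_pos i
    field_simp
  · have := sqrt_one_add_qq_pos i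
    have := hh_pos
    positivity

/-- (COVER) -/
theorem fixedCover_of (htc : TwistCover) (hts : TwistSum) :
    ∃ (m : ℕ) (u p q r : Fin m → E3), m ≤ 10 ^ 6 ∧ (∀ i, ‖u i‖ = 1) ∧
    (∀ i, inner ℝ (p i) (u i) = 0 ∧ inner ℝ (q i) (u i) = 0 ∧ inner ℝ (r i) (u i) = 0) ∧
    Kstd ⊆ ⋃ i, {x : E3 | ∃ b ∈ convexHull ℝ {p i, q i, r i}, ∃ t : ℝ, x = b + t • u i} ∧
    ∑ i, (μHE[2] (convexHull ℝ ({p i, q i, r i} : Set E3))).toReal ≤
      Real.sqrt 2 * (1 / 2 - 1 / 10 ^ 7) := by
  refine ⟨NN + NN,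
    Fin.append (fun i : Fin NN => unit (dL i)) (fun i : Fin NN => unit (dU i)),
    Fin.append (fun i : Fin NN => prj (unit (dL i)) 0) (fun i : Fin NN => prj (unit (dU i)) PU),
    Fin.append (fun i : Fin NN => prj (unit (dL i)) (QL i))
      (fun i : Fin NN => prj (unit (dU i)) (QU i)),
    Fin.append (fun i : Fin NN => prj (unit (dL i)) (RL i))
      (fun i : Fin NN => prj (unit (dU i)) (RU i)), ?_, ?_, ?_, ?_, ?_⟩
  · norm_num [NN]
  · intro i
    refine Fin.addCases (fun i => ?_) (fun i => ?_) i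
    · simp only [Fin.append_left]; exact norm_unit _ (dL_ne i)
    · simp only [Fin.append_right]; exact norm_unit _ (dU_ne i)
  · intro i
    refine Fin.addCases (fun i => ?_) (fun i => ?_) i
    · simp only [Fin.append_left]
      have h := norm_unit _ (dL_ne i)
      exact ⟨inner_prj _ _ h, inner_prj _ _ h, inner_prj _ _ h⟩
    · simp only [Fin.append_right]
      have h := norm_unit _ (dU_ne i)
      exact ⟨inner_prj _ _ h, inner_prj _ _ h, inner_prj _ _ h⟩
  · intro X hX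
    obtain ⟨hx, hy⟩ := Kstd_subset hX
    have h2 : (0 : ℝ) < Real.sqrt 2 := by positivity
    have eX : X = !₂[X 0, X 1, Real.sqrt 2 * (X 2 / Real.sqrt 2)] := by
      ext k
      fin_cases k
      · simp
      · simp
      · simp; field_simp
    rw [Set.mem_iUnion]
    rcases htc (X 0) (X 1) (X 2 / Real.sqrt 2) hx hy with ⟨i, hi, h1, h2', h3⟩ | ⟨j, hj, h1, h2', h3⟩
    · refine ⟨Fin.castAdd NN ⟨i, hi⟩, ?_⟩
      simp only [Fin.append_left]
      have := lower_mem _ _ _ i h1 h2' h3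
      rw [← eX] at this
      exact this
    · refine ⟨Fin.natAdd NN ⟨j, hj⟩, ?_⟩
      simp only [Fin.append_right]
      have := upper_mem _ _ _ j h1 h2' h3
      rw [← eX] at this
      exact this
  · rw [Fin.sum_univ_add]
    simp only [Fin.append_left, Fin.append_right]
    simp only [area_L, area_U]
    rw [Fin.sum_univ_eq_sum_range (fun i => Real.sqrt 2 * (hh * (RR i ^ 2 / Real.sqrt (1 + qq i)))) NN,
      ← Finset.mul_sum, ← Finset.mul_sum]
    have h2 : (0 : ℝ) ≤ Real.sqrt 2 := by positivity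
    have := mul_le_mul_of_nonneg_left hts h2
    calc _ = Real.sqrt 2 * (2 * hh * ∑ i ∈ Finset.range NN, RR i ^ 2 / Real.sqrt (1 + qq i)) := by ring
      _ ≤ _ := this

end Crest.Agent.R211.Cover
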