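import Mathlib
import Crest.Agent.R211_Defs
import Crest.Agent.R211_TwistDefs

/-!
# Row 211: (TWIST) `twist_cover` : the discrete twisted sweep covers the tetrahedron.
-/

set_option autoImplicit false

namespace Crest.Agent.R211

/-- discrete intermediate value theorem. -/
theorem tw_disc_ivt (G : ℕ → ℝ) (N : ℕ) (h0 : 0 ≤ G 0) (hN : G N ≤ 0) (hpos : 0 < N) :
    ∃ i < N, 0 ≤ G i ∧ G (i + 1) ≤ 0 := by
  induction N with
  | zero => exact absurd hpos (lt_irrefl _)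
  | succ n ih =>
    by_cases hn : G n ≤ 0
    · rcases Nat.eq_zero_or_pos n with h | h
      · subst h
        exact ⟨0, Nat.succ_pos _, h0, hN⟩
      · obtain ⟨i, hi, h1, h2⟩ := ih hn h
        exact ⟨i, Nat.lt_succ_of_lt hi, h1, h2⟩
    · exact ⟨n, Nat.lt_succ_self _, le_of_lt (not_le.mp hn), hN⟩

theorem tt_eq_sub (i : ℕ) : tt i = cc i - hh := by
  unfold tt cc; ring

theorem tt_succ_eq_add (i : ℕ) : tt (i + 1) = cc i + hh := by
  unfold tt cc; push_cast; ring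

theorem cc_mem (i : ℕ) (hi : i < NN) : -1 ≤ cc i ∧ cc i ≤ 1 := by
  have h1 : (i : ℝ) + 1 ≤ 100000 := by
    have : i + 1 ≤ 100000 := hi
    exact_mod_cast this
  have h0 : (0 : ℝ) ≤ i := Nat.cast_nonneg _
  unfold cc hh
  constructor <;> linarith

/-- the index of the sweep containing a given point. -/
theorem sweep_index (x y m : ℝ) (hy : |y| ≤ m) :
    ∃ i < NN, tt i * (m - x * wm i) ≤ y - x * wy i ∧
      y - x * wy i ≤ tt (i + 1) * (m - x * wm i) := by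
  have hy' := abs_le.mp hy
  obtain ⟨i, hi, h1, h2⟩ := tw_disc_ivt (fun k => y - tt k * m - x * lam * (1 - tt k ^ 2) / 2) NN
    (by simp only [tt]; norm_num; linarith [hy'.1])
    (by simp only [tt, NN, hh]; norm_num; linarith [hy'.2]) (by norm_num [NN])
  refine ⟨i, hi, ?_, ?_⟩
  · have : (y - x * wy i) - tt i * (m - x * wm i) = y - tt i * m - x * lam * (1 - tt i ^ 2) / 2 := by
      rw [tt_eq_sub]; unfold wy wm; ring
    linarith
  · have : (y - x * wy i) - tt (i + 1) * (m - x * wm i) =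
        y - tt (i + 1) * m - x * lam * (1 - tt (i + 1) ^ 2) / 2 := by
      rw [tt_succ_eq_add]; unfold wy wm; ring
    linarith

theorem tw_sq_le_one (a : ℝ) (ha : -1 ≤ a ∧ a ≤ 1) : a ^ 2 ≤ 1 :=
  (sq_le_one_iff_abs_le_one a).mpr (abs_le.mpr ha)

/-- `|u v| ≤ U V`-type bound. -/
theorem tw_mul_le_of_abs (u v U V : ℝ) (hu : |u| ≤ U) (hv : |v| ≤ V) : u * v ≤ U * V := by
  have h0 : 0 ≤ U := le_trans (abs_nonneg _) hu
  calc u * v ≤ |u * v| := le_abs_self _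
    _ = |u| * |v| := abs_mul _ _
    _ ≤ U * V := mul_le_mul hu hv (abs_nonneg _) h0

theorem twist_alg (a b l h A B m' m'' η₁ η₂ θ : ℝ) (hl : l = 1 / 100) (hh0 : 0 < h)
    (hh1 : h ≤ 1 / 100000)
    (ha : -1 ≤ a ∧ a ≤ 1) (hb : -1 ≤ b ∧ b ≤ 1)
    (hA : A = (a ^ 2 + 1 - h ^ 2) / 2) (hB : B = (b ^ 2 + 1 - h ^ 2) / 2)
    (hθ : θ = m' + m'' - 1)
    (e1 : |η₁| ≤ h * m') (e2 : |η₂| ≤ h * m'')
    (ident : θ = l * (a * b) * (m'' - m') + l ^ 2 * (a ^ 2 * B * m' + b ^ 2 * A * m'')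
      - l ^ 2 * A * B * θ + l ^ 2 * (a * B * η₁ + b * A * η₂) + l * (a * η₂ - b * η₁))
    (hf1 : 1 / 2 + (1 + 2 * l) * (l ^ 2 * (a ^ 2 + a ^ 4) / 4 + l * h) < m')
    (hf2 : 1 / 2 + (1 + 2 * l) * (l ^ 2 * (b ^ 2 + b ^ 4) / 4 + l * h) < m'') :
    False := by
  have hl0 : 0 < l := by rw [hl]; norm_num
  have ha2 : a ^ 2 ≤ 1 := tw_sq_le_one a ha
  have hb2 : b ^ 2 ≤ 1 := tw_sq_le_one b hb
  have haa : |a| ≤ 1 := abs_le.mpr ha
  have hbb : |b| ≤ 1 := abs_le.mpr hb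
  have hh2 : h ^ 2 ≤ 1 := by
    have : h ≤ 1 := by linarith
    exact tw_sq_le_one h ⟨by linarith, this⟩
  have hA0 : 0 ≤ A := by rw [hA]; linarith [sq_nonneg a]
  have hB0 : 0 ≤ B := by rw [hB]; linarith [sq_nonneg b]
  have hA1 : A ≤ 1 := by rw [hA]; linarith [sq_nonneg h]
  have hB1 : B ≤ 1 := by rw [hB]; linarith [sq_nonneg h]
  have hd1 : 0 ≤ (1 + 2 * l) * (l ^ 2 * (a ^ 2 + a ^ 4) / 4 + l * h) := by positivity
  have hd2 : 0 ≤ (1 + 2 * l) * (l ^ 2 * (b ^ 2 + b ^ 4) / 4 + l * h) := by positivity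
  have hm1 : 1 / 2 < m' := by linarith
  have hm2 : 1 / 2 < m'' := by linarith
  have hθ0 : 0 < θ := by rw [hθ]; linarith
  have hm1u : m' ≤ 1 / 2 + θ := by rw [hθ]; linarith
  have hm2u : m'' ≤ 1 / 2 + θ := by rw [hθ]; linarith
  -- T1
  have T1 : (a * b) * (m'' - m') ≤ 1 * θ := by
    apply tw_mul_le_of_abs
    · rw [abs_mul]; exact mul_le_one₀ haa (abs_nonneg _) hbb
    · rw [abs_le]; constructor <;> linarith
  -- T2
  have T2a : a ^ 2 * B * m' ≤ a ^ 2 * B * (1 / 2 + θ) :=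
    mul_le_mul_of_nonneg_left hm1u (mul_nonneg (sq_nonneg _) hB0)
  have T2b : b ^ 2 * A * m'' ≤ b ^ 2 * A * (1 / 2 + θ) :=
    mul_le_mul_of_nonneg_left hm2u (mul_nonneg (sq_nonneg _) hA0)
  have T2c : a ^ 2 * B ≤ 1 := mul_le_one₀ ha2 hB0 hB1
  have T2d : b ^ 2 * A ≤ 1 := mul_le_one₀ hb2 hA0 hA1
  have T2e : a ^ 2 * B + b ^ 2 * A ≤ (a ^ 2 + a ^ 4 + b ^ 2 + b ^ 4) / 2 := by
    rw [hA, hB]
    nlinarith [sq_nonneg (a ^ 2 - b ^ 2), mul_nonneg (sq_nonneg a) (sq_nonneg h),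
      mul_nonneg (sq_nonneg b) (sq_nonneg h)]
  -- T3
  have T3 : 0 ≤ A * B * θ := mul_nonneg (mul_nonneg hA0 hB0) hθ0.le
  -- T4, T5
  have haB : |a * B| ≤ 1 := by
    rw [abs_mul, abs_of_nonneg hB0]; exact mul_le_one₀ haa hB0 hB1
  have hbA : |b * A| ≤ 1 := by
    rw [abs_mul, abs_of_nonneg hA0]; exact mul_le_one₀ hbb hA0 hA1
  have T4a : a * B * η₁ ≤ 1 * (h * m') := tw_mul_le_of_abs _ _ _ _ haB e1
  have T4b : b * A * η₂ ≤ 1 * (h * m'') := tw_mul_le_of_abs _ _ _ _ hbA e2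
  have T5a : a * η₂ ≤ 1 * (h * m'') := tw_mul_le_of_abs _ _ _ _ haa e2
  have T5b : (-b) * η₁ ≤ 1 * (h * m') := tw_mul_le_of_abs _ _ _ _ (by rwa [abs_neg]) e1
  have hsum : m' + m'' = 1 + θ := by rw [hθ]; ring
  set S := (a ^ 2 + a ^ 4 + b ^ 2 + b ^ 4) / 4 with hS
  have hS0 : 0 ≤ S := by positivity
  -- main inequality
  have main : θ ≤ l * θ + l ^ 2 * (S + 2 * θ) + l ^ 2 * (h * (1 + θ)) + l * (h * (1 + θ)) := by
    have hl2 : 0 < l ^ 2 := by positivity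
    have s1 : l * (a * b) * (m'' - m') ≤ l * θ := by
      have := mul_le_mul_of_nonneg_left T1 hl0.le
      linarith
    have s2 : l ^ 2 * (a ^ 2 * B * m' + b ^ 2 * A * m'') ≤ l ^ 2 * (S + 2 * θ) := by
      apply mul_le_mul_of_nonneg_left _ hl2.le
      have q1 : a ^ 2 * B * θ ≤ 1 * θ := mul_le_mul_of_nonneg_right T2c hθ0.le
      have q2 : b ^ 2 * A * θ ≤ 1 * θ := mul_le_mul_of_nonneg_right T2d hθ0.le
      linarith [T2a, T2b, T2e, q1, q2, hS]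
    have s3 : 0 ≤ l ^ 2 * A * B * θ := by
      have := mul_nonneg hl2.le T3
      linarith
    have s4 : l ^ 2 * (a * B * η₁ + b * A * η₂) ≤ l ^ 2 * (h * (1 + θ)) := by
      apply mul_le_mul_of_nonneg_left _ hl2.le
      rw [← hsum]; linarith
    have s5 : l * (a * η₂ - b * η₁) ≤ l * (h * (1 + θ)) := by
      apply mul_le_mul_of_nonneg_left _ hl0.le
      rw [← hsum]; linarith
    linarith
  have hθlow : (1 + 2 * l) * (l ^ 2 * S + 2 * (l * h)) < θ := by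
    rw [hθ, hS]; linarith
  have hp := mul_nonneg (sub_nonneg.mpr hh1) hθ0.le
  subst hl
  linarith [hp, main, hθlow, hS0, hh0]

/-- the key inequality: both upper constraints cannot fail simultaneously. -/
theorem twist_key (x y m a b l h : ℝ) (hl : l = 1 / 100) (hh0 : 0 < h) (hh1 : h ≤ 1 / 100000)
    (ha : -1 ≤ a ∧ a ≤ 1) (hb : -1 ≤ b ∧ b ≤ 1)
    (h1l : (a - h) * (m - x * (l * a)) ≤ y - x * (l * (a ^ 2 + 1 - h ^ 2) / 2))
    (h1u : y - x * (l * (a ^ 2 + 1 - h ^ 2) / 2) ≤ (a + h) * (m - x * (l * a)))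
    (h2l : (b - h) * (1 - m - y * (l * b)) ≤ -x - y * (l * (b ^ 2 + 1 - h ^ 2) / 2))
    (h2u : -x - y * (l * (b ^ 2 + 1 - h ^ 2) / 2) ≤ (b + h) * (1 - m - y * (l * b)))
    (hf1 : 1 / 2 + (1 + 2 * l) * (l ^ 2 * (a ^ 2 + a ^ 4) / 4 + l * h) < m - x * (l * a))
    (hf2 : 1 / 2 + (1 + 2 * l) * (l ^ 2 * (b ^ 2 + b ^ 4) / 4 + l * h) < 1 - m - y * (l * b)) :
    False := by
  refine twist_alg a b l h ((a ^ 2 + 1 - h ^ 2) / 2) ((b ^ 2 + 1 - h ^ 2) / 2)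
    (m - x * (l * a)) (1 - m - y * (l * b))
    ((y - x * (l * ((a ^ 2 + 1 - h ^ 2) / 2))) - a * (m - x * (l * a)))
    ((-x - y * (l * ((b ^ 2 + 1 - h ^ 2) / 2))) - b * (1 - m - y * (l * b)))
    ((m - x * (l * a)) + (1 - m - y * (l * b)) - 1) hl hh0 hh1 ha hb rfl rfl rfl ?_ ?_ ?_ hf1 hf2
  · rw [abs_le]; constructor <;> linarith
  · rw [abs_le]; constructor <;> linarith
  · ring

theorem twist_cover (x y m : ℝ) (hx : |x| ≤ 1 - m) (hy : |y| ≤ m) :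
    (∃ i < NN, tt i * (m - x * wm i) ≤ y - x * wy i ∧ y - x * wy i ≤ tt (i + 1) * (m - x * wm i) ∧
      m - x * wm i ≤ RR i) ∨
    (∃ j < NN, tt j * (1 - m - y * wm j) ≤ -x - y * wy j ∧
      -x - y * wy j ≤ tt (j + 1) * (1 - m - y * wm j) ∧ 1 - m - y * wm j ≤ RR j) := by
  obtain ⟨i, hi, i1, i2⟩ := sweep_index x y m hy
  obtain ⟨j, hj, j1, j2⟩ := sweep_index y (-x) (1 - m) (by rwa [abs_neg])
  by_cases c1 : m - x * wm i ≤ RR i
  · exact Or.inl ⟨i, hi, i1, i2, c1⟩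
  by_cases c2 : 1 - m - y * wm j ≤ RR j
  · exact Or.inr ⟨j, hj, j1, j2, c2⟩
  exfalso
  rw [tt_eq_sub] at i1 j1
  rw [tt_succ_eq_add] at i2 j2
  push Not at c1 c2
  unfold RR del at c1 c2
  unfold wm at i1 i2 j1 j2 c1 c2
  unfold wy at i1 i2 j1 j2
  exact twist_key x y m (cc i) (cc j) lam hh rfl (by norm_num [hh]) (by norm_num [hh])
    (cc_mem i hi) (cc_mem j hj) i1 i2 j1 j2 c1 c2

end Crest.Agent.R211
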