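import Mathlib
import Crest.Agent.R211_Defs
import Crest.Agent.R211_TwistDefs

/-!
# Row 211: (TWIST) `twist_sum` : total area of the discrete twisted sweep.
-/

set_option autoImplicit false

namespace Crest.Agent.R211

/-- `1/√(1+q) ≤ 1 - q/2 + 3q²/8`. -/
theorem tw_inv_sqrt_le (q : ℝ) (hq : 0 ≤ q) :
    1 / Real.sqrt (1 + q) ≤ 1 - q / 2 + 3 * q ^ 2 / 8 := by
  set s := Real.sqrt (1 + q) with hs
  have hs2 : s ^ 2 = 1 + q := Real.sq_sqrt (by linarith)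
  have hs1 : 1 ≤ s := by
    rw [hs]; exact Real.one_le_sqrt.mpr (by linarith)
  have hq' : q = s ^ 2 - 1 := by linarith
  rw [div_le_iff₀ (by linarith), hq']
  have : (1 - (s ^ 2 - 1) / 2 + 3 * (s ^ 2 - 1) ^ 2 / 8) * s - 1 =
      (s - 1) ^ 3 * (3 * s ^ 2 + 9 * s + 8) / 8 := by ring
  have h3 : 0 ≤ (s - 1) ^ 3 * (3 * s ^ 2 + 9 * s + 8) / 8 := by
    have : 0 ≤ s - 1 := by linarith
    positivity
  linarith

/-- pointwise bound of the summand. -/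
theorem tw_summand_le (d q : ℝ) (hd0 : 0 ≤ d) (hd1 : d ≤ 6 / 100000) (hq0 : 0 ≤ q)
    (hq1 : q ≤ 3 / 10000) :
    (1 / 2 + d) ^ 2 / Real.sqrt (1 + q) ≤ 1 / 4 + d - q / 8 + 2 / 100000000 := by
  have h1 := tw_inv_sqrt_le q hq0
  have h2 : (1 / 2 + d) ^ 2 / Real.sqrt (1 + q) = (1 / 2 + d) ^ 2 * (1 / Real.sqrt (1 + q)) := by
    ring
  rw [h2]
  have h3 : (1 / 2 + d) ^ 2 * (1 / Real.sqrt (1 + q)) ≤
      (1 / 2 + d) ^ 2 * (1 - q / 2 + 3 * q ^ 2 / 8) :=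
    mul_le_mul_of_nonneg_left h1 (sq_nonneg _)
  refine le_trans h3 ?_
  have e : (1 / 2 + d) ^ 2 * (1 - q / 2 + 3 * q ^ 2 / 8) =
      1 / 4 + d - q / 8 + (d ^ 2 + 3 / 8 * (q ^ 2 * (1 / 2 + d) ^ 2)) - (d + d ^ 2) * q / 2 := by ring
  rw [e]
  have a1 : d ^ 2 ≤ (6 / 100000) ^ 2 := pow_le_pow_left₀ hd0 hd1 2
  have a2 : q ^ 2 ≤ (3 / 10000) ^ 2 := pow_le_pow_left₀ hq0 hq1 2
  have a3 : (1 / 2 + d) ^ 2 ≤ (1 / 2 + 6 / 100000) ^ 2 :=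
    pow_le_pow_left₀ (by linarith) (by linarith) 2
  have a4 : q ^ 2 * (1 / 2 + d) ^ 2 ≤ (3 / 10000) ^ 2 * (1 / 2 + 6 / 100000) ^ 2 :=
    mul_le_mul a2 a3 (sq_nonneg _) (by norm_num)
  have a5 : 0 ≤ (d + d ^ 2) * q / 2 := by positivity
  norm_num at a1 a4 ⊢
  linarith

/-- the antiderivative used for telescoping. -/
noncomputable def twPsi (t : ℝ) : ℝ :=
  let l : ℝ := 1 / 100
  let h : ℝ := 1 / 100000
  let α₄ : ℝ := (1 + 2 * l) * l ^ 2 / 4 - l ^ 2 / 32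
  let α₂ : ℝ := (1 + 2 * l) * l ^ 2 / 4 - l ^ 2 * (1 - h ^ 2) / 16 - l ^ 2 / 4
  let α₀ : ℝ := 1 / 4 + (1 + 2 * l) * l * h - l ^ 2 * (1 - h ^ 2) ^ 2 / 32 + 2 / 100000000
  let β₅ : ℝ := α₄ / 5
  let β₃ : ℝ := (α₂ - 2 * α₄ * h ^ 2) / 3
  let β₁ : ℝ := α₀ - β₅ * h ^ 4 - β₃ * h ^ 2
  β₅ * t ^ 5 + β₃ * t ^ 3 + β₁ * t

theorem twPsi_diff (c : ℝ) :
    twPsi (c + 1 / 100000) - twPsi (c - 1 / 100000) = 2 * (1 / 100000) *
      (1 / 4 + (1 + 2 * (1 / 100)) * ((1 / 100) ^ 2 * (c ^ 2 + c ^ 4) / 4 + 1 / 100 * (1 / 100000))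
        - (((1 / 100) * (c ^ 2 + 1 - (1 / 100000) ^ 2) / 2) ^ 2 + 2 * ((1 / 100) * c) ^ 2) / 8
        + 2 / 100000000) := by
  unfold twPsi
  ring

theorem tw_cc_mem (i : ℕ) (hi : i < NN) : -1 ≤ cc i ∧ cc i ≤ 1 := by
  have h1 : (i : ℝ) + 1 ≤ 100000 := by
    have : i + 1 ≤ 100000 := hi
    exact_mod_cast this
  have h0 : (0 : ℝ) ≤ i := Nat.cast_nonneg _
  unfold cc hh
  constructor <;> linarith

theorem tw_term_le (i : ℕ) (hi : i < NN) :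
    2 * hh * (RR i ^ 2 / Real.sqrt (1 + qq i)) ≤ twPsi (tt (i + 1)) - twPsi (tt i) := by
  obtain ⟨c0, c1⟩ := tw_cc_mem i hi
  have hc2 : cc i ^ 2 ≤ 1 := (sq_le_one_iff_abs_le_one _).mpr (abs_le.mpr ⟨c0, c1⟩)
  have hc4 : cc i ^ 4 ≤ 1 := by
    have : cc i ^ 4 = (cc i ^ 2) ^ 2 := by ring
    rw [this]
    exact pow_le_one₀ (sq_nonneg _) hc2
  have hc20 : 0 ≤ cc i ^ 2 := sq_nonneg _
  have hc40 : 0 ≤ cc i ^ 4 := by positivity
  have e1 : tt (i + 1) = cc i + 1 / 100000 := by unfold tt cc hh; push_cast; ring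
  have e2 : tt i = cc i - 1 / 100000 := by unfold tt cc hh; ring
  rw [e1, e2, twPsi_diff]
  have hd0 : 0 ≤ del i := by unfold del lam hh; positivity
  have hd1 : del i ≤ 6 / 100000 := by unfold del lam hh; linarith
  have hq0 : 0 ≤ qq i := by unfold qq; positivity
  have hq1 : qq i ≤ 3 / 10000 := by
    unfold qq wy wm lam hh
    have : (1 / 100 * (cc i ^ 2 + 1 - (1 / 100000) ^ 2) / 2 : ℝ) ^ 2 ≤ (1 / 100) ^ 2 := by
      apply pow_le_pow_left₀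
      · norm_num; linarith
      · linarith
    have h2 : (1 / 100 * cc i) ^ 2 = (1 / 100) ^ 2 * cc i ^ 2 := by ring
    rw [h2]
    norm_num at this ⊢
    linarith
  have := tw_summand_le (del i) (qq i) hd0 hd1 hq0 hq1
  have h3 : RR i = 1 / 2 + del i := rfl
  rw [h3]
  have h4 : (2 * hh : ℝ) = 2 * (1 / 100000) := by unfold hh; rfl
  rw [h4]
  apply mul_le_mul_of_nonneg_left _ (by norm_num)
  refine le_trans this (le_of_eq ?_)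
  unfold del qq wy wm lam hh
  ring

theorem twist_sum :
    2 * hh * ∑ i ∈ Finset.range NN, RR i ^ 2 / Real.sqrt (1 + qq i) ≤ 1 / 2 - 1 / 10 ^ 7 := by
  rw [Finset.mul_sum]
  have h1 : ∑ i ∈ Finset.range NN, 2 * hh * (RR i ^ 2 / Real.sqrt (1 + qq i)) ≤
      ∑ i ∈ Finset.range NN, (twPsi (tt (i + 1)) - twPsi (tt i)) :=
    Finset.sum_le_sum (fun i hi => tw_term_le i (Finset.mem_range.mp hi))
  refine le_trans h1 ?_
  rw [Finset.sum_range_sub (fun i => twPsi (tt i)) NN]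
  have e0 : tt 0 = -1 := by unfold tt; norm_num
  have e1 : tt NN = 1 := by unfold tt NN hh; norm_num
  rw [e0, e1]
  unfold twPsi
  norm_num

end Crest.Agent.R211
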