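import Mathlib
import Crest.Agent.R211_Defs
import Crest.Agent.R211_Cover
import Crest.Agent.R211_TwistCover
import Crest.Agent.R211_TwistSum

/-!
# Row 211, (COVER): the fixed cover of `Kstd` (exact statement of `Plan.fixedCover`).
-/

set_option autoImplicit false

namespace Crest.Agent.R211

open MeasureTheory
open scoped ENNReal

/-- (COVER) a fixed finite family of triangular cylinders covering the standard tetrahedron
with total base area at most `√2 (1/2 - 10⁻⁷)`. -/
theorem fixedCover :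
    ∃ (m : ℕ) (u p q r : Fin m → E3), m ≤ 10 ^ 6 ∧ (∀ i, ‖u i‖ = 1) ∧
    (∀ i, inner ℝ (p i) (u i) = 0 ∧ inner ℝ (q i) (u i) = 0 ∧ inner ℝ (r i) (u i) = 0) ∧
    Kstd ⊆ ⋃ i, {x : E3 | ∃ b ∈ convexHull ℝ {p i, q i, r i}, ∃ t : ℝ, x = b + t • u i} ∧
    ∑ i, (μHE[2] (convexHull ℝ ({p i, q i, r i} : Set E3))).toReal ≤
      Real.sqrt 2 * (1 / 2 - 1 / 10 ^ 7) :=
  Cover.fixedCover_of twist_cover twist_sum

end Crest.Agent.R211
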