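import Mathlib
import Crest.Agent.R211_Defs
import Crest.Agent.R211_Area0
import Crest.Agent.R211_Area

/-!
# Row 211: padding a finite family of triangular cylinders by one filler triangle of prescribed
area and arbitrarily many degenerate triangles (used for S0325, part (2)).
-/

set_option autoImplicit false

namespace Crest.Agent.R211.Pad

open MeasureTheory
open scoped ENNReal

noncomputable def e3 : E3 := !₂[0, 0, 1]

theorem norm_e3 : ‖e3‖ = 1 := by
  have h : ‖e3‖ ^ 2 = 1 := by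
    rw [normsq3]; simp [e3]
  have h0 : 0 ≤ ‖e3‖ := norm_nonneg _
  nlinarith

theorem area_zero : (μHE[2] (convexHull ℝ ({(0 : E3), 0, 0} : Set E3))).toReal = 0 := by
  rw [area_tri]
  simp [gram]

theorem area_fill (a : ℝ) (ha : 0 ≤ a) :
    (μHE[2] (convexHull ℝ ({(0 : E3), !₂[2 * a, 0, 0], !₂[0, 1, 0]} : Set E3))).toReal = a := by
  rw [area_tri, gram_coord]
  simp
  rw [show (2 * a) ^ 2 = (2 * a) ^ 2 from rfl, Real.sqrt_sq (by positivity)]
  rw [ENNReal.toReal_ofReal (by positivity)]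
  ring

theorem pad (m k : ℕ) (u p q r : Fin m → E3) (hu : ∀ i, ‖u i‖ = 1)
    (hin : ∀ i, inner ℝ (p i) (u i) = 0 ∧ inner ℝ (q i) (u i) = 0 ∧ inner ℝ (r i) (u i) = 0)
    (a : ℝ) (ha : 0 ≤ a) :
    ∃ u' p' q' r' : Fin (m + (1 + k)) → E3, (∀ i, ‖u' i‖ = 1) ∧
      (∀ i, inner ℝ (p' i) (u' i) = 0 ∧ inner ℝ (q' i) (u' i) = 0 ∧ inner ℝ (r' i) (u' i) = 0) ∧
      (⋃ i, {x : E3 | ∃ b ∈ convexHull ℝ {p i, q i, r i}, ∃ t : ℝ, x = b + t • u i}) ⊆
        (⋃ i, {x : E3 | ∃ b ∈ convexHull ℝ {p' i, q' i, r' i}, ∃ t : ℝ, x = b + t • u' i}) ∧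
      ∑ i, (μHE[2] (convexHull ℝ ({p' i, q' i, r' i} : Set E3))).toReal =
        ∑ i, (μHE[2] (convexHull ℝ ({p i, q i, r i} : Set E3))).toReal + a := by
  refine ⟨Fin.append u (Fin.append (fun _ : Fin 1 => e3) (fun _ : Fin k => e3)),
    Fin.append p (Fin.append (fun _ : Fin 1 => 0) (fun _ : Fin k => 0)),
    Fin.append q (Fin.append (fun _ : Fin 1 => !₂[2 * a, 0, 0]) (fun _ : Fin k => 0)),
    Fin.append r (Fin.append (fun _ : Fin 1 => !₂[0, 1, 0]) (fun _ : Fin k => 0)), ?_, ?_, ?_, ?_⟩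
  · intro i
    refine Fin.addCases (fun i => ?_) (fun i => ?_) i
    · simp only [Fin.append_left]; exact hu i
    · simp only [Fin.append_right]
      refine Fin.addCases (fun i => ?_) (fun i => ?_) i
      · simp only [Fin.append_left]; exact norm_e3
      · simp only [Fin.append_right]; exact norm_e3
  · intro i
    refine Fin.addCases (fun i => ?_) (fun i => ?_) i
    · simp only [Fin.append_left]; exact hin i
    · simp only [Fin.append_right]
      refine Fin.addCases (fun i => ?_) (fun i => ?_) i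
      · simp only [Fin.append_left]
        refine ⟨by simp, ?_, ?_⟩ <;> · rw [inner3]; simp [e3]
      · simp only [Fin.append_right]
        simp
  · intro x hx
    rw [Set.mem_iUnion] at hx ⊢
    obtain ⟨i, hi⟩ := hx
    refine ⟨Fin.castAdd _ i, ?_⟩
    simp only [Fin.append_left]
    exact hi
  · rw [Fin.sum_univ_add, Fin.sum_univ_add]
    simp only [Fin.append_left, Fin.append_right]
    simp only [area_zero, area_fill a ha]
    simp

end Crest.Agent.R211.Pad
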