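import Mathlib
import Crest.Agent.R211_Defs
import Crest.Agent.R211_Area0
import Crest.Agent.R211_Area

/-!
# Row 211, module PROJ: the least projection area of the standard tetrahedron is `√2`.
-/

set_option autoImplicit false

namespace Crest.Agent.R211

open MeasureTheory
open scoped ENNReal

/-- the pure inequality behind the minimal projection -/
theorem proj_key (x1 x2 x3 t : ℝ) (h : x1 ^ 2 + x2 ^ 2 + x3 ^ 2 = 1)
    (f1 : |x1 + x2 - x3| < t) (f2 : |x1 + x2 + x3| < t) (f3 : |x1 - x2 + x3| < t)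
    (f4 : |x1 - x2 - x3| < t) (q1 : 2 * |x1| < t) (q2 : 2 * |x2| < t) (q3 : 2 * |x3| < t) :
    2 < t ^ 2 := by
  have ht : 0 < t := lt_of_le_of_lt (abs_nonneg _) f1
  have hs : |x1| + |x2| + |x3| < t := by
    rw [abs_lt] at f1 f2 f3 f4
    rcases le_total 0 x1 with h1 | h1 <;> rcases le_total 0 x2 with h2 | h2 <;>
      rcases le_total 0 x3 with h3 | h3 <;>
      simp only [abs_of_nonneg, abs_of_nonpos, h1, h2, h3] <;> linarith [f1.1, f1.2, f2.1, f2.2,
        f3.1, f3.2, f4.1, f4.2]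
  have e1 : |x1| * |x1| ≤ |x1| * (t / 2) := mul_le_mul_of_nonneg_left (by linarith) (abs_nonneg _)
  have e2 : |x2| * |x2| ≤ |x2| * (t / 2) := mul_le_mul_of_nonneg_left (by linarith) (abs_nonneg _)
  have e3 : |x3| * |x3| ≤ |x3| * (t / 2) := mul_le_mul_of_nonneg_left (by linarith) (abs_nonneg _)
  have e4 : (|x1| + |x2| + |x3|) * (t / 2) < t * (t / 2) := mul_lt_mul_of_pos_right hs (by linarith)
  have a1 : |x1| * |x1| = x1 ^ 2 := by rw [abs_mul_abs_self]; ring
  have a2 : |x2| * |x2| = x2 ^ 2 := by rw [abs_mul_abs_self]; ring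
  have a3 : |x3| * |x3| = x3 ^ 2 := by rw [abs_mul_abs_self]; ring
  nlinarith

theorem isLinearMap_prj (v : E3) : IsLinearMap ℝ (fun y : E3 => y - inner ℝ y v • v) where
  map_add x y := by simp only [inner_add_left, add_smul]; abel
  map_smul c x := by simp only [inner_smul_left, smul_sub, mul_smul]; simp

theorem image_Kstd (v : E3) : (fun y : E3 => y - inner ℝ y v • v) '' Kstd =
    convexHull ℝ {prj v !₂[1, 0, 0], prj v !₂[-1, 0, 0], prj v !₂[0, 1, Real.sqrt 2],
      prj v !₂[0, -1, Real.sqrt 2]} := by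
  rw [Kstd, (isLinearMap_prj v).image_convexHull]
  simp only [Set.image_insert_eq, Set.image_singleton, prj]

theorem area_tri_prj (v A B C : E3) (hv : ‖v‖ = 1) :
    μHE[2] (convexHull ℝ {prj v A, prj v B, prj v C}) =
      ENNReal.ofReal (|det3 (B - A) (C - A) v| / 2) := by
  rw [area_tri, prj_sub, prj_sub, gram_prj v _ _ hv, Real.sqrt_sq_eq_abs]

theorem area_quad_prj (v A B C D : E3) (hv : ‖v‖ = 1) :
    ENNReal.ofReal (|det3 (B - A) (D - C) v| / 2) ≤
      μHE[2] (convexHull ℝ {prj v A, prj v B, prj v C, prj v D}) := by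
  have h := area_quad_ge v (prj v A) (prj v B) (prj v C) (prj v D) hv
    (by rw [prj_sub]; exact inner_prj _ _ hv) (by rw [prj_sub]; exact inner_prj _ _ hv)
    (by rw [prj_sub]; exact inner_prj _ _ hv)
  rwa [prj_sub, prj_sub, gram_prj v _ _ hv, Real.sqrt_sq_eq_abs] at h

theorem norm_sq_E3 (v : E3) : ‖v‖ ^ 2 = v 0 ^ 2 + v 1 ^ 2 + v 2 ^ 2 := by
  rw [EuclideanSpace.norm_sq_eq]; simp [Fin.sum_univ_three]

theorem proj_area_ge (v : E3) (hv : ‖v‖ = 1) :
    ENNReal.ofReal (Real.sqrt 2) ≤ μHE[2] ((fun y => y - inner ℝ y v • v) '' Kstd) := by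
  rw [image_Kstd]
  set A : E3 := !₂[1, 0, 0] with hA
  set B : E3 := !₂[-1, 0, 0] with hB
  set C : E3 := !₂[0, 1, Real.sqrt 2] with hC
  set D : E3 := !₂[0, -1, Real.sqrt 2] with hD
  set S : Set E3 := convexHull ℝ {prj v A, prj v B, prj v C, prj v D} with hS
  have hr : Real.sqrt 2 * Real.sqrt 2 = 2 := Real.mul_self_sqrt (by norm_num)
  have hr0 : 0 < Real.sqrt 2 := by positivity
  have hn : v 0 ^ 2 + v 1 ^ 2 + v 2 ^ 2 = 1 := by rw [← norm_sq_E3, hv]; norm_num
  by_contra hlt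
  rw [not_le] at hlt
  have tri : ∀ X Y Z : E3, ({prj v X, prj v Y, prj v Z} : Set E3) ⊆
      {prj v A, prj v B, prj v C, prj v D} → |det3 (Y - X) (Z - X) v| / 2 < Real.sqrt 2 := by
    intro X Y Z hsub
    have h1 : μHE[2] (convexHull ℝ {prj v X, prj v Y, prj v Z}) ≤ μHE[2] S :=
      measure_mono (convexHull_mono hsub)
    rw [area_tri_prj v X Y Z hv] at h1
    exact (ENNReal.ofReal_lt_ofReal_iff hr0).1 (lt_of_le_of_lt h1 hlt)
  have quad : ∀ X Y Z W : E3, ({prj v X, prj v Y, prj v Z, prj v W} : Set E3) ⊆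
      {prj v A, prj v B, prj v C, prj v D} → |det3 (Y - X) (W - Z) v| / 2 < Real.sqrt 2 := by
    intro X Y Z W hsub
    have h1 : μHE[2] (convexHull ℝ {prj v X, prj v Y, prj v Z, prj v W}) ≤ μHE[2] S :=
      measure_mono (convexHull_mono hsub)
    exact (ENNReal.ofReal_lt_ofReal_iff hr0).1
      (lt_of_le_of_lt ((area_quad_prj v X Y Z W hv).trans h1) hlt)
  have f1 := tri A B C (by intro x hx; simp only [Set.mem_insert_iff, Set.mem_singleton_iff] at hx ⊢; tauto)
  have f2 := tri A B D (by intro x hx; simp only [Set.mem_insert_iff, Set.mem_singleton_iff] at hx ⊢; tauto)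
  have f3 := tri A C D (by intro x hx; simp only [Set.mem_insert_iff, Set.mem_singleton_iff] at hx ⊢; tauto)
  have f4 := tri B C D (by intro x hx; simp only [Set.mem_insert_iff, Set.mem_singleton_iff] at hx ⊢; tauto)
  have q1 := quad A C B D (by intro x hx; simp only [Set.mem_insert_iff, Set.mem_singleton_iff] at hx ⊢; tauto)
  have q2 := quad A D B C (by intro x hx; simp only [Set.mem_insert_iff, Set.mem_singleton_iff] at hx ⊢; tauto)
  have q3 := quad A B C D (by intro x hx; simp only [Set.mem_insert_iff, Set.mem_singleton_iff] at hx ⊢; tauto)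
  have d1 : det3 (B - A) (C - A) v / 2 = Real.sqrt 2 * v 1 - v 2 := by
    simp [det3, hA, hB, hC]; ring
  have d2 : det3 (B - A) (D - A) v / 2 = Real.sqrt 2 * v 1 + v 2 := by
    simp [det3, hA, hB, hD]; ring
  have d3 : det3 (C - A) (D - A) v / 2 = Real.sqrt 2 * v 0 + v 2 := by
    simp [det3, hA, hC, hD]; ring
  have d4 : det3 (C - B) (D - B) v / 2 = Real.sqrt 2 * v 0 - v 2 := by
    simp [det3, hB, hC, hD]; ring
  have d5 : det3 (C - A) (D - B) v / 2 = Real.sqrt 2 * (v 0 + v 1) := by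
    simp [det3, hA, hB, hC, hD]; ring
  have d6 : det3 (D - A) (C - B) v / 2 = Real.sqrt 2 * (v 1 - v 0) := by
    simp [det3, hA, hB, hC, hD]; ring
  have d7 : det3 (B - A) (D - C) v / 2 = 2 * v 2 := by
    simp [det3, hA, hB, hC, hD]; ring
  have conv : ∀ x : ℝ, |x| / 2 = |x / 2| := by intro x; rw [abs_div]; norm_num
  have tma : ∀ x : ℝ, 2 * |x| = |2 * x| := by intro x; rw [abs_mul]; norm_num
  rw [conv, d1] at f1
  rw [conv, d2] at f2
  rw [conv, d3] at f3
  rw [conv, d4] at f4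
  rw [conv, d5] at q1
  rw [conv, d6] at q2
  rw [conv, d7] at q3
  have key := proj_key ((v 0 + v 1) * (Real.sqrt 2 / 2)) ((v 1 - v 0) * (Real.sqrt 2 / 2)) (v 2)
    (Real.sqrt 2) (by nlinarith)
    (by convert f1 using 2; ring) (by convert f2 using 2; ring) (by convert f3 using 2; ring)
    (by convert f4 using 2; ring)
    (by rw [tma]; convert q1 using 2; ring)
    (by rw [tma]; convert q2 using 2; ring)
    (by rw [tma]; exact q3)
  nlinarith

theorem proj_area_lt_top (v : E3) (hv : ‖v‖ = 1) :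
    μHE[2] ((fun y => y - inner ℝ y v • v) '' Kstd) < ⊤ := by
  apply area_lt_top v hv
  · rintro _ ⟨y, _, rfl⟩
    exact inner_prj v y hv
  · have hc : IsCompact Kstd := by
      apply Set.Finite.isCompact_convexHull
      simp
    exact (hc.image (by fun_prop)).isBounded

theorem proj_area_eq :
    μHE[2] ((fun y => y - inner ℝ y (!₂[1, 0, 0] : E3) • (!₂[1, 0, 0] : E3)) '' Kstd) =
      ENNReal.ofReal (Real.sqrt 2) := by
  have hv : ‖(!₂[1, 0, 0] : E3)‖ = 1 := by
    have := norm_sq_E3 !₂[1, 0, 0]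
    simp at this
    rcases this with h | h
    · exact h
    · have := norm_nonneg (!₂[1, 0, 0] : E3)
      linarith
  have hr : Real.sqrt 2 * Real.sqrt 2 = 2 := Real.mul_self_sqrt (by norm_num)
  rw [image_Kstd]
  have h1 : prj (!₂[1, 0, 0] : E3) !₂[1, 0, 0] = prj (!₂[1, 0, 0] : E3) !₂[-1, 0, 0] := by
    ext i; fin_cases i <;> simp [prj, EuclideanSpace.inner_eq_star_dotProduct, hv]
  rw [h1, Set.insert_eq_of_mem (by simp), area_tri_prj _ _ _ _ hv]
  congr 1
  have : det3 ((!₂[0, 1, Real.sqrt 2] : E3) - !₂[-1, 0, 0]) ((!₂[0, -1, Real.sqrt 2] : E3) - !₂[-1, 0, 0])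
      !₂[1, 0, 0] = 2 * Real.sqrt 2 := by
    simp [det3]; ring
  rw [this, abs_of_pos (by positivity)]
  ring

end Crest.Agent.R211
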