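import Mathlib
import Crest.Agent.R211_Defs

/-!
# S0326: common definitions (helper3)
-/

set_option autoImplicit false

namespace Crest.Agent.R211

/-- half-open axis-parallel grid cell of side `ρ` with index `k ∈ ℤ²`. -/
def cell (ρ : ℝ) (k : ℤ × ℤ) : Set E2 :=
  {x | x 0 ∈ Set.Ico ((k.1 : ℝ) * ρ) (((k.1 : ℝ) + 1) * ρ) ∧
       x 1 ∈ Set.Ico ((k.2 : ℝ) * ρ) (((k.2 : ℝ) + 1) * ρ)}

/-- lattice point `p₀ + r (i a + j b)`. -/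
noncomputable def latPt (p₀ a b : E2) (r : ℝ) (ij : ℤ × ℤ) : E2 :=
  p₀ + r • ((ij.1 : ℝ) • a + (ij.2 : ℝ) • b)

/-- the weight `J(g) = (1 + g₀² + h² g₁²)^(-1/2)`. -/
noncomputable def JJ (h : ℝ) (g : E2) : ℝ := 1 / Real.sqrt (1 + (g 0) ^ 2 + h ^ 2 * (g 1) ^ 2)

end Crest.Agent.R211
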