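import Mathlib
import Crest.Agent.R211_S0326_Defs

/-!
# S0326 (FRAME): a traceless endomorphism of the plane has an orthonormal frame with zero diagonal
(helper3)
-/

set_option autoImplicit false

namespace Crest.Agent.R211

theorem E2_apply_eq (A : E2 →L[ℝ] E2) (x : E2) :
    A x = x 0 • A (EuclideanSpace.single 0 1) + x 1 • A (EuclideanSpace.single 1 1) := by
  have hx : x = x 0 • EuclideanSpace.single (0 : Fin 2) (1 : ℝ) + x 1 • EuclideanSpace.single (1 : Fin 2) (1 : ℝ) := by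
    ext i; fin_cases i <;> simp
  conv_lhs => rw [hx]
  rw [map_add, map_smul, map_smul]

theorem trace_E2 (A : E2 →L[ℝ] E2) :
    LinearMap.trace ℝ _ A.toLinearMap
      = (A (EuclideanSpace.single 0 1)) 0 + (A (EuclideanSpace.single 1 1)) 1 := by
  rw [LinearMap.trace_eq_matrix_trace ℝ (EuclideanSpace.basisFun (Fin 2) ℝ).toBasis]
  simp [Matrix.trace, Fin.sum_univ_two, LinearMap.toMatrix_apply]

theorem det_E2 (A : E2 →L[ℝ] E2) :
    LinearMap.det A.toLinearMap
      = (A (EuclideanSpace.single 0 1)) 0 * (A (EuclideanSpace.single 1 1)) 1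
        - (A (EuclideanSpace.single 1 1)) 0 * (A (EuclideanSpace.single 0 1)) 1 := by
  rw [← LinearMap.det_toMatrix (EuclideanSpace.basisFun (Fin 2) ℝ).toBasis, Matrix.det_fin_two]
  simp [LinearMap.toMatrix_apply]

theorem exists_frame (A : E2 →L[ℝ] E2) (htr : LinearMap.trace ℝ _ A.toLinearMap = 0) :
    ∃ (a b : E2) (β γ : ℝ), ‖a‖ = 1 ∧ ‖b‖ = 1 ∧ inner ℝ a b = 0 ∧ A a = γ • b ∧ A b = β • a ∧
      LinearMap.det A.toLinearMap = -(β * γ) := by
  rw [trace_E2] at htr
  rw [det_E2]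
  set p := (A (EuclideanSpace.single 0 1)) 0 with hp
  set r := (A (EuclideanSpace.single 0 1)) 1 with hr
  set q := (A (EuclideanSpace.single 1 1)) 0 with hq
  set s := (A (EuclideanSpace.single 1 1)) 1 with hs
  have hsp : s = -p := by linarith
  -- the angle
  let f : ℝ → ℝ := fun θ => p * (Real.cos θ ^ 2 - Real.sin θ ^ 2) + (q + r) * (Real.cos θ * Real.sin θ)
  have hfc : Continuous f := by fun_prop
  have h0 : f 0 = p := by simp [f]
  have h1 : f (Real.pi / 2) = -p := by simp [f]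
  obtain ⟨θ, hθ⟩ : (0 : ℝ) ∈ Set.range f := by
    rcases le_total p 0 with hp0 | hp0
    · exact mem_range_of_exists_le_of_exists_ge hfc ⟨0, by rw [h0]; exact hp0⟩
        ⟨Real.pi / 2, by rw [h1]; linarith⟩
    · exact mem_range_of_exists_le_of_exists_ge hfc ⟨Real.pi / 2, by rw [h1]; linarith⟩
        ⟨0, by rw [h0]; exact hp0⟩
  set c := Real.cos θ with hc
  set d := Real.sin θ with hd
  have hcd : c ^ 2 + d ^ 2 = 1 := Real.cos_sq_add_sin_sq θ
  have hf : p * (c ^ 2 - d ^ 2) + (q + r) * (c * d) = 0 := hθ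
  refine ⟨!₂[c, d], !₂[-d, c], q * c ^ 2 - r * d ^ 2 - 2 * p * d * c,
    r * c ^ 2 - q * d ^ 2 - 2 * p * d * c, ?_, ?_, ?_, ?_, ?_, ?_⟩
  · rw [EuclideanSpace.norm_eq]; simp [Fin.sum_univ_two, hcd]
  · rw [EuclideanSpace.norm_eq]; simp [Fin.sum_univ_two]; rw [add_comm]; simp [hcd]
  · simp [PiLp.inner_apply, Fin.sum_univ_two]; ring
  · rw [E2_apply_eq A]
    ext i
    fin_cases i
    · simp [← hp, ← hq]
      linear_combination c * hf - (p * c + q * d) * hcd
    · simp [← hr, ← hs, hsp]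
      linear_combination d * hf - (r * c - p * d) * hcd
  · rw [E2_apply_eq A]
    ext i
    fin_cases i
    · simp [← hp, ← hq]
      linear_combination d * hf - (-d * p + c * q) * hcd
    · simp [← hr, ← hs, hsp]
      linear_combination (-c) * hf - (-d * r - c * p) * hcd
  · rw [hsp]
    linear_combination (-(p * (c ^ 2 - d ^ 2) + (q + r) * (c * d))) * hf
      + (p ^ 2 + q * r) * (c ^ 2 + d ^ 2 + 1) * hcd

end Crest.Agent.R211
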