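import Mathlib
import Crest.Agent.R211_S0326_Defs

/-!
# S0326 (LAT): the lattice lemma (helper3)
-/

set_option autoImplicit false

namespace Crest.Agent.R211

theorem lattice_cover (B Γ : ℝ) (hs : (0 ≤ B ∧ 0 ≤ Γ) ∨ (B ≤ 0 ∧ Γ ≤ 0)) (h1 : B * Γ < 1)
    (X Y : ℝ) :
    ∃ i j : ℤ, X - ((i : ℝ) + B * j) ∈ Set.Icc (0 : ℝ) 1 ∧
      Y - ((j : ℝ) + Γ * i) ∈ Set.Icc (0 : ℝ) 1 := by
  set I : ℤ → ℤ := fun j => ⌊X - B * j⌋ with hI
  set φ : ℤ → ℝ := fun j => Y - j - Γ * (I j) with hφ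
  have hd : 0 < 1 - B * Γ := by linarith
  have ha1 : ∀ j : ℤ, (I j : ℝ) ≤ X - B * j := fun j => Int.floor_le _
  have ha2 : ∀ j : ℤ, X - B * j < (I j : ℝ) + 1 := fun j => Int.lt_floor_add_one _
  -- (b)
  have hb : ∀ j : ℤ, φ j - 1 ≤ φ (j + 1) := by
    intro j
    have key : Γ * ((I (j + 1) : ℝ) - (I j : ℝ)) ≤ 0 := by
      rcases hs with ⟨hB, hΓ⟩ | ⟨hB, hΓ⟩
      · have : I (j + 1) ≤ I j := by
          apply Int.floor_le_floor
          push_cast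
          nlinarith
        have : (I (j + 1) : ℝ) ≤ (I j : ℝ) := by exact_mod_cast this
        nlinarith
      · have : I j ≤ I (j + 1) := by
          apply Int.floor_le_floor
          push_cast
          nlinarith
        have : (I j : ℝ) ≤ (I (j + 1) : ℝ) := by exact_mod_cast this
        nlinarith
    simp only [hφ]
    push_cast
    nlinarith
  -- (c)
  have hc : ∀ j : ℤ, |Γ * (I j : ℝ) - Γ * (X - B * j)| ≤ |Γ| := by
    intro j
    rw [← mul_sub, abs_mul]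
    have : |(I j : ℝ) - (X - B * j)| ≤ 1 := by
      rw [abs_le]; constructor <;> linarith [ha1 j, ha2 j]
    calc |Γ| * |(I j : ℝ) - (X - B * j)| ≤ |Γ| * 1 :=
          mul_le_mul_of_nonneg_left this (abs_nonneg _)
      _ = |Γ| := mul_one _
  have hup : ∀ j : ℤ, φ j ≤ (Y - Γ * X + |Γ|) - j * (1 - B * Γ) := by
    intro j
    have := (abs_le.mp (hc j)).1
    simp only [hφ]
    nlinarith
  have hlo : ∀ j : ℤ, (Y - Γ * X - |Γ|) - j * (1 - B * Γ) ≤ φ j := by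
    intro j
    have := (abs_le.mp (hc j)).2
    simp only [hφ]
    nlinarith
  obtain ⟨j, hj0, hjmax⟩ := Int.exists_greatest_of_bdd (P := fun j => 0 ≤ φ j)
    ⟨⌈(Y - Γ * X + |Γ|) / (1 - B * Γ)⌉, by
      intro z hz
      have h2 : (z : ℝ) * (1 - B * Γ) ≤ Y - Γ * X + |Γ| := by linarith [hup z]
      have h3 : (z : ℝ) ≤ (Y - Γ * X + |Γ|) / (1 - B * Γ) := by
        rw [le_div_iff₀ hd]; exact h2
      exact_mod_cast h3.trans (Int.le_ceil _)⟩
    ⟨⌊(Y - Γ * X - |Γ|) / (1 - B * Γ)⌋, by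
      have h3 : ((⌊(Y - Γ * X - |Γ|) / (1 - B * Γ)⌋ : ℤ) : ℝ) ≤ (Y - Γ * X - |Γ|) / (1 - B * Γ) :=
        Int.floor_le _
      rw [le_div_iff₀ hd] at h3
      show 0 ≤ φ _
      linarith [hlo ⌊(Y - Γ * X - |Γ|) / (1 - B * Γ)⌋]⟩
  have hj1 : φ (j + 1) < 0 := by
    by_contra hcon
    have := hjmax (j + 1) (not_lt.mp hcon)
    omega
  refine ⟨I j, j, ⟨by linarith [ha1 j], by linarith [ha2 j]⟩, ?_, ?_⟩
  · have : 0 ≤ φ j := hj0
    simp only [hφ] at this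
    linarith
  · have := hb j
    have h4 : φ j < 1 := by linarith
    simp only [hφ] at h4
    linarith

end Crest.Agent.R211
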