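import Mathlib
import Crest.Agent.R211_S0326_Defs
import Crest.Agent.R211_S0326_Lat

/-!
# S0326 (LOCAL): the moving tiles of the linearised flow (helper3)
-/

set_option autoImplicit false

namespace Crest.Agent.R211

/-- an orthonormal pair in the plane is an orthonormal basis. -/
theorem exists_onb (a b : E2) (ha : ‖a‖ = 1) (hb : ‖b‖ = 1) (hab : inner ℝ a b = 0) :
    ∃ B : OrthonormalBasis (Fin 2) ℝ E2, B 0 = a ∧ B 1 = b := by
  have hon : Orthonormal ℝ ![a, b] := by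
    rw [orthonormal_iff_ite]
    intro i j
    fin_cases i <;> fin_cases j <;> simp [ha, hb, hab, real_inner_comm]
  obtain ⟨B, hB⟩ := Orthonormal.exists_orthonormalBasis_extension_of_card_eq (𝕜 := ℝ) (E := E2)
    (ι := Fin 2) (by simp) (v := ![a, b]) (s := Set.univ)
    (by
      have : Orthonormal ℝ (fun i : (Set.univ : Set (Fin 2)) => ![a, b] i) :=
        hon.comp _ Subtype.val_injective
      exact this)
  exact ⟨B, by simpa using hB 0 (Set.mem_univ _), by simpa using hB 1 (Set.mem_univ _)⟩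

theorem frame_decomp (a b : E2) (ha : ‖a‖ = 1) (hb : ‖b‖ = 1) (hab : inner ℝ a b = 0) (x : E2) :
    x = inner ℝ a x • a + inner ℝ b x • b := by
  obtain ⟨B, h0, h1⟩ := exists_onb a b ha hb hab
  have := B.sum_repr' x
  rw [Fin.sum_univ_two, h0, h1] at this
  exact this.symm

theorem local_tile (A : E2 →L[ℝ] E2) (a b : E2) (β γ : ℝ) (ha : ‖a‖ = 1) (hb : ‖b‖ = 1)
    (hab : inner ℝ a b = 0) (hAa : A a = γ • b) (hAb : A b = β • a) (L κ : ℝ) (hL : 0 < L)
    (h0 : 0 ≤ β * γ) (hκ : L ^ 2 * (β * γ) ≤ κ) (hκ1 : κ < 1) (r : ℝ) (hr : 0 < r)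
    (s : ℝ) (hs : |s| ≤ L) (v err : E2) :
    ∃ (ij : ℤ × ℤ), ∃ x ∈ Set.Icc (0 : ℝ) 1, ∃ y ∈ Set.Icc (0 : ℝ) 1,
      v + s • (A v + err) = latPt 0 a b r ij + x • (r • a) + y • (r • b) + s • A (latPt 0 a b r ij) ∧
      ‖v - latPt 0 a b r ij‖ ≤ (1 + L * ‖A‖) / (1 - κ) * (2 * r + L * ‖err‖) := by
  set u : E2 := v + s • (A v + err) with hu
  have hs2 : s ^ 2 ≤ L ^ 2 := by
    rw [← sq_abs s]; exact pow_le_pow_left₀ (abs_nonneg _) hs 2
  have hprod : (s * β) * (s * γ) = s ^ 2 * (β * γ) := by ring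
  have hle : s ^ 2 * (β * γ) ≤ κ := (mul_le_mul_of_nonneg_right hs2 h0).trans hκ
  obtain ⟨i, j, hx, hy⟩ := lattice_cover (s * β) (s * γ)
    (mul_nonneg_iff.mp (by rw [hprod]; positivity)) (by rw [hprod]; linarith)
    (inner ℝ a u / r) (inner ℝ b u / r)
  set x := inner ℝ a u / r - ((i : ℝ) + s * β * j) with hxdef
  set y := inner ℝ b u / r - ((j : ℝ) + s * γ * i) with hydef
  have hu1 : inner ℝ a u = r * ((i : ℝ) + s * β * j + x) := by
    rw [hxdef]; field_simp; ring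
  have hu2 : inner ℝ b u = r * ((j : ℝ) + s * γ * i + y) := by
    rw [hydef]; field_simp; ring
  set ℓ : E2 := latPt 0 a b r (i, j) with hℓ
  have hℓ' : ℓ = (r * i) • a + (r * j) • b := by
    simp only [hℓ, latPt, zero_add, smul_add, smul_smul]
  have hAℓ : A ℓ = (r * j * β) • a + (r * i * γ) • b := by
    rw [hℓ', map_add, map_smul, map_smul, hAa, hAb, smul_smul, smul_smul, add_comm]
  have hmain : u = ℓ + x • (r • a) + y • (r • b) + s • A ℓ := by
    rw [frame_decomp a b ha hb hab u, hu1, hu2, hAℓ, hℓ']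
    simp only [smul_add, smul_smul]
    module
  refine ⟨(i, j), x, hx, y, hy, hmain, ?_⟩
  -- locality
  set z : E2 := v - ℓ with hz
  set t : E2 := (x • (r • a) + y • (r • b)) - s • err with ht
  have h1 : z + s • A z = t := by
    have : v + s • A v = u - s • err := by rw [hu]; simp only [smul_add]; abel
    rw [hz, map_sub, smul_sub]
    have h2 : v - ℓ + (s • A v - s • A ℓ) = (v + s • A v) - (ℓ + s • A ℓ) := by abel
    rw [h2, this, ht, hmain]; abel
  have hAA : ∀ w : E2, A (A w) = (β * γ) • w := by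
    intro w
    conv_lhs => rw [frame_decomp a b ha hb hab w]
    conv_rhs => rw [frame_decomp a b ha hb hab w]
    simp only [map_add, map_smul, hAa, hAb, smul_add, smul_smul]
    congr 1 <;> congr 1 <;> ring
  have h3 : (1 - s ^ 2 * (β * γ)) • z = t - s • A t := by
    rw [← h1, map_add, map_smul, hAA]
    simp only [smul_add, smul_smul, sub_smul, one_smul]
    have : s * (s * (β * γ)) = s ^ 2 * (β * γ) := by ring
    rw [this]; abel
  have hpos : 0 < 1 - s ^ 2 * (β * γ) := by linarith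
  have hκpos : 0 < 1 - κ := by linarith
  have ht_norm : ‖t‖ ≤ 2 * r + L * ‖err‖ := by
    have e1 : ‖x • (r • a)‖ ≤ r := by
      rw [norm_smul, norm_smul, ha, Real.norm_eq_abs, Real.norm_eq_abs, abs_of_nonneg hx.1,
        abs_of_pos hr, mul_one]
      nlinarith [hx.2]
    have e2 : ‖y • (r • b)‖ ≤ r := by
      rw [norm_smul, norm_smul, hb, Real.norm_eq_abs, Real.norm_eq_abs, abs_of_nonneg hy.1,
        abs_of_pos hr, mul_one]
      nlinarith [hy.2]
    have e3 : ‖s • err‖ ≤ L * ‖err‖ := by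
      rw [norm_smul, Real.norm_eq_abs]
      exact mul_le_mul_of_nonneg_right hs (norm_nonneg _)
    calc ‖t‖ ≤ ‖x • (r • a) + y • (r • b)‖ + ‖s • err‖ := norm_sub_le _ _
      _ ≤ ‖x • (r • a)‖ + ‖y • (r • b)‖ + ‖s • err‖ := by gcongr; exact norm_add_le _ _
      _ ≤ 2 * r + L * ‖err‖ := by linarith
  have h4 : ‖t - s • A t‖ ≤ (1 + L * ‖A‖) * ‖t‖ := by
    have e4 : ‖s • A t‖ ≤ L * (‖A‖ * ‖t‖) := by
      rw [norm_smul, Real.norm_eq_abs]
      exact mul_le_mul hs (A.le_opNorm t) (norm_nonneg _) hL.le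
    calc ‖t - s • A t‖ ≤ ‖t‖ + ‖s • A t‖ := norm_sub_le _ _
      _ ≤ (1 + L * ‖A‖) * ‖t‖ := by nlinarith
  have h5 : (1 - s ^ 2 * (β * γ)) * ‖z‖ ≤ (1 + L * ‖A‖) * ‖t‖ := by
    have : ‖(1 - s ^ 2 * (β * γ)) • z‖ = (1 - s ^ 2 * (β * γ)) * ‖z‖ := by
      rw [norm_smul, Real.norm_eq_abs, abs_of_pos hpos]
    rw [← this, h3]; exact h4
  have hA0 : 0 ≤ 1 + L * ‖A‖ := by positivity
  have h6 : (1 - κ) * ‖z‖ ≤ (1 + L * ‖A‖) * (2 * r + L * ‖err‖) := by
    calc (1 - κ) * ‖z‖ ≤ (1 - s ^ 2 * (β * γ)) * ‖z‖ :=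
          mul_le_mul_of_nonneg_right (by linarith) (norm_nonneg _)
      _ ≤ (1 + L * ‖A‖) * ‖t‖ := h5
      _ ≤ (1 + L * ‖A‖) * (2 * r + L * ‖err‖) := mul_le_mul_of_nonneg_left ht_norm hA0
  rw [div_mul_eq_mul_div, le_div_iff₀ hκpos]
  linarith

end Crest.Agent.R211
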