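import Mathlib
import Crest.Agent.R211_S0326_Defs

/-!
# S0326 (UNIF): uniform estimates on the compact set (helper3)
-/

set_option autoImplicit false

open Topology

namespace Crest.Agent.R211

theorem unif_diff (D : Set E2) (hD : IsCompact D) (V : E2 → E2) (U : Set E2) (hU : IsOpen U)
    (hDU : D ⊆ U) (hV : ContDiffOn ℝ 1 V U) (ω : ℝ) (hω : 0 < ω) :
    ∃ ρ₀ : ℝ, 0 < ρ₀ ∧ ∀ p₀ ∈ D, ∀ p ∈ D, ‖p - p₀‖ ≤ ρ₀ →
      ‖V p - V p₀ - fderiv ℝ V p₀ (p - p₀)‖ ≤ ω * ‖p - p₀‖ := by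
  have key : ∀ q ∈ D, ∃ δ > 0, ∀ x ∈ Metric.ball q δ, ∀ y ∈ Metric.ball q δ,
      ‖V x - V y - fderiv ℝ V y (x - y)‖ ≤ ω * ‖x - y‖ := by
    intro q hq
    have hcd : ContDiffAt ℝ 1 V q := hV.contDiffAt (hU.mem_nhds (hDU hq))
    have hs : HasStrictFDerivAt V (fderiv ℝ V q) q := hcd.hasStrictFDerivAt (by simp)
    have h1 := hs.isLittleO.def (half_pos hω)
    have hcont : ContinuousAt (fderiv ℝ V) q :=
      (hV.continuousOn_fderiv_of_isOpen hU le_rfl).continuousAt (hU.mem_nhds (hDU hq))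
    have h2 : ∀ᶠ y in 𝓝 q, dist (fderiv ℝ V y) (fderiv ℝ V q) < ω / 2 :=
      (Metric.tendsto_nhds.mp hcont) _ (half_pos hω)
    obtain ⟨δ1, hδ1, H1⟩ := Metric.eventually_nhds_iff.mp h1
    obtain ⟨δ2, hδ2, H2⟩ := Metric.eventually_nhds_iff.mp h2
    refine ⟨min δ1 δ2, lt_min hδ1 hδ2, ?_⟩
    intro x hx y hy
    have hx1 : dist x q < δ1 := lt_of_lt_of_le hx (min_le_left _ _)
    have hy1 : dist y q < δ1 := lt_of_lt_of_le hy (min_le_left _ _)
    have hy2 : dist y q < δ2 := lt_of_lt_of_le hy (min_le_right _ _)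
    have e1 : ‖V x - V y - fderiv ℝ V q (x - y)‖ ≤ ω / 2 * ‖x - y‖ :=
      H1 (y := (x, y)) (by rw [Prod.dist_eq]; exact max_lt hx1 hy1)
    have e2 : ‖(fderiv ℝ V q - fderiv ℝ V y) (x - y)‖ ≤ ω / 2 * ‖x - y‖ := by
      refine (ContinuousLinearMap.le_opNorm _ _).trans ?_
      refine mul_le_mul_of_nonneg_right ?_ (norm_nonneg _)
      rw [← dist_eq_norm, dist_comm]; exact (H2 hy2).le
    have e3 : V x - V y - fderiv ℝ V y (x - y)
        = (V x - V y - fderiv ℝ V q (x - y)) + (fderiv ℝ V q - fderiv ℝ V y) (x - y) := by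
      rw [sub_apply]; abel
    rw [e3]
    calc _ ≤ ‖V x - V y - fderiv ℝ V q (x - y)‖ + ‖(fderiv ℝ V q - fderiv ℝ V y) (x - y)‖ :=
          norm_add_le _ _
      _ ≤ ω * ‖x - y‖ := by linarith
  choose! δ hδ H using key
  obtain ⟨ρ, hρ, Hρ⟩ := lebesgue_number_lemma_of_metric (ι := D) (c := fun q => Metric.ball q.1 (δ q.1))
    hD (fun _ => Metric.isOpen_ball)
    (fun x hx => Set.mem_iUnion.mpr ⟨⟨x, hx⟩, Metric.mem_ball_self (hδ x hx)⟩)
  refine ⟨ρ / 2, half_pos hρ, ?_⟩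
  intro p₀ hp₀ p hp hpp
  obtain ⟨q, hq⟩ := Hρ p₀ hp₀
  exact H q.1 q.2 p (hq (by rw [Metric.mem_ball, dist_eq_norm]; linarith)) p₀
    (hq (Metric.mem_ball_self hρ))

/-- bound on the derivative. -/
theorem exists_fderiv_bound (D : Set E2) (hD : IsCompact D) (V : E2 → E2) (U : Set E2)
    (hU : IsOpen U) (hDU : D ⊆ U) (hV : ContDiffOn ℝ 1 V U) :
    ∃ C : ℝ, 0 ≤ C ∧ ∀ p ∈ D, ‖fderiv ℝ V p‖ ≤ C := by
  have hc : ContinuousOn (fun p => ‖fderiv ℝ V p‖) D :=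
    ((hV.continuousOn_fderiv_of_isOpen hU le_rfl).mono hDU).norm
  obtain ⟨C, hC⟩ := hD.bddAbove_image hc
  refine ⟨max C 0, le_max_right _ _, fun p hp => ?_⟩
  exact (hC (Set.mem_image_of_mem _ hp)).trans (le_max_left _ _)

/-- uniform bound `L² |det| ≤ κ < 1`. -/
theorem exists_det_bound (D : Set E2) (hD : IsCompact D) (V : E2 → E2) (U : Set E2)
    (hU : IsOpen U) (hDU : D ⊆ U) (hV : ContDiffOn ℝ 1 V U) (L : ℝ) (hL : 0 < L)
    (hdet : ∀ p ∈ D, -(L ^ 2)⁻¹ < LinearMap.det (fderiv ℝ V p).toLinearMap) :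
    ∃ κ : ℝ, κ < 1 ∧ ∀ p ∈ D, L ^ 2 * (-LinearMap.det (fderiv ℝ V p).toLinearMap) ≤ κ := by
  have hc : ContinuousOn (fun p => L ^ 2 * (-LinearMap.det (fderiv ℝ V p).toLinearMap)) D := by
    have h1 : ContinuousOn (fderiv ℝ V) D := (hV.continuousOn_fderiv_of_isOpen hU le_rfl).mono hDU
    have h2 : Continuous (fun A : E2 →L[ℝ] E2 => LinearMap.det A.toLinearMap) :=
      ContinuousLinearMap.continuous_det
    exact continuousOn_const.mul (h2.comp_continuousOn h1).neg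
  rcases D.eq_empty_or_nonempty with rfl | hne
  · exact ⟨0, by norm_num, by simp⟩
  · obtain ⟨x, hx, hmax⟩ := hD.exists_isMaxOn hne hc
    refine ⟨_, ?_, fun p hp => hmax hp⟩
    have := hdet x hx
    have hL2 : 0 < L ^ 2 := by positivity
    have h3 : -LinearMap.det (fderiv ℝ V x).toLinearMap < (L ^ 2)⁻¹ := by linarith
    calc L ^ 2 * (-LinearMap.det (fderiv ℝ V x).toLinearMap) < L ^ 2 * (L ^ 2)⁻¹ :=
          mul_lt_mul_of_pos_left h3 hL2
      _ = 1 := mul_inv_cancel₀ hL2.ne'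


theorem inv_sqrt_lip (x y x' y' : ℝ) :
    |1 / Real.sqrt (1 + x ^ 2 + y ^ 2) - 1 / Real.sqrt (1 + x' ^ 2 + y' ^ 2)|
      ≤ |x - x'| + |y - y'| := by
  set N := Real.sqrt (1 + x ^ 2 + y ^ 2) with hN
  set N' := Real.sqrt (1 + x' ^ 2 + y' ^ 2) with hN'
  have hsq : N ^ 2 = 1 + x ^ 2 + y ^ 2 := Real.sq_sqrt (by positivity)
  have hsq' : N' ^ 2 = 1 + x' ^ 2 + y' ^ 2 := Real.sq_sqrt (by positivity)
  have hN0 : 0 ≤ N := Real.sqrt_nonneg _
  have hN0' : 0 ≤ N' := Real.sqrt_nonneg _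
  have hN1 : 1 ≤ N := by nlinarith [sq_nonneg x, sq_nonneg y]
  have hN1' : 1 ≤ N' := by nlinarith [sq_nonneg x', sq_nonneg y']
  have hx : |x| ≤ N := abs_le_of_sq_le_sq (by nlinarith [sq_nonneg y]) hN0
  have hy : |y| ≤ N := abs_le_of_sq_le_sq (by nlinarith [sq_nonneg x]) hN0
  have hx' : |x'| ≤ N' := abs_le_of_sq_le_sq (by nlinarith [sq_nonneg y']) hN0'
  have hy' : |y'| ≤ N' := abs_le_of_sq_le_sq (by nlinarith [sq_nonneg x']) hN0'
  have hid : (N - N') * (N + N') = (x - x') * (x + x') + (y - y') * (y + y') := by nlinarith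
  have hS : 0 < N + N' := by linarith
  have h1 : |N - N'| * (N + N') ≤ (|x - x'| + |y - y'|) * (N + N') := by
    have : |N - N'| * (N + N') = |(N - N') * (N + N')| := by
      rw [abs_mul, abs_of_pos hS]
    rw [this, hid]
    calc |(x - x') * (x + x') + (y - y') * (y + y')|
        ≤ |(x - x') * (x + x')| + |(y - y') * (y + y')| := abs_add_le _ _
      _ = |x - x'| * |x + x'| + |y - y'| * |y + y'| := by rw [abs_mul, abs_mul]
      _ ≤ |x - x'| * (N + N') + |y - y'| * (N + N') := by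
          gcongr
          · exact (abs_add_le _ _).trans (by linarith)
          · exact (abs_add_le _ _).trans (by linarith)
      _ = _ := by ring
  have h2 : |N - N'| ≤ |x - x'| + |y - y'| := le_of_mul_le_mul_right h1 hS
  have h3 : 1 / N - 1 / N' = (N' - N) / (N * N') := by
    field_simp
  rw [h3, abs_div, abs_sub_comm]
  have h4 : 1 ≤ |N * N'| := by
    rw [abs_of_nonneg (by positivity)]; nlinarith
  calc |N - N'| / |N * N'| ≤ |N - N'| / 1 := by gcongr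
    _ = |N - N'| := div_one _
    _ ≤ _ := h2

theorem abs_coord_le_norm (g : E2) (i : Fin 2) : |g i| ≤ ‖g‖ := by
  simpa using PiLp.norm_apply_le g i

theorem JJ_lipschitz (h : ℝ) (g g' : E2) : |JJ h g - JJ h g'| ≤ (1 + |h|) * ‖g - g'‖ := by
  unfold JJ
  have := inv_sqrt_lip (g 0) (h * g 1) (g' 0) (h * g' 1)
  simp only [mul_pow] at this
  refine this.trans ?_
  have e0 : |g 0 - g' 0| ≤ ‖g - g'‖ := by simpa using abs_coord_le_norm (g - g') 0
  have e1 : |g 1 - g' 1| ≤ ‖g - g'‖ := by simpa using abs_coord_le_norm (g - g') 1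
  have e2 : |h * g 1 - h * g' 1| = |h| * |g 1 - g' 1| := by rw [← mul_sub, abs_mul]
  rw [e2]
  nlinarith [abs_nonneg h]

theorem JJ_nonneg (h : ℝ) (g : E2) : 0 ≤ JJ h g := by unfold JJ; positivity

theorem JJ_le_one (h : ℝ) (g : E2) : JJ h g ≤ 1 := by
  unfold JJ
  rw [div_le_one (by positivity)]
  rw [show (1:ℝ) = Real.sqrt 1 by simp]
  apply Real.sqrt_le_sqrt
  simp only [Real.sqrt_one]
  nlinarith [sq_nonneg (g 0), sq_nonneg (h * g 1)]

theorem JJ_continuous (h : ℝ) : Continuous (JJ h) := by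
  have : LipschitzWith (Real.toNNReal (1 + |h|)) (JJ h) := by
    apply LipschitzWith.of_dist_le_mul
    intro x y
    rw [Real.dist_eq, dist_eq_norm, Real.coe_toNNReal _ (by positivity)]
    exact JJ_lipschitz h x y
  exact this.continuous

end Crest.Agent.R211
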