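import Mathlib
import Crest.Agent.R211_S0326_Defs
import Crest.Agent.R211_S0326_Frame
import Crest.Agent.R211_S0326_Local
import Crest.Agent.R211_S0326_Unif

/-!
# S0326 (CELL): what happens over one mesoscopic cell; small utilities (helper3)
-/

set_option autoImplicit false

namespace Crest.Agent.R211

theorem latPt_eq (p₀ a b : E2) (r : ℝ) (ij : ℤ × ℤ) :
    latPt p₀ a b r ij = p₀ + latPt 0 a b r ij := by
  simp [latPt]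

theorem norm_le_abs_add_abs3 (x : E2) : ‖x‖ ≤ |x 0| + |x 1| := by
  rw [EuclideanSpace.norm_eq, Fin.sum_univ_two]
  apply Real.sqrt_le_iff.mpr
  refine ⟨by positivity, ?_⟩
  simp only [Real.norm_eq_abs]
  nlinarith [abs_nonneg (x 0), abs_nonneg (x 1)]

theorem cell_diam (ρ : ℝ) (k : ℤ × ℤ) (p p' : E2) (hp : p ∈ cell ρ k) (hp' : p' ∈ cell ρ k) :
    ‖p - p'‖ ≤ 2 * ρ := by
  obtain ⟨⟨h1, h2⟩, ⟨h3, h4⟩⟩ := hp
  obtain ⟨⟨h1', h2'⟩, ⟨h3', h4'⟩⟩ := hp'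
  refine (norm_le_abs_add_abs3 _).trans ?_
  have e0 : |(p - p') 0| ≤ ρ := by
    simp only [PiLp.sub_apply]
    rw [abs_le]; constructor <;> linarith
  have e1 : |(p - p') 1| ≤ ρ := by
    simp only [PiLp.sub_apply]
    rw [abs_le]; constructor <;> linarith
  linarith

theorem mem_cell_floor3 (ρ : ℝ) (hρ : 0 < ρ) (p : E2) : p ∈ cell ρ (⌊p 0 / ρ⌋, ⌊p 1 / ρ⌋) := by
  refine ⟨⟨?_, ?_⟩, ⟨?_, ?_⟩⟩
  · have := Int.floor_le (p 0 / ρ)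
    rwa [le_div_iff₀ hρ] at this
  · have := Int.lt_floor_add_one (p 0 / ρ)
    rwa [div_lt_iff₀ hρ] at this
  · have := Int.floor_le (p 1 / ρ)
    rwa [le_div_iff₀ hρ] at this
  · have := Int.lt_floor_add_one (p 1 / ρ)
    rwa [div_lt_iff₀ hρ] at this

/-- the moving tiles based at `p₀` catch all trajectories starting in `D` near `p₀`. -/
theorem cell_cover (D : Set E2) (V : E2 → E2) (L κ CM ω ρ r : ℝ) (hL : 0 < L) (hκ1 : κ < 1)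
    (hr : 0 < r) (hω : 0 ≤ ω) (p₀ : E2)
    (htr : LinearMap.trace ℝ _ (fderiv ℝ V p₀).toLinearMap = 0)
    (hdet0 : LinearMap.det (fderiv ℝ V p₀).toLinearMap ≤ 0)
    (hdetκ : L ^ 2 * (-LinearMap.det (fderiv ℝ V p₀).toLinearMap) ≤ κ)
    (hCM : ‖fderiv ℝ V p₀‖ ≤ CM)
    (hdiff : ∀ p ∈ D, ‖p - p₀‖ ≤ 2 * ρ →
      ‖V p - V p₀ - fderiv ℝ V p₀ (p - p₀)‖ ≤ ω * ‖p - p₀‖) :
    ∃ a b : E2, ‖a‖ = 1 ∧ ‖b‖ = 1 ∧ inner ℝ a b = 0 ∧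
      ∀ p ∈ D, ‖p - p₀‖ ≤ 2 * ρ → ∀ s : ℝ, |s| ≤ L →
        ∃ ij : ℤ × ℤ, ∃ x ∈ Set.Icc (0 : ℝ) 1, ∃ y ∈ Set.Icc (0 : ℝ) 1,
          p + s • V p = latPt p₀ a b r ij + x • (r • a) + y • (r • b)
            + s • (V p₀ + fderiv ℝ V p₀ (latPt 0 a b r ij)) ∧
          ‖p - latPt p₀ a b r ij‖ ≤ (1 + L * CM) / (1 - κ) * (2 * r + L * (ω * (2 * ρ))) := by
  obtain ⟨a, b, β, γ, ha, hb, hab, hAa, hAb, hdet⟩ := exists_frame (fderiv ℝ V p₀) htr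
  refine ⟨a, b, ha, hb, hab, ?_⟩
  intro p hp hpp s hs
  have h0 : 0 ≤ β * γ := by linarith
  have hκ : L ^ 2 * (β * γ) ≤ κ := by rw [hdet] at hdetκ; simpa using hdetκ
  obtain ⟨ij, x, hx, y, hy, h1, h2⟩ := local_tile (fderiv ℝ V p₀) a b β γ ha hb hab hAa hAb L κ hL
    h0 hκ hκ1 r hr s hs (p - p₀) (V p - V p₀ - fderiv ℝ V p₀ (p - p₀))
  refine ⟨ij, x, hx, y, hy, ?_, ?_⟩
  · have e1 : p - p₀ + s • (fderiv ℝ V p₀ (p - p₀) + (V p - V p₀ - fderiv ℝ V p₀ (p - p₀)))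
        = (p + s • V p) - (p₀ + s • V p₀) := by
      have : fderiv ℝ V p₀ (p - p₀) + (V p - V p₀ - fderiv ℝ V p₀ (p - p₀)) = V p - V p₀ := by abel
      rw [this, smul_sub]; abel
    rw [e1] at h1
    rw [latPt_eq, smul_add, eq_add_of_sub_eq h1]
    abel
  · have e2 : p - latPt p₀ a b r ij = p - p₀ - latPt 0 a b r ij := by rw [latPt_eq]; abel
    rw [e2]
    refine h2.trans ?_
    have hκpos : 0 < 1 - κ := by linarith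
    have herr := hdiff p hp hpp
    have herr2 : ‖V p - V p₀ - fderiv ℝ V p₀ (p - p₀)‖ ≤ ω * (2 * ρ) :=
      herr.trans (mul_le_mul_of_nonneg_left hpp hω)
    have hCM0 : 0 ≤ CM := (norm_nonneg _).trans hCM
    apply mul_le_mul
    · gcongr
    · gcongr
    · positivity
    · positivity

/-- from a finite index set to `Fin k`. -/
theorem to_fin {ι : Type*} (S : Finset ι) (c a b g : ι → E2) (E : Set (ℝ × E2)) (h bound : ℝ)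
    (h1 : ∀ i ∈ S, a i ≠ 0 ∧ ‖b i‖ = ‖a i‖ ∧ inner ℝ (a i) (b i) = 0)
    (h2 : ∀ z ∈ E, ∃ i ∈ S, ∃ x ∈ Set.Icc (0 : ℝ) 1, ∃ y ∈ Set.Icc (0 : ℝ) 1,
      z.2 = c i + x • a i + y • b i + z.1 • g i)
    (h3 : ∑ i ∈ S, ‖a i‖ ^ 2 / Real.sqrt (1 + (g i 0) ^ 2 + h ^ 2 * (g i 1) ^ 2) ≤ bound) :
    ∃ (k : ℕ) (c a b g : Fin k → E2),
      (∀ i, a i ≠ 0 ∧ ‖b i‖ = ‖a i‖ ∧ inner ℝ (a i) (b i) = 0) ∧
      E ⊆ ⋃ i, {z : ℝ × E2 | ∃ x ∈ Set.Icc (0 : ℝ) 1, ∃ y ∈ Set.Icc (0 : ℝ) 1,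
          z.2 = c i + x • a i + y • b i + z.1 • g i} ∧
      ∑ i, ‖a i‖ ^ 2 / Real.sqrt (1 + (g i 0) ^ 2 + h ^ 2 * (g i 1) ^ 2) ≤ bound := by
  let e := S.equivFin.symm
  refine ⟨S.card, fun i => c (e i).1, fun i => a (e i).1, fun i => b (e i).1, fun i => g (e i).1,
    fun i => h1 _ (e i).2, ?_, ?_⟩
  · intro z hz
    obtain ⟨i, hi, x, hx, y, hy, hxy⟩ := h2 z hz
    refine Set.mem_iUnion.mpr ⟨e.symm ⟨i, hi⟩, x, hx, y, hy, ?_⟩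
    simpa using hxy
  · rw [Equiv.sum_comp e (fun i : S => ‖a i.1‖ ^ 2 / Real.sqrt (1 + (g i.1 0) ^ 2 + h ^ 2 * (g i.1 1) ^ 2)),
      Finset.sum_coe_sort S (fun i => ‖a i‖ ^ 2 / Real.sqrt (1 + (g i 0) ^ 2 + h ^ 2 * (g i 1) ^ 2))]
    exact h3

end Crest.Agent.R211
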