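import Mathlib
import Crest.Agent.R211_Area0
import Crest.Agent.R211_S0326_Defs

/-!
# S0326 (COUNT): counting rotated lattice points near a grid cell by volume (helper2)
-/

set_option autoImplicit false

namespace Crest.Agent.R211

open MeasureTheory
open scoped ENNReal

/-- the half-open unit square. -/
def usq : Set E2 := {x | x 0 ∈ Set.Ico (0:ℝ) 1 ∧ x 1 ∈ Set.Ico (0:ℝ) 1}

theorem measurableSet_usq : MeasurableSet usq := by
  have h0 : Measurable (fun x : E2 => x 0) := by fun_prop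
  have h1 : Measurable (fun x : E2 => x 1) := by fun_prop
  exact (h0 measurableSet_Ico).inter (h1 measurableSet_Ico)

theorem volume_usq : volume usq = 1 := by
  unfold usq
  rw [volume_E2_box _ _ measurableSet_Ico measurableSet_Ico]
  simp

/-- the affine map parametrising the tile with index `ij`. -/
noncomputable def tileMap (p₀ a b : E2) (r : ℝ) (ij : ℤ × ℤ) : E2 → E2 :=
  fun x => latPt p₀ a b r ij + (x 0 • (r • a) + x 1 • (r • b))

theorem inner_tileMap_a (p₀ a b : E2) (r : ℝ) (ij : ℤ × ℤ) (x : E2)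
    (ha : ‖a‖ = 1) (hab : inner ℝ a b = 0) :
    inner ℝ (tileMap p₀ a b r ij x - p₀) a = r * ((ij.1 : ℝ) + x 0) := by
  have hba : inner ℝ b a = 0 := by rw [real_inner_comm]; exact hab
  have haa : inner ℝ a a = 1 := by rw [real_inner_self_eq_norm_sq, ha]; norm_num
  have : tileMap p₀ a b r ij x - p₀
      = (r * ((ij.1 : ℝ) + x 0)) • a + (r * ((ij.2 : ℝ) + x 1)) • b := by
    unfold tileMap latPt
    module
  rw [this, inner_add_left, real_inner_smul_left, real_inner_smul_left, haa, hba]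
  ring

theorem inner_tileMap_b (p₀ a b : E2) (r : ℝ) (ij : ℤ × ℤ) (x : E2)
    (hb : ‖b‖ = 1) (hab : inner ℝ a b = 0) :
    inner ℝ (tileMap p₀ a b r ij x - p₀) b = r * ((ij.2 : ℝ) + x 1) := by
  have hbb : inner ℝ b b = 1 := by rw [real_inner_self_eq_norm_sq, hb]; norm_num
  have : tileMap p₀ a b r ij x - p₀
      = (r * ((ij.1 : ℝ) + x 0)) • a + (r * ((ij.2 : ℝ) + x 1)) • b := by
    unfold tileMap latPt
    module
  rw [this, inner_add_left, real_inner_smul_left, real_inner_smul_left, hbb, hab]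
  ring

theorem continuous_tileMap (p₀ a b : E2) (r : ℝ) (ij : ℤ × ℤ) :
    Continuous (tileMap p₀ a b r ij) := by
  unfold tileMap
  fun_prop

theorem injective_tileMap (p₀ a b : E2) (r : ℝ) (hr : 0 < r) (ij : ℤ × ℤ)
    (ha : ‖a‖ = 1) (hb : ‖b‖ = 1) (hab : inner ℝ a b = 0) :
    Function.Injective (tileMap p₀ a b r ij) := by
  intro x y hxy
  have h1 := inner_tileMap_a p₀ a b r ij x ha hab
  have h2 := inner_tileMap_a p₀ a b r ij y ha hab
  have h3 := inner_tileMap_b p₀ a b r ij x hb hab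
  have h4 := inner_tileMap_b p₀ a b r ij y hb hab
  rw [hxy] at h1 h3
  have e0 : x 0 = y 0 := by
    have := h1.symm.trans h2
    have := mul_left_cancel₀ hr.ne' this
    linarith
  have e1 : x 1 = y 1 := by
    have := h3.symm.trans h4
    have := mul_left_cancel₀ hr.ne' this
    linarith
  ext i
  fin_cases i
  · exact e0
  · exact e1

theorem measurableSet_tile (p₀ a b : E2) (r : ℝ) (hr : 0 < r) (ij : ℤ × ℤ)
    (ha : ‖a‖ = 1) (hb : ‖b‖ = 1) (hab : inner ℝ a b = 0) :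
    MeasurableSet (tileMap p₀ a b r ij '' usq) :=
  ((continuous_tileMap p₀ a b r ij).measurableEmbedding
    (injective_tileMap p₀ a b r hr ij ha hb hab)).measurableSet_image.2 measurableSet_usq

theorem volume_tile (p₀ a b : E2) (r : ℝ) (hr : 0 < r) (ij : ℤ × ℤ)
    (ha : ‖a‖ = 1) (hb : ‖b‖ = 1) (hab : inner ℝ a b = 0) :
    volume (tileMap p₀ a b r ij '' usq) = ENNReal.ofReal (r ^ 2) := by
  have h := area_affine_image (latPt p₀ a b r ij) (r • a) (r • b) usq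
  rw [EuclideanSpace.euclideanHausdorffMeasure_eq_volume, volume_usq, mul_one] at h
  have hg : gram2 (r • a) (r • b) = (r ^ 2) ^ 2 := by
    unfold gram2
    rw [norm_smul, norm_smul, ha, hb, real_inner_smul_left, real_inner_smul_right, hab,
      Real.norm_eq_abs]
    have : |r| = r := abs_of_pos hr
    rw [this]; ring
  rw [hg, Real.sqrt_sq (by positivity)] at h
  exact h

theorem disjoint_tile (p₀ a b : E2) (r : ℝ) (hr : 0 < r) (ij ij' : ℤ × ℤ) (hne : ij ≠ ij')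
    (ha : ‖a‖ = 1) (hb : ‖b‖ = 1) (hab : inner ℝ a b = 0) :
    Disjoint (tileMap p₀ a b r ij '' usq) (tileMap p₀ a b r ij' '' usq) := by
  rw [Set.disjoint_left]
  rintro _ ⟨x, hx, rfl⟩ ⟨y, hy, hxy⟩
  apply hne
  have h1 := inner_tileMap_a p₀ a b r ij x ha hab
  have h2 := inner_tileMap_a p₀ a b r ij' y ha hab
  have h3 := inner_tileMap_b p₀ a b r ij x hb hab
  have h4 := inner_tileMap_b p₀ a b r ij' y hb hab
  rw [hxy] at h2 h4
  have e0 : (ij.1 : ℝ) + x 0 = (ij'.1 : ℝ) + y 0 := mul_left_cancel₀ hr.ne' (h1.symm.trans h2)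
  have e1 : (ij.2 : ℝ) + x 1 = (ij'.2 : ℝ) + y 1 := mul_left_cancel₀ hr.ne' (h3.symm.trans h4)
  obtain ⟨⟨hx0, hx0'⟩, ⟨hx1, hx1'⟩⟩ := hx
  obtain ⟨⟨hy0, hy0'⟩, ⟨hy1, hy1'⟩⟩ := hy
  have f0 : ij.1 = ij'.1 := by
    have l1 : (ij.1 : ℝ) < (ij'.1 : ℝ) + 1 := by linarith
    have l2 : (ij'.1 : ℝ) < (ij.1 : ℝ) + 1 := by linarith
    have l1' : ij.1 < ij'.1 + 1 := by exact_mod_cast l1
    have l2' : ij'.1 < ij.1 + 1 := by exact_mod_cast l2
    omega
  have f1 : ij.2 = ij'.2 := by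
    have l1 : (ij.2 : ℝ) < (ij'.2 : ℝ) + 1 := by linarith
    have l2 : (ij'.2 : ℝ) < (ij.2 : ℝ) + 1 := by linarith
    have l1' : ij.2 < ij'.2 + 1 := by exact_mod_cast l1
    have l2' : ij'.2 < ij.2 + 1 := by exact_mod_cast l2
    omega
  exact Prod.ext f0 f1

/-- the enlarged box. -/
def bigBox (ρ σ : ℝ) (k : ℤ × ℤ) : Set E2 :=
  {x | x 0 ∈ Set.Icc ((k.1 : ℝ) * ρ - σ) (((k.1 : ℝ) + 1) * ρ + σ) ∧
       x 1 ∈ Set.Icc ((k.2 : ℝ) * ρ - σ) (((k.2 : ℝ) + 1) * ρ + σ)}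

theorem volume_bigBox (ρ σ : ℝ) (k : ℤ × ℤ) (h : 0 ≤ ρ + 2 * σ) :
    volume (bigBox ρ σ k) = ENNReal.ofReal ((ρ + 2 * σ) ^ 2) := by
  unfold bigBox
  rw [volume_E2_box _ _ measurableSet_Icc measurableSet_Icc, Real.volume_Icc, Real.volume_Icc,
    ← ENNReal.ofReal_mul (by linarith)]
  congr 1
  ring

theorem abs_apply_le_norm (x : E2) (i : Fin 2) : |x i| ≤ ‖x‖ := by
  have := PiLp.norm_apply_le (p := 2) x i
  simpa using this

theorem tile_subset_bigBox (ρ r τ : ℝ) (hr : 0 < r) (k : ℤ × ℤ)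
    (p₀ a b : E2) (ha : ‖a‖ = 1) (hb : ‖b‖ = 1) (ij : ℤ × ℤ)
    (h : ∃ p ∈ cell ρ k, ‖p - latPt p₀ a b r ij‖ ≤ τ) :
    tileMap p₀ a b r ij '' usq ⊆ bigBox ρ (τ + 2 * r) k := by
  obtain ⟨p, hp, hpτ⟩ := h
  rintro _ ⟨x, hx, rfl⟩
  obtain ⟨⟨hx0, hx0'⟩, ⟨hx1, hx1'⟩⟩ := hx
  have h1 : ‖tileMap p₀ a b r ij x - latPt p₀ a b r ij‖ ≤ 2 * r := by
    have : tileMap p₀ a b r ij x - latPt p₀ a b r ij = x 0 • (r • a) + x 1 • (r • b) := by
      unfold tileMap; abel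
    rw [this]
    refine (norm_add_le _ _).trans ?_
    rw [norm_smul, norm_smul, norm_smul, norm_smul, ha, hb, Real.norm_eq_abs, Real.norm_eq_abs,
      Real.norm_eq_abs, abs_of_pos hr, abs_of_nonneg hx0, abs_of_nonneg hx1]
    nlinarith
  have h2 : ‖tileMap p₀ a b r ij x - p‖ ≤ τ + 2 * r := by
    have : tileMap p₀ a b r ij x - p
        = (tileMap p₀ a b r ij x - latPt p₀ a b r ij) - (p - latPt p₀ a b r ij) := by abel
    rw [this]
    refine (norm_sub_le _ _).trans ?_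
    linarith
  have c0 := (abs_apply_le_norm (tileMap p₀ a b r ij x - p) 0).trans h2
  have c1 := (abs_apply_le_norm (tileMap p₀ a b r ij x - p) 1).trans h2
  rw [PiLp.sub_apply, abs_le] at c0 c1
  obtain ⟨⟨hp0, hp0'⟩, ⟨hp1, hp1'⟩⟩ := hp
  refine ⟨⟨?_, ?_⟩, ⟨?_, ?_⟩⟩ <;> linarith [c0.1, c0.2, c1.1, c1.2]

theorem tile_count (ρ r τ : ℝ) (hρ : 0 < ρ) (hr : 0 < r) (hτ : 0 ≤ τ) (k : ℤ × ℤ)
    (p₀ a b : E2) (ha : ‖a‖ = 1) (hb : ‖b‖ = 1) (hab : inner ℝ a b = 0)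
    (I : Finset (ℤ × ℤ)) (hI : ∀ ij ∈ I, ∃ p ∈ cell ρ k, ‖p - latPt p₀ a b r ij‖ ≤ τ) :
    (I.card : ℝ) * r ^ 2 ≤ (ρ + 2 * τ + 4 * r) ^ 2 := by
  have hU : volume (⋃ ij ∈ I, tileMap p₀ a b r ij '' usq)
      = ∑ ij ∈ I, volume (tileMap p₀ a b r ij '' usq) := by
    apply measure_biUnion_finset
    · intro i _ j _ hij
      exact disjoint_tile p₀ a b r hr i j hij ha hb hab
    · intro i _
      exact measurableSet_tile p₀ a b r hr i ha hb hab
  have hsub : (⋃ ij ∈ I, tileMap p₀ a b r ij '' usq) ⊆ bigBox ρ (τ + 2 * r) k := by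
    apply Set.iUnion₂_subset
    intro ij hij
    exact tile_subset_bigBox ρ r τ hr k p₀ a b ha hb ij (hI ij hij)
  have hle := measure_mono (μ := volume) hsub
  rw [hU, volume_bigBox ρ (τ + 2 * r) k (by linarith)] at hle
  simp only [volume_tile p₀ a b r hr _ ha hb hab, Finset.sum_const, nsmul_eq_mul] at hle
  have h3 : ((I.card : ℕ) : ℝ≥0∞) = ENNReal.ofReal (I.card : ℝ) := by
    rw [ENNReal.ofReal_natCast]
  rw [h3, ← ENNReal.ofReal_mul (by positivity), ENNReal.ofReal_le_ofReal_iff (by positivity)] at hle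
  calc (I.card : ℝ) * r ^ 2 ≤ (ρ + 2 * (τ + 2 * r)) ^ 2 := hle
    _ = (ρ + 2 * τ + 4 * r) ^ 2 := by ring

theorem tile_finite (ρ r τ : ℝ) (hρ : 0 < ρ) (hr : 0 < r) (k : ℤ × ℤ)
    (p₀ a b : E2) (ha : ‖a‖ = 1) (hb : ‖b‖ = 1) (hab : inner ℝ a b = 0) :
    {ij : ℤ × ℤ | ∃ p ∈ cell ρ k, ‖p - latPt p₀ a b r ij‖ ≤ τ}.Finite := by
  by_contra hinf
  have hinf' : {ij : ℤ × ℤ | ∃ p ∈ cell ρ k, ‖p - latPt p₀ a b r ij‖ ≤ τ}.Infinite := hinf
  obtain ⟨ij0, p, hp, hpτ⟩ := hinf'.nonempty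
  have hτ : 0 ≤ τ := (norm_nonneg _).trans hpτ
  obtain ⟨n, hn⟩ := exists_nat_gt ((ρ + 2 * τ + 4 * r) ^ 2 / r ^ 2)
  obtain ⟨t, ht, htc⟩ := hinf'.exists_subset_card_eq n
  have := tile_count ρ r τ hρ hr hτ k p₀ a b ha hb hab t (fun ij hij => ht hij)
  rw [htc] at this
  rw [div_lt_iff₀ (by positivity)] at hn
  linarith

end Crest.Agent.R211
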