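import Mathlib
import Crest.Agent.R211_Area0
import Crest.Agent.R211_S0326_Defs

/-!
# S0326 (RIEM): upper Riemann sums over the grid cells meeting a compact set (helper2)
-/

set_option autoImplicit false

namespace Crest.Agent.R211

open MeasureTheory Filter Topology
open scoped ENNReal

theorem measurableSet_cell (ρ : ℝ) (k : ℤ × ℤ) : MeasurableSet (cell ρ k) := by
  have h0 : Measurable (fun x : E2 => x 0) := by fun_prop
  have h1 : Measurable (fun x : E2 => x 1) := by fun_prop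
  exact (h0 measurableSet_Ico).inter (h1 measurableSet_Ico)

theorem volume_cell (ρ : ℝ) (hρ : 0 ≤ ρ) (k : ℤ × ℤ) :
    volume (cell ρ k) = ENNReal.ofReal (ρ ^ 2) := by
  unfold cell
  rw [volume_E2_box _ _ measurableSet_Ico measurableSet_Ico, Real.volume_Ico, Real.volume_Ico,
    ← ENNReal.ofReal_mul (by nlinarith)]
  congr 1
  ring

theorem volume_real_cell (ρ : ℝ) (hρ : 0 ≤ ρ) (k : ℤ × ℤ) :
    volume.real (cell ρ k) = ρ ^ 2 := by
  rw [measureReal_def, volume_cell ρ hρ k, ENNReal.toReal_ofReal (by positivity)]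

theorem volume_cell_ne_top (ρ : ℝ) (hρ : 0 ≤ ρ) (k : ℤ × ℤ) : volume (cell ρ k) ≠ ∞ := by
  rw [volume_cell ρ hρ k]; exact ENNReal.ofReal_ne_top

theorem cell_index_unique (ρ : ℝ) (hρ : 0 < ρ) (k k' : ℤ × ℤ) (x : E2)
    (h : x ∈ cell ρ k) (h' : x ∈ cell ρ k') : k = k' := by
  obtain ⟨⟨a0, a1⟩, ⟨b0, b1⟩⟩ := h
  obtain ⟨⟨a0', a1'⟩, ⟨b0', b1'⟩⟩ := h'
  have f0 : k.1 = k'.1 := by
    have l1 : (k.1 : ℝ) < (k'.1 : ℝ) + 1 := lt_of_mul_lt_mul_right (a0.trans_lt a1') hρ.le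
    have l2 : (k'.1 : ℝ) < (k.1 : ℝ) + 1 := lt_of_mul_lt_mul_right (a0'.trans_lt a1) hρ.le
    have l1' : k.1 < k'.1 + 1 := by exact_mod_cast l1
    have l2' : k'.1 < k.1 + 1 := by exact_mod_cast l2
    omega
  have f1 : k.2 = k'.2 := by
    have l1 : (k.2 : ℝ) < (k'.2 : ℝ) + 1 := lt_of_mul_lt_mul_right (b0.trans_lt b1') hρ.le
    have l2 : (k'.2 : ℝ) < (k.2 : ℝ) + 1 := lt_of_mul_lt_mul_right (b0'.trans_lt b1) hρ.le
    have l1' : k.2 < k'.2 + 1 := by exact_mod_cast l1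
    have l2' : k'.2 < k.2 + 1 := by exact_mod_cast l2
    omega
  exact Prod.ext f0 f1

theorem disjoint_cell (ρ : ℝ) (hρ : 0 < ρ) (k k' : ℤ × ℤ) (hne : k ≠ k') :
    Disjoint (cell ρ k) (cell ρ k') := by
  rw [Set.disjoint_left]
  intro x hx hx'
  exact hne (cell_index_unique ρ hρ k k' x hx hx')

theorem mem_cell_floor (ρ : ℝ) (hρ : 0 < ρ) (x : E2) :
    x ∈ cell ρ (⌊x 0 / ρ⌋, ⌊x 1 / ρ⌋) := by
  refine ⟨⟨?_, ?_⟩, ⟨?_, ?_⟩⟩
  · have := Int.floor_le (x 0 / ρ)
    rwa [le_div_iff₀ hρ] at this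
  · have := Int.lt_floor_add_one (x 0 / ρ)
    rwa [div_lt_iff₀ hρ] at this
  · have := Int.floor_le (x 1 / ρ)
    rwa [le_div_iff₀ hρ] at this
  · have := Int.lt_floor_add_one (x 1 / ρ)
    rwa [div_lt_iff₀ hρ] at this

theorem norm_le_abs_add_abs (v : E2) : ‖v‖ ≤ |v 0| + |v 1| := by
  rw [EuclideanSpace.norm_eq, Fin.sum_univ_two]
  apply Real.sqrt_le_iff.2
  constructor
  · positivity
  · simp only [Real.norm_eq_abs, sq_abs]
    nlinarith [abs_nonneg (v 0), abs_nonneg (v 1), sq_abs (v 0), sq_abs (v 1)]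

theorem dist_le_of_mem_cell (ρ : ℝ) (k : ℤ × ℤ) (x y : E2)
    (hx : x ∈ cell ρ k) (hy : y ∈ cell ρ k) : dist x y ≤ 2 * ρ := by
  obtain ⟨⟨a0, a1⟩, ⟨b0, b1⟩⟩ := hx
  obtain ⟨⟨a0', a1'⟩, ⟨b0', b1'⟩⟩ := hy
  rw [dist_eq_norm]
  refine (norm_le_abs_add_abs _).trans ?_
  rw [PiLp.sub_apply, PiLp.sub_apply]
  have h0 : |x 0 - y 0| ≤ ρ := by rw [abs_le]; constructor <;> linarith
  have h1 : |x 1 - y 1| ≤ ρ := by rw [abs_le]; constructor <;> linarith
  linarith

theorem abs_apply_le_norm' (x : E2) (i : Fin 2) : |x i| ≤ ‖x‖ := by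
  have := PiLp.norm_apply_le (p := 2) x i
  simpa using this

theorem cells_meeting_finite (D : Set E2) (hD : IsCompact D) (ρ : ℝ) (hρ : 0 < ρ) :
    {k : ℤ × ℤ | (cell ρ k ∩ D).Nonempty}.Finite := by
  obtain ⟨R, hR⟩ := hD.isBounded.exists_norm_le
  apply Set.Finite.subset ((Set.finite_Icc ⌊-R / ρ⌋ ⌊R / ρ⌋).prod (Set.finite_Icc ⌊-R / ρ⌋ ⌊R / ρ⌋))
  rintro k ⟨x, hxk, hxD⟩
  have hk := cell_index_unique ρ hρ _ _ x hxk (mem_cell_floor ρ hρ x)
  have hn := hR x hxD
  have h0 := abs_le.1 ((abs_apply_le_norm' x 0).trans hn)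
  have h1 := abs_le.1 ((abs_apply_le_norm' x 1).trans hn)
  rw [hk]
  refine ⟨⟨?_, ?_⟩, ⟨?_, ?_⟩⟩
  · exact Int.floor_le_floor (by gcongr; exact h0.1)
  · exact Int.floor_le_floor (by gcongr; exact h0.2)
  · exact Int.floor_le_floor (by gcongr; exact h1.1)
  · exact Int.floor_le_floor (by gcongr; exact h1.2)

theorem riemann_upper (D : Set E2) (hD : IsCompact D) (F : E2 → ℝ) (hF : ContinuousOn F D)
    (hF0 : ∀ p ∈ D, 0 ≤ F p) (hF1 : ∀ p ∈ D, F p ≤ 1) (ε : ℝ) (hε : 0 < ε) :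
    ∃ ρ₀ : ℝ, 0 < ρ₀ ∧ ∀ ρ : ℝ, 0 < ρ → ρ ≤ ρ₀ →
      ∃ K : Finset (ℤ × ℤ), (∀ k, k ∈ K ↔ (cell ρ k ∩ D).Nonempty) ∧
        ∀ P : ℤ × ℤ → E2, (∀ k ∈ K, P k ∈ cell ρ k ∩ D) →
          ∑ k ∈ K, ρ ^ 2 * F (P k) ≤ (∫ p in D, F p) + ε := by
  classical
  have hDm : MeasurableSet D := hD.measurableSet
  have hDfin : volume D ≠ ∞ := hD.measure_lt_top.ne
  have hFint : IntegrableOn F D volume := hF.integrableOn_compact hD
  set vD : ℝ := volume.real D with hvD
  have hvD0 : 0 ≤ vD := measureReal_nonneg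
  set ε' : ℝ := ε / (2 * (vD + 1)) with hε'
  have hε'pos : 0 < ε' := by positivity
  have hε'vD : ε' * vD ≤ ε / 2 := by
    rw [hε', div_mul_eq_mul_div, div_le_iff₀ (by positivity)]
    nlinarith
  -- uniform continuity
  obtain ⟨δ, hδ, hδF⟩ := Metric.uniformContinuousOn_iff.1
    (hD.uniformContinuousOn_of_continuous hF) ε' hε'pos
  -- thickening
  have hT := tendsto_measure_cthickening_of_isCompact (μ := (volume : Measure E2)) hD
  have hlt : volume D < volume D + ENNReal.ofReal (ε / 2) :=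
    ENNReal.lt_add_right hDfin (by simpa using hε)
  obtain ⟨ρ₁, hρ₁, hρ₁T⟩ := Metric.eventually_nhds_iff.1 ((tendsto_order.1 hT).2 _ hlt)
  refine ⟨min (δ / 4) (ρ₁ / 4), by positivity, ?_⟩
  intro ρ hρ hρle
  have hρδ : 2 * ρ < δ := by
    have := hρle.trans (min_le_left _ _); linarith
  have hρρ₁ : 2 * ρ < ρ₁ := by
    have := hρle.trans (min_le_right _ _); linarith
  refine ⟨(cells_meeting_finite D hD ρ hρ).toFinset, ?_, ?_⟩
  · intro k; simp
  set K := (cells_meeting_finite D hD ρ hρ).toFinset with hK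
  intro P hP
  -- per-cell estimate
  have hcell : ∀ k ∈ K, ρ ^ 2 * F (P k) ≤ (∫ p in cell ρ k ∩ D, F p)
      + ε' * volume.real (cell ρ k ∩ D) + volume.real (cell ρ k \ D) := by
    intro k hk
    obtain ⟨hPc, hPD⟩ := hP k hk
    have hm : MeasurableSet (cell ρ k ∩ D) := (measurableSet_cell ρ k).inter hDm
    have hfin : volume (cell ρ k ∩ D) ≠ ∞ :=
      measure_ne_top_of_subset Set.inter_subset_right hDfin
    have hsplit := measureReal_inter_add_sdiff (μ := (volume : Measure E2)) (s := cell ρ k) hDm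
      (volume_cell_ne_top ρ hρ.le k)
    rw [volume_real_cell ρ hρ.le k] at hsplit
    have hFi : IntegrableOn F (cell ρ k ∩ D) volume := hFint.mono_set Set.inter_subset_right
    have hci : ∀ c : ℝ, IntegrableOn (fun _ : E2 => c) (cell ρ k ∩ D) volume := fun c =>
      integrableOn_const hfin
    have h1 : volume.real (cell ρ k ∩ D) * F (P k)
        ≤ (∫ p in cell ρ k ∩ D, F p) + ε' * volume.real (cell ρ k ∩ D) := by
      have hmono : ∫ _ in cell ρ k ∩ D, F (P k) ≤ ∫ p in cell ρ k ∩ D, (F p + ε') := by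
        apply setIntegral_mono_on (hci _) (hFi.add (hci _)) hm
        intro x hx
        have hd : dist x (P k) < δ := (dist_le_of_mem_cell ρ k x (P k) hx.1 hPc).trans_lt hρδ
        have := hδF x hx.2 (P k) hPD hd
        rw [Real.dist_eq, abs_lt] at this
        show F (P k) ≤ F x + ε'
        linarith [this.1]
      rw [setIntegral_const, integral_add hFi (hci _), setIntegral_const, smul_eq_mul,
        smul_eq_mul] at hmono
      linarith
    have h2 : volume.real (cell ρ k \ D) * F (P k) ≤ volume.real (cell ρ k \ D) := by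
      have := hF1 _ hPD
      have h0 : 0 ≤ volume.real (cell ρ k \ D) := measureReal_nonneg
      nlinarith
    calc ρ ^ 2 * F (P k)
        = volume.real (cell ρ k ∩ D) * F (P k) + volume.real (cell ρ k \ D) * F (P k) := by
          rw [← hsplit]; ring
      _ ≤ _ := by linarith
  -- D is the union of the pieces
  have hDU : (⋃ k ∈ K, cell ρ k ∩ D) = D := by
    ext x
    simp only [Set.mem_iUnion, Set.mem_inter_iff, exists_and_right, exists_prop]
    constructor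
    · rintro ⟨_, hx⟩; exact hx
    · intro hx
      refine ⟨⟨(⌊x 0 / ρ⌋, ⌊x 1 / ρ⌋), ?_, mem_cell_floor ρ hρ x⟩, hx⟩
      rw [hK, Set.Finite.mem_toFinset]
      exact ⟨x, mem_cell_floor ρ hρ x, hx⟩
  have hdisj1 : Set.PairwiseDisjoint (↑K) (fun k => cell ρ k ∩ D) := by
    intro i _ j _ hij
    exact (disjoint_cell ρ hρ i j hij).mono Set.inter_subset_left Set.inter_subset_left
  have hdisj2 : Set.PairwiseDisjoint (↑K) (fun k => cell ρ k \ D) := by
    intro i _ j _ hij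
    exact (disjoint_cell ρ hρ i j hij).mono Set.sdiff_subset Set.sdiff_subset
  have hS1 : ∑ k ∈ K, ∫ p in cell ρ k ∩ D, F p = ∫ p in D, F p := by
    rw [← integral_biUnion_finset K (fun k _ => (measurableSet_cell ρ k).inter hDm) hdisj1
      (fun k _ => hFint.mono_set Set.inter_subset_right), hDU]
  have hS2 : ∑ k ∈ K, volume.real (cell ρ k ∩ D) = vD := by
    rw [← measureReal_biUnion_finset hdisj1 (fun k _ => (measurableSet_cell ρ k).inter hDm)
      (fun k _ => measure_ne_top_of_subset Set.inter_subset_right hDfin), hDU]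
  have hS3 : ∑ k ∈ K, volume.real (cell ρ k \ D) ≤ ε / 2 := by
    rw [← measureReal_biUnion_finset hdisj2 (fun k _ => (measurableSet_cell ρ k).diff hDm)
      (fun k _ => measure_ne_top_of_subset Set.sdiff_subset (volume_cell_ne_top ρ hρ.le k))]
    have hsub : (⋃ k ∈ K, cell ρ k \ D) ⊆ Metric.cthickening (2 * ρ) D \ D := by
      apply Set.iUnion₂_subset
      intro k hk x hx
      refine ⟨?_, hx.2⟩
      obtain ⟨hPc, hPD⟩ := hP k hk
      exact Metric.mem_cthickening_of_dist_le x (P k) _ D hPD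
        (dist_le_of_mem_cell ρ k x (P k) hx.1 hPc)
    have hTlt := hρ₁T (y := 2 * ρ) (by
      rw [Real.dist_eq, sub_zero, abs_of_pos (by positivity)]; exact hρρ₁)
    have hTfin : volume (Metric.cthickening (2 * ρ) D) ≠ ∞ := (hTlt.trans_le le_top).ne
    have hle : volume (Metric.cthickening (2 * ρ) D \ D) ≤ ENNReal.ofReal (ε / 2) := by
      rw [measure_sdiff (Metric.self_subset_cthickening D) hDm.nullMeasurableSet hDfin]
      rw [tsub_le_iff_left]
      exact hTlt.le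
    calc volume.real (⋃ k ∈ K, cell ρ k \ D)
        ≤ volume.real (Metric.cthickening (2 * ρ) D \ D) :=
          measureReal_mono hsub (measure_ne_top_of_subset Set.sdiff_subset hTfin)
      _ ≤ ε / 2 := by
          rw [measureReal_def]
          exact ENNReal.toReal_le_of_le_ofReal (by positivity) hle
  calc ∑ k ∈ K, ρ ^ 2 * F (P k)
      ≤ ∑ k ∈ K, ((∫ p in cell ρ k ∩ D, F p)
      + ε' * volume.real (cell ρ k ∩ D) + volume.real (cell ρ k \ D)) := Finset.sum_le_sum hcell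
    _ = (∫ p in D, F p) + ε' * vD + ∑ k ∈ K, volume.real (cell ρ k \ D) := by
        rw [Finset.sum_add_distrib, Finset.sum_add_distrib, hS1, ← Finset.mul_sum, hS2]
    _ ≤ (∫ p in D, F p) + ε := by linarith

end Crest.Agent.R211
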