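import Mathlib
import Crest.Agent.R211_S0326_Defs
import Crest.Agent.R211_S0326_Cell
import Crest.Agent.R211_S0326_Riem
import Crest.Agent.R211_S0326_Count

/-!
# S0326: final assembly (helper3)
-/

set_option autoImplicit false

open MeasureTheory

namespace Crest.Agent.R211

theorem final_num (θ I ε : ℝ) (hθ0 : 0 < θ) (hθ1 : θ ≤ 1) (hθ3 : θ * (6 * (I + ε / 2)) ≤ ε)
    (hI : 0 ≤ I) (hε : 0 < ε) : (1 + θ) ^ 2 * (I + ε / 2) ≤ I + ε := by
  have hX : 0 ≤ I + ε / 2 := by positivity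
  have h1 : θ ^ 2 ≤ θ := by nlinarith
  have h2 := mul_le_mul_of_nonneg_right h1 hX
  nlinarith

set_option maxHeartbeats 2000000 in
theorem S0326_main
    (D : Set (EuclideanSpace ℝ (Fin 2))) (hD : IsCompact D)
    (V : EuclideanSpace ℝ (Fin 2) → EuclideanSpace ℝ (Fin 2)) (U : Set (EuclideanSpace ℝ (Fin 2)))
    (hU : IsOpen U) (hDU : D ⊆ U) (hV : ContDiffOn ℝ 1 V U) (L h : ℝ) (hL : 0 < L) (hh : 0 < h)
    (htr : ∀ p ∈ D, LinearMap.trace ℝ _ (fderiv ℝ V p).toLinearMap = 0)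
    (hdet : ∀ p ∈ D, -(L ^ 2)⁻¹ < LinearMap.det (fderiv ℝ V p).toLinearMap ∧
      LinearMap.det (fderiv ℝ V p).toLinearMap ≤ 0)
    (ε : ℝ) (hε : 0 < ε) :
    ∃ (k : ℕ) (c a b g : Fin k → EuclideanSpace ℝ (Fin 2)),
      (∀ i, a i ≠ 0 ∧ ‖b i‖ = ‖a i‖ ∧ inner ℝ (a i) (b i) = 0) ∧
      {z : ℝ × EuclideanSpace ℝ (Fin 2) | ∃ p ∈ D, abs z.1 ≤ L ∧ z.2 = p + z.1 • V p} ⊆
        ⋃ i, {z : ℝ × EuclideanSpace ℝ (Fin 2) | ∃ x ∈ Set.Icc (0 : ℝ) 1, ∃ y ∈ Set.Icc (0 : ℝ) 1,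
          z.2 = c i + x • a i + y • b i + z.1 • g i} ∧
      ∑ i, ‖a i‖ ^ 2 / Real.sqrt (1 + (g i 0) ^ 2 + h ^ 2 * (g i 1) ^ 2) ≤
        (∫ p in D, 1 / Real.sqrt (1 + (V p 0) ^ 2 + h ^ 2 * (V p 1) ^ 2)) + ε := by
  classical
  set F : E2 → ℝ := fun p => JJ h (V p) with hF
  have hVc : ContinuousOn V D := hV.continuousOn.mono hDU
  have hFc : ContinuousOn F D := (JJ_continuous h).comp_continuousOn hVc
  obtain ⟨CM, hCM0, hCM⟩ := exists_fderiv_bound D hD V U hU hDU hV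
  obtain ⟨κ, hκ1, hκ⟩ := exists_det_bound D hD V U hU hDU hV L hL (fun p hp => (hdet p hp).1)
  have hκpos : 0 < 1 - κ := by linarith
  have hIeq : (∫ p in D, 1 / Real.sqrt (1 + (V p 0) ^ 2 + h ^ 2 * (V p 1) ^ 2)) = ∫ p in D, F p := rfl
  rw [hIeq]
  set I : ℝ := ∫ p in D, F p with hI
  have hI0 : 0 ≤ I := setIntegral_nonneg hD.measurableSet (fun p _ => JJ_nonneg _ _)
  clear_value I
  set W : ℝ := (∫ p in D, (1 : ℝ)) + 1 with hW
  have hW0 : 0 < W := by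
    have : 0 ≤ ∫ p in D, (1 : ℝ) := setIntegral_nonneg hD.measurableSet (fun _ _ => zero_le_one)
    linarith
  clear_value W
  set C₁ : ℝ := (1 + L * CM) / (1 - κ) with hC₁
  have hC₁0 : 0 < C₁ := by positivity
  set ε₁ : ℝ := ε / (4 * W) with hε₁
  have hε₁0 : 0 < ε₁ := by positivity
  set θ : ℝ := min 1 (ε / (6 * (I + ε / 2))) with hθ
  have hθ0 : 0 < θ := lt_min one_pos (by positivity)
  have hθ1 : θ ≤ 1 := min_le_left _ _
  have hθ2 : θ ≤ ε / (6 * (I + ε / 2)) := min_le_right _ _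
  clear_value θ
  set ω : ℝ := θ / (8 * C₁ * L) with hω
  have hω0 : 0 < ω := by positivity
  set ν : ℝ := θ / (8 * (C₁ + 1)) with hν
  have hν0 : 0 < ν := by positivity
  obtain ⟨ρa, hρa, Ha⟩ := riemann_upper D hD F hFc (fun p _ => JJ_nonneg _ _)
    (fun p _ => JJ_le_one _ _) (ε / 4) (by positivity)
  obtain ⟨ρb, hρb, Hb⟩ := riemann_upper D hD (fun _ => 1) continuousOn_const
    (fun p _ => zero_le_one) (fun p _ => le_rfl) 1 one_pos
  obtain ⟨ρc, hρc, Hc⟩ := unif_diff D hD V U hU hDU hV ω hω0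
  set ρd : ℝ := ε₁ / (3 * (1 + |h|) * CM + 1) with hρd
  have hρd0 : 0 < ρd := by positivity
  set ρ : ℝ := min (min ρa ρb) (min (ρc / 2) ρd) with hρdef
  have hρ : 0 < ρ := lt_min (lt_min hρa hρb) (lt_min (half_pos hρc) hρd0)
  have hρ_a : ρ ≤ ρa := (min_le_left _ _).trans (min_le_left _ _)
  have hρ_b : ρ ≤ ρb := (min_le_left _ _).trans (min_le_right _ _)
  have hρ_c : 2 * ρ ≤ ρc := by
    have : ρ ≤ ρc / 2 := (min_le_right _ _).trans (min_le_left _ _)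
    linarith
  have hρ_d : ρ ≤ ρd := (min_le_right _ _).trans (min_le_right _ _)
  set r : ℝ := ν * ρ with hr
  have hr0 : 0 < r := by positivity
  set τ : ℝ := C₁ * (2 * r + L * (ω * (2 * ρ))) with hτ
  have hτ0 : 0 ≤ τ := by positivity
  have hτeq : 2 * τ + 4 * r = θ * ρ := by
    rw [hτ, hr, hω, hν]
    field_simp
    ring
  obtain ⟨K, hK, HK⟩ := Ha ρ hρ hρ_a
  obtain ⟨K', hK', HK'⟩ := Hb ρ hρ hρ_b
  have hKK : K' = K := by ext k; rw [hK, hK']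
  rw [hKK] at HK'
  -- base points
  have hP : ∀ k, ∃ P : E2, k ∈ K → P ∈ cell ρ k ∩ D := by
    intro k
    by_cases hk : k ∈ K
    · obtain ⟨P, hP⟩ := (hK k).mp hk
      exact ⟨P, fun _ => hP⟩
    · exact ⟨0, fun h => absurd h hk⟩
  choose P hP using hP
  -- frames
  have hfr : ∀ k, ∃ a b : E2, (‖a‖ = 1 ∧ ‖b‖ = 1 ∧ inner ℝ a b = 0) ∧ (k ∈ K →
      ∀ p ∈ D, ‖p - P k‖ ≤ 2 * ρ → ∀ s : ℝ, |s| ≤ L →
        ∃ ij : ℤ × ℤ, ∃ x ∈ Set.Icc (0 : ℝ) 1, ∃ y ∈ Set.Icc (0 : ℝ) 1,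
          p + s • V p = latPt (P k) a b r ij + x • (r • a) + y • (r • b)
            + s • (V (P k) + fderiv ℝ V (P k) (latPt 0 a b r ij)) ∧
          ‖p - latPt (P k) a b r ij‖ ≤ τ) := by
    intro k
    by_cases hk : k ∈ K
    · have hPD : P k ∈ D := (hP k hk).2
      obtain ⟨a, b, ha, hb, hab, H⟩ := cell_cover D V L κ CM ω ρ r hL hκ1 hr0 hω0.le (P k)
        (htr _ hPD) (hdet _ hPD).2 (hκ _ hPD) (hCM _ hPD)
        (fun p hp hpp => Hc (P k) hPD p hp (hpp.trans hρ_c))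
      exact ⟨a, b, ⟨ha, hb, hab⟩, fun _ => H⟩
    · refine ⟨EuclideanSpace.single 0 1, EuclideanSpace.single 1 1, ⟨by simp, by simp, by simp [EuclideanSpace.inner_single_left]⟩,
        fun h => absurd h hk⟩
  choose a b hab hcov using hfr
  -- tiles
  let T : ℤ × ℤ → Finset (ℤ × ℤ) := fun k =>
    (tile_finite ρ r τ hρ hr0 k (P k) (a k) (b k) (hab k).1 (hab k).2.1 (hab k).2.2).toFinset
  have hT : ∀ k ij, ij ∈ T k ↔ ∃ p ∈ cell ρ k, ‖p - latPt (P k) (a k) (b k) r ij‖ ≤ τ := by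
    intro k ij
    simp only [T, Set.Finite.mem_toFinset, Set.mem_ofPred_eq]
  apply to_fin (K.sigma T) (fun x => latPt (P x.1) (a x.1) (b x.1) r x.2) (fun x => r • a x.1)
    (fun x => r • b x.1)
    (fun x => V (P x.1) + fderiv ℝ V (P x.1) (latPt 0 (a x.1) (b x.1) r x.2))
  · rintro ⟨k, ij⟩ -
    refine ⟨?_, ?_, ?_⟩
    · intro h0
      have : ‖r • a k‖ = 0 := by rw [h0, norm_zero]
      rw [norm_smul, (hab k).1, mul_one, Real.norm_eq_abs, abs_of_pos hr0] at this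
      exact hr0.ne' this
    · simp only [norm_smul, (hab k).1, (hab k).2.1]
    · simp only [inner_smul_left, inner_smul_right, (hab k).2.2, mul_zero]
  · rintro ⟨s, ξ⟩ ⟨p, hp, hs, hξ⟩
    simp only at hs hξ
    set k : ℤ × ℤ := (⌊p 0 / ρ⌋, ⌊p 1 / ρ⌋) with hk
    have hpk : p ∈ cell ρ k := mem_cell_floor3 ρ hρ p
    have hkK : k ∈ K := (hK k).mpr ⟨p, hpk, hp⟩
    obtain ⟨ij, x, hx, y, hy, h1, h2⟩ := hcov k hkK p hp (cell_diam ρ k p (P k) hpk (hP k hkK).1) s hs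
    refine ⟨⟨k, ij⟩, Finset.mem_sigma.mpr ⟨hkK, (hT k ij).mpr ⟨p, hpk, h2⟩⟩, x, hx, y, hy, ?_⟩
    simp only
    rw [hξ, h1]
  · rw [Finset.sum_sigma]
    have hstep1 : ∀ k ∈ K, ∑ ij ∈ T k, ‖r • a k‖ ^ 2 /
        Real.sqrt (1 + ((V (P k) + fderiv ℝ V (P k) (latPt 0 (a k) (b k) r ij)) 0) ^ 2 +
          h ^ 2 * ((V (P k) + fderiv ℝ V (P k) (latPt 0 (a k) (b k) r ij)) 1) ^ 2)
        ≤ (1 + θ) ^ 2 * (ρ ^ 2 * F (P k) + ε₁ * (ρ ^ 2 * 1)) := by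
      intro k hk
      have hPD : P k ∈ D := (hP k hk).2
      have hterm : ∀ ij ∈ T k, ‖r • a k‖ ^ 2 /
          Real.sqrt (1 + ((V (P k) + fderiv ℝ V (P k) (latPt 0 (a k) (b k) r ij)) 0) ^ 2 +
            h ^ 2 * ((V (P k) + fderiv ℝ V (P k) (latPt 0 (a k) (b k) r ij)) 1) ^ 2)
          ≤ r ^ 2 * (F (P k) + ε₁) := by
        intro ij hij
        obtain ⟨p, hpk, hpl⟩ := (hT k ij).mp hij
        have hn : ‖r • a k‖ ^ 2 = r ^ 2 := by
          rw [norm_smul, (hab k).1, mul_one, Real.norm_eq_abs, sq_abs]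
        rw [hn, div_eq_mul_one_div]
        apply mul_le_mul_of_nonneg_left _ (by positivity)
        have hJ := JJ_lipschitz h (V (P k) + fderiv ℝ V (P k) (latPt 0 (a k) (b k) r ij)) (V (P k))
        have hnorm : ‖latPt 0 (a k) (b k) r ij‖ ≤ τ + 2 * ρ := by
          have e : latPt 0 (a k) (b k) r ij = (latPt (P k) (a k) (b k) r ij - p) + (p - P k) := by
            rw [latPt_eq (P k)]; abel
          rw [e]
          refine (norm_add_le _ _).trans ?_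
          rw [norm_sub_rev]
          exact add_le_add hpl (cell_diam ρ k p (P k) hpk (hP k hk).1)
        have hτρ : τ + 2 * ρ ≤ 3 * ρ := by nlinarith
        have hg : ‖V (P k) + fderiv ℝ V (P k) (latPt 0 (a k) (b k) r ij) - V (P k)‖ ≤ CM * (3 * ρ) := by
          rw [add_sub_cancel_left]
          refine (ContinuousLinearMap.le_opNorm _ _).trans ?_
          exact mul_le_mul (hCM _ hPD) (hnorm.trans hτρ) (norm_nonneg _) hCM0
        have hsmall : (1 + |h|) * (CM * (3 * ρ)) ≤ ε₁ := by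
          have h1 : ρ * (3 * (1 + |h|) * CM + 1) ≤ ε₁ := by
            have := hρ_d
            rw [hρd, le_div_iff₀ (by positivity)] at this
            exact this
          nlinarith
        have hJ2 : JJ h (V (P k) + fderiv ℝ V (P k) (latPt 0 (a k) (b k) r ij)) ≤ F (P k) + ε₁ := by
          have h3 := (abs_le.mp hJ).2
          have h4 : (1 + |h|) * ‖V (P k) + fderiv ℝ V (P k) (latPt 0 (a k) (b k) r ij) - V (P k)‖
              ≤ (1 + |h|) * (CM * (3 * ρ)) := mul_le_mul_of_nonneg_left hg (by positivity)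
          simp only [hF]
          linarith
        exact hJ2
      have hcount := tile_count ρ r τ hρ hr0 hτ0 k (P k) (a k) (b k) (hab k).1 (hab k).2.1
        (hab k).2.2 (T k) (fun ij hij => (hT k ij).mp hij)
      have hside : ρ + 2 * τ + 4 * r = (1 + θ) * ρ := by linarith
      rw [hside] at hcount
      have hFε : 0 ≤ F (P k) + ε₁ := add_nonneg (JJ_nonneg _ _) hε₁0.le
      calc _ ≤ ∑ ij ∈ T k, r ^ 2 * (F (P k) + ε₁) := Finset.sum_le_sum hterm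
        _ = ((T k).card : ℝ) * r ^ 2 * (F (P k) + ε₁) := by
            rw [Finset.sum_const, nsmul_eq_mul]; ring
        _ ≤ ((1 + θ) * ρ) ^ 2 * (F (P k) + ε₁) := mul_le_mul_of_nonneg_right hcount hFε
        _ = _ := by ring
    refine (Finset.sum_le_sum hstep1).trans ?_
    have hre : ∑ k ∈ K, (1 + θ) ^ 2 * (ρ ^ 2 * F (P k) + ε₁ * (ρ ^ 2 * 1))
        = (1 + θ) ^ 2 * (∑ k ∈ K, ρ ^ 2 * F (P k) + ε₁ * ∑ k ∈ K, ρ ^ 2 * (1 : ℝ)) := by
      rw [← Finset.mul_sum, Finset.sum_add_distrib, ← Finset.mul_sum (a := ε₁)]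
    rw [hre]
    have hS1 : ∑ k ∈ K, ρ ^ 2 * F (P k) ≤ I + ε / 4 := by rw [hI]; exact HK P hP
    have hS2' : ∑ k ∈ K, ρ ^ 2 * (1 : ℝ) ≤ W := by rw [hW]; exact HK' P hP
    have hεW : ε₁ * W = ε / 4 := by rw [hε₁]; field_simp
    have hbound : ∑ k ∈ K, ρ ^ 2 * F (P k) + ε₁ * ∑ k ∈ K, ρ ^ 2 * (1 : ℝ) ≤ I + ε / 2 := by
      have h5 := mul_le_mul_of_nonneg_left hS2' hε₁0.le
      rw [hεW] at h5
      calc _ ≤ (I + ε / 4) + ε / 4 := add_le_add hS1 h5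
        _ = I + ε / 2 := by ring
    have hIε : 0 < I + ε / 2 := add_pos_of_nonneg_of_pos hI0 (half_pos hε)
    have hθ3 : θ * (6 * (I + ε / 2)) ≤ ε := by
      rwa [le_div_iff₀ (by positivity)] at hθ2
    calc (1 + θ) ^ 2 * (∑ k ∈ K, ρ ^ 2 * F (P k) + ε₁ * ∑ k ∈ K, ρ ^ 2 * (1 : ℝ))
        ≤ (1 + θ) ^ 2 * (I + ε / 2) := mul_le_mul_of_nonneg_left hbound (by positivity)
      _ ≤ I + ε := final_num θ I ε hθ0 hθ1 hθ3 hI0 hε

end Crest.Agent.R211
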