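import Crest.Agent.R211_Stair

/-!
# Row 211: S0327 from a triangular cover (helper1)
-/

set_option autoImplicit false
open MeasureTheory
open scoped ENNReal

namespace Crest.Agent.R211

/-- final numerical step, common to both parts of S0327. -/
theorem s0327_finish (K : Set E3) (μ₀ : ℝ) (hμ₀ : 0 < μ₀)
    (hmin : ∀ v : E3, ‖v‖ = 1 → μ₀ ≤ (μHE[2] ((fun y => y - inner ℝ y v • v) '' K)).toReal)
    (k : ℕ) (u : Fin k → E3) (hu : ∀ i, ‖u i‖ = 1) (α : Fin k → ℝ) (hα0 : ∀ j, 0 ≤ α j)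
    (hsum : ∑ j, α j ≤ μ₀ * (1 / 2 - 8 / 10 ^ 8)) :
    (∃ δ : ℝ, 0 < δ ∧ ∀ v : E3, ‖v‖ = 1 →
      (∑ j, α j) + δ ≤ (μHE[2] ((fun y => y - inner ℝ y v • v) '' K)).toReal / 2) ∧
    ∑ j, α j / (μHE[2] ((fun y => y - inner ℝ y (u j) • u j) '' K)).toReal < 1 / 2 := by
  constructor
  · refine ⟨μ₀ * (8 / 10 ^ 8), by positivity, ?_⟩
    intro v hv
    have := hmin v hv
    linarith
  · have h1 : ∑ j, α j / (μHE[2] ((fun y => y - inner ℝ y (u j) • u j) '' K)).toReal ≤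
        ∑ j, α j / μ₀ := by
      apply Finset.sum_le_sum
      intro j _
      exact div_le_div_of_nonneg_left (hα0 j) hμ₀ (hmin (u j) (hu j))
    rw [← Finset.sum_div] at h1
    have h2 : (∑ j, α j) / μ₀ ≤ 1 / 2 - 8 / 10 ^ 8 := by
      rw [div_le_iff₀ hμ₀]; linarith
    have : (1:ℝ) / 2 - 8 / 10 ^ 8 < 1 / 2 := by norm_num
    linarith

/-- parallelogram cover from a triangular cover. -/
theorem s0327_pgram (K : Set E3) (μ₀ : ℝ) (hμ₀ : 0 < μ₀)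
    (hcov : ∃ (m : ℕ) (u p q r : Fin m → E3), (∀ i, ‖u i‖ = 1) ∧
      (∀ i, inner ℝ (p i) (u i) = 0 ∧ inner ℝ (q i) (u i) = 0 ∧ inner ℝ (r i) (u i) = 0) ∧
      K ⊆ ⋃ i, {x : E3 | ∃ b ∈ convexHull ℝ {p i, q i, r i}, ∃ t : ℝ, x = b + t • u i} ∧
      ∑ i, (μHE[2] (convexHull ℝ ({p i, q i, r i} : Set E3))).toReal ≤ μ₀ * (1 / 2 - 1 / 10 ^ 7)) :
    ∃ (k : ℕ) (u c a b : Fin k → E3), (∀ i, ‖u i‖ = 1) ∧
      (∀ i, inner ℝ (c i) (u i) = 0 ∧ inner ℝ (a i) (u i) = 0 ∧ inner ℝ (b i) (u i) = 0) ∧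
      K ⊆ ⋃ i, {x : E3 | ∃ y ∈ pgram (c i) (a i) (b i), ∃ τ : ℝ, x = y + τ • u i} ∧
      ∑ i, (μHE[2] (pgram (c i) (a i) (b i))).toReal ≤ μ₀ * (1 / 2 - 9 / 10 ^ 8) := by
  obtain ⟨m, u, p, q, r, hu, hperp, hK, hsum⟩ := hcov
  obtain ⟨n, hn0, hnval⟩ : ∃ n : ℕ, 0 < n ∧ (n : ℝ) = 10 ^ 8 := ⟨10 ^ 8, by norm_num, by norm_num⟩
  let e : Fin m × Fin n ≃ Fin (m * n) := finProdFinEquiv
  refine ⟨m * n, fun j => u (e.symm j).1,
    fun j => p (e.symm j).1 + (((e.symm j).2 : ℝ) / n) • (r (e.symm j).1 - p (e.symm j).1),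
    fun j => (1 - ((e.symm j).2 : ℝ) / n) • (q (e.symm j).1 - p (e.symm j).1),
    fun j => (1 / (n : ℝ)) • (r (e.symm j).1 - p (e.symm j).1), fun j => hu _, ?_, ?_, ?_⟩
  · intro j
    obtain ⟨h1, h2, h3⟩ := hperp (e.symm j).1
    refine ⟨?_, ?_, ?_⟩
    · rw [inner_add_left, inner_smul_left, inner_sub_left, h1, h3]; simp
    · rw [inner_smul_left, inner_sub_left, h1, h2]; simp
    · rw [inner_smul_left, inner_sub_left, h1, h3]; simp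
  · intro x hx
    obtain ⟨i, hi⟩ := Set.mem_iUnion.mp (hK hx)
    obtain ⟨y, hy, t, rfl⟩ := hi
    obtain ⟨k, hk⟩ := Set.mem_iUnion.mp (staircase_cover (p i) (q i) (r i) n hn0 hy)
    rw [Set.mem_iUnion]
    refine ⟨e (i, k), y, ?_, t, ?_⟩
    · simpa using hk
    · simp
  · have h1 : ∑ j : Fin (m * n), (μHE[2] (pgram
          (p (e.symm j).1 + (((e.symm j).2 : ℝ) / n) • (r (e.symm j).1 - p (e.symm j).1))
          ((1 - ((e.symm j).2 : ℝ) / n) • (q (e.symm j).1 - p (e.symm j).1))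
          ((1 / (n : ℝ)) • (r (e.symm j).1 - p (e.symm j).1)))).toReal =
        ∑ i : Fin m, ((n : ℝ) + 1) / n * (μHE[2] (convexHull ℝ ({p i, q i, r i} : Set E3))).toReal := by
      rw [Equiv.sum_comp e.symm (fun z : Fin m × Fin n => (μHE[2] (pgram
          (p z.1 + ((z.2 : ℝ) / n) • (r z.1 - p z.1))
          ((1 - (z.2 : ℝ) / n) • (q z.1 - p z.1))
          ((1 / (n : ℝ)) • (r z.1 - p z.1)))).toReal), Fintype.sum_prod_type]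
      apply Finset.sum_congr rfl
      intro i _
      exact staircase_area (p i) (q i) (r i) n hn0
    rw [h1, ← Finset.mul_sum, hnval]
    have h2 : ((10:ℝ) ^ 8 + 1) / 10 ^ 8 * ∑ i, (μHE[2] (convexHull ℝ ({p i, q i, r i} : Set E3))).toReal
        ≤ ((10:ℝ) ^ 8 + 1) / 10 ^ 8 * (μ₀ * (1 / 2 - 1 / 10 ^ 7)) :=
      mul_le_mul_of_nonneg_left hsum (by positivity)
    refine h2.trans ?_
    have h3 : ((10:ℝ) ^ 8 + 1) / 10 ^ 8 * (μ₀ * (1 / 2 - 1 / 10 ^ 7)) =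
        μ₀ * (((10:ℝ) ^ 8 + 1) / 10 ^ 8 * (1 / 2 - 1 / 10 ^ 7)) := by ring
    rw [h3]
    apply mul_le_mul_of_nonneg_left _ hμ₀.le
    norm_num

/-- open bases from parallelogram bases. -/
theorem s0327_open (K : Set E3) (μ₀ : ℝ) (hμ₀ : 0 < μ₀)
    (k : ℕ) (u c a b : Fin k → E3) (hu : ∀ i, ‖u i‖ = 1)
    (hperp : ∀ i, inner ℝ (c i) (u i) = 0 ∧ inner ℝ (a i) (u i) = 0 ∧ inner ℝ (b i) (u i) = 0)
    (hK : K ⊆ ⋃ i, {x : E3 | ∃ y ∈ pgram (c i) (a i) (b i), ∃ τ : ℝ, x = y + τ • u i})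
    (hsum : ∑ i, (μHE[2] (pgram (c i) (a i) (b i))).toReal ≤ μ₀ * (1 / 2 - 9 / 10 ^ 8)) :
    ∃ B : Fin k → Set E3,
      (∀ i, Bornology.IsBounded (B i) ∧ ∃ O : Set E3, IsOpen O ∧
        B i = O ∩ {x | inner ℝ x (u i) = 0}) ∧
      K ⊆ ⋃ i, {x : E3 | ∃ y ∈ B i, ∃ τ : ℝ, x = y + τ • u i} ∧
      ∑ i, (μHE[2] (B i)).toReal ≤ μ₀ * (1 / 2 - 8 / 10 ^ 8) := by
  have hin : ∀ i, ∀ y ∈ pgram (c i) (a i) (b i), inner ℝ y (u i) = 0 := by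
    rintro i y ⟨s, _, t, _, rfl⟩
    obtain ⟨h1, h2, h3⟩ := hperp i
    rw [inner_add_left, inner_add_left, inner_smul_left, inner_smul_left, h1, h2, h3]; simp
  have hε : 0 < μ₀ / 10 ^ 8 / ((k : ℝ) + 1) := by positivity
  choose O hO1 hO2 hO3 hO4 using fun i => exists_open_base (u i) (hu i) (pgram (c i) (a i) (b i))
    (hin i) (isBounded_pgram _ _ _) _ hε
  refine ⟨fun i => O i ∩ {x | inner ℝ x (u i) = 0}, fun i => ⟨hO2 i, O i, hO1 i, rfl⟩, ?_, ?_⟩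
  · intro x hx
    obtain ⟨i, y, hy, τ, rfl⟩ := Set.mem_iUnion.mp (hK hx)
    rw [Set.mem_iUnion]
    exact ⟨i, y, ⟨hO3 i hy, hin i y hy⟩, τ, rfl⟩
  · refine (Finset.sum_le_sum (fun i _ => hO4 i)).trans ?_
    rw [Finset.sum_add_distrib]
    simp only [Finset.sum_const, Finset.card_univ, Fintype.card_fin, nsmul_eq_mul]
    have h1 : (k : ℝ) * (μ₀ / 10 ^ 8 / ((k : ℝ) + 1)) ≤ μ₀ / 10 ^ 8 := by
      have hk : (0 : ℝ) ≤ k := Nat.cast_nonneg _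
      rw [mul_div_assoc', div_le_iff₀ (by positivity)]
      have : 0 < μ₀ / 10 ^ 8 := by positivity
      nlinarith
    linarith

end Crest.Agent.R211
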