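import Mathlib
import Crest.Agent.R211_Defs
import Crest.Agent.R211_Area

/-!
# Row 211: (SIM) every regular tetrahedron is similar to `Kstd`.
-/

set_option autoImplicit false

namespace Crest.Agent.R211

/-- a linear isometry equivalence of `E3` sending the standard basis to a given orthonormal family. -/
theorem sim_exists_isometry (f : Fin 3 → E3) (hf : Orthonormal ℝ f) :
    ∃ O : E3 ≃ₗᵢ[ℝ] E3, ∀ x : E3, O x = x 0 • f 0 + x 1 • f 1 + x 2 • f 2 := by
  have hcard : Module.finrank ℝ E3 = Fintype.card (Fin 3) := by simp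
  obtain ⟨b, hb⟩ := Orthonormal.exists_orthonormalBasis_extension_of_card_eq (𝕜 := ℝ) (E := E3)
    hcard (v := f) (s := Set.univ) (by
      have : Orthonormal ℝ (fun i : (Set.univ : Set (Fin 3)) => f i) :=
        hf.comp _ Subtype.val_injective
      exact this)
  refine ⟨b.repr.symm, fun x => ?_⟩
  rw [← b.sum_repr_symm, Fin.sum_univ_three, hb 0 (Set.mem_univ _), hb 1 (Set.mem_univ _),
    hb 2 (Set.mem_univ _)]

theorem sim_distsq (a b : E3) : dist a b ^ 2 =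
    (a 0 - b 0) ^ 2 + (a 1 - b 1) ^ 2 + (a 2 - b 2) ^ 2 := by
  rw [dist_eq_norm, normsq3]
  simp

theorem exists_similarity (w : Fin 4 → E3) (ℓ : ℝ) (hℓ : 0 < ℓ)
    (hw : ∀ i j, i ≠ j → dist (w i) (w j) = ℓ) :
    ∃ (O : E3 ≃ₗᵢ[ℝ] E3) (o : E3),
      convexHull ℝ (Set.range w) = (fun x => o + (ℓ / 2) • O x) '' Kstd := by
  have h01 := sim_distsq (w 0) (w 1)
  have h02 := sim_distsq (w 0) (w 2)
  have h03 := sim_distsq (w 0) (w 3)
  have h12 := sim_distsq (w 1) (w 2)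
  have h13 := sim_distsq (w 1) (w 3)
  have h23 := sim_distsq (w 2) (w 3)
  rw [hw 0 1 (by decide)] at h01
  rw [hw 0 2 (by decide)] at h02
  rw [hw 0 3 (by decide)] at h03
  rw [hw 1 2 (by decide)] at h12
  rw [hw 1 3 (by decide)] at h13
  rw [hw 2 3 (by decide)] at h23
  have hs2 : Real.sqrt 2 ^ 2 = 2 := Real.sq_sqrt (by norm_num)
  have hs0 : 0 < Real.sqrt 2 := Real.sqrt_pos.mpr (by norm_num)
  set f : Fin 3 → E3 := ![(1 / ℓ) • (w 0 - w 1), (1 / ℓ) • (w 2 - w 3),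
    (1 / (Real.sqrt 2 * ℓ)) • (w 2 + w 3 - w 0 - w 1)] with hf
  have ipp : inner ℝ (w 0 - w 1) (w 0 - w 1) = ℓ ^ 2 := by
    rw [inner3]; simp only [PiLp.sub_apply, PiLp.add_apply]; linear_combination (-1) * h01
  have iqq : inner ℝ (w 2 - w 3) (w 2 - w 3) = ℓ ^ 2 := by
    rw [inner3]; simp only [PiLp.sub_apply, PiLp.add_apply]; linear_combination (-1) * h23
  have irr : inner ℝ (w 2 + w 3 - w 0 - w 1) (w 2 + w 3 - w 0 - w 1) = 2 * ℓ ^ 2 := by
    rw [inner3]; simp only [PiLp.sub_apply, PiLp.add_apply]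
    linear_combination (-1) * (h02 + h03 + h12 + h13 - h01 - h23)
  have ipq : inner ℝ (w 0 - w 1) (w 2 - w 3) = 0 := by
    rw [inner3]; simp only [PiLp.sub_apply, PiLp.add_apply]
    linear_combination (-1 / 2) * (h03 + h12 - h02 - h13)
  have ipr : inner ℝ (w 0 - w 1) (w 2 + w 3 - w 0 - w 1) = 0 := by
    rw [inner3]; simp only [PiLp.sub_apply, PiLp.add_apply]
    linear_combination (-1 / 2) * (h12 - h02 + h13 - h03)
  have iqr : inner ℝ (w 2 - w 3) (w 2 + w 3 - w 0 - w 1) = 0 := by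
    rw [inner3]; simp only [PiLp.sub_apply, PiLp.add_apply]
    linear_combination (1 / 2) * (h03 - h02 + h13 - h12)
  have hon : Orthonormal ℝ f := by
    rw [orthonormal_iff_ite]
    intro i j
    fin_cases i <;> fin_cases j
    · show inner ℝ ((1 / ℓ) • (w 0 - w 1)) ((1 / ℓ) • (w 0 - w 1)) = 1
      rw [real_inner_smul_left, real_inner_smul_right, ipp]; field_simp
    · show inner ℝ ((1 / ℓ) • (w 0 - w 1)) ((1 / ℓ) • (w 2 - w 3)) = 0
      rw [real_inner_smul_left, real_inner_smul_right, ipq]; simp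
    · show inner ℝ ((1 / ℓ) • (w 0 - w 1)) ((1 / (Real.sqrt 2 * ℓ)) • (w 2 + w 3 - w 0 - w 1)) = 0
      rw [real_inner_smul_left, real_inner_smul_right, ipr]; simp
    · show inner ℝ ((1 / ℓ) • (w 2 - w 3)) ((1 / ℓ) • (w 0 - w 1)) = 0
      rw [real_inner_smul_left, real_inner_smul_right, real_inner_comm, ipq]; simp
    · show inner ℝ ((1 / ℓ) • (w 2 - w 3)) ((1 / ℓ) • (w 2 - w 3)) = 1
      rw [real_inner_smul_left, real_inner_smul_right, iqq]; field_simp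
    · show inner ℝ ((1 / ℓ) • (w 2 - w 3)) ((1 / (Real.sqrt 2 * ℓ)) • (w 2 + w 3 - w 0 - w 1)) = 0
      rw [real_inner_smul_left, real_inner_smul_right, iqr]; simp
    · show inner ℝ ((1 / (Real.sqrt 2 * ℓ)) • (w 2 + w 3 - w 0 - w 1)) ((1 / ℓ) • (w 0 - w 1)) = 0
      rw [real_inner_smul_left, real_inner_smul_right, real_inner_comm, ipr]; simp
    · show inner ℝ ((1 / (Real.sqrt 2 * ℓ)) • (w 2 + w 3 - w 0 - w 1)) ((1 / ℓ) • (w 2 - w 3)) = 0
      rw [real_inner_smul_left, real_inner_smul_right, real_inner_comm, iqr]; simp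
    · show inner ℝ ((1 / (Real.sqrt 2 * ℓ)) • (w 2 + w 3 - w 0 - w 1))
        ((1 / (Real.sqrt 2 * ℓ)) • (w 2 + w 3 - w 0 - w 1)) = 1
      rw [real_inner_smul_left, real_inner_smul_right, irr]; field_simp; rw [hs2]
  obtain ⟨O, hO⟩ := sim_exists_isometry f hon
  refine ⟨O, (1 / 2 : ℝ) • (w 0 + w 1), ?_⟩
  let g : E3 →ᵃ[ℝ] E3 :=
    { toFun := fun x => (1 / 2 : ℝ) • (w 0 + w 1) + (ℓ / 2) • O x
      linear := (ℓ / 2) • (O.toLinearEquiv : E3 →ₗ[ℝ] E3)
      map_vadd' := by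
        intro p v
        simp only [vadd_eq_add, map_add, smul_add, LinearMap.smul_apply, LinearEquiv.coe_coe,
          LinearIsometryEquiv.coe_toLinearEquiv]
        abel }
  have hg : (fun x => (1 / 2 : ℝ) • (w 0 + w 1) + (ℓ / 2) • O x) = g := rfl
  rw [hg, Kstd, g.image_convexHull]
  congr 1
  have hl : ℓ ≠ 0 := hℓ.ne'
  have hsl : Real.sqrt 2 * ℓ ≠ 0 := mul_ne_zero hs0.ne' hl
  have g1 : g !₂[1, 0, 0] = w 0 := by
    show (1 / 2 : ℝ) • (w 0 + w 1) + (ℓ / 2) • O !₂[1, 0, 0] = w 0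
    rw [hO]
    ext k
    simp [hf]
    field_simp
    ring
  have g2 : g !₂[-1, 0, 0] = w 1 := by
    show (1 / 2 : ℝ) • (w 0 + w 1) + (ℓ / 2) • O !₂[-1, 0, 0] = w 1
    rw [hO]
    ext k
    simp [hf]
    field_simp
    ring
  have g3 : g !₂[0, 1, Real.sqrt 2] = w 2 := by
    show (1 / 2 : ℝ) • (w 0 + w 1) + (ℓ / 2) • O !₂[0, 1, Real.sqrt 2] = w 2
    rw [hO]
    ext k
    simp [hf]
    field_simp
    ring
  have g4 : g !₂[0, -1, Real.sqrt 2] = w 3 := by
    show (1 / 2 : ℝ) • (w 0 + w 1) + (ℓ / 2) • O !₂[0, -1, Real.sqrt 2] = w 3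
    rw [hO]
    ext k
    simp [hf]
    field_simp
    ring
  rw [Set.image_insert_eq, Set.image_insert_eq, Set.image_insert_eq, Set.image_singleton,
    g1, g2, g3, g4]
  ext x
  constructor
  · rintro ⟨i, rfl⟩
    fin_cases i <;> simp
  · rintro (rfl | rfl | rfl | rfl) <;> exact ⟨_, rfl⟩

end Crest.Agent.R211
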