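import Crest.Agent.R211_Area

/-!
# Row 211: staircase of parallelograms covering a triangle (helper1)
-/

set_option autoImplicit false
open MeasureTheory
open scoped ENNReal

namespace Crest.Agent.R211

theorem staircase_cover (p q r : E3) (n : ℕ) (hn : 0 < n) :
    convexHull ℝ ({p, q, r} : Set E3) ⊆ ⋃ k : Fin n,
      pgram (p + ((k : ℝ) / n) • (r - p)) ((1 - (k : ℝ) / n) • (q - p)) ((1 / (n : ℝ)) • (r - p)) := by
  intro z hz
  rw [convexHull_triple_eq_image] at hz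
  obtain ⟨x, ⟨hx0, hx1, hx2⟩, rfl⟩ := hz
  have hnR : (0 : ℝ) < n := by exact_mod_cast hn
  set k : ℕ := min ⌊x 1 * n⌋₊ (n - 1) with hk
  have hkn : k < n := lt_of_le_of_lt (min_le_right _ _) (by omega)
  have hyn : 0 ≤ x 1 * n := by positivity
  have hk1 : (k : ℝ) ≤ x 1 * n := by
    have h1 : (k : ℝ) ≤ (⌊x 1 * n⌋₊ : ℝ) := by exact_mod_cast min_le_left _ _
    exact h1.trans (Nat.floor_le hyn)
  have hk2 : x 1 * n ≤ (k : ℝ) + 1 := by
    rcases le_total ⌊x 1 * n⌋₊ (n - 1) with h | h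
    · rw [hk, min_eq_left h]
      exact (Nat.lt_floor_add_one _).le
    · rw [hk, min_eq_right h]
      have h1 : ((n - 1 : ℕ) : ℝ) + 1 = n := by
        rw [Nat.cast_sub (by omega)]; simp
      rw [h1]
      have : x 1 ≤ 1 := by linarith
      nlinarith
  have hkn' : (k : ℝ) + 1 ≤ n := by exact_mod_cast hkn
  have hpos : 0 < 1 - (k : ℝ) / n := by
    rw [sub_pos, div_lt_one hnR]; linarith
  rw [Set.mem_iUnion]
  refine ⟨⟨k, hkn⟩, x 0 / (1 - (k : ℝ) / n), ⟨by positivity, ?_⟩, x 1 * n - k, ⟨by linarith, by linarith⟩, ?_⟩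
  · rw [div_le_one hpos]
    have : (k : ℝ) / n ≤ x 1 := by rw [div_le_iff₀ hnR]; exact hk1
    linarith
  · simp only [smul_smul]
    rw [div_mul_cancel₀ _ hpos.ne']
    have : (x 1 * n - k) * (1 / (n : ℝ)) = x 1 - k / n := by field_simp
    rw [this]
    module

theorem sum_range_cast (n : ℕ) : ∑ k ∈ Finset.range n, (k : ℝ) = n * (n - 1) / 2 := by
  induction n with
  | zero => simp
  | succ n ih => rw [Finset.sum_range_succ, ih]; push_cast; ring

theorem gram_smul_smul (s t : ℝ) (a b : E3) : gram (s • a) (t • b) = (s * t) ^ 2 * gram a b := by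
  unfold gram
  rw [norm_smul, norm_smul, inner_smul_left, inner_smul_right]
  simp only [conj_trivial, Real.norm_eq_abs, mul_pow, sq_abs]
  ring

theorem staircase_area (p q r : E3) (n : ℕ) (hn : 0 < n) :
    ∑ k : Fin n, (μHE[2] (pgram (p + ((k : ℝ) / n) • (r - p)) ((1 - (k : ℝ) / n) • (q - p))
        ((1 / (n : ℝ)) • (r - p)))).toReal =
      ((n : ℝ) + 1) / n * (μHE[2] (convexHull ℝ ({p, q, r} : Set E3))).toReal := by
  have hnR : (0 : ℝ) < n := by exact_mod_cast hn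
  have h1 : ∀ k : Fin n, (μHE[2] (pgram (p + ((k : ℝ) / n) • (r - p)) ((1 - (k : ℝ) / n) • (q - p))
        ((1 / (n : ℝ)) • (r - p)))).toReal =
      (1 - (k : ℝ) / n) * (1 / n) * Real.sqrt (gram (q - p) (r - p)) := by
    intro k
    have hk : (k : ℝ) + 1 ≤ n := by exact_mod_cast k.2
    have hpos : 0 < 1 - (k : ℝ) / n := by
      rw [sub_pos, div_lt_one hnR]; linarith
    rw [area_pgram, ENNReal.toReal_ofReal (Real.sqrt_nonneg _), gram_smul_smul,
      Real.sqrt_mul (sq_nonneg _), Real.sqrt_sq (by positivity)]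
  rw [Finset.sum_congr rfl (fun k _ => h1 k), area_tri, ENNReal.toReal_ofReal (by positivity),
    ← Finset.sum_mul,
    Fin.sum_univ_eq_sum_range (fun k : ℕ => (1 - (k : ℝ) / n) * (1 / n)) n, ← Finset.sum_mul,
    Finset.sum_sub_distrib, ← Finset.sum_div, sum_range_cast]
  simp only [Finset.sum_const, Finset.card_range, nsmul_eq_mul, mul_one]
  field_simp
  ring

theorem isBounded_pgram (c a b : E3) : Bornology.IsBounded (pgram c a b) := by
  rw [isBounded_iff_forall_norm_le]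
  refine ⟨‖c‖ + ‖a‖ + ‖b‖, ?_⟩
  rintro x ⟨s, hs, t, ht, rfl⟩
  have h1 : ‖s • a‖ ≤ ‖a‖ := by
    rw [norm_smul, Real.norm_eq_abs, abs_of_nonneg hs.1]
    exact mul_le_of_le_one_left (norm_nonneg _) hs.2
  have h2 : ‖t • b‖ ≤ ‖b‖ := by
    rw [norm_smul, Real.norm_eq_abs, abs_of_nonneg ht.1]
    exact mul_le_of_le_one_left (norm_nonneg _) ht.2
  calc ‖c + s • a + t • b‖ ≤ ‖c + s • a‖ + ‖t • b‖ := norm_add_le _ _
    _ ≤ ‖c‖ + ‖s • a‖ + ‖t • b‖ := by gcongr; exact norm_add_le _ _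
    _ ≤ ‖c‖ + ‖a‖ + ‖b‖ := by gcongr

end Crest.Agent.R211
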