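import Mathlib
import Crest.Agent.R211_Defs
import Crest.Agent.R211_Area
import Crest.Agent.R211_Proj
import Crest.Agent.R211_FixedCover
import Crest.Agent.R211_Sim

/-!
# Row 211: transfer of the fixed cover and of the projection-area bound from `Kstd`
to an arbitrary regular tetrahedron.
-/

set_option autoImplicit false

namespace Crest.Agent.R211

open MeasureTheory
open scoped ENNReal Pointwise

/-- area scales by `c²` under a similarity of ratio `c`. -/
theorem sim_area (O : E3 ≃ₗᵢ[ℝ] E3) (t : E3) (c : ℝ) (hc : 0 < c) (S : Set E3) :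
    μHE[2] ((fun y => t + c • O y) '' S) = ENNReal.ofReal (c ^ 2) * μHE[2] S := by
  have h1 : (fun y => t + c • O y) '' S = (fun z => t + z) '' (c • (O '' S)) := by
    ext x
    simp only [Set.mem_image, Set.mem_smul_set]
    constructor
    · rintro ⟨y, hy, rfl⟩
      exact ⟨c • O y, ⟨O y, ⟨y, hy, rfl⟩, rfl⟩, rfl⟩
    · rintro ⟨_, ⟨_, ⟨y, hy, rfl⟩, rfl⟩, rfl⟩
      exact ⟨y, hy, rfl⟩
  rw [h1, (isometry_add_left t).euclideanHausdorffMeasure_image,
    Measure.euclideanHausdorffMeasure_smul₀ 2 hc.ne', O.isometry.euclideanHausdorffMeasure_image]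
  rw [ENNReal.smul_def, smul_eq_mul]
  congr 1
  rw [ENNReal.ofReal_pow hc.le, ENNReal.coe_pow]
  congr 1
  rw [ENNReal.ofReal, Real.toNNReal_of_nonneg hc.le]
  congr 1
  ext
  simp [abs_of_pos hc]

theorem prj_sim (O : E3 ≃ₗᵢ[ℝ] E3) (o v x : E3) (c : ℝ) :
    prj v (o + c • O x) = prj v o + c • O (prj (O.symm v) x) := by
  rw [prj_add, prj_smul]
  congr 2
  unfold prj
  rw [map_sub, map_smul, O.apply_symm_apply, LinearIsometryEquiv.inner_map_eq_flip]

theorem gram_sim (O : E3 ≃ₗᵢ[ℝ] E3) (a b : E3) (c : ℝ) :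
    gram (c • O a) (c • O b) = (c ^ 2) ^ 2 * gram a b := by
  unfold gram
  rw [norm_smul, norm_smul, inner_smul_left, inner_smul_right, O.norm_map, O.norm_map,
    O.inner_map_map]
  simp only [Real.norm_eq_abs, mul_pow, sq_abs, RCLike.conj_to_real]
  ring

theorem fixedCover_general (w : Fin 4 → E3) (l : ℝ) (hl : 0 < l)
    (hw : ∀ i j, i ≠ j → dist (w i) (w j) = l) :
    (∃ (m : ℕ) (u p q r : Fin m → E3), (∀ i, ‖u i‖ = 1) ∧
      (∀ i, inner ℝ (p i) (u i) = 0 ∧ inner ℝ (q i) (u i) = 0 ∧ inner ℝ (r i) (u i) = 0) ∧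
      convexHull ℝ (Set.range w) ⊆
        ⋃ i, {x : E3 | ∃ b ∈ convexHull ℝ {p i, q i, r i}, ∃ t : ℝ, x = b + t • u i} ∧
      ∑ i, (μHE[2] (convexHull ℝ ({p i, q i, r i} : Set E3))).toReal ≤
        (l / 2) ^ 2 * (Real.sqrt 2 * (1 / 2 - 1 / 10 ^ 7))) ∧
    (∀ v : E3, ‖v‖ = 1 → (l / 2) ^ 2 * Real.sqrt 2 ≤
      (μHE[2] ((fun y => y - inner ℝ y v • v) '' convexHull ℝ (Set.range w))).toReal) := by
  obtain ⟨O, o, hK⟩ := exists_similarity w l hl hw
  set c : ℝ := l / 2 with hc
  have hc0 : 0 < c := by positivity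
  constructor
  · obtain ⟨m, u, p, q, r, -, hu, hperp, hcov, hsum⟩ := fixedCover
    have hu' : ∀ i, ‖O (u i)‖ = 1 := fun i => by rw [O.norm_map, hu i]
    have hin : ∀ i (z : E3), inner ℝ z (u i) = 0 →
        inner ℝ (prj (O (u i)) o + c • O z) (O (u i)) = 0 := by
      intro i z hz
      rw [inner_add_left, inner_prj _ _ (hu' i), inner_smul_left, O.inner_map_map, hz]
      simp
    refine ⟨m, fun i => O (u i), fun i => prj (O (u i)) o + c • O (p i),
      fun i => prj (O (u i)) o + c • O (q i), fun i => prj (O (u i)) o + c • O (r i),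
      hu', fun i => ⟨hin i _ (hperp i).1, hin i _ (hperp i).2.1, hin i _ (hperp i).2.2⟩, ?_, ?_⟩
    · rw [hK]
      rintro _ ⟨y, hy, rfl⟩
      have := hcov hy
      simp only [Set.mem_iUnion] at this ⊢
      obtain ⟨i, b, hb, t, rfl⟩ := this
      refine ⟨i, prj (O (u i)) o + c • O b, ?_, inner ℝ o (O (u i)) + c * t, ?_⟩
      · rw [mem_tri_iff] at hb ⊢
        obtain ⟨α, β, γ, h1, h2, h3, h4, rfl⟩ := hb
        refine ⟨α, β, γ, h1, h2, h3, h4, ?_⟩
        have : prj (O (u i)) o = (α + β + γ) • prj (O (u i)) o := by rw [h4, one_smul]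
        generalize prj (O (u i)) o = z at this ⊢
        conv_lhs => rw [this]
        simp only [map_add, map_smul, smul_add, add_smul, smul_smul]
        simp only [mul_comm c]
        abel
      · simp only [prj, map_add, map_smul, smul_add, add_smul, smul_smul]
        abel
    · have harea : ∀ i, (μHE[2] (convexHull ℝ ({prj (O (u i)) o + c • O (p i),
          prj (O (u i)) o + c • O (q i), prj (O (u i)) o + c • O (r i)} : Set E3))).toReal =
          c ^ 2 * (μHE[2] (convexHull ℝ ({p i, q i, r i} : Set E3))).toReal := by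
        intro i
        rw [area_tri, area_tri, ENNReal.toReal_ofReal (by positivity),
          ENNReal.toReal_ofReal (by positivity)]
        have e1 : prj (O (u i)) o + c • O (q i) - (prj (O (u i)) o + c • O (p i)) =
            c • O (q i - p i) := by
          rw [map_sub, smul_sub]; abel
        have e2 : prj (O (u i)) o + c • O (r i) - (prj (O (u i)) o + c • O (p i)) =
            c • O (r i - p i) := by
          rw [map_sub, smul_sub]; abel
        rw [e1, e2, gram_sim, Real.sqrt_mul (by positivity), Real.sqrt_sq (by positivity)]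
        ring
      simp only [harea, ← Finset.mul_sum]
      exact mul_le_mul_of_nonneg_left hsum (by positivity)
  · intro v hv
    have hv' : ‖O.symm v‖ = 1 := by rw [O.symm.norm_map, hv]
    have himg : (fun y => y - inner ℝ y v • v) '' convexHull ℝ (Set.range w) =
        (fun y => prj v o + c • O y) ''
          ((fun y => y - inner ℝ y (O.symm v) • (O.symm v)) '' Kstd) := by
      rw [hK, Set.image_image, Set.image_image]
      apply Set.image_congr
      intro x _
      exact prj_sim O o v x c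
    rw [himg, sim_area O _ c hc0, ENNReal.toReal_mul, ENNReal.toReal_ofReal (by positivity)]
    apply mul_le_mul_of_nonneg_left _ (by positivity)
    have h1 := proj_area_ge (O.symm v) hv'
    have h2 := proj_area_lt_top (O.symm v) hv'
    rw [ENNReal.ofReal_le_iff_le_toReal h2.ne] at h1
    exact h1

end Crest.Agent.R211
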