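import Crest.Agent.S0109_Limit

set_option autoImplicit false

namespace Crest.Agent.R082

open MeasureTheory Set Filter Topology
open scoped ENNReal NNReal InnerProductSpace
open Crest.AnalysisR.OT


noncomputable section

variable {d : ℕ}

/-- elementary: `‖u + v‖² ≤ (1+t)‖u‖² + (1+1/t)‖v‖²`. -/
theorem fin_norm_add_sq_le (u v : E d) {t : ℝ} (ht : 0 < t) :
    ‖u + v‖ ^ 2 ≤ (1 + t) * ‖u‖ ^ 2 + (1 + 1 / t) * ‖v‖ ^ 2 := by
  have h1 : ‖u + v‖ ≤ ‖u‖ + ‖v‖ := norm_add_le u v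
  have h2 : ‖u + v‖ ^ 2 ≤ (‖u‖ + ‖v‖) ^ 2 := by
    apply pow_le_pow_left₀ (norm_nonneg _) h1
  have h3 : 2 * ‖u‖ * ‖v‖ ≤ t * ‖u‖ ^ 2 + (1 / t) * ‖v‖ ^ 2 := by
    have h4 : 0 ≤ (t * ‖u‖ - ‖v‖) ^ 2 / t := by positivity
    have h5 : (t * ‖u‖ - ‖v‖) ^ 2 / t = t * ‖u‖ ^ 2 - 2 * ‖u‖ * ‖v‖ + (1 / t) * ‖v‖ ^ 2 := by
      field_simp
      ring
    linarith
  nlinarith

theorem fin_ae_bound {ρ μ : Measure (E d)} {T : E d → E d} (hT : IsOptimalMap ρ μ T) {D : ℝ}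
    (hμ : μ (Metric.closedBall 0 D)ᶜ = 0) : ∀ᵐ x ∂ρ, ‖T x‖ ≤ D := by
  have h1 : ρ (T ⁻¹' (Metric.closedBall 0 D)ᶜ) = 0 := by
    rw [← Measure.map_apply hT.1 Metric.isClosed_closedBall.measurableSet.compl, hT.2.1, hμ]
  rw [ae_iff]
  refine measure_mono_null ?_ h1
  intro x hx
  simpa [Metric.mem_closedBall] using hx

/-- the rounded measure is finitely supported in the larger ball. -/
theorem fin_exists_lagData {K : Set (E d)} {x0 : E d} {R : ℝ} (hK : Body K x0 R) (D : ℝ)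
    (μ : Measure (E d)) [IsProbabilityMeasure μ] (hμ : μ (Metric.closedBall 0 D)ᶜ = 0) (N : ℕ) :
    Nonempty (LagData K (μ.map (rnd (N + 1))) (D + Real.sqrt d)) := by
  classical
  obtain ⟨S, hS⟩ := rnd_finite (d := d) (N + 1) (Nat.succ_pos N) D
  haveI : IsProbabilityMeasure (μ.map (rnd (N + 1) : E d → E d)) :=
    Measure.isProbabilityMeasure_map (measurable_rnd (N + 1)).aemeasurable
  refine exists_lagData hK (D + Real.sqrt d) _ (S.filter fun y => ‖y‖ ≤ D + Real.sqrt d) ?_ ?_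
  · rw [Measure.map_apply (measurable_rnd (N + 1)) (Finset.measurableSet _).compl]
    refine measure_mono_null ?_ hμ
    intro y hy
    simp only [mem_preimage, mem_compl_iff, Finset.coe_filter, mem_setOf_eq, not_and] at hy
    simp only [mem_compl_iff, Metric.mem_closedBall, dist_zero_right]
    intro hyD
    apply hy (hS y hyD)
    have h1 := norm_rnd_sub_le (N + 1) (Nat.succ_pos N) y
    have h2 : Real.sqrt d / ((N + 1 : ℕ) : ℝ) ≤ Real.sqrt d := by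
      apply div_le_self (Real.sqrt_nonneg _)
      have : (1 : ℝ) ≤ ((N + 1 : ℕ) : ℝ) := by exact_mod_cast Nat.succ_le_succ (Nat.zero_le N)
      exact this
    calc ‖rnd (N + 1) y‖ = ‖(rnd (N + 1) y - y) + y‖ := by congr 1; abel
      _ ≤ ‖rnd (N + 1) y - y‖ + ‖y‖ := norm_add_le _ _
      _ ≤ D + Real.sqrt d := by linarith
  · intro y hy
    exact (Finset.mem_filter.mp hy).2

theorem fin_coupling_map {μ ν : Measure (E d)} {π : Measure (E d × E d)} (hπ : IsPairCoupling μ ν π)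
    (q : E d → E d) (hq : Measurable q) :
    IsPairCoupling (μ.map q) (ν.map q) (π.map (Prod.map q q)) := by
  constructor
  · rw [Measure.map_map measurable_fst (hq.prodMap hq), ← hπ.1, Measure.map_map hq measurable_fst]
    rfl
  · rw [Measure.map_map measurable_snd (hq.prodMap hq), ← hπ.2, Measure.map_map hq measurable_snd]
    rfl

theorem fin_coupling_prob {μ ν : Measure (E d)} [IsProbabilityMeasure μ] {π : Measure (E d × E d)}
    (hπ : IsPairCoupling μ ν π) : IsProbabilityMeasure π := by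
  constructor
  have h : μ univ = 1 := measure_univ
  rw [← hπ.1, Measure.map_apply measurable_fst MeasurableSet.univ] at h
  simpa using h

theorem fin_coupling_ae {μ ν : Measure (E d)} {π : Measure (E d × E d)}
    (hπ : IsPairCoupling μ ν π) {D : ℝ} (hμ : μ (Metric.closedBall 0 D)ᶜ = 0)
    (hν : ν (Metric.closedBall 0 D)ᶜ = 0) : ∀ᵐ z ∂π, ‖z.1‖ ≤ D ∧ ‖z.2‖ ≤ D := by
  have h1 : π (Prod.fst ⁻¹' (Metric.closedBall 0 D)ᶜ) = 0 := by
    rw [← Measure.map_apply measurable_fst Metric.isClosed_closedBall.measurableSet.compl, hπ.1, hμ]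
  have h2 : π (Prod.snd ⁻¹' (Metric.closedBall 0 D)ᶜ) = 0 := by
    rw [← Measure.map_apply measurable_snd Metric.isClosed_closedBall.measurableSet.compl, hπ.2, hν]
  have h1' : ∀ᵐ z ∂π, ‖z.1‖ ≤ D := by
    rw [ae_iff]
    refine measure_mono_null ?_ h1
    intro x hx
    simpa [Metric.mem_closedBall] using hx
  have h2' : ∀ᵐ z ∂π, ‖z.2‖ ≤ D := by
    rw [ae_iff]
    refine measure_mono_null ?_ h2
    intro x hx
    simpa [Metric.mem_closedBall] using hx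
  filter_upwards [h1', h2'] with z a b using ⟨a, b⟩

theorem fin_cost_integrable {μ ν : Measure (E d)} [IsProbabilityMeasure μ] {π : Measure (E d × E d)}
    (hπ : IsPairCoupling μ ν π) {D : ℝ} (hμ : μ (Metric.closedBall 0 D)ᶜ = 0)
    (hν : ν (Metric.closedBall 0 D)ᶜ = 0) : Integrable (fun z : E d × E d => ‖z.1 - z.2‖ ^ 2) π := by
  have := fin_coupling_prob hπ
  refine Integrable.of_bound (C := (2 * D) ^ 2) ?_ ?_
  · exact ((measurable_fst.sub measurable_snd).norm.pow_const 2).aestronglyMeasurable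
  · filter_upwards [fin_coupling_ae hπ hμ hν] with z hz
    have h1 : ‖z.1 - z.2‖ ≤ 2 * D := by
      calc ‖z.1 - z.2‖ ≤ ‖z.1‖ + ‖z.2‖ := norm_sub_le _ _
        _ ≤ 2 * D := by linarith [hz.1, hz.2]
    rw [Real.norm_of_nonneg (by positivity)]
    exact pow_le_pow_left₀ (norm_nonneg _) h1 2

theorem fin_cost_le {μ ν : Measure (E d)} [IsProbabilityMeasure μ] {π : Measure (E d × E d)}
    (hπ : IsPairCoupling μ ν π) {D : ℝ} (hμ : μ (Metric.closedBall 0 D)ᶜ = 0)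
    (hν : ν (Metric.closedBall 0 D)ᶜ = 0) (q : E d → E d) (hq : Measurable q) (δ : ℝ)
    (hδ : ∀ y, ‖q y - y‖ ≤ δ) :
    ∫ z, ‖z.1 - z.2‖ ^ 2 ∂(π.map (Prod.map q q))
      ≤ ∫ z, ‖z.1 - z.2‖ ^ 2 ∂π + (8 * D * δ + 4 * δ ^ 2) := by
  have hprob := fin_coupling_prob hπ
  have hδ0 : 0 ≤ δ := le_trans (norm_nonneg _) (hδ 0)
  have hmeas : Measurable (fun z : E d × E d => ‖z.1 - z.2‖ ^ 2) :=
    (measurable_fst.sub measurable_snd).norm.pow_const 2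
  rw [integral_map (hq.prodMap hq).aemeasurable hmeas.aestronglyMeasurable]
  have hI := fin_cost_integrable hπ hμ hν
  have hc : ∫ z, ‖z.1 - z.2‖ ^ 2 ∂π + (8 * D * δ + 4 * δ ^ 2)
      = ∫ z, (‖z.1 - z.2‖ ^ 2 + (8 * D * δ + 4 * δ ^ 2)) ∂π := by
    rw [integral_add hI (integrable_const _)]
    simp
  rw [hc]
  have hpt : ∀ᵐ z ∂π, ‖(Prod.map q q z).1 - (Prod.map q q z).2‖ ^ 2
      ≤ ‖z.1 - z.2‖ ^ 2 + (8 * D * δ + 4 * δ ^ 2) := by
    filter_upwards [fin_coupling_ae hπ hμ hν] with z hz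
    have h1 : ‖z.1 - z.2‖ ≤ 2 * D := by
      calc ‖z.1 - z.2‖ ≤ ‖z.1‖ + ‖z.2‖ := norm_sub_le _ _
        _ ≤ 2 * D := by linarith [hz.1, hz.2]
    have h2 : ‖q z.1 - q z.2‖ ≤ ‖z.1 - z.2‖ + 2 * δ := by
      have e : q z.1 - q z.2 = (q z.1 - z.1) + (z.1 - z.2) - (q z.2 - z.2) := by abel
      calc ‖q z.1 - q z.2‖ = ‖(q z.1 - z.1) + (z.1 - z.2) - (q z.2 - z.2)‖ := by rw [e]
        _ ≤ ‖(q z.1 - z.1) + (z.1 - z.2)‖ + ‖q z.2 - z.2‖ := norm_sub_le _ _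
        _ ≤ ‖q z.1 - z.1‖ + ‖z.1 - z.2‖ + ‖q z.2 - z.2‖ := by
            gcongr; exact norm_add_le _ _
        _ ≤ ‖z.1 - z.2‖ + 2 * δ := by linarith [hδ z.1, hδ z.2]
    have h3 : ‖q z.1 - q z.2‖ ^ 2 ≤ (‖z.1 - z.2‖ + 2 * δ) ^ 2 :=
      pow_le_pow_left₀ (norm_nonneg _) h2 2
    have h4 : 0 ≤ ‖z.1 - z.2‖ := norm_nonneg _
    simp only [Prod.map_fst, Prod.map_snd]
    nlinarith
  refine integral_mono_of_nonneg (Eventually.of_forall fun z => by positivity) ?_ hpt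
  exact hI.add (integrable_const _)

theorem fin_sq_integrable {ρ : Measure (E d)} [IsProbabilityMeasure ρ] {S T : E d → E d}
    (hS : Measurable S) (hT : Measurable T) {D : ℝ} (hSb : ∀ᵐ x ∂ρ, ‖S x‖ ≤ D)
    (hTb : ∀ᵐ x ∂ρ, ‖T x‖ ≤ D) : Integrable (fun x => ‖S x - T x‖ ^ 2) ρ := by
  refine Integrable.of_bound (C := (2 * D) ^ 2) ?_ ?_
  · exact ((hS.sub hT).norm.pow_const 2).aestronglyMeasurable
  · filter_upwards [hSb, hTb] with x h1 h2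
    have h3 : ‖S x - T x‖ ≤ 2 * D := by
      calc ‖S x - T x‖ ≤ ‖S x‖ + ‖T x‖ := norm_sub_le _ _
        _ ≤ 2 * D := by linarith
    rw [Real.norm_of_nonneg (by positivity)]
    exact pow_le_pow_left₀ (norm_nonneg _) h3 2

theorem fin_lagData_bound {K : Set (E d)} {μ : Measure (E d)} {D : ℝ} (L : LagData K μ D) (x : E d) :
    ‖L.T x‖ ≤ D := by
  obtain ⟨i, -, hi⟩ := L.Tcell x
  rw [hi]
  exact L.bound i

theorem fin_core {K : Set (E d)} {x0 : E d} {R : ℝ} (hK : Body K x0 R) (D : ℝ) (hD : 0 ≤ D)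
    (C : ℝ) (hC0 : 0 ≤ C)
    (hC : ∀ (μ ν : Measure (E d)) (L1 : LagData K μ (D + Real.sqrt d))
      (L2 : LagData K ν (D + Real.sqrt d)) (π : Measure (E d × E d)), IsPairCoupling μ ν π →
      ∫ x, ‖L1.T x - L2.T x‖ ^ 2 ∂(uniformProbOn K)
        ≤ C * (∫ z, ‖z.1 - z.2‖ ^ 2 ∂π) ^ (1 / 3 : ℝ))
    (μ ν : Measure (E d)) [IsProbabilityMeasure μ] [IsProbabilityMeasure ν]
    (hμ : μ (Metric.closedBall 0 D)ᶜ = 0) (hν : ν (Metric.closedBall 0 D)ᶜ = 0)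
    (Tμ Tν : E d → E d) (hTμ : IsOptimalMap (uniformProbOn K) μ Tμ)
    (hTν : IsOptimalMap (uniformProbOn K) ν Tν) (π : Measure (E d × E d))
    (hπ : IsPairCoupling μ ν π) :
    ∫ x, ‖Tμ x - Tν x‖ ^ 2 ∂(uniformProbOn K) ≤ C * (∫ z, ‖z.1 - z.2‖ ^ 2 ∂π) ^ (1 / 3 : ℝ) := by
  have hρ : IsProbabilityMeasure (uniformProbOn K) := (source_uniform hK).prob
  set ρ := uniformProbOn K with hρdef
  set D' := D + Real.sqrt d with hD'
  have hDD' : D ≤ D' := by have := Real.sqrt_nonneg (d : ℝ); linarith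
  let L : ∀ N : ℕ, LagData K (μ.map (rnd (N + 1))) D' := fun N =>
    Classical.choice (fin_exists_lagData hK D μ hμ N)
  let L' : ∀ N : ℕ, LagData K (ν.map (rnd (N + 1))) D' := fun N =>
    Classical.choice (fin_exists_lagData hK D ν hν N)
  have hα := tendsto_lagMaps hK D μ hμ Tμ hTμ L
  have hβ := tendsto_lagMaps hK D ν hν Tν hTν L'
  set Q := ∫ z, ‖z.1 - z.2‖ ^ 2 ∂π with hQ
  have hQ0 : 0 ≤ Q := integral_nonneg fun z => by positivity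
  let δ : ℕ → ℝ := fun N => Real.sqrt d / ((N + 1 : ℕ) : ℝ)
  have hδ : Tendsto δ atTop (𝓝 0) := by
    have h1 : Tendsto (fun N : ℕ => ((N + 1 : ℕ) : ℝ)) atTop atTop := by
      exact tendsto_natCast_atTop_atTop.comp (tendsto_add_atTop_nat 1)
    exact h1.const_div_atTop _
  have hTμb : ∀ᵐ x ∂ρ, ‖Tμ x‖ ≤ D' := (fin_ae_bound hTμ hμ).mono fun x hx => hx.trans hDD'
  have hTνb : ∀ᵐ x ∂ρ, ‖Tν x‖ ≤ D' := (fin_ae_bound hTν hν).mono fun x hx => hx.trans hDD'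
  -- bound for each N and t
  have key : ∀ t : ℝ, 0 < t → ∀ N : ℕ, ∫ x, ‖Tμ x - Tν x‖ ^ 2 ∂ρ
      ≤ (1 + t) * (C * (Q + (8 * D * δ N + 4 * δ N ^ 2)) ^ (1 / 3 : ℝ))
        + (1 + 1 / t) * (2 * ((∫ x, ‖(L N).T x - Tμ x‖ ^ 2 ∂ρ) + ∫ x, ‖(L' N).T x - Tν x‖ ^ 2 ∂ρ)) := by
    intro t ht N
    have hLb : ∀ᵐ x ∂ρ, ‖(L N).T x‖ ≤ D' := Eventually.of_forall (fin_lagData_bound (L N))
    have hL'b : ∀ᵐ x ∂ρ, ‖(L' N).T x‖ ≤ D' := Eventually.of_forall (fin_lagData_bound (L' N))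
    have i1 := fin_sq_integrable (L N).Tmeas (L' N).Tmeas hLb hL'b
    have i2 := fin_sq_integrable (L N).Tmeas hTμ.1 hLb hTμb
    have i3 := fin_sq_integrable (L' N).Tmeas hTν.1 hL'b hTνb
    have hpt : ∀ x, ‖Tμ x - Tν x‖ ^ 2 ≤ (1 + t) * ‖(L N).T x - (L' N).T x‖ ^ 2
        + (1 + 1 / t) * (2 * (‖(L N).T x - Tμ x‖ ^ 2 + ‖(L' N).T x - Tν x‖ ^ 2)) := by
      intro x
      have e : Tμ x - Tν x = ((L N).T x - (L' N).T x)
          + ((Tμ x - (L N).T x) + ((L' N).T x - Tν x)) := by abel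
      have h1 := fin_norm_add_sq_le ((L N).T x - (L' N).T x)
        ((Tμ x - (L N).T x) + ((L' N).T x - Tν x)) ht
      have h2 := fin_norm_add_sq_le (Tμ x - (L N).T x) ((L' N).T x - Tν x) one_pos
      have h3 : ‖Tμ x - (L N).T x‖ = ‖(L N).T x - Tμ x‖ := norm_sub_rev _ _
      rw [e]
      have h4 : (0 : ℝ) ≤ 1 + 1 / t := by positivity
      have h5 : ‖(Tμ x - (L N).T x) + ((L' N).T x - Tν x)‖ ^ 2
          ≤ 2 * (‖(L N).T x - Tμ x‖ ^ 2 + ‖(L' N).T x - Tν x‖ ^ 2) := by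
        rw [← h3]; norm_num at h2; linarith
      calc _ ≤ _ := h1
        _ ≤ _ := by gcongr
    have hint : ∫ x, ‖Tμ x - Tν x‖ ^ 2 ∂ρ ≤ ∫ x, ((1 + t) * ‖(L N).T x - (L' N).T x‖ ^ 2
        + (1 + 1 / t) * (2 * (‖(L N).T x - Tμ x‖ ^ 2 + ‖(L' N).T x - Tν x‖ ^ 2))) ∂ρ := by
      refine integral_mono_of_nonneg (Eventually.of_forall fun z => by positivity) ?_
        (Eventually.of_forall hpt)
      exact (i1.const_mul _).add (((i2.add i3).const_mul _).const_mul _)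
    have hsplit : ∫ x, ((1 + t) * ‖(L N).T x - (L' N).T x‖ ^ 2
        + (1 + 1 / t) * (2 * (‖(L N).T x - Tμ x‖ ^ 2 + ‖(L' N).T x - Tν x‖ ^ 2))) ∂ρ
        = (1 + t) * (∫ x, ‖(L N).T x - (L' N).T x‖ ^ 2 ∂ρ)
          + (1 + 1 / t) * (2 * ((∫ x, ‖(L N).T x - Tμ x‖ ^ 2 ∂ρ) + ∫ x, ‖(L' N).T x - Tν x‖ ^ 2 ∂ρ)) := by
      have i23 : Integrable (fun x => ‖(L N).T x - Tμ x‖ ^ 2 + ‖(L' N).T x - Tν x‖ ^ 2) ρ := i2.add i3
      have i23' : Integrable (fun x => (1 + 1 / t) *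
          (2 * (‖(L N).T x - Tμ x‖ ^ 2 + ‖(L' N).T x - Tν x‖ ^ 2))) ρ :=
        (i23.const_mul 2).const_mul (1 + 1 / t)
      rw [integral_add (i1.const_mul _) i23',
        integral_const_mul, integral_const_mul, integral_const_mul, integral_add i2 i3]
    have hdisc := hC _ _ (L N) (L' N) _ (fin_coupling_map hπ (rnd (N + 1)) (measurable_rnd (N + 1)))
    have hcost := fin_cost_le hπ hμ hν (rnd (N + 1)) (measurable_rnd (N + 1)) (δ N)
      (fun y => norm_rnd_sub_le (N + 1) (Nat.succ_pos N) y)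
    have hcost0 : 0 ≤ ∫ z, ‖z.1 - z.2‖ ^ 2 ∂(π.map (Prod.map (rnd (N + 1)) (rnd (N + 1)))) :=
      integral_nonneg fun z => by positivity
    have hpow : (∫ z, ‖z.1 - z.2‖ ^ 2 ∂(π.map (Prod.map (rnd (N + 1)) (rnd (N + 1))))) ^ (1 / 3 : ℝ)
        ≤ (Q + (8 * D * δ N + 4 * δ N ^ 2)) ^ (1 / 3 : ℝ) :=
      Real.rpow_le_rpow hcost0 hcost (by norm_num)
    have h6 : ∫ x, ‖(L N).T x - (L' N).T x‖ ^ 2 ∂ρ
        ≤ C * (Q + (8 * D * δ N + 4 * δ N ^ 2)) ^ (1 / 3 : ℝ) :=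
      hdisc.trans (mul_le_mul_of_nonneg_left hpow hC0)
    have h7 : (0 : ℝ) ≤ 1 + t := by positivity
    calc _ ≤ _ := hint
      _ = _ := hsplit
      _ ≤ _ := by gcongr
  -- limit in N
  have lim1 : ∀ t : ℝ, 0 < t → ∫ x, ‖Tμ x - Tν x‖ ^ 2 ∂ρ ≤ (1 + t) * (C * Q ^ (1 / 3 : ℝ)) := by
    intro t ht
    have hε : Tendsto (fun N => Q + (8 * D * δ N + 4 * δ N ^ 2)) atTop (𝓝 Q) := by
      have : Tendsto (fun N => Q + (8 * D * δ N + 4 * δ N ^ 2)) atTop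
          (𝓝 (Q + (8 * D * 0 + 4 * 0 ^ 2))) :=
        tendsto_const_nhds.add (((tendsto_const_nhds.mul hδ)).add (tendsto_const_nhds.mul (hδ.pow 2)))
      simpa using this
    have hp : Tendsto (fun N => (Q + (8 * D * δ N + 4 * δ N ^ 2)) ^ (1 / 3 : ℝ)) atTop
        (𝓝 (Q ^ (1 / 3 : ℝ))) :=
      hε.rpow_const (Or.inr (by norm_num))
    have hlim : Tendsto (fun N => (1 + t) * (C * (Q + (8 * D * δ N + 4 * δ N ^ 2)) ^ (1 / 3 : ℝ))
        + (1 + 1 / t) * (2 * ((∫ x, ‖(L N).T x - Tμ x‖ ^ 2 ∂ρ) + ∫ x, ‖(L' N).T x - Tν x‖ ^ 2 ∂ρ)))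
        atTop (𝓝 ((1 + t) * (C * Q ^ (1 / 3 : ℝ)) + (1 + 1 / t) * (2 * (0 + 0)))) :=
      (tendsto_const_nhds.mul (tendsto_const_nhds.mul hp)).add
        (tendsto_const_nhds.mul (tendsto_const_nhds.mul (hα.add hβ)))
    have := ge_of_tendsto' hlim (key t ht)
    simpa using this
  -- limit in t
  have hB0 : 0 ≤ C * Q ^ (1 / 3 : ℝ) := mul_nonneg hC0 (Real.rpow_nonneg hQ0 _)
  refine le_of_forall_pos_le_add fun ε hε => ?_
  by_cases hB : C * Q ^ (1 / 3 : ℝ) = 0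
  · have := lim1 1 one_pos
    rw [hB] at this ⊢
    linarith
  · have hBpos : 0 < C * Q ^ (1 / 3 : ℝ) := lt_of_le_of_ne hB0 (Ne.symm hB)
    have := lim1 (ε / (C * Q ^ (1 / 3 : ℝ))) (div_pos hε hBpos)
    have e : (1 + ε / (C * Q ^ (1 / 3 : ℝ))) * (C * Q ^ (1 / 3 : ℝ)) = C * Q ^ (1 / 3 : ℝ) + ε := by
      rw [add_mul, one_mul, div_mul_cancel₀ _ hB]
    linarith

theorem fin_lintegral_sq {α : Type} [MeasurableSpace α] {m : Measure α} {f : α → E d}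
    (hf : Integrable (fun x => ‖f x‖ ^ 2) m) :
    ∫⁻ x, ‖f x‖ₑ ^ 2 ∂m = ENNReal.ofReal (∫ x, ‖f x‖ ^ 2 ∂m) := by
  rw [ofReal_integral_eq_lintegral_ofReal hf (Eventually.of_forall fun x => by positivity)]
  refine lintegral_congr fun x => ?_
  rw [ENNReal.ofReal_pow (norm_nonneg _), ofReal_norm_eq_enorm]

/-- the statement of S0109 for a `Body`. -/
theorem fin_main {K : Set (E d)} {x0 : E d} {R : ℝ} (hK : Body K x0 R) (D : ℝ) (hD : 0 ≤ D) :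
    ∃ C : ℝ≥0, ∀ μ ν : Measure (E d), IsProbabilityMeasure μ → IsProbabilityMeasure ν →
      μ (Metric.closedBall 0 D)ᶜ = 0 → ν (Metric.closedBall 0 D)ᶜ = 0 →
      ∀ Tμ Tν : E d → E d,
        IsOptimalMap (uniformProbOn K) μ Tμ → IsOptimalMap (uniformProbOn K) ν Tν →
        ∀ π : Measure (E d × E d), IsPairCoupling μ ν π →
          ∫⁻ x, ‖Tμ x - Tν x‖ₑ ^ 2 ∂(uniformProbOn K) ≤ C * quadCost π ^ (1 / 3 : ℝ) := by
  obtain ⟨C, hC0, hC⟩ := discrete_thm hK (D + Real.sqrt d) (by positivity)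
  refine ⟨C.toNNReal, ?_⟩
  intro μ ν hμp hνp hμ hν Tμ Tν hTμ hTν π hπ
  have hρ : IsProbabilityMeasure (uniformProbOn K) := (source_uniform hK).prob
  have hcore := fin_core hK D hD C hC0 hC μ ν hμ hν Tμ Tν hTμ hTν π hπ
  have i1 : Integrable (fun x => ‖Tμ x - Tν x‖ ^ 2) (uniformProbOn K) :=
    fin_sq_integrable hTμ.1 hTν.1 (fin_ae_bound hTμ hμ) (fin_ae_bound hTν hν)
  have i2 := fin_cost_integrable hπ hμ hν
  have hQ0 : 0 ≤ ∫ z, ‖z.1 - z.2‖ ^ 2 ∂π := integral_nonneg fun z => by positivity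
  rw [fin_lintegral_sq (f := fun x => Tμ x - Tν x) i1]
  unfold quadCost
  rw [fin_lintegral_sq (f := fun z : E d × E d => z.1 - z.2) i2,
    ENNReal.ofReal_rpow_of_nonneg hQ0 (by norm_num)]
  have e : (C.toNNReal : ℝ≥0∞) = ENNReal.ofReal C := rfl
  rw [e, ← ENNReal.ofReal_mul hC0]
  exact ENNReal.ofReal_le_ofReal hcore

theorem fin_body {K : Set (E d)} (hKc : IsCompact K) (hKv : Convex ℝ K)
    (hKi : (interior K).Nonempty) : ∃ (x0 : E d) (R : ℝ), Body K x0 R := by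
  obtain ⟨x0, hx0⟩ := hKi
  obtain ⟨R, hR⟩ := hKc.isBounded.subset_closedBall x0
  exact ⟨x0, R, ⟨hKc, hKv, ⟨x0, hx0⟩, interior_subset hx0, hR⟩⟩

end

end Crest.Agent.R082
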