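import Crest.Agent.S0109_Defs

/-! Row 82 (S0109), module B: Laguerre potentials and cells, sources. -/

set_option autoImplicit false

namespace Crest.Agent.R082

open MeasureTheory Set Filter Topology
open scoped ENNReal NNReal InnerProductSpace
open Crest.AnalysisR.OT

noncomputable section

variable {d : ℕ} {ι κ I : Type}

section B
variable [Fintype ι] [Nonempty ι]

theorem le_lag (y : ι → E d) (c : ι → ℝ) (x : E d) (i : ι) : ⟪x, y i⟫_ℝ - c i ≤ lag y c x :=
  Finset.le_sup' (fun i => ⟪x, y i⟫_ℝ - c i) (Finset.mem_univ i)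

theorem lag_le_iff (y : ι → E d) (c : ι → ℝ) (x : E d) (a : ℝ) :
    lag y c x ≤ a ↔ ∀ i, ⟪x, y i⟫_ℝ - c i ≤ a := by
  unfold lag
  rw [Finset.sup'_le_iff]
  simp

theorem exists_lag_eq (y : ι → E d) (c : ι → ℝ) (x : E d) : ∃ i, lag y c x = ⟪x, y i⟫_ℝ - c i := by
  obtain ⟨i, -, hi⟩ := Finset.exists_mem_eq_sup' Finset.univ_nonempty (fun i => ⟪x, y i⟫_ℝ - c i)
  exact ⟨i, hi⟩

theorem mem_cell_iff (y : ι → E d) (c : ι → ℝ) (x : E d) (i : ι) :
    x ∈ cell y c i ↔ lag y c x = ⟪x, y i⟫_ℝ - c i := by
  constructor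
  · intro h
    exact le_antisymm ((lag_le_iff y c x _).2 h) (le_lag y c x i)
  · intro h j
    rw [← h]
    exact le_lag y c x j

theorem iUnion_cell (y : ι → E d) (c : ι → ℝ) : ⋃ i, cell y c i = univ := by
  apply eq_univ_of_forall
  intro x
  obtain ⟨i, hi⟩ := exists_lag_eq y c x
  exact mem_iUnion.2 ⟨i, (mem_cell_iff y c x i).2 hi⟩

omit [Fintype ι] [Nonempty ι] in
theorem isClosed_cell (y : ι → E d) (c : ι → ℝ) (i : ι) : IsClosed (cell y c i) := by
  unfold cell
  rw [ofPred_forall]
  apply isClosed_iInter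
  intro j
  apply isClosed_le <;> fun_prop

omit [Fintype ι] [Nonempty ι] in
theorem measurableSet_cell (y : ι → E d) (c : ι → ℝ) (i : ι) : MeasurableSet (cell y c i) :=
  (isClosed_cell y c i).measurableSet

omit [Fintype ι] [Nonempty ι] in
theorem convex_cell (y : ι → E d) (c : ι → ℝ) (i : ι) : Convex ℝ (cell y c i) := by
  intro x hx z hz a b ha hb hab j
  have h1 := hx j
  have h2 := hz j
  simp only [inner_add_left, inner_smul_left, conj_trivial]
  have e1 : c j = a * c j + b * c j := by rw [← add_mul, hab, one_mul]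
  have e2 : c i = a * c i + b * c i := by rw [← add_mul, hab, one_mul]
  rw [e1, e2]
  nlinarith [mul_le_mul_of_nonneg_left h1 ha, mul_le_mul_of_nonneg_left h2 hb]

omit [Fintype ι] [Nonempty ι] in
/-- midpoint property (W2). -/
theorem midpoint_mem_cell (y : ι → E d) (c c' : ι → ℝ) (i : ι) {x z : E d}
    (hx : x ∈ cell y c i) (hz : z ∈ cell y c' i) :
    (1 / 2 : ℝ) • (x + z) ∈ cell y (fun j => (c j + c' j) / 2) i := by
  intro j
  have h1 := hx j
  have h2 := hz j
  simp only [inner_smul_left, inner_add_left, conj_trivial]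
  linarith

theorem bas_hyperplane_null (v : E d) (hv : v ≠ 0) (r : ℝ) :
    volume {x : E d | ⟪x, v⟫_ℝ = r} = 0 := by
  set S : Submodule ℝ (E d) := LinearMap.ker (innerSL ℝ v).toLinearMap with hS
  have hStop : S ≠ ⊤ := by
    intro h
    have : v ∈ S := by rw [h]; trivial
    rw [hS, LinearMap.mem_ker] at this
    simp at this
    exact hv this
  have h0 : volume (S : Set (E d)) = 0 := Measure.addHaar_submodule volume S hStop
  set p : E d := (r / ‖v‖ ^ 2) • v with hp
  have hvv : ‖v‖ ^ 2 ≠ 0 := by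
    have : ‖v‖ ≠ 0 := norm_ne_zero_iff.2 hv
    positivity
  have hset : {x : E d | ⟪x, v⟫_ℝ = r} = (fun x => x + (-p)) ⁻¹' (S : Set (E d)) := by
    ext x
    simp only [mem_ofPred_eq, mem_preimage, SetLike.mem_coe, hS, LinearMap.mem_ker,
      ContinuousLinearMap.coe_coe, innerSL_apply_apply]
    rw [inner_add_right, inner_neg_right, hp, inner_smul_right, real_inner_self_eq_norm_sq,
      real_inner_comm]
    constructor
    · intro h; rw [h]; field_simp; ring
    · intro h
      have : r / ‖v‖ ^ 2 * ‖v‖ ^ 2 = r := by field_simp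
      linarith
  rw [hset, measure_preimage_add_right, h0]

omit [Fintype ι] [Nonempty ι] in
theorem cell_inter_null (y : ι → E d) (c : ι → ℝ) {i j : ι} (h : y i ≠ y j) :
    volume (cell y c i ∩ cell y c j) = 0 := by
  have hv : y i - y j ≠ 0 := sub_ne_zero.2 h
  apply measure_mono_null _ (bas_hyperplane_null (y i - y j) hv (c i - c j))
  intro x hx
  have h1 := hx.1 j
  have h2 := hx.2 i
  simp only [mem_ofPred_eq, inner_sub_right]
  linarith

theorem lag_subgrad (y : ι → E d) (c : ι → ℝ) {x : E d} {i : ι} (hx : x ∈ cell y c i) (x' : E d) :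
    lag y c x + ⟪y i, x' - x⟫_ℝ ≤ lag y c x' := by
  rw [(mem_cell_iff y c x i).1 hx]
  have := le_lag y c x' i
  rw [inner_sub_right, real_inner_comm x' (y i), real_inner_comm x (y i)]
  linarith

theorem continuous_lag (y : ι → E d) (c : ι → ℝ) : Continuous (lag y c) := by
  unfold lag
  apply Continuous.finset_sup'_apply
  intro i _
  fun_prop

theorem convexOn_lag (y : ι → E d) (c : ι → ℝ) : ConvexOn ℝ univ (lag y c) := by
  refine ⟨convex_univ, ?_⟩
  intro x _ z _ a b ha hb hab
  rw [lag_le_iff]
  intro i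
  have h1 := le_lag y c x i
  have h2 := le_lag y c z i
  simp only [inner_add_left, inner_smul_left, conj_trivial, smul_eq_mul]
  have e2 : c i = a * c i + b * c i := by rw [← add_mul, hab, one_mul]
  rw [e2]
  nlinarith [mul_le_mul_of_nonneg_left h1 ha, mul_le_mul_of_nonneg_left h2 hb]

theorem lipschitz_lag (y : ι → E d) (c : ι → ℝ) (D : ℝ≥0) (hD : ∀ i, ‖y i‖ ≤ D) :
    LipschitzWith D (lag y c) := by
  apply LipschitzWith.of_le_add_mul
  intro x z
  rw [lag_le_iff]
  intro i
  have h2 := le_lag y c z i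
  have h3 : ⟪x - z, y i⟫_ℝ ≤ D * dist x z := by
    calc ⟪x - z, y i⟫_ℝ ≤ ‖x - z‖ * ‖y i‖ := real_inner_le_norm _ _
      _ ≤ ‖x - z‖ * D := mul_le_mul_of_nonneg_left (hD i) (norm_nonneg _)
      _ = D * dist x z := by rw [dist_eq_norm, mul_comm]
  rw [inner_sub_left] at h3
  linarith

/-- `|lag y c x - lag y c' x| ≤ max |c - c'|`. -/
theorem abs_lag_sub_lag_le (y : ι → E d) (c c' : ι → ℝ) (a : ℝ) (h : ∀ i, |c i - c' i| ≤ a) (x : E d) :
    |lag y c x - lag y c' x| ≤ a := by
  rw [abs_le]
  constructor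
  · have : lag y c' x ≤ lag y c x + a := by
      rw [lag_le_iff]
      intro i
      have h1 := le_lag y c x i
      have h2 := (abs_le.1 (h i)).2
      linarith
    linarith
  · have : lag y c x ≤ lag y c' x + a := by
      rw [lag_le_iff]
      intro i
      have h1 := le_lag y c' x i
      have h2 := (abs_le.1 (h i)).1
      linarith
    linarith

theorem lag_add_const (y : ι → E d) (c : ι → ℝ) (t : ℝ) (x : E d) :
    lag y (fun i => c i + t) x = lag y c x - t := by
  apply le_antisymm
  · rw [lag_le_iff]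
    intro i
    have h1 := le_lag y c x i
    linarith
  · have : lag y c x ≤ lag y (fun i => c i + t) x + t := by
      rw [lag_le_iff]
      intro i
      have h1 : ⟪x, y i⟫_ℝ - (c i + t) ≤ lag y (fun i => c i + t) x :=
        le_lag y (fun i => c i + t) x i
      linarith
    linarith

omit [Fintype ι] [Nonempty ι] in
theorem cell_add_const (y : ι → E d) (c : ι → ℝ) (t : ℝ) (i : ι) :
    cell y (fun i => c i + t) i = cell y c i := by
  ext x
  simp only [cell, mem_ofPred_eq]
  constructor
  · intro h j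
    have := h j
    linarith
  · intro h j
    have := h j
    linarith

end B

/-! sources -/

theorem bas_vol_pos {K : Set (E d)} {x0 : E d} {R : ℝ} (hK : Body K x0 R) : 0 < volume K :=
  lt_of_lt_of_le (isOpen_interior.measure_pos volume hK.int) (measure_mono interior_subset)

theorem bas_vol_ne_zero {K : Set (E d)} {x0 : E d} {R : ℝ} (hK : Body K x0 R) : volume K ≠ 0 :=
  (bas_vol_pos hK).ne'

theorem bas_vol_ne_top {K : Set (E d)} {x0 : E d} {R : ℝ} (hK : Body K x0 R) : volume K ≠ ∞ :=
  hK.compact.measure_lt_top.ne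

theorem source_uniform {K : Set (E d)} {x0 : E d} {R : ℝ} (hK : Body K x0 R) :
    Source K (uniformProbOn K) := by
  refine ⟨⟨?_⟩, ?_, ?_⟩
  · simp only [uniformProbOn, Measure.smul_apply, Measure.restrict_apply MeasurableSet.univ,
      univ_inter, smul_eq_mul]
    exact ENNReal.inv_mul_cancel (bas_vol_ne_zero hK) (bas_vol_ne_top hK)
  · unfold uniformProbOn
    exact (Measure.smul_absolutelyContinuous).trans Measure.restrict_le_self.absolutelyContinuous
  · simp only [uniformProbOn, Measure.smul_apply, smul_eq_mul]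
    rw [Measure.restrict_apply hK.compact.measurableSet.compl]
    simp

theorem bas_one_add_nonneg {g : E d → ℝ} {G : ℝ} (hb : ∀ x, |g x| ≤ G) {s : ℝ}
    (hs : |s| * G ≤ 1 / 2) (x : E d) : 1 / 2 ≤ 1 + s * g x ∧ 1 + s * g x ≤ 3 / 2 := by
  have h1 : |s * g x| ≤ 1 / 2 := by
    rw [abs_mul]
    exact (mul_le_mul_of_nonneg_left (hb x) (abs_nonneg s)).trans hs
  have := abs_le.1 h1
  constructor <;> linarith [this.1, this.2]

/-- integrals against the tilted source. -/
theorem integral_tilt {K : Set (E d)} {x0 : E d} {R : ℝ} (hK : Body K x0 R) {g : E d → ℝ} {G : ℝ}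
    (hg : Pert K g G) {s : ℝ} (hs : |s| * G ≤ 1 / 2) {V : Type} [NormedAddCommGroup V] [NormedSpace ℝ V]
    (F : E d → V) :
    ∫ x, F x ∂(tilt K g s) = ∫ x, (1 + s * g x) • F x ∂(uniformProbOn K) := by
  unfold tilt
  rw [integral_withDensity_eq_integral_toReal_smul₀]
  · apply integral_congr_ae
    filter_upwards with x
    rw [ENNReal.toReal_ofReal (by linarith [(bas_one_add_nonneg hg.bdd hs x).1])]
  · exact (((hg.meas.const_mul s).const_add 1).ennreal_ofReal).aemeasurable
  · filter_upwards with x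
    exact ENNReal.ofReal_lt_top

theorem source_tilt {K : Set (E d)} {x0 : E d} {R : ℝ} (hK : Body K x0 R) {g : E d → ℝ} {G : ℝ}
    (hg : Pert K g G) {s : ℝ} (hs : |s| * G ≤ 1 / 2) : Source K (tilt K g s) := by
  have hU := source_uniform hK
  have := hU.prob
  have hgi : Integrable g (uniformProbOn K) :=
    Integrable.of_bound hg.meas.aestronglyMeasurable G (Eventually.of_forall fun x => by
      rw [Real.norm_eq_abs]; exact hg.bdd x)
  refine ⟨⟨?_⟩, ?_, ?_⟩
  · unfold tilt
    rw [withDensity_apply _ MeasurableSet.univ, Measure.restrict_univ,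
      ← ofReal_integral_eq_lintegral_ofReal]
    · rw [integral_add (integrable_const _) (hgi.const_mul s), integral_const_mul, hg.mean]
      simp
    · exact (integrable_const _).add (hgi.const_mul s)
    · filter_upwards with x
      have := (bas_one_add_nonneg hg.bdd hs x).1
      show (0 : ℝ) ≤ 1 + s * g x
      linarith
  · exact (withDensity_absolutelyContinuous _ _).trans hU.ac
  · exact withDensity_absolutelyContinuous _ _ hU.supp

/-- nonempty relatively open subsets of a body have positive mass. -/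
theorem uniform_pos_of_open {K : Set (E d)} {x0 : E d} {R : ℝ} (hK : Body K x0 R) {U : Set (E d)}
    (hU : IsOpen U) (hne : (U ∩ K).Nonempty) : 0 < uniformProbOn K U := by
  obtain ⟨x, hxU, hxK⟩ := hne
  -- `x ∈ K ⊆ closure (interior K)`
  have hcl : x ∈ closure (interior K) := by
    rw [hK.convex.closure_interior_eq_closure_of_nonempty_interior hK.int]
    exact subset_closure hxK
  obtain ⟨z, hzU, hzI⟩ := mem_closure_iff.1 hcl U hU hxU
  have hopen : IsOpen (U ∩ interior K) := hU.inter isOpen_interior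
  have hpos : 0 < volume (U ∩ interior K) := hopen.measure_pos volume ⟨z, hzU, hzI⟩
  simp only [uniformProbOn, Measure.smul_apply, smul_eq_mul]
  rw [Measure.restrict_apply hU.measurableSet]
  apply ENNReal.mul_pos
  · exact ENNReal.inv_ne_zero.2 (bas_vol_ne_top hK)
  · exact (lt_of_lt_of_le hpos (measure_mono (inter_subset_inter_right U interior_subset))).ne'

end

end Crest.Agent.R082
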