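import Mathlib
import Crest.Prelude.Def_QuadraticTransport

/-! Row 82 (S0109): common definitions.  Blueprint: `notes/R082_plan.md`; interface stubs: `S0109_Plan.lean`. -/

set_option autoImplicit false

namespace Crest.Agent.R082

open MeasureTheory Set
open scoped ENNReal NNReal InnerProductSpace
open Crest.AnalysisR.OT

noncomputable section

abbrev E (d : ℕ) := EuclideanSpace ℝ (Fin d)

variable {d : ℕ} {ι : Type}

/-- Laguerre (max-affine) potential `max_i (⟪x, y i⟫ - c i)`. -/
def lag [Fintype ι] [Nonempty ι] (y : ι → E d) (c : ι → ℝ) (x : E d) : ℝ :=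
  Finset.univ.sup' Finset.univ_nonempty fun i => ⟪x, y i⟫_ℝ - c i

/-- Laguerre cell of index `i` (closed, convex, NOT intersected with `K`). -/
def cell (y : ι → E d) (c : ι → ℝ) (i : ι) : Set (E d) :=
  {x | ∀ j, ⟪x, y j⟫_ℝ - c j ≤ ⟪x, y i⟫_ℝ - c i}

/-- the weights `c` give every cell its prescribed `σ`-mass. -/
def Balanced (σ : Measure (E d)) (y : ι → E d) (m c : ι → ℝ) : Prop :=
  ∀ i, σ (cell y c i) = ENNReal.ofReal (m i)

/-- Kantorovich functional. -/
def Kf [Fintype ι] [Nonempty ι] (σ : Measure (E d)) (y : ι → E d) (m c : ι → ℝ) : ℝ :=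
  ∫ x, lag y c x ∂σ + ∑ i, m i * c i

/-- optimal value (maximal correlation). -/
def Fval [Fintype ι] [Nonempty ι] (σ : Measure (E d)) (y : ι → E d) (m : ι → ℝ) : ℝ :=
  ⨅ c : ι → ℝ, Kf σ y m c

/-- barycentre of the cell `i` with respect to `σ`. -/
def bary (σ : Measure (E d)) (y : ι → E d) (m c : ι → ℝ) (i : ι) : E d :=
  (m i)⁻¹ • ∫ x in cell y c i, x ∂σ

/-- perturbed source `(1 + s g) ρ`. -/
def tilt (K : Set (E d)) (g : E d → ℝ) (s : ℝ) : Measure (E d) :=
  (uniformProbOn K).withDensity fun x => ENNReal.ofReal (1 + s * g x)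

/-- convex body inside `closedBall x0 R`. -/
structure Body (K : Set (E d)) (x0 : E d) (R : ℝ) : Prop where
  compact : IsCompact K
  convex : Convex ℝ K
  int : (interior K).Nonempty
  mem : x0 ∈ K
  sub : K ⊆ Metric.closedBall x0 R

/-- admissible source measure. -/
structure Source (K : Set (E d)) (σ : Measure (E d)) : Prop where
  prob : IsProbabilityMeasure σ
  ac : σ ≪ volume
  supp : σ Kᶜ = 0

/-- positive masses summing to one. -/
structure Weights [Fintype ι] (m : ι → ℝ) : Prop where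
  pos : ∀ i, 0 < m i
  sum : ∑ i, m i = 1

/-- admissible perturbation direction. -/
structure Pert (K : Set (E d)) (g : E d → ℝ) (G : ℝ) : Prop where
  meas : Measurable g
  bdd : ∀ x, |g x| ≤ G
  mean : ∫ x, g x ∂(uniformProbOn K) = 0

/-- `T` is an (a.e.) subgradient selection of `φ` on `K`. -/
def AESubgrad (K : Set (E d)) (φ : E d → ℝ) (T : E d → E d) : Prop :=
  ∀ᵐ x ∂(volume.restrict K), ∀ x' ∈ K, φ x + ⟪T x, x' - x⟫_ℝ ≤ φ x'

/-- all the data of a solved semi-discrete transport problem `ρ → μ`. -/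
structure LagData (K : Set (E d)) (μ : Measure (E d)) (D : ℝ) where
  ι : Type
  fin : Fintype ι
  ne : Nonempty ι
  p : ι → E d
  inj : Function.Injective p
  bound : ∀ i, ‖p i‖ ≤ D
  m : ι → ℝ
  wts : Weights m
  c : ι → ℝ
  bal : Balanced (uniformProbOn K) p m c
  hμ : μ = ∑ i, ENNReal.ofReal (m i) • Measure.dirac (p i)
  T : E d → E d
  Tmeas : Measurable T
  Tcell : ∀ x, ∃ i, x ∈ cell p c i ∧ T x = p i

attribute [instance] LagData.fin LagData.ne

/-- the potential of a `LagData`. -/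
def LagData.φ {K : Set (E d)} {μ : Measure (E d)} {D : ℝ} (L : LagData K μ D) : E d → ℝ :=
  lag L.p L.c

/-- coordinatewise rounding to the grid `(1/N)ℤ^d`. -/
def rnd (N : ℕ) (y : E d) : E d :=
  (WithLp.equiv 2 (Fin d → ℝ)).symm fun i => (⌊y i * N⌋ : ℝ) / N

end

end Crest.Agent.R082
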