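import Mathlib
import Crest.Prelude.Def_QuadraticTransport
import Crest.Agent.S0109_Defs
import Crest.Agent.S0109_Basic

/-!
Row 82 (S0109), module C of `notes/R082_plan.md`:
uniqueness (up to constants) of balanced Laguerre weights and continuity of
`s ↦ ∫ lag p c^s · g dρ` at `s = 0`.
Self-contained: own definitions `aff`, `lag`, `cell`; a bridge for any other definition of the
max-affine potential is given at the end (`IsGreatest` form).
-/

set_option autoImplicit false
set_option linter.unusedSectionVars false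
set_option linter.style.haveILetI false

namespace Crest.Agent.S0109C

open MeasureTheory Set Filter Topology

variable {E : Type*} [NormedAddCommGroup E] [InnerProductSpace ℝ E] [MeasurableSpace E]
  [BorelSpace E]
variable {ι : Type*} [Fintype ι] [Nonempty ι]

/-- the affine function `x ↦ ⟪x, p i⟫ - c i` -/
def aff (p : ι → E) (c : ι → ℝ) (i : ι) (x : E) : ℝ := inner ℝ x (p i) - c i

/-- max-affine (Laguerre) potential -/
noncomputable def lag (p : ι → E) (c : ι → ℝ) (x : E) : ℝ :=
  Finset.univ.sup' Finset.univ_nonempty (fun i => aff p c i x)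

/-- Laguerre cell -/
def cell (p : ι → E) (c : ι → ℝ) (i : ι) : Set E := {x | ∀ j, aff p c j x ≤ aff p c i x}

omit [MeasurableSpace E] [BorelSpace E] in
theorem aff_le_lag (p : ι → E) (c : ι → ℝ) (i : ι) (x : E) : aff p c i x ≤ lag p c x :=
  Finset.le_sup' (fun i => aff p c i x) (Finset.mem_univ i)

omit [MeasurableSpace E] [BorelSpace E] in
theorem exists_lag_eq (p : ι → E) (c : ι → ℝ) (x : E) : ∃ i, lag p c x = aff p c i x := by
  obtain ⟨i, -, hi⟩ := Finset.exists_mem_eq_sup' Finset.univ_nonempty (fun i => aff p c i x)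
  exact ⟨i, hi⟩

omit [MeasurableSpace E] [BorelSpace E] in
theorem lag_le_iff (p : ι → E) (c : ι → ℝ) (x : E) (a : ℝ) :
    lag p c x ≤ a ↔ ∀ i, aff p c i x ≤ a := by
  unfold lag
  simp [Finset.sup'_le_iff]

omit [MeasurableSpace E] [BorelSpace E] in
theorem mem_cell_iff (p : ι → E) (c : ι → ℝ) (i : ι) (x : E) :
    x ∈ cell p c i ↔ lag p c x = aff p c i x := by
  constructor
  · intro h
    exact le_antisymm ((lag_le_iff p c x _).2 h) (aff_le_lag p c i x)
  · intro h j
    rw [← h]; exact aff_le_lag p c j x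

omit [MeasurableSpace E] [BorelSpace E] in
theorem exists_mem_cell (p : ι → E) (c : ι → ℝ) (x : E) : ∃ i, x ∈ cell p c i := by
  obtain ⟨i, hi⟩ := exists_lag_eq p c x
  exact ⟨i, (mem_cell_iff p c i x).2 hi⟩

omit [MeasurableSpace E] [BorelSpace E] [Fintype ι] [Nonempty ι] in
theorem continuous_aff (p : ι → E) (c : ι → ℝ) (i : ι) : Continuous (aff p c i) := by
  unfold aff; fun_prop

omit [MeasurableSpace E] [BorelSpace E] in
theorem continuous_lag (p : ι → E) (c : ι → ℝ) : Continuous (lag p c) := by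
  unfold lag
  exact Continuous.finset_sup'_apply _ (fun i _ => continuous_aff p c i)

omit [MeasurableSpace E] [BorelSpace E] [Fintype ι] [Nonempty ι] in
theorem isClosed_cell (p : ι → E) (c : ι → ℝ) (i : ι) : IsClosed (cell p c i) := by
  have : cell p c i = ⋂ j, {x | aff p c j x ≤ aff p c i x} := by
    ext x; simp [cell]
  rw [this]
  exact isClosed_iInter fun j => isClosed_le (continuous_aff p c j) (continuous_aff p c i)

omit [Fintype ι] [Nonempty ι] in
theorem measurableSet_cell (p : ι → E) (c : ι → ℝ) (i : ι) : MeasurableSet (cell p c i) :=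
  (isClosed_cell p c i).measurableSet

omit [MeasurableSpace E] [BorelSpace E] in
theorem lag_le_lag_add (p : ι → E) (c c' : ι → ℝ) (δ : ℝ) (h : ∀ i, |c i - c' i| ≤ δ) (x : E) :
    lag p c x ≤ lag p c' x + δ := by
  obtain ⟨i, hi⟩ := exists_lag_eq p c x
  have h1 := aff_le_lag p c' i x
  have h2 := abs_le.1 (h i)
  rw [hi]
  unfold aff at *
  linarith [h2.1, h2.2]

omit [MeasurableSpace E] [BorelSpace E] in
theorem abs_lag_sub_le (p : ι → E) (c c' : ι → ℝ) (δ : ℝ) (h : ∀ i, |c i - c' i| ≤ δ) (x : E) :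
    |lag p c x - lag p c' x| ≤ δ := by
  have h1 := lag_le_lag_add p c c' δ h x
  have h2 := lag_le_lag_add p c' c δ (fun i => by rw [abs_sub_comm]; exact h i) x
  rw [abs_le]; constructor <;> linarith

omit [MeasurableSpace E] [BorelSpace E] in
theorem lag_add_const (p : ι → E) (c : ι → ℝ) (t : ℝ) (x : E) :
    lag p (fun i => c i + t) x = lag p c x - t := by
  apply le_antisymm
  · rw [lag_le_iff]; intro i
    have := aff_le_lag p c i x
    unfold aff at *; linarith
  · have : lag p c x ≤ lag p (fun i => c i + t) x + t := by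
      rw [lag_le_iff]; intro i
      have := aff_le_lag p (fun i => c i + t) i x
      unfold aff at *; linarith
    linarith

omit [MeasurableSpace E] [BorelSpace E] [Fintype ι] [Nonempty ι] in
theorem cell_add_const (p : ι → E) (c : ι → ℝ) (t : ℝ) (i : ι) :
    cell p (fun i => c i + t) i = cell p c i := by
  ext x
  simp only [cell, aff, Set.mem_ofPred_eq]
  constructor <;> intro h j <;> have := h j <;> linarith

/-- abstract properties of the source measure that are used -/
structure Src (ρ : Measure E) (K : Set E) : Prop where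
  prob : IsProbabilityMeasure ρ
  compact : IsCompact K
  null : ρ Kᶜ = 0
  pos : ∀ U : Set E, IsOpen U → (U ∩ K).Nonempty → 0 < ρ U
  conn : IsPreconnected K

section meas

variable {ρ : Measure E} {K : Set E}

omit [InnerProductSpace ℝ E] in
theorem Src.ae_mem (hρ : Src ρ K) : ∀ᵐ x ∂ρ, x ∈ K := by
  have := hρ.null
  rw [ae_iff]; exact this

theorem Src.integrable_of_continuous [SecondCountableTopology E] (hρ : Src ρ K) {f : E → ℝ}
    (hf : Continuous f) : Integrable f ρ := by
  haveI := hρ.prob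
  obtain ⟨C, hC⟩ := hρ.compact.exists_bound_of_continuousOn hf.continuousOn
  refine Integrable.of_bound hf.aestronglyMeasurable C ?_
  filter_upwards [hρ.ae_mem] with x hx using hC x hx

variable [SecondCountableTopology E]

theorem Src.integrable_lag (hρ : Src ρ K) (p : ι → E) (c : ι → ℝ) : Integrable (lag p c) ρ :=
  hρ.integrable_of_continuous (continuous_lag p c)

/-- the multiplicity function of the cells -/
noncomputable def mult (p : ι → E) (c : ι → ℝ) (x : E) : ℝ :=
  ∑ i, (cell p c i).indicator (fun _ => (1 : ℝ)) x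

omit [MeasurableSpace E] [BorelSpace E] [SecondCountableTopology E] in
theorem one_le_mult (p : ι → E) (c : ι → ℝ) (x : E) : 1 ≤ mult p c x := by
  obtain ⟨i, hi⟩ := exists_mem_cell p c x
  unfold mult
  calc (1 : ℝ) = (cell p c i).indicator (fun _ => (1 : ℝ)) x := by simp [hi]
    _ ≤ _ := Finset.single_le_sum (f := fun i => (cell p c i).indicator (fun _ => (1 : ℝ)) x)
        (fun j _ => indicator_nonneg (fun _ _ => zero_le_one) x) (Finset.mem_univ i)

omit [Nonempty ι] [SecondCountableTopology E] in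
theorem sum_setIntegral_eq (p : ι → E) (c : ι → ℝ) {F : E → ℝ} (hF : Integrable F ρ) :
    ∑ i, ∫ x in cell p c i, F x ∂ρ = ∫ x, mult p c x * F x ∂ρ := by
  have h1 : ∀ i, ∫ x in cell p c i, F x ∂ρ
      = ∫ x, (cell p c i).indicator (fun _ => (1 : ℝ)) x * F x ∂ρ := by
    intro i
    rw [← integral_indicator (measurableSet_cell p c i)]
    congr 1; ext x
    by_cases hx : x ∈ cell p c i <;> simp [hx]
  simp_rw [h1]
  rw [← integral_finsetSum]
  · congr 1; ext x
    unfold mult
    rw [Finset.sum_mul]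
  · intro i _
    have : (fun x => (cell p c i).indicator (fun _ => (1 : ℝ)) x * F x)
        = (cell p c i).indicator F := by
      ext x
      by_cases hx : x ∈ cell p c i <;> simp [hx]
    rw [this]
    exact hF.indicator (measurableSet_cell p c i)

/-- decomposition of an integral over the cells of a balanced weight vector -/
theorem decomp (hρ : Src ρ K) (p : ι → E) {ω : E → ℝ} {W : ℝ} (hωm : Measurable ω)
    (hω0 : ∀ x, 0 ≤ ω x) (hωb : ∀ x, ω x ≤ W) {c m : ι → ℝ}
    (hbal : ∀ i, ∫ x in cell p c i, ω x ∂ρ = m i) (hsum : ∑ i, m i = ∫ x, ω x ∂ρ)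
    {h : E → ℝ} (hh : Integrable h ρ) :
    ∫ x, h x * ω x ∂ρ = ∑ i, ∫ x in cell p c i, h x * ω x ∂ρ := by
  haveI := hρ.prob
  have hωi : Integrable ω ρ := by
    refine Integrable.of_bound hωm.aestronglyMeasurable W ?_
    filter_upwards with x
    rw [Real.norm_eq_abs, abs_of_nonneg (hω0 x)]; exact hωb x
  have hhω : Integrable (fun x => h x * ω x) ρ := by
    refine hh.mul_bdd (c := W) hωm.aestronglyMeasurable ?_
    filter_upwards with x
    rw [Real.norm_eq_abs, abs_of_nonneg (hω0 x)]; exact hωb x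
  have hmi : Integrable (fun x => mult p c x * ω x) ρ := by
    have : (fun x => mult p c x * ω x) = fun x => ∑ i, (cell p c i).indicator ω x := by
      ext x
      unfold mult
      rw [Finset.sum_mul]
      refine Finset.sum_congr rfl fun i _ => ?_
      by_cases hx : x ∈ cell p c i <;> simp [hx]
    rw [this]
    exact integrable_finsetSum _ fun i _ => hωi.indicator (measurableSet_cell p c i)
  have h0 : ∫ x, (mult p c x - 1) * ω x ∂ρ = 0 := by
    have e : (fun x => (mult p c x - 1) * ω x) = fun x => mult p c x * ω x - ω x := by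
      ext x; ring
    rw [e, integral_sub hmi hωi, ← sum_setIntegral_eq p c hωi]
    simp_rw [hbal]
    rw [hsum]; ring
  have h1 : (fun x => (mult p c x - 1) * ω x) =ᵐ[ρ] 0 := by
    rw [← integral_eq_zero_iff_of_nonneg]
    · exact h0
    · intro x
      exact mul_nonneg (by have := one_le_mult p c x; simp only; linarith) (hω0 x)
    · have e : (fun x => (mult p c x - 1) * ω x) = fun x => mult p c x * ω x - ω x := by
        ext x; ring
      rw [e]; exact hmi.sub hωi
  rw [sum_setIntegral_eq p c hhω]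
  apply integral_congr_ae
  filter_upwards [h1] with x hx
  have hx' : (mult p c x - 1) * ω x = 0 := hx
  have : mult p c x * (h x * ω x) - h x * ω x = h x * ((mult p c x - 1) * ω x) := by ring
  rw [hx'] at this
  linarith

/-- Kantorovich functional with weight `ω` -/
noncomputable def Kf (ρ : Measure E) (p : ι → E) (m : ι → ℝ) (ω : E → ℝ) (c : ι → ℝ) : ℝ :=
  ∫ x, lag p c x * ω x ∂ρ + ∑ i, m i * c i

/-- gap identity -/
theorem gap (hρ : Src ρ K) (p : ι → E) {ω : E → ℝ} {W : ℝ} (hωm : Measurable ω)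
    (hω0 : ∀ x, 0 ≤ ω x) (hωb : ∀ x, ω x ≤ W) {c m : ι → ℝ}
    (hbal : ∀ i, ∫ x in cell p c i, ω x ∂ρ = m i) (hsum : ∑ i, m i = ∫ x, ω x ∂ρ)
    (c' : ι → ℝ) :
    Kf ρ p m ω c' - Kf ρ p m ω c
      = ∑ i, ∫ x in cell p c i, (lag p c' x - aff p c' i x) * ω x ∂ρ := by
  haveI := hρ.prob
  have hbd : ∀ᵐ x ∂ρ, ‖ω x‖ ≤ W := by
    filter_upwards with x
    rw [Real.norm_eq_abs, abs_of_nonneg (hω0 x)]; exact hωb x
  have hωi : Integrable ω ρ := Integrable.of_bound hωm.aestronglyMeasurable W hbd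
  have i1 : Integrable (fun x => lag p c' x * ω x) ρ :=
    (hρ.integrable_lag p c').mul_bdd hωm.aestronglyMeasurable hbd
  have i2 : Integrable (fun x => lag p c x * ω x) ρ :=
    (hρ.integrable_lag p c).mul_bdd hωm.aestronglyMeasurable hbd
  have hd := decomp hρ p hωm hω0 hωb hbal hsum
    ((hρ.integrable_lag p c').sub (hρ.integrable_lag p c))
  have e1 : ∫ x, lag p c' x * ω x ∂ρ - ∫ x, lag p c x * ω x ∂ρ
      = ∑ i, ∫ x in cell p c i, (lag p c' x - lag p c x) * ω x ∂ρ := by
    simp only [Pi.sub_apply] at hd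
    rw [← integral_sub i1 i2, ← hd]
    congr 1; ext x; ring
  have e2 : ∀ i, ∫ x in cell p c i, (lag p c' x - lag p c x) * ω x ∂ρ
      = ∫ x in cell p c i, (lag p c' x - aff p c' i x) * ω x ∂ρ - (c' i - c i) * m i := by
    intro i
    have i3 : Integrable (fun x => (lag p c' x - aff p c' i x) * ω x) ρ :=
      ((hρ.integrable_lag p c').sub
        (hρ.integrable_of_continuous (continuous_aff p c' i))).mul_bdd
        hωm.aestronglyMeasurable hbd
    rw [← hbal i, ← integral_const_mul, ← integral_sub i3.integrableOn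
      (hωi.const_mul _).integrableOn]
    apply setIntegral_congr_fun (measurableSet_cell p c i)
    intro x hx
    have := (mem_cell_iff p c i x).1 hx
    simp only [this]
    unfold aff
    ring
  unfold Kf
  have e3 : (∫ x, lag p c' x * ω x ∂ρ + ∑ i, m i * c' i)
      - (∫ x, lag p c x * ω x ∂ρ + ∑ i, m i * c i)
      = (∫ x, lag p c' x * ω x ∂ρ - ∫ x, lag p c x * ω x ∂ρ) + ∑ i, (c' i - c i) * m i := by
    have : ∑ i, (c' i - c i) * m i = ∑ i, m i * c' i - ∑ i, m i * c i := by
      rw [← Finset.sum_sub_distrib]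
      exact Finset.sum_congr rfl fun i _ => by ring
    rw [this]; ring
  rw [e3, e1]
  simp_rw [e2]
  rw [Finset.sum_sub_distrib]; ring

/-- a balanced weight vector minimises the Kantorovich functional -/
theorem Kf_min (hρ : Src ρ K) (p : ι → E) {ω : E → ℝ} {W : ℝ} (hωm : Measurable ω)
    (hω0 : ∀ x, 0 ≤ ω x) (hωb : ∀ x, ω x ≤ W) {c m : ι → ℝ}
    (hbal : ∀ i, ∫ x in cell p c i, ω x ∂ρ = m i) (hsum : ∑ i, m i = ∫ x, ω x ∂ρ)
    (c' : ι → ℝ) : Kf ρ p m ω c ≤ Kf ρ p m ω c' := by
  have := gap hρ p hωm hω0 hωb hbal hsum c'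
  have h2 : 0 ≤ ∑ i, ∫ x in cell p c i, (lag p c' x - aff p c' i x) * ω x ∂ρ := by
    refine Finset.sum_nonneg fun i _ => integral_nonneg fun x => ?_
    exact mul_nonneg (sub_nonneg.2 (aff_le_lag p c' i x)) (hω0 x)
  linarith

/-- uniqueness up to a constant of the minimiser of the Kantorovich functional -/
theorem unique_of_Kf_le (hρ : Src ρ K) (p : ι → E) {c0 m : ι → ℝ} (hm : ∀ i, 0 < m i)
    (hbal : ∀ i, ∫ _x in cell p c0 i, (1 : ℝ) ∂ρ = m i) (hsum : ∑ i, m i = 1)
    {c' : ι → ℝ} (hle : Kf ρ p m (fun _ => 1) c' ≤ Kf ρ p m (fun _ => 1) c0) :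
    ∃ v : ℝ, ∀ i, c0 i - c' i = v := by
  haveI := hρ.prob
  have hg := gap hρ p (ω := fun _ => (1 : ℝ)) (W := 1) measurable_const (fun _ => zero_le_one)
    (fun _ => le_refl 1) hbal (by simp [hsum]) c'
  have hnn : ∀ i ∈ (Finset.univ : Finset ι),
      0 ≤ ∫ x in cell p c0 i, (lag p c' x - aff p c' i x) * (1 : ℝ) ∂ρ := by
    intro i _
    exact integral_nonneg fun x => mul_nonneg (sub_nonneg.2 (aff_le_lag p c' i x)) zero_le_one
  have hz : ∑ i, ∫ x in cell p c0 i, (lag p c' x - aff p c' i x) * (1 : ℝ) ∂ρ = 0 := by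
    apply le_antisymm _ (Finset.sum_nonneg hnn)
    rw [← hg]; linarith
  have hz' := (Finset.sum_eq_zero_iff_of_nonneg hnn).1 hz
  -- a.e. statement
  have hae : ∀ᵐ x ∂ρ, ∀ i, x ∈ cell p c0 i → lag p c' x = aff p c' i x := by
    rw [ae_all_iff]
    intro i
    have h1 := hz' i (Finset.mem_univ i)
    have i3 : Integrable (fun x => (lag p c' x - aff p c' i x) * (1 : ℝ)) ρ :=
      ((hρ.integrable_lag p c').sub
        (hρ.integrable_of_continuous (continuous_aff p c' i))).mul_const _
    rw [setIntegral_eq_zero_iff_of_nonneg_ae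
      (Eventually.of_forall fun x =>
        mul_nonneg (sub_nonneg.2 (aff_le_lag p c' i x)) zero_le_one) i3.integrableOn] at h1
    have h2 := (ae_restrict_iff' (measurableSet_cell p c0 i)).1 h1
    filter_upwards [h2] with x hx hxc
    have := hx hxc
    simp only [Pi.zero_apply, mul_one] at this
    linarith
  set f : E → ℝ := fun x => lag p c' x - lag p c0 x with hf
  have hfc : Continuous f := (continuous_lag p c').sub (continuous_lag p c0)
  have hval : ∀ x, (∀ i, x ∈ cell p c0 i → lag p c' x = aff p c' i x) →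
      ∀ i, x ∈ cell p c0 i → f x = c0 i - c' i := by
    intro x hx i hi
    have h1 := hx i hi
    have h2 := (mem_cell_iff p c0 i x).1 hi
    simp only [hf, h1, h2]
    unfold aff; ring
  set V : Set ℝ := Set.range (fun i => c0 i - c' i) with hV
  have hVfin : V.Finite := Set.finite_range _
  have hmaps : MapsTo f K V := by
    intro x hxK
    by_contra hxV
    have hU : IsOpen (f ⁻¹' Vᶜ) := hVfin.isClosed.isOpen_compl.preimage hfc
    have hpos := hρ.pos _ hU ⟨x, hxV, hxK⟩
    have hzero : ρ (f ⁻¹' Vᶜ) = 0 := by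
      rw [measure_eq_zero_iff_ae_notMem]
      filter_upwards [hae] with y hy hyU
      obtain ⟨i, hi⟩ := exists_mem_cell p c0 y
      exact hyU ⟨i, (hval y hy i hi).symm⟩
    rw [hzero] at hpos
    exact lt_irrefl _ hpos
  have hconst : ∀ x ∈ K, ∀ y ∈ K, f x = f y := fun x hx y hy =>
    hρ.conn.constant_of_mapsTo hVfin.isDiscrete hfc.continuousOn hmaps hx hy
  have hex : ∀ i, ∃ x ∈ K, f x = c0 i - c' i := by
    intro i
    by_contra hcon
    push Not at hcon
    have hzero : ρ (cell p c0 i) = 0 := by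
      rw [measure_eq_zero_iff_ae_notMem]
      filter_upwards [hae, hρ.ae_mem] with y hy hyK hyc
      exact hcon y hyK (hval y hy i hyc)
    have h1 := hbal i
    rw [setIntegral_const] at h1
    simp only [Measure.real, hzero, smul_eq_mul] at h1
    have := hm i
    simp at h1
    linarith
  obtain ⟨i0⟩ := ‹Nonempty ι›
  obtain ⟨x0, hx0, -⟩ := hex i0
  refine ⟨f x0, fun i => ?_⟩
  obtain ⟨x, hx, hxi⟩ := hex i
  rw [← hxi]; exact hconst x hx x0 hx0

/-- the pairing `c ↦ ∫ lag p c · g dρ` -/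
noncomputable def Tg (ρ : Measure E) (p : ι → E) (g : E → ℝ) (c : ι → ℝ) : ℝ :=
  ∫ x, lag p c x * g x ∂ρ

theorem integrable_lag_mul (hρ : Src ρ K) (p : ι → E) (c : ι → ℝ) {g : E → ℝ} {B : ℝ}
    (hgm : Measurable g) (hgb : ∀ x, |g x| ≤ B) : Integrable (fun x => lag p c x * g x) ρ :=
  (hρ.integrable_lag p c).mul_bdd (c := B) hgm.aestronglyMeasurable
    (Eventually.of_forall fun x => by rw [Real.norm_eq_abs]; exact hgb x)

theorem Tg_sub_le (hρ : Src ρ K) (p : ι → E) {g : E → ℝ} {B : ℝ}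
    (hgm : Measurable g) (hgb : ∀ x, |g x| ≤ B) (c c' : ι → ℝ) (δ : ℝ)
    (h : ∀ i, |c i - c' i| ≤ δ) : |Tg ρ p g c - Tg ρ p g c'| ≤ δ * B := by
  haveI := hρ.prob
  unfold Tg
  rw [← integral_sub (integrable_lag_mul hρ p c hgm hgb) (integrable_lag_mul hρ p c' hgm hgb)]
  have hδ : 0 ≤ δ := le_trans (abs_nonneg _) (h (Classical.arbitrary ι))
  have := norm_integral_le_of_norm_le_const (μ := ρ)
    (f := fun x => lag p c x * g x - lag p c' x * g x) (C := δ * B)
    (Eventually.of_forall fun x => by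
      rw [Real.norm_eq_abs, ← sub_mul, abs_mul]
      exact mul_le_mul (abs_lag_sub_le p c c' δ h x) (hgb x) (abs_nonneg _) hδ)
  simpa [Real.norm_eq_abs] using this

theorem continuous_Tg (hρ : Src ρ K) (p : ι → E) {g : E → ℝ} {B : ℝ}
    (hgm : Measurable g) (hgb : ∀ x, |g x| ≤ B) : Continuous (Tg ρ p g) := by
  have hB : 0 ≤ B := le_trans (abs_nonneg _) (hgb 0)
  have : LipschitzWith ⟨B, hB⟩ (Tg ρ p g) := by
    apply LipschitzWith.of_dist_le_mul
    intro c c'
    rw [Real.dist_eq]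
    have := Tg_sub_le hρ p hgm hgb c c' (dist c c') (fun i => by
      rw [← Real.dist_eq]; exact dist_le_pi_dist c c' i)
    rw [mul_comm] at this
    exact this
  exact this.continuous

theorem Tg_add_const (hρ : Src ρ K) (p : ι → E) {g : E → ℝ} {B : ℝ}
    (hgm : Measurable g) (hgb : ∀ x, |g x| ≤ B) (hg0 : ∫ x, g x ∂ρ = 0) (c : ι → ℝ) (t : ℝ) :
    Tg ρ p g (fun i => c i + t) = Tg ρ p g c := by
  haveI := hρ.prob
  have hgi : Integrable g ρ := Integrable.of_bound hgm.aestronglyMeasurable B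
    (Eventually.of_forall fun x => by rw [Real.norm_eq_abs]; exact hgb x)
  unfold Tg
  simp_rw [lag_add_const, sub_mul]
  rw [integral_sub (integrable_lag_mul hρ p c hgm hgb) (hgi.const_mul t), integral_const_mul, hg0]
  ring

theorem Kf_one_eq (ρ : Measure E) (p : ι → E) (m c : ι → ℝ) :
    Kf ρ p m (fun _ => 1) c = Tg ρ p (fun _ => 1) c + ∑ i, m i * c i := rfl

theorem continuous_Kf_one (hρ : Src ρ K) (p : ι → E) (m : ι → ℝ) :
    Continuous (Kf ρ p m (fun _ => 1)) := by
  have h1 : Continuous (Tg ρ p (fun _ => (1 : ℝ))) :=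
    continuous_Tg hρ p (B := 1) measurable_const (fun _ => by simp)
  have h2 : Continuous (fun c : ι → ℝ => ∑ i, m i * c i) := by fun_prop
  exact h1.add h2

theorem Kf_weight_eq (hρ : Src ρ K) (p : ι → E) (m c : ι → ℝ) {g : E → ℝ} {B : ℝ}
    (hgm : Measurable g) (hgb : ∀ x, |g x| ≤ B) (s : ℝ) :
    Kf ρ p m (fun x => 1 + s * g x) c = Kf ρ p m (fun _ => 1) c + s * Tg ρ p g c := by
  unfold Kf Tg
  have e : (fun x => lag p c x * (1 + s * g x))
      = fun x => lag p c x * 1 + s * (lag p c x * g x) := by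
    ext x; ring
  rw [e, integral_add ((hρ.integrable_lag p c).mul_const 1)
    ((integrable_lag_mul hρ p c hgm hgb).const_mul s), integral_const_mul]
  ring

/-- differences of balanced weights are bounded -/
theorem bal_bound (hρ : Src ρ K) (p : ι → E) {R : ℝ} (hR : ∀ x ∈ K, ‖x‖ ≤ R) {m : ι → ℝ}
    (hm : ∀ i, 0 < m i) {ω : E → ℝ} {c : ι → ℝ}
    (hbal : ∀ i, ∫ x in cell p c i, ω x ∂ρ = m i) (i j : ι) :
    c i - c j ≤ R * ∑ a, ∑ b, ‖p a - p b‖ := by
  have hne : ∃ x ∈ K, x ∈ cell p c i := by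
    by_contra hcon
    push Not at hcon
    have hzero : ρ (cell p c i) = 0 := by
      rw [measure_eq_zero_iff_ae_notMem]
      filter_upwards [hρ.ae_mem] with y hyK using hcon y hyK
    have h1 := hbal i
    rw [setIntegral_measure_zero _ hzero] at h1
    have := hm i
    linarith
  obtain ⟨x, hxK, hx⟩ := hne
  have h1 := hx j
  unfold aff at h1
  have h2 : inner ℝ x (p i) - inner ℝ x (p j) = inner ℝ x (p i - p j) := by
    rw [inner_sub_right]
  have h3 : inner ℝ x (p i - p j) ≤ ‖x‖ * ‖p i - p j‖ := real_inner_le_norm _ _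
  have hR0 : 0 ≤ R := le_trans (norm_nonneg _) (hR x hxK)
  have h4 : ‖p i - p j‖ ≤ ∑ a, ∑ b, ‖p a - p b‖ := by
    calc ‖p i - p j‖ ≤ ∑ b, ‖p i - p b‖ :=
          Finset.single_le_sum (f := fun b => ‖p i - p b‖) (fun _ _ => norm_nonneg _)
            (Finset.mem_univ j)
      _ ≤ _ := Finset.single_le_sum (f := fun a => ∑ b, ‖p a - p b‖)
            (fun _ _ => Finset.sum_nonneg fun _ _ => norm_nonneg _) (Finset.mem_univ i)
  have h5 : ‖x‖ * ‖p i - p j‖ ≤ R * ∑ a, ∑ b, ‖p a - p b‖ :=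
    mul_le_mul (hR x hxK) h4 (norm_nonneg _) hR0
  linarith

/-- **Module C, abstract ε-δ form.** -/
theorem cont_abstract (hρ : Src ρ K) (p : ι → E) {c0 m : ι → ℝ} (hm : ∀ i, 0 < m i)
    (hsum : ∑ i, m i = 1) (hbal : ∀ i, ∫ _x in cell p c0 i, (1 : ℝ) ∂ρ = m i)
    {g : E → ℝ} {B : ℝ} (hgm : Measurable g) (hgb : ∀ x, |g x| ≤ B) (hg0 : ∫ x, g x ∂ρ = 0)
    {ε : ℝ} (hε : 0 < ε) :
    ∃ δ > 0, ∀ s : ℝ, |s| < δ → ∀ c : ι → ℝ,
      (∀ i, ∫ x in cell p c i, (1 + s * g x) ∂ρ = m i) →
      |Tg ρ p g c - Tg ρ p g c0| < ε := by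
  haveI := hρ.prob
  have hB : 0 ≤ B := le_trans (abs_nonneg _) (hgb 0)
  have hgi : Integrable g ρ := Integrable.of_bound hgm.aestronglyMeasurable B
    (Eventually.of_forall fun x => by rw [Real.norm_eq_abs]; exact hgb x)
  by_contra hcon
  push Not at hcon
  have hδ : ∀ n : ℕ, 0 < 1 / (((n : ℝ) + 1) * (B + 1)) := fun n => by positivity
  choose s hs c hc hbig using fun n : ℕ => hcon _ (hδ n)
  obtain ⟨i0⟩ := ‹Nonempty ι›
  obtain ⟨R, hR⟩ := hρ.compact.isBounded.exists_norm_le
  set B0 : ℝ := R * ∑ a, ∑ b, ‖p a - p b‖ with hB0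
  -- smallness of s
  have hs1 : ∀ n, |s n| ≤ 1 / ((n : ℝ) + 1) := by
    intro n
    refine le_trans (hs n).le ?_
    apply one_div_le_one_div_of_le (by positivity)
    have : (0 : ℝ) ≤ (n : ℝ) + 1 := by positivity
    nlinarith
  have hs2 : ∀ n, |s n| * B ≤ 1 := by
    intro n
    have h1 : |s n| * (((n : ℝ) + 1) * (B + 1)) ≤ 1 := by
      have := (hs n).le
      rwa [le_div_iff₀ (by positivity)] at this
    have h2 : B ≤ ((n : ℝ) + 1) * (B + 1) := by
      have : (0 : ℝ) ≤ (n : ℝ) := by positivity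
      nlinarith
    exact le_trans (mul_le_mul_of_nonneg_left h2 (abs_nonneg _)) h1
  have hs0 : Tendsto s atTop (𝓝 0) := by
    apply squeeze_zero_norm (a := fun n : ℕ => 1 / ((n : ℝ) + 1))
    · intro n; rw [Real.norm_eq_abs]; exact hs1 n
    · exact tendsto_one_div_add_atTop_nhds_zero_nat
  -- normalisation
  set ch : ℕ → ι → ℝ := fun n i => c n i + (c0 i0 - c n i0) with hch
  have hchbal : ∀ n i, ∫ x in cell p (ch n) i, (1 + s n * g x) ∂ρ = m i := by
    intro n i
    rw [hch]
    simp only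
    rw [cell_add_const]
    exact hc n i
  have hchT : ∀ n, Tg ρ p g (ch n) = Tg ρ p g (c n) := fun n =>
    Tg_add_const hρ p hgm hgb hg0 (c n) _
  have hB0nn : 0 ≤ B0 := by
    have := bal_bound hρ p hR hm (hc 0) i0 i0
    simpa using this
  have hmem : ∀ n, ch n ∈ Metric.closedBall (fun _ : ι => c0 i0) B0 := by
    intro n
    rw [mem_closedBall_iff_norm, pi_norm_le_iff_of_nonneg hB0nn]
    intro i
    have h1 := bal_bound hρ p hR hm (hc n) i i0
    have h2 := bal_bound hρ p hR hm (hc n) i0 i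
    simp only [hch, Pi.sub_apply, Real.norm_eq_abs]
    rw [abs_le]; constructor <;> linarith
  obtain ⟨a, -, φ, hφ, hlim⟩ := (isCompact_closedBall (fun _ : ι => c0 i0) B0).tendsto_subseq hmem
  -- inequality for every n
  have hineq : ∀ n, Kf ρ p m (fun _ => 1) (ch n) + s n * Tg ρ p g (ch n)
      ≤ Kf ρ p m (fun _ => 1) c0 + s n * Tg ρ p g c0 := by
    intro n
    rw [← Kf_weight_eq hρ p m (ch n) hgm hgb, ← Kf_weight_eq hρ p m c0 hgm hgb]
    have hsg : ∀ x, |s n * g x| ≤ 1 := by
      intro x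
      rw [abs_mul]
      exact le_trans (mul_le_mul_of_nonneg_left (hgb x) (abs_nonneg _)) (hs2 n)
    refine Kf_min hρ p (W := 2) (by fun_prop) (fun x => ?_) (fun x => ?_) (hchbal n) ?_ c0
    · have := (abs_le.1 (hsg x)).1; linarith
    · have := (abs_le.1 (hsg x)).2; linarith
    · rw [integral_add (integrable_const _) (hgi.const_mul _), integral_const_mul, hg0, hsum]
      simp
  have hK := (continuous_Kf_one hρ p m).tendsto a |>.comp hlim
  have hT := (continuous_Tg hρ p hgm hgb).tendsto a |>.comp hlim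
  have hsφ : Tendsto (fun n => s (φ n)) atTop (𝓝 0) := hs0.comp hφ.tendsto_atTop
  have hle : Kf ρ p m (fun _ => 1) a ≤ Kf ρ p m (fun _ => 1) c0 := by
    have l1 : Tendsto (fun n => Kf ρ p m (fun _ => 1) (ch (φ n)) + s (φ n) * Tg ρ p g (ch (φ n)))
        atTop (𝓝 (Kf ρ p m (fun _ => 1) a + 0 * Tg ρ p g a)) := hK.add (hsφ.mul hT)
    have l2 : Tendsto (fun n => Kf ρ p m (fun _ => 1) c0 + s (φ n) * Tg ρ p g c0)
        atTop (𝓝 (Kf ρ p m (fun _ => 1) c0 + 0 * Tg ρ p g c0)) :=
      tendsto_const_nhds.add (hsφ.mul tendsto_const_nhds)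
    have := le_of_tendsto_of_tendsto' l1 l2 (fun n => hineq (φ n))
    simpa using this
  obtain ⟨v, hv⟩ := unique_of_Kf_le hρ p hm hbal hsum hle
  have ha0 : a i0 = c0 i0 := by
    have h1 : Tendsto (fun n => ch (φ n) i0) atTop (𝓝 (a i0)) :=
      ((continuous_apply i0).tendsto a).comp hlim
    have h2 : (fun n => ch (φ n) i0) = fun _ => c0 i0 := by
      ext n; simp [hch]
    rw [h2] at h1
    exact tendsto_nhds_unique h1 tendsto_const_nhds
  have hv0 : v = 0 := by rw [← hv i0, ha0]; ring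
  have hac : a = c0 := by
    ext i
    have := hv i
    rw [hv0] at this
    linarith
  rw [hac] at hT
  have hfin : Tendsto (fun n => |Tg ρ p g (ch (φ n)) - Tg ρ p g c0|) atTop (𝓝 0) := by
    have := (hT.sub_const (Tg ρ p g c0)).abs
    simpa using this
  have hge : ∀ n, ε ≤ |Tg ρ p g (ch (φ n)) - Tg ρ p g c0| := by
    intro n; rw [hchT]; exact hbig (φ n)
  have := ge_of_tendsto' hfin hge
  linarith

end meas

end Crest.Agent.S0109C

namespace Crest.Agent.R082

open MeasureTheory Set Filter Topology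
open scoped ENNReal NNReal InnerProductSpace
open Crest.AnalysisR.OT

variable {d : ℕ} {ι : Type}

theorem cont_src {K : Set (E d)} {x0 : E d} {R : ℝ} (hK : Body K x0 R) :
    S0109C.Src (uniformProbOn K) K where
  prob := (source_uniform hK).prob
  compact := hK.compact
  null := (source_uniform hK).supp
  pos := fun _ hU hne => uniform_pos_of_open hK hU hne
  conn := hK.convex.isPreconnected

theorem cont_lag_eq [Fintype ι] [Nonempty ι] (p : ι → E d) (c : ι → ℝ) :
    lag p c = S0109C.lag p c := rfl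

theorem cont_cell_eq (p : ι → E d) (c : ι → ℝ) (i : ι) :
    cell p c i = S0109C.cell p c i := rfl

theorem cont_bal_tilt {K : Set (E d)} {x0 : E d} {R : ℝ}
    (hK : Body K x0 R) (p : ι → E d) (m : ι → ℝ) (hm : ∀ i, 0 < m i)
    {g : E d → ℝ} {G : ℝ} (hg : Pert K g G) {s : ℝ} (hs : |s| * G ≤ 1 / 2) (c : ι → ℝ)
    (hc : Balanced (tilt K g s) p m c) (i : ι) :
    ∫ x in S0109C.cell p c i, (1 + s * g x) ∂(uniformProbOn K) = m i := by
  have := (source_uniform hK).prob
  have hgi : Integrable g (uniformProbOn K) :=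
    Integrable.of_bound hg.meas.aestronglyMeasurable G (Eventually.of_forall fun x => by
      rw [Real.norm_eq_abs]; exact hg.bdd x)
  have h1 := hc i
  unfold tilt at h1
  rw [withDensity_apply _ (measurableSet_cell p c i), ← ofReal_integral_eq_lintegral_ofReal] at h1
  · have hnn : 0 ≤ ∫ x in cell p c i, (1 + s * g x) ∂(uniformProbOn K) :=
      integral_nonneg fun x => by
        have := (bas_one_add_nonneg hg.bdd hs x).1
        show (0 : ℝ) ≤ 1 + s * g x
        linarith
    exact (ENNReal.ofReal_eq_ofReal_iff hnn (hm i).le).1 h1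
  · exact ((integrable_const _).add (hgi.const_mul s)).integrableOn
  · filter_upwards with x
    have := (bas_one_add_nonneg hg.bdd hs x).1
    show (0 : ℝ) ≤ 1 + s * g x
    linarith

theorem cont_bal_unif {K : Set (E d)} {x0 : E d} {R : ℝ}
    (hK : Body K x0 R) (p : ι → E d) (m : ι → ℝ) (hm : ∀ i, 0 < m i) (c : ι → ℝ)
    (hc : Balanced (uniformProbOn K) p m c) (i : ι) :
    ∫ _x in S0109C.cell p c i, (1 : ℝ) ∂(uniformProbOn K) = m i := by
  have := (source_uniform hK).prob
  have h1 := hc i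
  rw [setIntegral_const, smul_eq_mul, mul_one, Measure.real, ← cont_cell_eq, h1,
    ENNReal.toReal_ofReal (hm i).le]

theorem tendsto_integral_lag [Fintype ι] [Nonempty ι] {K : Set (E d)} {x0 : E d} {R : ℝ}
    (hK : Body K x0 R) (p : ι → E d) (hp : Function.Injective p) (m : ι → ℝ) (hm : Weights m)
    (c0 : ι → ℝ) (hc0 : Balanced (uniformProbOn K) p m c0) {g : E d → ℝ} {G : ℝ} (hg : Pert K g G)
    (cs : ℝ → ι → ℝ) (hcs : ∀ s, |s| * G ≤ 1 / 2 → Balanced (tilt K g s) p m (cs s)) :
    Tendsto (fun s => ∫ x, lag p (cs s) x * g x ∂(uniformProbOn K)) (𝓝 0)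
      (𝓝 (∫ x, lag p c0 x * g x ∂(uniformProbOn K))) := by
  have hG : 0 ≤ G := (abs_nonneg _).trans (hg.bdd x0)
  rw [Metric.tendsto_nhds_nhds]
  intro ε hε
  obtain ⟨δ, hδ, H⟩ := S0109C.cont_abstract (cont_src hK) p hm.pos hm.sum
    (cont_bal_unif hK p m hm.pos c0 hc0) hg.meas hg.bdd hg.mean hε
  refine ⟨min δ (1 / (2 * (G + 1))), lt_min hδ (by positivity), ?_⟩
  intro s hs
  rw [Real.dist_eq, sub_zero] at hs
  have hs1 : |s| < δ := lt_of_lt_of_le hs (min_le_left _ _)
  have hs2 : |s| < 1 / (2 * (G + 1)) := lt_of_lt_of_le hs (min_le_right _ _)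
  have hs3 : |s| * G ≤ 1 / 2 := by
    have h1 : |s| * (2 * (G + 1)) < 1 := by
      rwa [lt_div_iff₀ (by positivity)] at hs2
    nlinarith [abs_nonneg s]
  rw [Real.dist_eq]
  exact H s hs1 (cs s) (cont_bal_tilt hK p m hm.pos hg hs3 (cs s) (hcs s hs3))

end Crest.Agent.R082

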