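import Crest.Agent.S0109_Defs
import Crest.Agent.S0109_Basic

/-!
Row 82 (S0109), module B4: weak / strong duality with grouping, `Fval` API, barycentres lie in the ball.
-/

set_option autoImplicit false

namespace Crest.Agent.R082

open MeasureTheory Set
open scoped ENNReal NNReal InnerProductSpace
open Crest.AnalysisR.OT

noncomputable section

variable {d : ℕ} {ι I : Type}

lemma dua_ae_mem {K : Set (E d)} {σ : Measure (E d)} (hσ : Source K σ) : ∀ᵐ x ∂σ, x ∈ K := by
  rw [ae_iff]; exact hσ.supp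

lemma dua_integrable {V : Type*} [NormedAddCommGroup V] {K : Set (E d)} (hKc : IsCompact K)
    {σ : Measure (E d)} (hσ : Source K σ) {f : E d → V} (hf : Continuous f) : Integrable f σ := by
  haveI := hσ.prob
  have h1 : IntegrableOn f K σ := hf.continuousOn.integrableOn_compact hKc
  have h2 : σ.restrict K = σ := Measure.restrict_eq_self_of_ae_mem (dua_ae_mem hσ)
  rwa [IntegrableOn, h2] at h1

lemma dua_real_cell {σ : Measure (E d)} {p : ι → E d} {m c : ι → ℝ} (hm : ∀ i, 0 < m i)
    (hc : Balanced σ p m c) (i : ι) : σ.real (cell p c i) = m i := by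
  unfold Measure.real
  rw [hc i, ENNReal.toReal_ofReal (hm i).le]

lemma dua_sum_cells [Fintype ι] [Nonempty ι] {V : Type*} [NormedAddCommGroup V] [NormedSpace ℝ V]
    {K : Set (E d)} {σ : Measure (E d)} (hσ : Source K σ)
    (p : ι → E d) (hp : Function.Injective p) (c : ι → ℝ) {f : E d → V} (hf : Integrable f σ) :
    ∫ x, f x ∂σ = ∑ i, ∫ x in cell p c i, f x ∂σ := by
  have hd : Pairwise (Function.onFun (AEDisjoint σ) (fun i => cell p c i)) := by
    intro i j hij
    exact hσ.ac (cell_inter_null p c (fun h => hij (hp h)))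
  have := integral_iUnion_ae (μ := σ) (f := f) (s := fun i => cell p c i)
    (fun i => (measurableSet_cell p c i).nullMeasurableSet) hd (by rw [iUnion_cell]; exact hf.integrableOn)
  rw [iUnion_cell, tsum_fintype, setIntegral_univ] at this
  exact this

lemma dua_int_id {K : Set (E d)} (hKc : IsCompact K) {σ : Measure (E d)} (hσ : Source K σ) :
    Integrable (fun x : E d => x) σ := dua_integrable hKc hσ continuous_id

lemma dua_cell_inner {K : Set (E d)} (hKc : IsCompact K) {σ : Measure (E d)} (hσ : Source K σ)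
    (S : Set (E d)) (v : E d) : ∫ x in S, ⟪x, v⟫_ℝ ∂σ = ⟪∫ x in S, x ∂σ, v⟫_ℝ := by
  have h := integral_inner (μ := σ.restrict S) (𝕜 := ℝ) (dua_int_id hKc hσ).integrableOn v
  rw [real_inner_comm, ← h]
  simp only [real_inner_comm]

lemma dua_smul_bary {σ : Measure (E d)} {p : ι → E d} {m c : ι → ℝ} (hm : ∀ i, 0 < m i) (i : ι) :
    ∫ x in cell p c i, x ∂σ = m i • bary σ p m c i := by
  unfold bary
  rw [smul_smul, mul_inv_cancel₀ (hm i).ne', one_smul]

section B4
variable [Fintype ι] [Nonempty ι] [Fintype I] [Nonempty I] [DecidableEq ι]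

theorem weak_duality {K : Set (E d)} {x0 : E d} {R : ℝ} (hK : Body K x0 R)
    {σ : Measure (E d)} (hσ : Source K σ) (e : I → ι) (p : ι → E d) (hp : Function.Injective p)
    (π : I → ℝ) (hπ : ∀ k, 0 < π k) (m : ι → ℝ) (hm : Weights m)
    (hme : ∀ i, m i = ∑ k with e k = i, π k)
    (c : ι → ℝ) (hc : Balanced σ p m c) (y' : I → E d) (c' : I → ℝ) :
    ∑ k, π k * ⟪bary σ p m c (e k), y' k⟫_ℝ ≤ Kf σ y' π c' := by
  haveI := hσ.prob
  have hKc := hK.compact
  have hlag : Integrable (lag y' c') σ := dua_integrable hKc hσ (continuous_lag y' c')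
  -- per cell
  have hcell : ∀ i, ∑ k with e k = i, π k * (⟪bary σ p m c i, y' k⟫_ℝ - c' k)
      ≤ ∫ x in cell p c i, lag y' c' x ∂σ := by
    intro i
    have hpt : ∀ x, ∑ k with e k = i, π k * (⟪x, y' k⟫_ℝ - c' k) ≤ m i * lag y' c' x := by
      intro x
      rw [hme i, Finset.sum_mul]
      apply Finset.sum_le_sum
      intro k _
      exact mul_le_mul_of_nonneg_left (le_lag y' c' x k) (hπ k).le
    have hint : ∀ k, IntegrableOn (fun x => π k * (⟪x, y' k⟫_ℝ - c' k)) (cell p c i) σ := fun k =>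
      (dua_integrable hKc hσ (by fun_prop)).integrableOn
    have h1 : ∫ x in cell p c i, ∑ k with e k = i, π k * (⟪x, y' k⟫_ℝ - c' k) ∂σ
        ≤ ∫ x in cell p c i, m i * lag y' c' x ∂σ :=
      integral_mono (integrable_finset_sum _ fun k _ => hint k) (hlag.integrableOn.const_mul _) hpt
    rw [integral_finset_sum _ fun k _ => hint k, integral_const_mul] at h1
    have h2 : ∀ k, ∫ x in cell p c i, π k * (⟪x, y' k⟫_ℝ - c' k) ∂σ
        = m i * (π k * (⟪bary σ p m c i, y' k⟫_ℝ - c' k)) := by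
      intro k
      have hi1 : IntegrableOn (fun x => ⟪x, y' k⟫_ℝ) (cell p c i) σ :=
        (dua_integrable hKc hσ (by fun_prop)).integrableOn
      have hi2 : IntegrableOn (fun _ : E d => c' k) (cell p c i) σ := integrableOn_const (measure_ne_top _ _)
      rw [integral_const_mul, integral_sub hi1 hi2, dua_cell_inner hKc hσ, dua_smul_bary hm.pos,
        setIntegral_const, dua_real_cell hm.pos hc, inner_smul_left, smul_eq_mul]
      simp only [conj_trivial]
      ring
    simp only [h2] at h1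
    rw [← Finset.mul_sum] at h1
    exact le_of_mul_le_mul_left h1 (hm.pos i)
  unfold Kf
  rw [dua_sum_cells hσ p hp c hlag]
  have hsum : ∑ i, ∑ k with e k = i, π k * (⟪bary σ p m c i, y' k⟫_ℝ - c' k)
      = ∑ k, π k * (⟪bary σ p m c (e k), y' k⟫_ℝ - c' k) := by
    rw [← Finset.sum_fiberwise Finset.univ e]
    apply Finset.sum_congr rfl
    intro i _
    apply Finset.sum_congr rfl
    intro k hk
    rw [(Finset.mem_filter.1 hk).2]
  have h3 := Finset.sum_le_sum (fun i (_ : i ∈ Finset.univ) => hcell i)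
  rw [hsum] at h3
  have h4 : ∑ k, π k * (⟪bary σ p m c (e k), y' k⟫_ℝ - c' k)
      = ∑ k, π k * ⟪bary σ p m c (e k), y' k⟫_ℝ - ∑ k, π k * c' k := by
    rw [← Finset.sum_sub_distrib]; apply Finset.sum_congr rfl; intro k _; ring
  linarith

theorem Fval_le_Kf {K : Set (E d)} {x0 : E d} {R : ℝ} (hK : Body K x0 R)
    {σ : Measure (E d)} (hσ : Source K σ) (π : I → ℝ) (hπ : Weights π) (y : I → E d) (c : I → ℝ) :
    Fval σ y π ≤ Kf σ y π c := by
  haveI := hσ.prob
  have hKc := hK.compact
  unfold Fval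
  apply ciInf_le
  refine ⟨∑ k, π k * ⟪∫ x, x ∂σ, y k⟫_ℝ, ?_⟩
  rintro _ ⟨c, rfl⟩
  simp only
  unfold Kf
  have hlag : Integrable (lag y c) σ := dua_integrable hKc hσ (continuous_lag y c)
  have hpt : ∀ x, ∑ k, π k * (⟪x, y k⟫_ℝ - c k) ≤ lag y c x := by
    intro x
    have : lag y c x = ∑ k, π k * lag y c x := by rw [← Finset.sum_mul, hπ.sum, one_mul]
    rw [this]
    apply Finset.sum_le_sum
    intro k _
    exact mul_le_mul_of_nonneg_left (le_lag y c x k) (hπ.pos k).le
  have hint : ∀ k, Integrable (fun x => π k * (⟪x, y k⟫_ℝ - c k)) σ := fun k =>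
    dua_integrable hKc hσ (by fun_prop)
  have h1 : ∫ x, ∑ k, π k * (⟪x, y k⟫_ℝ - c k) ∂σ ≤ ∫ x, lag y c x ∂σ :=
    integral_mono (integrable_finset_sum _ fun k _ => hint k) hlag hpt
  rw [integral_finset_sum _ fun k _ => hint k] at h1
  have h2 : ∀ k, ∫ x, π k * (⟪x, y k⟫_ℝ - c k) ∂σ = π k * ⟪∫ x, x ∂σ, y k⟫_ℝ - π k * c k := by
    intro k
    have hi1 : Integrable (fun x => ⟪x, y k⟫_ℝ) σ := dua_integrable hKc hσ (by fun_prop)
    have hi2 : Integrable (fun _ : E d => c k) σ := integrable_const _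
    have h := dua_cell_inner hKc hσ univ (y k)
    rw [setIntegral_univ, setIntegral_univ] at h
    rw [integral_const_mul, integral_sub hi1 hi2, h, integral_const]
    simp
    ring
  simp only [h2] at h1
  rw [Finset.sum_sub_distrib] at h1
  linarith

theorem le_Fval {K : Set (E d)} {x0 : E d} {R : ℝ} (hK : Body K x0 R)
    {σ : Measure (E d)} (hσ : Source K σ) (π : I → ℝ) (hπ : Weights π) (y : I → E d) (a : ℝ)
    (h : ∀ c, a ≤ Kf σ y π c) : a ≤ Fval σ y π := le_ciInf h

theorem strong_duality {K : Set (E d)} {x0 : E d} {R : ℝ} (hK : Body K x0 R)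
    {σ : Measure (E d)} (hσ : Source K σ) (e : I → ι) (p : ι → E d) (hp : Function.Injective p)
    (π : I → ℝ) (hπ : ∀ k, 0 < π k) (m : ι → ℝ) (hm : Weights m)
    (hme : ∀ i, m i = ∑ k with e k = i, π k)
    (c : ι → ℝ) (hc : Balanced σ p m c) :
    Kf σ (p ∘ e) π (c ∘ e) = ∑ k, π k * ⟪bary σ p m c (e k), p (e k)⟫_ℝ ∧
    Fval σ (p ∘ e) π = Kf σ (p ∘ e) π (c ∘ e) ∧
    (∀ x, lag (p ∘ e) (c ∘ e) x = lag p c x) := by
  haveI := hσ.prob
  have hKc := hK.compact
  have hsurj : Function.Surjective e := by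
    intro i
    by_contra hne
    rw [not_exists] at hne
    have : ∑ k with e k = i, π k = 0 := by
      apply Finset.sum_eq_zero
      intro k hk
      exact absurd (Finset.mem_filter.1 hk).2 (hne k)
    have h2 := hm.pos i
    rw [hme i, this] at h2
    exact lt_irrefl _ h2
  have hlageq : ∀ x, lag (p ∘ e) (c ∘ e) x = lag p c x := by
    intro x
    apply le_antisymm
    · rw [lag_le_iff]; intro k; exact le_lag p c x (e k)
    · rw [lag_le_iff]; intro i
      obtain ⟨k, rfl⟩ := hsurj i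
      exact le_lag (p ∘ e) (c ∘ e) x k
  have hπsum : Weights π := by
    refine ⟨hπ, ?_⟩
    rw [← Finset.sum_fiberwise Finset.univ e, ← hm.sum]
    apply Finset.sum_congr rfl
    intro i _
    exact (hme i).symm
  have hfib : ∀ F : ι → ℝ, ∑ k, π k * F (e k) = ∑ i, m i * F i := by
    intro F
    rw [← Finset.sum_fiberwise Finset.univ e]
    apply Finset.sum_congr rfl
    intro i _
    rw [hme i, Finset.sum_mul]
    apply Finset.sum_congr rfl
    intro k hk
    rw [(Finset.mem_filter.1 hk).2]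
  have hK1 : Kf σ (p ∘ e) π (c ∘ e) = ∑ k, π k * ⟪bary σ p m c (e k), p (e k)⟫_ℝ := by
    unfold Kf
    simp only [hlageq, Function.comp]
    have hlag : Integrable (lag p c) σ := dua_integrable hKc hσ (continuous_lag p c)
    rw [dua_sum_cells hσ p hp c hlag, hfib (fun i => c i), hfib (fun i => ⟪bary σ p m c i, p i⟫_ℝ),
      ← Finset.sum_add_distrib]
    apply Finset.sum_congr rfl
    intro i _
    have h1 : ∫ x in cell p c i, lag p c x ∂σ = ∫ x in cell p c i, (⟪x, p i⟫_ℝ - c i) ∂σ := by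
      apply setIntegral_congr_fun (measurableSet_cell p c i)
      intro x hx
      exact (mem_cell_iff p c x i).1 hx
    have hi1 : IntegrableOn (fun x => ⟪x, p i⟫_ℝ) (cell p c i) σ :=
      (dua_integrable hKc hσ (by fun_prop)).integrableOn
    have hi2 : IntegrableOn (fun _ : E d => c i) (cell p c i) σ := integrableOn_const (measure_ne_top _ _)
    rw [h1, integral_sub hi1 hi2, dua_cell_inner hKc hσ, dua_smul_bary hm.pos,
      setIntegral_const, dua_real_cell hm.pos hc, inner_smul_left, smul_eq_mul]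
    simp only [conj_trivial]
    ring
  refine ⟨hK1, ?_, hlageq⟩
  apply le_antisymm
  · exact Fval_le_Kf hK hσ π hπsum _ _
  · apply le_Fval hK hσ π hπsum
    intro c'
    rw [hK1]
    exact weak_duality hK hσ e p hp π hπ m hm hme c hc (p ∘ e) c'

theorem bary_mem_ball {K : Set (E d)} {x0 : E d} {R : ℝ} (hK : Body K x0 R)
    {σ : Measure (E d)} (hσ : Source K σ) (p : ι → E d) (m : ι → ℝ) (hm : Weights m)
    (c : ι → ℝ) (hc : Balanced σ p m c) (i : ι) : ‖bary σ p m c i - x0‖ ≤ R := by
  haveI := hσ.prob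
  have hKc := hK.compact
  have hi1 : IntegrableOn (fun x : E d => x) (cell p c i) σ := (dua_int_id hKc hσ).integrableOn
  have hi2 : IntegrableOn (fun _ : E d => x0) (cell p c i) σ := integrableOn_const (measure_ne_top _ _)
  have e1 : bary σ p m c i - x0 = (m i)⁻¹ • ∫ x in cell p c i, (x - x0) ∂σ := by
    rw [integral_sub hi1 hi2, setIntegral_const, dua_real_cell hm.pos hc, smul_sub, smul_smul,
      inv_mul_cancel₀ (hm.pos i).ne', one_smul]
    rfl
  have h2 : ‖∫ x in cell p c i, (x - x0) ∂σ‖ ≤ R * σ.real (cell p c i) := by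
    apply norm_setIntegral_le_of_norm_le_const_ae (measure_lt_top _ _)
    apply ae_restrict_of_ae
    filter_upwards [dua_ae_mem hσ] with x hx
    simpa [dist_eq_norm] using hK.sub hx
  rw [dua_real_cell hm.pos hc] at h2
  rw [e1, norm_smul, norm_inv, Real.norm_of_nonneg (hm.pos i).le]
  calc (m i)⁻¹ * ‖∫ x in cell p c i, (x - x0) ∂σ‖ ≤ (m i)⁻¹ * (R * m i) :=
        mul_le_mul_of_nonneg_left h2 (inv_nonneg.2 (hm.pos i).le)
    _ = R := by have := (hm.pos i).ne'; field_simp

end B4

end

end Crest.Agent.R082
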