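import Crest.Agent.S0109_Basic

/-! Row 82 (S0109), module B3: existence of balanced weights (minimise the Kantorovich functional). -/

set_option autoImplicit false

namespace Crest.Agent.R082

open MeasureTheory Set Filter Topology
open scoped ENNReal NNReal InnerProductSpace
open Crest.AnalysisR.OT

noncomputable section

variable {d : ℕ} {ι : Type}

theorem exi_ae_mem {K : Set (E d)} {σ : Measure (E d)} (hσ : Source K σ) : ∀ᵐ x ∂σ, x ∈ K := by
  rw [ae_iff]; exact hσ.supp

theorem exi_integrable {K : Set (E d)} {x0 : E d} {R : ℝ} (hK : Body K x0 R)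
    {σ : Measure (E d)} (hσ : Source K σ) {f : E d → ℝ} (hf : Continuous f) : Integrable f σ := by
  have := hσ.prob
  obtain ⟨B, hB⟩ := hK.compact.exists_bound_of_continuousOn hf.continuousOn
  exact Integrable.of_bound hf.aestronglyMeasurable B ((exi_ae_mem hσ).mono fun x hx => hB x hx)

variable [Fintype ι] [Nonempty ι]

theorem exi_integrable_lag {K : Set (E d)} {x0 : E d} {R : ℝ} (hK : Body K x0 R)
    {σ : Measure (E d)} (hσ : Source K σ) (y : ι → E d) (c : ι → ℝ) : Integrable (lag y c) σ :=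
  exi_integrable hK hσ (continuous_lag y c)

theorem exi_Kf_add_const {K : Set (E d)} {x0 : E d} {R : ℝ} (hK : Body K x0 R)
    {σ : Measure (E d)} (hσ : Source K σ) (y : ι → E d) (m : ι → ℝ) (hm : Weights m)
    (c : ι → ℝ) (t : ℝ) : Kf σ y m (fun i => c i + t) = Kf σ y m c := by
  have := hσ.prob
  unfold Kf
  simp only [lag_add_const]
  rw [integral_sub (exi_integrable_lag hK hσ y c) (integrable_const _)]
  simp only [integral_const, probReal_univ, smul_eq_mul, one_mul, mul_add, Finset.sum_add_distrib,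
    ← Finset.sum_mul, hm.sum]
  ring

omit [Nonempty ι] in
theorem exi_inner_bound {K : Set (E d)} {x0 : E d} {R : ℝ} (hK : Body K x0 R) (y : ι → E d) :
    ∃ A : ℝ, ∀ x ∈ K, ∀ i, |⟪x, y i⟫_ℝ| ≤ A := by
  refine ⟨(‖x0‖ + R) * ∑ i, ‖y i‖, fun x hx i => ?_⟩
  have h1 : ‖x‖ ≤ ‖x0‖ + R := by
    have := hK.sub hx
    rw [mem_closedBall_iff_norm] at this
    calc ‖x‖ = ‖x0 + (x - x0)‖ := by congr 1; abel
      _ ≤ ‖x0‖ + ‖x - x0‖ := norm_add_le _ _
      _ ≤ _ := by linarith
  calc |⟪x, y i⟫_ℝ| ≤ ‖x‖ * ‖y i‖ := abs_real_inner_le_norm _ _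
    _ ≤ (‖x0‖ + R) * ∑ i, ‖y i‖ := by
      apply mul_le_mul h1 (Finset.single_le_sum (f := fun i => ‖y i‖) (fun _ _ => norm_nonneg _)
        (Finset.mem_univ i)) (norm_nonneg _) (le_trans (norm_nonneg _) h1)

theorem exi_Kf_lower {K : Set (E d)} {x0 : E d} {R : ℝ} (hK : Body K x0 R)
    {σ : Measure (E d)} (hσ : Source K σ) (y : ι → E d) (m : ι → ℝ) (hm : Weights m)
    {A : ℝ} (hA : ∀ x ∈ K, ∀ i, |⟪x, y i⟫_ℝ| ≤ A) (c : ι → ℝ) (i0 : ι) (hi0 : ∀ j, c i0 ≤ c j)
    (k : ι) : -A + m k * (c k - c i0) ≤ Kf σ y m c := by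
  have := hσ.prob
  have h1 : -A - c i0 ≤ ∫ x, lag y c x ∂σ := by
    have : ∫ _x, (-A - c i0) ∂σ ≤ ∫ x, lag y c x ∂σ := by
      apply integral_mono_ae (integrable_const _) (exi_integrable_lag hK hσ y c)
      filter_upwards [exi_ae_mem hσ] with x hx
      have := le_lag y c x i0
      have := (abs_le.1 (hA x hx i0)).1
      linarith
    simpa using this
  have h2 : m k * (c k - c i0) + c i0 ≤ ∑ i, m i * c i := by
    have e : ∑ i, m i * c i = ∑ i, m i * (c i - c i0) + c i0 := by
      simp only [mul_sub, Finset.sum_sub_distrib, ← Finset.sum_mul, hm.sum]; ring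
    rw [e]
    have := Finset.single_le_sum (f := fun i => m i * (c i - c i0))
      (fun i _ => mul_nonneg (hm.pos i).le (sub_nonneg.2 (hi0 i))) (Finset.mem_univ k)
    linarith
  unfold Kf; linarith

theorem exi_continuous_Kf {K : Set (E d)} {x0 : E d} {R : ℝ} (hK : Body K x0 R)
    {σ : Measure (E d)} (hσ : Source K σ) (y : ι → E d) (m : ι → ℝ) :
    Continuous (fun c => Kf σ y m c) := by
  have := hσ.prob
  unfold Kf
  apply Continuous.add
  · apply LipschitzWith.continuous (K := 1)
    apply LipschitzWith.of_dist_le_mul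
    intro c c'
    rw [Real.dist_eq, ← integral_sub (exi_integrable_lag hK hσ y c) (exi_integrable_lag hK hσ y c')]
    calc |∫ x, (lag y c x - lag y c' x) ∂σ| ≤ ∫ x, |lag y c x - lag y c' x| ∂σ :=
          abs_integral_le_integral_abs
      _ ≤ ∫ _x, dist c c' ∂σ := by
          apply integral_mono
            ((exi_integrable_lag hK hσ y c).sub (exi_integrable_lag hK hσ y c')).abs
            (integrable_const _)
          intro x
          apply abs_lag_sub_lag_le
          intro i
          rw [← Real.dist_eq]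
          exact dist_le_pi_dist c c' i
      _ = _ := by simp
  · fun_prop

theorem exi_exists_min {K : Set (E d)} {x0 : E d} {R : ℝ} (hK : Body K x0 R)
    {σ : Measure (E d)} (hσ : Source K σ) (y : ι → E d) (m : ι → ℝ) (hm : Weights m) :
    ∃ c, ∀ c', Kf σ y m c ≤ Kf σ y m c' := by
  obtain ⟨A, hA⟩ := exi_inner_bound hK y
  obtain ⟨k0, hk0⟩ := Finite.exists_min m
  set B := (Kf σ y m 0 + A) / m k0 with hB
  have hB0 : 0 ≤ B := by
    have := exi_Kf_lower hK hσ y m hm hA 0 k0 (fun j => le_rfl) k0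
    simp only [Pi.zero_apply, sub_self, mul_zero, add_zero] at this
    apply div_nonneg _ (hm.pos k0).le; linarith
  have hcomp : IsCompact (Set.Icc (0 : ι → ℝ) (fun _ => B)) := isCompact_Icc
  obtain ⟨c, hcS, hc⟩ := hcomp.exists_isMinOn ⟨0, le_rfl, fun _ => hB0⟩
    (exi_continuous_Kf hK hσ y m).continuousOn
  refine ⟨c, fun c' => ?_⟩
  obtain ⟨i0, hi0⟩ := Finite.exists_min c'
  set c'' : ι → ℝ := fun i => c' i + (- c' i0) with hc''
  have e : Kf σ y m c'' = Kf σ y m c' := exi_Kf_add_const hK hσ y m hm c' _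
  rw [← e]
  by_cases h : ∀ i, c'' i ≤ B
  · exact hc ⟨fun i => by simp only [hc'', Pi.zero_apply]; linarith [hi0 i], h⟩
  · push Not at h
    obtain ⟨k, hk⟩ := h
    have h1 := exi_Kf_lower hK hσ y m hm hA c'' i0
      (fun j => by simp only [hc'']; linarith [hi0 j]) k
    have h2 : c'' i0 = 0 := by simp [hc'']
    have h3 : Kf σ y m c ≤ Kf σ y m 0 := hc ⟨le_rfl, fun _ => hB0⟩
    have h4 : m k0 * B = Kf σ y m 0 + A := by
      rw [hB]; field_simp [(hm.pos k0).ne']
    have h5 : m k0 * B ≤ m k * c'' k := by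
      calc m k0 * B ≤ m k * B := mul_le_mul_of_nonneg_right (hk0 k) hB0
        _ ≤ m k * c'' k := mul_le_mul_of_nonneg_left hk.le (hm.pos k).le
    rw [h2, sub_zero] at h1
    linarith

theorem exi_cell_le [DecidableEq ι] {K : Set (E d)} {x0 : E d} {R : ℝ} (hK : Body K x0 R)
    {σ : Measure (E d)} (hσ : Source K σ) (y : ι → E d) (m : ι → ℝ)
    (c : ι → ℝ) (hc : ∀ c', Kf σ y m c ≤ Kf σ y m c') (k : ι) (t : ℝ) (ht : 0 < t) :
    σ (cell y (fun i => c i + if i = k then t else 0) k) ≤ ENNReal.ofReal (m k) := by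
  have := hσ.prob
  set ct : ι → ℝ := fun i => c i + if i = k then t else 0 with hct
  have h1 := hc ct
  have hsum : ∑ i, m i * ct i = ∑ i, m i * c i + m k * t := by
    simp [hct, mul_add, Finset.sum_add_distrib]
  have h2 : ∫ x, (lag y c x - lag y ct x) ∂σ ≤ m k * t := by
    rw [integral_sub (exi_integrable_lag hK hσ y c) (exi_integrable_lag hK hσ y ct)]
    unfold Kf at h1
    linarith
  have h3 : ∫ x, (cell y ct k).indicator (fun _ => t) x ∂σ
      ≤ ∫ x, (lag y c x - lag y ct x) ∂σ := by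
    apply integral_mono ((integrable_const t).indicator (measurableSet_cell y ct k))
      ((exi_integrable_lag hK hσ y c).sub (exi_integrable_lag hK hσ y ct))
    intro x
    by_cases hx : x ∈ cell y ct k
    · simp only [indicator_of_mem hx, Pi.sub_apply]
      have e1 := (mem_cell_iff y ct x k).1 hx
      have e2 := le_lag y c x k
      have e3 : ct k = c k + t := by simp [hct]
      rw [e3] at e1
      linarith
    · simp only [indicator_of_notMem hx, Pi.sub_apply]
      have : lag y ct x ≤ lag y c x := by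
        rw [lag_le_iff]; intro i
        have := le_lag y c x i
        have : c i ≤ ct i := by simp only [hct]; split_ifs <;> linarith
        linarith
      linarith
  rw [integral_indicator_const _ (measurableSet_cell y ct k)] at h3
  have h4 : σ.real (cell y ct k) ≤ m k := by
    have : σ.real (cell y ct k) * t ≤ m k * t := by simpa [smul_eq_mul] using h3.trans h2
    exact le_of_mul_le_mul_right this ht
  rw [← ENNReal.ofReal_toReal (measure_ne_top σ (cell y ct k))]
  exact ENNReal.ofReal_le_ofReal h4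

omit [Fintype ι] [Nonempty ι] in
theorem exi_mem_cell_shift [DecidableEq ι] (y : ι → E d) (c : ι → ℝ) (k : ι) (t : ℝ) (x : E d) :
    x ∈ cell y (fun i => c i + if i = k then t else 0) k ↔
      ∀ j, j ≠ k → ⟪x, y j⟫_ℝ - c j ≤ ⟪x, y k⟫_ℝ - c k - t := by
  simp only [cell, mem_ofPred_eq, if_true]
  constructor
  · intro h j hj
    have := h j
    rw [if_neg hj] at this
    linarith
  · intro h j
    by_cases hj : j = k
    · subst hj; simp
    · rw [if_neg hj]
      have := h j hj
      linarith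

theorem exi_cell_le' {K : Set (E d)} {x0 : E d} {R : ℝ} (hK : Body K x0 R)
    {σ : Measure (E d)} (hσ : Source K σ) (y : ι → E d) (hy : Function.Injective y) (m : ι → ℝ)
    (c : ι → ℝ) (hc : ∀ c', Kf σ y m c ≤ Kf σ y m c') (k : ι) :
    σ (cell y c k) ≤ ENNReal.ofReal (m k) := by
  classical
  set U : ℕ → Set (E d) :=
    fun n => cell y (fun i => c i + if i = k then (1 / ((n : ℝ) + 1)) else 0) k with hUdef
  have hmono : Monotone U := by
    intro n n' hnn x hx
    simp only [hUdef, exi_mem_cell_shift] at hx ⊢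
    intro j hj
    have h1 := hx j hj
    have h2 : 1 / ((n' : ℝ) + 1) ≤ 1 / ((n : ℝ) + 1) := by
      apply one_div_le_one_div_of_le (by positivity)
      have : (n : ℝ) ≤ n' := by exact_mod_cast hnn
      linarith
    linarith
  have hU : σ (⋃ n, U n) ≤ ENNReal.ofReal (m k) := by
    rw [hmono.measure_iUnion]
    exact iSup_le fun n => exi_cell_le hK hσ y m c hc k _ (by positivity)
  have hsub : cell y c k ⊆ (⋃ n, U n) ∪ ⋃ j, ⋃ (_ : j ≠ k), (cell y c k ∩ cell y c j) := by
    intro x hx
    by_cases h : ∃ j, j ≠ k ∧ x ∈ cell y c j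
    · obtain ⟨j, hj, hxj⟩ := h
      right
      exact mem_iUnion.2 ⟨j, mem_iUnion.2 ⟨hj, hx, hxj⟩⟩
    · left
      push Not at h
      have hlt : ∀ j, j ≠ k → ⟪x, y j⟫_ℝ - c j < ⟪x, y k⟫_ℝ - c k := by
        intro j hj
        by_contra hcon
        push Not at hcon
        apply h j hj
        intro l
        exact (hx l).trans hcon
      obtain ⟨j0, hj0⟩ := Finite.exists_min
        (fun j => if j = k then (1 : ℝ) else (⟪x, y k⟫_ℝ - c k) - (⟪x, y j⟫_ℝ - c j))
      set δ : ℝ := if j0 = k then (1 : ℝ) else (⟪x, y k⟫_ℝ - c k) - (⟪x, y j0⟫_ℝ - c j0) with hδ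
      have hδpos : 0 < δ := by
        rw [hδ]
        split_ifs with hh
        · exact one_pos
        · linarith [hlt j0 hh]
      obtain ⟨n, hn⟩ := exists_nat_one_div_lt hδpos
      refine mem_iUnion.2 ⟨n, ?_⟩
      simp only [hUdef, exi_mem_cell_shift]
      intro j hj
      have := hj0 j
      simp only [if_neg hj] at this
      linarith
  have hnull : σ (⋃ j, ⋃ (_ : j ≠ k), cell y c k ∩ cell y c j) = 0 := by
    apply hσ.ac
    rw [measure_iUnion_null_iff]; intro j
    rw [measure_iUnion_null_iff]; intro hj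
    exact cell_inter_null y c (fun h => hj (hy h).symm)
  calc σ (cell y c k) ≤ σ ((⋃ n, U n) ∪ ⋃ j, ⋃ (_ : j ≠ k), (cell y c k ∩ cell y c j)) :=
        measure_mono hsub
    _ ≤ σ (⋃ n, U n) + σ (⋃ j, ⋃ (_ : j ≠ k), (cell y c k ∩ cell y c j)) := measure_union_le _ _
    _ = σ (⋃ n, U n) := by rw [hnull, add_zero]
    _ ≤ _ := hU

/-- any global minimiser of the Kantorovich functional is balanced. -/
theorem exi_balanced_of_min {K : Set (E d)} {x0 : E d} {R : ℝ} (hK : Body K x0 R)
    {σ : Measure (E d)} (hσ : Source K σ) (y : ι → E d) (hy : Function.Injective y) (m : ι → ℝ)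
    (hm : Weights m) (c : ι → ℝ) (hc : ∀ c', Kf σ y m c ≤ Kf σ y m c') : Balanced σ y m c := by
  have := hσ.prob
  have hle : ∀ k, σ.real (cell y c k) ≤ m k := fun k =>
    ENNReal.toReal_le_of_le_ofReal (hm.pos k).le (exi_cell_le' hK hσ y hy m c hc k)
  have hsum : 1 ≤ ∑ k, σ.real (cell y c k) := by
    have : σ.real (⋃ k, cell y c k) ≤ ∑ k, σ.real (cell y c k) := measureReal_iUnion_fintype_le _
    rw [iUnion_cell] at this; simpa using this
  have heq : ∀ k ∈ Finset.univ, σ.real (cell y c k) = m k := by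
    rw [← Finset.sum_eq_sum_iff_of_le (fun k _ => hle k)]
    apply le_antisymm (Finset.sum_le_sum fun k _ => hle k); rw [hm.sum]; exact hsum
  intro k
  rw [← heq k (Finset.mem_univ k)]
  exact (ENNReal.ofReal_toReal (measure_ne_top σ _)).symm

theorem exists_balanced {K : Set (E d)} {x0 : E d} {R : ℝ} (hK : Body K x0 R)
    {σ : Measure (E d)} (hσ : Source K σ) (y : ι → E d) (hy : Function.Injective y) (m : ι → ℝ)
    (hm : Weights m) : ∃ c, Balanced σ y m c := by
  obtain ⟨c, hc⟩ := exi_exists_min hK hσ y m hm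
  exact ⟨c, exi_balanced_of_min hK hσ y hy m hm c hc⟩

end

end Crest.Agent.R082
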