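import Mathlib

/-!
Row 82 (S0109), module D (key stability lemma), part 1: the finite-sum algebra (W4)-(W8) of the blueprint.
-/

set_option autoImplicit false

namespace Crest.Agent.S0109KSL

open Finset

/-- per index facts: `s = √(P P')`. -/
lemma alg_index {P P' a a' b' e s : ℝ} (hP : 0 < P) (hP' : 0 < P')
    (ha : 1 ≤ a) (ha2 : a ≤ 1.00125) (ha' : 1 ≤ a') (ha2' : a' ≤ 1.00125)
    (hb1 : a' / 2 ≤ b') (hb2 : b' ≤ 3 / 2 * a') (hbe : |b' - a'| ≤ e)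
    (hbal : P * a = P' * b') (hs0 : 0 ≤ s) (hs : s ^ 2 = P * P') :
    0.64 * P ≤ P' ∧ 0.8 * P ≤ s ∧ (P + P') / 2 - s ≤ 4 * P * ((a' - a) ^ 2 + e ^ 2) := by
  have hb0 : 0 < b' := by linarith
  have h64 : 0.64 * P ≤ P' := by
    have h1 : P' * b' ≤ P' * 1.501875 := by
      apply mul_le_mul_of_nonneg_left _ hP'.le
      linarith
    have h2 : P * 1 ≤ P * a := mul_le_mul_of_nonneg_left ha hP.le
    nlinarith
  have h8 : 0.8 * P ≤ s := by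
    have : (0.8 * P) ^ 2 ≤ s ^ 2 := by
      rw [hs]; nlinarith
    exact (abs_le_of_sq_le_sq' this hs0).2 |> fun h => by
      have := abs_le_of_sq_le_sq' this hs0
      linarith [this.2]
  refine ⟨h64, h8, ?_⟩
  -- P' - P = P (a - b') / b'
  have hdiff : (P' - P) * b' = P * (a - b') := by linarith
  have habs : |a - b'| ≤ |a' - a| + e := by
    have : a - b' = -(a' - a) - (b' - a') := by ring
    rw [this]
    calc |-(a' - a) - (b' - a')| ≤ |-(a' - a)| + |b' - a'| := abs_sub _ _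
      _ ≤ |a' - a| + e := by rw [abs_neg]; linarith
  have hb12 : (1:ℝ) / 2 ≤ b' := by linarith
  have hPd : |P' - P| ≤ 2 * P * (|a' - a| + e) := by
    have h1 : |P' - P| * b' = P * |a - b'| := by
      have := congrArg abs hdiff
      rwa [abs_mul, abs_mul, abs_of_pos hb0, abs_of_pos hP] at this
    have h2 : |P' - P| * (1 / 2) ≤ |P' - P| * b' :=
      mul_le_mul_of_nonneg_left hb12 (abs_nonneg _)
    have h3 : P * |a - b'| ≤ P * (|a' - a| + e) := mul_le_mul_of_nonneg_left habs hP.le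
    nlinarith
  have he0 : 0 ≤ e := le_trans (abs_nonneg _) hbe
  -- (P+P')/2 - s ≤ (P'-P)^2/(2P)
  have hkey : ((P + P') / 2 - s) * (2 * P) ≤ (P' - P) ^ 2 := by
    -- (P+P'-2s) * (P + P' + 2 s) = (P-P')^2 and P + P' + 2s ≥ P
    have h1 : (P + P' - 2 * s) * (P + P' + 2 * s) = (P' - P) ^ 2 := by
      have : (P + P' - 2 * s) * (P + P' + 2 * s) = (P + P') ^ 2 - 4 * s ^ 2 := by ring
      rw [this, hs]; ring
    have h2 : 0 ≤ P + P' - 2 * s := by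
      by_contra hneg
      rw [not_le] at hneg
      have : (P + P') ^ 2 < (2 * s) ^ 2 := by
        apply pow_lt_pow_left₀ (by linarith) (by positivity) (by norm_num)
      rw [mul_pow, hs] at this
      nlinarith [sq_nonneg (P - P')]
    have h3 : (P + P' - 2 * s) * P ≤ (P + P' - 2 * s) * (P + P' + 2 * s) :=
      mul_le_mul_of_nonneg_left (by linarith) h2
    nlinarith
  have hsq : (P' - P) ^ 2 ≤ (2 * P * (|a' - a| + e)) ^ 2 := by
    rw [← sq_abs (P' - P)]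
    exact pow_le_pow_left₀ (abs_nonneg _) hPd 2
  have hsq2 : (|a' - a| + e) ^ 2 ≤ 2 * ((a' - a) ^ 2 + e ^ 2) := by
    have : |a' - a| ^ 2 = (a' - a) ^ 2 := sq_abs _
    nlinarith [sq_nonneg (|a' - a| - e)]
  have h5 : ((P + P') / 2 - s) * (2 * P) ≤ (4 * P * ((a' - a) ^ 2 + e ^ 2)) * (2 * P) := by
    calc ((P + P') / 2 - s) * (2 * P) ≤ (2 * P * (|a' - a| + e)) ^ 2 := le_trans hkey hsq
      _ = 4 * P ^ 2 * (|a' - a| + e) ^ 2 := by ring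
      _ ≤ 4 * P ^ 2 * (2 * ((a' - a) ^ 2 + e ^ 2)) := by
          apply mul_le_mul_of_nonneg_left hsq2 (by positivity)
      _ = (4 * P * ((a' - a) ^ 2 + e ^ 2)) * (2 * P) := by ring
  exact le_of_mul_le_mul_right h5 (by positivity)


/-- (W8): the barycentre difference in terms of the three small quantities. -/
lemma alg_beta {V : Type*} [NormedAddCommGroup V] [NormedSpace ℝ V] {N N' A' : V}
    {a a' b' e R : ℝ} (hR : 0 < R) (ha : 1 ≤ a) (ha' : 1 ≤ a')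
    (hb1 : a' / 2 ≤ b') (hbe : |b' - a'| ≤ e)
    (hNb : ‖N‖ ≤ R * a) (hA : ‖A' - N'‖ ≤ R * e) :
    ‖b'⁻¹ • A' - a⁻¹ • N‖ ≤ 2 * ‖N' - N‖ + 2 * R * |a' - a| + 4 * R * e := by
  have hb12 : (1:ℝ) / 2 ≤ b' := by linarith
  have hb0 : 0 < b' := by linarith
  have ha0 : 0 < a := by linarith
  have hbinv : b'⁻¹ ≤ 2 := by
    rw [inv_le_comm₀ hb0 (by norm_num)]; linarith
  have hbinv0 : 0 ≤ b'⁻¹ := by positivity
  have habs : |a - b'| ≤ |a' - a| + e := by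
    have : a - b' = -(a' - a) - (b' - a') := by ring
    rw [this]
    calc |-(a' - a) - (b' - a')| ≤ |-(a' - a)| + |b' - a'| := abs_sub _ _
      _ ≤ |a' - a| + e := by rw [abs_neg]; linarith
  have hdecomp : b'⁻¹ • A' - a⁻¹ • N = b'⁻¹ • ((A' - N') + (N' - N)) + (b'⁻¹ - a⁻¹) • N := by
    simp only [smul_add, smul_sub, sub_smul]; abel
  have h1 : ‖b'⁻¹ • ((A' - N') + (N' - N))‖ ≤ 2 * (R * e + ‖N' - N‖) := by
    rw [norm_smul, Real.norm_of_nonneg hbinv0]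
    have : ‖(A' - N') + (N' - N)‖ ≤ R * e + ‖N' - N‖ :=
      le_trans (norm_add_le _ _) (by linarith)
    calc b'⁻¹ * ‖(A' - N') + (N' - N)‖ ≤ 2 * ‖(A' - N') + (N' - N)‖ :=
          mul_le_mul_of_nonneg_right hbinv (norm_nonneg _)
      _ ≤ 2 * (R * e + ‖N' - N‖) := by linarith
  have h2 : ‖(b'⁻¹ - a⁻¹) • N‖ ≤ 2 * R * (|a' - a| + e) := by
    rw [norm_smul, Real.norm_eq_abs]
    have hinv : b'⁻¹ - a⁻¹ = (a - b') * (b'⁻¹ * a⁻¹) := by
      field_simp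
    rw [hinv, abs_mul, abs_of_nonneg (by positivity : 0 ≤ b'⁻¹ * a⁻¹)]
    have h3 : a⁻¹ * ‖N‖ ≤ R := by
      calc a⁻¹ * ‖N‖ ≤ a⁻¹ * (R * a) := mul_le_mul_of_nonneg_left hNb (by positivity)
        _ = R := by field_simp
    have h3' : 0 ≤ a⁻¹ * ‖N‖ := by positivity
    calc |a - b'| * (b'⁻¹ * a⁻¹) * ‖N‖ = |a - b'| * (b'⁻¹ * (a⁻¹ * ‖N‖)) := by ring
      _ ≤ (|a' - a| + e) * (2 * R) := by
          apply mul_le_mul habs _ (by positivity) (le_trans (abs_nonneg _) habs)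
          exact mul_le_mul hbinv h3 h3' (by norm_num)
      _ = 2 * R * (|a' - a| + e) := by ring
  rw [hdecomp]
  calc ‖b'⁻¹ • ((A' - N') + (N' - N)) + (b'⁻¹ - a⁻¹) • N‖
      ≤ ‖b'⁻¹ • ((A' - N') + (N' - N))‖ + ‖(b'⁻¹ - a⁻¹) • N‖ := norm_add_le _ _
    _ ≤ 2 * (R * e + ‖N' - N‖) + 2 * R * (|a' - a| + e) := add_le_add h1 h2
    _ = 2 * ‖N' - N‖ + 2 * R * |a' - a| + 4 * R * e := by ring

/-- The finite-sum algebra (W4)-(W8). -/
theorem alg_main {ι : Type*} [Fintype ι] {V : Type*} [NormedAddCommGroup V] [NormedSpace ℝ V]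
    (R κ : ℝ) (hR : 0 < R) (hκ : κ = 1 / (400 * R ^ 2))
    (P P' P'' a a' b' e : ι → ℝ) (N N' A' : ι → V)
    (hP : ∀ i, 0 < P i) (hP' : ∀ i, 0 < P' i) (hP'' : ∀ i, 0 ≤ P'' i)
    (ha : ∀ i, 1 ≤ a i) (ha2 : ∀ i, a i ≤ 1.00125) (ha' : ∀ i, 1 ≤ a' i) (ha2' : ∀ i, a' i ≤ 1.00125)
    (hb1 : ∀ i, a' i / 2 ≤ b' i) (hb2 : ∀ i, b' i ≤ 3 / 2 * a' i) (hbe : ∀ i, |b' i - a' i| ≤ e i)
    (hbal : ∀ i, P i * a i = P' i * b' i)
    (hθ : ∀ i, P i * P' i * (1 + 20 * (a' i - a i) ^ 2) ^ 2 ≤ P'' i ^ 2)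
    (hN : ∀ i, P i * P' i * (1 + κ / 80 * ‖N' i - N i‖ ^ 2) ^ 2 ≤ P'' i ^ 2)
    (hW : ∑ i, P'' i ≤ ∑ i, P i) (hW' : ∑ i, P' i = ∑ i, P i)
    (hNb : ∀ i, ‖N i‖ ≤ R * a i) (hA : ∀ i, ‖A' i - N' i‖ ≤ R * e i) :
    ∑ i, P i * a i * ‖(b' i)⁻¹ • A' i - (a i)⁻¹ • N i‖ ^ 2 ≤ 4010000 * R ^ 2 * ∑ i, P' i * e i ^ 2 := by
  classical
  set s : ι → ℝ := fun i => Real.sqrt (P i * P' i) with hsdef
  have hs0 : ∀ i, 0 ≤ s i := fun i => Real.sqrt_nonneg _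
  have hs : ∀ i, s i ^ 2 = P i * P' i := fun i => Real.sq_sqrt (mul_pos (hP i) (hP' i)).le
  have hidx := fun i => alg_index (hP i) (hP' i) (ha i) (ha2 i) (ha' i) (ha2' i) (hb1 i) (hb2 i)
    (hbe i) (hbal i) (hs0 i) (hs i)
  have hκ0 : 0 < κ := by rw [hκ]; positivity
  -- from squares to plain inequalities
  have hroot : ∀ (i : ι) (v : ℝ), 0 ≤ v → P i * P' i * (1 + v) ^ 2 ≤ P'' i ^ 2 → s i * (1 + v) ≤ P'' i := by
    intro i v hv h
    have : (s i * (1 + v)) ^ 2 ≤ P'' i ^ 2 := by rw [mul_pow, hs]; exact h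
    exact (abs_le_of_sq_le_sq' this (hP'' i)).2
  have hθ' : ∀ i, s i * (1 + 20 * (a' i - a i) ^ 2) ≤ P'' i := fun i => hroot i _ (by positivity) (hθ i)
  have hN' : ∀ i, s i * (1 + κ / 80 * ‖N' i - N i‖ ^ 2) ≤ P'' i := fun i => hroot i _ (by positivity) (hN i)
  set Se := ∑ i, P i * e i ^ 2 with hSe
  set Sθ := ∑ i, P i * (a' i - a i) ^ 2 with hSθ
  set Sn := ∑ i, P i * ‖N' i - N i‖ ^ 2 with hSn
  set H := ∑ i, ((P i + P' i) / 2 - s i) with hH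
  have hHW : H = ∑ i, P i - ∑ i, s i := by
    rw [hH, Finset.sum_sub_distrib, ← Finset.sum_div, Finset.sum_add_distrib, hW']; ring
  have hH1 : H ≤ 4 * Sθ + 4 * Se := by
    rw [hH, hSθ, hSe, Finset.mul_sum, Finset.mul_sum, ← Finset.sum_add_distrib]
    apply Finset.sum_le_sum
    intro i _
    have := (hidx i).2.2
    linarith
  have hH2 : 16 * Sθ ≤ H := by
    have h1 : ∑ i, s i * (1 + 20 * (a' i - a i) ^ 2) ≤ ∑ i, P i :=
      le_trans (Finset.sum_le_sum fun i _ => hθ' i) hW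
    have h2 : ∑ i, s i * (1 + 20 * (a' i - a i) ^ 2) = ∑ i, s i + ∑ i, 20 * (s i * (a' i - a i) ^ 2) := by
      rw [← Finset.sum_add_distrib]; apply Finset.sum_congr rfl; intro i _; ring
    have h3 : 16 * Sθ ≤ ∑ i, 20 * (s i * (a' i - a i) ^ 2) := by
      rw [hSθ, Finset.mul_sum]
      apply Finset.sum_le_sum
      intro i _
      have := (hidx i).2.1
      have h4 : 0.8 * P i * (a' i - a i) ^ 2 ≤ s i * (a' i - a i) ^ 2 :=
        mul_le_mul_of_nonneg_right this (sq_nonneg _)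
      linarith
    linarith
  have hH3 : κ / 100 * Sn ≤ H := by
    have h1 : ∑ i, s i * (1 + κ / 80 * ‖N' i - N i‖ ^ 2) ≤ ∑ i, P i :=
      le_trans (Finset.sum_le_sum fun i _ => hN' i) hW
    have h2 : ∑ i, s i * (1 + κ / 80 * ‖N' i - N i‖ ^ 2)
        = ∑ i, s i + ∑ i, κ / 80 * (s i * ‖N' i - N i‖ ^ 2) := by
      rw [← Finset.sum_add_distrib]; apply Finset.sum_congr rfl; intro i _; ring
    have h3 : κ / 100 * Sn ≤ ∑ i, κ / 80 * (s i * ‖N' i - N i‖ ^ 2) := by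
      rw [hSn, Finset.mul_sum]
      apply Finset.sum_le_sum
      intro i _
      have := (hidx i).2.1
      have h4 : 0.8 * P i * ‖N' i - N i‖ ^ 2 ≤ s i * ‖N' i - N i‖ ^ 2 :=
        mul_le_mul_of_nonneg_right this (sq_nonneg _)
      have h5 : κ / 80 * (0.8 * P i * ‖N' i - N i‖ ^ 2) ≤ κ / 80 * (s i * ‖N' i - N i‖ ^ 2) :=
        mul_le_mul_of_nonneg_left h4 (by positivity)
      calc κ / 100 * (P i * ‖N' i - N i‖ ^ 2) = κ / 80 * (0.8 * P i * ‖N' i - N i‖ ^ 2) := by ring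
        _ ≤ _ := h5
    linarith
  have hSθle : 3 * Sθ ≤ Se := by linarith
  have hHle : 3 * H ≤ 16 * Se := by linarith
  have hSnle : 3 * Sn ≤ 640000 * R ^ 2 * Se := by
    have h1 : Sn = 40000 * R ^ 2 * (κ / 100 * Sn) := by
      rw [hκ]; field_simp; ring
    have h2 : 40000 * R ^ 2 * (κ / 100 * Sn) ≤ 40000 * R ^ 2 * H :=
      mul_le_mul_of_nonneg_left hH3 (by positivity)
    have h3 : 40000 * R ^ 2 * (3 * H) ≤ 40000 * R ^ 2 * (16 * Se) :=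
      mul_le_mul_of_nonneg_left hHle (by positivity)
    nlinarith
  have hSe0 : 0 ≤ Se := Finset.sum_nonneg fun i _ => mul_nonneg (hP i).le (sq_nonneg _)
  have hSe' : 0.64 * Se ≤ ∑ i, P' i * e i ^ 2 := by
    rw [hSe, Finset.mul_sum]
    apply Finset.sum_le_sum
    intro i _
    have := (hidx i).1
    have h4 : 0.64 * P i * e i ^ 2 ≤ P' i * e i ^ 2 := mul_le_mul_of_nonneg_right this (sq_nonneg _)
    linarith
  have hmain : ∑ i, P i * a i * ‖(b' i)⁻¹ • A' i - (a i)⁻¹ • N i‖ ^ 2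
      ≤ 3.00375 * (4 * Sn + 4 * R ^ 2 * Sθ + 16 * R ^ 2 * Se) := by
    have : 3.00375 * (4 * Sn + 4 * R ^ 2 * Sθ + 16 * R ^ 2 * Se)
        = ∑ i, 3.00375 * (P i * (4 * ‖N' i - N i‖ ^ 2 + 4 * R ^ 2 * (a' i - a i) ^ 2 + 16 * R ^ 2 * e i ^ 2)) := by
      rw [hSn, hSθ, hSe, ← Finset.mul_sum]
      congr 1
      simp only [Finset.mul_sum, ← Finset.sum_add_distrib]
      apply Finset.sum_congr rfl; intro i _; ring
    rw [this]
    apply Finset.sum_le_sum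
    intro i _
    have hb := alg_beta (N := N i) (N' := N' i) (A' := A' i) hR (ha i) (ha' i) (hb1 i) (hbe i) (hNb i) (hA i)
    have he0 : 0 ≤ e i := le_trans (abs_nonneg _) (hbe i)
    set n := ‖N' i - N i‖
    set t := |a' i - a i| with ht
    have ht2 : t ^ 2 = (a' i - a i) ^ 2 := sq_abs _
    have hsq : ‖(b' i)⁻¹ • A' i - (a i)⁻¹ • N i‖ ^ 2 ≤ (2 * n + 2 * R * t + 4 * R * e i) ^ 2 :=
      pow_le_pow_left₀ (norm_nonneg _) hb 2
    have h3 : (2 * n + 2 * R * t + 4 * R * e i) ^ 2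
        ≤ 3 * (4 * n ^ 2 + 4 * R ^ 2 * (a' i - a i) ^ 2 + 16 * R ^ 2 * e i ^ 2) := by
      rw [← ht2]
      nlinarith [sq_nonneg (2 * n - 2 * R * t), sq_nonneg (2 * n - 4 * R * e i),
        sq_nonneg (2 * R * t - 4 * R * e i)]
    have hX0 : 0 ≤ 4 * n ^ 2 + 4 * R ^ 2 * (a' i - a i) ^ 2 + 16 * R ^ 2 * e i ^ 2 := by positivity
    calc P i * a i * ‖(b' i)⁻¹ • A' i - (a i)⁻¹ • N i‖ ^ 2
        ≤ P i * a i * (3 * (4 * n ^ 2 + 4 * R ^ 2 * (a' i - a i) ^ 2 + 16 * R ^ 2 * e i ^ 2)) :=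
          mul_le_mul_of_nonneg_left (le_trans hsq h3) (mul_nonneg (hP i).le (by linarith [ha i]))
      _ ≤ P i * 1.00125 * (3 * (4 * n ^ 2 + 4 * R ^ 2 * (a' i - a i) ^ 2 + 16 * R ^ 2 * e i ^ 2)) := by
          apply mul_le_mul_of_nonneg_right _ (by positivity)
          exact mul_le_mul_of_nonneg_left (ha2 i) (hP i).le
      _ = 3.00375 * (P i * (4 * n ^ 2 + 4 * R ^ 2 * (a' i - a i) ^ 2 + 16 * R ^ 2 * e i ^ 2)) := by ring
  have hR2 : 0 ≤ R ^ 2 := by positivity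
  have hfin : 3.00375 * (4 * Sn + 4 * R ^ 2 * Sθ + 16 * R ^ 2 * Se) ≤ 2564000 * R ^ 2 * Se := by
    have h1 : R ^ 2 * (3 * Sθ) ≤ R ^ 2 * Se := mul_le_mul_of_nonneg_left hSθle hR2
    have h0 : 0 ≤ R ^ 2 * Se := mul_nonneg hR2 hSe0
    nlinarith
  have hfin2 : 2564000 * R ^ 2 * Se ≤ 4010000 * R ^ 2 * ∑ i, P' i * e i ^ 2 := by
    have h1 : R ^ 2 * (0.64 * Se) ≤ R ^ 2 * ∑ i, P' i * e i ^ 2 := mul_le_mul_of_nonneg_left hSe' hR2
    have h0 : 0 ≤ R ^ 2 * Se := mul_nonneg hR2 hSe0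
    nlinarith
  linarith

end Crest.Agent.S0109KSL
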