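import Mathlib

/-!
Row 82 (S0109), module D (key stability lemma), part 2: the weight `w = 1/θ`, the pointwise inequality (W1)+(W3)
and the Prékopa–Leindler + Jensen step.
-/

set_option autoImplicit false

namespace Crest.Agent.S0109KSL

open MeasureTheory Set
open scoped ENNReal

/-- Euclidean space. -/
abbrev EE (d : ℕ) := EuclideanSpace ℝ (Fin d)

/-- The Prékopa–Leindler inequality with `τ = 1/2` for bounded, boundedly supported functions
(statement; proved in module A). -/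
def PLProp (d : ℕ) : Prop :=
  ∀ h0 h1 h : EE d → ℝ≥0∞, Measurable h0 → Measurable h1 → Measurable h →
    ∀ (M : NNReal) (r : ℝ), (∀ x, h0 x ≤ M) → (∀ x, h1 x ≤ M) →
    (∀ x, r < ‖x‖ → h0 x = 0) → (∀ x, r < ‖x‖ → h1 x = 0) →
    (∀ x z, h0 x * h1 z ≤ h ((1 / 2 : ℝ) • (x + z)) ^ 2) →
    (∫⁻ x, h0 x) * (∫⁻ x, h1 x) ≤ (∫⁻ x, h x) ^ 2

/-- real valued version of PL -/
lemma pl_real {d : ℕ} (hPL : PLProp d) (f0 f1 f : EE d → ℝ)
    (h0 : ∀ x, 0 ≤ f0 x) (h1 : ∀ x, 0 ≤ f1 x) (h : ∀ x, 0 ≤ f x)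
    (m0 : Measurable f0) (m1 : Measurable f1) (m : Measurable f)
    (i0 : Integrable f0) (i1 : Integrable f1) (i : Integrable f)
    (M r : ℝ) (b0 : ∀ x, f0 x ≤ M) (b1 : ∀ x, f1 x ≤ M)
    (s0 : ∀ x, r < ‖x‖ → f0 x = 0) (s1 : ∀ x, r < ‖x‖ → f1 x = 0)
    (H : ∀ x z, f0 x * f1 z ≤ f ((1 / 2 : ℝ) • (x + z)) ^ 2) :
    (∫ x, f0 x) * (∫ x, f1 x) ≤ (∫ x, f x) ^ 2 := by
  have key := hPL (fun x => ENNReal.ofReal (f0 x)) (fun x => ENNReal.ofReal (f1 x))
    (fun x => ENNReal.ofReal (f x)) m0.ennreal_ofReal m1.ennreal_ofReal m.ennreal_ofReal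
    (Real.toNNReal M) r
    (fun x => ENNReal.ofReal_le_ofReal (b0 x)) (fun x => ENNReal.ofReal_le_ofReal (b1 x))
    (fun x hx => by simp [s0 x hx]) (fun x hx => by simp [s1 x hx])
    (by
      intro x z
      rw [← ENNReal.ofReal_mul (h0 x), ← ENNReal.ofReal_pow (h _)]
      exact ENNReal.ofReal_le_ofReal (H x z))
  rw [← ofReal_integral_eq_lintegral_ofReal i0 (Filter.Eventually.of_forall h0),
    ← ofReal_integral_eq_lintegral_ofReal i1 (Filter.Eventually.of_forall h1),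
    ← ofReal_integral_eq_lintegral_ofReal i (Filter.Eventually.of_forall h),
    ← ENNReal.ofReal_mul (integral_nonneg h0), ← ENNReal.ofReal_pow (integral_nonneg h)] at key
  exact (ENNReal.ofReal_le_ofReal_iff (by positivity)).1 key

/-- `θ(x) = 1 + κ ‖x - x0‖² / 2`. -/
noncomputable def thF {d : ℕ} (x0 : EE d) (κ : ℝ) (x : EE d) : ℝ := 1 + κ * ‖x - x0‖ ^ 2 / 2

lemma thF_continuous {d : ℕ} (x0 : EE d) (κ : ℝ) : Continuous (thF x0 κ) := by
  unfold thF; fun_prop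

lemma one_le_thF {d : ℕ} (x0 : EE d) {κ : ℝ} (hκ : 0 ≤ κ) (x : EE d) : 1 ≤ thF x0 κ x := by
  unfold thF
  have : 0 ≤ κ * ‖x - x0‖ ^ 2 / 2 := by positivity
  linarith

lemma thF_le {d : ℕ} (x0 : EE d) {κ R : ℝ} (hR : 0 < R) (hκ : κ = 1 / (400 * R ^ 2)) {x : EE d}
    (hx : x ∈ Metric.closedBall x0 R) : thF x0 κ x ≤ 1.00125 := by
  unfold thF
  have h1 : ‖x - x0‖ ≤ R := by simpa [dist_eq_norm] using hx
  have h2 : ‖x - x0‖ ^ 2 ≤ R ^ 2 := pow_le_pow_left₀ (norm_nonneg _) h1 2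
  have h3 : κ * ‖x - x0‖ ^ 2 ≤ κ * R ^ 2 := mul_le_mul_of_nonneg_left h2 (by rw [hκ]; positivity)
  have h4 : κ * R ^ 2 = 1 / 400 := by rw [hκ]; field_simp
  linarith

/-- polynomial core of (W1) -/
lemma w1_poly {s s' q : ℝ} (hs : 0 ≤ s) (hs2 : s ≤ 1 / 800) (hs' : 0 ≤ s') (hs2' : s' ≤ 1 / 800)
    (hq : 0 ≤ q) (hq2 : q ≤ (s + s') / 2) (hss : (s - s') ^ 2 ≤ q / 50) :
    (1 + (s + s') / 2 - q) ^ 2 ≤ (1 + s) * (1 + s') * (1 - 4 / 5 * q) := by
  set A := 1 + (s + s') / 2 with hA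
  have hA1 : 1 ≤ A := by rw [hA]; linarith
  have hA2 : A ≤ 1.00125 := by rw [hA]; linarith
  have hq3 : q ≤ 1 / 800 := by linarith
  have hprod : (1 + s) * (1 + s') = A ^ 2 - (s - s') ^ 2 / 4 := by rw [hA]; ring
  have h1 : A ^ 2 - q / 200 ≤ (1 + s) * (1 + s') := by rw [hprod]; linarith
  have h2 : (A ^ 2 - q / 200) * (1 - 4 / 5 * q) ≤ (1 + s) * (1 + s') * (1 - 4 / 5 * q) :=
    mul_le_mul_of_nonneg_right h1 (by linarith)
  have h3 : (A - q) ^ 2 ≤ (A ^ 2 - q / 200) * (1 - 4 / 5 * q) := by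
    have h4 : 0 ≤ q * (2 * A - 0.8 * A ^ 2 - 0.005 - 0.996 * q) := by
      apply mul_nonneg hq
      nlinarith
    nlinarith
  linarith

/-- (W1), in product form. -/
lemma w1 {d : ℕ} (x0 : EE d) {κ R : ℝ} (hR : 0 < R) (hκ : κ = 1 / (400 * R ^ 2)) {x z : EE d}
    (hx : x ∈ Metric.closedBall x0 R) (hz : z ∈ Metric.closedBall x0 R) :
    thF x0 κ ((1 / 2 : ℝ) • (x + z)) ^ 2
      ≤ thF x0 κ x * thF x0 κ z * (1 - κ * ‖x - z‖ ^ 2 / 10) ∧ κ * ‖x - z‖ ^ 2 / 10 ≤ 1 / 1000 := by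
  have hκ0 : 0 < κ := by rw [hκ]; positivity
  have hκR : κ * R ^ 2 = 1 / 400 := by rw [hκ]; field_simp
  set u := x - x0 with hu
  set v := z - x0 with hv
  have hu1 : ‖u‖ ≤ R := by simpa [dist_eq_norm] using hx
  have hv1 : ‖v‖ ≤ R := by simpa [dist_eq_norm] using hz
  have hxz : x - z = u - v := by rw [hu, hv]; abel
  have hmid : (1 / 2 : ℝ) • (x + z) - x0 = (1 / 2 : ℝ) • (u + v) := by
    rw [hu, hv]
    have : x0 = (1 / 2 : ℝ) • (x0 + x0) := by
      rw [← two_smul ℝ x0, smul_smul]; norm_num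
    conv_lhs => rw [this]
    rw [← smul_sub]; congr 1; abel
  have hpar := parallelogram_law_with_norm ℝ u v
  have hmidn : ‖(1 / 2 : ℝ) • (u + v)‖ ^ 2 = (‖u‖ ^ 2 + ‖v‖ ^ 2) / 2 - ‖u - v‖ ^ 2 / 4 := by
    rw [norm_smul, mul_pow]
    have : ‖(1 / 2 : ℝ)‖ ^ 2 = 1 / 4 := by norm_num
    rw [this]; nlinarith
  have hmid0 : 0 ≤ (‖u‖ ^ 2 + ‖v‖ ^ 2) / 2 - ‖u - v‖ ^ 2 / 4 := by rw [← hmidn]; positivity
  have hAB : (‖u‖ - ‖v‖) ^ 2 ≤ ‖u - v‖ ^ 2 := by
    rw [← sq_abs (‖u‖ - ‖v‖)]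
    exact pow_le_pow_left₀ (abs_nonneg _) (abs_norm_sub_norm_le u v) 2
  set A := ‖u‖
  set B := ‖v‖
  set D := ‖u - v‖
  have hA0 : 0 ≤ A := norm_nonneg _
  have hB0 : 0 ≤ B := norm_nonneg _
  have hA2 : A ^ 2 ≤ R ^ 2 := pow_le_pow_left₀ hA0 hu1 2
  have hB2 : B ^ 2 ≤ R ^ 2 := pow_le_pow_left₀ hB0 hv1 2
  have hpoly := w1_poly (s := κ * A ^ 2 / 2) (s' := κ * B ^ 2 / 2) (q := κ * D ^ 2 / 8)
    (by positivity) (by nlinarith) (by positivity) (by nlinarith) (by positivity)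
    (by
      have : κ * D ^ 2 / 8 = κ / 2 * (D ^ 2 / 4) := by ring
      have h2 : (κ * A ^ 2 / 2 + κ * B ^ 2 / 2) / 2 = κ / 2 * ((A ^ 2 + B ^ 2) / 2) := by ring
      rw [this, h2]
      exact mul_le_mul_of_nonneg_left (by linarith) (by positivity))
    (by
      have h1 : (κ * A ^ 2 / 2 - κ * B ^ 2 / 2) ^ 2 = κ ^ 2 / 4 * ((A - B) ^ 2 * (A + B) ^ 2) := by ring
      have h2 : (A + B) ^ 2 ≤ 4 * R ^ 2 := by nlinarith
      have h3 : (A - B) ^ 2 * (A + B) ^ 2 ≤ D ^ 2 * (4 * R ^ 2) :=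
        mul_le_mul hAB h2 (by positivity) (by positivity)
      have h4 : κ ^ 2 / 4 * (D ^ 2 * (4 * R ^ 2)) = κ * D ^ 2 / 8 / 50 := by
        have : κ ^ 2 / 4 * (D ^ 2 * (4 * R ^ 2)) = κ * D ^ 2 * (κ * R ^ 2) := by ring
        rw [this, hκR]; ring
      rw [h1, ← h4]
      exact mul_le_mul_of_nonneg_left h3 (by positivity))
  constructor
  · unfold thF
    rw [hmid, hmidn, hxz]
    have e1 : 1 + κ * ((A ^ 2 + B ^ 2) / 2 - D ^ 2 / 4) / 2
        = 1 + (κ * A ^ 2 / 2 + κ * B ^ 2 / 2) / 2 - κ * D ^ 2 / 8 := by ring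
    have e2 : 1 - κ * D ^ 2 / 10 = 1 - 4 / 5 * (κ * D ^ 2 / 8) := by ring
    rw [e1, e2]
    exact hpoly
  · rw [hxz]
    have : D ^ 2 ≤ 4 * R ^ 2 := by nlinarith
    have h2 : κ * D ^ 2 ≤ κ * (4 * R ^ 2) := mul_le_mul_of_nonneg_left this hκ0.le
    nlinarith

/-- pointwise hypothesis of PL. -/
lemma pl_pointwise {d : ℕ} (x0 : EE d) {κ R : ℝ} (hR : 0 < R) (hκ : κ = 1 / (400 * R ^ 2)) {x z : EE d}
    (hx : x ∈ Metric.closedBall x0 R) (hz : z ∈ Metric.closedBall x0 R) {α β : ℝ}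
    (hαβ : α + β ≤ κ * ‖x - z‖ ^ 2 / 10) :
    ((thF x0 κ x)⁻¹ * Real.exp α) * ((thF x0 κ z)⁻¹ * Real.exp β)
      ≤ ((thF x0 κ ((1 / 2 : ℝ) • (x + z)))⁻¹) ^ 2 := by
  have hκ0 : 0 < κ := by rw [hκ]; positivity
  obtain ⟨h1, h2⟩ := w1 x0 hR hκ hx hz
  set q := κ * ‖x - z‖ ^ 2 / 10 with hq
  have hθx : 0 < thF x0 κ x := lt_of_lt_of_le one_pos (one_le_thF x0 hκ0.le x)
  have hθz : 0 < thF x0 κ z := lt_of_lt_of_le one_pos (one_le_thF x0 hκ0.le z)
  have hθm : 0 < thF x0 κ ((1 / 2 : ℝ) • (x + z)) := lt_of_lt_of_le one_pos (one_le_thF x0 hκ0.le _)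
  have hq1 : 0 < 1 - q := by linarith
  have hexp : Real.exp (α + β) * (1 - q) ≤ 1 := by
    have h3 : 1 - q ≤ Real.exp (-q) := by
      have := Real.add_one_le_exp (-q); linarith
    calc Real.exp (α + β) * (1 - q) ≤ Real.exp q * Real.exp (-q) :=
          mul_le_mul (Real.exp_le_exp.2 hαβ) h3 hq1.le (Real.exp_pos _).le
      _ = 1 := by rw [← Real.exp_add]; simp
  have e1 : ((thF x0 κ x)⁻¹ * Real.exp α) * ((thF x0 κ z)⁻¹ * Real.exp β)
      = Real.exp (α + β) * (thF x0 κ x * thF x0 κ z)⁻¹ := by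
    rw [Real.exp_add, mul_inv]; ring
  rw [e1, inv_pow]
  rw [← div_eq_mul_inv, div_le_iff₀ (mul_pos hθx hθz)]
  rw [inv_mul_eq_div, le_div_iff₀ (by positivity)]
  calc Real.exp (α + β) * thF x0 κ ((1 / 2 : ℝ) • (x + z)) ^ 2
      ≤ Real.exp (α + β) * (thF x0 κ x * thF x0 κ z * (1 - q)) :=
        mul_le_mul_of_nonneg_left h1 (Real.exp_pos _).le
    _ = (Real.exp (α + β) * (1 - q)) * (thF x0 κ x * thF x0 κ z) := by ring
    _ ≤ 1 * (thF x0 κ x * thF x0 κ z) := mul_le_mul_of_nonneg_right hexp (mul_pos hθx hθz).le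
    _ = thF x0 κ x * thF x0 κ z := one_mul _


lemma intOn_of_cont {d : ℕ} {K C : Set (EE d)} (hK : IsCompact K) (hCK : C ⊆ K) {f : EE d → ℝ}
    (hf : Continuous f) : IntegrableOn f C :=
  (hf.continuousOn.integrableOn_compact hK).mono_set hCK

/-- Jensen for `exp`, by the tangent line. -/
lemma jensen_exp {d : ℕ} {K C : Set (EE d)} (hK : IsCompact K) (hCK : C ⊆ K)
    (ω ζ : EE d → ℝ) (hω : Continuous ω) (hω0 : ∀ x, 0 ≤ ω x) (hζ : Continuous ζ) (τ : ℝ)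
    (hP : 0 < ∫ x in C, ω x) :
    (∫ x in C, ω x) * Real.exp (τ * ((∫ x in C, ζ x * ω x) / (∫ x in C, ω x)))
      ≤ ∫ x in C, ω x * Real.exp (τ * ζ x) := by
  set P := ∫ x in C, ω x with hPdef
  set S := ∫ x in C, ζ x * ω x with hSdef
  set E := S / P with hE
  have hi1 : IntegrableOn ω C := intOn_of_cont hK hCK hω
  have hi2 : IntegrableOn (fun x => ζ x * ω x) C := intOn_of_cont hK hCK (hζ.mul hω)
  have hi3 : IntegrableOn (fun x => ω x * Real.exp (τ * ζ x)) C :=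
    intOn_of_cont hK hCK (hω.mul (Real.continuous_exp.comp (continuous_const.mul hζ)))
  have hlin : ∫ x in C, (Real.exp (τ * E) * (1 - τ * E)) * ω x + (Real.exp (τ * E) * τ) * (ζ x * ω x)
      = P * Real.exp (τ * E) := by
    rw [integral_add (hi1.const_mul _) (hi2.const_mul _), integral_const_mul, integral_const_mul,
      ← hPdef, ← hSdef]
    have : S = E * P := by rw [hE]; field_simp
    rw [this]; ring
  rw [← hlin]
  apply integral_mono ((hi1.const_mul _).add (hi2.const_mul _)) hi3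
  intro x
  have h1 : (τ * ζ x - τ * E) + 1 ≤ Real.exp (τ * ζ x - τ * E) := Real.add_one_le_exp _
  have h2 : Real.exp (τ * ζ x) = Real.exp (τ * E) * Real.exp (τ * ζ x - τ * E) := by
    rw [← Real.exp_add]; congr 1; ring
  have h3 : Real.exp (τ * E) * ((τ * ζ x - τ * E) + 1) ≤ Real.exp (τ * ζ x) := by
    rw [h2]; exact mul_le_mul_of_nonneg_left h1 (Real.exp_pos _).le
  have h4 := mul_le_mul_of_nonneg_left h3 (hω0 x)
  calc (Real.exp (τ * E) * (1 - τ * E)) * ω x + (Real.exp (τ * E) * τ) * (ζ x * ω x)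
      = ω x * (Real.exp (τ * E) * ((τ * ζ x - τ * E) + 1)) := by ring
    _ ≤ _ := h4

/-- The PL + Jensen step (W3). -/
theorem plj {d : ℕ} (hPL : PLProp d) (x0 : EE d) {κ R : ℝ} (hR : 0 < R) (hκ : κ = 1 / (400 * R ^ 2))
    {K C C' C'' : Set (EE d)} (hK : IsCompact K) (hKR : K ⊆ Metric.closedBall x0 R)
    (hC : MeasurableSet C) (hC' : MeasurableSet C') (hC'' : MeasurableSet C'')
    (hCK : C ⊆ K) (hCK' : C' ⊆ K) (hCK'' : C'' ⊆ K)
    (hmid : ∀ x ∈ C, ∀ z ∈ C', (1 / 2 : ℝ) • (x + z) ∈ C'')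
    (ζ : EE d → ℝ) (hζ : Continuous ζ) {L : ℝ} (hL : 0 < L)
    (hζL : ∀ x ∈ K, ∀ z ∈ K, |ζ x - ζ z| ≤ L * ‖x - z‖)
    (hP : 0 < ∫ x in C, (thF x0 κ x)⁻¹) (hP' : 0 < ∫ x in C', (thF x0 κ x)⁻¹) :
    (∫ x in C, (thF x0 κ x)⁻¹) * (∫ x in C', (thF x0 κ x)⁻¹) *
      (1 + κ / (20 * L ^ 2) * ((∫ x in C', ζ x * (thF x0 κ x)⁻¹) / (∫ x in C', (thF x0 κ x)⁻¹)
        - (∫ x in C, ζ x * (thF x0 κ x)⁻¹) / (∫ x in C, (thF x0 κ x)⁻¹)) ^ 2) ^ 2
      ≤ (∫ x in C'', (thF x0 κ x)⁻¹) ^ 2 := by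
  have hκ0 : 0 < κ := by rw [hκ]; positivity
  set ω : EE d → ℝ := fun x => (thF x0 κ x)⁻¹ with hω
  have hθpos : ∀ x, 0 < thF x0 κ x := fun x => lt_of_lt_of_le one_pos (one_le_thF x0 hκ0.le x)
  have hωc : Continuous ω := (thF_continuous x0 κ).inv₀ (fun x => (hθpos x).ne')
  have hω0 : ∀ x, 0 ≤ ω x := fun x => (inv_pos.2 (hθpos x)).le
  set P := ∫ x in C, ω x with hPd
  set P' := ∫ x in C', ω x with hPd'
  set P'' := ∫ x in C'', ω x with hPd''
  set E := (∫ x in C, ζ x * ω x) / P with hE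
  set E' := (∫ x in C', ζ x * ω x) / P' with hE'
  set Δ := E' - E with hΔ
  set t := κ * Δ / (5 * L ^ 2) with ht
  set a := 5 * t ^ 2 * L ^ 2 / (2 * κ) with ha
  -- the three functions
  set g0 : EE d → ℝ := fun x => ω x * Real.exp (-t * ζ x - a) with hg0
  set g1 : EE d → ℝ := fun x => ω x * Real.exp (t * ζ x) with hg1
  have hg0c : Continuous g0 :=
    hωc.mul (Real.continuous_exp.comp ((continuous_const.mul hζ).sub continuous_const))
  have hg1c : Continuous g1 := hωc.mul (Real.continuous_exp.comp (continuous_const.mul hζ))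
  obtain ⟨M0, hM0⟩ := hK.exists_bound_of_continuousOn hg0c.continuousOn
  obtain ⟨M1, hM1⟩ := hK.exists_bound_of_continuousOn hg1c.continuousOn
  simp only [Real.norm_eq_abs] at hM0 hM1
  have hfar : ∀ x : EE d, ‖x0‖ + R < ‖x‖ → x ∉ K := by
    intro x hx hxK
    have h1 : ‖x - x0‖ ≤ R := by simpa [dist_eq_norm] using hKR hxK
    have h2 : ‖x‖ ≤ ‖x0‖ + ‖x - x0‖ := by
      calc ‖x‖ = ‖x0 + (x - x0)‖ := by congr 1; abel
        _ ≤ _ := norm_add_le _ _
    linarith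
  have key := pl_real hPL (C.indicator g0) (C'.indicator g1) (C''.indicator ω)
    (fun x => indicator_nonneg (fun y _ => mul_nonneg (hω0 y) (Real.exp_pos _).le) x)
    (fun x => indicator_nonneg (fun y _ => mul_nonneg (hω0 y) (Real.exp_pos _).le) x)
    (fun x => indicator_nonneg (fun y _ => hω0 y) x)
    (hg0c.measurable.indicator hC) (hg1c.measurable.indicator hC') (hωc.measurable.indicator hC'')
    ((integrable_indicator_iff hC).2 (intOn_of_cont hK hCK hg0c))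
    ((integrable_indicator_iff hC').2 (intOn_of_cont hK hCK' hg1c))
    ((integrable_indicator_iff hC'').2 (intOn_of_cont hK hCK'' hωc))
    (max (max M0 M1) 0) (‖x0‖ + R)
    (fun x => by
      by_cases hx : x ∈ C
      · rw [indicator_of_mem hx]
        exact le_trans (le_trans (le_abs_self _) (hM0 x (hCK hx)))
          (le_trans (le_max_left _ _) (le_max_left _ _))
      · rw [indicator_of_notMem hx]; exact le_max_right _ _)
    (fun x => by
      by_cases hx : x ∈ C'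
      · rw [indicator_of_mem hx]
        exact le_trans (le_trans (le_abs_self _) (hM1 x (hCK' hx)))
          (le_trans (le_max_right _ _) (le_max_left _ _))
      · rw [indicator_of_notMem hx]; exact le_max_right _ _)
    (fun x hx => indicator_of_notMem (fun hxC => hfar x hx (hCK hxC)) _)
    (fun x hx => indicator_of_notMem (fun hxC => hfar x hx (hCK' hxC)) _)
    (by
      intro x z
      by_cases hx : x ∈ C
      · by_cases hz : z ∈ C'
        · rw [indicator_of_mem hx, indicator_of_mem hz, indicator_of_mem (hmid x hx z hz)]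
          apply pl_pointwise x0 hR hκ (hKR (hCK hx)) (hKR (hCK' hz))
          -- (W3)
          have h1 := hζL x (hCK hx) z (hCK' hz)
          set δ := ‖x - z‖
          have h2 : -t * (ζ x - ζ z) ≤ |t| * (L * δ) := by
            calc -t * (ζ x - ζ z) ≤ |-t * (ζ x - ζ z)| := le_abs_self _
              _ = |t| * |ζ x - ζ z| := by rw [abs_mul, abs_neg]
              _ ≤ |t| * (L * δ) := mul_le_mul_of_nonneg_left h1 (abs_nonneg _)
          have h3 : |t| * (L * δ) ≤ κ * δ ^ 2 / 10 + a := by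
            have h4 : a = 5 * (|t| * L) ^ 2 / (2 * κ) := by rw [ha, mul_pow, sq_abs]; ring
            rw [h4]
            have h5 : 0 ≤ (κ * δ - 5 * (|t| * L)) ^ 2 / (10 * κ) := by positivity
            have h6 : (κ * δ - 5 * (|t| * L)) ^ 2 / (10 * κ)
                = κ * δ ^ 2 / 10 + 5 * (|t| * L) ^ 2 / (2 * κ) - |t| * (L * δ) := by
              field_simp; ring
            linarith
          linarith
        · rw [indicator_of_notMem hz]; simp only [mul_zero]; positivity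
      · rw [indicator_of_notMem hx]; simp only [zero_mul]; positivity)
  rw [integral_indicator hC, integral_indicator hC', integral_indicator hC'', ← hPd''] at key
  -- Jensen
  have j0 := jensen_exp hK hCK ω ζ hωc hω0 hζ (-t) hP
  have j1 := jensen_exp hK hCK' ω ζ hωc hω0 hζ t hP'
  rw [← hPd, ← hE] at j0
  rw [← hPd', ← hE'] at j1
  have e0 : ∫ x in C, g0 x = Real.exp (-a) * ∫ x in C, ω x * Real.exp (-t * ζ x) := by
    rw [← integral_const_mul]
    apply integral_congr_ae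
    filter_upwards with x
    simp only [hg0]
    rw [sub_eq_add_neg, Real.exp_add]; ring
  have l0 : Real.exp (-a) * (P * Real.exp (-t * E)) ≤ ∫ x in C, g0 x := by
    rw [e0]; exact mul_le_mul_of_nonneg_left j0 (Real.exp_pos _).le
  have l1 : P' * Real.exp (t * E') ≤ ∫ x in C', g1 x := j1
  have hprod : (Real.exp (-a) * (P * Real.exp (-t * E))) * (P' * Real.exp (t * E')) ≤ P'' ^ 2 :=
    le_trans (mul_le_mul l0 l1 (by positivity) (le_trans (by positivity) l0)) key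
  set v := κ / (20 * L ^ 2) * Δ ^ 2 with hv
  have hexp : Real.exp (-a) * Real.exp (-t * E) * Real.exp (t * E') = Real.exp v ^ 2 := by
    rw [← Real.exp_add, ← Real.exp_add, sq, ← Real.exp_add]
    congr 1
    rw [ha, ht, hv, hΔ]
    field_simp
    ring
  have hv1 : (1 + v) ^ 2 ≤ Real.exp v ^ 2 := by
    have hv0 : 0 ≤ v := by rw [hv]; positivity
    apply pow_le_pow_left₀ (by linarith)
    have := Real.add_one_le_exp v; linarith
  calc P * P' * (1 + v) ^ 2 ≤ P * P' * Real.exp v ^ 2 :=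
        mul_le_mul_of_nonneg_left hv1 (mul_pos hP hP').le
    _ = (Real.exp (-a) * (P * Real.exp (-t * E))) * (P' * Real.exp (t * E')) := by
        rw [← hexp]; ring
    _ ≤ P'' ^ 2 := hprod

end Crest.Agent.S0109KSL
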