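import Mathlib
import Crest.Agent.S0109_KSLPL

/-!
Row 82 (S0109), module D (key stability lemma), part 3: Laguerre cells (local copy of the definition) and integrals over them.
-/

set_option autoImplicit false

namespace Crest.Agent.S0109KSL

open MeasureTheory Set
open scoped ENNReal

variable {d : ℕ} {ι : Type*}

/-- Laguerre cell. -/
def kcell (y : ι → EE d) (c : ι → ℝ) (i : ι) : Set (EE d) :=
  {x | ∀ j, inner ℝ x (y j) - c j ≤ inner ℝ x (y i) - c i}

lemma kcell_isClosed (y : ι → EE d) (c : ι → ℝ) (i : ι) : IsClosed (kcell y c i) := by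
  unfold kcell
  rw [setOf_forall]
  apply isClosed_iInter
  intro j
  apply isClosed_le <;> fun_prop

lemma kcell_measurable (y : ι → EE d) (c : ι → ℝ) (i : ι) : MeasurableSet (kcell y c i) :=
  (kcell_isClosed y c i).measurableSet

lemma kcell_cover [Finite ι] [Nonempty ι] (y : ι → EE d) (c : ι → ℝ) : ⋃ i, kcell y c i = univ := by
  apply eq_univ_of_forall
  intro x
  obtain ⟨i, hi⟩ := Finite.exists_max (fun j => inner ℝ x (y j) - c j)
  exact mem_iUnion.2 ⟨i, hi⟩

lemma hyperplane_null (v : EE d) (hv : v ≠ 0) (r : ℝ) :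
    volume {x : EE d | inner ℝ x v = r} = 0 := by
  set S : Submodule ℝ (EE d) := LinearMap.ker (innerSL ℝ v).toLinearMap with hS
  have hStop : S ≠ ⊤ := by
    intro h
    have : v ∈ S := by rw [h]; trivial
    rw [hS, LinearMap.mem_ker] at this
    simp at this
    exact hv this
  have h0 : volume (S : Set (EE d)) = 0 := Measure.addHaar_submodule volume S hStop
  set p : EE d := (r / ‖v‖ ^ 2) • v with hp
  have hvv : ‖v‖ ^ 2 ≠ 0 := by
    have : ‖v‖ ≠ 0 := norm_ne_zero_iff.2 hv
    positivity
  have hset : {x : EE d | inner ℝ x v = r} = (fun x => x + (-p)) ⁻¹' (S : Set (EE d)) := by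
    ext x
    simp only [mem_setOf_eq, mem_preimage, SetLike.mem_coe, hS, LinearMap.mem_ker,
      ContinuousLinearMap.coe_coe, innerSL_apply_apply]
    rw [inner_add_right, inner_neg_right, hp, inner_smul_right, real_inner_self_eq_norm_sq,
      real_inner_comm]
    constructor
    · intro h; rw [h]; field_simp; ring
    · intro h
      have : r / ‖v‖ ^ 2 * ‖v‖ ^ 2 = r := by field_simp
      linarith
  rw [hset, measure_preimage_add_right, h0]

lemma kcell_aedisjoint (y : ι → EE d) (hy : Function.Injective y) (c : ι → ℝ) (K : Set (EE d)) :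
    Pairwise (Function.onFun (AEDisjoint volume) (fun i => K ∩ kcell y c i)) := by
  intro i j hij
  have hv : y i - y j ≠ 0 := sub_ne_zero.2 (fun h => hij (hy h))
  apply measure_mono_null _ (hyperplane_null (y i - y j) hv (c i - c j))
  intro x hx
  have h1 := hx.1.2 j
  have h2 := hx.2.2 i
  simp only [mem_setOf_eq, inner_sub_right]
  linarith

lemma kcell_mid (y : ι → EE d) (c c' : ι → ℝ) (i : ι) {x z : EE d} (hx : x ∈ kcell y c i)
    (hz : z ∈ kcell y c' i) :
    (1 / 2 : ℝ) • (x + z) ∈ kcell y (fun j => (c j + c' j) / 2) i := by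
  intro j
  have h1 := hx j
  have h2 := hz j
  simp only [inner_smul_left, inner_add_left]
  simp only [map_div₀, map_one, map_ofNat] 
  linarith

/-- integrals over `K` split over the cells. -/
lemma sum_cells [Fintype ι] [Nonempty ι] (y : ι → EE d) (hy : Function.Injective y) (c : ι → ℝ)
    {K : Set (EE d)} (hK : MeasurableSet K) {f : EE d → ℝ} (hf : IntegrableOn f K) :
    ∑ i, ∫ x in K ∩ kcell y c i, f x = ∫ x in K, f x := by
  have hU : ⋃ i, K ∩ kcell y c i = K := by
    rw [← inter_iUnion, kcell_cover, inter_univ]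
  have := integral_iUnion_ae (μ := volume) (f := f) (s := fun i => K ∩ kcell y c i)
    (fun i => (hK.inter (kcell_measurable y c i)).nullMeasurableSet)
    (kcell_aedisjoint y hy c K) (by rw [hU]; exact hf)
  rw [hU, tsum_fintype] at this
  exact this.symm

end Crest.Agent.S0109KSL
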