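import Mathlib
import Crest.Agent.S0109_KSLPL

/-!
Row 82 (S0109), module D (key stability lemma), part 4: integrals over a measurable subset `C` of `K`.
-/

set_option autoImplicit false

namespace Crest.Agent.S0109KSL

open MeasureTheory Set
open scoped ENNReal

variable {d : ℕ} (x0 : EE d) {κ R : ℝ} {K C : Set (EE d)}

lemma vol_lt_top (hK : IsCompact K) (hCK : C ⊆ K) : volume C < ∞ :=
  lt_of_le_of_lt (measure_mono hCK) hK.measure_lt_top

lemma om_bounds (hR : 0 < R) (hκ : κ = 1 / (400 * R ^ 2)) (hK : IsCompact K)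
    (hKR : K ⊆ Metric.closedBall x0 R) (hC : MeasurableSet C) (hCK : C ⊆ K) :
    (∫ x in C, (thF x0 κ x)⁻¹) ≤ volume.real C ∧ volume.real C ≤ 1.00125 * ∫ x in C, (thF x0 κ x)⁻¹ := by
  have hκ0 : 0 < κ := by rw [hκ]; positivity
  have hθpos : ∀ x, 0 < thF x0 κ x := fun x => lt_of_lt_of_le one_pos (one_le_thF x0 hκ0.le x)
  have hωc : Continuous (fun x => (thF x0 κ x)⁻¹) := (thF_continuous x0 κ).inv₀ (fun x => (hθpos x).ne')
  have hi : IntegrableOn (fun x => (thF x0 κ x)⁻¹) C := intOn_of_cont hK hCK hωc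
  have h1 : IntegrableOn (fun _ => (1 : ℝ)) C := integrableOn_const (vol_lt_top hK hCK).ne
  have hv : ∫ _ in C, (1 : ℝ) = volume.real C := by rw [setIntegral_const]; simp
  constructor
  · rw [← hv]
    apply setIntegral_mono_on hi h1 hC
    intro x _
    exact inv_le_one_of_one_le₀ (one_le_thF x0 hκ0.le x)
  · rw [← hv, ← integral_const_mul]
    apply setIntegral_mono_on h1 (hi.const_mul _) hC
    intro x hx
    have := thF_le x0 hR hκ (hKR (hCK hx))
    rw [← div_eq_mul_inv, le_div_iff₀ (hθpos x)]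
    linarith

lemma th_om (hκ0 : 0 < κ) : ∫ x in C, thF x0 κ x * (thF x0 κ x)⁻¹ = volume.real C := by
  have hθpos : ∀ x, 0 < thF x0 κ x := fun x => lt_of_lt_of_le one_pos (one_le_thF x0 hκ0.le x)
  have : ∀ x, thF x0 κ x * (thF x0 κ x)⁻¹ = 1 := fun x => mul_inv_cancel₀ (hθpos x).ne'
  simp only [this]
  rw [setIntegral_const]; simp

lemma intOn_sub (hK : IsCompact K) (hCK : C ⊆ K) : IntegrableOn (fun x : EE d => x - x0) C :=
  ((continuous_id.sub continuous_const).continuousOn.integrableOn_compact hK).mono_set hCK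

lemma zu_om (hκ0 : 0 < κ) (hK : IsCompact K) (hCK : C ⊆ K) (u : EE d) :
    ∫ x in C, (inner ℝ u (x - x0) * thF x0 κ x) * (thF x0 κ x)⁻¹ = inner ℝ u (∫ x in C, (x - x0)) := by
  have hθpos : ∀ x, 0 < thF x0 κ x := fun x => lt_of_lt_of_le one_pos (one_le_thF x0 hκ0.le x)
  have : ∀ x, (inner ℝ u (x - x0) * thF x0 κ x) * (thF x0 κ x)⁻¹ = inner ℝ u (x - x0) := fun x => by
    rw [mul_assoc, mul_inv_cancel₀ (hθpos x).ne', mul_one]
  simp only [this]
  exact integral_inner (intOn_sub x0 hK hCK) u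

lemma thF_lip (hR : 0 < R) (hκ0 : 0 < κ) (hKR : K ⊆ Metric.closedBall x0 R) :
    ∀ x ∈ K, ∀ z ∈ K, |thF x0 κ x - thF x0 κ z| ≤ (κ * R) * ‖x - z‖ := by
  intro x hx z hz
  have hu1 : ‖x - x0‖ ≤ R := by simpa [dist_eq_norm] using hKR hx
  have hv1 : ‖z - x0‖ ≤ R := by simpa [dist_eq_norm] using hKR hz
  have hd : |‖x - x0‖ - ‖z - x0‖| ≤ ‖x - z‖ := by
    have := abs_norm_sub_norm_le (x - x0) (z - x0)
    simpa using this
  unfold thF
  have e : 1 + κ * ‖x - x0‖ ^ 2 / 2 - (1 + κ * ‖z - x0‖ ^ 2 / 2)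
      = κ / 2 * ((‖x - x0‖ - ‖z - x0‖) * (‖x - x0‖ + ‖z - x0‖)) := by ring
  rw [e, abs_mul, abs_mul, abs_of_pos (by positivity : 0 < κ / 2),
    abs_of_nonneg (by positivity : 0 ≤ ‖x - x0‖ + ‖z - x0‖)]
  have h1 : |‖x - x0‖ - ‖z - x0‖| * (‖x - x0‖ + ‖z - x0‖) ≤ ‖x - z‖ * (2 * R) :=
    mul_le_mul hd (by linarith) (by positivity) (norm_nonneg _)
  calc κ / 2 * (|‖x - x0‖ - ‖z - x0‖| * (‖x - x0‖ + ‖z - x0‖)) ≤ κ / 2 * (‖x - z‖ * (2 * R)) :=
        mul_le_mul_of_nonneg_left h1 (by positivity)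
    _ = κ * R * ‖x - z‖ := by ring

lemma zu_lip (hR : 0 < R) (hκ : κ = 1 / (400 * R ^ 2)) (hKR : K ⊆ Metric.closedBall x0 R)
    (u : EE d) (hu : ‖u‖ ≤ 1) :
    ∀ x ∈ K, ∀ z ∈ K, |inner ℝ u (x - x0) * thF x0 κ x - inner ℝ u (z - x0) * thF x0 κ z| ≤ 2 * ‖x - z‖ := by
  intro x hx z hz
  have hκ0 : 0 < κ := by rw [hκ]; positivity
  have hκR : κ * R ^ 2 = 1 / 400 := by rw [hκ]; field_simp
  have hl := thF_lip x0 hR hκ0 hKR x hx z hz
  have hθx := thF_le x0 hR hκ (hKR hx)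
  have hθx1 := one_le_thF x0 hκ0.le x
  have hv1 : ‖z - x0‖ ≤ R := by simpa [dist_eq_norm] using hKR hz
  have e : inner ℝ u (x - x0) * thF x0 κ x - inner ℝ u (z - x0) * thF x0 κ z
      = inner ℝ u (x - z) * thF x0 κ x + inner ℝ u (z - x0) * (thF x0 κ x - thF x0 κ z) := by
    have : x - x0 = (x - z) + (z - x0) := by abel
    rw [this, inner_add_right]; ring
  have i1 : |inner ℝ u (x - z)| ≤ ‖x - z‖ := by
    calc |inner ℝ u (x - z)| ≤ ‖u‖ * ‖x - z‖ := abs_real_inner_le_norm _ _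
      _ ≤ 1 * ‖x - z‖ := mul_le_mul_of_nonneg_right hu (norm_nonneg _)
      _ = ‖x - z‖ := one_mul _
  have i2 : |inner ℝ u (z - x0)| ≤ R := by
    calc |inner ℝ u (z - x0)| ≤ ‖u‖ * ‖z - x0‖ := abs_real_inner_le_norm _ _
      _ ≤ 1 * R := mul_le_mul hu hv1 (norm_nonneg _) (by norm_num)
      _ = R := one_mul _
  rw [e]
  calc |inner ℝ u (x - z) * thF x0 κ x + inner ℝ u (z - x0) * (thF x0 κ x - thF x0 κ z)|
      ≤ |inner ℝ u (x - z)| * |thF x0 κ x| + |inner ℝ u (z - x0)| * |thF x0 κ x - thF x0 κ z| := by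
        rw [← abs_mul, ← abs_mul]; exact abs_add_le _ _
    _ ≤ ‖x - z‖ * 1.00125 + R * ((κ * R) * ‖x - z‖) := by
        apply add_le_add
        · rw [abs_of_pos (by linarith : 0 < thF x0 κ x)]
          exact mul_le_mul i1 hθx (by linarith) (norm_nonneg _)
        · exact mul_le_mul i2 hl (abs_nonneg _) hR.le
    _ = ‖x - z‖ * 1.00125 + (κ * R ^ 2) * ‖x - z‖ := by ring
    _ ≤ 2 * ‖x - z‖ := by rw [hκR]; nlinarith [norm_nonneg (x - z)]

lemma norm_M (hK : IsCompact K) (hKR : K ⊆ Metric.closedBall x0 R) (hCK : C ⊆ K) :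
    ‖∫ x in C, (x - x0)‖ ≤ R * volume.real C := by
  apply norm_setIntegral_le_of_norm_le_const (vol_lt_top hK hCK)
  intro x hx
  simpa [dist_eq_norm] using hKR (hCK hx)

section g1

variable {g1 : EE d → ℝ}

lemma intOn_bdd {V : Type*} [NormedAddCommGroup V] (hK : IsCompact K) (hC : MeasurableSet C) (hCK : C ⊆ K)
    {F : EE d → V} (hF : AEStronglyMeasurable F volume) {M : ℝ} (hM : ∀ x ∈ K, ‖F x‖ ≤ M) : IntegrableOn F C := by
  apply Measure.integrableOn_of_bounded (vol_lt_top hK hCK).ne hF (M := M)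
  rw [ae_restrict_iff' hC]
  exact Filter.Eventually.of_forall fun x hx => hM x (hCK hx)

lemma g1_bd (hg1b : ∀ x ∈ K, |g1 x - 1| ≤ 1 / 2) : ∀ x ∈ K, ‖g1 x‖ ≤ 3 / 2 := by
  intro x hx
  have := abs_le.1 (hg1b x hx)
  rw [Real.norm_eq_abs, abs_le]; constructor <;> linarith [this.1, this.2]

lemma g1_int (hK : IsCompact K) (hC : MeasurableSet C) (hCK : C ⊆ K) (hg1 : Measurable g1)
    (hg1b : ∀ x ∈ K, |g1 x - 1| ≤ 1 / 2) : IntegrableOn g1 C :=
  intOn_bdd hK hC hCK hg1.aestronglyMeasurable (g1_bd hg1b)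

lemma g1abs_int (hK : IsCompact K) (hC : MeasurableSet C) (hCK : C ⊆ K) (hg1 : Measurable g1)
    (hg1b : ∀ x ∈ K, |g1 x - 1| ≤ 1 / 2) : IntegrableOn (fun x => |g1 x - 1|) C :=
  intOn_bdd hK hC hCK (hg1.sub_const 1).abs.aestronglyMeasurable (M := 1 / 2)
    (fun x hx => by rw [Real.norm_eq_abs, abs_abs]; exact hg1b x hx)

lemma g1sq_int (hK : IsCompact K) (hC : MeasurableSet C) (hCK : C ⊆ K) (hg1 : Measurable g1)
    (hg1b : ∀ x ∈ K, |g1 x - 1| ≤ 1 / 2) : IntegrableOn (fun x => (g1 x - 1) ^ 2) C :=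
  intOn_bdd hK hC hCK ((hg1.sub_const 1).pow_const 2).aestronglyMeasurable (M := 1 / 4)
    (fun x hx => by
      rw [Real.norm_eq_abs, abs_pow]
      have := hg1b x hx
      calc |g1 x - 1| ^ 2 ≤ (1 / 2) ^ 2 := pow_le_pow_left₀ (abs_nonneg _) this 2
        _ = 1 / 4 := by norm_num)

lemma one_int (hK : IsCompact K) (hCK : C ⊆ K) : IntegrableOn (fun _ : EE d => (1 : ℝ)) C :=
  integrableOn_const (vol_lt_top hK hCK).ne

lemma one_integral : ∫ _ in C, (1 : ℝ) = volume.real C := by rw [setIntegral_const]; simp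

lemma g1_lo_hi (hK : IsCompact K) (hC : MeasurableSet C) (hCK : C ⊆ K) (hg1 : Measurable g1)
    (hg1b : ∀ x ∈ K, |g1 x - 1| ≤ 1 / 2) :
    volume.real C / 2 ≤ ∫ x in C, g1 x ∧ ∫ x in C, g1 x ≤ 3 / 2 * volume.real C := by
  have hi := g1_int hK hC hCK hg1 hg1b
  have h1 := one_int (d := d) hK hCK
  constructor
  · have : volume.real C / 2 = ∫ _ in C, (1 / 2 : ℝ) * 1 := by
      rw [integral_const_mul, one_integral]; ring
    rw [this]
    apply setIntegral_mono_on (h1.const_mul _) hi hC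
    intro x hx
    have := abs_le.1 (hg1b x (hCK hx)); linarith [this.1]
  · have : 3 / 2 * volume.real C = ∫ _ in C, (3 / 2 : ℝ) * 1 := by
      rw [integral_const_mul, one_integral]
    rw [this]
    apply setIntegral_mono_on hi (h1.const_mul _) hC
    intro x hx
    have := abs_le.1 (hg1b x (hCK hx)); linarith [this.2]

lemma g1_sub_vol (hK : IsCompact K) (hC : MeasurableSet C) (hCK : C ⊆ K) (hg1 : Measurable g1)
    (hg1b : ∀ x ∈ K, |g1 x - 1| ≤ 1 / 2) :
    |(∫ x in C, g1 x) - volume.real C| ≤ ∫ x in C, |g1 x - 1| := by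
  have hi := g1_int hK hC hCK hg1 hg1b
  have h1 := one_int (d := d) hK hCK
  rw [← one_integral, ← integral_sub hi h1]
  exact abs_integral_le_integral_abs

lemma g1_vec_int (hK : IsCompact K) (hKR : K ⊆ Metric.closedBall x0 R) (hC : MeasurableSet C) (hCK : C ⊆ K)
    (hg1 : Measurable g1) (hg1b : ∀ x ∈ K, |g1 x - 1| ≤ 1 / 2) :
    IntegrableOn (fun x => g1 x • (x - x0)) C := by
  apply intOn_bdd hK hC hCK (M := 3 / 2 * R)
  · exact (hg1.aestronglyMeasurable).smul (continuous_id.sub continuous_const).aestronglyMeasurable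
  · intro x hx
    rw [norm_smul]
    have h2 : ‖x - x0‖ ≤ R := by simpa [dist_eq_norm] using hKR hx
    exact mul_le_mul (g1_bd hg1b x hx) h2 (norm_nonneg _) (by norm_num)

lemma g1_vec_sub (hR : 0 < R) (hK : IsCompact K) (hKR : K ⊆ Metric.closedBall x0 R) (hC : MeasurableSet C)
    (hCK : C ⊆ K) (hg1 : Measurable g1) (hg1b : ∀ x ∈ K, |g1 x - 1| ≤ 1 / 2) :
    ‖(∫ x in C, g1 x • (x - x0)) - ∫ x in C, (x - x0)‖ ≤ R * ∫ x in C, |g1 x - 1| := by
  rw [← integral_sub (g1_vec_int x0 hK hKR hC hCK hg1 hg1b) (intOn_sub x0 hK hCK), ← integral_const_mul]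
  apply norm_integral_le_of_norm_le ((g1abs_int hK hC hCK hg1 hg1b).const_mul R)
  rw [ae_restrict_iff' hC]
  refine Filter.Eventually.of_forall fun x hx => ?_
  have e : g1 x • (x - x0) - (x - x0) = (g1 x - 1) • (x - x0) := by rw [sub_smul, one_smul]
  rw [e, norm_smul, Real.norm_eq_abs, mul_comm]
  have h2 : ‖x - x0‖ ≤ R := by simpa [dist_eq_norm] using hKR (hCK hx)
  exact mul_le_mul_of_nonneg_right h2 (abs_nonneg _)

/-- Cauchy–Schwarz on `C`. -/
lemma g1_cs (hK : IsCompact K) (hC : MeasurableSet C) (hCK : C ⊆ K) (hg1 : Measurable g1)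
    (hg1b : ∀ x ∈ K, |g1 x - 1| ≤ 1 / 2) :
    (∫ x in C, |g1 x - 1|) ^ 2 ≤ volume.real C * ∫ x in C, (g1 x - 1) ^ 2 := by
  set A := ∫ x in C, |g1 x - 1| with hA
  set B := ∫ x in C, (g1 x - 1) ^ 2 with hB
  set V := volume.real C with hV
  have ia := g1abs_int hK hC hCK hg1 hg1b
  have ib := g1sq_int hK hC hCK hg1 hg1b
  have i1 := one_int (d := d) hK hCK
  have hV0 : 0 ≤ V := measureReal_nonneg
  have key : ∀ l : ℝ, 0 ≤ B - 2 * l * A + l ^ 2 * V := by
    intro l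
    have h : 0 ≤ ∫ x in C, (|g1 x - 1| - l) ^ 2 := integral_nonneg fun x => sq_nonneg _
    have e : ∫ x in C, (|g1 x - 1| - l) ^ 2 = B - 2 * l * A + l ^ 2 * V := by
      have : ∀ x, (|g1 x - 1| - l) ^ 2 = (g1 x - 1) ^ 2 - (2 * l) * |g1 x - 1| + l ^ 2 * 1 := by
        intro x; rw [sub_sq, sq_abs]; ring
      simp only [this]
      have hsub : IntegrableOn (fun x => (g1 x - 1) ^ 2 - (2 * l) * |g1 x - 1|) C := ib.sub (ia.const_mul _)
      rw [integral_add hsub (i1.const_mul _), integral_sub ib (ia.const_mul _),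
        integral_const_mul, integral_const_mul, one_integral]
    rwa [e] at h
  by_cases hV1 : V = 0
  · have hA0 : 0 ≤ A := integral_nonneg fun x => abs_nonneg _
    have hB0 : 0 ≤ B := integral_nonneg fun x => sq_nonneg _
    -- A = 0
    have : A ≤ 0 := by
      by_contra hc
      rw [not_le] at hc
      have := key ((B + 1) / (2 * A))
      rw [hV1] at this
      have e : 2 * ((B + 1) / (2 * A)) * A = B + 1 := by field_simp
      rw [e] at this
      linarith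
    have hA1 : A = 0 := le_antisymm this hA0
    rw [hA1, hV1]; simp
  · have hVpos : 0 < V := lt_of_le_of_ne hV0 (Ne.symm hV1)
    have := key (A / V)
    have e : B - 2 * (A / V) * A + (A / V) ^ 2 * V = B - A ^ 2 / V := by field_simp; ring
    rw [e] at this
    have h2 : A ^ 2 / V ≤ B := by linarith
    rw [div_le_iff₀ hVpos] at h2
    linarith

end g1

end Crest.Agent.S0109KSL
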