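import Mathlib
import Crest.Agent.S0109_KSLAlg
import Crest.Agent.S0109_KSLPL
import Crest.Agent.S0109_KSLCell
import Crest.Agent.S0109_KSLSet

/-!
Row 82 (S0109), module D: the KEY STABILITY LEMMA (barycentres of Laguerre cells are Lipschitz in the source density).
`PLProp d` (Prékopa–Leindler, τ = 1/2) is a hypothesis, to be supplied by module A.
-/

set_option autoImplicit false

namespace Crest.Agent.S0109KSL

open MeasureTheory Set
open scoped ENNReal

theorem ksl {d : ℕ} (hPL : PLProp d) {ι : Type*} [Fintype ι] [Nonempty ι]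
    {K : Set (EE d)} (hK : IsCompact K) (hKv : Convex ℝ K) (x0 : EE d) {R : ℝ} (hR : 0 < R)
    (hKR : K ⊆ Metric.closedBall x0 R) (hKvol : 0 < volume.real K)
    (y : ι → EE d) (hy : Function.Injective y) (m : ι → ℝ) (hm : ∀ i, 0 < m i)
    (g1 : EE d → ℝ) (hg1 : Measurable g1) (hg1b : ∀ x ∈ K, |g1 x - 1| ≤ 1 / 2)
    (c c' : ι → ℝ)
    (hc : ∀ i, volume.real (K ∩ kcell y c i) = volume.real K * m i)
    (hc' : ∀ i, ∫ x in K ∩ kcell y c' i, g1 x = volume.real K * m i) :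
    ∑ i, m i * ‖(volume.real K * m i)⁻¹ • (∫ x in K ∩ kcell y c' i, g1 x • (x - x0))
        - (volume.real K * m i)⁻¹ • (∫ x in K ∩ kcell y c i, (x - x0))‖ ^ 2
      ≤ 5000000 * R ^ 2 * ((volume.real K)⁻¹ * ∫ x in K, (g1 x - 1) ^ 2) := by
  classical
  set κ : ℝ := 1 / (400 * R ^ 2) with hκ
  have hκ0 : 0 < κ := by rw [hκ]; positivity
  have hκR : κ * R ^ 2 = 1 / 400 := by rw [hκ]; field_simp
  have hKm : MeasurableSet K := hK.measurableSet
  set C : ι → Set (EE d) := fun i => K ∩ kcell y c i with hCdef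
  set C' : ι → Set (EE d) := fun i => K ∩ kcell y c' i with hCdef'
  set C'' : ι → Set (EE d) := fun i => K ∩ kcell y (fun j => (c j + c' j) / 2) i with hCdef''
  have mC : ∀ i, MeasurableSet (C i) := fun i => hKm.inter (kcell_measurable _ _ _)
  have mC' : ∀ i, MeasurableSet (C' i) := fun i => hKm.inter (kcell_measurable _ _ _)
  have mC'' : ∀ i, MeasurableSet (C'' i) := fun i => hKm.inter (kcell_measurable _ _ _)
  have sC : ∀ i, C i ⊆ K := fun i => inter_subset_left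
  have sC' : ∀ i, C' i ⊆ K := fun i => inter_subset_left
  have sC'' : ∀ i, C'' i ⊆ K := fun i => inter_subset_left
  have hθpos : ∀ x, 0 < thF x0 κ x := fun x => lt_of_lt_of_le one_pos (one_le_thF x0 hκ0.le x)
  have hωc : Continuous (fun x => (thF x0 κ x)⁻¹) := (thF_continuous x0 κ).inv₀ (fun x => (hθpos x).ne')
  set P : ι → ℝ := fun i => ∫ x in C i, (thF x0 κ x)⁻¹ with hPdef
  set P' : ι → ℝ := fun i => ∫ x in C' i, (thF x0 κ x)⁻¹ with hPdef'
  set P'' : ι → ℝ := fun i => ∫ x in C'' i, (thF x0 κ x)⁻¹ with hPdef''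
  set V : ι → ℝ := fun i => volume.real (C i) with hVdef
  set V' : ι → ℝ := fun i => volume.real (C' i) with hVdef'
  set G : ι → ℝ := fun i => ∫ x in C' i, g1 x with hGdef
  set D : ι → ℝ := fun i => ∫ x in C' i, |g1 x - 1| with hDdef
  set B : ι → ℝ := fun i => ∫ x in C' i, (g1 x - 1) ^ 2 with hBdef
  set M : ι → EE d := fun i => ∫ x in C i, (x - x0) with hMdef
  set M' : ι → EE d := fun i => ∫ x in C' i, (x - x0) with hMdef'
  set Mg : ι → EE d := fun i => ∫ x in C' i, g1 x • (x - x0) with hMgdef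
  have hVm : ∀ i, V i = volume.real K * m i := hc
  have hGm : ∀ i, G i = volume.real K * m i := hc'
  have hVpos : ∀ i, 0 < V i := fun i => by rw [hVm]; exact mul_pos hKvol (hm i)
  have hGpos : ∀ i, 0 < G i := fun i => by rw [hGm]; exact mul_pos hKvol (hm i)
  have bC := fun i => om_bounds x0 hR hκ hK hKR (mC i) (sC i)
  have bC' := fun i => om_bounds x0 hR hκ hK hKR (mC' i) (sC' i)
  have gC' := fun i => g1_lo_hi hK (mC' i) (sC' i) hg1 hg1b
  have hV'pos : ∀ i, 0 < V' i := fun i => by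
    have := (gC' i).2
    have h2 := hGpos i
    simp only [hGdef] at h2
    simp only [hVdef']
    linarith
  have hPpos : ∀ i, 0 < P i := fun i => by
    have := (bC i).2
    have h2 := hVpos i
    simp only [hVdef] at h2
    simp only [hPdef]
    linarith
  have hP'pos : ∀ i, 0 < P' i := fun i => by
    have := (bC' i).2
    have h2 := hV'pos i
    simp only [hVdef'] at h2
    simp only [hPdef']
    linarith
  have hP''0 : ∀ i, 0 ≤ P'' i := fun i => integral_nonneg fun x => (inv_pos.2 (hθpos x)).le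
  have hmid : ∀ i, ∀ x ∈ C i, ∀ z ∈ C' i, (1 / 2 : ℝ) • (x + z) ∈ C'' i := by
    intro i x hx z hz
    refine ⟨?_, kcell_mid y c c' i hx.2 hz.2⟩
    have := hKv hx.1 hz.1 (by norm_num : (0:ℝ) ≤ 1 / 2) (by norm_num : (0:ℝ) ≤ 1 / 2) (by norm_num)
    rwa [← smul_add] at this
  have hωK : IntegrableOn (fun x => (thF x0 κ x)⁻¹) K := hωc.continuousOn.integrableOn_compact hK
  have sumP : ∑ i, P i = ∫ x in K, (thF x0 κ x)⁻¹ := sum_cells y hy c hKm hωK
  have sumP' : ∑ i, P' i = ∫ x in K, (thF x0 κ x)⁻¹ := sum_cells y hy c' hKm hωK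
  have sumP'' : ∑ i, P'' i = ∫ x in K, (thF x0 κ x)⁻¹ := sum_cells y hy _ hKm hωK
  -- the θ step
  have hθ : ∀ i, P i * P' i * (1 + 20 * (V' i / P' i - V i / P i) ^ 2) ^ 2 ≤ P'' i ^ 2 := by
    intro i
    have := plj hPL x0 hR hκ hK hKR (mC i) (mC' i) (mC'' i) (sC i) (sC' i) (sC'' i) (hmid i)
      (thF x0 κ) (thF_continuous x0 κ) (L := κ * R) (by positivity) (thF_lip x0 hR hκ0 hKR)
      (hPpos i) (hP'pos i)
    rw [th_om x0 hκ0, th_om x0 hκ0] at this
    have e : κ / (20 * (κ * R) ^ 2) = 20 := by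
      have : 20 * (κ * R) ^ 2 = 20 * κ * (κ * R ^ 2) := by ring
      rw [this, hκR]; field_simp; norm_num
    rw [e] at this
    exact this
  -- the vector step
  have hN : ∀ i, P i * P' i * (1 + κ / 80 * ‖(P' i)⁻¹ • M' i - (P i)⁻¹ • M i‖ ^ 2) ^ 2 ≤ P'' i ^ 2 := by
    intro i
    set w := (P' i)⁻¹ • M' i - (P i)⁻¹ • M i with hw
    set u : EE d := ‖w‖⁻¹ • w with hu
    have hu1 : ‖u‖ ≤ 1 := by
      rw [hu, norm_smul, norm_inv, norm_norm]
      by_cases h0 : ‖w‖ = 0
      · rw [h0]; simp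
      · rw [inv_mul_cancel₀ h0]
    have huw : inner ℝ u w = ‖w‖ := by
      rw [hu, inner_smul_left, real_inner_self_eq_norm_sq]
      by_cases h0 : ‖w‖ = 0
      · rw [h0]; simp
      · simp only [conj_trivial]; field_simp
    have := plj hPL x0 hR hκ hK hKR (mC i) (mC' i) (mC'' i) (sC i) (sC' i) (sC'' i) (hmid i)
      (fun x => inner ℝ u (x - x0) * thF x0 κ x)
      ((by fun_prop : Continuous fun x : EE d => inner ℝ u (x - x0)).mul (thF_continuous x0 κ))
      (L := 2) (by norm_num) (zu_lip x0 hR hκ hKR u hu1) (hPpos i) (hP'pos i)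
    rw [zu_om x0 hκ0 hK (sC i), zu_om x0 hκ0 hK (sC' i)] at this
    have e : κ / (20 * 2 ^ 2) = κ / 80 := by norm_num
    have e2 : inner ℝ u (∫ x in C' i, (x - x0)) / (∫ x in C' i, (thF x0 κ x)⁻¹)
        - inner ℝ u (∫ x in C i, (x - x0)) / (∫ x in C i, (thF x0 κ x)⁻¹) = ‖w‖ := by
      rw [← huw, hw, inner_sub_right, inner_smul_right, inner_smul_right]
      simp only [hMdef, hMdef', hPdef, hPdef']
      ring
    rw [e, e2] at this
    exact this
  have main := alg_main R κ hR hκ P P' P'' (fun i => V i / P i) (fun i => V' i / P' i)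
    (fun i => G i / P' i) (fun i => D i / P' i) (fun i => (P i)⁻¹ • M i) (fun i => (P' i)⁻¹ • M' i)
    (fun i => (P' i)⁻¹ • Mg i) hPpos hP'pos hP''0
    (fun i => by rw [le_div_iff₀ (hPpos i)]; linarith [(bC i).1])
    (fun i => by rw [div_le_iff₀ (hPpos i)]; exact (bC i).2)
    (fun i => by rw [le_div_iff₀ (hP'pos i)]; linarith [(bC' i).1])
    (fun i => by rw [div_le_iff₀ (hP'pos i)]; exact (bC' i).2)
    (fun i => by
      rw [div_div, div_le_div_iff₀ (by have := hP'pos i; positivity) (hP'pos i)]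
      have := (gC' i).1
      have h2 : V' i / 2 ≤ G i := this
      have h3 := hP'pos i
      nlinarith)
    (fun i => by
      have h2 : G i ≤ 3 / 2 * V' i := (gC' i).2
      rw [← mul_div_assoc]
      exact div_le_div_of_nonneg_right h2 (hP'pos i).le)
    (fun i => by
      rw [← sub_div, abs_div, abs_of_pos (hP'pos i)]
      exact div_le_div_of_nonneg_right (g1_sub_vol hK (mC' i) (sC' i) hg1 hg1b) (hP'pos i).le)
    (fun i => by
      have h1 := (hPpos i).ne'
      have h2 := (hP'pos i).ne'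
      rw [mul_div_cancel₀ _ h1, mul_div_cancel₀ _ h2, hVm, hGm])
    hθ hN (by rw [sumP'', sumP]) (by rw [sumP', sumP])
    (fun i => by
      rw [norm_smul, norm_inv, Real.norm_of_nonneg (hPpos i).le, ← div_eq_inv_mul, ← mul_div_assoc]
      exact div_le_div_of_nonneg_right (norm_M x0 hK hKR (sC i)) (hPpos i).le)
    (fun i => by
      rw [← smul_sub, norm_smul, norm_inv, Real.norm_of_nonneg (hP'pos i).le, ← div_eq_inv_mul,
        ← mul_div_assoc]
      exact div_le_div_of_nonneg_right (g1_vec_sub x0 hR hK hKR (mC' i) (sC' i) hg1 hg1b) (hP'pos i).le)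
  -- rewrite the left side
  have hL : ∀ i, P i * (V i / P i) * ‖(G i / P' i)⁻¹ • (P' i)⁻¹ • Mg i - (V i / P i)⁻¹ • (P i)⁻¹ • M i‖ ^ 2
      = volume.real K * (m i * ‖(volume.real K * m i)⁻¹ • Mg i - (volume.real K * m i)⁻¹ • M i‖ ^ 2) := by
    intro i
    have h1 := (hPpos i).ne'
    have h2 := (hP'pos i).ne'
    have h3 := (hGpos i).ne'
    have h4 := (hVpos i).ne'
    rw [mul_div_cancel₀ _ h1, smul_smul, smul_smul]
    have e1 : (G i / P' i)⁻¹ * (P' i)⁻¹ = (G i)⁻¹ := by field_simp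
    have e2 : (V i / P i)⁻¹ * (P i)⁻¹ = (V i)⁻¹ := by field_simp
    rw [e1, e2, hVm, hGm]; ring
  have hRside : ∑ i, P' i * (D i / P' i) ^ 2 ≤ 1.00125 * ∫ x in K, (g1 x - 1) ^ 2 := by
    have hsum : ∑ i, B i = ∫ x in K, (g1 x - 1) ^ 2 :=
      sum_cells y hy c' hKm (g1sq_int hK hKm (le_refl _) hg1 hg1b)
    rw [← hsum, Finset.mul_sum]
    apply Finset.sum_le_sum
    intro i _
    have hcs : D i ^ 2 ≤ V' i * B i := g1_cs hK (mC' i) (sC' i) hg1 hg1b
    have hB0 : 0 ≤ B i := integral_nonneg fun x => sq_nonneg _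
    have hVP : V' i ≤ 1.00125 * P' i := (bC' i).2
    have e : P' i * (D i / P' i) ^ 2 = D i ^ 2 / P' i := by
      have h2 := (hP'pos i).ne'
      field_simp
    rw [e, div_le_iff₀ (hP'pos i)]
    calc D i ^ 2 ≤ V' i * B i := hcs
      _ ≤ (1.00125 * P' i) * B i := mul_le_mul_of_nonneg_right hVP hB0
      _ = 1.00125 * B i * P' i := by ring
  simp only [hL] at main
  rw [← Finset.mul_sum] at main
  have hI0 : 0 ≤ ∫ x in K, (g1 x - 1) ^ 2 := integral_nonneg fun x => sq_nonneg _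
  have h5 : volume.real K * ∑ i, m i * ‖(volume.real K * m i)⁻¹ • Mg i - (volume.real K * m i)⁻¹ • M i‖ ^ 2
      ≤ 5000000 * R ^ 2 * ∫ x in K, (g1 x - 1) ^ 2 := by
    have h6 : 4010000 * R ^ 2 * ∑ i, P' i * (D i / P' i) ^ 2
        ≤ 4010000 * R ^ 2 * (1.00125 * ∫ x in K, (g1 x - 1) ^ 2) :=
      mul_le_mul_of_nonneg_left hRside (by positivity)
    have h7 : 0 ≤ R ^ 2 * ∫ x in K, (g1 x - 1) ^ 2 := mul_nonneg (by positivity) hI0
    nlinarith
  have h8 : ∑ i, m i * ‖(volume.real K * m i)⁻¹ • Mg i - (volume.real K * m i)⁻¹ • M i‖ ^ 2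
      ≤ (5000000 * R ^ 2 * ∫ x in K, (g1 x - 1) ^ 2) / volume.real K := by
    rw [le_div_iff₀ hKvol]; linarith
  calc _ ≤ (5000000 * R ^ 2 * ∫ x in K, (g1 x - 1) ^ 2) / volume.real K := h8
    _ = 5000000 * R ^ 2 * ((volume.real K)⁻¹ * ∫ x in K, (g1 x - 1) ^ 2) := by
        rw [div_eq_mul_inv]; ring

end Crest.Agent.S0109KSL
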