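import Mathlib

set_option autoImplicit false
open MeasureTheory Set
open scoped ENNReal Pointwise

namespace Crest.Agent.S0109PL

/-- 1D Brunn–Minkowski for sets with a greatest / least element (arbitrary sets, outer measure). -/
lemma bm1_aux (A B : Set ℝ) (a b : ℝ) (ha : a ∈ A) (hA : ∀ x ∈ A, x ≤ a) (hb : b ∈ B)
    (hB : ∀ x ∈ B, b ≤ x) : volume A + volume B ≤ volume (A + B) := by
  have h1 : volume A ≤ volume ((A + B) ∩ Iic (a + b)) := by
    have hsub : (fun x => x + b) '' A ⊆ (A + B) ∩ Iic (a + b) := by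
      rintro _ ⟨x, hx, rfl⟩
      exact ⟨Set.add_mem_add hx hb, by simpa using hA x hx⟩
    calc volume A = volume ((fun x => x + b) '' A) := by
          rw [Set.image_add_right, measure_preimage_add_right]
      _ ≤ _ := measure_mono hsub
  have h2 : volume B ≤ volume ((A + B) \ Iic (a + b)) := by
    have hsub : ((fun x => a + x) '' B) \ {a + b} ⊆ (A + B) \ Iic (a + b) := by
      rintro _ ⟨⟨x, hx, rfl⟩, hne⟩
      refine ⟨Set.add_mem_add ha hx, ?_⟩
      simp only [mem_Iic, not_le]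
      rcases (hB x hx).lt_or_eq with h | h
      · linarith
      · exact absurd (by simp [h]) hne
    calc volume B = volume ((fun x => a + x) '' B) := by
          rw [Set.image_add_left, measure_preimage_add]
      _ = volume (((fun x => a + x) '' B) \ {a + b}) := (measure_diff_null (by simp)).symm
      _ ≤ _ := measure_mono hsub
  calc volume A + volume B
      ≤ volume ((A + B) ∩ Iic (a + b)) + volume ((A + B) \ Iic (a + b)) := add_le_add h1 h2
    _ = volume (A + B) := measure_inter_add_diff _ measurableSet_Iic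

/-- 1D Brunn–Minkowski for nonempty measurable sets. -/
lemma bm1 (A B : Set ℝ) (hA : MeasurableSet A) (hB : MeasurableSet B) (hAn : A.Nonempty)
    (hBn : B.Nonempty) : volume A + volume B ≤ volume (A + B) := by
  obtain ⟨a0, ha0⟩ := hAn
  obtain ⟨b0, hb0⟩ := hBn
  have key : ∀ K1 ∈ {K : Set ℝ | K ⊆ A ∧ IsCompact K}, ∀ K2 ∈ {K : Set ℝ | K ⊆ B ∧ IsCompact K},
      volume K1 + volume K2 ≤ volume (A + B) := by
    rintro K1 ⟨h1, c1⟩ K2 ⟨h2, c2⟩
    have c1' : IsCompact (insert a0 K1) := c1.insert a0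
    have c2' : IsCompact (insert b0 K2) := c2.insert b0
    obtain ⟨a, ha, hamax⟩ := c1'.exists_isGreatest (insert_nonempty _ _)
    obtain ⟨b, hb, hbmin⟩ := c2'.exists_isLeast (insert_nonempty _ _)
    calc volume K1 + volume K2 ≤ volume (insert a0 K1) + volume (insert b0 K2) :=
          add_le_add (measure_mono (subset_insert _ _)) (measure_mono (subset_insert _ _))
      _ ≤ volume (insert a0 K1 + insert b0 K2) :=
          bm1_aux _ _ a b ha (fun x hx => hamax hx) hb (fun x hx => hbmin hx)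
      _ ≤ volume (A + B) := measure_mono (Set.add_subset_add (insert_subset ha0 h1)
          (insert_subset hb0 h2))
  have eA : volume A = ⨆ K ∈ {K : Set ℝ | K ⊆ A ∧ IsCompact K}, volume K := by
    rw [hA.measure_eq_iSup_isCompact]
    simp only [mem_setOf_eq, iSup_and]
  have eB : volume B = ⨆ K ∈ {K : Set ℝ | K ⊆ B ∧ IsCompact K}, volume K := by
    rw [hB.measure_eq_iSup_isCompact]
    simp only [mem_setOf_eq, iSup_and]
  rw [eA, eB]
  exact ENNReal.biSup_add_biSup_le (s := {K : Set ℝ | K ⊆ A ∧ IsCompact K})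
    (t := {K : Set ℝ | K ⊆ B ∧ IsCompact K}) ⟨∅, empty_subset _, isCompact_empty⟩
    ⟨∅, empty_subset _, isCompact_empty⟩ key

/-- layer-cake restricted to `(0,1)` for functions bounded by `1`. -/
lemma layer01 (f : ℝ → ℝ) (m : Measurable f) (n : ∀ x, 0 ≤ f x) (b : ∀ x, f x ≤ 1) :
    ∫⁻ x, ENNReal.ofReal (f x) = ∫⁻ t in Ioo (0:ℝ) 1, volume {a : ℝ | t < f a} := by
  rw [lintegral_eq_lintegral_meas_lt volume (ae_of_all _ n) m.aemeasurable,
    ← lintegral_indicator measurableSet_Ioi, ← lintegral_indicator measurableSet_Ioo]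
  congr 1
  ext t
  by_cases h1 : t < 1
  · by_cases h0 : 0 < t
    · rw [indicator_of_mem (show t ∈ Ioi (0:ℝ) from h0),
        indicator_of_mem (show t ∈ Ioo (0:ℝ) 1 from ⟨h0, h1⟩)]
    · rw [indicator_of_notMem (show t ∉ Ioi (0:ℝ) from h0),
        indicator_of_notMem (show t ∉ Ioo (0:ℝ) 1 from fun h => h0 h.1)]
  · have he : {a : ℝ | t < f a} = ∅ := by
      ext a
      simp only [mem_setOf_eq, mem_empty_iff_false, iff_false, not_lt]
      exact (b a).trans (not_lt.mp h1)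
    rw [indicator_of_notMem (show t ∉ Ioo (0:ℝ) 1 from fun h => h1 h.2)]
    by_cases h0 : 0 < t
    · rw [indicator_of_mem (show t ∈ Ioi (0:ℝ) from h0), he, measure_empty]
    · rw [indicator_of_notMem (show t ∉ Ioi (0:ℝ) from h0)]

lemma meas_lt_measurable (f : ℝ → ℝ) : Measurable (fun t : ℝ => volume {a : ℝ | t < f a}) := by
  apply Antitone.measurable
  intro s t hst
  exact measure_mono (fun a (ha : t < f a) => lt_of_le_of_lt hst ha)

/-- normalised real version. -/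
lemma core_real (f0 f1 f : ℝ → ℝ) (m0 : Measurable f0) (m1 : Measurable f1) (m : Measurable f)
    (n0 : ∀ x, 0 ≤ f0 x) (n1 : ∀ x, 0 ≤ f1 x) (n : ∀ x, 0 ≤ f x)
    (b0 : ∀ x, f0 x ≤ 1) (b1 : ∀ x, f1 x ≤ 1)
    (s0 : ∀ t < 1, ∃ x, t < f0 x) (s1 : ∀ t < 1, ∃ x, t < f1 x)
    (H : ∀ x z, f0 x * f1 z ≤ f ((x + z) / 2) ^ 2) :
    (∫⁻ x, ENNReal.ofReal (f0 x)) + ∫⁻ x, ENNReal.ofReal (f1 x)
      ≤ 2 * ∫⁻ x, ENNReal.ofReal (f x) := by
  rw [layer01 f0 m0 n0 b0, layer01 f1 m1 n1 b1,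
    lintegral_eq_lintegral_meas_lt volume (ae_of_all _ n) m.aemeasurable,
    ← lintegral_add_left (meas_lt_measurable f0)]
  calc ∫⁻ t in Ioo (0:ℝ) 1, (volume {a : ℝ | t < f0 a} + volume {a : ℝ | t < f1 a})
      ≤ ∫⁻ t in Ioo (0:ℝ) 1, 2 * volume {a : ℝ | t < f a} := by
        apply setLIntegral_mono' measurableSet_Ioo
        intro t ht
        have hA : MeasurableSet {a : ℝ | t < f0 a} := measurableSet_lt measurable_const m0
        have hB : MeasurableSet {a : ℝ | t < f1 a} := measurableSet_lt measurable_const m1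
        have hbm := bm1 _ _ hA hB (s0 t ht.2) (s1 t ht.2)
        refine hbm.trans ?_
        have hsub : {a : ℝ | t < f0 a} + {a : ℝ | t < f1 a}
            ⊆ (fun y : ℝ => (2:ℝ)⁻¹ * y) ⁻¹' {a : ℝ | t < f a} := by
          rintro _ ⟨x, hx, z, hz, rfl⟩
          simp only [mem_setOf_eq, mem_preimage] at hx hz ⊢
          have e : (2:ℝ)⁻¹ * (x + z) = (x + z) / 2 := by ring
          rw [e]
          have h1 := H x z
          have h2 : t * t < f0 x * f1 z := mul_lt_mul'' hx hz ht.1.le ht.1.le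
          by_contra hcon
          have h3 : f ((x + z) / 2) ≤ t := not_lt.mp hcon
          nlinarith [n ((x + z) / 2)]
        refine (measure_mono hsub).trans ?_
        rw [Real.volume_preimage_mul_left (by norm_num : (2:ℝ)⁻¹ ≠ 0)]
        simp
    _ = 2 * ∫⁻ t in Ioo (0:ℝ) 1, volume {a : ℝ | t < f a} :=
        lintegral_const_mul _ (meas_lt_measurable f)
    _ ≤ 2 * ∫⁻ t in Ioi (0:ℝ), volume {a : ℝ | t < f a} := by
        gcongr
        exact Ioo_subset_Ioi_self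

/-- normalised `ℝ≥0∞` version. -/
lemma core_enn (h0 h1 h : ℝ → ℝ≥0∞) (m0 : Measurable h0) (m1 : Measurable h1) (m : Measurable h)
    (b0 : ∀ x, h0 x ≤ 1) (b1 : ∀ x, h1 x ≤ 1)
    (s0 : ∀ t < 1, ∃ x, t < h0 x) (s1 : ∀ t < 1, ∃ x, t < h1 x)
    (H : ∀ x z, h0 x * h1 z ≤ h ((x + z) / 2) ^ 2) :
    (∫⁻ x, h0 x) + ∫⁻ x, h1 x ≤ 2 * ∫⁻ x, h x := by
  have f0 : ∀ x, h0 x ≠ ⊤ := fun x => ne_top_of_le_ne_top ENNReal.one_ne_top (b0 x)
  have f1 : ∀ x, h1 x ≠ ⊤ := fun x => ne_top_of_le_ne_top ENNReal.one_ne_top (b1 x)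
  have f2 : ∀ x, min (h x) 1 ≠ ⊤ := fun x =>
    ne_top_of_le_ne_top ENNReal.one_ne_top (min_le_right _ _)
  have sup_real : ∀ (k : ℝ → ℝ≥0∞), (∀ x, k x ≠ ⊤) → (∀ t < 1, ∃ x, t < k x) →
      ∀ t : ℝ, t < 1 → ∃ x, t < (k x).toReal := by
    intro k hk sk t ht
    by_cases h0t : 0 ≤ t
    · obtain ⟨x, hx⟩ := sk (ENNReal.ofReal t) (by
        rw [← ENNReal.ofReal_one]; exact (ENNReal.ofReal_lt_ofReal_iff one_pos).2 ht)
      exact ⟨x, (ENNReal.ofReal_lt_iff_lt_toReal h0t (hk x)).1 hx⟩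
    · exact ⟨0, lt_of_lt_of_le (not_le.mp h0t) ENNReal.toReal_nonneg⟩
  have key := core_real (fun x => (h0 x).toReal) (fun x => (h1 x).toReal)
    (fun x => (min (h x) 1).toReal) m0.ennreal_toReal m1.ennreal_toReal
    (m.min measurable_const).ennreal_toReal
    (fun _ => ENNReal.toReal_nonneg) (fun _ => ENNReal.toReal_nonneg)
    (fun _ => ENNReal.toReal_nonneg)
    (fun x => by simpa using ENNReal.toReal_mono ENNReal.one_ne_top (b0 x))
    (fun x => by simpa using ENNReal.toReal_mono ENNReal.one_ne_top (b1 x))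
    (sup_real h0 f0 s0) (sup_real h1 f1 s1)
    (fun x z => by
      rw [← ENNReal.toReal_mul, ← ENNReal.toReal_pow]
      apply ENNReal.toReal_mono (ENNReal.pow_ne_top (f2 _))
      rcases le_total (h ((x + z) / 2)) 1 with hle | hle
      · rw [min_eq_left hle]; exact H x z
      · rw [min_eq_right hle]
        calc h0 x * h1 z ≤ 1 * 1 := mul_le_mul' (b0 x) (b1 z)
          _ = 1 ^ 2 := by simp)
  simp only [ENNReal.ofReal_toReal (f0 _), ENNReal.ofReal_toReal (f1 _),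
    ENNReal.ofReal_toReal (f2 _)] at key
  refine key.trans ?_
  gcongr
  exact min_le_left _ _

lemma amgm (u v w : ℝ≥0∞) (huv : u + v ≤ 2 * w) : u * v ≤ w ^ 2 := by
  by_cases hw : w = ⊤
  · simp [hw]
  have h2w : 2 * w ≠ ⊤ := ENNReal.mul_ne_top (by simp) hw
  have hu : u ≠ ⊤ := ne_top_of_le_ne_top h2w (le_self_add.trans huv)
  have hv : v ≠ ⊤ := ne_top_of_le_ne_top h2w (le_add_self.trans huv)
  lift u to NNReal using hu
  lift v to NNReal using hv
  lift w to NNReal using hw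
  have h1 : (u : ℝ) + v ≤ 2 * w := by exact_mod_cast huv
  have h2 : (u : ℝ) * v ≤ (w : ℝ) ^ 2 := by
    nlinarith [sq_nonneg ((u : ℝ) - v), u.coe_nonneg, v.coe_nonneg, w.coe_nonneg]
  exact_mod_cast h2

/-- PL in dimension one for bounded `h0`, `h1`. -/
lemma pl1_bdd (h0 h1 h : ℝ → ℝ≥0∞) (m0 : Measurable h0) (m1 : Measurable h1) (m : Measurable h)
    (M : ℝ≥0∞) (hM : M ≠ ⊤) (b0 : ∀ x, h0 x ≤ M) (b1 : ∀ x, h1 x ≤ M)
    (H : ∀ x z, h0 x * h1 z ≤ h ((x + z) / 2) ^ 2) :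
    (∫⁻ x, h0 x) * (∫⁻ x, h1 x) ≤ (∫⁻ x, h x) ^ 2 := by
  set a : ℝ≥0∞ := ⨆ x, h0 x with ha
  set b : ℝ≥0∞ := ⨆ x, h1 x with hb
  have ha_top : a ≠ ⊤ := ne_top_of_le_ne_top hM (iSup_le b0)
  have hb_top : b ≠ ⊤ := ne_top_of_le_ne_top hM (iSup_le b1)
  by_cases ha0 : a = 0
  · have : ∀ x, h0 x = 0 := fun x => le_antisymm (ha0 ▸ le_iSup h0 x) bot_le
    simp [this]
  by_cases hb0 : b = 0
  · have : ∀ x, h1 x = 0 := fun x => le_antisymm (hb0 ▸ le_iSup h1 x) bot_le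
    simp [this]
  set c : ℝ≥0∞ := ((a * b)⁻¹) ^ (1 / 2 : ℝ) with hc
  have hc2 : c ^ 2 = (a * b)⁻¹ := by
    rw [hc, ← ENNReal.rpow_natCast, ← ENNReal.rpow_mul]
    norm_num
  have hab0 : a * b ≠ 0 := mul_ne_zero ha0 hb0
  have habt : a * b ≠ ⊤ := ENNReal.mul_ne_top ha_top hb_top
  have sup_norm : ∀ (k : ℝ → ℝ≥0∞) (s : ℝ≥0∞), s = ⨆ x, k x → s ≠ 0 → s ≠ ⊤ →
      ∀ t < 1, ∃ x, t < s⁻¹ * k x := by
    intro k s hs hs0 hst t ht
    have h1 : t * s < s := by
      calc t * s < 1 * s := (ENNReal.mul_lt_mul_iff_left hs0 hst).2 ht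
        _ = s := one_mul s
    rw [hs] at h1
    obtain ⟨x, hx⟩ := lt_iSup_iff.1 h1
    refine ⟨x, ?_⟩
    rw [← hs] at hx
    calc t = s⁻¹ * (t * s) := by
          rw [mul_comm t s, ← mul_assoc, ENNReal.inv_mul_cancel hs0 hst, one_mul]
      _ < s⁻¹ * k x := (ENNReal.mul_lt_mul_iff_right (ENNReal.inv_ne_zero.2 hst)
          (ENNReal.inv_ne_top.2 hs0)).2 hx
  have key := core_enn (fun x => a⁻¹ * h0 x) (fun x => b⁻¹ * h1 x) (fun x => c * h x)
    (m0.const_mul _) (m1.const_mul _) (m.const_mul _)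
    (fun x => by
      calc a⁻¹ * h0 x ≤ a⁻¹ * a := by gcongr; exact le_iSup h0 x
        _ = 1 := ENNReal.inv_mul_cancel ha0 ha_top)
    (fun x => by
      calc b⁻¹ * h1 x ≤ b⁻¹ * b := by gcongr; exact le_iSup h1 x
        _ = 1 := ENNReal.inv_mul_cancel hb0 hb_top)
    (sup_norm h0 a ha ha0 ha_top) (sup_norm h1 b hb hb0 hb_top)
    (fun x z => by
      calc a⁻¹ * h0 x * (b⁻¹ * h1 z) = (a * b)⁻¹ * (h0 x * h1 z) := by
            rw [ENNReal.mul_inv (Or.inl ha0) (Or.inl ha_top)]; ring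
        _ ≤ (a * b)⁻¹ * h ((x + z) / 2) ^ 2 := by gcongr; exact H x z
        _ = (c * h ((x + z) / 2)) ^ 2 := by rw [mul_pow, hc2])
  rw [lintegral_const_mul _ m0, lintegral_const_mul _ m1, lintegral_const_mul _ m] at key
  have h3 := amgm _ _ _ key
  have h4 : (a * b)⁻¹ * ((∫⁻ x, h0 x) * ∫⁻ x, h1 x) ≤ (a * b)⁻¹ * (∫⁻ x, h x) ^ 2 := by
    calc (a * b)⁻¹ * ((∫⁻ x, h0 x) * ∫⁻ x, h1 x)
        = a⁻¹ * (∫⁻ x, h0 x) * (b⁻¹ * ∫⁻ x, h1 x) := by
          rw [ENNReal.mul_inv (Or.inl ha0) (Or.inl ha_top)]; ring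
      _ ≤ (c * ∫⁻ x, h x) ^ 2 := h3
      _ = (a * b)⁻¹ * (∫⁻ x, h x) ^ 2 := by rw [mul_pow, hc2]
  exact (ENNReal.mul_le_mul_iff_right (ENNReal.inv_ne_zero.2 habt) (ENNReal.inv_ne_top.2 hab0)).1 h4

lemma lintegral_trunc (g : ℝ → ℝ≥0∞) (mg : Measurable g) :
    ∫⁻ x, g x = ⨆ n : ℕ, ∫⁻ x, min (g x) (n : ℝ≥0∞) := by
  rw [← lintegral_iSup (fun n => mg.min measurable_const)]
  · congr 1
    ext x
    rw [← inf_iSup_eq, ENNReal.iSup_natCast, inf_top_eq]
  · intro i j hij x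
    exact min_le_min le_rfl (by exact_mod_cast hij)

/-- **Prékopa–Leindler inequality** (`τ = 1/2`) on the real line, no integrability or boundedness
assumption. -/
theorem pl_one (h0 h1 h : ℝ → ℝ≥0∞) (hm0 : Measurable h0) (hm1 : Measurable h1)
    (hm : Measurable h) (H : ∀ x z, h0 x * h1 z ≤ h ((x + z) / 2) ^ 2) :
    (∫⁻ x, h0 x) * (∫⁻ x, h1 x) ≤ (∫⁻ x, h x) ^ 2 := by
  apply ENNReal.mul_le_of_forall_lt
  intro a' ha' b' hb'
  rw [lintegral_trunc h0 hm0] at ha'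
  rw [lintegral_trunc h1 hm1] at hb'
  obtain ⟨n1, hn1⟩ := lt_iSup_iff.1 ha'
  obtain ⟨n2, hn2⟩ := lt_iSup_iff.1 hb'
  set N : ℕ := max n1 n2 with hN
  have e1 : a' ≤ ∫⁻ x, min (h0 x) (N : ℝ≥0∞) := hn1.le.trans (lintegral_mono fun x =>
    min_le_min le_rfl (by exact_mod_cast le_max_left n1 n2))
  have e2 : b' ≤ ∫⁻ x, min (h1 x) (N : ℝ≥0∞) := hn2.le.trans (lintegral_mono fun x =>
    min_le_min le_rfl (by exact_mod_cast le_max_right n1 n2))
  calc a' * b' ≤ (∫⁻ x, min (h0 x) (N : ℝ≥0∞)) * ∫⁻ x, min (h1 x) (N : ℝ≥0∞) :=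
        mul_le_mul' e1 e2
    _ ≤ (∫⁻ x, h x) ^ 2 :=
        pl1_bdd _ _ h (hm0.min measurable_const) (hm1.min measurable_const) hm N
          (ENNReal.natCast_ne_top N) (fun x => min_le_right _ _) (fun x => min_le_right _ _)
          (fun x z => (mul_le_mul' (min_le_left _ _) (min_le_left _ _)).trans (H x z))

end Crest.Agent.S0109PL
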