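import Mathlib
import Crest.Agent.S0109_PL1
import Crest.Agent.S0109_Defs

open MeasureTheory
open scoped ENNReal

namespace Crest.Agent.S0109PL

/-- Fubini for `Fin (n+1) → ℝ`. -/
theorem lintegral_fin_succ (n : ℕ) (f : (Fin (n + 1) → ℝ) → ℝ≥0∞) (hf : Measurable f) :
    ∫⁻ x, f x = ∫⁻ t : ℝ, ∫⁻ y : Fin n → ℝ, f (Fin.cons t y) := by
  have e := (volume_preserving_piFinSuccAbove (fun _ : Fin (n + 1) => ℝ) 0).symm
  have h1 : ∫⁻ x, f x = ∫⁻ p : ℝ × (Fin n → ℝ),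
      f ((MeasurableEquiv.piFinSuccAbove (fun _ : Fin (n + 1) => ℝ) 0).symm p) :=
    (e.lintegral_comp hf).symm
  rw [h1, Measure.volume_eq_prod, lintegral_prod]
  · refine lintegral_congr fun t => lintegral_congr fun y => ?_
    congr 1
    ext i
    simp [MeasurableEquiv.piFinSuccAbove]
  · exact (hf.comp (MeasurableEquiv.measurable _)).aemeasurable

theorem measurable_cons_pair (n : ℕ) :
    Measurable (fun p : ℝ × (Fin n → ℝ) => (Fin.cons p.1 p.2 : Fin (n + 1) → ℝ)) := by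
  refine measurable_pi_iff.2 fun i => ?_
  refine Fin.cases ?_ (fun j => ?_) i
  · simpa using measurable_fst
  · simpa [Function.comp_def] using (measurable_pi_apply j).comp measurable_snd

theorem pl_pi (n : ℕ) : ∀ (h0 h1 h : (Fin n → ℝ) → ℝ≥0∞) (_ : Measurable h0) (_ : Measurable h1)
    (_ : Measurable h) (_ : ∀ x z, h0 x * h1 z ≤ h ((1 / 2 : ℝ) • (x + z)) ^ 2),
    (∫⁻ x, h0 x) * (∫⁻ x, h1 x) ≤ (∫⁻ x, h x) ^ 2 := by
  induction n with
  | zero =>
    intro h0 h1 h _ _ _ H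
    have hv : (volume : Measure (Fin 0 → ℝ)) = Measure.dirac 0 := Measure.volume_pi_eq_dirac 0
    rw [hv]
    simp only [lintegral_dirac]
    have := H 0 0
    simpa using this
  | succ n ih =>
    intro h0 h1 h hm0 hm1 hm H
    rw [lintegral_fin_succ n h0 hm0, lintegral_fin_succ n h1 hm1, lintegral_fin_succ n h hm]
    have hmeas : ∀ f : (Fin (n + 1) → ℝ) → ℝ≥0∞, Measurable f →
        Measurable (fun t : ℝ => ∫⁻ y : Fin n → ℝ, f (Fin.cons t y)) := by
      intro f hf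
      exact (hf.comp (measurable_cons_pair n)).lintegral_prod_right'
    have hsl : ∀ (f : (Fin (n + 1) → ℝ) → ℝ≥0∞), Measurable f → ∀ t : ℝ,
        Measurable (fun y : Fin n → ℝ => f (Fin.cons t y)) := by
      intro f hf t
      exact (hf.comp (measurable_cons_pair n)).comp measurable_prodMk_left
    refine pl_one _ _ _ (hmeas h0 hm0) (hmeas h1 hm1) (hmeas h hm) ?_
    intro s t
    refine ih _ _ _ (hsl h0 hm0 s) (hsl h1 hm1 t) (hsl h hm _) ?_
    intro y y'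
    have := H (Fin.cons s y) (Fin.cons t y')
    have e : (1 / 2 : ℝ) • ((Fin.cons s y : Fin (n + 1) → ℝ) + Fin.cons t y')
        = Fin.cons ((s + t) / 2) ((1 / 2 : ℝ) • (y + y')) := by
      ext i
      refine Fin.cases ?_ (fun j => ?_) i
      · simp; ring
      · simp; ring
    rwa [e] at this

theorem pl_euclid (d : ℕ) (h0 h1 h : EuclideanSpace ℝ (Fin d) → ℝ≥0∞) (hm0 : Measurable h0)
    (hm1 : Measurable h1) (hm : Measurable h)
    (H : ∀ x z, h0 x * h1 z ≤ h ((1 / 2 : ℝ) • (x + z)) ^ 2) :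
    (∫⁻ x, h0 x) * (∫⁻ x, h1 x) ≤ (∫⁻ x, h x) ^ 2 := by
  have e := PiLp.volume_preserving_toLp (Fin d)
  have tr : ∀ f : EuclideanSpace ℝ (Fin d) → ℝ≥0∞, Measurable f →
      ∫⁻ x, f x = ∫⁻ y : Fin d → ℝ, f (WithLp.toLp 2 y) := by
    intro f hf
    exact (e.lintegral_comp hf).symm
  rw [tr h0 hm0, tr h1 hm1, tr h hm]
  refine pl_pi d _ _ _ (hm0.comp e.measurable) (hm1.comp e.measurable) (hm.comp e.measurable) ?_
  intro x z
  have := H (WithLp.toLp 2 x) (WithLp.toLp 2 z)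
  simpa using this

end Crest.Agent.S0109PL

namespace Crest.Agent.R082

open scoped NNReal

/-- Module A of the row-82 plan, verbatim (the boundedness / support hypotheses are not needed). -/
theorem prekopa_leindler {d : ℕ} (h0 h1 h : E d → ℝ≥0∞) (hm0 : Measurable h0) (hm1 : Measurable h1)
    (hm : Measurable h) (M : ℝ≥0) (r : ℝ)
    (hb0 : ∀ x, h0 x ≤ M) (hb1 : ∀ x, h1 x ≤ M)
    (hs0 : ∀ x, r < ‖x‖ → h0 x = 0) (hs1 : ∀ x, r < ‖x‖ → h1 x = 0)
    (H : ∀ x z, h0 x * h1 z ≤ h ((1 / 2 : ℝ) • (x + z)) ^ 2) :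
    (∫⁻ x, h0 x) * (∫⁻ x, h1 x) ≤ (∫⁻ x, h x) ^ 2 :=
  Crest.Agent.S0109PL.pl_euclid d h0 h1 h hm0 hm1 hm H

end Crest.Agent.R082
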