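import Crest.Agent.S0109_Defs
import Crest.Agent.S0109_KSLCore
import Crest.Agent.S0109_PL

/-!
Row 82 (S0109), module D: the key stability lemma in the form of the interface (`S0109_Plan.lean`, section D).
The core is `Crest.Agent.S0109KSL.ksl` (`S0109_KSLCore.lean`).
-/

set_option autoImplicit false

namespace Crest.Agent.R082

open MeasureTheory Set
open scoped ENNReal NNReal InnerProductSpace
open Crest.AnalysisR.OT

noncomputable section

variable {d : ℕ} {ι : Type}

lemma ksl_plProp (d : ℕ) : S0109KSL.PLProp d :=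
  fun h0 h1 h m0 m1 m M r b0 b1 s0 s1 H => prekopa_leindler h0 h1 h m0 m1 m M r b0 b1 s0 s1 H

lemma ksl_vol_pos {K : Set (E d)} {x0 : E d} {R : ℝ} (hK : Body K x0 R) : 0 < volume K :=
  lt_of_lt_of_le (isOpen_interior.measure_pos volume hK.int) (measure_mono interior_subset)

lemma ksl_volreal_pos {K : Set (E d)} {x0 : E d} {R : ℝ} (hK : Body K x0 R) : 0 < volume.real K :=
  ENNReal.toReal_pos (ksl_vol_pos hK).ne' hK.compact.measure_lt_top.ne

lemma ksl_unif_apply (K S : Set (E d)) (hS : MeasurableSet S) :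
    uniformProbOn K S = (volume K)⁻¹ * volume (K ∩ S) := by
  unfold uniformProbOn
  rw [Measure.smul_apply, Measure.restrict_apply hS, smul_eq_mul, inter_comm]

lemma ksl_unif_setIntegral {V : Type*} [NormedAddCommGroup V] [NormedSpace ℝ V] (K S : Set (E d))
    (hS : MeasurableSet S) (F : E d → V) :
    ∫ x in S, F x ∂(uniformProbOn K) = (volume.real K)⁻¹ • ∫ x in K ∩ S, F x := by
  unfold uniformProbOn
  rw [Measure.restrict_smul, integral_smul_measure, Measure.restrict_restrict hS, ENNReal.toReal_inv,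
    inter_comm]
  rfl

lemma ksl_unif_integral {V : Type*} [NormedAddCommGroup V] [NormedSpace ℝ V] (K : Set (E d))
    (F : E d → V) :
    ∫ x, F x ∂(uniformProbOn K) = (volume.real K)⁻¹ • ∫ x in K, F x := by
  unfold uniformProbOn
  rw [integral_smul_measure, ENNReal.toReal_inv]
  rfl

lemma ksl_cell_meas (y : ι → E d) (c : ι → ℝ) (i : ι) : MeasurableSet (cell y c i) :=
  S0109KSL.kcell_measurable y c i

theorem ksl [Fintype ι] [Nonempty ι] {K : Set (E d)} {x0 : E d} {R : ℝ} (hK : Body K x0 R)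
    (y : ι → E d) (hy : Function.Injective y) (m : ι → ℝ) (hm : Weights m)
    {g : E d → ℝ} {G : ℝ} (hg : Pert K g G) {s : ℝ} (hs : |s| * G ≤ 1 / 2)
    (c c' : ι → ℝ) (hc : Balanced (uniformProbOn K) y m c) (hc' : Balanced (tilt K g s) y m c') :
    ∑ i, m i * ‖bary (tilt K g s) y m c' i - bary (uniformProbOn K) y m c i‖ ^ 2
      ≤ 5000000 * R ^ 2 * s ^ 2 * ∫ x, g x ^ 2 ∂(uniformProbOn K) := by
  classical
  have hKc := hK.compact
  have hKm : MeasurableSet K := hKc.measurableSet
  have hv0 := ksl_vol_pos hK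
  have hvr := ksl_volreal_pos hK
  set vK := volume.real K with hvK
  set g1 : E d → ℝ := fun x => 1 + s * g x with hg1def
  have hg1m : Measurable g1 := (hg.meas.const_mul s).const_add 1
  have hsg : ∀ x, |s * g x| ≤ 1 / 2 := fun x => by
    rw [abs_mul]
    exact le_trans (mul_le_mul_of_nonneg_left (hg.bdd x) (abs_nonneg _)) hs
  have hg1b : ∀ x ∈ K, |g1 x - 1| ≤ 1 / 2 := fun x _ => by
    have : g1 x - 1 = s * g x := by simp [hg1def]
    rw [this]; exact hsg x
  have hg1pos : ∀ x, 0 ≤ g1 x := fun x => by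
    have := abs_le.1 (hsg x); simp only [hg1def]; linarith [this.1]
  have mc : ∀ i, MeasurableSet (cell y c i) := ksl_cell_meas y c
  have mc' : ∀ i, MeasurableSet (cell y c' i) := ksl_cell_meas y c'
  have sK : ∀ (c : ι → ℝ) i, K ∩ cell y c i ⊆ K := fun _ _ => inter_subset_left
  -- balance conditions in real form
  have hcR : ∀ i, volume.real (K ∩ cell y c i) = vK * m i := by
    intro i
    have h := hc i
    rw [ksl_unif_apply K _ (mc i)] at h
    have h2 := congrArg ENNReal.toReal h
    rw [ENNReal.toReal_mul, ENNReal.toReal_inv, ENNReal.toReal_ofReal (hm.pos i).le] at h2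
    have h3 : (vK)⁻¹ * volume.real (K ∩ cell y c i) = m i := h2
    field_simp at h3
    linarith
  have hcR' : ∀ i, ∫ x in K ∩ cell y c' i, g1 x = vK * m i := by
    intro i
    have h := hc' i
    unfold tilt at h
    rw [withDensity_apply _ (mc' i)] at h
    unfold uniformProbOn at h
    rw [Measure.restrict_smul, lintegral_smul_measure, Measure.restrict_restrict (mc' i), smul_eq_mul,
      inter_comm] at h
    have hint : IntegrableOn g1 (K ∩ cell y c' i) :=
      S0109KSL.g1_int hKc (hKm.inter (mc' i)) (sK c' i) hg1m hg1b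
    rw [← ofReal_integral_eq_lintegral_ofReal hint (Filter.Eventually.of_forall hg1pos)] at h
    have h2 := congrArg ENNReal.toReal h
    rw [ENNReal.toReal_mul, ENNReal.toReal_inv, ENNReal.toReal_ofReal (hm.pos i).le,
      ENNReal.toReal_ofReal (integral_nonneg hg1pos)] at h2
    have h3 : (vK)⁻¹ * ∫ x in K ∩ cell y c' i, g1 x = m i := h2
    field_simp at h3
    linarith
  -- barycentres
  have hb : ∀ i, bary (uniformProbOn K) y m c i
      = (vK * m i)⁻¹ • (∫ x in K ∩ cell y c i, (x - x0)) + x0 := by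
    intro i
    unfold bary
    rw [ksl_unif_setIntegral K _ (mc i)]
    have hi1 : IntegrableOn (fun x : E d => x - x0) (K ∩ cell y c i) := S0109KSL.intOn_sub x0 hKc (sK c i)
    have hi2 : IntegrableOn (fun _ : E d => x0) (K ∩ cell y c i) :=
      integrableOn_const (S0109KSL.vol_lt_top hKc (sK c i)).ne
    have e : ∫ x in K ∩ cell y c i, x = (∫ x in K ∩ cell y c i, (x - x0)) + (vK * m i) • x0 := by
      rw [← hcR i, ← setIntegral_const, ← integral_add hi1 hi2]
      simp
    have hne : vK * m i ≠ 0 := (mul_pos hvr (hm.pos i)).ne'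
    rw [e, smul_smul, smul_add, smul_smul]
    have e1 : (m i)⁻¹ * vK⁻¹ = (vK * m i)⁻¹ := by rw [mul_inv]; ring
    rw [e1, inv_mul_cancel₀ hne, one_smul]
  have hb' : ∀ i, bary (tilt K g s) y m c' i
      = (vK * m i)⁻¹ • (∫ x in K ∩ cell y c' i, g1 x • (x - x0)) + x0 := by
    intro i
    unfold bary tilt
    rw [setIntegral_withDensity_eq_setIntegral_toReal_smul hg1m.ennreal_ofReal
      (Filter.Eventually.of_forall fun x => ENNReal.ofReal_lt_top) _ (mc' i)]
    have e0 : ∀ x : E d, (ENNReal.ofReal (g1 x)).toReal • x = g1 x • x := fun x => by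
      rw [ENNReal.toReal_ofReal (hg1pos x)]
    simp only [e0]
    rw [ksl_unif_setIntegral K _ (mc' i)]
    have hi1 : IntegrableOn (fun x : E d => g1 x • (x - x0)) (K ∩ cell y c' i) :=
      S0109KSL.g1_vec_int x0 hKc hK.sub (hKm.inter (mc' i)) (sK c' i) hg1m hg1b
    have hint : IntegrableOn g1 (K ∩ cell y c' i) :=
      S0109KSL.g1_int hKc (hKm.inter (mc' i)) (sK c' i) hg1m hg1b
    have hi2 : IntegrableOn (fun x : E d => g1 x • x0) (K ∩ cell y c' i) := hint.smul_const x0
    have e : ∫ x in K ∩ cell y c' i, g1 x • x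
        = (∫ x in K ∩ cell y c' i, g1 x • (x - x0)) + (vK * m i) • x0 := by
      rw [← hcR' i, ← integral_smul_const, ← integral_add hi1 hi2]
      congr 1
      ext1 x
      rw [← smul_add]; simp
    have hne : vK * m i ≠ 0 := (mul_pos hvr (hm.pos i)).ne'
    rw [e, smul_smul, smul_add, smul_smul]
    have e1 : (m i)⁻¹ * vK⁻¹ = (vK * m i)⁻¹ := by rw [mul_inv]; ring
    rw [e1, inv_mul_cancel₀ hne, one_smul]
  have hdiff : ∀ i, bary (tilt K g s) y m c' i - bary (uniformProbOn K) y m c i
      = (vK * m i)⁻¹ • (∫ x in K ∩ cell y c' i, g1 x • (x - x0))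
        - (vK * m i)⁻¹ • (∫ x in K ∩ cell y c i, (x - x0)) := by
    intro i; rw [hb, hb']; abel
  simp only [hdiff]
  have hR0 : 0 ≤ R := by
    have := hK.sub hK.mem
    simpa using this
  have hrhs : 5000000 * R ^ 2 * s ^ 2 * ∫ x, g x ^ 2 ∂(uniformProbOn K)
      = 5000000 * R ^ 2 * (vK⁻¹ * ∫ x in K, (g1 x - 1) ^ 2) := by
    rw [ksl_unif_integral K, smul_eq_mul]
    have : ∀ x, (g1 x - 1) ^ 2 = s ^ 2 * g x ^ 2 := fun x => by simp only [hg1def]; ring
    simp only [this]
    rw [integral_const_mul]; ring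
  rw [hrhs]
  rcases hR0.lt_or_eq with hRpos | hRz
  · exact S0109KSL.ksl (ksl_plProp d) hKc hK.convex x0 hRpos hK.sub hvr y hy m hm.pos g1 hg1m hg1b c c'
      hcR hcR'
  · -- degenerate case `R = 0`
    have z1 : ∀ i, ∫ x in K ∩ cell y c i, (x - x0) = 0 := by
      intro i
      have := S0109KSL.norm_M x0 hKc hK.sub (sK c i)
      rw [← hRz, zero_mul] at this
      exact norm_le_zero_iff.1 this
    have z2 : ∀ i, ∫ x in K ∩ cell y c' i, g1 x • (x - x0) = 0 := by
      intro i
      apply setIntegral_eq_zero_of_forall_eq_zero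
      intro x hx
      have h1 : ‖x - x0‖ ≤ R := by simpa [dist_eq_norm] using hK.sub hx.1
      rw [← hRz] at h1
      rw [norm_le_zero_iff.1 h1, smul_zero]
    simp only [z1, z2, smul_zero, sub_zero, norm_zero]
    rw [← hRz]
    simp

end

end Crest.Agent.R082
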