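import Mathlib

/-! Row 82 (S0109), module E2: the path lemma. -/

set_option autoImplicit false

namespace Crest.Agent.R082

open Set

theorem path_aux (u v u' v' : ℝ → ℝ) (L M : ℝ)
    (hu : ∀ t ∈ Icc (0 : ℝ) 1, ∀ τ ∈ Icc (0 : ℝ) 1, u t + u' t * (τ - t) ≤ u τ)
    (hv : ∀ t ∈ Icc (0 : ℝ) 1, ∀ τ ∈ Icc (0 : ℝ) 1, v t + v' t * (τ - t) ≤ v τ)
    (hL : ∀ t ∈ Icc (0 : ℝ) 1, |u' t - v' t| ≤ L)
    (hM : ∀ t ∈ Icc (0 : ℝ) 1, |v' t| ≤ M) (N : ℕ) (hN : 0 < N) :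
    (u 1 - v 1) - (u 0 - v 0) ≤ L + 2 * M / N := by
  have hN' : (0 : ℝ) < N := by exact_mod_cast hN
  have hmem : ∀ k : ℕ, k ≤ N → ((k : ℝ) / N) ∈ Icc (0 : ℝ) 1 := by
    intro k hk
    constructor
    · positivity
    · rw [div_le_one hN']; exact_mod_cast hk
  have hstep : ∀ k ∈ Finset.range N,
      ((u (((k + 1 : ℕ) : ℝ) / N) - v (((k + 1 : ℕ) : ℝ) / N)) - (u ((k : ℝ) / N) - v ((k : ℝ) / N)))
        ≤ L / N + (v' (((k + 1 : ℕ) : ℝ) / N) / N - v' ((k : ℝ) / N) / N) := by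
    intro k hk
    have hk' : k + 1 ≤ N := Finset.mem_range.1 hk
    have h1 := hmem k (by omega)
    have h2 := hmem (k + 1) hk'
    have a1 := hu _ h2 _ h1
    have a2 := hv _ h1 _ h2
    have a3 := (abs_le.1 (hL _ h2)).2
    have hd : ((k + 1 : ℕ) : ℝ) / N - (k : ℝ) / N = 1 / N := by
      push_cast; field_simp; ring
    have hd' : (k : ℝ) / N - ((k + 1 : ℕ) : ℝ) / N = -(1 / N) := by
      rw [← hd]; ring
    rw [hd'] at a1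
    rw [hd] at a2
    have a4 : (u' (((k + 1 : ℕ) : ℝ) / N) - v' (((k + 1 : ℕ) : ℝ) / N)) * (1 / N) ≤ L * (1 / N) :=
      mul_le_mul_of_nonneg_right a3 (by positivity)
    have e1 : L / N = L * (1 / N) := by ring
    have e2 : v' (((k + 1 : ℕ) : ℝ) / N) / N = v' (((k + 1 : ℕ) : ℝ) / N) * (1 / N) := by ring
    have e3 : v' ((k : ℝ) / N) / N = v' ((k : ℝ) / N) * (1 / N) := by ring
    rw [e1, e2, e3]
    nlinarith
  have hsum := Finset.sum_le_sum hstep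
  rw [Finset.sum_range_sub (fun k : ℕ => u ((k : ℝ) / N) - v ((k : ℝ) / N)), Finset.sum_add_distrib,
    Finset.sum_range_sub (fun k : ℕ => v' ((k : ℝ) / N) / N)] at hsum
  simp only [Finset.sum_const, Finset.card_range, nsmul_eq_mul, Nat.cast_zero, zero_div] at hsum
  rw [div_self hN'.ne', mul_div_cancel₀ _ hN'.ne'] at hsum
  have b1 := (abs_le.1 (hM 1 (by simp))).2
  have b0 := (abs_le.1 (hM 0 (by simp))).1
  have : v' 1 / N - v' 0 / N ≤ 2 * M / N := by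
    rw [← sub_div]
    exact div_le_div_of_nonneg_right (by linarith) hN'.le
  linarith

theorem path_aux2 (u v u' v' : ℝ → ℝ) (L M : ℝ)
    (hu : ∀ t ∈ Icc (0 : ℝ) 1, ∀ τ ∈ Icc (0 : ℝ) 1, u t + u' t * (τ - t) ≤ u τ)
    (hv : ∀ t ∈ Icc (0 : ℝ) 1, ∀ τ ∈ Icc (0 : ℝ) 1, v t + v' t * (τ - t) ≤ v τ)
    (hL : ∀ t ∈ Icc (0 : ℝ) 1, |u' t - v' t| ≤ L)
    (hM : ∀ t ∈ Icc (0 : ℝ) 1, |v' t| ≤ M) :
    (u 1 - v 1) - (u 0 - v 0) ≤ L := by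
  apply le_of_forall_pos_le_add
  intro ε hε
  obtain ⟨N, hN⟩ := exists_nat_gt (2 * M / ε)
  have hM0 : 0 ≤ M := (abs_nonneg _).trans (hM 0 (by simp))
  have hN' : (0 : ℝ) < N := lt_of_le_of_lt (by positivity) hN
  have hN0 : 0 < N := by exact_mod_cast hN'
  have h := path_aux u v u' v' L M hu hv hL hM N hN0
  have : 2 * M / N ≤ ε := by
    rw [div_le_iff₀ hN']
    rw [div_lt_iff₀ hε] at hN
    linarith
  linarith

theorem path_lemma (u v u' v' : ℝ → ℝ) (L M : ℝ)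
    (hu : ∀ t ∈ Icc (0 : ℝ) 1, ∀ τ ∈ Icc (0 : ℝ) 1, u t + u' t * (τ - t) ≤ u τ)
    (hv : ∀ t ∈ Icc (0 : ℝ) 1, ∀ τ ∈ Icc (0 : ℝ) 1, v t + v' t * (τ - t) ≤ v τ)
    (hL : ∀ t ∈ Icc (0 : ℝ) 1, |u' t - v' t| ≤ L)
    (hM : ∀ t ∈ Icc (0 : ℝ) 1, |u' t| ≤ M ∧ |v' t| ≤ M) :
    |(u 1 - v 1) - (u 0 - v 0)| ≤ L := by
  have h1 := path_aux2 u v u' v' L M hu hv hL (fun t ht => (hM t ht).2)
  have h2 := path_aux2 v u v' u' L M hv hu (fun t ht => by rw [abs_sub_comm]; exact hL t ht)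
    (fun t ht => (hM t ht).1)
  rw [abs_le]
  constructor <;> linarith

end Crest.Agent.R082
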