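import Crest.Agent.S0109_Defs
import Crest.Agent.S0109_Basic
import Crest.Agent.S0109_Exist
import Crest.Agent.S0109_Cont
import Crest.Agent.S0109_KSL
import Crest.Agent.S0109_Path
import Crest.Agent.S0109_Duality

/-! Row 82 (S0109), module E (E1, E3, E4): subgradient pairs and the stability estimate A'. -/

set_option autoImplicit false

namespace Crest.Agent.R082

open MeasureTheory Set Filter Topology
open scoped ENNReal NNReal InnerProductSpace
open Crest.AnalysisR.OT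

noncomputable section

variable {d : ℕ} {ι κ I : Type}

/-- regrouping a sum over `I` along `e : I → ι`. -/
theorem apr_sum_fiber [Fintype ι] [Fintype I] [DecidableEq ι] (e : I → ι) (π : I → ℝ) (m : ι → ℝ)
    (hme : ∀ i, m i = ∑ k with e k = i, π k) (F : ι → ℝ) :
    ∑ k, π k * F (e k) = ∑ i, m i * F i := by
  rw [← Finset.sum_fiberwise Finset.univ e]
  refine Finset.sum_congr rfl fun i _ => ?_
  rw [hme i, Finset.sum_mul]
  refine Finset.sum_congr rfl fun k hk => ?_
  rw [(Finset.mem_filter.1 hk).2]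

/-- subgradient inequality for `Fval` at a grouped configuration. -/
theorem apr_subgrad [Fintype ι] [Nonempty ι] [Fintype I] [Nonempty I] [DecidableEq ι]
    {K : Set (E d)} {x0 : E d} {R : ℝ} (hK : Body K x0 R)
    {σ : Measure (E d)} (hσ : Source K σ) (e : I → ι) (p : ι → E d) (hp : Function.Injective p)
    (π : I → ℝ) (hπ : Weights π) (m : ι → ℝ) (hm : Weights m)
    (hme : ∀ i, m i = ∑ k with e k = i, π k)
    (c : ι → ℝ) (hc : Balanced σ p m c) (y' : I → E d) :
    Fval σ (p ∘ e) π + ∑ k, π k * ⟪bary σ p m c (e k), y' k - (p ∘ e) k⟫_ℝ ≤ Fval σ y' π := by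
  obtain ⟨h1, h2, -⟩ := strong_duality hK hσ e p hp π hπ.pos m hm hme c hc
  rw [h2, h1, ← Finset.sum_add_distrib]
  apply le_Fval hK hσ π hπ
  intro c'
  refine le_trans (le_of_eq ?_) (weak_duality hK hσ e p hp π hπ.pos m hm hme c hc y' c')
  refine Finset.sum_congr rfl fun k _ => ?_
  rw [inner_sub_right, Function.comp_apply]
  ring

theorem exists_subgrad_pair [Fintype I] [Nonempty I] {K : Set (E d)} {x0 : E d} {R : ℝ}
    (hK : Body K x0 R) {g : E d → ℝ} {G : ℝ} (hg : Pert K g G) {s : ℝ} (hs : |s| * G ≤ 1 / 2)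
    (π : I → ℝ) (hπ : Weights π) (y : I → E d) :
    ∃ X0 Xs : I → E d,
      (∀ k, ‖X0 k - x0‖ ≤ R) ∧ (∀ k, ‖Xs k - x0‖ ≤ R) ∧
      (∀ y' : I → E d, Fval (uniformProbOn K) y π + ∑ k, π k * ⟪X0 k, y' k - y k⟫_ℝ
          ≤ Fval (uniformProbOn K) y' π) ∧
      (∀ y' : I → E d, Fval (tilt K g s) y π + ∑ k, π k * ⟪Xs k, y' k - y k⟫_ℝ
          ≤ Fval (tilt K g s) y' π) ∧
      ∑ k, π k * ‖Xs k - X0 k‖ ^ 2 ≤ 5000000 * R ^ 2 * s ^ 2 * ∫ x, g x ^ 2 ∂(uniformProbOn K) := by
  classical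
  let J : Type := ↥(Set.range y)
  have : Fintype J := Fintype.ofFinite _
  have : Nonempty J := ⟨⟨y (Classical.arbitrary I), Set.mem_range_self _⟩⟩
  let e : I → J := Set.rangeFactorization y
  let p : J → E d := Subtype.val
  have hp : Function.Injective p := Subtype.val_injective
  have hy : y = p ∘ e := rfl
  let m : J → ℝ := fun i => ∑ k with e k = i, π k
  have hme : ∀ i, m i = ∑ k with e k = i, π k := fun _ => rfl
  have hm : Weights m := by
    constructor
    · intro i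
      obtain ⟨k, hk⟩ := Set.rangeFactorization_surjective (f := y) i
      apply Finset.sum_pos (fun k _ => hπ.pos k)
      exact ⟨k, Finset.mem_filter.2 ⟨Finset.mem_univ _, hk⟩⟩
    · have := apr_sum_fiber e π m hme (fun _ => 1)
      simp only [mul_one] at this
      rw [← this, hπ.sum]
  obtain ⟨c0, hc0⟩ := exists_balanced hK (source_uniform hK) p hp m hm
  obtain ⟨cs, hcs⟩ := exists_balanced hK (source_tilt hK hg hs) p hp m hm
  refine ⟨fun k => bary (uniformProbOn K) p m c0 (e k), fun k => bary (tilt K g s) p m cs (e k),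
    fun k => bary_mem_ball hK (source_uniform hK) p m hm c0 hc0 (e k),
    fun k => bary_mem_ball hK (source_tilt hK hg hs) p m hm cs hcs (e k),
    fun y' => apr_subgrad hK (source_uniform hK) e p hp π hπ m hm hme c0 hc0 y',
    fun y' => apr_subgrad hK (source_tilt hK hg hs) e p hp π hπ m hm hme cs hcs y', ?_⟩
  rw [apr_sum_fiber e π m hme
    (fun i => ‖bary (tilt K g s) p m cs i - bary (uniformProbOn K) p m c0 i‖ ^ 2)]
  exact ksl hK p hp m hm hg hs c0 cs hc0 hcs

/-- weighted Cauchy–Schwarz. -/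
theorem apr_cs [Fintype I] (π : I → ℝ) (hπ : ∀ k, 0 ≤ π k) (a b : I → E d) :
    (∑ k, π k * ⟪a k, b k⟫_ℝ) ^ 2 ≤ (∑ k, π k * ‖a k‖ ^ 2) * (∑ k, π k * ‖b k‖ ^ 2) := by
  have h1 : |∑ k, π k * ⟪a k, b k⟫_ℝ| ≤ ∑ k, (Real.sqrt (π k) * ‖a k‖) * (Real.sqrt (π k) * ‖b k‖) := by
    refine (Finset.abs_sum_le_sum_abs _ _).trans (Finset.sum_le_sum fun k _ => ?_)
    rw [abs_mul, abs_of_nonneg (hπ k)]
    have h2 : Real.sqrt (π k) * ‖a k‖ * (Real.sqrt (π k) * ‖b k‖)
        = (Real.sqrt (π k) * Real.sqrt (π k)) * (‖a k‖ * ‖b k‖) := by ring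
    rw [h2, Real.mul_self_sqrt (hπ k)]
    exact mul_le_mul_of_nonneg_left (abs_real_inner_le_norm _ _) (hπ k)
  have h3 := Finset.sum_mul_sq_le_sq_mul_sq Finset.univ (fun k => Real.sqrt (π k) * ‖a k‖)
    (fun k => Real.sqrt (π k) * ‖b k‖)
  have h4 : ∀ (c : I → E d), ∑ k, (Real.sqrt (π k) * ‖c k‖) ^ 2 = ∑ k, π k * ‖c k‖ ^ 2 := by
    intro c
    refine Finset.sum_congr rfl fun k _ => ?_
    rw [mul_pow, Real.sq_sqrt (hπ k)]
  rw [h4, h4] at h3
  refine le_trans ?_ h3
  rw [← sq_abs]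
  exact pow_le_pow_left₀ (abs_nonneg _) h1 2

theorem apr_integrable_lag_mul [Fintype I] [Nonempty I] {K : Set (E d)} {x0 : E d} {R : ℝ}
    (hK : Body K x0 R) {g : E d → ℝ} {G : ℝ} (hg : Pert K g G) (y : I → E d) (c : I → ℝ) :
    Integrable (fun x => lag y c x * g x) (uniformProbOn K) :=
  (exi_integrable_lag hK (source_uniform hK) y c).mul_bdd (c := G) hg.meas.aestronglyMeasurable
    (Eventually.of_forall fun x => by rw [Real.norm_eq_abs]; exact hg.bdd x)

theorem apr_Kf_tilt [Fintype I] [Nonempty I] {K : Set (E d)} {x0 : E d} {R : ℝ}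
    (hK : Body K x0 R) {g : E d → ℝ} {G : ℝ} (hg : Pert K g G) {s : ℝ} (hs : |s| * G ≤ 1 / 2)
    (y : I → E d) (π c : I → ℝ) :
    Kf (tilt K g s) y π c
      = Kf (uniformProbOn K) y π c + s * ∫ x, lag y c x * g x ∂(uniformProbOn K) := by
  unfold Kf
  rw [integral_tilt hK hg hs]
  have h : ∀ x, (1 + s * g x) • lag y c x = lag y c x + s * (lag y c x * g x) := by
    intro x; rw [smul_eq_mul]; ring
  simp_rw [h]
  rw [integral_add (exi_integrable_lag hK (source_uniform hK) y c)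
    ((apr_integrable_lag_mul hK hg y c).const_mul s), integral_const_mul]
  ring

theorem apr_core [Fintype ι] [Nonempty ι] [Fintype κ] [Nonempty κ] [Fintype I] [Nonempty I]
    [DecidableEq ι] [DecidableEq κ] {K : Set (E d)} {x0 : E d} {R : ℝ}
    (hK : Body K x0 R) (p : ι → E d) (hp : Function.Injective p) (q : κ → E d)
    (hq : Function.Injective q) (m : ι → ℝ) (hm : Weights m) (n : κ → ℝ) (hn : Weights n)
    (cν : κ → ℝ) (hcν : Balanced (uniformProbOn K) q n cν)
    (π : I → ℝ) (hπ : Weights π) (e1 : I → ι) (e2 : I → κ)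
    (hme1 : ∀ i, m i = ∑ k with e1 k = i, π k) (hme2 : ∀ j, n j = ∑ k with e2 k = j, π k)
    {g : E d → ℝ} {G : ℝ} (hg : Pert K g G) {s : ℝ} (hs : |s| * G ≤ 1 / 2)
    (cs : ι → ℝ) (hcs : Balanced (tilt K g s) p m cs) :
    s * ∫ x, lag p cs x * g x ∂(uniformProbOn K)
      - Real.sqrt ((5000000 * R ^ 2 * s ^ 2 * ∫ x, g x ^ 2 ∂(uniformProbOn K))
          * ∑ k, π k * ‖q (e2 k) - p (e1 k)‖ ^ 2)
      ≤ s * ∫ x, lag q cν x * g x ∂(uniformProbOn K) := by
  set Δ : I → E d := fun k => q (e2 k) - p (e1 k) with hΔ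
  set y : ℝ → I → E d := fun t k => p (e1 k) + t • Δ k with hy
  have hy0 : y 0 = p ∘ e1 := by
    funext k; simp [hy]
  have hy1 : y 1 = q ∘ e2 := by
    funext k; simp [hy, hΔ]
  choose X0 Xs hX0 hXs hsub0 hsubs hksl using fun t => exists_subgrad_pair hK hg hs π hπ (y t)
  set L : ℝ := Real.sqrt ((5000000 * R ^ 2 * s ^ 2 * ∫ x, g x ^ 2 ∂(uniformProbOn K))
          * ∑ k, π k * ‖Δ k‖ ^ 2) with hL
  set M : ℝ := ∑ k, π k * ((‖x0‖ + R) * ‖Δ k‖) with hM
  have hdiff : ∀ t τ k, y τ k - y t k = (τ - t) • Δ k := by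
    intro t τ k
    simp only [hy]
    rw [sub_smul]; abel
  have hlin : ∀ (X : I → E d) (t τ : ℝ), ∑ k, π k * ⟪X k, y τ k - y t k⟫_ℝ
      = (∑ k, π k * ⟪X k, Δ k⟫_ℝ) * (τ - t) := by
    intro X t τ
    rw [Finset.sum_mul]
    refine Finset.sum_congr rfl fun k _ => ?_
    rw [hdiff, inner_smul_right]; ring
  have hbound : ∀ (X : I → E d), (∀ k, ‖X k - x0‖ ≤ R) → |∑ k, π k * ⟪X k, Δ k⟫_ℝ| ≤ M := by
    intro X hX
    refine (Finset.abs_sum_le_sum_abs _ _).trans (Finset.sum_le_sum fun k _ => ?_)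
    rw [abs_mul, abs_of_nonneg (hπ.pos k).le]
    refine mul_le_mul_of_nonneg_left ?_ (hπ.pos k).le
    refine (abs_real_inner_le_norm _ _).trans (mul_le_mul_of_nonneg_right ?_ (norm_nonneg _))
    calc ‖X k‖ = ‖x0 + (X k - x0)‖ := by congr 1; abel
      _ ≤ ‖x0‖ + ‖X k - x0‖ := norm_add_le _ _
      _ ≤ ‖x0‖ + R := by linarith [hX k]
  have hpath := path_lemma (fun t => Fval (tilt K g s) (y t) π) (fun t => Fval (uniformProbOn K) (y t) π)
    (fun t => ∑ k, π k * ⟪Xs t k, Δ k⟫_ℝ) (fun t => ∑ k, π k * ⟪X0 t k, Δ k⟫_ℝ) L M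
    (fun t _ τ _ => by
      have := hsubs t (y τ)
      rw [hlin] at this
      exact this)
    (fun t _ τ _ => by
      have := hsub0 t (y τ)
      rw [hlin] at this
      exact this)
    (fun t _ => by
      have e : ∑ k, π k * ⟪Xs t k, Δ k⟫_ℝ - ∑ k, π k * ⟪X0 t k, Δ k⟫_ℝ
          = ∑ k, π k * ⟪Xs t k - X0 t k, Δ k⟫_ℝ := by
        rw [← Finset.sum_sub_distrib]
        refine Finset.sum_congr rfl fun k _ => ?_
        rw [inner_sub_left]; ring
      rw [e, hL]
      apply Real.abs_le_sqrt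
      refine (apr_cs π (fun k => (hπ.pos k).le) _ _).trans ?_
      exact mul_le_mul_of_nonneg_right (hksl t)
        (Finset.sum_nonneg fun k _ => mul_nonneg (hπ.pos k).le (sq_nonneg _)))
    (fun t _ => ⟨hbound _ (hXs t), hbound _ (hX0 t)⟩)
  simp only [hy0, hy1] at hpath
  -- endpoints
  obtain ⟨-, a2, a3⟩ := strong_duality hK (source_uniform hK) e2 q hq π hπ.pos n hn hme2 cν hcν
  have end1 : Fval (tilt K g s) (q ∘ e2) π
      ≤ Fval (uniformProbOn K) (q ∘ e2) π + s * ∫ x, lag q cν x * g x ∂(uniformProbOn K) := by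
    refine (Fval_le_Kf hK (source_tilt hK hg hs) π hπ (q ∘ e2) (cν ∘ e2)).trans ?_
    rw [apr_Kf_tilt hK hg hs, a2]
    simp_rw [a3]
    exact le_rfl
  obtain ⟨-, b2, b3⟩ := strong_duality hK (source_tilt hK hg hs) e1 p hp π hπ.pos m hm hme1 cs hcs
  have end0 : Fval (uniformProbOn K) (p ∘ e1) π + s * ∫ x, lag p cs x * g x ∂(uniformProbOn K)
      ≤ Fval (tilt K g s) (p ∘ e1) π := by
    rw [b2, apr_Kf_tilt hK hg hs]
    simp_rw [b3]
    have := Fval_le_Kf hK (source_uniform hK) π hπ (p ∘ e1) (cs ∘ e1)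
    linarith
  have := (abs_le.1 hpath).1
  linarith

/-- sums over the support of a plan. -/
theorem apr_sum_supp [Fintype ι] [Fintype κ] (Pi : ι → κ → ℝ) (hPi : ∀ i j, 0 ≤ Pi i j)
    [DecidablePred fun k : ι × κ => 0 < Pi k.1 k.2] (F : ι × κ → ℝ) :
    ∑ k : {k : ι × κ // 0 < Pi k.1 k.2}, Pi k.1.1 k.1.2 * F k.1 = ∑ i, ∑ j, Pi i j * F (i, j) := by
  rw [← Fintype.sum_prod_type (f := fun k : ι × κ => Pi k.1 k.2 * F k)]
  rw [← Finset.sum_subtype (Finset.univ.filter fun k : ι × κ => 0 < Pi k.1 k.2) (by simp)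
    (fun k : ι × κ => Pi k.1 k.2 * F k)]
  apply Finset.sum_filter_of_ne
  intro k _ hk
  have h0 : Pi k.1 k.2 ≠ 0 := fun h => hk (by rw [h, zero_mul])
  exact lt_of_le_of_ne (hPi _ _) (Ne.symm h0)

/-- A' : Lipschitz stability of the potentials in `L²(ρ)` w.r.t. `W₂`. -/
theorem aprime [Fintype ι] [Nonempty ι] [Fintype κ] [Nonempty κ] {K : Set (E d)} {x0 : E d} {R : ℝ}
    (hK : Body K x0 R) (p : ι → E d) (hp : Function.Injective p) (q : κ → E d)
    (hq : Function.Injective q) (m : ι → ℝ) (hm : Weights m) (n : κ → ℝ) (hn : Weights n)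
    (cμ : ι → ℝ) (hcμ : Balanced (uniformProbOn K) p m cμ)
    (cν : κ → ℝ) (hcν : Balanced (uniformProbOn K) q n cν)
    (Pi : ι → κ → ℝ) (hPi : ∀ i j, 0 ≤ Pi i j) (hPi1 : ∀ i, ∑ j, Pi i j = m i) (hPi2 : ∀ j, ∑ i, Pi i j = n j) :
    ∫ x, ((lag q cν x - lag p cμ x)
        - ∫ z, (lag q cν z - lag p cμ z) ∂(uniformProbOn K)) ^ 2 ∂(uniformProbOn K)
      ≤ 5000000 * R ^ 2 * ∑ i, ∑ j, Pi i j * ‖p i - q j‖ ^ 2 := by
  classical
  have hρ := source_uniform hK
  have hprob := hρ.prob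
  let I : Type := {k : ι × κ // 0 < Pi k.1 k.2}
  let π : I → ℝ := fun k => Pi k.1.1 k.1.2
  let e1 : I → ι := fun k => k.1.1
  let e2 : I → κ := fun k => k.1.2
  have hsum : ∀ F : ι × κ → ℝ, ∑ k : I, π k * F k.1 = ∑ i, ∑ j, Pi i j * F (i, j) :=
    apr_sum_supp Pi hPi
  have hπsum : ∑ k, π k = 1 := by
    have := hsum (fun _ => 1)
    simp only [mul_one] at this
    rw [this]; simp_rw [hPi1]; exact hm.sum
  have hπ : Weights π := ⟨fun k => k.2, hπsum⟩
  have hne : Nonempty I := by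
    by_contra h
    rw [not_nonempty_iff] at h
    simp at hπsum
  have hme1 : ∀ i, m i = ∑ k with e1 k = i, π k := by
    intro i
    rw [Finset.sum_filter]
    have := hsum (fun k => if k.1 = i then 1 else 0)
    simp only [mul_ite, mul_one, mul_zero] at this
    rw [this, ← hPi1 i, Finset.sum_comm]
    simp
  have hme2 : ∀ j, n j = ∑ k with e2 k = j, π k := by
    intro j
    rw [Finset.sum_filter]
    have := hsum (fun k => if k.2 = j then 1 else 0)
    simp only [mul_ite, mul_one, mul_zero] at this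
    rw [this, ← hPi2 j]
    simp
  set f : E d → ℝ := fun x => lag q cν x - lag p cμ x with hf
  have hfc : Continuous f := (continuous_lag q cν).sub (continuous_lag p cμ)
  set fbar : ℝ := ∫ z, f z ∂(uniformProbOn K) with hfbar
  set g : E d → ℝ := K.indicator (fun x => f x - fbar) with hgdef
  obtain ⟨G, hG⟩ := hK.compact.exists_bound_of_continuousOn
    (hfc.sub (continuous_const (y := fbar))).continuousOn
  have hG0 : 0 ≤ G := (norm_nonneg _).trans (hG x0 hK.mem)
  have hae : ∀ᵐ x ∂(uniformProbOn K), g x = f x - fbar :=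
    (exi_ae_mem hρ).mono fun x hx => indicator_of_mem hx _
  have hfi : Integrable f (uniformProbOn K) := exi_integrable hK hρ hfc
  have hg : Pert K g G := by
    refine ⟨(hfc.measurable.sub_const _).indicator hK.compact.measurableSet, fun x => ?_, ?_⟩
    · by_cases hx : x ∈ K
      · rw [hgdef, indicator_of_mem hx]; exact hG x hx
      · rw [hgdef, indicator_of_notMem hx]; simpa using hG0
    · rw [integral_congr_ae hae, integral_sub hfi (integrable_const _)]; simp [hfbar]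
  have hex : ∀ s : ℝ, ∃ c : ι → ℝ, |s| * G ≤ 1 / 2 → Balanced (tilt K g s) p m c := by
    intro s
    by_cases hs : |s| * G ≤ 1 / 2
    · obtain ⟨c, hc⟩ := exists_balanced hK (source_tilt hK hg hs) p hp m hm
      exact ⟨c, fun _ => hc⟩
    · exact ⟨0, fun h => absurd h hs⟩
  choose cs hcs using hex
  have hlim := tendsto_integral_lag hK p hp m hm cμ hcμ hg cs hcs
  set A : ℝ := ∫ x, g x ^ 2 ∂(uniformProbOn K) with hA
  set ε2 : ℝ := ∑ k, π k * ‖q (e2 k) - p (e1 k)‖ ^ 2 with hε2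
  set L1 : ℝ := Real.sqrt (5000000 * R ^ 2 * A * ε2) with hL1
  have hA0 : 0 ≤ A := integral_nonneg fun x => sq_nonneg _
  have hε0 : 0 ≤ ε2 := Finset.sum_nonneg fun k _ => mul_nonneg (hπ.pos k).le (sq_nonneg _)
  have key : ∀ s : ℝ, s < 0 → |s| * G ≤ 1 / 2 →
      ∫ x, lag q cν x * g x ∂(uniformProbOn K)
        ≤ ∫ x, lag p (cs s) x * g x ∂(uniformProbOn K) + L1 := by
    intro s hs0 hs
    have h := apr_core hK p hp q hq m hm n hn cν hcν π hπ e1 e2 hme1 hme2 hg hs (cs s) (hcs s hs)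
    have hsq : Real.sqrt ((5000000 * R ^ 2 * s ^ 2 * A) * ε2) = (-s) * L1 := by
      have : (5000000 * R ^ 2 * s ^ 2 * A) * ε2 = (-s) ^ 2 * (5000000 * R ^ 2 * A * ε2) := by ring
      rw [this, Real.sqrt_mul (sq_nonneg _), Real.sqrt_sq (by linarith)]
    rw [hsq] at h
    by_contra hcon
    push Not at hcon
    have := mul_pos_of_neg_of_neg hs0 (sub_neg.2 hcon)
    linarith
  have hev : ∀ᶠ s in 𝓝[<] (0 : ℝ), ∫ x, lag q cν x * g x ∂(uniformProbOn K)
        ≤ ∫ x, lag p (cs s) x * g x ∂(uniformProbOn K) + L1 := by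
    have h1 : ∀ᶠ s in 𝓝 (0 : ℝ), |s| * G ≤ 1 / 2 := by
      have h2 : Tendsto (fun s : ℝ => |s| * G) (𝓝 0) (𝓝 (|(0 : ℝ)| * G)) :=
        (continuous_abs.mul continuous_const).tendsto 0
      rw [abs_zero, zero_mul] at h2
      exact h2.eventually (Iic_mem_nhds (by norm_num))
    filter_upwards [nhdsWithin_le_nhds h1, self_mem_nhdsWithin] with s hs hs0 using key s hs0 hs
  have hfin : ∫ x, lag q cν x * g x ∂(uniformProbOn K)
      ≤ ∫ x, lag p cμ x * g x ∂(uniformProbOn K) + L1 :=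
    ge_of_tendsto ((hlim.mono_left nhdsWithin_le_nhds).add_const L1) hev
  have hgi : Integrable g (uniformProbOn K) :=
    Integrable.of_bound hg.meas.aestronglyMeasurable G (Eventually.of_forall fun x => by
      rw [Real.norm_eq_abs]; exact hg.bdd x)
  have hg2i : Integrable (fun x => g x ^ 2) (uniformProbOn K) :=
    Integrable.of_bound (hg.meas.pow_const 2).aestronglyMeasurable (G ^ 2)
      (Eventually.of_forall fun x => by
        rw [Real.norm_eq_abs, abs_pow]
        exact pow_le_pow_left₀ (abs_nonneg _) (hg.bdd x) 2)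
  have hAeq : ∫ x, lag q cν x * g x ∂(uniformProbOn K) - ∫ x, lag p cμ x * g x ∂(uniformProbOn K)
      = A := by
    rw [← integral_sub (apr_integrable_lag_mul hK hg q cν) (apr_integrable_lag_mul hK hg p cμ)]
    have h1 : ∀ᵐ x ∂(uniformProbOn K), lag q cν x * g x - lag p cμ x * g x
        = g x ^ 2 + fbar * g x := by
      filter_upwards [hae] with x hx
      have : lag q cν x - lag p cμ x = g x + fbar := by rw [hx]; ring
      calc lag q cν x * g x - lag p cμ x * g x = (lag q cν x - lag p cμ x) * g x := by ring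
        _ = g x ^ 2 + fbar * g x := by rw [this]; ring
    rw [integral_congr_ae h1, integral_add hg2i (hgi.const_mul _), integral_const_mul, hg.mean]
    ring
  have hAL : A ≤ L1 := by linarith
  have hsq : A ^ 2 ≤ 5000000 * R ^ 2 * A * ε2 := by
    have h1 : A ^ 2 ≤ L1 ^ 2 := pow_le_pow_left₀ hA0 hAL 2
    rwa [hL1, Real.sq_sqrt (by positivity)] at h1
  have hmain : A ≤ 5000000 * R ^ 2 * ε2 := by
    rcases hA0.eq_or_lt with h0 | hpos
    · rw [← h0]; positivity
    · have : A * A ≤ A * (5000000 * R ^ 2 * ε2) := by nlinarith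
      exact le_of_mul_le_mul_left this hpos
  have hlhs : ∫ x, (f x - fbar) ^ 2 ∂(uniformProbOn K) = A := by
    rw [hA]
    exact integral_congr_ae (hae.mono fun x hx => by simp only [hx])
  have hrhs : ε2 = ∑ i, ∑ j, Pi i j * ‖p i - q j‖ ^ 2 := by
    rw [hε2]
    have := hsum (fun k => ‖p k.1 - q k.2‖ ^ 2)
    rw [← this]
    refine Finset.sum_congr rfl fun k _ => ?_
    rw [norm_sub_rev]
  rw [← hrhs]
  exact hlhs.trans_le hmain

end

end Crest.Agent.R082
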