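import Mathlib

/-! Row 82 (S0109), module F1: one-dimensional Gagliardo–Nirenberg inequality for convex functions
(`gn1d`), proved by difference quotients. -/

set_option autoImplicit false

namespace Crest.Agent.R082

open MeasureTheory Set

theorem gn1_sq_aux (P u w0 w1 : ℝ) (hup : P ≤ u + w0)
    (hlo : -P ≤ -u + w1) : P ^ 2 ≤ 2 * u ^ 2 + 2 * w0 ^ 2 + 2 * w1 ^ 2 := by
  rcases le_total 0 P with hc | hc
  · have : P ^ 2 ≤ (u + w0) ^ 2 := pow_le_pow_left₀ hc hup 2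
    nlinarith [sq_nonneg (u - w0), sq_nonneg w1]
  · have : (-P) ^ 2 ≤ (-u + w1) ^ 2 := pow_le_pow_left₀ (by linarith) hlo 2
    nlinarith [sq_nonneg (u + w1), sq_nonneg w0]

/-- pointwise difference-quotient estimate. -/
theorem gn1_pt (D r : ℝ) (hr : 0 < r) (f0 f1 f0' f1' p0 p1 p0' p1' : ℝ)
    (hp0 : |p0| ≤ D) (hp1 : |p1| ≤ D) (hp0' : |p0'| ≤ D) (hp1' : |p1'| ≤ D)
    (h0 : f0 + p0 * r ≤ f0') (h1 : f1 + p1 * r ≤ f1')
    (h0' : f0' + p0' * (-r) ≤ f0) (h1' : f1' + p1' * (-r) ≤ f1) :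
    (p1 - p0) ^ 2 ≤ 4 / r ^ 2 * ((f1' - f0') ^ 2 + (f1 - f0) ^ 2)
      + 4 * D * ((p0' - p0) + (p1' - p1)) := by
  have hD : 0 ≤ D := le_trans (abs_nonneg _) hp0
  obtain ⟨a0, b0⟩ := abs_le.1 hp0
  obtain ⟨a1, b1⟩ := abs_le.1 hp1
  obtain ⟨a0', b0'⟩ := abs_le.1 hp0'
  obtain ⟨a1', b1'⟩ := abs_le.1 hp1'
  rw [mul_neg] at h0' h1'
  obtain ⟨u, hur⟩ : ∃ u : ℝ, u * r = (f1' - f0') - (f1 - f0) :=
    ⟨((f1' - f0') - (f1 - f0)) / r, by field_simp⟩
  have hw0n : 0 ≤ p0' - p0 := by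
    have : p0 * r ≤ p0' * r := by linarith
    have := le_of_mul_le_mul_right this hr
    linarith
  have hw1n : 0 ≤ p1' - p1 := by
    have : p1 * r ≤ p1' * r := by linarith
    have := le_of_mul_le_mul_right this hr
    linarith
  have hup : p1 - p0 ≤ u + (p0' - p0) := by
    have : (p1 - p0) * r ≤ (u + (p0' - p0)) * r := by
      have e1 : (u + (p0' - p0)) * r = u * r + (p0' * r - p0 * r) := by ring
      have e2 : (p1 - p0) * r = p1 * r - p0 * r := by ring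
      rw [e1, e2, hur]; linarith
    exact le_of_mul_le_mul_right this hr
  have hlo : -(p1 - p0) ≤ -u + (p1' - p1) := by
    have : (-(p1 - p0)) * r ≤ (-u + (p1' - p1)) * r := by
      have e1 : (-u + (p1' - p1)) * r = -(u * r) + (p1' * r - p1 * r) := by ring
      have e2 : (-(p1 - p0)) * r = p0 * r - p1 * r := by ring
      rw [e1, e2, hur]; linarith
    exact le_of_mul_le_mul_right this hr
  have hsq := gn1_sq_aux (p1 - p0) u (p0' - p0) (p1' - p1) hup hlo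
  have hw0s : (p0' - p0) ^ 2 ≤ 2 * D * (p0' - p0) := by
    have : (p0' - p0) * (p0' - p0) ≤ (2 * D) * (p0' - p0) :=
      mul_le_mul_of_nonneg_right (by linarith) hw0n
    rw [sq]; exact this
  have hw1s : (p1' - p1) ^ 2 ≤ 2 * D * (p1' - p1) := by
    have : (p1' - p1) * (p1' - p1) ≤ (2 * D) * (p1' - p1) :=
      mul_le_mul_of_nonneg_right (by linarith) hw1n
    rw [sq]; exact this
  have husq : u ^ 2 ≤ 2 / r ^ 2 * ((f1' - f0') ^ 2 + (f1 - f0) ^ 2) := by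
    have hu : u = ((f1' - f0') - (f1 - f0)) / r := by rw [← hur]; field_simp
    have : u ^ 2 = ((f1' - f0') - (f1 - f0)) ^ 2 / r ^ 2 := by rw [hu, div_pow]
    rw [this, div_mul_eq_mul_div, div_le_div_iff_of_pos_right (by positivity)]
    nlinarith [sq_nonneg ((f1' - f0') + (f1 - f0))]
  have e : 4 / r ^ 2 * ((f1' - f0') ^ 2 + (f1 - f0) ^ 2)
      = 2 * (2 / r ^ 2 * ((f1' - f0') ^ 2 + (f1 - f0) ^ 2)) := by ring
  rw [e]
  linarith

theorem gn1_sub {f : ℝ → ℝ} {a b c e : ℝ} (hab : a ≤ b) (hf : IntervalIntegrable f volume a b)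
    (hc : c ∈ Icc a b) (he : e ∈ Icc a b) : IntervalIntegrable f volume c e := by
  refine hf.mono_set ?_
  apply uIcc_subset_uIcc <;> rw [uIcc_of_le hab] <;> assumption

theorem gn1_shiftInt {f : ℝ → ℝ} {a b r : ℝ} (hab : a ≤ b) (hr : 0 < r) (hrb : r ≤ b - a)
    (hf : IntervalIntegrable f volume a b) :
    IntervalIntegrable (fun t => f (t + r)) volume a (b - r) := by
  have h1 : IntervalIntegrable f volume (a + r) b :=
    gn1_sub hab hf ⟨by linarith, by linarith⟩ ⟨hab, le_rfl⟩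
  have := h1.comp_add_right r
  simpa using this

theorem gn1_small (a b D : ℝ) (c e : ℝ) (hce : c ≤ e) (hc : c ∈ Icc a b) (he : e ∈ Icc a b)
    (P : ℝ → ℝ) (hb : ∀ᵐ t : ℝ, t ∈ Icc a b → |P t| ≤ D) :
    |∫ t in c..e, P t| ≤ D * (e - c) := by
  have := intervalIntegral.norm_integral_le_of_norm_le_const_ae (a := c) (b := e) (C := D) (f := P)
    (by
      filter_upwards [hb] with t ht hm
      rw [uIoc_of_le hce] at hm
      exact ht ⟨by linarith [hm.1, hc.1], by linarith [hm.2, he.2]⟩)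
  rwa [Real.norm_eq_abs, abs_of_nonneg (by linarith : (0:ℝ) ≤ e - c)] at this

theorem gn1_shift (a b D r : ℝ) (hr : 0 < r) (hrb : r ≤ b - a) (P : ℝ → ℝ)
    (iP : IntervalIntegrable P volume a b) (hb : ∀ᵐ t : ℝ, t ∈ Icc a b → |P t| ≤ D) :
    ∫ t in a..(b - r), (P (t + r) - P t) ≤ 2 * D * r := by
  have hab : a ≤ b := by linarith
  have ma : a ∈ Icc a b := ⟨le_rfl, hab⟩
  have mb : b ∈ Icc a b := ⟨hab, le_rfl⟩
  have mar : a + r ∈ Icc a b := ⟨by linarith, by linarith⟩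
  have mbr : b - r ∈ Icc a b := ⟨by linarith, by linarith⟩
  rw [intervalIntegral.integral_sub (gn1_shiftInt hab hr hrb iP) (gn1_sub hab iP ma mbr),
    intervalIntegral.integral_comp_add_right, sub_add_cancel]
  have e1 := intervalIntegral.integral_add_adjacent_intervals (gn1_sub hab iP ma mar)
    (gn1_sub hab iP mar mb)
  have e2 := intervalIntegral.integral_add_adjacent_intervals (gn1_sub hab iP ma mbr)
    (gn1_sub hab iP mbr mb)
  have b1 := gn1_small a b D a (a + r) (by linarith) ma mar P hb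
  have b2 := gn1_small a b D (b - r) b (by linarith) mbr mb P hb
  have := abs_le.1 b1
  have := abs_le.1 b2
  nlinarith


theorem gn1_intg_of_bdd (a b C : ℝ) (hab : a ≤ b) (f : ℝ → ℝ)
    (hf : AEMeasurable f (volume.restrict (Icc a b)))
    (hb : ∀ᵐ t : ℝ, t ∈ Icc a b → |f t| ≤ C) : IntervalIntegrable f volume a b := by
  rw [intervalIntegrable_iff_integrableOn_Icc_of_le hab]
  have : Integrable (fun _ : ℝ => C) (volume.restrict (Icc a b)) := integrable_const C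
  refine this.mono' hf.aestronglyMeasurable ?_
  rw [ae_restrict_iff' measurableSet_Icc]
  filter_upwards [hb] with t ht hm
  exact ht hm

theorem gn1_core (a b D r : ℝ) (hD : 0 ≤ D) (hr : 0 < r) (hrb : r ≤ b - a) (F0 F1 P0 P1 : ℝ → ℝ)
    (hF0 : ContinuousOn F0 (Icc a b)) (hF1 : ContinuousOn F1 (Icc a b))
    (hP0 : AEMeasurable P0 (volume.restrict (Icc a b)))
    (hP1 : AEMeasurable P1 (volume.restrict (Icc a b)))
    (hb0 : ∀ᵐ t : ℝ, t ∈ Icc a b → |P0 t| ≤ D)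
    (hb1 : ∀ᵐ t : ℝ, t ∈ Icc a b → |P1 t| ≤ D)
    (hs0 : ∀ᵐ t : ℝ, t ∈ Icc a b → ∀ τ ∈ Icc a b, F0 t + P0 t * (τ - t) ≤ F0 τ)
    (hs1 : ∀ᵐ t : ℝ, t ∈ Icc a b → ∀ τ ∈ Icc a b, F1 t + P1 t * (τ - t) ≤ F1 τ) :
    ∫ t in a..b, (P1 t - P0 t) ^ 2
      ≤ 8 / r ^ 2 * (∫ t in a..b, (F1 t - F0 t) ^ 2) + 20 * r * D ^ 2 := by
  have hab : a ≤ b := by linarith
  have ma : a ∈ Icc a b := ⟨le_rfl, hab⟩
  have mb : b ∈ Icc a b := ⟨hab, le_rfl⟩
  have mar : a + r ∈ Icc a b := ⟨by linarith, by linarith⟩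
  have mbr : b - r ∈ Icc a b := ⟨by linarith, by linarith⟩
  have iP0 := gn1_intg_of_bdd a b D hab P0 hP0 hb0
  have iP1 := gn1_intg_of_bdd a b D hab P1 hP1 hb1
  have hbsq : ∀ᵐ t : ℝ, t ∈ Icc a b → |(P1 t - P0 t) ^ 2| ≤ 4 * D ^ 2 := by
    filter_upwards [hb0, hb1] with t h0 h1 hm
    have a0 := abs_le.1 (h0 hm)
    have a1 := abs_le.1 (h1 hm)
    rw [abs_of_nonneg (sq_nonneg _)]
    have : |P1 t - P0 t| ≤ 2 * D := by rw [abs_le]; constructor <;> linarith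
    calc (P1 t - P0 t) ^ 2 = |P1 t - P0 t| ^ 2 := (sq_abs _).symm
      _ ≤ (2 * D) ^ 2 := pow_le_pow_left₀ (abs_nonneg _) this 2
      _ = 4 * D ^ 2 := by ring
  have iPsq : IntervalIntegrable (fun t => (P1 t - P0 t) ^ 2) volume a b :=
    gn1_intg_of_bdd a b (4 * D ^ 2) hab _ ((hP1.sub hP0).pow_const 2) hbsq
  have ih : IntervalIntegrable (fun t => (F1 t - F0 t) ^ 2) volume a b := by
    apply ContinuousOn.intervalIntegrable
    rw [uIcc_of_le hab]
    exact (hF1.sub hF0).pow 2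
  -- split
  rw [← intervalIntegral.integral_add_adjacent_intervals (gn1_sub hab iPsq ma mbr)
    (gn1_sub hab iPsq mbr mb)]
  have part2 : ∫ t in (b - r)..b, (P1 t - P0 t) ^ 2 ≤ 4 * D ^ 2 * r := by
    have := gn1_small a b (4 * D ^ 2) (b - r) b (by linarith) mbr mb _ hbsq
    have h2 := (abs_le.1 this).2
    have : b - (b - r) = r := by ring
    rwa [this] at h2
  -- shifted a.e. statements
  have sh : ∀ {p : ℝ → Prop}, (∀ᵐ t : ℝ, p t) → ∀ᵐ t : ℝ, p (t + r) := by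
    intro p hp
    exact (measurePreserving_add_right volume r).quasiMeasurePreserving.ae hp
  have part1 : ∫ t in a..(b - r), (P1 t - P0 t) ^ 2 ≤
      ∫ t in a..(b - r), (4 / r ^ 2 * ((F1 (t + r) - F0 (t + r)) ^ 2 + (F1 t - F0 t) ^ 2)
        + 4 * D * ((P0 (t + r) - P0 t) + (P1 (t + r) - P1 t))) := by
    refine intervalIntegral.integral_mono_ae_restrict mbr.1 (gn1_sub hab iPsq ma mbr) ?_ ?_
    · refine IntervalIntegrable.add ?_ ?_
      · refine IntervalIntegrable.const_mul ?_ _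
        exact (gn1_shiftInt hab hr hrb ih).add (gn1_sub hab ih ma mbr)
      · refine IntervalIntegrable.const_mul ?_ _
        exact ((gn1_shiftInt hab hr hrb iP0).sub (gn1_sub hab iP0 ma mbr)).add
          ((gn1_shiftInt hab hr hrb iP1).sub (gn1_sub hab iP1 ma mbr))
    · rw [Filter.EventuallyLE, ae_restrict_iff' measurableSet_Icc]
      filter_upwards [hb0, hb1, hs0, hs1, sh hb0, sh hb1, sh hs0, sh hs1] with
        t b0 b1 s0 s1 b0' b1' s0' s1' hm
      have m1 : t ∈ Icc a b := ⟨hm.1, by linarith [hm.2]⟩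
      have m2 : t + r ∈ Icc a b := ⟨by linarith [hm.1], by linarith [hm.2]⟩
      refine gn1_pt D r hr (F0 t) (F1 t) (F0 (t + r)) (F1 (t + r)) (P0 t) (P1 t) (P0 (t + r))
        (P1 (t + r)) (b0 m1) (b1 m1) (b0' m2) (b1' m2) ?_ ?_ ?_ ?_
      · have := s0 m1 (t + r) m2
        simpa using this
      · have := s1 m1 (t + r) m2
        simpa using this
      · have := s0' m2 t m1
        simpa using this
      · have := s1' m2 t m1
        simpa using this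
  have nn : ∀ c e : ℝ, 0 ≤ᵐ[volume.restrict (Ioc c e)] (fun t => (F1 t - F0 t) ^ 2) :=
    fun c e => Filter.Eventually.of_forall fun t => sq_nonneg _
  have A1 : ∫ t in a..(b - r), (F1 (t + r) - F0 (t + r)) ^ 2 ≤ ∫ t in a..b, (F1 t - F0 t) ^ 2 := by
    have := intervalIntegral.integral_comp_add_right (a := a) (b := b - r)
      (fun t => (F1 t - F0 t) ^ 2) r
    rw [this, sub_add_cancel]
    exact intervalIntegral.integral_mono_interval mar.1 mar.2 le_rfl (nn a b) ih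
  have A2 : ∫ t in a..(b - r), (F1 t - F0 t) ^ 2 ≤ ∫ t in a..b, (F1 t - F0 t) ^ 2 :=
    intervalIntegral.integral_mono_interval le_rfl mbr.1 mbr.2 (nn a b) ih
  have S0 := gn1_shift a b D r hr hrb P0 iP0 hb0
  have S1 := gn1_shift a b D r hr hrb P1 iP1 hb1
  have expand : ∫ t in a..(b - r), (4 / r ^ 2 * ((F1 (t + r) - F0 (t + r)) ^ 2 + (F1 t - F0 t) ^ 2)
        + 4 * D * ((P0 (t + r) - P0 t) + (P1 (t + r) - P1 t)))
      = 4 / r ^ 2 * ((∫ t in a..(b - r), (F1 (t + r) - F0 (t + r)) ^ 2)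
          + ∫ t in a..(b - r), (F1 t - F0 t) ^ 2)
        + 4 * D * ((∫ t in a..(b - r), (P0 (t + r) - P0 t))
          + ∫ t in a..(b - r), (P1 (t + r) - P1 t)) := by
    rw [intervalIntegral.integral_add, intervalIntegral.integral_const_mul,
      intervalIntegral.integral_const_mul, intervalIntegral.integral_add,
      intervalIntegral.integral_add]
    · exact (gn1_shiftInt hab hr hrb iP0).sub (gn1_sub hab iP0 ma mbr)
    · exact (gn1_shiftInt hab hr hrb iP1).sub (gn1_sub hab iP1 ma mbr)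
    · exact gn1_shiftInt hab hr hrb ih
    · exact gn1_sub hab ih ma mbr
    · refine IntervalIntegrable.const_mul ?_ _
      exact (gn1_shiftInt hab hr hrb ih).add (gn1_sub hab ih ma mbr)
    · refine IntervalIntegrable.const_mul ?_ _
      exact ((gn1_shiftInt hab hr hrb iP0).sub (gn1_sub hab iP0 ma mbr)).add
        ((gn1_shiftInt hab hr hrb iP1).sub (gn1_sub hab iP1 ma mbr))
  rw [expand] at part1
  have q1 : 4 / r ^ 2 * ((∫ t in a..(b - r), (F1 (t + r) - F0 (t + r)) ^ 2)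
          + ∫ t in a..(b - r), (F1 t - F0 t) ^ 2)
      ≤ 4 / r ^ 2 * (2 * ∫ t in a..b, (F1 t - F0 t) ^ 2) :=
    mul_le_mul_of_nonneg_left (by linarith) (by positivity)
  have q2 : 4 * D * ((∫ t in a..(b - r), (P0 (t + r) - P0 t))
          + ∫ t in a..(b - r), (P1 (t + r) - P1 t)) ≤ 4 * D * (4 * D * r) :=
    mul_le_mul_of_nonneg_left (by linarith) (by positivity)
  have e1 : 4 / r ^ 2 * (2 * ∫ t in a..b, (F1 t - F0 t) ^ 2)
      = 8 / r ^ 2 * ∫ t in a..b, (F1 t - F0 t) ^ 2 := by ring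
  have e2 : 4 * D * (4 * D * r) + 4 * D ^ 2 * r = 20 * r * D ^ 2 := by ring
  linarith

theorem gn1_trivial (a b D : ℝ) (hab : a ≤ b) (P0 P1 : ℝ → ℝ)
    (hb0 : ∀ᵐ t : ℝ, t ∈ Icc a b → |P0 t| ≤ D)
    (hb1 : ∀ᵐ t : ℝ, t ∈ Icc a b → |P1 t| ≤ D) :
    ∫ t in a..b, (P1 t - P0 t) ^ 2 ≤ 4 * D ^ 2 * (b - a) := by
  have hbsq : ∀ᵐ t : ℝ, t ∈ Icc a b → |(P1 t - P0 t) ^ 2| ≤ 4 * D ^ 2 := by
    filter_upwards [hb0, hb1] with t h0 h1 hm
    have a0 := abs_le.1 (h0 hm)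
    have a1 := abs_le.1 (h1 hm)
    rw [abs_of_nonneg (sq_nonneg _)]
    have : |P1 t - P0 t| ≤ 2 * D := by rw [abs_le]; constructor <;> linarith
    calc (P1 t - P0 t) ^ 2 = |P1 t - P0 t| ^ 2 := (sq_abs _).symm
      _ ≤ (2 * D) ^ 2 := pow_le_pow_left₀ (abs_nonneg _) this 2
      _ = 4 * D ^ 2 := by ring
  exact (abs_le.1 (gn1_small a b (4 * D ^ 2) a b hab ⟨le_rfl, hab⟩ ⟨hab, le_rfl⟩ _ hbsq)).2

theorem gn1d (a b D : ℝ) (hab : a ≤ b) (hD : 0 ≤ D) (F0 F1 P0 P1 : ℝ → ℝ)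
    (_hc0 : ConvexOn ℝ (Icc a b) F0) (_hc1 : ConvexOn ℝ (Icc a b) F1)
    (hl0 : ∀ t ∈ Icc a b, ∀ τ ∈ Icc a b, |F0 t - F0 τ| ≤ D * |t - τ|)
    (hl1 : ∀ t ∈ Icc a b, ∀ τ ∈ Icc a b, |F1 t - F1 τ| ≤ D * |t - τ|)
    (hP0 : AEMeasurable P0 (volume.restrict (Icc a b))) (hP1 : AEMeasurable P1 (volume.restrict (Icc a b)))
    (hb0 : ∀ᵐ t ∂(volume.restrict (Icc a b)), |P0 t| ≤ D)
    (hb1 : ∀ᵐ t ∂(volume.restrict (Icc a b)), |P1 t| ≤ D)
    (hs0 : ∀ᵐ t ∂(volume.restrict (Icc a b)), ∀ τ ∈ Icc a b, F0 t + P0 t * (τ - t) ≤ F0 τ)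
    (hs1 : ∀ᵐ t ∂(volume.restrict (Icc a b)), ∀ τ ∈ Icc a b, F1 t + P1 t * (τ - t) ≤ F1 τ) :
    ∫ t in Icc a b, (P1 t - P0 t) ^ 2
      ≤ 40 * D ^ (4 / 3 : ℝ) * (∫ t in Icc a b, (F1 t - F0 t) ^ 2) ^ (1 / 3 : ℝ) := by
  rw [ae_restrict_iff' measurableSet_Icc] at hb0 hb1 hs0 hs1
  rw [integral_Icc_eq_integral_Ioc, integral_Icc_eq_integral_Ioc,
    ← intervalIntegral.integral_of_le hab, ← intervalIntegral.integral_of_le hab]
  have cont : ∀ F : ℝ → ℝ, (∀ t ∈ Icc a b, ∀ τ ∈ Icc a b, |F t - F τ| ≤ D * |t - τ|) →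
      ContinuousOn F (Icc a b) := by
    intro F hF
    have : LipschitzOnWith (Real.toNNReal D) F (Icc a b) := by
      refine LipschitzOnWith.of_dist_le_mul fun x hx y hy => ?_
      rw [Real.dist_eq, Real.dist_eq, Real.coe_toNNReal _ hD]
      exact hF x hx y hy
    exact this.continuousOn
  have hF0 := cont F0 hl0
  have hF1 := cont F1 hl1
  set A := ∫ t in a..b, (F1 t - F0 t) ^ 2 with hA
  set X := ∫ t in a..b, (P1 t - P0 t) ^ 2 with hX
  have hA0 : 0 ≤ A := intervalIntegral.integral_nonneg hab fun t _ => sq_nonneg _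
  have triv : X ≤ 4 * D ^ 2 * (b - a) := gn1_trivial a b D hab P0 P1 hb0 hb1
  have core : ∀ r : ℝ, 0 < r → r ≤ b - a → X ≤ 8 / r ^ 2 * A + 20 * r * D ^ 2 := fun r hr hrb =>
    gn1_core a b D r hD hr hrb F0 F1 P0 P1 hF0 hF1 hP0 hP1 hb0 hb1 hs0 hs1
  rcases hD.eq_or_lt with h0 | hDpos
  · rw [← h0] at triv ⊢
    rw [Real.zero_rpow (by norm_num)]
    simpa using triv
  set s := A ^ (1 / 3 : ℝ) with hs
  set e := D ^ (2 / 3 : ℝ) with he
  have hs0' : 0 ≤ s := Real.rpow_nonneg hA0 _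
  have he0 : 0 < e := Real.rpow_pos_of_pos hDpos _
  have hs3 : s ^ 3 = A := by
    rw [hs, ← Real.rpow_natCast, ← Real.rpow_mul hA0]; norm_num
  have he3 : e ^ 3 = D ^ 2 := by
    rw [he, ← Real.rpow_natCast, ← Real.rpow_mul hD, ← Real.rpow_natCast]; norm_num
  have he2 : D ^ (4 / 3 : ℝ) = e ^ 2 := by
    rw [he, ← Real.rpow_natCast, ← Real.rpow_mul hD]; norm_num
  rw [he2]
  rcases hs0'.eq_or_lt with hz | hspos
  · -- A = 0
    have hAz : A = 0 := by rw [← hs3, ← hz]; norm_num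
    rw [← hz, mul_zero]
    by_contra hc
    push Not at hc
    rcases (sub_nonneg.2 hab).eq_or_lt with hba | hba
    · rw [← hba] at triv; linarith
    · have hr : 0 < min (b - a) (X / (40 * D ^ 2)) := lt_min hba (by positivity)
      have := core _ hr (min_le_left _ _)
      rw [hAz, mul_zero, zero_add] at this
      have h2 : min (b - a) (X / (40 * D ^ 2)) ≤ X / (40 * D ^ 2) := min_le_right _ _
      have h3 : 20 * min (b - a) (X / (40 * D ^ 2)) * D ^ 2 ≤ 20 * (X / (40 * D ^ 2)) * D ^ 2 := by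
        gcongr
      have h4 : 20 * (X / (40 * D ^ 2)) * D ^ 2 = X / 2 := by field_simp; norm_num
      linarith
  · have hr : 0 < s / e := by positivity
    rcases le_total (s / e) (b - a) with hle | hle
    · have := core _ hr hle
      rw [← hs3, ← he3] at this
      have h4 : 8 / (s / e) ^ 2 * s ^ 3 + 20 * (s / e) * e ^ 3 = 28 * e ^ 2 * s := by
        field_simp; ring
      rw [h4] at this
      have : 0 ≤ e ^ 2 * s := by positivity
      linarith
    · have h1 : 4 * D ^ 2 * (b - a) ≤ 4 * D ^ 2 * (s / e) := by gcongr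
      rw [← he3] at h1
      have h4 : 4 * e ^ 3 * (s / e) = 4 * e ^ 2 * s := by field_simp
      rw [h4] at h1
      have : 0 ≤ e ^ 2 * s := by positivity
      rw [← he3] at triv
      linarith

end Crest.Agent.R082
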