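import Crest.Agent.S0109_Defs
import Crest.Agent.S0109_GN1

/-! Row 82 (S0109), module F2: Gagliardo–Nirenberg inequality for a.e. subgradients (`gn`), from the
1D lemma `gn1d`, by averaging over translates in a fixed direction (Tonelli + translation invariance)
and Hölder. -/

set_option autoImplicit false
open MeasureTheory Set
open scoped ENNReal NNReal

namespace Crest.Agent.R082


/-- F1 in `lintegral` form. -/
theorem gn_gn1d_lint (D a b : ℝ) (hD : 0 ≤ D) (hab : a ≤ b) (F0 F1 P0 P1 : ℝ → ℝ)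
    (hc0 : ConvexOn ℝ (Icc a b) F0) (hc1 : ConvexOn ℝ (Icc a b) F1)
    (hP0 : Measurable P0) (hP1 : Measurable P1)
    (hl0 : ∀ t ∈ Icc a b, ∀ τ ∈ Icc a b, |F0 t - F0 τ| ≤ D * |t - τ|)
    (hl1 : ∀ t ∈ Icc a b, ∀ τ ∈ Icc a b, |F1 t - F1 τ| ≤ D * |t - τ|)
    (hb0 : ∀ᵐ t : ℝ, t ∈ Icc a b → |P0 t| ≤ D) (hb1 : ∀ᵐ t : ℝ, t ∈ Icc a b → |P1 t| ≤ D)
    (hs0 : ∀ᵐ t : ℝ, t ∈ Icc a b → ∀ t' ∈ Icc a b, F0 t + P0 t * (t' - t) ≤ F0 t')
    (hs1 : ∀ᵐ t : ℝ, t ∈ Icc a b → ∀ t' ∈ Icc a b, F1 t + P1 t * (t' - t) ≤ F1 t') :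
    ∫⁻ t in Icc a b, ENNReal.ofReal ((P1 t - P0 t) ^ 2) ≤
      ENNReal.ofReal (40 * D ^ (4 / 3 : ℝ)) *
        (∫⁻ t in Icc a b, ENNReal.ofReal ((F1 t - F0 t) ^ 2)) ^ (1 / 3 : ℝ) := by
  have r0 := (ae_restrict_iff' (μ := (volume : Measure ℝ)) (measurableSet_Icc (a := a) (b := b))).2 hb0
  have r1 := (ae_restrict_iff' (μ := (volume : Measure ℝ)) (measurableSet_Icc (a := a) (b := b))).2 hb1
  have h := gn1d a b D hab hD F0 F1 P0 P1 hc0 hc1 hl0 hl1 hP0.aemeasurable hP1.aemeasurable r0 r1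
    ((ae_restrict_iff' measurableSet_Icc).2 hs0) ((ae_restrict_iff' measurableSet_Icc).2 hs1)
  have cont : ∀ F : ℝ → ℝ, (∀ t ∈ Icc a b, ∀ τ ∈ Icc a b, |F t - F τ| ≤ D * |t - τ|) →
      ContinuousOn F (Icc a b) := by
    intro F hF
    have : LipschitzOnWith (Real.toNNReal D) F (Icc a b) := by
      apply LipschitzOnWith.of_dist_le_mul
      intro t ht τ hτ
      rw [Real.dist_eq, Real.dist_eq, Real.coe_toNNReal _ hD]
      exact hF t ht τ hτ
    exact this.continuousOn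
  have i1 : IntegrableOn (fun t => (P1 t - P0 t) ^ 2) (Icc a b) := by
    apply Measure.integrableOn_of_bounded (M := (2 * D) ^ 2) (by simp)
      ((hP1.sub hP0).pow_const 2).aestronglyMeasurable
    filter_upwards [r0, r1] with t h0 h1
    rw [Real.norm_eq_abs, abs_of_nonneg (sq_nonneg _), ← sq_abs]
    have := abs_sub (P1 t) (P0 t)
    apply pow_le_pow_left₀ (abs_nonneg _)
    show |P1 t - P0 t| ≤ 2 * D
    linarith
  have i2 : IntegrableOn (fun t => (F1 t - F0 t) ^ 2) (Icc a b) :=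
    (((cont F1 hl1).sub (cont F0 hl0)).pow 2).integrableOn_Icc
  have e1 : ∫⁻ t in Icc a b, ENNReal.ofReal ((P1 t - P0 t) ^ 2)
      = ENNReal.ofReal (∫ t in Icc a b, (P1 t - P0 t) ^ 2) := by
    rw [ofReal_integral_eq_lintegral_ofReal i1 (Filter.Eventually.of_forall fun t => sq_nonneg _)]
  have e2 : ∫⁻ t in Icc a b, ENNReal.ofReal ((F1 t - F0 t) ^ 2)
      = ENNReal.ofReal (∫ t in Icc a b, (F1 t - F0 t) ^ 2) := by
    rw [ofReal_integral_eq_lintegral_ofReal i2 (Filter.Eventually.of_forall fun t => sq_nonneg _)]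
  have hnn : 0 ≤ ∫ t in Icc a b, (F1 t - F0 t) ^ 2 :=
    integral_nonneg fun t => sq_nonneg _
  rw [e1, e2, ENNReal.ofReal_rpow_of_nonneg hnn (by norm_num),
    ← ENNReal.ofReal_mul (by positivity)]
  exact ENNReal.ofReal_le_ofReal h

section slices

variable {E : Type*} [NormedAddCommGroup E] [InnerProductSpace ℝ E] [MeasurableSpace E]
  [BorelSpace E] [FiniteDimensional ℝ E] (μ : Measure E) [μ.IsAddHaarMeasure]

theorem gn_slice_identity (G : E → ℝ≥0∞) (hG : Measurable G) (v : E) (I : Set ℝ) :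
    ∫⁻ x, (∫⁻ t in I, G (x + t • v)) ∂μ = volume I * ∫⁻ x, G x ∂μ := by
  rw [lintegral_lintegral_swap]
  · simp_rw [lintegral_add_right_eq_self]
    rw [lintegral_const, Measure.restrict_apply MeasurableSet.univ, Set.univ_inter, mul_comm]
  · apply Measurable.aemeasurable
    apply hG.comp
    fun_prop

theorem gn_ae_slice (N : E → Prop) (hN : ∀ᵐ x ∂μ, N x) (v : E) :
    ∀ᵐ x ∂μ, ∀ᵐ t : ℝ, N (x + t • v) := by
  obtain ⟨Z, hZsub, hZm, hZ0⟩ := exists_measurable_superset_of_null (ae_iff.1 hN)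
  have h := gn_slice_identity μ (Z.indicator fun _ => 1) (measurable_const.indicator hZm) v univ
  rw [lintegral_indicator hZm, lintegral_const, Measure.restrict_apply MeasurableSet.univ,
    Set.univ_inter, hZ0, mul_zero, mul_zero] at h
  rw [lintegral_eq_zero_iff] at h
  · filter_upwards [h] with x hx
    simp only [Measure.restrict_univ, Pi.zero_apply] at hx
    rw [lintegral_eq_zero_iff] at hx
    · filter_upwards [hx] with t ht
      by_contra hcon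
      have : x + t • v ∈ Z := hZsub hcon
      simp [this] at ht
    · apply (measurable_const.indicator hZm).comp
      fun_prop
  · apply Measurable.lintegral_prod_right'
      (f := fun p : E × ℝ => Z.indicator (fun _ => (1 : ℝ≥0∞)) (p.1 + p.2 • v))
    apply (measurable_const.indicator hZm).comp
    fun_prop

omit [InnerProductSpace ℝ E] [MeasurableSpace E] [BorelSpace E] [FiniteDimensional ℝ E] in
theorem gn_continuousOn (K : Set E) (D : ℝ) (hD : 0 ≤ D) (φ : E → ℝ)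
    (hL : ∀ x ∈ K, ∀ z ∈ K, |φ x - φ z| ≤ D * ‖x - z‖) : ContinuousOn φ K := by
  have : LipschitzOnWith (Real.toNNReal D) φ K := by
    apply LipschitzOnWith.of_dist_le_mul
    intro t ht τ hτ
    rw [Real.dist_eq, dist_eq_norm, Real.coe_toNNReal _ hD]
    exact hL t ht τ hτ
  exact this.continuousOn

/-- data-free slice inequality at a good point `x`. -/
theorem gn_slice_ineq (K : Set E) (hKc : IsCompact K) (hKv : Convex ℝ K) (D : ℝ) (hD : 0 ≤ D)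
    (φ0 φ1 : E → ℝ) (T0 T1 : E → E) (hT0 : Measurable T0) (hT1 : Measurable T1)
    (hc0 : ConvexOn ℝ K φ0) (hc1 : ConvexOn ℝ K φ1)
    (hL0 : ∀ x ∈ K, ∀ z ∈ K, |φ0 x - φ0 z| ≤ D * ‖x - z‖)
    (hL1 : ∀ x ∈ K, ∀ z ∈ K, |φ1 x - φ1 z| ≤ D * ‖x - z‖)
    (v : E) (hv : ‖v‖ = 1) (x : E)
    (hb0 : ∀ᵐ t : ℝ, x + t • v ∈ K → ‖T0 (x + t • v)‖ ≤ D)
    (hb1 : ∀ᵐ t : ℝ, x + t • v ∈ K → ‖T1 (x + t • v)‖ ≤ D)
    (hs0 : ∀ᵐ t : ℝ, x + t • v ∈ K → ∀ x' ∈ K,
      φ0 (x + t • v) + inner ℝ (T0 (x + t • v)) (x' - (x + t • v)) ≤ φ0 x')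
    (hs1 : ∀ᵐ t : ℝ, x + t • v ∈ K → ∀ x' ∈ K,
      φ1 (x + t • v) + inner ℝ (T1 (x + t • v)) (x' - (x + t • v)) ≤ φ1 x') :
    ∫⁻ t in Icc (-1 : ℝ) 1,
        K.indicator (fun z => ENNReal.ofReal ((inner ℝ (T1 z - T0 z) v) ^ 2)) (x + t • v) ≤
      ENNReal.ofReal (40 * D ^ (4 / 3 : ℝ)) *
        (∫⁻ t in Icc (-1 : ℝ) 1,
          K.indicator (fun z => ENNReal.ofReal ((φ1 z - φ0 z) ^ 2)) (x + t • v)) ^ (1 / 3 : ℝ) := by
  set γ : ℝ → E := fun t => x + t • v with hγ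
  have hγc : Continuous γ := by fun_prop
  set S : Set ℝ := Icc (-1 : ℝ) 1 ∩ γ ⁻¹' K with hS
  have hSc : IsCompact S := isCompact_Icc.inter_right (hKc.isClosed.preimage hγc)
  have hSm : MeasurableSet S := hSc.measurableSet
  have haff : ∀ (s t a b : ℝ), a + b = 1 → γ (a • s + b • t) = a • γ s + b • γ t := by
    intro s t a b hab
    simp only [hγ, smul_eq_mul, smul_add, add_smul, mul_smul]
    have : x = a • x + b • x := by rw [← add_smul, hab, one_smul]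
    nth_rewrite 1 [this]
    abel
  have hSv : Convex ℝ S := by
    apply (convex_Icc _ _).inter
    intro s hs t ht a b ha hb hab
    show γ (a • s + b • t) ∈ K
    rw [haff s t a b hab]
    exact hKv hs ht ha hb hab
  -- rewrite both integrals as integrals over S
  have conv : ∀ f : E → ℝ≥0∞, ∫⁻ t in Icc (-1 : ℝ) 1, K.indicator f (x + t • v)
      = ∫⁻ t in S, f (γ t) := by
    intro f
    rw [hS, ← lintegral_indicator measurableSet_Icc, ← lintegral_indicator (by rw [← hS]; exact hSm)]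
    apply lintegral_congr
    intro t
    by_cases h1 : t ∈ Icc (-1 : ℝ) 1
    · by_cases h2 : γ t ∈ K
      · rw [indicator_of_mem h1, indicator_of_mem (show x + t • v ∈ K from h2),
          indicator_of_mem (show t ∈ Icc (-1 : ℝ) 1 ∩ γ ⁻¹' K from ⟨h1, h2⟩)]
      · rw [indicator_of_mem h1, indicator_of_notMem (show x + t • v ∉ K from h2),
          indicator_of_notMem (show t ∉ Icc (-1 : ℝ) 1 ∩ γ ⁻¹' K from fun h => h2 h.2)]
    · rw [indicator_of_notMem h1,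
        indicator_of_notMem (show t ∉ Icc (-1 : ℝ) 1 ∩ γ ⁻¹' K from fun h => h1 h.1)]
  rw [conv, conv]
  rcases S.eq_empty_or_nonempty with hemp | hne
  · rw [hemp]; simp
  have hIcc : S = Icc (sInf S) (sSup S) :=
    eq_Icc_of_connected_compact ⟨hne, hSv.isPreconnected⟩ hSc
  set a := sInf S
  set b := sSup S
  have hab : a ≤ b := by
    obtain ⟨t, ht⟩ := hne
    rw [hIcc] at ht
    exact ht.1.trans ht.2
  have hmemK : ∀ t ∈ Icc a b, γ t ∈ K := by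
    intro t ht
    rw [← hIcc] at ht
    exact ht.2
  have hdist : ∀ s t : ℝ, ‖γ s - γ t‖ = |s - t| := by
    intro s t
    simp only [hγ, add_sub_add_left_eq_sub]
    rw [← sub_smul, norm_smul, hv, mul_one, Real.norm_eq_abs]
  have lip : ∀ φ : E → ℝ, (∀ x ∈ K, ∀ z ∈ K, |φ x - φ z| ≤ D * ‖x - z‖) →
      ∀ t ∈ Icc a b, ∀ τ ∈ Icc a b, |φ (γ t) - φ (γ τ)| ≤ D * |t - τ| := by
    intro φ hφ s hs t ht
    have := hφ _ (hmemK s hs) _ (hmemK t ht)
    rwa [hdist] at this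
  have cvx : ∀ φ : E → ℝ, ConvexOn ℝ K φ → ConvexOn ℝ (Icc a b) (fun t => φ (γ t)) := by
    intro φ hφ
    refine ⟨convex_Icc _ _, ?_⟩
    intro s hs t ht α β hα hβ hαβ
    show φ (γ (α • s + β • t)) ≤ _
    rw [haff s t α β hαβ]
    exact hφ.2 (hmemK s hs) (hmemK t ht) hα hβ hαβ
  have bd : ∀ T : E → E, (∀ᵐ t : ℝ, x + t • v ∈ K → ‖T (x + t • v)‖ ≤ D) →
      ∀ᵐ t : ℝ, t ∈ Icc a b → |inner ℝ (T (γ t)) v| ≤ D := by
    intro T hT
    filter_upwards [hT] with t h1 ht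
    have := abs_real_inner_le_norm (T (γ t)) v
    rw [hv, mul_one] at this
    exact this.trans (h1 (hmemK t ht))
  have sub : ∀ (φ : E → ℝ) (T : E → E), (∀ᵐ t : ℝ, x + t • v ∈ K → ∀ x' ∈ K,
      φ (x + t • v) + inner ℝ (T (x + t • v)) (x' - (x + t • v)) ≤ φ x') →
      ∀ᵐ t : ℝ, t ∈ Icc a b → ∀ t' ∈ Icc a b,
        φ (γ t) + inner ℝ (T (γ t)) v * (t' - t) ≤ φ (γ t') := by
    intro φ T h
    filter_upwards [h] with t ht htm t' ht'
    have := ht (hmemK t htm) (γ t') (hmemK t' ht')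
    have e : γ t' - (x + t • v) = (t' - t) • v := by
      simp only [hγ, sub_smul]; abel
    rw [e, inner_smul_right] at this
    simp only [hγ] at this ⊢
    linarith
  have key := gn_gn1d_lint D a b hD hab (fun t => φ0 (γ t)) (fun t => φ1 (γ t))
    (fun t => inner ℝ (T0 (γ t)) v) (fun t => inner ℝ (T1 (γ t)) v) (cvx φ0 hc0) (cvx φ1 hc1)
    ((hT0.comp hγc.measurable).inner measurable_const)
    ((hT1.comp hγc.measurable).inner measurable_const)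
    (lip φ0 hL0) (lip φ1 hL1) (bd T0 hb0) (bd T1 hb1) (sub φ0 T0 hs0) (sub φ1 T1 hs1)
  rw [hIcc]
  simpa only [inner_sub_left] using key

theorem gn_dir (K : Set E) (hKc : IsCompact K) (hKv : Convex ℝ K) (x0 : E) (R : ℝ)
    (hKR : K ⊆ Metric.closedBall x0 R) (D : ℝ) (hD : 0 ≤ D)
    (φ0 φ1 : E → ℝ) (T0 T1 : E → E) (hT0 : Measurable T0) (hT1 : Measurable T1)
    (hc0 : ConvexOn ℝ K φ0) (hc1 : ConvexOn ℝ K φ1)
    (hL0 : ∀ x ∈ K, ∀ z ∈ K, |φ0 x - φ0 z| ≤ D * ‖x - z‖)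
    (hL1 : ∀ x ∈ K, ∀ z ∈ K, |φ1 x - φ1 z| ≤ D * ‖x - z‖)
    (hb0 : ∀ᵐ x ∂μ, x ∈ K → ‖T0 x‖ ≤ D) (hb1 : ∀ᵐ x ∂μ, x ∈ K → ‖T1 x‖ ≤ D)
    (hs0 : ∀ᵐ x ∂μ, x ∈ K → ∀ x' ∈ K, φ0 x + inner ℝ (T0 x) (x' - x) ≤ φ0 x')
    (hs1 : ∀ᵐ x ∂μ, x ∈ K → ∀ x' ∈ K, φ1 x + inner ℝ (T1 x) (x' - x) ≤ φ1 x')
    (v : E) (hv : ‖v‖ = 1) :
    ∫⁻ x in K, ENNReal.ofReal ((inner ℝ (T1 x - T0 x) v) ^ 2) ∂μ ≤
      ENNReal.ofReal (40 * D ^ (4 / 3 : ℝ)) * μ (Metric.closedBall x0 (R + 1)) ^ (2 / 3 : ℝ) *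
        (∫⁻ x in K, ENNReal.ofReal ((φ1 x - φ0 x) ^ 2) ∂μ) ^ (1 / 3 : ℝ) := by
  classical
  set g : E → ℝ≥0∞ := fun z => ENNReal.ofReal ((inner ℝ (T1 z - T0 z) v) ^ 2) with hg
  set h : E → ℝ≥0∞ := fun z => ENNReal.ofReal ((φ1 z - φ0 z) ^ 2) with hh
  set c : ℝ≥0∞ := ENNReal.ofReal (40 * D ^ (4 / 3 : ℝ)) with hc
  set B : Set E := Metric.closedBall x0 (R + 1) with hB
  have hKm : MeasurableSet K := hKc.measurableSet
  have hgm : Measurable g :=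
    ENNReal.measurable_ofReal.comp (((hT1.sub hT0).inner measurable_const).pow_const 2)
  have hGm : Measurable (K.indicator g) := hgm.indicator hKm
  have hHm : Measurable (K.indicator h) := by
    have hcont : ContinuousOn h K :=
      ENNReal.continuous_ofReal.comp_continuousOn
        (((gn_continuousOn K D hD φ1 hL1).sub (gn_continuousOn K D hD φ0 hL0)).pow 2)
    rw [← Set.piecewise_eq_indicator]
    exact hcont.measurable_piecewise continuousOn_const hKm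
  set A : E → ℝ≥0∞ := fun x => ∫⁻ t in Icc (-1 : ℝ) 1, K.indicator h (x + t • v) with hA
  have hAm : Measurable A := by
    apply Measurable.lintegral_prod_right' (f := fun p : E × ℝ => K.indicator h (p.1 + p.2 • v))
    apply hHm.comp
    fun_prop
  have vol2 : volume (Icc (-1 : ℝ) 1) = 2 := by
    rw [Real.volume_Icc]; norm_num
  have id1 := gn_slice_identity μ (K.indicator g) hGm v (Icc (-1 : ℝ) 1)
  have id2 := gn_slice_identity μ (K.indicator h) hHm v (Icc (-1 : ℝ) 1)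
  rw [vol2, lintegral_indicator hKm] at id1 id2
  have pt : ∀ᵐ x ∂μ, ∫⁻ t in Icc (-1 : ℝ) 1, K.indicator g (x + t • v) ≤
      c * ((fun x => A x ^ (1 / 3 : ℝ)) * B.indicator (fun _ => (1 : ℝ≥0∞))) x := by
    filter_upwards [gn_ae_slice μ _ hs0 v, gn_ae_slice μ _ hs1 v, gn_ae_slice μ _ hb0 v, gn_ae_slice μ _ hb1 v] with x h0 h1 h2 h3
    by_cases hxB : x ∈ B
    · simp only [Pi.mul_apply, indicator_of_mem hxB, mul_one]
      exact gn_slice_ineq K hKc hKv D hD φ0 φ1 T0 T1 hT0 hT1 hc0 hc1 hL0 hL1 v hv x h2 h3 h0 h1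
    · have : ∫⁻ t in Icc (-1 : ℝ) 1, K.indicator g (x + t • v) = 0 := by
        rw [← lintegral_indicator measurableSet_Icc]
        rw [lintegral_eq_zero_iff' (by
          apply Measurable.aemeasurable
          apply Measurable.indicator _ measurableSet_Icc
          apply hGm.comp
          fun_prop)]
        refine Filter.Eventually.of_forall fun t => ?_
        by_cases ht : t ∈ Icc (-1 : ℝ) 1
        · rw [indicator_of_mem ht, indicator_of_notMem, Pi.zero_apply]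
          intro hK
          apply hxB
          have h1 := hKR hK
          rw [Metric.mem_closedBall, dist_eq_norm] at h1
          rw [hB, Metric.mem_closedBall, dist_eq_norm]
          have h2 : x - x0 = (x + t • v - x0) - t • v := by abel
          rw [h2]
          have h3 : ‖t • v‖ ≤ 1 := by
            rw [norm_smul, hv, mul_one, Real.norm_eq_abs, abs_le]; exact ht
          exact (norm_sub_le _ _).trans (add_le_add h1 h3)
        · rw [indicator_of_notMem ht, Pi.zero_apply]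
      rw [this]; exact bot_le
  have hol := ENNReal.lintegral_mul_le_Lp_mul_Lq μ (p := 3) (q := 3 / 2)
    (Real.holderConjugate_iff.2 ⟨by norm_num, by norm_num⟩)
    (f := fun x => A x ^ (1 / 3 : ℝ)) (g := B.indicator (fun _ => (1 : ℝ≥0∞)))
    (hAm.pow_const _).aemeasurable
    (measurable_const.indicator Metric.isClosed_closedBall.measurableSet).aemeasurable
  have eA : ∫⁻ x, (A x ^ (1 / 3 : ℝ)) ^ (3 : ℝ) ∂μ = 2 * ∫⁻ x in K, h x ∂μ := by
    rw [← id2]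
    apply lintegral_congr
    intro x
    rw [← ENNReal.rpow_mul]; norm_num
    rfl
  have eB : ∫⁻ x, (B.indicator (fun _ => (1 : ℝ≥0∞)) x) ^ (3 / 2 : ℝ) ∂μ = μ B := by
    have : ∀ x, (B.indicator (fun _ => (1 : ℝ≥0∞)) x) ^ (3 / 2 : ℝ)
        = B.indicator (fun _ => (1 : ℝ≥0∞)) x := by
      intro x
      by_cases hx : x ∈ B
      · simp [indicator_of_mem hx]
      · rw [indicator_of_notMem hx, ENNReal.zero_rpow_of_pos (by norm_num)]
    simp_rw [this]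
    rw [lintegral_indicator Metric.isClosed_closedBall.measurableSet, lintegral_const,
      Measure.restrict_apply MeasurableSet.univ, Set.univ_inter, one_mul]
  rw [eA, eB] at hol
  have two_le : (2 : ℝ≥0∞) ^ (1 / 3 : ℝ) ≤ 2 := by
    calc (2 : ℝ≥0∞) ^ (1 / 3 : ℝ) ≤ (2 : ℝ≥0∞) ^ (1 : ℝ) :=
          ENNReal.rpow_le_rpow_of_exponent_le (by norm_num) (by norm_num)
      _ = 2 := ENNReal.rpow_one _
  have main : 2 * ∫⁻ x in K, g x ∂μ ≤
      2 * (c * μ B ^ (2 / 3 : ℝ) * (∫⁻ x in K, h x ∂μ) ^ (1 / 3 : ℝ)) := by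
    calc 2 * ∫⁻ x in K, g x ∂μ
        = ∫⁻ x, (∫⁻ t in Icc (-1 : ℝ) 1, K.indicator g (x + t • v)) ∂μ := id1.symm
      _ ≤ ∫⁻ x, c * ((fun x => A x ^ (1 / 3 : ℝ)) * B.indicator (fun _ => (1 : ℝ≥0∞))) x ∂μ :=
          lintegral_mono_ae pt
      _ = c * ∫⁻ x, ((fun x => A x ^ (1 / 3 : ℝ)) * B.indicator (fun _ => (1 : ℝ≥0∞))) x ∂μ := by
          rw [lintegral_const_mul]
          exact (hAm.pow_const _).mul
            (measurable_const.indicator Metric.isClosed_closedBall.measurableSet)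
      _ ≤ c * ((2 * ∫⁻ x in K, h x ∂μ) ^ (1 / (3 : ℝ)) * μ B ^ (1 / (3 / 2 : ℝ))) := by
          gcongr
      _ = c * (2 ^ (1 / 3 : ℝ) * (∫⁻ x in K, h x ∂μ) ^ (1 / 3 : ℝ) * μ B ^ (2 / 3 : ℝ)) := by
          rw [ENNReal.mul_rpow_of_nonneg _ _ (by norm_num)]
          norm_num
      _ ≤ c * (2 * (∫⁻ x in K, h x ∂μ) ^ (1 / 3 : ℝ) * μ B ^ (2 / 3 : ℝ)) := by
          gcongr
      _ = 2 * (c * μ B ^ (2 / 3 : ℝ) * (∫⁻ x in K, h x ∂μ) ^ (1 / 3 : ℝ)) := by ring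
  exact (ENNReal.mul_le_mul_iff_right (by norm_num) (by norm_num)).1 main

/-- **Module F** (Gagliardo–Nirenberg type inequality for a.e. subgradients of convex functions). -/
theorem gn_lint (K : Set E) (hKc : IsCompact K) (hKv : Convex ℝ K) (x0 : E) (R : ℝ)
    (hKR : K ⊆ Metric.closedBall x0 R) (D : ℝ) (hD : 0 ≤ D)
    (φ0 φ1 : E → ℝ) (T0 T1 : E → E) (hT0 : Measurable T0) (hT1 : Measurable T1)
    (hc0 : ConvexOn ℝ K φ0) (hc1 : ConvexOn ℝ K φ1)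
    (hL0 : ∀ x ∈ K, ∀ z ∈ K, |φ0 x - φ0 z| ≤ D * ‖x - z‖)
    (hL1 : ∀ x ∈ K, ∀ z ∈ K, |φ1 x - φ1 z| ≤ D * ‖x - z‖)
    (hb0 : ∀ᵐ x ∂μ, x ∈ K → ‖T0 x‖ ≤ D) (hb1 : ∀ᵐ x ∂μ, x ∈ K → ‖T1 x‖ ≤ D)
    (hs0 : ∀ᵐ x ∂μ, x ∈ K → ∀ x' ∈ K, φ0 x + inner ℝ (T0 x) (x' - x) ≤ φ0 x')
    (hs1 : ∀ᵐ x ∂μ, x ∈ K → ∀ x' ∈ K, φ1 x + inner ℝ (T1 x) (x' - x) ≤ φ1 x') :
    ∫⁻ x in K, ‖T1 x - T0 x‖ₑ ^ 2 ∂μ ≤
      (Module.finrank ℝ E : ℝ≥0∞) * (ENNReal.ofReal (40 * D ^ (4 / 3 : ℝ)) *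
        μ (Metric.closedBall x0 (R + 1)) ^ (2 / 3 : ℝ)) *
        (∫⁻ x in K, ENNReal.ofReal ((φ1 x - φ0 x) ^ 2) ∂μ) ^ (1 / 3 : ℝ) := by
  set b := stdOrthonormalBasis ℝ E
  have e : ∀ w : E, ‖w‖ₑ ^ 2 = ∑ i, ENNReal.ofReal ((inner ℝ w (b i)) ^ 2) := by
    intro w
    rw [← ofReal_norm, ← ENNReal.ofReal_pow (norm_nonneg _), ← b.sum_sq_norm_inner_left w,
      ENNReal.ofReal_sum_of_nonneg (fun i _ => by positivity)]
    apply Finset.sum_congr rfl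
    intro i _
    rw [Real.norm_eq_abs, sq_abs]
  simp_rw [e]
  rw [lintegral_finsetSum]
  · calc ∑ i, ∫⁻ x in K, ENNReal.ofReal ((inner ℝ (T1 x - T0 x) (b i)) ^ 2) ∂μ
        ≤ ∑ _i : Fin (Module.finrank ℝ E), ENNReal.ofReal (40 * D ^ (4 / 3 : ℝ)) *
          μ (Metric.closedBall x0 (R + 1)) ^ (2 / 3 : ℝ) *
          (∫⁻ x in K, ENNReal.ofReal ((φ1 x - φ0 x) ^ 2) ∂μ) ^ (1 / 3 : ℝ) := by
          apply Finset.sum_le_sum
          intro i _
          exact gn_dir μ K hKc hKv x0 R hKR D hD φ0 φ1 T0 T1 hT0 hT1 hc0 hc1 hL0 hL1 hb0 hb1 hs0 hs1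
            (b i) (b.orthonormal.1 i)
      _ = _ := by
          rw [Finset.sum_const, Finset.card_univ, Fintype.card_fin, nsmul_eq_mul]
          ring
  · intro i _
    exact ENNReal.measurable_ofReal.comp (((hT1.sub hT0).inner measurable_const).pow_const 2)

end slices

/-- **Module F** (`Plan.gn`). -/
theorem gn (d : ℕ) (R D : ℝ) (hR : 0 ≤ R) (hD : 0 ≤ D) :
    ∃ C : ℝ, 0 ≤ C ∧ ∀ (K : Set (E d)) (x0 : E d), Body K x0 R →
      ∀ (φ0 φ1 : E d → ℝ) (T0 T1 : E d → E d),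
        ConvexOn ℝ K φ0 → ConvexOn ℝ K φ1 →
        (∀ x ∈ K, ∀ z ∈ K, |φ0 x - φ0 z| ≤ D * ‖x - z‖) → (∀ x ∈ K, ∀ z ∈ K, |φ1 x - φ1 z| ≤ D * ‖x - z‖) →
        Measurable T0 → Measurable T1 →
        (∀ᵐ x ∂(volume.restrict K), ‖T0 x‖ ≤ D) → (∀ᵐ x ∂(volume.restrict K), ‖T1 x‖ ≤ D) →
        AESubgrad K φ0 T0 → AESubgrad K φ1 T1 →
        ∫ x in K, ‖T1 x - T0 x‖ ^ 2 ≤ C * (∫ x in K, (φ1 x - φ0 x) ^ 2) ^ (1 / 3 : ℝ) := by
  set C' : ℝ≥0∞ := (Module.finrank ℝ (E d) : ℝ≥0∞) * (ENNReal.ofReal (40 * D ^ (4 / 3 : ℝ)) *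
        (volume (Metric.closedBall (0 : E d) (R + 1))) ^ (2 / 3 : ℝ)) with hC'
  have hC'top : C' ≠ ⊤ := by
    rw [hC']
    apply ENNReal.mul_ne_top (ENNReal.natCast_ne_top _)
    apply ENNReal.mul_ne_top ENNReal.ofReal_ne_top
    apply ENNReal.rpow_ne_top_of_nonneg (by norm_num)
    exact (isCompact_closedBall _ _).measure_lt_top.ne
  refine ⟨C'.toReal, ENNReal.toReal_nonneg, ?_⟩
  intro K x0 hK φ0 φ1 T0 T1 hc0 hc1 hL0 hL1 hT0 hT1 hb0 hb1 hs0 hs1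
  have hKm : MeasurableSet K := hK.compact.measurableSet
  have key := gn_lint (volume : Measure (E d)) K hK.compact hK.convex x0 R hK.sub D hD φ0 φ1 T0 T1
    hT0 hT1 hc0 hc1 hL0 hL1 ((ae_restrict_iff' hKm).1 hb0) ((ae_restrict_iff' hKm).1 hb1)
    ((ae_restrict_iff' hKm).1 hs0) ((ae_restrict_iff' hKm).1 hs1)
  have hball : volume (Metric.closedBall x0 (R + 1)) = volume (Metric.closedBall (0 : E d) (R + 1)) :=
    Measure.addHaar_closedBall_center _ _ _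
  rw [hball, ← hC'] at key
  have hcont : ContinuousOn (fun x => (φ1 x - φ0 x) ^ 2) K :=
    ((gn_continuousOn K D hD φ1 hL1).sub (gn_continuousOn K D hD φ0 hL0)).pow 2
  have hint : IntegrableOn (fun x => (φ1 x - φ0 x) ^ 2) K := hcont.integrableOn_compact hK.compact
  have e2 : ∫⁻ x in K, ENNReal.ofReal ((φ1 x - φ0 x) ^ 2)
      = ENNReal.ofReal (∫ x in K, (φ1 x - φ0 x) ^ 2) := by
    rw [ofReal_integral_eq_lintegral_ofReal hint (Filter.Eventually.of_forall fun t => sq_nonneg _)]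
  have hnn : 0 ≤ ∫ x in K, (φ1 x - φ0 x) ^ 2 := integral_nonneg fun t => sq_nonneg _
  have e1 : ∫ x in K, ‖T1 x - T0 x‖ ^ 2 = (∫⁻ x in K, ‖T1 x - T0 x‖ₑ ^ 2).toReal := by
    have hm : Measurable (fun x => ‖T1 x - T0 x‖ ^ 2) := (hT1.sub hT0).norm.pow_const 2
    rw [integral_eq_lintegral_of_nonneg_ae (Filter.Eventually.of_forall fun t => sq_nonneg _)
      hm.aestronglyMeasurable]
    congr 1
    apply lintegral_congr
    intro x
    rw [ENNReal.ofReal_pow (norm_nonneg _), ofReal_norm]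
  rw [e2, ENNReal.ofReal_rpow_of_nonneg hnn (by norm_num)] at key
  rw [e1]
  calc (∫⁻ x in K, ‖T1 x - T0 x‖ₑ ^ 2).toReal
      ≤ (C' * ENNReal.ofReal ((∫ x in K, (φ1 x - φ0 x) ^ 2) ^ (1 / 3 : ℝ))).toReal :=
        ENNReal.toReal_mono (ENNReal.mul_ne_top hC'top ENNReal.ofReal_ne_top) key
    _ = C'.toReal * (∫ x in K, (φ1 x - φ0 x) ^ 2) ^ (1 / 3 : ℝ) := by
        rw [ENNReal.toReal_mul, ENNReal.toReal_ofReal (by positivity)]

end Crest.Agent.R082
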