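import Crest.Agent.S0109_Basic
import Crest.Agent.S0109_Exist
import Crest.Agent.S0109_GN
import Crest.Agent.S0109_Aprime

/-! Row 82 (S0109), module G: the theorem for finitely supported targets. -/

set_option autoImplicit false

namespace Crest.Agent.R082

open MeasureTheory Set Filter Topology
open scoped ENNReal NNReal InnerProductSpace
open Crest.AnalysisR.OT

noncomputable section

variable {d : ℕ}

/-! ### finite atomic measures -/

section atoms
variable {X : Type*} [MeasurableSpace X] [MeasurableSingletonClass X] {ι : Type} [Fintype ι]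

theorem dsc_atom_apply (p : ι → X) (hp : Function.Injective p) (w : ι → ℝ≥0∞) (i : ι) :
    (∑ j, w j • Measure.dirac (p j)) {p i} = w i := by
  classical
  rw [Measure.finsetSum_apply]
  simp only [Measure.smul_apply, smul_eq_mul]
  rw [Finset.sum_eq_single i]
  · simp
  · intro j _ hj
    have : p j ∉ ({p i} : Set X) := by
      simp only [mem_singleton_iff]; exact fun h => hj (hp h)
    rw [Measure.dirac_apply' _ (measurableSet_singleton _)]
    simp [this]
  · simp

theorem dsc_atom_compl (p : ι → X) (w : ι → ℝ≥0∞) :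
    (∑ j, w j • Measure.dirac (p j)) (range p)ᶜ = 0 := by
  classical
  rw [Measure.finsetSum_apply]
  apply Finset.sum_eq_zero
  intro j _
  have hm : MeasurableSet (range p)ᶜ := (Set.finite_range p).measurableSet.compl
  rw [Measure.smul_apply, Measure.dirac_apply' _ hm]
  simp

/-- a measure carried by the finite set `range p` is the sum of its atoms -/
theorem dsc_eq_sum_atoms (p : ι → X) (hp : Function.Injective p) (μ : Measure X)
    (h : μ (range p)ᶜ = 0) : μ = ∑ j, μ {p j} • Measure.dirac (p j) := by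
  classical
  ext A hA
  rw [Measure.finsetSum_apply]
  simp only [Measure.smul_apply, smul_eq_mul, Measure.dirac_apply' _ hA]
  have h1 : μ A = μ (A ∩ range p) := by
    apply le_antisymm
    · calc μ A ≤ μ ((A ∩ range p) ∪ (range p)ᶜ) := by
            apply measure_mono
            intro x hx
            by_cases hxr : x ∈ range p
            · exact Or.inl ⟨hx, hxr⟩
            · exact Or.inr hxr
        _ ≤ μ (A ∩ range p) + μ (range p)ᶜ := measure_union_le _ _
        _ = μ (A ∩ range p) := by rw [h, add_zero]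
    · exact measure_mono inter_subset_left
  have h2 : A ∩ range p = ⋃ j ∈ (Finset.univ.filter fun j => p j ∈ A), {p j} := by
    ext x
    simp only [mem_inter_iff, mem_range, Finset.mem_filter, Finset.mem_univ, true_and, mem_iUnion,
      mem_singleton_iff, exists_prop]
    constructor
    · rintro ⟨hx, j, rfl⟩; exact ⟨j, hx, rfl⟩
    · rintro ⟨j, hj, rfl⟩; exact ⟨hj, j, rfl⟩
  rw [h1, h2, measure_biUnion_finset]
  · rw [Finset.sum_filter]
    apply Finset.sum_congr rfl
    intro j _
    by_cases hj : p j ∈ A <;> simp [hj]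
  · intro i _ j _ hij
    simp only [Function.onFun, disjoint_singleton]
    exact fun h => hij (hp h)
  · intro j _; exact measurableSet_singleton _

end atoms

/-! ### basic facts on `LagData` -/

theorem dsc_mu_atom {K : Set (E d)} {D : ℝ} {μ : Measure (E d)} (L : LagData K μ D) (i : L.ι) :
    μ {L.p i} = ENNReal.ofReal (L.m i) := by
  have h := congrArg (fun ν : Measure (E d) => ν {L.p i}) L.hμ
  exact h.trans (dsc_atom_apply L.p L.inj _ i)

theorem dsc_mu_compl {K : Set (E d)} {D : ℝ} {μ : Measure (E d)} (L : LagData K μ D) :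
    μ (range L.p)ᶜ = 0 := by
  have h := congrArg (fun ν : Measure (E d) => ν (range L.p)ᶜ) L.hμ
  exact h.trans (dsc_atom_compl L.p _)

theorem dsc_pre_atom {K : Set (E d)} {D : ℝ} {μ : Measure (E d)} (L : LagData K μ D)
    (S : E d → E d) (hS : Measurable S) (hSμ : (uniformProbOn K).map S = μ) (i : L.ι) :
    uniformProbOn K (S ⁻¹' {L.p i}) = ENNReal.ofReal (L.m i) := by
  rw [← dsc_mu_atom L i]
  have h : ((uniformProbOn K).map S) {L.p i} = μ {L.p i} :=
    congrArg (fun ν : Measure (E d) => ν {L.p i}) hSμ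
  rw [← h, Measure.map_apply hS (measurableSet_singleton _)]

theorem dsc_ae_range {K : Set (E d)} {D : ℝ} {μ : Measure (E d)} (L : LagData K μ D)
    (S : E d → E d) (hS : Measurable S) (hSμ : (uniformProbOn K).map S = μ) :
    ∀ᵐ x ∂(uniformProbOn K), ∃ i, S x = L.p i := by
  have h0 := dsc_mu_compl L
  have h : ((uniformProbOn K).map S) (range L.p)ᶜ = μ (range L.p)ᶜ :=
    congrArg (fun ν : Measure (E d) => ν (range L.p)ᶜ) hSμ
  rw [h0, Measure.map_apply hS (Set.finite_range L.p).measurableSet.compl] at h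
  rw [ae_iff]
  refine measure_mono_null ?_ h
  intro x hx
  simp only [mem_ofPred_eq, not_exists] at hx
  simp only [mem_preimage, mem_compl_iff, mem_range, not_exists]
  exact fun i hi => hx i hi.symm

theorem lagData_map {K : Set (E d)} {x0 : E d} {R : ℝ} (hK : Body K x0 R) {D : ℝ}
    {μ : Measure (E d)} (L : LagData K μ D) : (uniformProbOn K).map L.T = μ := by
  classical
  have := (source_uniform hK).prob
  set ρ := uniformProbOn K with hρ
  have : IsProbabilityMeasure (ρ.map L.T) :=
    Measure.isProbabilityMeasure_map L.Tmeas.aemeasurable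
  have hc : (ρ.map L.T) (range L.p)ᶜ = 0 := by
    rw [Measure.map_apply L.Tmeas (Set.finite_range L.p).measurableSet.compl]
    have : L.T ⁻¹' (range L.p)ᶜ = ∅ := by
      ext x
      simp only [mem_preimage, mem_compl_iff, mem_range, not_exists, mem_empty_iff_false,
        iff_false, not_forall, not_not]
      obtain ⟨i, _, hi⟩ := L.Tcell x
      exact ⟨i, hi.symm⟩
    rw [this, measure_empty]
  have hsum := dsc_eq_sum_atoms L.p L.inj (ρ.map L.T) hc
  -- each atom is at most `m i`
  have hle : ∀ i, (ρ.map L.T).real {L.p i} ≤ L.m i := by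
    intro i
    have h1 : (ρ.map L.T) {L.p i} ≤ ENNReal.ofReal (L.m i) := by
      rw [Measure.map_apply L.Tmeas (measurableSet_singleton _), ← L.bal i]
      apply measure_mono
      intro x hx
      obtain ⟨j, hj, hTj⟩ := L.Tcell x
      have : L.p j = L.p i := by rw [← hTj]; exact hx
      rw [← L.inj this]; exact hj
    rw [Measure.real]
    exact ENNReal.toReal_le_of_le_ofReal (L.wts.pos i).le h1
  have htot : ∑ i, (ρ.map L.T).real {L.p i} = 1 := by
    have h1 : (ρ.map L.T) univ = ∑ j, (ρ.map L.T) {L.p j} := by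
      conv_lhs => rw [hsum]
      rw [Measure.finsetSum_apply]
      simp
    rw [measure_univ] at h1
    have h2 : (1 : ℝ) = (∑ j, (ρ.map L.T) {L.p j}).toReal := by rw [← h1]; simp
    rw [h2, ENNReal.toReal_sum (fun j _ => measure_ne_top _ _)]
    rfl
  have heq : ∀ i, (ρ.map L.T).real {L.p i} = L.m i := by
    have := (Finset.sum_eq_sum_iff_of_le (s := Finset.univ) (fun i _ => hle i)).1
      (by rw [htot, L.wts.sum])
    exact fun i => this i (Finset.mem_univ i)
  rw [hsum]
  refine Eq.trans ?_ L.hμ.symm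
  apply Finset.sum_congr rfl
  intro i _
  congr 1
  rw [← heq i, Measure.real, ENNReal.ofReal_toReal (measure_ne_top _ _)]

theorem lagData_subgrad {K : Set (E d)} {D : ℝ} {μ : Measure (E d)} (L : LagData K μ D) (x x' : E d) :
    L.φ x + ⟪L.T x, x' - x⟫_ℝ ≤ L.φ x' := by
  obtain ⟨i, hi, hT⟩ := L.Tcell x
  rw [hT]
  exact lag_subgrad L.p L.c hi x'

/-! ### the gap function -/

theorem dsc_integrable_cont {K : Set (E d)} {x0 : E d} {R : ℝ} (hK : Body K x0 R) (f : E d → ℝ)
    (hf : Continuous f) : Integrable f (uniformProbOn K) := by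
  have := (source_uniform hK).prob
  obtain ⟨C, hC⟩ := hK.compact.exists_bound_of_continuousOn hf.continuousOn
  refine Integrable.of_bound hf.aestronglyMeasurable C ?_
  have h0 := (source_uniform hK).supp
  rw [ae_iff]
  refine measure_mono_null ?_ h0
  intro x hx hxK
  exact hx (hC x hxK)

/-- evaluation of a sum of indicators of the fibres of `S` -/
theorem dsc_sum_indicator {ι : Type} [Fintype ι] {V : Type*} [AddCommMonoid V] (p : ι → E d)
    (hp : Function.Injective p) (S : E d → E d) (f : ι → E d → V) {x : E d} {i : ι}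
    (hx : S x = p i) : ∑ j, (S ⁻¹' {p j}).indicator (f j) x = f i x := by
  classical
  rw [Finset.sum_eq_single i]
  · rw [indicator_of_mem]; exact hx
  · intro j _ hj
    rw [indicator_of_notMem]
    intro h
    have : p i = p j := by rw [← hx]; exact h
    exact hj (hp this).symm
  · simp

/-- the gap function of a map `S` with values (a.e.) in the atoms -/
def dscGap {K : Set (E d)} {D : ℝ} {μ : Measure (E d)} (L : LagData K μ D) (S : E d → E d)
    (x : E d) : ℝ :=
  ∑ i, (S ⁻¹' {L.p i}).indicator (fun x => L.φ x - (⟪x, L.p i⟫_ℝ - L.c i)) x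

theorem dsc_cont_phi {K : Set (E d)} {D : ℝ} {μ : Measure (E d)} (L : LagData K μ D) :
    Continuous L.φ := continuous_lag L.p L.c

theorem dsc_gap_meas {K : Set (E d)} {D : ℝ} {μ : Measure (E d)} (L : LagData K μ D)
    (S : E d → E d) (hS : Measurable S) : Measurable (dscGap L S) := by
  unfold dscGap
  apply Finset.measurable_sum
  intro i _
  apply Measurable.indicator _ (hS (measurableSet_singleton _))
  have h1 : Continuous fun x : E d => L.φ x - (⟪x, L.p i⟫_ℝ - L.c i) :=
    (dsc_cont_phi L).sub ((continuous_id.inner continuous_const).sub continuous_const)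
  exact h1.measurable

theorem dsc_gap_nonneg {K : Set (E d)} {D : ℝ} {μ : Measure (E d)} (L : LagData K μ D)
    (S : E d → E d) (x : E d) : 0 ≤ dscGap L S x := by
  unfold dscGap
  apply Finset.sum_nonneg
  intro i _
  apply indicator_nonneg
  intro x _
  exact sub_nonneg.2 (le_lag L.p L.c x i)

theorem dsc_gap_integrable {K : Set (E d)} {x0 : E d} {R : ℝ} (hK : Body K x0 R) {D : ℝ}
    {μ : Measure (E d)} (L : LagData K μ D) (S : E d → E d) (hS : Measurable S) :
    Integrable (dscGap L S) (uniformProbOn K) := by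
  unfold dscGap
  apply integrable_finsetSum
  intro i _
  apply Integrable.indicator _ (hS (measurableSet_singleton _))
  apply dsc_integrable_cont hK
  exact (dsc_cont_phi L).sub ((continuous_id.inner continuous_const).sub continuous_const)

theorem dsc_gap_integral {K : Set (E d)} {x0 : E d} {R : ℝ} (hK : Body K x0 R) {D : ℝ}
    {μ : Measure (E d)} (L : LagData K μ D) (S : E d → E d) (hS : Measurable S)
    (hSμ : (uniformProbOn K).map S = μ) :
    Integrable (fun x => ⟪x, S x⟫_ℝ) (uniformProbOn K) ∧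
    ∫ x, dscGap L S x ∂(uniformProbOn K) =
      ∫ x, L.φ x ∂(uniformProbOn K) + ∑ i, L.m i * L.c i - ∫ x, ⟪x, S x⟫_ℝ ∂(uniformProbOn K) := by
  classical
  have := (source_uniform hK).prob
  set ρ := uniformProbOn K with hρ
  set cS : E d → ℝ := fun x => ∑ i, (S ⁻¹' {L.p i}).indicator (fun _ => L.c i) x with hcS
  have hcSi : Integrable cS ρ := by
    apply integrable_finsetSum
    intro i _
    exact (integrable_const _).indicator (hS (measurableSet_singleton _))
  have hcSint : ∫ x, cS x ∂ρ = ∑ i, L.m i * L.c i := by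
    rw [hcS, integral_finsetSum]
    · apply Finset.sum_congr rfl
      intro i _
      rw [integral_indicator (hS (measurableSet_singleton _)), setIntegral_const, smul_eq_mul]
      congr 1
      rw [Measure.real, dsc_pre_atom L S hS hSμ i, ENNReal.toReal_ofReal (L.wts.pos i).le]
    · intro i _
      exact (integrable_const _).indicator (hS (measurableSet_singleton _))
  have hφ : Integrable L.φ ρ := dsc_integrable_cont hK _ (dsc_cont_phi L)
  have hg := dsc_gap_integrable hK L S hS
  have hae : (fun x => ⟪x, S x⟫_ℝ) =ᵐ[ρ] fun x => L.φ x + cS x - dscGap L S x := by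
    filter_upwards [dsc_ae_range L S hS hSμ] with x hx
    obtain ⟨i, hi⟩ := hx
    have h1 : cS x = L.c i := dsc_sum_indicator L.p L.inj S (fun i _ => L.c i) hi
    have h2 : dscGap L S x = L.φ x - (⟪x, L.p i⟫_ℝ - L.c i) :=
      dsc_sum_indicator L.p L.inj S (fun i x => L.φ x - (⟪x, L.p i⟫_ℝ - L.c i)) hi
    rw [h1, h2, hi]; ring
  have hint : Integrable (fun x => ⟪x, S x⟫_ℝ) ρ := ((hφ.add hcSi).sub hg).congr hae.symm
  refine ⟨hint, ?_⟩
  have e1 : ∫ x, (L.φ x + cS x - dscGap L S x) ∂ρ
      = ∫ x, L.φ x ∂ρ + ∫ x, cS x ∂ρ - ∫ x, dscGap L S x ∂ρ := by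
    rw [← integral_add hφ hcSi]
    exact integral_sub (hφ.add hcSi) hg
  rw [integral_congr_ae hae, e1, hcSint]
  ring

theorem dsc_gap_T {K : Set (E d)} {D : ℝ} {μ : Measure (E d)} (L : LagData K μ D) (x : E d) :
    dscGap L L.T x = 0 := by
  obtain ⟨i, hi, hT⟩ := L.Tcell x
  have h2 : dscGap L L.T x = L.φ x - (⟪x, L.p i⟫_ℝ - L.c i) :=
    dsc_sum_indicator L.p L.inj L.T (fun i x => L.φ x - (⟪x, L.p i⟫_ℝ - L.c i)) hT
  rw [h2]
  have := (mem_cell_iff L.p L.c x i).1 hi
  unfold LagData.φ
  rw [this]; ring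

theorem lagData_gap {K : Set (E d)} {x0 : E d} {R : ℝ} (hK : Body K x0 R) {D : ℝ}
    {μ : Measure (E d)} (L : LagData K μ D) (S : E d → E d) (hS : Measurable S)
    (hSμ : (uniformProbOn K).map S = μ) :
    ∃ e : E d → ℝ, Measurable e ∧ (∀ x, 0 ≤ e x) ∧ Integrable e (uniformProbOn K) ∧
      ∫ x, e x ∂(uniformProbOn K)
        = ∫ x, ⟪x, L.T x⟫_ℝ ∂(uniformProbOn K) - ∫ x, ⟪x, S x⟫_ℝ ∂(uniformProbOn K) ∧
      ∀ᵐ x ∂(uniformProbOn K), ∀ x', L.φ x + ⟪S x, x' - x⟫_ℝ - e x ≤ L.φ x' := by
  refine ⟨dscGap L S, dsc_gap_meas L S hS, dsc_gap_nonneg L S, dsc_gap_integrable hK L S hS, ?_, ?_⟩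
  · have h1 := (dsc_gap_integral hK L S hS hSμ).2
    have h2 := (dsc_gap_integral hK L L.T L.Tmeas (lagData_map hK L)).2
    simp only [dsc_gap_T, integral_zero] at h2
    rw [h1]; linarith
  · filter_upwards [dsc_ae_range L S hS hSμ] with x hx x'
    obtain ⟨i, hi⟩ := hx
    have h2 : dscGap L S x = L.φ x - (⟪x, L.p i⟫_ℝ - L.c i) :=
      dsc_sum_indicator L.p L.inj S (fun i x => L.φ x - (⟪x, L.p i⟫_ℝ - L.c i)) hi
    rw [h2, hi]
    have h3 := le_lag L.p L.c x' i
    have h4 : ⟪L.p i, x' - x⟫_ℝ = ⟪x', L.p i⟫_ℝ - ⟪x, L.p i⟫_ℝ := by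
      rw [inner_sub_right, real_inner_comm, real_inner_comm x]
    unfold LagData.φ at *
    rw [h4]; linarith

/-! ### existence of `LagData` -/

/-- measurable selection of a cell -/
theorem dsc_exists_T {ι : Type} [Fintype ι] [Nonempty ι] (p : ι → E d) (c : ι → ℝ) :
    ∃ T : E d → E d, Measurable T ∧ ∀ x, ∃ i, x ∈ cell p c i ∧ T x = p i := by
  classical
  let e := Fintype.equivFin ι
  let A : ι → Set (E d) := fun i => cell p c i \ ⋃ j, ⋃ (_ : e j < e i), cell p c j
  have hA : ∀ i, MeasurableSet (A i) := fun i =>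
    (measurableSet_cell p c i).diff
      (MeasurableSet.iUnion fun j => MeasurableSet.iUnion fun _ => measurableSet_cell p c j)
  refine ⟨fun x => ∑ i, (A i).indicator (fun _ => p i) x, ?_, ?_⟩
  · apply Finset.measurable_sum
    intro i _
    exact measurable_const.indicator (hA i)
  · intro x
    have hne : (Finset.univ.filter fun i => x ∈ cell p c i).Nonempty := by
      have : x ∈ ⋃ i, cell p c i := by rw [iUnion_cell]; trivial
      obtain ⟨i, hi⟩ := mem_iUnion.1 this
      exact ⟨i, by simp [hi]⟩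
    obtain ⟨i0, hi0, hmin⟩ := Finset.exists_min_image _ e hne
    simp only [Finset.mem_filter, Finset.mem_univ, true_and] at hi0 hmin
    refine ⟨i0, hi0, ?_⟩
    show ∑ i, (A i).indicator (fun _ => p i) x = p i0
    rw [Finset.sum_eq_single i0]
    · rw [indicator_of_mem]
      refine ⟨hi0, ?_⟩
      simp only [mem_iUnion, not_exists]
      intro j hj hxj
      exact absurd (hmin j hxj) (not_le.2 hj)
    · intro j _ hj
      rw [indicator_of_notMem]
      rintro ⟨hxj, hnot⟩
      apply hnot
      simp only [mem_iUnion]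
      refine ⟨i0, ?_, hi0⟩
      exact lt_of_le_of_ne (hmin j hxj) (fun h => hj (e.injective h).symm)
    · simp

theorem exists_lagData {K : Set (E d)} {x0 : E d} {R : ℝ} (hK : Body K x0 R) (D : ℝ)
    (μ : Measure (E d)) [IsProbabilityMeasure μ] (S : Finset (E d)) (hS : μ (S : Set (E d))ᶜ = 0)
    (hD : ∀ y ∈ S, ‖y‖ ≤ D) : Nonempty (LagData K μ D) := by
  classical
  let S' : Finset (E d) := S.filter fun y => 0 < μ {y}
  let p : S' → E d := Subtype.val
  have hp : Function.Injective p := Subtype.val_injective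
  have hrange : range p = (S' : Set (E d)) := Subtype.range_coe
  have hc : μ (range p)ᶜ = 0 := by
    rw [hrange]
    have hsub : ((S' : Set (E d)))ᶜ ⊆ (S : Set (E d))ᶜ ∪ ⋃ y ∈ S.filter (fun y => ¬ 0 < μ {y}), {y} := by
      intro x hx
      by_cases hxS : x ∈ S
      · right
        simp only [Finset.mem_filter, mem_iUnion, mem_singleton_iff, exists_prop]
        refine ⟨x, ⟨hxS, ?_⟩, rfl⟩
        intro hpos
        exact hx (by simp [S', hxS, hpos])
      · left; exact hxS
    refine measure_mono_null hsub (measure_union_null hS ?_)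
    refine le_antisymm ((measure_biUnion_finset_le _ _).trans ?_) zero_le
    apply le_of_eq
    apply Finset.sum_eq_zero
    intro y hy'
    simp only [Finset.mem_filter, not_lt, nonpos_iff_eq_zero] at hy'
    exact hy'.2
  have hsum := dsc_eq_sum_atoms p hp μ hc
  have htot : ∑ j, μ {p j} = 1 := by
    have h1 : μ univ = (∑ j, μ {p j} • Measure.dirac (p j)) univ := by rw [← hsum]
    rw [measure_univ, Measure.finsetSum_apply] at h1
    simpa using h1.symm
  have hne : Nonempty S' := by
    by_contra hemp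
    rw [not_nonempty_iff] at hemp
    simp at htot
  let m : S' → ℝ := fun i => (μ {p i}).toReal
  have hpos : ∀ i : S', 0 < μ {p i} := by
    intro i
    have := i.2
    simp only [S', Finset.mem_filter] at this
    exact this.2
  have hm : Weights m :=
    { pos := fun i => ENNReal.toReal_pos (hpos i).ne' (measure_ne_top _ _)
      sum := by
        show ∑ i, (μ {p i}).toReal = 1
        rw [← ENNReal.toReal_sum (fun j _ => measure_ne_top _ _), htot]; simp }
  obtain ⟨c, hcb⟩ := exists_balanced hK (source_uniform hK) p hp m hm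
  obtain ⟨T, hTm, hT⟩ := dsc_exists_T p c
  exact ⟨{ ι := S', fin := inferInstance, ne := hne, p := p, inj := hp
           bound := fun i => hD _ (Finset.mem_filter.1 i.2).1
           m := m, wts := hm, c := c, bal := hcb
           hμ := by
             conv_lhs => rw [hsum]
             apply Finset.sum_congr rfl
             intro i _
             show μ {p i} • _ = ENNReal.ofReal (μ {p i}).toReal • _
             rw [ENNReal.ofReal_toReal (measure_ne_top _ _)]
           T := T, Tmeas := hTm, Tcell := hT }⟩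

/-! ### couplings of finitely supported measures -/

section coupling
variable {ι κ : Type} [Fintype ι] [Fintype κ]

theorem dsc_integral_atoms {X : Type*} [MeasurableSpace X] [MeasurableSingletonClass X]
    {I : Type} [Fintype I] (P : I → X) (w : I → ℝ≥0∞) (hw : ∀ k, w k ≠ ⊤) (f : X → ℝ) :
    ∫ z, f z ∂(∑ k, w k • Measure.dirac (P k)) = ∑ k, (w k).toReal * f (P k) := by
  rw [integral_finsetSum_measure]
  · apply Finset.sum_congr rfl
    intro k _
    rw [integral_smul_measure, integral_dirac, smul_eq_mul]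
  · intro k _
    exact (integrable_dirac (by simp)).smul_measure (hw k)

/-- structure of a coupling of two finitely supported measures -/
theorem dsc_coupling (p : ι → E d) (hp : Function.Injective p) (q : κ → E d)
    (hq : Function.Injective q) (μ ν : Measure (E d)) (hμ : μ (range p)ᶜ = 0)
    (hν : ν (range q)ᶜ = 0) (π : Measure (E d × E d)) (hπ : IsPairCoupling μ ν π) :
    π = ∑ k : ι × κ, π {(p k.1, q k.2)} • Measure.dirac (p k.1, q k.2) := by
  classical
  apply dsc_eq_sum_atoms (fun k : ι × κ => (p k.1, q k.2))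
  · intro k k' h
    simp only [Prod.mk.injEq] at h
    exact Prod.ext (hp h.1) (hq h.2)
  · have h1 : π (Prod.fst ⁻¹' (range p)ᶜ) = 0 := by
      rw [← Measure.map_apply measurable_fst (Set.finite_range p).measurableSet.compl, hπ.1, hμ]
    have h2 : π (Prod.snd ⁻¹' (range q)ᶜ) = 0 := by
      rw [← Measure.map_apply measurable_snd (Set.finite_range q).measurableSet.compl, hπ.2, hν]
    refine measure_mono_null ?_ (measure_union_null h1 h2)
    intro z hz
    by_contra hcon
    simp only [mem_union, mem_preimage, mem_compl_iff, mem_range, not_or, not_not] at hcon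
    obtain ⟨⟨i, hi⟩, ⟨j, hj⟩⟩ := hcon
    exact hz ⟨(i, j), Prod.ext hi hj⟩

theorem dsc_marg1 (p : ι → E d) (hp : Function.Injective p) (q : κ → E d)
    (hq : Function.Injective q) (μ ν : Measure (E d)) (hμ : μ (range p)ᶜ = 0)
    (hν : ν (range q)ᶜ = 0) (π : Measure (E d × E d)) (hπ : IsPairCoupling μ ν π) (i : ι) :
    ∑ j, π {(p i, q j)} = μ {p i} := by
  classical
  have h := dsc_coupling p hp q hq μ ν hμ hν π hπ
  have h1 : μ {p i} = π (Prod.fst ⁻¹' {p i}) := by
    rw [← Measure.map_apply measurable_fst (measurableSet_singleton _), hπ.1]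
  rw [h1]
  conv_rhs => rw [h]
  rw [Measure.finsetSum_apply, Fintype.sum_prod_type]
  rw [Finset.sum_eq_single i]
  · apply Finset.sum_congr rfl
    intro j _
    rw [Measure.smul_apply, Measure.dirac_apply' _ (measurable_fst (measurableSet_singleton _))]
    simp
  · intro i' _ hi'
    apply Finset.sum_eq_zero
    intro j _
    rw [Measure.smul_apply, Measure.dirac_apply' _ (measurable_fst (measurableSet_singleton _))]
    have : (p i', q j) ∉ (Prod.fst ⁻¹' {p i} : Set (E d × E d)) := by
      simp only [mem_preimage, mem_singleton_iff]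
      exact fun h => hi' (hp h)
    simp [this]
  · simp

theorem dsc_marg2 (p : ι → E d) (hp : Function.Injective p) (q : κ → E d)
    (hq : Function.Injective q) (μ ν : Measure (E d)) (hμ : μ (range p)ᶜ = 0)
    (hν : ν (range q)ᶜ = 0) (π : Measure (E d × E d)) (hπ : IsPairCoupling μ ν π) (j : κ) :
    ∑ i, π {(p i, q j)} = ν {q j} := by
  classical
  have h := dsc_coupling p hp q hq μ ν hμ hν π hπ
  have h1 : ν {q j} = π (Prod.snd ⁻¹' {q j}) := by
    rw [← Measure.map_apply measurable_snd (measurableSet_singleton _), hπ.2]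
  rw [h1]
  conv_rhs => rw [h]
  rw [Measure.finsetSum_apply, Fintype.sum_prod_type]
  apply Finset.sum_congr rfl
  intro i _
  rw [Finset.sum_eq_single j]
  · rw [Measure.smul_apply, Measure.dirac_apply' _ (measurable_snd (measurableSet_singleton _))]
    simp
  · intro j' _ hj'
    rw [Measure.smul_apply, Measure.dirac_apply' _ (measurable_snd (measurableSet_singleton _))]
    have : (p i, q j') ∉ (Prod.snd ⁻¹' {q j} : Set (E d × E d)) := by
      simp only [mem_preimage, mem_singleton_iff]
      exact fun h => hj' (hq h)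
    simp [this]
  · simp

end coupling

/-! ### the discrete theorem -/

theorem dsc_vol_pos {K : Set (E d)} {x0 : E d} {R : ℝ} (hK : Body K x0 R) :
    0 < (volume K).toReal := by
  apply ENNReal.toReal_pos
  · exact ((isOpen_interior.measure_pos volume hK.int).trans_le (measure_mono interior_subset)).ne'
  · exact hK.compact.measure_lt_top.ne

theorem dsc_integral_unif (K : Set (E d)) (f : E d → ℝ) :
    ∫ x, f x ∂(uniformProbOn K) = (volume K).toReal⁻¹ * ∫ x in K, f x := by
  unfold uniformProbOn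
  rw [integral_smul_measure, ENNReal.toReal_inv, smul_eq_mul]

theorem discrete_thm {K : Set (E d)} {x0 : E d} {R : ℝ} (hK : Body K x0 R) (D : ℝ) (hD : 0 ≤ D) :
    ∃ C : ℝ, 0 ≤ C ∧ ∀ (μ ν : Measure (E d)) (L1 : LagData K μ D) (L2 : LagData K ν D)
      (π : Measure (E d × E d)), IsPairCoupling μ ν π →
      ∫ x, ‖L1.T x - L2.T x‖ ^ 2 ∂(uniformProbOn K)
        ≤ C * (∫ z, ‖z.1 - z.2‖ ^ 2 ∂π) ^ (1 / 3 : ℝ) := by
  classical
  have hR : 0 ≤ R := by
    have := hK.sub hK.mem
    rw [Metric.mem_closedBall, dist_self] at this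
    exact this
  obtain ⟨C0, hC0, hgn⟩ := gn d R D hR hD
  set V := (volume K).toReal with hV
  have hVpos : 0 < V := dsc_vol_pos hK
  refine ⟨V⁻¹ * (C0 * (V * (5000000 * R ^ 2)) ^ (1 / 3 : ℝ)), by positivity, ?_⟩
  intro μ ν L1 L2 π hπ
  have hprob := (source_uniform hK).prob
  -- the coupling matrix
  have hμc := dsc_mu_compl L1
  have hνc := dsc_mu_compl L2
  have hμfin : ∀ i, μ {L1.p i} ≠ ⊤ := fun i => by rw [dsc_mu_atom L1 i]; exact ENNReal.ofReal_ne_top
  have hπfin : ∀ i j, π {(L1.p i, L2.p j)} ≠ ⊤ := by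
    intro i j
    have h := dsc_marg1 L1.p L1.inj L2.p L2.inj μ ν hμc hνc π hπ i
    have hle : π {(L1.p i, L2.p j)} ≤ μ {L1.p i} := by
      rw [← h]
      exact Finset.single_le_sum (f := fun j => π {(L1.p i, L2.p j)}) (fun _ _ => zero_le)
        (Finset.mem_univ j)
    exact ne_top_of_le_ne_top (hμfin i) hle
  set Pi : L1.ι → L2.ι → ℝ := fun i j => (π {(L1.p i, L2.p j)}).toReal with hPi
  have hPi0 : ∀ i j, 0 ≤ Pi i j := fun i j => ENNReal.toReal_nonneg
  have hPi1 : ∀ i, ∑ j, Pi i j = L1.m i := by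
    intro i
    rw [hPi]
    simp only
    rw [← ENNReal.toReal_sum (fun j _ => hπfin i j),
      dsc_marg1 L1.p L1.inj L2.p L2.inj μ ν hμc hνc π hπ i, dsc_mu_atom L1 i,
      ENNReal.toReal_ofReal (L1.wts.pos i).le]
  have hPi2 : ∀ j, ∑ i, Pi i j = L2.m j := by
    intro j
    rw [hPi]
    simp only
    rw [← ENNReal.toReal_sum (fun i _ => hπfin i j),
      dsc_marg2 L1.p L1.inj L2.p L2.inj μ ν hμc hνc π hπ j, dsc_mu_atom L2 j,
      ENNReal.toReal_ofReal (L2.wts.pos j).le]
  have hcost : ∫ z, ‖z.1 - z.2‖ ^ 2 ∂π = ∑ i, ∑ j, Pi i j * ‖L1.p i - L2.p j‖ ^ 2 := by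
    have h := dsc_coupling L1.p L1.inj L2.p L2.inj μ ν hμc hνc π hπ
    have h2 := dsc_integral_atoms (fun k : L1.ι × L2.ι => (L1.p k.1, L2.p k.2))
      (fun k => π {(L1.p k.1, L2.p k.2)}) (fun k => hπfin k.1 k.2)
      (fun z : E d × E d => ‖z.1 - z.2‖ ^ 2)
    rw [← h] at h2
    rw [h2, Fintype.sum_prod_type]
  have hA := aprime hK L1.p L1.inj L2.p L2.inj L1.m L1.wts L2.m L2.wts L1.c L1.bal L2.c L2.bal
    Pi hPi0 hPi1 hPi2
  rw [← hcost] at hA
  set W := ∫ z, ‖z.1 - z.2‖ ^ 2 ∂π with hW
  have hW0 : 0 ≤ W := integral_nonneg fun z => by positivity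
  set mean := ∫ z, (lag L2.p L2.c z - lag L1.p L1.c z) ∂(uniformProbOn K) with hmean
  -- apply GN
  have hlip : ∀ {μ' : Measure (E d)} (L : LagData K μ' D), ∀ x ∈ K, ∀ z ∈ K,
      |L.φ x - L.φ z| ≤ D * ‖x - z‖ := by
    intro μ' L x _ z _
    have h := (lipschitz_lag L.p L.c ⟨D, hD⟩ (fun i => L.bound i)).dist_le_mul x z
    rw [Real.dist_eq, dist_eq_norm] at h
    exact h
  have hbd : ∀ {μ' : Measure (E d)} (L : LagData K μ' D),
      ∀ᵐ x ∂(volume.restrict K), ‖L.T x‖ ≤ D := by
    intro μ' L
    refine Eventually.of_forall fun x => ?_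
    obtain ⟨i, _, hT⟩ := L.Tcell x
    rw [hT]; exact L.bound i
  have hG := hgn K x0 hK L1.φ (fun x => L2.φ x + (-mean)) L1.T L2.T
    ((convexOn_lag L1.p L1.c).subset (subset_univ _) hK.convex)
    (((convexOn_lag L2.p L2.c).subset (subset_univ _) hK.convex).add_const _)
    (hlip L1)
    (by
      intro x hx z hz
      have := hlip L2 x hx z hz
      simpa using this)
    L1.Tmeas L2.Tmeas (hbd L1) (hbd L2)
    (Eventually.of_forall fun x x' _ => lagData_subgrad L1 x x')
    (Eventually.of_forall fun x x' _ => by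
      have := lagData_subgrad L2 x x'
      linarith)
  have e1 : ∫ x, ‖L1.T x - L2.T x‖ ^ 2 ∂(uniformProbOn K) = V⁻¹ * ∫ x in K, ‖L2.T x - L1.T x‖ ^ 2 := by
    rw [dsc_integral_unif]
    congr 1
    apply integral_congr_ae
    refine Eventually.of_forall fun x => ?_
    simp only
    rw [norm_sub_rev]
  have e2 : ∫ x in K, (L2.φ x + (-mean) - L1.φ x) ^ 2
      = V * ∫ x, ((lag L2.p L2.c x - lag L1.p L1.c x) - mean) ^ 2 ∂(uniformProbOn K) := by
    rw [dsc_integral_unif, ← mul_assoc, mul_inv_cancel₀ hVpos.ne', one_mul]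
    apply integral_congr_ae
    refine Eventually.of_forall fun x => ?_
    simp only [LagData.φ]
    ring
  rw [e1]
  rw [e2] at hG
  have h3 : (V * ∫ x, ((lag L2.p L2.c x - lag L1.p L1.c x) - mean) ^ 2 ∂(uniformProbOn K)) ^ (1 / 3 : ℝ)
      ≤ (V * (5000000 * R ^ 2)) ^ (1 / 3 : ℝ) * W ^ (1 / 3 : ℝ) := by
    rw [← Real.mul_rpow (by positivity) hW0]
    apply Real.rpow_le_rpow
    · exact mul_nonneg hVpos.le (integral_nonneg fun x => by positivity)
    · rw [mul_assoc]
      exact mul_le_mul_of_nonneg_left hA hVpos.le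
    · norm_num
  calc V⁻¹ * ∫ x in K, ‖L2.T x - L1.T x‖ ^ 2
      ≤ V⁻¹ * (C0 * ((V * (5000000 * R ^ 2)) ^ (1 / 3 : ℝ) * W ^ (1 / 3 : ℝ))) := by
        apply mul_le_mul_of_nonneg_left _ (inv_nonneg.2 hVpos.le)
        exact hG.trans (mul_le_mul_of_nonneg_left h3 hC0)
    _ = V⁻¹ * (C0 * (V * (5000000 * R ^ 2)) ^ (1 / 3 : ℝ)) * W ^ (1 / 3 : ℝ) := by ring

end

end Crest.Agent.R082
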