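import Crest.Agent.S0109_Basic
import Crest.Agent.S0109_GN

/-! Row 82 (S0109), module H4: identification of two a.e. limits of (approximate) subgradients of
convex Lipschitz potentials, via an ultrafilter limit of the potentials and `gn` with `φ0 = φ1`. -/

set_option autoImplicit false

namespace Crest.Agent.R082

open MeasureTheory Set Filter Topology
open scoped ENNReal NNReal InnerProductSpace
open Crest.AnalysisR.OT

noncomputable section

variable {d : ℕ}

theorem lid_ae_eq {K : Set (E d)} {x0 : E d} {R : ℝ} (hK : Body K x0 R) :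
    ae (uniformProbOn K) = ae (volume.restrict K) := by
  unfold uniformProbOn
  exact Measure.ae_ennreal_smul_measure_eq (ENNReal.inv_ne_zero.2 (bas_vol_ne_top hK)) _

/-- two a.e. subgradient selections of the same convex Lipschitz function agree a.e. -/
theorem lid_subgrad_unique {K : Set (E d)} {x0 : E d} {R : ℝ} (hK : Body K x0 R) (D : ℝ) (hD : 0 ≤ D)
    (φ : E d → ℝ) (hconv : ConvexOn ℝ K φ) (hlip : ∀ x ∈ K, ∀ z ∈ K, |φ x - φ z| ≤ D * ‖x - z‖)
    (T0 T1 : E d → E d) (hT0 : Measurable T0) (hT1 : Measurable T1)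
    (hb0 : ∀ᵐ x ∂(volume.restrict K), ‖T0 x‖ ≤ D) (hb1 : ∀ᵐ x ∂(volume.restrict K), ‖T1 x‖ ≤ D)
    (hs0 : AESubgrad K φ T0) (hs1 : AESubgrad K φ T1) :
    T1 =ᵐ[volume.restrict K] T0 := by
  have hR : 0 ≤ R := by
    have := hK.sub hK.mem
    rw [Metric.mem_closedBall, dist_self] at this
    exact this
  obtain ⟨C, hC, h⟩ := gn d R D hR hD
  have h1 := h K x0 hK φ φ T0 T1 hconv hconv hlip hlip hT0 hT1 hb0 hb1 hs0 hs1
  have h2 : (∫ x in K, (φ x - φ x) ^ 2) = 0 := by simp
  rw [h2, Real.zero_rpow (by norm_num), mul_zero] at h1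
  have hfin : IsFiniteMeasure (volume.restrict K) :=
    ⟨by rw [Measure.restrict_apply MeasurableSet.univ, univ_inter]; exact hK.compact.measure_lt_top⟩
  have hint : Integrable (fun x => ‖T1 x - T0 x‖ ^ 2) (volume.restrict K) := by
    refine Integrable.of_bound (C := (2 * D) ^ 2)
      ((hT1.sub hT0).norm.pow_const 2).aestronglyMeasurable ?_
    · filter_upwards [hb0, hb1] with x h0 h1
      rw [Real.norm_eq_abs, abs_of_nonneg (by positivity)]
      have : ‖T1 x - T0 x‖ ≤ 2 * D := (norm_sub_le _ _).trans (by linarith)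
      exact pow_le_pow_left₀ (norm_nonneg _) this 2
  have h3 : ∫ x in K, ‖T1 x - T0 x‖ ^ 2 = 0 :=
    le_antisymm h1 (integral_nonneg fun x => by positivity)
  rw [integral_eq_zero_iff_of_nonneg (fun x => by positivity) hint] at h3
  filter_upwards [h3] with x hx
  have : ‖T1 x - T0 x‖ = 0 := by simpa using hx
  exact sub_eq_zero.1 (norm_eq_zero.1 this)

/-- H4: identification of the limits. -/
theorem lim_identify {K : Set (E d)} {x0 : E d} {R : ℝ} (hK : Body K x0 R) (D : ℝ) (hD : 0 ≤ D)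
    (φ : ℕ → E d → ℝ) (hconv : ∀ n, ConvexOn ℝ univ (φ n))
    (hlip : ∀ n x z, |φ n x - φ n z| ≤ D * ‖x - z‖)
    (Tn Sn : ℕ → E d → E d) (e : ℕ → E d → ℝ)
    (T Tinf : E d → E d) (hT : Measurable T) (hTinf : Measurable Tinf)
    (hTb : ∀ᵐ x ∂(uniformProbOn K), ‖T x‖ ≤ D) (hTinfb : ∀ᵐ x ∂(uniformProbOn K), ‖Tinf x‖ ≤ D)
    (h1 : ∀ n, ∀ᵐ x ∂(uniformProbOn K), ∀ x', φ n x + ⟪Tn n x, x' - x⟫_ℝ ≤ φ n x')
    (h2 : ∀ n, ∀ᵐ x ∂(uniformProbOn K), ∀ x', φ n x + ⟪Sn n x, x' - x⟫_ℝ - e n x ≤ φ n x')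
    (hTn : ∀ᵐ x ∂(uniformProbOn K), Tendsto (fun n => Tn n x) atTop (𝓝 (Tinf x)))
    (hSn : ∀ᵐ x ∂(uniformProbOn K), Tendsto (fun n => Sn n x) atTop (𝓝 (T x)))
    (he : ∀ᵐ x ∂(uniformProbOn K), Tendsto (fun n => e n x) atTop (𝓝 0)) :
    T =ᵐ[uniformProbOn K] Tinf := by
  set U : Ultrafilter ℕ := Ultrafilter.of atTop with hUdef
  have hU : (U : Filter ℕ) ≤ atTop := Ultrafilter.of_le atTop
  -- the limit potential
  have hex : ∀ x, ∃ a, Tendsto (fun n => φ n x - φ n x0) U (𝓝 a) := by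
    intro x
    have hc : IsCompact (Icc (-(D * ‖x - x0‖)) (D * ‖x - x0‖)) := isCompact_Icc
    obtain ⟨a, -, ha⟩ := hc.ultrafilter_le_nhds (U.map fun n => φ n x - φ n x0) (by
      rw [le_principal_iff]
      apply Filter.mem_map.2
      apply Filter.univ_mem'
      intro n
      exact abs_le.1 (hlip n x x0))
    exact ⟨a, ha⟩
  choose Φ hΦ using hex
  have hΦconv : ConvexOn ℝ K Φ := by
    refine ⟨hK.convex, ?_⟩
    intro x _ z _ a b ha hb hab
    refine le_of_tendsto_of_tendsto' (hΦ (a • x + b • z))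
      (((hΦ x).const_smul a).add ((hΦ z).const_smul b)) ?_
    intro n
    have := (hconv n).2 (mem_univ x) (mem_univ z) ha hb hab
    simp only [smul_eq_mul] at this ⊢
    have e2 : φ n x0 = a * φ n x0 + b * φ n x0 := by rw [← add_mul, hab, one_mul]
    linarith
  have hΦlip : ∀ x ∈ K, ∀ z ∈ K, |Φ x - Φ z| ≤ D * ‖x - z‖ := by
    intro x _ z _
    refine le_of_tendsto' ((hΦ x).sub (hΦ z)).abs ?_
    intro n
    have := hlip n x z
    have e : φ n x - φ n x0 - (φ n z - φ n x0) = φ n x - φ n z := by ring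
    rw [e]
    exact this
  rw [lid_ae_eq hK] at *
  have hs0 : AESubgrad K Φ Tinf := by
    filter_upwards [ae_all_iff.2 h1, hTn] with x hx1 hx2 x' _
    refine le_of_tendsto_of_tendsto' ((hΦ x).add (((hx2.mono_left hU).inner tendsto_const_nhds)))
      (hΦ x') ?_
    intro n
    have := hx1 n x'
    linarith
  have hs1 : AESubgrad K Φ T := by
    filter_upwards [ae_all_iff.2 h2, hSn, he] with x hx1 hx2 hx3 x' _
    have hlim := ((hΦ x).add (((hx2.mono_left hU).inner
      (tendsto_const_nhds (x := x' - x))))).sub (hx3.mono_left hU)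
    rw [sub_zero] at hlim
    refine le_of_tendsto_of_tendsto' hlim (hΦ x') ?_
    intro n
    have := hx1 n x'
    linarith
  exact lid_subgrad_unique hK D hD Φ hΦconv hΦlip Tinf T hTinf hT hTinfb hTb hs0 hs1

end

end Crest.Agent.R082
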