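import Mathlib

/-! Row 82 (S0109), module H1b: abstract `L²` completeness and a.e. convergent subsequences, stated with
Bochner integrals of `‖·‖ ^ 2`. -/

set_option autoImplicit false

namespace Crest.Agent.R082

open MeasureTheory Set Filter Topology
open scoped ENNReal NNReal

noncomputable section

variable {α V : Type*} [MeasurableSpace α] [NormedAddCommGroup V] {ρ : Measure α}

/-- `(eLpNorm h 2 ρ).toReal ^ 2 = ∫ ‖h‖²`. -/
theorem l2_eLpNorm_sq {h : α → V} (hh : MemLp h 2 ρ) :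
    (eLpNorm h 2 ρ).toReal ^ 2 = ∫ x, ‖h x‖ ^ 2 ∂ρ := by
  rw [hh.eLpNorm_eq_integral_rpow_norm (by norm_num) (by norm_num)]
  have h0 : 0 ≤ ∫ x, ‖h x‖ ^ (2 : ℝ≥0∞).toReal ∂ρ := integral_nonneg fun x => by positivity
  rw [ENNReal.toReal_ofReal (by positivity)]
  simp only [ENNReal.toReal_ofNat] at h0 ⊢
  rw [← Real.rpow_natCast, ← Real.rpow_mul h0]
  norm_num

theorem l2_eLpNorm_eq {h : α → V} (hh : MemLp h 2 ρ) :
    eLpNorm h 2 ρ = ENNReal.ofReal (Real.sqrt (∫ x, ‖h x‖ ^ 2 ∂ρ)) := by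
  rw [← l2_eLpNorm_sq hh, Real.sqrt_sq ENNReal.toReal_nonneg, ENNReal.ofReal_toReal hh.2.ne]

theorem l2_memLp_of_bdd [IsFiniteMeasure ρ] {h : α → V} (hm : AEStronglyMeasurable h ρ) (B : ℝ)
    (hb : ∀ᵐ x ∂ρ, ‖h x‖ ≤ B) : MemLp h 2 ρ :=
  MemLp.of_bound hm B hb

/-- convergence of `∫ ‖f n - g‖²` to `0` gives an a.e. convergent subsequence. -/
theorem l2_subseq_ae (f : ℕ → α → V) (g : α → V) (hfg : ∀ n, MemLp (f n - g) 2 ρ)
    (hf : ∀ n, AEStronglyMeasurable (f n) ρ) (hg : AEStronglyMeasurable g ρ)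
    (h : Tendsto (fun n => ∫ x, ‖f n x - g x‖ ^ 2 ∂ρ) atTop (𝓝 0)) :
    ∃ ns : ℕ → ℕ, StrictMono ns ∧ ∀ᵐ x ∂ρ, Tendsto (fun i => f (ns i) x) atTop (𝓝 (g x)) := by
  apply TendstoInMeasure.exists_seq_tendsto_ae
  apply tendstoInMeasure_of_tendsto_eLpNorm (p := 2) (by norm_num) hf hg
  have h1 : ∀ n, eLpNorm (f n - g) 2 ρ = ENNReal.ofReal (Real.sqrt (∫ x, ‖f n x - g x‖ ^ 2 ∂ρ)) :=
    fun n => l2_eLpNorm_eq (hfg n)
  simp only [h1]
  have h2 : Tendsto (fun n => Real.sqrt (∫ x, ‖f n x - g x‖ ^ 2 ∂ρ)) atTop (𝓝 0) := by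
    have := (Real.continuous_sqrt.tendsto 0).comp h
    simpa [Function.comp_def] using this
  have := (ENNReal.continuous_ofReal.tendsto 0).comp h2
  simpa [Function.comp_def] using this

/-- convergence of `∫ e n` to `0`, `e n ≥ 0` integrable, gives an a.e. convergent subsequence. -/
theorem l1_subseq_ae (e : ℕ → α → ℝ) (he : ∀ n, Integrable (e n) ρ) (h0 : ∀ n, ∀ᵐ x ∂ρ, 0 ≤ e n x)
    (h : Tendsto (fun n => ∫ x, e n x ∂ρ) atTop (𝓝 0)) :
    ∃ ns : ℕ → ℕ, StrictMono ns ∧ ∀ᵐ x ∂ρ, Tendsto (fun i => e (ns i) x) atTop (𝓝 0) := by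
  apply TendstoInMeasure.exists_seq_tendsto_ae (g := fun _ => (0 : ℝ))
  apply tendstoInMeasure_of_tendsto_eLpNorm (p := 1) (by norm_num)
    (fun n => (he n).aestronglyMeasurable) aestronglyMeasurable_const
  have h1 : ∀ n, eLpNorm (e n - fun _ => (0 : ℝ)) 1 ρ = ENNReal.ofReal (∫ x, e n x ∂ρ) := by
    intro n
    have e0 : (e n - fun _ => (0 : ℝ)) = e n := by ext x; simp
    rw [e0, eLpNorm_one_eq_lintegral_enorm, ofReal_integral_eq_lintegral_ofReal (he n) (h0 n)]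
    apply lintegral_congr_ae
    filter_upwards [h0 n] with x hx
    rw [Real.enorm_eq_ofReal hx]
  simp only [h1]
  have := (ENNReal.continuous_ofReal.tendsto 0).comp h
  simpa [Function.comp_def] using this

/-- `L²` completeness in integral form. -/
theorem l2_complete [CompleteSpace V] (f : ℕ → α → V) (hf : ∀ n, MemLp (f n) 2 ρ)
    (hC : ∀ ε > 0, ∃ N0, ∀ n ≥ N0, ∀ m ≥ N0, ∫ x, ‖f n x - f m x‖ ^ 2 ∂ρ ≤ ε) :
    ∃ g : α → V, StronglyMeasurable g ∧ MemLp g 2 ρ ∧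
      Tendsto (fun n => ∫ x, ‖f n x - g x‖ ^ 2 ∂ρ) atTop (𝓝 0) := by
  set F : ℕ → Lp V 2 ρ := fun n => (hf n).toLp (f n) with hF
  have hdist : ∀ n m, dist (F n) (F m) ^ 2 = ∫ x, ‖f n x - f m x‖ ^ 2 ∂ρ := by
    intro n m
    rw [dist_eq_norm, hF]
    simp only
    rw [← MemLp.toLp_sub (hf n) (hf m), Lp.norm_toLp, l2_eLpNorm_sq ((hf n).sub (hf m))]
    rfl
  have hcau : CauchySeq F := by
    rw [Metric.cauchySeq_iff]
    intro ε hε
    obtain ⟨N0, hN0⟩ := hC (ε ^ 2 / 4) (by positivity)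
    refine ⟨N0, fun n hn m hm => ?_⟩
    have h1 := hN0 n hn m hm
    rw [← hdist] at h1
    have h2 : dist (F n) (F m) ^ 2 < ε ^ 2 := by
      have : 0 < ε ^ 2 := by positivity
      linarith
    exact lt_of_pow_lt_pow_left₀ 2 hε.le h2
  obtain ⟨G, hG⟩ := cauchySeq_tendsto_of_complete hcau
  refine ⟨G, Lp.stronglyMeasurable G, Lp.memLp G, ?_⟩
  have hd : ∀ n, dist (F n) G ^ 2 = ∫ x, ‖f n x - G x‖ ^ 2 ∂ρ := by
    intro n
    have e1 : G = (Lp.memLp G).toLp G := (Lp.toLp_coeFn G (Lp.memLp G)).symm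
    rw [dist_eq_norm, hF]
    simp only
    conv_lhs => rw [e1]
    rw [← MemLp.toLp_sub (hf n) (Lp.memLp G), Lp.norm_toLp, l2_eLpNorm_sq ((hf n).sub (Lp.memLp G))]
    rfl
  have h3 : Tendsto (fun n => dist (F n) G ^ 2) atTop (𝓝 0) := by
    have := (tendsto_iff_dist_tendsto_zero.1 hG).pow 2
    simpa using this
  simpa only [hd] using h3

end

end Crest.Agent.R082
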