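import Crest.Agent.S0109_Defs

/-! Row 82 (S0109), module H1: the rounding map `rnd`. -/

set_option autoImplicit false

namespace Crest.Agent.R082

open MeasureTheory Set Filter Topology
open scoped ENNReal NNReal InnerProductSpace
open Crest.AnalysisR.OT

noncomputable section

variable {d : ℕ}

theorem rnd_apply (N : ℕ) (y : E d) (i : Fin d) : rnd N y i = (⌊y i * N⌋ : ℝ) / N := rfl

theorem measurable_rnd (N : ℕ) : Measurable (rnd N : E d → E d) := by
  unfold rnd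
  have h1 : Measurable (fun (y : E d) (i : Fin d) => (⌊y i * N⌋ : ℝ) / N) := by
    refine measurable_pi_lambda _ fun i => ?_
    have h2 : Measurable (fun y : E d => y i) := by fun_prop
    have h3 : Measurable (fun y : E d => ⌊y i * N⌋) := Int.measurable_floor.comp (h2.mul_const _)
    have h4 : Measurable (fun n : ℤ => (n : ℝ)) := measurable_from_top
    exact (h4.comp h3).div_const _
  exact (MeasurableEquiv.toLp 2 (Fin d → ℝ)).measurable.comp h1

theorem norm_rnd_sub_le (N : ℕ) (hN : 0 < N) (y : E d) : ‖rnd N y - y‖ ≤ Real.sqrt d / N := by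
  have hN' : (0 : ℝ) < N := by exact_mod_cast hN
  rw [EuclideanSpace.norm_eq]
  have h1 : ∀ i : Fin d, ‖(rnd N y - y) i‖ ^ 2 ≤ (1 / (N : ℝ)) ^ 2 := by
    intro i
    have e : (rnd N y - y) i = (⌊y i * N⌋ : ℝ) / N - y i := rfl
    rw [e, Real.norm_eq_abs, sq_abs]
    have h2 : (⌊y i * N⌋ : ℝ) ≤ y i * N := Int.floor_le _
    have h3 : y i * N < (⌊y i * N⌋ : ℝ) + 1 := Int.lt_floor_add_one _
    have h4 : (⌊y i * N⌋ : ℝ) / N - y i = ((⌊y i * N⌋ : ℝ) - y i * N) / N := by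
      field_simp
    rw [h4, div_pow, div_pow, one_pow]
    apply div_le_div_of_nonneg_right _ (by positivity)
    nlinarith
  have h2 : ∑ i : Fin d, ‖(rnd N y - y) i‖ ^ 2 ≤ d * (1 / (N : ℝ)) ^ 2 := by
    calc ∑ i : Fin d, ‖(rnd N y - y) i‖ ^ 2 ≤ ∑ _i : Fin d, (1 / (N : ℝ)) ^ 2 := Finset.sum_le_sum fun i _ => h1 i
      _ = d * (1 / (N : ℝ)) ^ 2 := by simp
  calc Real.sqrt (∑ i : Fin d, ‖(rnd N y - y) i‖ ^ 2) ≤ Real.sqrt (d * (1 / (N : ℝ)) ^ 2) :=
        Real.sqrt_le_sqrt h2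
    _ = Real.sqrt d / N := by
        rw [Real.sqrt_mul (by positivity), Real.sqrt_sq (by positivity)]
        ring

/-- finite range on bounded sets. -/
theorem rnd_finite (N : ℕ) (hN : 0 < N) (r : ℝ) :
    ∃ S : Finset (E d), ∀ y : E d, ‖y‖ ≤ r → rnd N y ∈ S := by
  classical
  have hN' : (0 : ℝ) < N := by exact_mod_cast hN
  -- integer box
  let B : Finset (Fin d → ℤ) := Fintype.piFinset fun _ => Finset.Icc ⌊-r * N⌋ ⌊r * N⌋
  let f : (Fin d → ℤ) → E d := fun k => (WithLp.equiv 2 (Fin d → ℝ)).symm fun i => (k i : ℝ) / N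
  refine ⟨B.image f, fun y hy => ?_⟩
  refine Finset.mem_image.mpr ⟨fun i => ⌊y i * N⌋, ?_, rfl⟩
  refine Fintype.mem_piFinset.mpr fun i => ?_
  have h1 : |y i| ≤ r := by
    have := EuclideanSpace.norm_eq y
    have h2 : ‖y i‖ ≤ ‖y‖ := PiLp.norm_apply_le y i
    rw [Real.norm_eq_abs] at h2
    exact h2.trans hy
  have h2 := abs_le.mp h1
  refine Finset.mem_Icc.mpr ⟨Int.floor_le_floor ?_, Int.floor_le_floor ?_⟩
  · nlinarith [h2.1]
  · nlinarith [h2.2]

end

end Crest.Agent.R082
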