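import Crest.Agent.S0109_Discrete
import Crest.Agent.S0109_Round

/-! Row 82 (S0109), module H (`S0109_Limit`): identification of a Monge-optimal map as the `L²`-limit
of the Laguerre maps of the rounded targets (`tendsto_lagMaps`). -/

set_option autoImplicit false
open MeasureTheory Set Filter Topology
open scoped ENNReal NNReal InnerProductSpace
open Crest.AnalysisR.OT

namespace Crest.Agent.R082


noncomputable section

/-! ### general measure theory -/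

theorem lim_subseq_ae {α : Type*} [MeasurableSpace α] (ρ : Measure α) (h : ℕ → α → ℝ)
    (hi : ∀ N, Integrable (h N) ρ) (hnn : ∀ N x, 0 ≤ h N x)
    (hlim : Tendsto (fun N => ∫ x, h N x ∂ρ) atTop (𝓝 0)) :
    ∃ ns : ℕ → ℕ, StrictMono ns ∧ ∀ᵐ x ∂ρ, Tendsto (fun k => h (ns k) x) atTop (𝓝 0) := by
  have h1 : Tendsto (fun n => eLpNorm (h n - fun _ => (0 : ℝ)) 1 ρ) atTop (𝓝 0) := by
    have e : ∀ n, eLpNorm (h n - fun _ => (0 : ℝ)) 1 ρ = ENNReal.ofReal (∫ x, h n x ∂ρ) := by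
      intro n
      rw [eLpNorm_one_eq_lintegral_enorm,
        ofReal_integral_eq_lintegral_ofReal (hi n) (Eventually.of_forall (hnn n))]
      apply lintegral_congr
      intro x
      simp only [Pi.sub_apply, sub_zero]
      exact Real.enorm_eq_ofReal (hnn n x)
    simp_rw [e]
    have := ENNReal.tendsto_ofReal hlim
    rwa [ENNReal.ofReal_zero] at this
  have h2 := tendstoInMeasure_of_tendsto_eLpNorm (by norm_num)
    (fun n => (hi n).aestronglyMeasurable) aestronglyMeasurable_const h1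
  exact h2.exists_seq_tendsto_ae

theorem lim_L2_norm_sq {α : Type*} [MeasurableSpace α] (ρ : Measure α) {V : Type*}
    [NormedAddCommGroup V] [InnerProductSpace ℝ V] (f : Lp V 2 ρ) :
    ‖f‖ ^ 2 = ∫ x, ‖f x‖ ^ 2 ∂ρ := by
  rw [← real_inner_self_eq_norm_sq, L2.inner_def]
  simp only [real_inner_self_eq_norm_sq]

theorem lim_L2_complete {α : Type*} [MeasurableSpace α] (ρ : Measure α) [IsFiniteMeasure ρ] {d : ℕ}
    (T : ℕ → α → E d) (hm : ∀ N, Measurable (T N)) (B : ℝ) (hB : ∀ N x, ‖T N x‖ ≤ B)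
    (b : ℕ → ℝ) (hb0 : Tendsto b atTop (𝓝 0))
    (hC : ∀ n m N, N ≤ n → N ≤ m → ∫ x, ‖T n x - T m x‖ ^ 2 ∂ρ ≤ b N) :
    ∃ Tinf : α → E d, Measurable Tinf ∧ MemLp Tinf 2 ρ ∧
      Tendsto (fun N => ∫ x, ‖T N x - Tinf x‖ ^ 2 ∂ρ) atTop (𝓝 0) ∧
      ∀ g : α → E d, MemLp g 2 ρ →
        Tendsto (fun N => ∫ x, ⟪g x, T N x⟫_ℝ ∂ρ) atTop (𝓝 (∫ x, ⟪g x, Tinf x⟫_ℝ ∂ρ)) := by
  have hmem : ∀ N, MemLp (T N) 2 ρ := fun N =>
    MemLp.of_bound (hm N).aestronglyMeasurable B (Eventually.of_forall (hB N))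
  set f : ℕ → Lp (E d) 2 ρ := fun N => (hmem N).toLp (T N) with hf
  have hsub : ∀ (N : ℕ) (g : Lp (E d) 2 ρ), ‖f N - g‖ ^ 2 = ∫ x, ‖T N x - g x‖ ^ 2 ∂ρ := by
    intro N g
    rw [lim_L2_norm_sq]
    apply integral_congr_ae
    filter_upwards [Lp.coeFn_sub (f N) g, (hmem N).coeFn_toLp] with x h1 h2
    rw [h1, Pi.sub_apply, h2]
  have hcau : CauchySeq f := by
    apply cauchySeq_of_le_tendsto_0 (fun N => Real.sqrt (b N))
    · intro n m N hn hm'
      rw [dist_eq_norm]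
      apply Real.le_sqrt_of_sq_le
      rw [hsub]
      refine le_trans (le_of_eq ?_) (hC n m N hn hm')
      apply integral_congr_ae
      filter_upwards [(hmem m).coeFn_toLp] with x h2
      rw [h2]
    · have := (Real.continuous_sqrt.tendsto 0).comp hb0
      rwa [Real.sqrt_zero] at this
  obtain ⟨finf, hfinf⟩ := cauchySeq_tendsto_of_complete hcau
  refine ⟨finf, (Lp.stronglyMeasurable finf).measurable, Lp.memLp finf, ?_, ?_⟩
  · have h1 := (tendsto_iff_norm_sub_tendsto_zero.1 hfinf).pow 2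
    simp only [hsub] at h1
    simpa using h1
  · intro g hg
    have h1 : Tendsto (fun N => ⟪hg.toLp g, f N⟫_ℝ) atTop (𝓝 ⟪hg.toLp g, finf⟫_ℝ) :=
      tendsto_const_nhds.inner hfinf
    have e1 : ∀ N, ⟪hg.toLp g, f N⟫_ℝ = ∫ x, ⟪g x, T N x⟫_ℝ ∂ρ := by
      intro N
      rw [L2.inner_def]
      apply integral_congr_ae
      filter_upwards [hg.coeFn_toLp, (hmem N).coeFn_toLp] with x h1 h2
      rw [h1, h2]
    have e2 : ⟪hg.toLp g, finf⟫_ℝ = ∫ x, ⟪g x, finf x⟫_ℝ ∂ρ := by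
      rw [L2.inner_def]
      apply integral_congr_ae
      filter_upwards [hg.coeFn_toLp] with x h1
      rw [h1]
    simp only [e1, e2] at h1
    exact h1

theorem lim_map_eq {d : ℕ} (ρ μ : Measure (E d)) [IsProbabilityMeasure ρ] [IsProbabilityMeasure μ]
    (T : ℕ → E d → E d) (Tinf : E d → E d) (hm : ∀ N, Measurable (T N)) (hminf : Measurable Tinf)
    (r : ℕ → E d → E d) (hr : ∀ N, Measurable (r N))
    (hrlim : ∀ y, Tendsto (fun N => r N y) atTop (𝓝 y))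
    (hmap : ∀ N, ρ.map (T N) = μ.map (r N)) (ns : ℕ → ℕ) (hns : StrictMono ns)
    (hae : ∀ᵐ x ∂ρ, Tendsto (fun k => T (ns k) x) atTop (𝓝 (Tinf x))) : ρ.map Tinf = μ := by
  have : IsFiniteMeasure (ρ.map Tinf) := Measure.isFiniteMeasure_map ρ Tinf
  apply ext_of_forall_integral_eq_of_IsFiniteMeasure
  intro f
  rw [integral_map hminf.aemeasurable f.continuous.aestronglyMeasurable]
  have l1 : Tendsto (fun k => ∫ x, f (T (ns k) x) ∂ρ) atTop (𝓝 (∫ x, f (Tinf x) ∂ρ)) := by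
    apply tendsto_integral_of_dominated_convergence (fun _ => ‖f‖)
    · intro k
      exact (f.continuous.measurable.comp (hm _)).aestronglyMeasurable
    · exact integrable_const _
    · intro k
      exact Eventually.of_forall fun x => f.norm_coe_le_norm _
    · filter_upwards [hae] with x hx
      exact (f.continuous.tendsto _).comp hx
  have l2 : Tendsto (fun N => ∫ y, f (r N y) ∂μ) atTop (𝓝 (∫ y, f y ∂μ)) := by
    apply tendsto_integral_of_dominated_convergence (fun _ => ‖f‖)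
    · intro k
      exact (f.continuous.measurable.comp (hr _)).aestronglyMeasurable
    · exact integrable_const _
    · intro k
      exact Eventually.of_forall fun x => f.norm_coe_le_norm _
    · exact Eventually.of_forall fun y => (f.continuous.tendsto _).comp (hrlim y)
  have e : ∀ N, ∫ x, f (T N x) ∂ρ = ∫ y, f (r N y) ∂μ := by
    intro N
    rw [← integral_map (hm N).aemeasurable f.continuous.aestronglyMeasurable, hmap,
      integral_map (hr N).aemeasurable f.continuous.aestronglyMeasurable]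
  exact tendsto_nhds_unique l1 ((l2.comp hns.tendsto_atTop).congr (fun k => (e _).symm))

theorem lim_ae_norm_le {d : ℕ} (ρ μ : Measure (E d)) (D : ℝ)
    (hμ : μ (Metric.closedBall 0 D)ᶜ = 0) (S : E d → E d) (hS : Measurable S) (h : ρ.map S = μ) :
    ∀ᵐ x ∂ρ, ‖S x‖ ≤ D := by
  rw [← h, Measure.map_apply hS Metric.isClosed_closedBall.measurableSet.compl] at hμ
  rw [ae_iff]
  convert hμ using 2
  ext x
  simp

theorem lim_cost_real {d : ℕ} (ρ : Measure (E d)) [IsProbabilityMeasure ρ] (R' D : ℝ)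
    (hρ : ∀ᵐ x ∂ρ, ‖x‖ ≤ R') (S : E d → E d) (hS : Measurable S) (hb : ∀ᵐ x ∂ρ, ‖S x‖ ≤ D) :
    Integrable (fun x : E d => ‖x - S x‖ ^ 2) ρ ∧ ∫ x, ‖x - S x‖ ^ 2 ∂ρ
      = ∫ x, ‖x‖ ^ 2 ∂ρ - 2 * ∫ x, ⟪x, S x⟫_ℝ ∂ρ + ∫ x, ‖S x‖ ^ 2 ∂ρ := by
  have i1 : Integrable (fun x : E d => ‖x‖ ^ 2) ρ := by
    apply Integrable.of_bound (by fun_prop) (R' ^ 2)
    filter_upwards [hρ] with x hx
    rw [Real.norm_eq_abs, abs_of_nonneg (sq_nonneg _)]
    exact pow_le_pow_left₀ (norm_nonneg _) hx 2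
  have i2 : Integrable (fun x : E d => ⟪x, S x⟫_ℝ) ρ := by
    apply Integrable.of_bound (measurable_id.inner hS).aestronglyMeasurable (R' * D)
    filter_upwards [hρ, hb] with x hx hx2
    rw [Real.norm_eq_abs]
    exact (abs_real_inner_le_norm _ _).trans
      (mul_le_mul hx hx2 (norm_nonneg _) ((norm_nonneg _).trans hx))
  have i3 : Integrable (fun x : E d => ‖S x‖ ^ 2) ρ := by
    apply Integrable.of_bound (hS.norm.pow_const 2).aestronglyMeasurable (D ^ 2)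
    filter_upwards [hb] with x hx
    rw [Real.norm_eq_abs, abs_of_nonneg (sq_nonneg _)]
    exact pow_le_pow_left₀ (norm_nonneg _) hx 2
  have e : ∀ x, ‖x - S x‖ ^ 2 = ‖x‖ ^ 2 - 2 * ⟪x, S x⟫_ℝ + ‖S x‖ ^ 2 := fun x =>
    norm_sub_sq_real _ _
  have i5 : Integrable (fun x : E d => ‖x‖ ^ 2 - 2 * ⟪x, S x⟫_ℝ) ρ := i1.sub (i2.const_mul 2)
  constructor
  · simp_rw [e]
    exact i5.add i3
  · simp_rw [e]
    rw [integral_add i5 i3, integral_sub i1 (i2.const_mul 2), integral_const_mul]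

theorem lim_cost_eq {d : ℕ} (ρ : Measure (E d)) [IsProbabilityMeasure ρ] (R' D : ℝ)
    (hρ : ∀ᵐ x ∂ρ, ‖x‖ ≤ R') (S : E d → E d) (hS : Measurable S) (hb : ∀ᵐ x ∂ρ, ‖S x‖ ≤ D) :
    ∫⁻ x, ‖x - S x‖ₑ ^ 2 ∂ρ = ENNReal.ofReal
      (∫ x, ‖x‖ ^ 2 ∂ρ - 2 * ∫ x, ⟪x, S x⟫_ℝ ∂ρ + ∫ x, ‖S x‖ ^ 2 ∂ρ) := by
  obtain ⟨i4, e2⟩ := lim_cost_real ρ R' D hρ S hS hb
  rw [← e2, ofReal_integral_eq_lintegral_ofReal i4 (Eventually.of_forall fun x => sq_nonneg _)]
  apply lintegral_congr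
  intro x
  rw [ENNReal.ofReal_pow (norm_nonneg _), ofReal_norm]

theorem lim_corr_le {d : ℕ} (ρ μ : Measure (E d)) [IsProbabilityMeasure ρ] (R' D : ℝ)
    (hρ : ∀ᵐ x ∂ρ, ‖x‖ ≤ R') (S1 S2 : E d → E d) (hS1 : Measurable S1) (hS2 : Measurable S2)
    (h1 : ρ.map S1 = μ) (h2 : ρ.map S2 = μ)
    (hb1 : ∀ᵐ x ∂ρ, ‖S1 x‖ ≤ D) (hb2 : ∀ᵐ x ∂ρ, ‖S2 x‖ ≤ D)
    (hle : ∫⁻ x, ‖x - S1 x‖ₑ ^ 2 ∂ρ ≤ ∫⁻ x, ‖x - S2 x‖ₑ ^ 2 ∂ρ) :
    ∫ x, ⟪x, S2 x⟫_ℝ ∂ρ ≤ ∫ x, ⟪x, S1 x⟫_ℝ ∂ρ := by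
  have hsq : ∫ x, ‖S1 x‖ ^ 2 ∂ρ = ∫ x, ‖S2 x‖ ^ 2 ∂ρ := by
    have m : AEStronglyMeasurable (fun y : E d => ‖y‖ ^ 2) μ := by fun_prop
    rw [← integral_map (f := fun y : E d => ‖y‖ ^ 2) hS1.aemeasurable (by rw [h1]; exact m),
      ← integral_map (f := fun y : E d => ‖y‖ ^ 2) hS2.aemeasurable (by rw [h2]; exact m), h1, h2]
  rw [lim_cost_eq ρ R' D hρ S1 hS1 hb1, lim_cost_eq ρ R' D hρ S2 hS2 hb2] at hle
  have hnn : 0 ≤ ∫ x, ‖x‖ ^ 2 ∂ρ - 2 * ∫ x, ⟪x, S2 x⟫_ℝ ∂ρ + ∫ x, ‖S2 x‖ ^ 2 ∂ρ := by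
    rw [← (lim_cost_real ρ R' D hρ S2 hS2 hb2).2]
    exact integral_nonneg fun x => sq_nonneg _
  have := (ENNReal.ofReal_le_ofReal_iff hnn).1 hle
  linarith

theorem lim_ultralimit (U : Ultrafilter ℕ) (a : ℕ → ℝ) (M : ℝ) (h : ∀ N, |a N| ≤ M) :
    ∃ l, Tendsto a U (𝓝 l) := by
  obtain ⟨l, _, hl⟩ := (isCompact_Icc (a := -M) (b := M)).ultrafilter_le_nhds (U.map a) (by
    rw [le_principal_iff]
    apply Filter.mem_map.2
    convert Filter.univ_mem
    ext N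
    simp only [mem_preimage, mem_Icc, mem_univ, iff_true]
    exact abs_le.1 (h N))
  exact ⟨l, hl⟩

theorem lim_tendsto_aux {d : ℕ} {K : Set (E d)} {x0 : E d} {R : ℝ} (hK : Body K x0 R) (D : ℝ)
    (μ : Measure (E d)) [IsProbabilityMeasure μ] (hμ : μ (Metric.closedBall 0 D)ᶜ = 0)
    (T : E d → E d) (hT : IsOptimalMap (uniformProbOn K) μ T)
    (D' : ℝ) (hD' : D' = D + Real.sqrt d)
    (L : ∀ N : ℕ, LagData K (μ.map (rnd (N + 1))) D') :
    Tendsto (fun N => ∫ x, ‖(L N).T x - T x‖ ^ 2 ∂(uniformProbOn K)) atTop (𝓝 0) := by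
  set ρ := uniformProbOn K with hρdef
  have hsrc := source_uniform hK
  have : IsProbabilityMeasure ρ := hsrc.prob
  obtain ⟨hTm, hTmap, hTopt⟩ := hT
  have hsd : 0 ≤ Real.sqrt d := Real.sqrt_nonneg _
  -- basic bounds
  have hTN : ∀ N x, ‖(L N).T x‖ ≤ D' := by
    intro N x
    obtain ⟨i, _, hi⟩ := (L N).Tcell x
    rw [hi]; exact (L N).bound i
  have hD'0 : 0 ≤ D' := (norm_nonneg _).trans (hTN 0 0)
  have hR : 0 ≤ R := by
    have := hK.sub hK.mem
    rwa [Metric.mem_closedBall, dist_self] at this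
  have hKae : ∀ᵐ x ∂ρ, x ∈ K := by
    rw [ae_iff]; exact hsrc.supp
  set R' := ‖x0‖ + R with hR'
  have hKn : ∀ x ∈ K, ‖x‖ ≤ R' := by
    intro x hx
    have := hK.sub hx
    rw [Metric.mem_closedBall, dist_eq_norm] at this
    calc ‖x‖ = ‖x0 + (x - x0)‖ := by congr 1; abel
      _ ≤ ‖x0‖ + ‖x - x0‖ := norm_add_le _ _
      _ ≤ R' := by rw [hR']; linarith
  have hR'0 : 0 ≤ R' := by positivity
  have hρn : ∀ᵐ x ∂ρ, ‖x‖ ≤ R' := hKae.mono hKn
  -- rounding
  set r : ℕ → E d → E d := fun N => rnd (N + 1) with hr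
  have hrm : ∀ N, Measurable (r N) := fun N => measurable_rnd _
  set δ : ℕ → ℝ := fun N => Real.sqrt d * (1 / ((N : ℝ) + 1)) with hδ
  have hδ0 : Tendsto δ atTop (𝓝 0) := by
    have := (tendsto_one_div_add_atTop_nhds_zero_nat (𝕜 := ℝ)).const_mul (Real.sqrt d)
    rwa [mul_zero] at this
  have hδnn : ∀ N, 0 ≤ δ N := fun N => by rw [hδ]; positivity
  have hδle : ∀ N, δ N ≤ Real.sqrt d := by
    intro N
    rw [hδ]
    have : 1 / ((N : ℝ) + 1) ≤ 1 := by
      rw [div_le_one (by positivity)]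
      have : (0 : ℝ) ≤ N := Nat.cast_nonneg N
      linarith
    calc Real.sqrt d * (1 / ((N : ℝ) + 1)) ≤ Real.sqrt d * 1 := by gcongr
      _ = _ := mul_one _
  have hδanti : ∀ N n, N ≤ n → δ n ≤ δ N := by
    intro N n hn
    rw [hδ]
    have : (N : ℝ) ≤ n := Nat.cast_le.2 hn
    dsimp only
    gcongr
  have hrd : ∀ N y, ‖r N y - y‖ ≤ δ N := by
    intro N y
    have := norm_rnd_sub_le (N + 1) (Nat.succ_pos N) y
    rw [hδ]
    simp only [hr]
    push_cast at this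
    rw [mul_one_div]
    exact this
  have hrlim : ∀ y, Tendsto (fun N => r N y) atTop (𝓝 y) := by
    intro y
    rw [tendsto_iff_norm_sub_tendsto_zero]
    exact squeeze_zero (fun N => norm_nonneg _) (fun N => hrd N y) hδ0
  -- Cauchy
  obtain ⟨C, hC0, hC⟩ := discrete_thm hK D' hD'0
  set b : ℕ → ℝ := fun N => C * ((2 * δ N) ^ 2) ^ (1 / 3 : ℝ) with hb
  have hb0 : Tendsto b atTop (𝓝 0) := by
    have h1 : Tendsto (fun N => (2 * δ N) ^ 2) atTop (𝓝 0) := by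
      have := (hδ0.const_mul 2).pow 2
      simpa using this
    have h2 := ((Real.continuousAt_rpow_const 0 (1 / 3 : ℝ) (Or.inr (by norm_num))).tendsto.comp
      h1).const_mul C
    rw [Real.zero_rpow (by norm_num), mul_zero] at h2
    exact h2
  have hcau : ∀ n m N, N ≤ n → N ≤ m →
      ∫ x, ‖(L n).T x - (L m).T x‖ ^ 2 ∂ρ ≤ b N := by
    intro n m N hn hm
    have hpm : Measurable (fun y => (r n y, r m y)) := (hrm n).prodMk (hrm m)
    have hcpl : IsPairCoupling (μ.map (rnd (n + 1))) (μ.map (rnd (m + 1)))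
        (μ.map (fun y => (r n y, r m y))) := by
      constructor
      · rw [Measure.map_map measurable_fst hpm]; rfl
      · rw [Measure.map_map measurable_snd hpm]; rfl
    refine (hC _ _ (L n) (L m) _ hcpl).trans ?_
    rw [hb]
    dsimp only
    gcongr
    rw [integral_map hpm.aemeasurable (by fun_prop)]
    have hpt : ∀ y, ‖r n y - r m y‖ ^ 2 ≤ (2 * δ N) ^ 2 := by
      intro y
      apply pow_le_pow_left₀ (norm_nonneg _)
      calc ‖r n y - r m y‖ = ‖(r n y - y) - (r m y - y)‖ := by congr 1; abel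
        _ ≤ ‖r n y - y‖ + ‖r m y - y‖ := norm_sub_le _ _
        _ ≤ δ n + δ m := add_le_add (hrd n y) (hrd m y)
        _ ≤ 2 * δ N := by linarith [hδanti N n hn, hδanti N m hm]
    calc ∫ y, ‖r n y - r m y‖ ^ 2 ∂μ ≤ ∫ _y, (2 * δ N) ^ 2 ∂μ := by
          apply integral_mono_of_nonneg (Eventually.of_forall fun y => sq_nonneg _)
            (integrable_const _) (Eventually.of_forall hpt)
      _ = (2 * δ N) ^ 2 := by simp
  obtain ⟨Tinf, hTinfm, hTinfL2, hlim2, hinner⟩ :=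
    lim_L2_complete ρ (fun N => (L N).T) (fun N => (L N).Tmeas) D' hTN b hb0 hcau
  have hmemN : ∀ N, MemLp (L N).T 2 ρ := fun N =>
    MemLp.of_bound (L N).Tmeas.aestronglyMeasurable D' (Eventually.of_forall (hTN N))
  have hi1 : ∀ N, Integrable (fun x => ‖(L N).T x - Tinf x‖ ^ 2) ρ := fun N =>
    (memLp_two_iff_integrable_sq_norm ((L N).Tmeas.sub hTinfm).aestronglyMeasurable).1
      ((hmemN N).sub hTinfL2)
  have norm_of_sq : ∀ (F : Filter ℕ) (x : E d),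
      Tendsto (fun N => ‖(L N).T x - Tinf x‖ ^ 2) F (𝓝 0) →
      Tendsto (fun N => (L N).T x) F (𝓝 (Tinf x)) := by
    intro F x hx
    rw [tendsto_iff_norm_sub_tendsto_zero]
    have := (Real.continuous_sqrt.tendsto 0).comp hx
    rw [Real.sqrt_zero] at this
    refine this.congr fun N => ?_
    simp only [Function.comp]
    exact Real.sqrt_sq (norm_nonneg _)
  -- the limit pushes `ρ` to `μ`
  have hmapinf : ρ.map Tinf = μ := by
    obtain ⟨ns, hns, hae⟩ := lim_subseq_ae ρ _ hi1 (fun N x => sq_nonneg _) hlim2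
    apply lim_map_eq ρ μ (fun N => (L N).T) Tinf (fun N => (L N).Tmeas) hTinfm r hrm hrlim
      (fun N => lagData_map hK (L N)) ns hns
    filter_upwards [hae] with x hx
    have h1 : Tendsto (fun N => ‖(L N).T x - Tinf x‖ ^ 2) (map ns atTop) (𝓝 0) :=
      tendsto_map'_iff.2 hx
    exact tendsto_map'_iff.1 (norm_of_sq _ x h1)
  have hbT : ∀ᵐ x ∂ρ, ‖T x‖ ≤ D := lim_ae_norm_le ρ μ D hμ T hTm hTmap
  have hbTinf : ∀ᵐ x ∂ρ, ‖Tinf x‖ ≤ D := lim_ae_norm_le ρ μ D hμ Tinf hTinfm hmapinf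
  have hcorr : ∫ x, ⟪x, Tinf x⟫_ℝ ∂ρ ≤ ∫ x, ⟪x, T x⟫_ℝ ∂ρ :=
    lim_corr_le ρ μ R' D hρn T Tinf hTm hTinfm hTmap hmapinf hbT hbTinf
      (hTopt Tinf hTinfm hmapinf)
  -- gaps
  have hgap := fun N => lagData_gap hK (L N) (fun x => r N (T x)) ((hrm N).comp hTm) (by
    rw [← hTmap, Measure.map_map (hrm N) hTm]; rfl)
  choose e hem henn hei heint hesub using hgap
  have l1 : Tendsto (fun N => ∫ x, ⟪x, (L N).T x⟫_ℝ ∂ρ) atTop (𝓝 (∫ x, ⟪x, Tinf x⟫_ℝ ∂ρ)) :=
    hinner (fun x => x) (MemLp.of_bound measurable_id.aestronglyMeasurable R' hρn)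
  have l2 : Tendsto (fun N => ∫ x, ⟪x, r N (T x)⟫_ℝ ∂ρ) atTop (𝓝 (∫ x, ⟪x, T x⟫_ℝ ∂ρ)) := by
    apply tendsto_integral_of_dominated_convergence (fun _ => R' * D')
    · intro N
      exact (measurable_id.inner ((hrm N).comp hTm)).aestronglyMeasurable
    · exact integrable_const _
    · intro N
      filter_upwards [hρn, hbT] with x hx1 hx2
      rw [Real.norm_eq_abs]
      refine (abs_real_inner_le_norm _ _).trans (mul_le_mul hx1 ?_ (norm_nonneg _) hR'0)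
      calc ‖r N (T x)‖ = ‖T x + (r N (T x) - T x)‖ := by congr 1; abel
        _ ≤ ‖T x‖ + ‖r N (T x) - T x‖ := norm_add_le _ _
        _ ≤ D + Real.sqrt d := add_le_add hx2 ((hrd N _).trans (hδle N))
        _ = D' := hD'.symm
    · exact Eventually.of_forall fun x => tendsto_const_nhds.inner (hrlim (T x))
  have l3 : Tendsto (fun N => ∫ x, e N x ∂ρ) atTop
      (𝓝 (∫ x, ⟪x, Tinf x⟫_ℝ ∂ρ - ∫ x, ⟪x, T x⟫_ℝ ∂ρ)) := by
    exact (l1.sub l2).congr fun N => (heint N).symm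
  have hzero : ∫ x, ⟪x, Tinf x⟫_ℝ ∂ρ - ∫ x, ⟪x, T x⟫_ℝ ∂ρ = 0 := by
    have : 0 ≤ ∫ x, ⟪x, Tinf x⟫_ℝ ∂ρ - ∫ x, ⟪x, T x⟫_ℝ ∂ρ :=
      ge_of_tendsto' l3 fun N => integral_nonneg (henn N)
    linarith
  rw [hzero] at l3
  -- common subsequence
  have hi2 : ∀ N, Integrable (fun x => ‖(L N).T x - Tinf x‖ ^ 2 + e N x) ρ := fun N =>
    (hi1 N).add (hei N)
  have l4 : Tendsto (fun N => ∫ x, (‖(L N).T x - Tinf x‖ ^ 2 + e N x) ∂ρ) atTop (𝓝 0) := by
    have := hlim2.add l3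
    rw [add_zero] at this
    refine this.congr fun N => ?_
    rw [integral_add (hi1 N) (hei N)]
  obtain ⟨ns, hns, hae⟩ := lim_subseq_ae ρ _ hi2
    (fun N x => add_nonneg (sq_nonneg _) (henn N x)) l4
  -- ultrafilter limit of the potentials
  set U : Ultrafilter ℕ := Ultrafilter.of (map ns atTop) with hUdef
  have hU : (U : Filter ℕ) ≤ map ns atTop := Ultrafilter.of_le _
  have hUat : (U : Filter ℕ) ≤ atTop := hU.trans hns.tendsto_atTop
  have hlipN : ∀ N x z, |(L N).φ x - (L N).φ z| ≤ D' * ‖x - z‖ := by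
    intro N x z
    have := (lipschitz_lag (L N).p (L N).c (Real.toNNReal D') (fun i => by
      rw [Real.coe_toNNReal _ hD'0]; exact (L N).bound i)).dist_le_mul x z
    rw [Real.dist_eq, dist_eq_norm, Real.coe_toNNReal _ hD'0] at this
    exact this
  set ψ : ℕ → E d → ℝ := fun N x => (L N).φ x - (L N).φ x0 with hψ
  have hex := fun x => lim_ultralimit U (fun N => ψ N x) (D' * ‖x - x0‖) (fun N => hlipN N x x0)
  choose φ hφ using hex
  have hconv : ConvexOn ℝ K φ := by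
    refine ⟨hK.convex, ?_⟩
    intro x _ z _ a c ha hc hac
    refine le_of_tendsto_of_tendsto' (hφ (a • x + c • z))
      (((hφ x).const_mul a).add ((hφ z).const_mul c)) fun N => ?_
    have := (convexOn_lag (L N).p (L N).c).2 (mem_univ x) (mem_univ z) ha hc hac
    simp only [smul_eq_mul] at this
    simp only [hψ, LagData.φ]
    have e1 : lag (L N).p (L N).c x0 = a * lag (L N).p (L N).c x0 + c * lag (L N).p (L N).c x0 := by
      rw [← add_mul, hac, one_mul]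
    linarith
  have hlip : ∀ x ∈ K, ∀ z ∈ K, |φ x - φ z| ≤ D' * ‖x - z‖ := by
    intro x _ z _
    refine le_of_tendsto' ((hφ x).sub (hφ z)).abs fun N => ?_
    simp only [hψ]
    have := hlipN N x z
    rwa [sub_sub_sub_cancel_right]
  have hne : (volume K)⁻¹ ≠ 0 := ENNReal.inv_ne_zero.2 hK.compact.measure_lt_top.ne
  have transfer : ∀ p : E d → Prop, (∀ᵐ x ∂ρ, p x) ↔ ∀ᵐ x ∂(volume.restrict K), p x := by
    intro p
    rw [hρdef]
    unfold uniformProbOn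
    exact Measure.ae_ennreal_smul_measure_iff hne
  have hsub : ∀ᵐ x ∂ρ, (∀ x' ∈ K, φ x + ⟪Tinf x, x' - x⟫_ℝ ≤ φ x') ∧
      (∀ x' ∈ K, φ x + ⟪T x, x' - x⟫_ℝ ≤ φ x') := by
    filter_upwards [hae, ae_all_iff.2 hesub] with x hx1 hx2
    have hUh : Tendsto (fun N => ‖(L N).T x - Tinf x‖ ^ 2 + e N x) U (𝓝 0) :=
      (tendsto_map'_iff.2 hx1).mono_left hU
    have ha : Tendsto (fun N => ‖(L N).T x - Tinf x‖ ^ 2) U (𝓝 0) :=
      squeeze_zero (fun N => sq_nonneg _) (fun N => le_add_of_nonneg_right (henn N x)) hUh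
    have he : Tendsto (fun N => e N x) U (𝓝 0) :=
      squeeze_zero (fun N => henn N x) (fun N => le_add_of_nonneg_left (sq_nonneg _)) hUh
    have hTx := norm_of_sq U x ha
    constructor
    · intro x' _
      refine le_of_tendsto_of_tendsto' ((hφ x).add (hTx.inner tendsto_const_nhds)) (hφ x')
        fun N => ?_
      have := lagData_subgrad (L N) x x'
      simp only [hψ]
      linarith
    · intro x' _
      have h3 := ((hφ x).add (((hrlim (T x)).mono_left hUat).inner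
        (tendsto_const_nhds (x := x' - x)))).sub he
      rw [sub_zero] at h3
      refine le_of_tendsto_of_tendsto' h3 (hφ x') fun N => ?_
      have := hx2 N x'
      simp only [hψ]
      linarith
  obtain ⟨C2, _, hgn⟩ := gn d R D' hR hD'0
  have hDD' : D ≤ D' := by rw [hD']; linarith
  have key := hgn K x0 hK φ φ T Tinf hconv hconv hlip hlip hTm hTinfm
    ((transfer _).1 (hbT.mono fun x hx => hx.trans hDD'))
    ((transfer _).1 (hbTinf.mono fun x hx => hx.trans hDD'))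
    ((transfer _).1 (hsub.mono fun x hx => hx.2)) ((transfer _).1 (hsub.mono fun x hx => hx.1))
  simp only [sub_self, ne_eq, OfNat.ofNat_ne_zero, not_false_eq_true, zero_pow, integral_zero]
    at key
  rw [Real.zero_rpow (by norm_num), mul_zero] at key
  have hint : IntegrableOn (fun x => ‖Tinf x - T x‖ ^ 2) K := by
    apply Measure.integrableOn_of_bounded (M := (2 * D') ^ 2) hK.compact.measure_lt_top.ne
      ((hTinfm.sub hTm).norm.pow_const 2).aestronglyMeasurable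
    filter_upwards [(transfer _).1 hbT, (transfer _).1 hbTinf] with x h1 h2
    rw [Real.norm_eq_abs, abs_of_nonneg (sq_nonneg _)]
    apply pow_le_pow_left₀ (norm_nonneg _)
    calc ‖(Tinf - T) x‖ ≤ ‖Tinf x‖ + ‖T x‖ := norm_sub_le _ _
      _ ≤ 2 * D' := by linarith
  have hz : ∫ x in K, ‖Tinf x - T x‖ ^ 2 = 0 :=
    le_antisymm key (integral_nonneg fun x => sq_nonneg _)
  rw [integral_eq_zero_iff_of_nonneg (fun x => sq_nonneg _) hint] at hz
  have heq : ∀ᵐ x ∂ρ, Tinf x = T x := by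
    rw [transfer]
    filter_upwards [hz] with x hx
    simp only [Pi.zero_apply, ne_eq, OfNat.ofNat_ne_zero, not_false_eq_true, pow_eq_zero_iff,
      norm_eq_zero] at hx
    exact sub_eq_zero.1 hx
  refine hlim2.congr fun N => ?_
  apply integral_congr_ae
  filter_upwards [heq] with x hx
  rw [hx]

/-- **Module H** (`Plan.tendsto_lagMaps`). -/
theorem tendsto_lagMaps {d : ℕ} {K : Set (E d)} {x0 : E d} {R : ℝ} (hK : Body K x0 R) (D : ℝ)
    (μ : Measure (E d)) [IsProbabilityMeasure μ] (hμ : μ (Metric.closedBall 0 D)ᶜ = 0)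
    (T : E d → E d) (hT : IsOptimalMap (uniformProbOn K) μ T)
    (L : ∀ N : ℕ, LagData K (μ.map (rnd (N + 1))) (D + Real.sqrt d)) :
    Tendsto (fun N => ∫ x, ‖(L N).T x - T x‖ ^ 2 ∂(uniformProbOn K)) atTop (𝓝 0) :=
  lim_tendsto_aux hK D μ hμ T hT _ rfl L

end

end Crest.Agent.R082
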