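import Crest.Statements.S0110
-- import your own Crest.Agent.* helpers here

set_option autoImplicit false
open MeasureTheory
open scoped ENNReal NNReal
open Crest.AnalysisR.OT
open Crest Crest.AnalysisR Crest.AnalysisR.OT

namespace Crest.Agent.S0110

section abstract
variable {E : Type*} [NormedAddCommGroup E] [InnerProductSpace ℝ E] [MeasurableSpace E] [BorelSpace E]
  [SecondCountableTopology E]

/-- pointwise identity -/
theorem key_id (x a b : E) :
    ‖x - b‖ ^ 2 + ‖a‖ ^ 2 = ‖x - a‖ ^ 2 + ‖b‖ ^ 2 + 2 * (inner ℝ x a - inner ℝ x b) := by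
  rw [norm_sub_sq_real, norm_sub_sq_real]; ring

theorem key_id_enn (x a b : E) (h : inner ℝ x b ≤ inner ℝ x a) :
    ‖x - b‖ₑ ^ 2 + ‖a‖ₑ ^ 2 = ‖x - a‖ₑ ^ 2 + ‖b‖ₑ ^ 2
      + ENNReal.ofReal (2 * (inner ℝ x a - inner ℝ x b)) := by
  have e : ∀ v : E, ‖v‖ₑ ^ 2 = ENNReal.ofReal (‖v‖ ^ 2) := by
    intro v
    rw [← ofReal_norm, ENNReal.ofReal_pow (norm_nonneg _)]
  rw [e, e, e, e, ← ENNReal.ofReal_add (by positivity) (by positivity),
    ← ENNReal.ofReal_add (by positivity) (by positivity),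
    ← ENNReal.ofReal_add (by positivity) (by linarith), key_id]

variable (ρ : Measure E) [IsProbabilityMeasure ρ] (R : ℝ) (F : Set E) (T : E → E)

theorem lint_sq_map_eq {S T : E → E} (hS : Measurable S) (hT : Measurable T)
    (h : ρ.map S = ρ.map T) : ∫⁻ x, ‖S x‖ₑ ^ 2 ∂ρ = ∫⁻ x, ‖T x‖ₑ ^ 2 ∂ρ := by
  have m : Measurable (fun y : E => ‖y‖ₑ ^ 2) := by fun_prop
  rw [← lintegral_map m hS, ← lintegral_map m hT, h]

theorem lint_bdd_ne_top {f : E → E} (R : ℝ) (h : ∀ᵐ x ∂ρ, ‖f x‖ ≤ R) :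
    ∫⁻ x, ‖f x‖ₑ ^ 2 ∂ρ ≠ ⊤ := by
  have : ∫⁻ x, ‖f x‖ₑ ^ 2 ∂ρ ≤ ∫⁻ _, ENNReal.ofReal (R ^ 2) ∂ρ := by
    apply lintegral_mono_ae
    filter_upwards [h] with x hx
    rw [← ofReal_norm, ← ENNReal.ofReal_pow (norm_nonneg _)]
    apply ENNReal.ofReal_le_ofReal
    gcongr
  refine ne_top_of_le_ne_top ?_ this
  simp

theorem ae_mem_of_map_eq {S : E → E} (hS : Measurable S) (hT : Measurable T)
    (hF : MeasurableSet F) (hTF : ∀ x, T x ∈ F) (h : ρ.map S = ρ.map T) :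
    ∀ᵐ x ∂ρ, S x ∈ F := by
  have h1 : (ρ.map T) Fᶜ = 0 := by
    rw [Measure.map_apply hT hF.compl]
    have : T ⁻¹' Fᶜ = ∅ := by
      ext x; simp [hTF x]
    rw [this]; simp
  rw [← h, Measure.map_apply hS hF.compl] at h1
  rw [ae_iff]
  exact h1

/-- The basic identity between costs. -/
theorem cost_identity {S : E → E} (hS : Measurable S) (hT : Measurable T)
    (hF : MeasurableSet F) (hTF : ∀ x, T x ∈ F)
    (hopt : ∀ᵐ x ∂ρ, ∀ y ∈ F, inner ℝ x y ≤ inner ℝ x (T x))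
    (h : ρ.map S = ρ.map T) :
    ∫⁻ x, ‖x - S x‖ₑ ^ 2 ∂ρ + ∫⁻ x, ‖T x‖ₑ ^ 2 ∂ρ =
      ∫⁻ x, ‖x - T x‖ₑ ^ 2 ∂ρ + ∫⁻ x, ‖T x‖ₑ ^ 2 ∂ρ +
        ∫⁻ x, ENNReal.ofReal (2 * (inner ℝ x (T x) - inner ℝ x (S x))) ∂ρ := by
  have hSF := ae_mem_of_map_eq ρ F T hS hT hF hTF h
  have m1 : Measurable (fun x => ‖x - S x‖ₑ ^ 2) := by fun_prop
  have m2 : Measurable (fun x => ‖x - T x‖ₑ ^ 2) := by fun_prop
  have m3 : Measurable (fun x => ‖S x‖ₑ ^ 2) := by fun_prop
  have m4 : Measurable (fun x => ‖T x‖ₑ ^ 2) := by fun_prop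
  have m5 : Measurable (fun x => ‖x - T x‖ₑ ^ 2 + ‖S x‖ₑ ^ 2) := m2.add m3
  conv_rhs => rw [← lint_sq_map_eq ρ hS hT h]
  rw [← lintegral_add_left m1, ← lintegral_add_left m2, ← lintegral_add_left m5]
  apply lintegral_congr_ae
  filter_upwards [hopt, hSF] with x hx hxS
  exact key_id_enn x (T x) (S x) (hx _ hxS)

theorem optimal_of_max (hT : Measurable T)
    (hF : MeasurableSet F) (hTF : ∀ x, T x ∈ F) (hFb : ∀ y ∈ F, ‖y‖ ≤ R)
    (hopt : ∀ᵐ x ∂ρ, ∀ y ∈ F, inner ℝ x y ≤ inner ℝ x (T x)) :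
    IsOptimalMap ρ (ρ.map T) T := by
  refine ⟨hT, rfl, ?_⟩
  intro S hS h
  have hid := cost_identity ρ F T hS hT hF hTF hopt h
  have hfin : ∫⁻ x, ‖T x‖ₑ ^ 2 ∂ρ ≠ ⊤ :=
    lint_bdd_ne_top ρ R (Filter.Eventually.of_forall fun x => hFb _ (hTF x))
  have : ∫⁻ x, ‖x - T x‖ₑ ^ 2 ∂ρ + ∫⁻ x, ‖T x‖ₑ ^ 2 ∂ρ ≤
      ∫⁻ x, ‖x - S x‖ₑ ^ 2 ∂ρ + ∫⁻ x, ‖T x‖ₑ ^ 2 ∂ρ := by
    rw [hid]; exact le_self_add
  exact (ENNReal.add_le_add_iff_right hfin).1 this

theorem unique_of_strict_max (hT : Measurable T)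
    (hF : MeasurableSet F) (hTF : ∀ x, T x ∈ F) (hFb : ∀ y ∈ F, ‖y‖ ≤ R)
    (hρ : ∀ᵐ x ∂ρ, ‖x‖ ≤ R)
    (hopt : ∀ᵐ x ∂ρ, ∀ y ∈ F, y ≠ T x → inner ℝ x y < inner ℝ x (T x))
    {S : E → E} (hS : IsOptimalMap ρ (ρ.map T) S) :
    S =ᵐ[ρ] T := by
  obtain ⟨hSm, hSmap, hSopt⟩ := hS
  have hopt' : ∀ᵐ x ∂ρ, ∀ y ∈ F, inner ℝ x y ≤ inner ℝ x (T x) := by
    filter_upwards [hopt] with x hx y hy
    by_cases hyT : y = T x
    · rw [hyT]
    · exact (hx y hy hyT).le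
  have hid := cost_identity ρ F T hSm hT hF hTF hopt' hSmap
  have hle := hSopt T hT rfl
  have hfin : ∫⁻ x, ‖T x‖ₑ ^ 2 ∂ρ ≠ ⊤ :=
    lint_bdd_ne_top ρ R (Filter.Eventually.of_forall fun x => hFb _ (hTF x))
  have hfin2 : ∫⁻ x, ‖x - T x‖ₑ ^ 2 ∂ρ ≠ ⊤ := by
    apply lint_bdd_ne_top ρ (f := fun x => x - T x) (R + R)
    filter_upwards [hρ] with x hx
    exact (norm_sub_le _ _).trans (add_le_add hx (hFb _ (hTF x)))
  have hz : ∫⁻ x, ENNReal.ofReal (2 * (inner ℝ x (T x) - inner ℝ x (S x))) ∂ρ = 0 := by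
    have h1 : ∫⁻ x, ‖x - T x‖ₑ ^ 2 ∂ρ + ∫⁻ x, ‖T x‖ₑ ^ 2 ∂ρ +
        ∫⁻ x, ENNReal.ofReal (2 * (inner ℝ x (T x) - inner ℝ x (S x))) ∂ρ ≤
        ∫⁻ x, ‖x - T x‖ₑ ^ 2 ∂ρ + ∫⁻ x, ‖T x‖ₑ ^ 2 ∂ρ + 0 := by
      rw [← hid, add_zero]
      gcongr
    have h2 := (ENNReal.add_le_add_iff_left (ENNReal.add_ne_top.2 ⟨hfin2, hfin⟩)).1 h1
    exact le_antisymm h2 bot_le
  have mm : Measurable (fun x => ENNReal.ofReal (2 * (inner ℝ x (T x) - inner ℝ x (S x)))) := by
    apply ENNReal.measurable_ofReal.comp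
    apply Measurable.const_mul
    exact (measurable_id.inner hT).sub (measurable_id.inner hSm)
  rw [lintegral_eq_zero_iff mm] at hz
  have hSF := ae_mem_of_map_eq ρ F T hSm hT hF hTF hSmap
  filter_upwards [hz, hopt, hSF] with x hx1 hx2 hx3
  by_contra hne
  have := hx2 _ hx3 hne
  simp only [Pi.zero_apply, ENNReal.ofReal_eq_zero] at hx1
  linarith

end abstract

section concrete
variable {d : ℕ}

abbrev QQ (d : ℕ) : Set (EuclideanSpace ℝ (Fin d)) := {x | ∀ i, |x i| ≤ 1}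

abbrev box (l u : Fin d → ℝ) : Set (EuclideanSpace ℝ (Fin d)) :=
  {x | ∀ i, x i ∈ Set.Icc (l i) (u i)}

theorem vol_box (l u : Fin d → ℝ) :
    volume (box l u) = ∏ i, ENNReal.ofReal (u i - l i) := by
  have h := (PiLp.volume_preserving_ofLp (Fin d)).measure_preimage (s := Set.Icc l u)
    measurableSet_Icc.nullMeasurableSet
  rw [Real.volume_Icc_pi] at h
  rw [← h]
  congr 1
  ext x
  simp [Set.mem_Icc, Pi.le_def, forall_and]

theorem QQ_eq_box : QQ d = box (fun _ => -1) (fun _ => 1) := by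
  ext x
  simp [abs_le]

theorem meas_coord (i : Fin d) : Measurable (fun x : EuclideanSpace ℝ (Fin d) => x i) :=
  (EuclideanSpace.proj i).continuous.measurable

theorem meas_box (l u : Fin d → ℝ) : MeasurableSet (box l u) := by
  have : box l u = ⋂ i, (fun x : EuclideanSpace ℝ (Fin d) => x i) ⁻¹' Set.Icc (l i) (u i) := by
    ext x; simp
  rw [this]
  exact MeasurableSet.iInter fun i => meas_coord i measurableSet_Icc

theorem meas_QQ : MeasurableSet (QQ d) := by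
  rw [QQ_eq_box]; exact meas_box _ _

theorem vol_QQ : volume (QQ d) = ∏ _i : Fin d, ENNReal.ofReal 2 := by
  rw [QQ_eq_box, vol_box]
  norm_num

theorem vol_QQ_ne_zero : volume (QQ d) ≠ 0 := by
  rw [vol_QQ, Finset.prod_ne_zero_iff]
  intro i _
  simp

theorem vol_QQ_ne_top : volume (QQ d) ≠ ⊤ := by
  rw [vol_QQ]
  exact ENNReal.prod_ne_top fun i _ => ENNReal.ofReal_ne_top

noncomputable abbrev rho (d : ℕ) : Measure (EuclideanSpace ℝ (Fin d)) := uniformProbOn (QQ d)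

theorem rho_apply (S : Set (EuclideanSpace ℝ (Fin d))) :
    rho d S = (volume (QQ d))⁻¹ * volume (S ∩ QQ d) := by
  simp only [rho, uniformProbOn, Measure.smul_apply, smul_eq_mul]
  rw [Measure.restrict_apply' meas_QQ]

instance : IsProbabilityMeasure (rho d) := by
  constructor
  rw [rho_apply, Set.univ_inter]
  exact ENNReal.inv_mul_cancel vol_QQ_ne_zero vol_QQ_ne_top

theorem rho_box (l u : Fin d → ℝ) (hl : ∀ i, -1 ≤ l i) (hu : ∀ i, u i ≤ 1) :
    rho d (box l u) = ∏ i, ENNReal.ofReal ((u i - l i) / 2) := by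
  have hsub : box l u ∩ QQ d = box l u := by
    apply Set.inter_eq_left.2
    intro x hx i
    rw [abs_le]
    exact ⟨(hl i).trans (hx i).1, (hx i).2.trans (hu i)⟩
  rw [rho_apply, hsub, vol_box]
  have : ∏ i, ENNReal.ofReal (u i - l i)
      = volume (QQ d) * ∏ i, ENNReal.ofReal ((u i - l i) / 2) := by
    rw [vol_QQ, ← Finset.prod_mul_distrib]
    apply Finset.prod_congr rfl
    intro i _
    rw [← ENNReal.ofReal_mul (by norm_num)]
    congr 1; ring
  rw [this, ← mul_assoc, ENNReal.inv_mul_cancel vol_QQ_ne_zero vol_QQ_ne_top, one_mul]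

theorem rho_pos_of_box (S : Set (EuclideanSpace ℝ (Fin d))) (l u : Fin d → ℝ)
    (hl : ∀ i, -1 ≤ l i) (hu : ∀ i, u i ≤ 1) (hlt : ∀ i, l i < u i) (hsub : box l u ⊆ S) :
    0 < rho d S := by
  refine lt_of_lt_of_le ?_ (measure_mono hsub)
  rw [rho_box l u hl hu, pos_iff_ne_zero, Finset.prod_ne_zero_iff]
  intro i _
  have := hlt i
  simp only [ne_eq, ENNReal.ofReal_eq_zero, not_le]
  linarith

theorem rho_null (S : Set (EuclideanSpace ℝ (Fin d))) (h : volume S = 0) : rho d S = 0 := by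
  rw [rho_apply, measure_mono_null Set.inter_subset_left h, mul_zero]

theorem rho_ae_mem : ∀ᵐ x ∂(rho d), x ∈ QQ d := by
  rw [ae_iff, rho_apply]
  have : {a | a ∉ QQ d} ∩ QQ d = ∅ := by
    ext x; simp only [Set.mem_inter_iff, Set.mem_ofPred_eq, Set.mem_empty_iff_false, iff_false]
    tauto
  rw [this]; simp

theorem null_lin (f : EuclideanSpace ℝ (Fin d) →ₗ[ℝ] ℝ) (v : EuclideanSpace ℝ (Fin d))
    (hv : f v ≠ 0) : volume {x | f x = 0} = 0 := by
  have h := Measure.addHaar_submodule (volume : Measure (EuclideanSpace ℝ (Fin d)))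
    (LinearMap.ker f) (by
      intro htop
      apply hv
      have : v ∈ LinearMap.ker f := by rw [htop]; trivial
      exact this)
  convert h using 2
  ext x
  simp [LinearMap.mem_ker]

theorem prod_two (i0 i1 : Fin d) (h : i0 ≠ i1) (f : Fin d → ℝ≥0∞)
    (hf : ∀ i, i ≠ i0 → i ≠ i1 → f i = 1) : ∏ i, f i = f i0 * f i1 :=
  Finset.prod_eq_mul i0 i1 h (fun c _ hc => hf c hc.1 hc.2) (by simp) (by simp)

/-- The explicit optimal map. -/
noncomputable def TT (i0 i1 : Fin d) (η : ℝ) (x : EuclideanSpace ℝ (Fin d)) :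
    EuclideanSpace ℝ (Fin d) :=
  if |x i0| ≤ η * x i1 then η • EuclideanSpace.single i1 (1 : ℝ)
  else if 0 < x i0 then EuclideanSpace.single i0 (1 : ℝ) else - EuclideanSpace.single i0 (1 : ℝ)

/-- The three atoms. -/
noncomputable def yy (i0 i1 : Fin d) (η : ℝ) : Fin 3 → EuclideanSpace ℝ (Fin d) :=
  ![EuclideanSpace.single i0 (1 : ℝ), - EuclideanSpace.single i0 (1 : ℝ),
    η • EuclideanSpace.single i1 (1 : ℝ)]

theorem meas_TT (i0 i1 : Fin d) (η : ℝ) : Measurable (TT i0 i1 η) := by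
  unfold TT
  refine Measurable.ite ?_ measurable_const (Measurable.ite ?_ measurable_const measurable_const)
  · exact measurableSet_le (meas_coord i0).abs ((meas_coord i1).const_mul η)
  · exact measurableSet_lt measurable_const (meas_coord i0)

theorem TT_mem (i0 i1 : Fin d) (η : ℝ) (x : EuclideanSpace ℝ (Fin d)) :
    TT i0 i1 η x ∈ Set.range (yy i0 i1 η) := by
  unfold TT
  split_ifs
  · exact ⟨2, rfl⟩
  · exact ⟨0, rfl⟩
  · exact ⟨1, rfl⟩

theorem yy_inj (i0 i1 : Fin d) (h01 : i0 ≠ i1) (η : ℝ) : Function.Injective (yy i0 i1 η) := by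
  have c0 : ∀ k, yy i0 i1 η k i0 = ![(1 : ℝ), -1, 0] k := by
    intro k
    fin_cases k <;> simp [yy, h01]
  intro a b hab
  have := congrArg (fun v : EuclideanSpace ℝ (Fin d) => v i0) hab
  simp only [c0] at this
  fin_cases a <;> fin_cases b <;> simp at this ⊢ <;> norm_num at this

theorem yy_norm (i0 i1 : Fin d) (η : ℝ) (hη : |η| ≤ 1) (y : EuclideanSpace ℝ (Fin d))
    (hy : y ∈ Set.range (yy i0 i1 η)) : ‖y‖ ≤ 1 := by
  obtain ⟨k, rfl⟩ := hy
  fin_cases k <;> simp [yy, norm_smul, hη]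

theorem yy_mem_QQ (i0 i1 : Fin d) (η : ℝ) (hη : |η| ≤ 1) (y : EuclideanSpace ℝ (Fin d))
    (hy : y ∈ Set.range (yy i0 i1 η)) : y ∈ QQ d := by
  intro i
  have := PiLp.norm_apply_le y i
  rw [Real.norm_eq_abs] at this
  exact this.trans (yy_norm i0 i1 η hη y hy)

theorem strict_opt (i0 i1 : Fin d) (h01 : i0 ≠ i1) (η : ℝ) :
    ∀ᵐ x ∂(rho d), ∀ y ∈ Set.range (yy i0 i1 η), y ≠ TT i0 i1 η x →
      inner ℝ x y < inner ℝ x (TT i0 i1 η x) := by
  have n1 : ∀ᵐ x ∂(rho d), x i0 ≠ 0 := by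
    rw [ae_iff]
    apply rho_null
    have := null_lin (EuclideanSpace.proj i0 : EuclideanSpace ℝ (Fin d) →L[ℝ] ℝ).toLinearMap
      (EuclideanSpace.single i0 (1 : ℝ)) (by simp)
    simpa using this
  have n2 : ∀ᵐ x ∂(rho d), x i0 - η * x i1 ≠ 0 := by
    rw [ae_iff]
    apply rho_null
    have := null_lin ((EuclideanSpace.proj i0 : EuclideanSpace ℝ (Fin d) →L[ℝ] ℝ).toLinearMap
      - η • (EuclideanSpace.proj i1 : EuclideanSpace ℝ (Fin d) →L[ℝ] ℝ).toLinearMap)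
      (EuclideanSpace.single i0 (1 : ℝ)) (by simp [h01.symm, h01])
    simpa using this
  have n3 : ∀ᵐ x ∂(rho d), x i0 + η * x i1 ≠ 0 := by
    rw [ae_iff]
    apply rho_null
    have := null_lin ((EuclideanSpace.proj i0 : EuclideanSpace ℝ (Fin d) →L[ℝ] ℝ).toLinearMap
      + η • (EuclideanSpace.proj i1 : EuclideanSpace ℝ (Fin d) →L[ℝ] ℝ).toLinearMap)
      (EuclideanSpace.single i0 (1 : ℝ)) (by simp [h01.symm, h01])
    simpa using this
  filter_upwards [n1, n2, n3] with x h1 h2 h3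
  have I0 : inner ℝ x (EuclideanSpace.single i0 (1 : ℝ)) = x i0 := by
    simp [EuclideanSpace.inner_single_right]
  have I1 : inner ℝ x (- EuclideanSpace.single i0 (1 : ℝ)) = - x i0 := by
    simp [EuclideanSpace.inner_single_right]
  have I2 : inner ℝ x (η • EuclideanSpace.single i1 (1 : ℝ)) = η * x i1 := by
    simp [inner_smul_right, EuclideanSpace.inner_single_right]
  rintro y ⟨k, rfl⟩ hne
  unfold TT at hne ⊢
  split_ifs at hne ⊢ with c1 c2
  · have hlt : |x i0| < η * x i1 := by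
      rcases lt_or_eq_of_le c1 with h | h
      · exact h
      · exfalso
        rcases abs_cases (x i0) with ⟨ha, _⟩ | ⟨ha, _⟩
        · apply h2; rw [ha] at h; linarith
        · apply h3; rw [ha] at h; linarith
    rw [I2]
    have := abs_lt.1 hlt
    fin_cases k
    · show inner ℝ x (EuclideanSpace.single i0 (1 : ℝ)) < _
      rw [I0]; linarith [le_abs_self (x i0)]
    · show inner ℝ x (- EuclideanSpace.single i0 (1 : ℝ)) < _
      rw [I1]; linarith [neg_abs_le (x i0)]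
    · exact absurd rfl hne
  · rw [I0]
    push Not at c1
    rw [abs_of_pos c2] at c1
    fin_cases k
    · exact absurd rfl hne
    · show inner ℝ x (- EuclideanSpace.single i0 (1 : ℝ)) < _
      rw [I1]; linarith
    · show inner ℝ x (η • EuclideanSpace.single i1 (1 : ℝ)) < _
      rw [I2]; exact c1
  · rw [I1]
    push Not at c1 c2
    have hneg : x i0 < 0 := lt_of_le_of_ne c2 h1
    rw [abs_of_neg hneg] at c1
    fin_cases k
    · show inner ℝ x (EuclideanSpace.single i0 (1 : ℝ)) < _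
      rw [I0]; linarith
    · exact absurd rfl hne
    · show inner ℝ x (η • EuclideanSpace.single i1 (1 : ℝ)) < _
      rw [I2]; exact c1

theorem map_fin3 {E : Type*} [MeasurableSpace E] [MeasurableSingletonClass E]
    (ρ : Measure E) (T : E → E) (hT : Measurable T) (y : Fin 3 → E)
    (hinj : Function.Injective y) (hy : ∀ x, T x ∈ Set.range y) :
    ρ.map T = ∑ k, ρ (T ⁻¹' {y k}) • Measure.dirac (y k) := by
  ext s hs
  rw [Measure.map_apply hT hs]
  simp only [Measure.coe_finsetSum, Measure.coe_smul, Finset.sum_apply, Pi.smul_apply,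
    smul_eq_mul, Measure.dirac_apply' _ hs]
  have hU : T ⁻¹' s = ⋃ k, (T ⁻¹' {y k} ∩ T ⁻¹' s) := by
    ext x
    simp only [Set.mem_preimage, Set.mem_iUnion, Set.mem_inter_iff, Set.mem_singleton_iff,
      exists_and_right]
    constructor
    · intro h
      obtain ⟨k, hk⟩ := hy x
      exact ⟨⟨k, hk.symm⟩, h⟩
    · exact fun h => h.2
  rw [hU, measure_iUnion, tsum_fintype]
  · apply Finset.sum_congr rfl
    intro k _
    by_cases hk : y k ∈ s
    · rw [Set.indicator_of_mem hk, Pi.one_apply, mul_one]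
      congr 1
      ext x
      simp only [Set.mem_inter_iff, Set.mem_preimage, Set.mem_singleton_iff, and_iff_left_iff_imp]
      intro h; rw [h]; exact hk
    · rw [Set.indicator_of_notMem hk, mul_zero]
      convert measure_empty (μ := ρ)
      ext x
      simp only [Set.mem_inter_iff, Set.mem_preimage, Set.mem_singleton_iff,
        Set.mem_empty_iff_false, iff_false, not_and]
      intro h; rw [h]; exact hk
  · intro a b hab
    rw [Function.onFun, Set.disjoint_left]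
    rintro x ⟨h1, _⟩ ⟨h2, _⟩
    apply hab
    apply hinj
    rw [← (h1 : T x = y a), ← (h2 : T x = y b)]
  · intro k
    exact (hT (measurableSet_singleton _)).inter (hT hs)

/-- box data -/
def bx (i0 i1 : Fin d) (a b c : ℝ) : Fin d → ℝ := fun i => if i = i0 then a else if i = i1 then b else c

theorem bx_i0 (i0 i1 : Fin d) (a b c : ℝ) : bx i0 i1 a b c i0 = a := by simp [bx]
theorem bx_i1 (i0 i1 : Fin d) (h : i0 ≠ i1) (a b c : ℝ) : bx i0 i1 a b c i1 = b := by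
  simp [bx, h.symm]

theorem bx_forall (i0 i1 : Fin d) (a b c : ℝ) (P : ℝ → Prop) (ha : P a) (hb : P b) (hc : P c) :
    ∀ i, P (bx i0 i1 a b c i) := by
  intro i
  unfold bx
  split_ifs <;> assumption

theorem bx_forall2 (i0 i1 : Fin d) (a b c a' b' c' : ℝ) (P : ℝ → ℝ → Prop) (ha : P a a')
    (hb : P b b') (hc : P c c') :
    ∀ i, P (bx i0 i1 a b c i) (bx i0 i1 a' b' c' i) := by
  intro i
  unfold bx
  split_ifs <;> assumption

theorem rho_bx (i0 i1 : Fin d) (h01 : i0 ≠ i1) (a b a' b' : ℝ)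
    (ha : -1 ≤ a) (hb : -1 ≤ b) (ha' : a' ≤ 1) (hb' : b' ≤ 1) :
    rho d (box (bx i0 i1 a b (-1)) (bx i0 i1 a' b' 1)) =
      ENNReal.ofReal ((a' - a) / 2) * ENNReal.ofReal ((b' - b) / 2) := by
  rw [rho_box _ _ (bx_forall i0 i1 a b (-1) (fun t => -1 ≤ t) ha hb le_rfl)
    (bx_forall i0 i1 a' b' 1 (fun t => t ≤ 1) ha' hb' le_rfl)]
  rw [prod_two i0 i1 h01]
  · rw [bx_i0, bx_i0, bx_i1 _ _ h01, bx_i1 _ _ h01]
  · intro i h0 h1
    simp [bx, h0, h1]

theorem cell_pos (i0 i1 : Fin d) (h01 : i0 ≠ i1) (η : ℝ) (hη : |η| ≤ 1) (hη0 : η ≠ 0) (k : Fin 3) :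
    0 < rho d (TT i0 i1 η ⁻¹' {yy i0 i1 η k}) := by
  have hη' := abs_le.1 hη
  fin_cases k
  · apply rho_pos_of_box _ (bx i0 i1 (1/2) (-1/4) (-1)) (bx i0 i1 1 (1/4) 1)
      (bx_forall _ _ _ _ _ (fun t => -1 ≤ t) (by norm_num) (by norm_num) le_rfl)
      (bx_forall _ _ _ _ _ (fun t => t ≤ 1) (by norm_num) (by norm_num) le_rfl)
      (bx_forall2 _ _ _ _ _ _ _ _ (fun s t => s < t) (by norm_num) (by norm_num) (by norm_num))
    intro x hx
    have h0 := hx i0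
    have h1 := hx i1
    rw [bx_i0, bx_i0] at h0
    rw [bx_i1 _ _ h01, bx_i1 _ _ h01] at h1
    have hb : η * x i1 ≤ 1 / 4 := by
      have : |η * x i1| ≤ 1 * (1 / 4) := by
        rw [abs_mul]
        exact mul_le_mul hη (abs_le.2 ⟨by linarith [h1.1], h1.2⟩) (abs_nonneg _) (by norm_num)
      linarith [le_abs_self (η * x i1)]
    have hpos : 0 < x i0 := by linarith [h0.1]
    show TT i0 i1 η x = EuclideanSpace.single i0 (1 : ℝ)
    unfold TT
    rw [if_neg (by rw [abs_of_pos hpos]; linarith [h0.1]), if_pos hpos]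
  · apply rho_pos_of_box _ (bx i0 i1 (-1) (-1/4) (-1)) (bx i0 i1 (-1/2) (1/4) 1)
      (bx_forall _ _ _ _ _ (fun t => -1 ≤ t) (by norm_num) (by norm_num) le_rfl)
      (bx_forall _ _ _ _ _ (fun t => t ≤ 1) (by norm_num) (by norm_num) le_rfl)
      (bx_forall2 _ _ _ _ _ _ _ _ (fun s t => s < t) (by norm_num) (by norm_num) (by norm_num))
    intro x hx
    have h0 := hx i0
    have h1 := hx i1
    rw [bx_i0, bx_i0] at h0
    rw [bx_i1 _ _ h01, bx_i1 _ _ h01] at h1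
    have hb : η * x i1 ≤ 1 / 4 := by
      have : |η * x i1| ≤ 1 * (1 / 4) := by
        rw [abs_mul]
        exact mul_le_mul hη (abs_le.2 ⟨by linarith [h1.1], h1.2⟩) (abs_nonneg _) (by norm_num)
      linarith [le_abs_self (η * x i1)]
    have hneg : x i0 < 0 := by linarith [h0.2]
    show TT i0 i1 η x = - EuclideanSpace.single i0 (1 : ℝ)
    unfold TT
    rw [if_neg (by rw [abs_of_neg hneg]; linarith [h0.2]), if_neg (by linarith)]
  · rcases lt_or_gt_of_ne hη0 with hneg | hpos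
    · apply rho_pos_of_box _ (bx i0 i1 (η/2) (-1) (-1)) (bx i0 i1 (-η/2) (-1/2) 1)
        (bx_forall _ _ _ _ _ (fun t => -1 ≤ t) (by linarith [hη'.1]) (by norm_num) le_rfl)
        (bx_forall _ _ _ _ _ (fun t => t ≤ 1) (by linarith [hη'.1]) (by norm_num) le_rfl)
        (bx_forall2 _ _ _ _ _ _ _ _ (fun s t => s < t) (by linarith) (by norm_num) (by norm_num))
      intro x hx
      have h0 := hx i0
      have h1 := hx i1
      rw [bx_i0, bx_i0] at h0
      rw [bx_i1 _ _ h01, bx_i1 _ _ h01] at h1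
      show TT i0 i1 η x = η • EuclideanSpace.single i1 (1 : ℝ)
      unfold TT
      rw [if_pos]
      rw [abs_le]
      have : -η / 2 ≤ η * x i1 := by nlinarith [h1.2]
      constructor <;> linarith [h0.1, h0.2]
    · apply rho_pos_of_box _ (bx i0 i1 (-η/2) (1/2) (-1)) (bx i0 i1 (η/2) 1 1)
        (bx_forall _ _ _ _ _ (fun t => -1 ≤ t) (by linarith [hη'.2]) (by norm_num) le_rfl)
        (bx_forall _ _ _ _ _ (fun t => t ≤ 1) (by linarith [hη'.2]) (by norm_num) le_rfl)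
        (bx_forall2 _ _ _ _ _ _ _ _ (fun s t => s < t) (by linarith) (by norm_num) (by norm_num))
      intro x hx
      have h0 := hx i0
      have h1 := hx i1
      rw [bx_i0, bx_i0] at h0
      rw [bx_i1 _ _ h01, bx_i1 _ _ h01] at h1
      show TT i0 i1 η x = η • EuclideanSpace.single i1 (1 : ℝ)
      unfold TT
      rw [if_pos]
      rw [abs_le]
      have : η / 2 ≤ η * x i1 := by nlinarith [h1.1]
      constructor <;> linarith [h0.1, h0.2]

theorem three_atomic (i0 i1 : Fin d) (h01 : i0 ≠ i1) (η : ℝ) (hη : |η| ≤ 1) (hη0 : η ≠ 0) :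
    IsThreeAtomic ((rho d).map (TT i0 i1 η)) := by
  refine ⟨yy i0 i1 η, yy_inj i0 i1 h01 η,
    fun k => (rho d (TT i0 i1 η ⁻¹' {yy i0 i1 η k})).toReal, ?_, ?_⟩
  · intro k
    exact ENNReal.toReal_pos (cell_pos i0 i1 h01 η hη hη0 k).ne' (measure_ne_top _ _)
  · rw [map_fin3 (rho d) _ (meas_TT i0 i1 η) _ (yy_inj i0 i1 h01 η) (TT_mem i0 i1 η)]
    apply Finset.sum_congr rfl
    intro k _
    rw [ENNReal.ofReal_toReal (measure_ne_top _ _)]

theorem prob_on (i0 i1 : Fin d) (η : ℝ) (hη : |η| ≤ 1) :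
    IsProbabilityOn (QQ d) ((rho d).map (TT i0 i1 η)) := by
  refine ⟨Measure.isProbabilityMeasure_map (meas_TT i0 i1 η).aemeasurable, ?_⟩
  rw [Measure.map_apply (meas_TT i0 i1 η) meas_QQ.compl]
  convert measure_empty (μ := rho d)
  ext x
  simp only [Set.mem_preimage, Set.mem_compl_iff, Set.mem_empty_iff_false, iff_false, not_not]
  exact yy_mem_QQ i0 i1 η hη _ (TT_mem i0 i1 η x)

/-- reflection in the coordinate `i1` -/
noncomputable def sig (i1 : Fin d) : EuclideanSpace ℝ (Fin d) ≃ₗᵢ[ℝ] EuclideanSpace ℝ (Fin d) :=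
  LinearIsometryEquiv.piLpCongrRight 2
    (fun i => if i = i1 then LinearIsometryEquiv.neg ℝ else LinearIsometryEquiv.refl ℝ ℝ)

theorem sig_apply_same (i1 : Fin d) (x : EuclideanSpace ℝ (Fin d)) : sig i1 x i1 = - x i1 := by
  simp [sig, LinearIsometryEquiv.piLpCongrRight_apply]

theorem sig_apply_ne (i1 i : Fin d) (h : i ≠ i1) (x : EuclideanSpace ℝ (Fin d)) :
    sig i1 x i = x i := by
  simp [sig, LinearIsometryEquiv.piLpCongrRight_apply, h]

theorem sig_preimage_QQ (i1 : Fin d) : (sig i1) ⁻¹' (QQ d) = QQ d := by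
  ext x
  simp only [Set.mem_preimage, Set.mem_ofPred_eq]
  constructor
  · intro h i
    by_cases hi : i = i1
    · subst hi
      have := h i
      rwa [sig_apply_same, abs_neg] at this
    · have := h i
      rwa [sig_apply_ne _ _ hi] at this
  · intro h i
    by_cases hi : i = i1
    · subst hi
      rw [sig_apply_same, abs_neg]; exact h i
    · rw [sig_apply_ne _ _ hi]; exact h i

theorem rho_map_sig (i1 : Fin d) : (rho d).map (sig i1) = rho d := by
  have h1 := ((sig i1).measurePreserving).restrict_preimage (meas_QQ (d := d))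
  rw [sig_preimage_QQ] at h1
  simp only [rho, uniformProbOn]
  rw [Measure.map_smul, h1.map_eq]

theorem TT_sig (i0 i1 : Fin d) (h01 : i0 ≠ i1) (ε : ℝ) (x : EuclideanSpace ℝ (Fin d)) :
    TT i0 i1 (-ε) (sig i1 x) =
      if |x i0| ≤ ε * x i1 then (-ε) • EuclideanSpace.single i1 (1 : ℝ)
      else if 0 < x i0 then EuclideanSpace.single i0 (1 : ℝ)
        else - EuclideanSpace.single i0 (1 : ℝ) := by
  unfold TT
  rw [sig_apply_same, sig_apply_ne _ _ h01, neg_mul_neg]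

/-- the coupling -/
noncomputable def cpl (i0 i1 : Fin d) (ε : ℝ) :
    Measure (EuclideanSpace ℝ (Fin d) × EuclideanSpace ℝ (Fin d)) :=
  (rho d).map (fun x => (TT i0 i1 ε x, TT i0 i1 (-ε) (sig i1 x)))

theorem meas_cpl_map (i0 i1 : Fin d) (ε : ℝ) :
    Measurable (fun x => (TT i0 i1 ε x, TT i0 i1 (-ε) (sig i1 x))) :=
  (meas_TT i0 i1 ε).prodMk ((meas_TT i0 i1 (-ε)).comp (sig i1).continuous.measurable)

theorem cpl_coupling (i0 i1 : Fin d) (ε : ℝ) :
    IsPairCoupling ((rho d).map (TT i0 i1 ε)) ((rho d).map (TT i0 i1 (-ε))) (cpl i0 i1 ε) := by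
  constructor
  · unfold cpl
    rw [Measure.map_map measurable_fst (meas_cpl_map i0 i1 ε)]
    rfl
  · unfold cpl
    rw [Measure.map_map measurable_snd (meas_cpl_map i0 i1 ε)]
    conv_rhs => rw [← rho_map_sig i1]
    rw [Measure.map_map (meas_TT i0 i1 (-ε)) (sig i1).continuous.measurable]
    rfl

theorem cpl_cost (i0 i1 : Fin d) (h01 : i0 ≠ i1) (ε : ℝ) (hε : 0 < ε) (hε1 : ε ≤ 1) :
    quadCost (cpl i0 i1 ε) ≤ ENNReal.ofReal (4 * ε ^ 3) := by
  unfold quadCost cpl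
  rw [lintegral_map (by fun_prop) (meas_cpl_map i0 i1 ε)]
  set B := box (bx i0 i1 (-ε) (-1) (-1)) (bx i0 i1 ε 1 1) with hB
  have hBm : MeasurableSet B := meas_box _ _
  have h1 : ∀ᵐ x ∂(rho d), ‖TT i0 i1 ε x - TT i0 i1 (-ε) (sig i1 x)‖ₑ ^ 2 ≤
      B.indicator (fun _ => ENNReal.ofReal (4 * ε ^ 2)) x := by
    filter_upwards [rho_ae_mem] with x hx
    rw [TT_sig i0 i1 h01]
    unfold TT
    by_cases c1 : |x i0| ≤ ε * x i1
    · rw [if_pos c1, if_pos c1]
      have hxB : x ∈ B := by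
        intro i
        have hxi := abs_le.1 (hx i)
        unfold bx
        split_ifs with e0 e1
        · subst e0
          have : ε * x i1 ≤ ε := by nlinarith [(abs_le.1 (hx i1)).2]
          exact abs_le.1 (c1.trans this)
        · exact hxi
        · exact hxi
      rw [Set.indicator_of_mem hxB, ← sub_smul, ← ofReal_norm, norm_smul,
        ← ENNReal.ofReal_pow (by positivity)]
      apply ENNReal.ofReal_le_ofReal
      simp only [sub_neg_eq_add, Real.norm_eq_abs, PiLp.norm_single, norm_one, mul_one,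
        sq_abs]
      apply le_of_eq; ring
    · rw [if_neg c1, if_neg c1, sub_self]
      simp
  calc _ ≤ ∫⁻ x, B.indicator (fun _ => ENNReal.ofReal (4 * ε ^ 2)) x ∂(rho d) :=
        lintegral_mono_ae h1
    _ = ENNReal.ofReal (4 * ε ^ 2) * rho d B := by
        rw [lintegral_indicator hBm, lintegral_const, Measure.restrict_apply MeasurableSet.univ,
          Set.univ_inter]
    _ = ENNReal.ofReal (4 * ε ^ 3) := by
        rw [hB, rho_bx i0 i1 h01 _ _ _ _ (by linarith) le_rfl hε1 le_rfl,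
          ← ENNReal.ofReal_mul (by linarith), ← ENNReal.ofReal_mul (by positivity)]
        congr 1; ring

theorem dist_lower (i0 i1 : Fin d) (h01 : i0 ≠ i1) (ε : ℝ) (hε : 0 < ε) (hε1 : ε ≤ 1) :
    ENNReal.ofReal (ε / 8) ≤ ∫⁻ x, ‖TT i0 i1 ε x - TT i0 i1 (-ε) x‖ₑ ^ 2 ∂(rho d) := by
  set B := box (bx i0 i1 (-ε/2) (1/2) (-1)) (bx i0 i1 (ε/2) 1 1) with hB
  have hBm : MeasurableSet B := meas_box _ _
  have h1 : ∀ x, B.indicator (fun _ => (1 : ℝ≥0∞)) x ≤ ‖TT i0 i1 ε x - TT i0 i1 (-ε) x‖ₑ ^ 2 := by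
    intro x
    by_cases hxB : x ∈ B
    · rw [Set.indicator_of_mem hxB]
      have h0 := hxB i0
      have h1 := hxB i1
      rw [bx_i0, bx_i0] at h0
      rw [bx_i1 _ _ h01, bx_i1 _ _ h01] at h1
      have c1 : |x i0| ≤ ε * x i1 := by
        rw [abs_le]
        have : ε / 2 ≤ ε * x i1 := by nlinarith [h1.1]
        constructor <;> linarith [h0.1, h0.2]
      have c2 : ¬ |x i0| ≤ (-ε) * x i1 := by
        have : (-ε) * x i1 < 0 := by nlinarith [h1.1]
        have := abs_nonneg (x i0)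
        linarith
      have key : ∀ v : EuclideanSpace ℝ (Fin d), |v i0| = 1 → (1 : ℝ≥0∞) ≤ ‖v‖ₑ ^ 2 := by
        intro v hv
        have h2 := PiLp.norm_apply_le v i0
        rw [Real.norm_eq_abs, hv] at h2
        rw [← ofReal_norm, ← ENNReal.ofReal_pow (norm_nonneg _), ← ENNReal.ofReal_one]
        apply ENNReal.ofReal_le_ofReal
        nlinarith
      apply key
      unfold TT
      rw [if_pos c1, if_neg c2]
      split_ifs <;> simp [h01, h01.symm]
    · rw [Set.indicator_of_notMem hxB]; exact bot_le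
  calc ENNReal.ofReal (ε / 8) = rho d B := by
        rw [hB, rho_bx i0 i1 h01 _ _ _ _ (by linarith) (by norm_num) (by linarith) le_rfl,
          ← ENNReal.ofReal_mul (by linarith)]
        congr 1; ring
    _ = ∫⁻ x, B.indicator (fun _ => (1 : ℝ≥0∞)) x ∂(rho d) := by
        rw [lintegral_indicator hBm, lintegral_const, Measure.restrict_apply MeasurableSet.univ,
          Set.univ_inter, one_mul]
    _ ≤ _ := lintegral_mono h1

theorem exists_eps (α : ℝ) (hα : 1 / 3 < α) (C : ℝ≥0) :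
    ∃ ε : ℝ, 0 < ε ∧ ε ≤ 1 ∧ (C : ℝ) * (4 * ε ^ 3) ^ α < ε / 8 := by
  have hpos : 0 < 3 * α - 1 := by linarith
  have ht : Filter.Tendsto (fun ε : ℝ => (C : ℝ) * 4 ^ α * ε ^ (3 * α - 1)) (nhds 0)
      (nhds ((C : ℝ) * 4 ^ α * 0 ^ (3 * α - 1))) :=
    ((Real.continuousAt_rpow_const 0 (3 * α - 1) (Or.inr hpos.le)).tendsto).const_mul _
  rw [Real.zero_rpow hpos.ne', mul_zero] at ht
  have hev : ∀ᶠ ε : ℝ in nhds 0, (C : ℝ) * 4 ^ α * ε ^ (3 * α - 1) < 1 / 8 :=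
    ht.eventually (gt_mem_nhds (by norm_num))
  have hev2 : ∀ᶠ ε : ℝ in nhdsWithin 0 (Set.Ioi 0), (C : ℝ) * 4 ^ α * ε ^ (3 * α - 1) < 1 / 8 :=
    hev.filter_mono nhdsWithin_le_nhds
  have hev3 : ∀ᶠ ε : ℝ in nhdsWithin 0 (Set.Ioi 0), ε ∈ Set.Ioc (0 : ℝ) 1 :=
    Ioc_mem_nhdsGT (by norm_num)
  obtain ⟨ε, h1, h2⟩ := (hev2.and hev3).exists
  refine ⟨ε, h2.1, h2.2, ?_⟩
  have e1 : (4 * ε ^ 3) ^ α = 4 ^ α * (ε ^ (3 * α - 1) * ε) := by
    rw [Real.mul_rpow (by norm_num) (by have := h2.1; positivity)]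
    congr 1
    rw [← Real.rpow_natCast ε 3, ← Real.rpow_mul h2.1.le]
    nth_rewrite 3 [← Real.rpow_one ε]
    rw [← Real.rpow_add h2.1]
    congr 1; push_cast; ring
  rw [e1]
  have := mul_lt_mul_of_pos_right h1 h2.1
  calc (C : ℝ) * (4 ^ α * (ε ^ (3 * α - 1) * ε)) = (C : ℝ) * 4 ^ α * ε ^ (3 * α - 1) * ε := by ring
    _ < 1 / 8 * ε := this
    _ = ε / 8 := by ring

end concrete


theorem QQ_norm_le {d : ℕ} (x : EuclideanSpace ℝ (Fin d)) (hx : x ∈ QQ d) :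
    ‖x‖ ≤ Real.sqrt d + 1 := by
  have h1 : ‖x‖ ≤ Real.sqrt d := by
    rw [EuclideanSpace.norm_eq]
    apply Real.sqrt_le_sqrt
    calc ∑ i, ‖x i‖ ^ 2 ≤ ∑ _i : Fin d, (1 : ℝ) := by
          apply Finset.sum_le_sum
          intro i _
          rw [Real.norm_eq_abs, sq_abs]
          have := abs_le.1 (hx i)
          nlinarith
      _ = d := by simp
  linarith

theorem TT_optimal {d : ℕ} (i0 i1 : Fin d) (h01 : i0 ≠ i1) (η : ℝ) (hη : |η| ≤ 1) :
    IsOptimalMap (rho d) ((rho d).map (TT i0 i1 η)) (TT i0 i1 η) := by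
  apply optimal_of_max (rho d) 1 (Set.range (yy i0 i1 η)) _ (meas_TT i0 i1 η)
    (Set.finite_range _).measurableSet (TT_mem i0 i1 η) (yy_norm i0 i1 η hη)
  filter_upwards [strict_opt i0 i1 h01 η] with x hx y hy
  by_cases hyT : y = TT i0 i1 η x
  · rw [hyT]
  · exact (hx y hy hyT).le

theorem TT_unique {d : ℕ} (i0 i1 : Fin d) (h01 : i0 ≠ i1) (η : ℝ) (hη : |η| ≤ 1)
    (S : EuclideanSpace ℝ (Fin d) → EuclideanSpace ℝ (Fin d))
    (hS : IsOptimalMap (rho d) ((rho d).map (TT i0 i1 η)) S) : S =ᵐ[rho d] TT i0 i1 η := by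
  apply unique_of_strict_max (rho d) (Real.sqrt d + 1) (Set.range (yy i0 i1 η)) _ (meas_TT i0 i1 η)
    (Set.finite_range _).measurableSet (TT_mem i0 i1 η) _ _ (strict_opt i0 i1 h01 η) hS
  · intro y hy
    have := yy_norm i0 i1 η hη y hy
    have := Real.sqrt_nonneg (d : ℝ)
    linarith
  · filter_upwards [rho_ae_mem] with x hx
    exact QQ_norm_le x hx

/-- The exponent one third is optimal, even on the cube with three-atom targets: for d ≥ 2, ρ the uniform probability measure on the cube of points of ℝᵈ with all coordinates in [-1, 1], every α > 1/3 and every C ≥ 0, there are three-atomic probability measures μ, ν on that cube, each admitting a quadratic optimal transport map from ρ, such that for all such optimal maps Tμ, Tν some coupling π of μ, ν has C · (∫ ‖y - z‖² dπ)^α < ∫ ‖Tμ - Tν‖² dρ. Hence ‖Tμ - Tν‖_{L²(ρ)} > √C · W₂(μ, ν)^α. -/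
theorem result
    (d : ℕ) (hd : 2 ≤ d) (α : ℝ) (hα : 1 / 3 < α) (C : ℝ≥0) :
    ∃ μ ν : Measure (EuclideanSpace ℝ (Fin d)),
      IsProbabilityOn {x : EuclideanSpace ℝ (Fin d) | ∀ i, |x i| ≤ 1} μ ∧
      IsProbabilityOn {x : EuclideanSpace ℝ (Fin d) | ∀ i, |x i| ≤ 1} ν ∧
      IsThreeAtomic μ ∧ IsThreeAtomic ν ∧
      (∃ T, IsOptimalMap (uniformProbOn {x : EuclideanSpace ℝ (Fin d) | ∀ i, |x i| ≤ 1}) μ T) ∧
      (∃ T, IsOptimalMap (uniformProbOn {x : EuclideanSpace ℝ (Fin d) | ∀ i, |x i| ≤ 1}) ν T) ∧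
      ∀ Tμ Tν : EuclideanSpace ℝ (Fin d) → EuclideanSpace ℝ (Fin d),
        IsOptimalMap (uniformProbOn {x : EuclideanSpace ℝ (Fin d) | ∀ i, |x i| ≤ 1}) μ Tμ →
        IsOptimalMap (uniformProbOn {x : EuclideanSpace ℝ (Fin d) | ∀ i, |x i| ≤ 1}) ν Tν →
        ∃ π : Measure (EuclideanSpace ℝ (Fin d) × EuclideanSpace ℝ (Fin d)), IsPairCoupling μ ν π ∧
          (C : ℝ≥0∞) * quadCost π ^ α < ∫⁻ x, ‖Tμ x - Tν x‖ₑ ^ 2 ∂(uniformProbOn {x : EuclideanSpace ℝ (Fin d) | ∀ i, |x i| ≤ 1}) := by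
  obtain ⟨ε, hε, hε1, hlt⟩ := exists_eps α hα C
  have hαpos : 0 < α := by linarith
  set i0 : Fin d := ⟨0, by omega⟩ with hi0
  set i1 : Fin d := ⟨1, by omega⟩ with hi1
  have h01 : i0 ≠ i1 := by
    intro h
    have := congrArg Fin.val h
    simp [hi0, hi1] at this
  have hη1 : |ε| ≤ 1 := by rw [abs_of_pos hε]; exact hε1
  have hη2 : |-ε| ≤ 1 := by rw [abs_neg]; exact hη1
  refine ⟨(rho d).map (TT i0 i1 ε), (rho d).map (TT i0 i1 (-ε)), prob_on i0 i1 ε hη1,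
    prob_on i0 i1 (-ε) hη2, three_atomic i0 i1 h01 ε hη1 hε.ne',
    three_atomic i0 i1 h01 (-ε) hη2 (by linarith [hε] : -ε < 0).ne,
    ⟨_, TT_optimal i0 i1 h01 ε hη1⟩, ⟨_, TT_optimal i0 i1 h01 (-ε) hη2⟩, ?_⟩
  intro Tμ Tν hTμ hTν
  refine ⟨cpl i0 i1 ε, cpl_coupling i0 i1 ε, ?_⟩
  have e1 := TT_unique i0 i1 h01 ε hη1 Tμ hTμ
  have e2 := TT_unique i0 i1 h01 (-ε) hη2 Tν hTν
  have e3 : ∫⁻ x, ‖Tμ x - Tν x‖ₑ ^ 2 ∂(rho d) =
      ∫⁻ x, ‖TT i0 i1 ε x - TT i0 i1 (-ε) x‖ₑ ^ 2 ∂(rho d) := by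
    apply lintegral_congr_ae
    filter_upwards [e1, e2] with x h1 h2
    rw [h1, h2]
  show (C : ℝ≥0∞) * quadCost (cpl i0 i1 ε) ^ α < ∫⁻ x, ‖Tμ x - Tν x‖ₑ ^ 2 ∂(rho d)
  rw [e3]
  refine lt_of_lt_of_le ?_ (dist_lower i0 i1 h01 ε hε hε1)
  calc (C : ℝ≥0∞) * quadCost (cpl i0 i1 ε) ^ α
      ≤ (C : ℝ≥0∞) * (ENNReal.ofReal (4 * ε ^ 3)) ^ α := by
        gcongr
        exact cpl_cost i0 i1 h01 ε hε hε1
    _ = ENNReal.ofReal ((C : ℝ) * (4 * ε ^ 3) ^ α) := by
        rw [ENNReal.ofReal_rpow_of_pos (by positivity), ENNReal.ofReal_mul C.coe_nonneg,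
          ENNReal.ofReal_coe_nnreal]
    _ < ENNReal.ofReal (ε / 8) := (ENNReal.ofReal_lt_ofReal_iff (by positivity)).2 hlt

end Crest.Agent.S0110
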