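import Crest.Agent.S0112_Defs

/-! Row 84 (S0112), module B: the ultrafilter mean on bounded continuous functions. -/

set_option autoImplicit false
set_option linter.unusedSectionVars false

namespace Crest.Agent.R84

open Crest.OpAlg Filter MeasureTheory
open scoped Topology

theorem windowMean_eq (f : ℝ → ℝ) (k : ℕ) :
    windowMean f k = (2 * (k : ℝ))⁻¹ * ∫ t in (-(k : ℝ))..(k : ℝ), f t := by
  have hk : -(k : ℝ) ≤ (k : ℝ) := by
    have : (0 : ℝ) ≤ k := Nat.cast_nonneg k
    linarith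
  unfold windowMean
  rw [setAverage_eq, Real.volume_real_Icc_of_le hk, intervalIntegral.integral_of_le hk,
    integral_Icc_eq_integral_Ioc, smul_eq_mul]
  congr 2; ring

theorem BC.intervalIntegrable {f : ℝ → ℝ} (hf : BC f) (a b : ℝ) :
    IntervalIntegrable f volume a b := hf.1.intervalIntegrable a b

theorem BC.add {f g : ℝ → ℝ} (hf : BC f) (hg : BC g) : BC (fun t => f t + g t) := by
  obtain ⟨h1, B, hB⟩ := hf
  obtain ⟨h2, C, hC⟩ := hg
  exact ⟨h1.add h2, B + C, fun t => (abs_add_le _ _).trans (add_le_add (hB t) (hC t))⟩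

theorem BC.const_mul {f : ℝ → ℝ} (hf : BC f) (c : ℝ) : BC (fun t => c * f t) := by
  obtain ⟨h1, B, hB⟩ := hf
  refine ⟨continuous_const.mul h1, |c| * B, fun t => ?_⟩
  rw [abs_mul]
  exact mul_le_mul_of_nonneg_left (hB t) (abs_nonneg c)

theorem BC.const (c : ℝ) : BC (fun _ : ℝ => c) := ⟨continuous_const, |c|, fun _ => le_rfl⟩

theorem BC.sum {ι : Type*} (s : Finset ι) (f : ι → ℝ → ℝ) (hf : ∀ i ∈ s, BC (f i)) :
    BC (fun t => ∑ i ∈ s, f i t) := by
  classical
  induction s using Finset.induction_on with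
  | empty => simpa using BC.const 0
  | insert a s ha ih =>
    have h1 : BC (f a) := hf a (Finset.mem_insert_self a s)
    have h2 := ih (fun i hi => hf i (Finset.mem_insert_of_mem hi))
    have := h1.add h2
    simpa [Finset.sum_insert ha] using this

theorem BC.shift {f : ℝ → ℝ} (hf : BC f) (r : ℝ) : BC (fun t => f (t + r)) := by
  obtain ⟨h1, B, hB⟩ := hf
  exact ⟨h1.comp (continuous_id.add continuous_const), B, fun t => hB _⟩

theorem BC.comp_neg {f : ℝ → ℝ} (hf : BC f) : BC (fun t => f (-t)) := by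
  obtain ⟨h1, B, hB⟩ := hf
  exact ⟨h1.comp continuous_neg, B, fun t => hB _⟩

theorem windowMean_abs_le {f : ℝ → ℝ} {B : ℝ} (hB : ∀ t, |f t| ≤ B) (k : ℕ) :
    |windowMean f k| ≤ B := by
  have hB0 : 0 ≤ B := (abs_nonneg _).trans (hB 0)
  have hk0 : (0 : ℝ) ≤ k := Nat.cast_nonneg k
  rw [windowMean_eq, abs_mul]
  have h1 : |∫ t in (-(k : ℝ))..(k : ℝ), f t| ≤ B * |(k : ℝ) - (-(k : ℝ))| := by
    rw [← Real.norm_eq_abs (∫ t in (-(k : ℝ))..(k : ℝ), f t)]
    exact intervalIntegral.norm_integral_le_of_norm_le_const (fun x _ => hB x)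
  have h2 : |(k : ℝ) - (-(k : ℝ))| = 2 * k := by
    rw [abs_of_nonneg (by linarith)]; ring
  rw [h2] at h1
  rw [abs_of_nonneg (inv_nonneg.mpr (by linarith : (0 : ℝ) ≤ 2 * k))]
  rcases eq_or_lt_of_le hk0 with h | h
  · rw [← h]; simpa using hB0
  · calc (2 * (k : ℝ))⁻¹ * |∫ t in (-(k : ℝ))..(k : ℝ), f t|
        ≤ (2 * (k : ℝ))⁻¹ * (B * (2 * k)) := by gcongr
      _ = B := by field_simp

section Mean
variable (ω : Ultrafilter ℕ)

theorem um_tendsto {f : ℝ → ℝ} (hf : BC f) :
    Tendsto (windowMean f) (ω : Filter ℕ) (𝓝 (ultraMean ω f)) := by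
  obtain ⟨-, B, hB⟩ := hf
  have hc : IsCompact (Set.Icc (-B) B) := isCompact_Icc
  have hmem : ((ω.map (windowMean f) : Ultrafilter ℝ) : Filter ℝ) ≤ 𝓟 (Set.Icc (-B) B) := by
    rw [le_principal_iff, Ultrafilter.mem_coe, Ultrafilter.mem_map]
    exact Filter.univ_mem' (fun k => abs_le.mp (windowMean_abs_le hB k))
  obtain ⟨x, -, hx⟩ := hc.ultrafilter_le_nhds _ hmem
  have ht : Tendsto (windowMean f) (ω : Filter ℕ) (𝓝 x) := hx
  unfold ultraMean
  rw [ht.limUnder_eq]
  exact ht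

theorem um_eq_of_tendsto {f : ℝ → ℝ} {c : ℝ}
    (h : Tendsto (windowMean f) (ω : Filter ℕ) (𝓝 c)) : ultraMean ω f = c :=
  h.limUnder_eq

variable (hω : (ω : Filter ℕ) ≤ Filter.atTop)
include hω

theorem um_add {f g : ℝ → ℝ} (hf : BC f) (hg : BC g) :
    ultraMean ω (fun t => f t + g t) = ultraMean ω f + ultraMean ω g := by
  apply um_eq_of_tendsto
  have h := (um_tendsto ω hf).add (um_tendsto ω hg)
  refine h.congr (fun k => ?_)
  rw [windowMean_eq, windowMean_eq, windowMean_eq,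
    intervalIntegral.integral_add (hf.intervalIntegrable _ _) (hg.intervalIntegrable _ _), mul_add]

theorem um_const_mul (c : ℝ) {f : ℝ → ℝ} (hf : BC f) :
    ultraMean ω (fun t => c * f t) = c * ultraMean ω f := by
  apply um_eq_of_tendsto
  have h := (um_tendsto ω hf).const_mul c
  refine h.congr (fun k => ?_)
  rw [windowMean_eq, windowMean_eq, intervalIntegral.integral_const_mul]
  ring

theorem um_const (c : ℝ) : ultraMean ω (fun _ => c) = c := by
  apply um_eq_of_tendsto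
  have h1 : ∀ᶠ k : ℕ in (ω : Filter ℕ), windowMean (fun _ => c) k = c := by
    refine hω (eventually_atTop.mpr ⟨1, fun k hk => ?_⟩)
    have hk' : (1 : ℝ) ≤ k := by exact_mod_cast hk
    rw [windowMean_eq, intervalIntegral.integral_const, smul_eq_mul]
    field_simp
    ring
  exact (tendsto_const_nhds (x := c)).congr' (h1.mono fun k hk => hk.symm)

theorem um_sum {ι : Type*} (s : Finset ι) (f : ι → ℝ → ℝ) (hf : ∀ i ∈ s, BC (f i)) :
    ultraMean ω (fun t => ∑ i ∈ s, f i t) = ∑ i ∈ s, ultraMean ω (f i) := by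
  classical
  induction s using Finset.induction_on with
  | empty => simpa using um_const ω hω 0
  | insert a s ha ih =>
    have h1 : BC (f a) := hf a (Finset.mem_insert_self a s)
    have h2 : ∀ i ∈ s, BC (f i) := fun i hi => hf i (Finset.mem_insert_of_mem hi)
    have := um_add ω hω h1 (BC.sum s f h2)
    rw [Finset.sum_insert ha, ← ih h2, ← this]
    congr 1; funext t
    rw [Finset.sum_insert ha]

theorem um_mono {f g : ℝ → ℝ} (hf : BC f) (hg : BC g) (h : ∀ t, f t ≤ g t) :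
    ultraMean ω f ≤ ultraMean ω g := by
  refine le_of_tendsto_of_tendsto' (um_tendsto ω hf) (um_tendsto ω hg) (fun k => ?_)
  have hk0 : (0 : ℝ) ≤ k := Nat.cast_nonneg k
  rw [windowMean_eq, windowMean_eq]
  apply mul_le_mul_of_nonneg_left _ (inv_nonneg.mpr (by linarith : (0 : ℝ) ≤ 2 * k))
  exact intervalIntegral.integral_mono (by linarith) (hf.intervalIntegrable _ _)
    (hg.intervalIntegrable _ _) h

theorem um_shift (r : ℝ) {f : ℝ → ℝ} (hf : BC f) :
    ultraMean ω (fun t => f (t + r)) = ultraMean ω f := by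
  apply um_eq_of_tendsto
  obtain ⟨B, hB⟩ := hf.2
  have hB0 : 0 ≤ B := (abs_nonneg _).trans (hB 0)
  -- the difference tends to zero
  have hd : Tendsto (fun k : ℕ => windowMean (fun t => f (t + r)) k - windowMean f k)
      (ω : Filter ℕ) (𝓝 0) := by
    have hlim : Tendsto (fun k : ℕ => (B * |r|) * ((k : ℝ))⁻¹) atTop (𝓝 ((B * |r|) * 0)) :=
      (tendsto_inv_atTop_zero.comp tendsto_natCast_atTop_atTop).const_mul _
    rw [mul_zero] at hlim
    refine squeeze_zero_norm (fun k => ?_) (hlim.mono_left hω)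
    have hk0 : (0 : ℝ) ≤ k := Nat.cast_nonneg k
    rw [windowMean_eq, windowMean_eq, ← mul_sub, intervalIntegral.integral_comp_add_right,
      intervalIntegral.integral_interval_sub_interval_comm (hf.intervalIntegrable _ _)
        (hf.intervalIntegrable _ _) (hf.intervalIntegrable _ _), norm_mul]
    have h1 : ‖∫ t in (-(k : ℝ) + r)..(-(k : ℝ)), f t‖ ≤ B * |(-(k : ℝ)) - (-(k : ℝ) + r)| :=
      intervalIntegral.norm_integral_le_of_norm_le_const (fun x _ => hB x)
    have h2 : ‖∫ t in ((k : ℝ) + r)..(k : ℝ), f t‖ ≤ B * |(k : ℝ) - ((k : ℝ) + r)| :=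
      intervalIntegral.norm_integral_le_of_norm_le_const (fun x _ => hB x)
    have e1 : |(-(k : ℝ)) - (-(k : ℝ) + r)| = |r| := by
      rw [show (-(k : ℝ)) - (-(k : ℝ) + r) = -r by ring, abs_neg]
    have e2 : |(k : ℝ) - ((k : ℝ) + r)| = |r| := by
      rw [show (k : ℝ) - ((k : ℝ) + r) = -r by ring, abs_neg]
    rw [e1] at h1
    rw [e2] at h2
    have h3 := (norm_sub_le (∫ t in (-(k : ℝ) + r)..(-(k : ℝ)), f t)
      (∫ t in ((k : ℝ) + r)..(k : ℝ), f t)).trans (add_le_add h1 h2)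
    rw [Real.norm_of_nonneg (inv_nonneg.mpr (by linarith : (0 : ℝ) ≤ 2 * k))]
    calc (2 * (k : ℝ))⁻¹ * ‖(∫ t in (-(k : ℝ) + r)..(-(k : ℝ)), f t)
            - ∫ t in ((k : ℝ) + r)..(k : ℝ), f t‖
        ≤ (2 * (k : ℝ))⁻¹ * (B * |r| + B * |r|) := by gcongr
      _ = (B * |r|) * ((k : ℝ))⁻¹ := by rw [mul_inv]; ring
  have := hd.add (um_tendsto ω hf)
  rw [zero_add] at this
  exact this.congr (fun k => by ring)

theorem um_neg {f : ℝ → ℝ} (hf : BC f) :
    ultraMean ω (fun t => f (-t)) = ultraMean ω f := by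
  apply um_eq_of_tendsto
  refine (um_tendsto ω hf).congr (fun k => ?_)
  rw [windowMean_eq, windowMean_eq, intervalIntegral.integral_comp_neg, neg_neg]

theorem um_exists_le {f : ℝ → ℝ} (hf : BC f) {ε : ℝ} (hε : 0 < ε) :
    ∃ t, f t ≤ ultraMean ω f + ε := by
  by_contra hcon
  push Not at hcon
  have := um_mono ω hω (BC.const (ultraMean ω f + ε)) hf (fun t => (hcon t).le)
  rw [um_const ω hω] at this
  linarith

theorem um_exists_ge {f : ℝ → ℝ} (hf : BC f) {ε : ℝ} (hε : 0 < ε) :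
    ∃ t, ultraMean ω f - ε ≤ f t := by
  by_contra hcon
  push Not at hcon
  have := um_mono ω hω hf (BC.const (ultraMean ω f - ε)) (fun t => (hcon t).le)
  rw [um_const ω hω] at this
  linarith

end Mean

end Crest.Agent.R84
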