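import Crest.Agent.S0112_Calc

/-! Row 84 (S0112), module C: consequences of the Tomita condition. -/

set_option autoImplicit false

namespace Crest.Agent.R84

open Crest.OpAlg Filter MeasureTheory
open scoped Topology

variable {H : Type*} [NormedAddCommGroup H] [InnerProductSpace ℂ H] [CompleteSpace H]

local notation "BCF" => BoundedContinuousFunction ℝ ℂ

/-- product of a compactly supported bounded continuous function with a continuous function -/
noncomputable def cmul (f : BCF) (hf : HasCompactSupport (f : ℝ → ℂ)) (φ : ℝ → ℂ)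
    (hφ : Continuous φ) : BCF :=
  BoundedContinuousFunction.ofNormedAddCommGroup (fun u => f u * φ u) (f.continuous.mul hφ)
    (Classical.choose ((f.continuous.mul hφ).bounded_above_of_compact_support hf.mul_right))
    (Classical.choose_spec ((f.continuous.mul hφ).bounded_above_of_compact_support hf.mul_right))

theorem cmul_apply (f : BCF) (hf : HasCompactSupport (f : ℝ → ℂ)) (φ : ℝ → ℂ)
    (hφ : Continuous φ) (u : ℝ) : cmul f hf φ hφ u = f u * φ u := rfl

theorem cmul_compact (f : BCF) (hf : HasCompactSupport (f : ℝ → ℂ)) (φ : ℝ → ℂ)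
    (hφ : Continuous φ) : HasCompactSupport (cmul f hf φ hφ : ℝ → ℂ) := hf.mul_right

theorem mul_compact (f k : BCF) (hf : HasCompactSupport (f : ℝ → ℂ)) :
    HasCompactSupport ((f * k : BCF) : ℝ → ℂ) := hf.mul_right

theorem halfexp_cont : Continuous fun u : ℝ => ((Real.exp (u / 2) : ℝ) : ℂ) := by fun_prop

section Tomita
variable (S : ModularDatum H)

theorem J_inner (x y : H) : inner ℂ (S.J x) (S.J y) = inner ℂ y x := by
  have hI : S.J (Complex.I • y) = -(Complex.I • S.J y) := by
    rw [map_smulₛₗ]; simp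
  have h1 : ‖S.J x + S.J y‖ = ‖y + x‖ := by
    rw [← map_add, LinearIsometryEquiv.norm_map, add_comm]
  have h2 : ‖S.J x - S.J y‖ = ‖y - x‖ := by
    rw [← map_sub, LinearIsometryEquiv.norm_map, norm_sub_rev]
  have h3 : ‖S.J x - Complex.I • S.J y‖ = ‖y - Complex.I • x‖ := by
    have e : S.J x - Complex.I • S.J y = S.J (x + Complex.I • y) := by
      rw [map_add, hI]; abel
    have e2 : x + Complex.I • y = Complex.I • (y - Complex.I • x) := by
      rw [smul_sub, smul_smul, Complex.I_mul_I]; simp [add_comm]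
    rw [e, LinearIsometryEquiv.norm_map, e2, norm_smul, Complex.norm_I, one_mul]
  have h4 : ‖S.J x + Complex.I • S.J y‖ = ‖y + Complex.I • x‖ := by
    have e : S.J x + Complex.I • S.J y = S.J (x - Complex.I • y) := by
      rw [map_sub, hI]; abel
    have e2 : x - Complex.I • y = (-Complex.I) • (y + Complex.I • x) := by
      rw [smul_add, smul_smul, neg_mul, Complex.I_mul_I]; simp [sub_eq_add_neg, add_comm]
    rw [e, LinearIsometryEquiv.norm_map, e2, norm_smul, norm_neg, Complex.norm_I, one_mul]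
  rw [inner_eq_sum_norm_sq_div_four (S.J x) (S.J y), inner_eq_sum_norm_sq_div_four y x]
  simp only [RCLike.I_to_complex]
  rw [h1, h2, h3, h4]

theorem graph_of_mem (a : H →L[ℂ] H) (ha : a ∈ S.M) :
    S.D.HalfExp (a S.vac) (S.J (star a S.vac)) := by
  have hmem : (a S.vac, star a S.vac) ∈ closure (Set.range fun a : S.M =>
      ((a : H →L[ℂ] H) S.vac, star (a : H →L[ℂ] H) S.vac)) :=
    subset_closure ⟨⟨a, ha⟩, rfl⟩
  rw [S.tomita] at hmem
  exact hmem

theorem graph_pairing (x y : H) (hp : S.D.HalfExp x (S.J y)) :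
    inner ℂ y S.vac = inner ℂ S.vac x := by
  have hmem : (x, y) ∈ closure (Set.range fun a : S.M =>
      ((a : H →L[ℂ] H) S.vac, star (a : H →L[ℂ] H) S.vac)) := by
    rw [S.tomita]; exact hp
  have hclosed : IsClosed {p : H × H | inner ℂ p.2 S.vac = inner ℂ S.vac p.1} :=
    isClosed_eq (by fun_prop) (by fun_prop)
  have hsub : (Set.range fun a : S.M =>
      ((a : H →L[ℂ] H) S.vac, star (a : H →L[ℂ] H) S.vac)) ⊆
      {p : H × H | inner ℂ p.2 S.vac = inner ℂ S.vac p.1} := by
    rintro _ ⟨a, rfl⟩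
    change inner ℂ (star (a : H →L[ℂ] H) S.vac) S.vac = inner ℂ S.vac ((a : H →L[ℂ] H) S.vac)
    rw [ContinuousLinearMap.star_eq_adjoint, ContinuousLinearMap.adjoint_inner_left]
  exact closure_minimal hsub hclosed hmem

theorem halfExp_apply (D : LineCalculus H) (f g : BCF)
    (hfg : ∀ u : ℝ, g u = f u * ((Real.exp (u / 2) : ℝ) : ℂ)) (v : H) :
    D.HalfExp (D.apply f v) (D.apply g v) := by
  intro f' g' h'
  rw [← apply_mul, ← apply_mul]
  congr 2
  ext u
  rw [BoundedContinuousFunction.mul_apply, BoundedContinuousFunction.mul_apply, hfg, h']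
  ring

theorem halfExp_vac : S.D.HalfExp S.vac (S.J S.vac) := by
  have := graph_of_mem S 1 (one_mem S.M)
  simpa using this

theorem halfExp_vac' : S.D.HalfExp (S.J S.vac) S.vac := by
  intro f g hfg
  apply ext_inner_right ℂ
  intro v
  have hsg : ∀ u : ℝ, (star g) u = (star f) u * ((Real.exp (u / 2) : ℝ) : ℂ) := by
    intro u
    rw [BoundedContinuousFunction.star_apply, BoundedContinuousFunction.star_apply, hfg, star_mul']
    congr 1
    exact Complex.conj_ofReal _
  have h1 := halfExp_apply S.D (star f) (star g) hsg v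
  have h2 : S.D.HalfExp (S.D.apply (star f) v) (S.J (S.J (S.D.apply (star g) v))) := by
    rw [S.J_J]; exact h1
  have h3 := graph_pairing S _ _ h2
  have h4 : inner ℂ (S.J (S.D.apply (star g) v)) S.vac = inner ℂ (S.J S.vac) (S.D.apply (star g) v) := by
    conv_lhs => rw [← S.J_J S.vac]
    rw [J_inner]
  rw [h4, map_star, map_star, ContinuousLinearMap.star_eq_adjoint, ContinuousLinearMap.star_eq_adjoint,
    ContinuousLinearMap.adjoint_inner_right, ContinuousLinearMap.adjoint_inner_right] at h3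
  exact h3.symm

/-- `(f e^u)(D) ξ = f(D) ξ` for compactly supported `f` -/
theorem exp_vac (f : BCF) (hf : HasCompactSupport (f : ℝ → ℂ)) :
    S.D.apply (cmul f hf (fun u : ℝ => ((Real.exp u - 1 : ℝ) : ℂ)) (by fun_prop)) S.vac = 0 := by
  set g := cmul f hf _ halfexp_cont with hg
  have hgc : HasCompactSupport (g : ℝ → ℂ) := cmul_compact _ _ _ _
  set h := cmul g hgc _ halfexp_cont with hh
  have e1 : S.D.apply f S.vac = S.D.apply g (S.J S.vac) := halfExp_vac' S f g (fun u => rfl)
  have e2 : S.D.apply g (S.J S.vac) = S.D.apply h S.vac := halfExp_vac S g h (fun u => rfl)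
  have e3 : cmul f hf (fun u : ℝ => ((Real.exp u - 1 : ℝ) : ℂ)) (by fun_prop) = h - f := by
    ext u
    rw [BoundedContinuousFunction.sub_apply, cmul_apply, hh, cmul_apply, hg, cmul_apply, mul_assoc,
      ← Complex.ofReal_mul, ← Real.exp_add]
    have : u / 2 + u / 2 = u := by ring
    rw [this]; push_cast; ring
  rw [e3, map_sub, _root_.sub_apply, ← e2, ← e1, sub_self]


/-- the function `s / ((e^u - 1)^2 + s)` -/
noncomputable def rs (s : ℝ) (hs : 0 < s) : BCF :=
  BoundedContinuousFunction.ofNormedAddCommGroup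
    (fun u : ℝ => ((s / ((Real.exp u - 1) ^ 2 + s) : ℝ) : ℂ))
    (by
      apply Complex.continuous_ofReal.comp
      apply Continuous.div continuous_const (by fun_prop)
      intro u; positivity) 1
    (fun u => by
      rw [Complex.norm_real, Real.norm_eq_abs, abs_of_nonneg (by positivity),
        div_le_one (by positivity)]
      nlinarith [sq_nonneg (Real.exp u - 1)])

theorem rs_apply (s : ℝ) (hs : 0 < s) (u : ℝ) :
    rs s hs u = ((s / ((Real.exp u - 1) ^ 2 + s) : ℝ) : ℂ) := rfl

theorem res_vac (s : ℝ) (hs : 0 < s) (k : BCF) : S.D.apply (k * (1 - rs s hs)) S.vac = 0 := by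
  apply eq_zero_of_compact S.D
  intro f hf
  rw [← apply_mul]
  have hq : Continuous fun u : ℝ => (((Real.exp u - 1) / ((Real.exp u - 1) ^ 2 + s) : ℝ) : ℂ) := by
    apply Complex.continuous_ofReal.comp
    apply Continuous.div (by fun_prop) (by fun_prop)
    intro u; positivity
  have e : f * (k * (1 - rs s hs)) =
      cmul (cmul (f * k) (mul_compact f k hf) _ hq) (cmul_compact _ _ _ _)
        (fun u : ℝ => ((Real.exp u - 1 : ℝ) : ℂ)) (by fun_prop) := by
    ext u
    rw [cmul_apply, cmul_apply, BoundedContinuousFunction.mul_apply,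
      BoundedContinuousFunction.mul_apply, BoundedContinuousFunction.mul_apply,
      BoundedContinuousFunction.sub_apply, rs_apply,
      show (1 : BCF) u = 1 from rfl,
      mul_assoc, mul_assoc, ← Complex.ofReal_mul]
    congr 2
    rw [← Complex.ofReal_one, ← Complex.ofReal_sub]
    congr 1
    have : (Real.exp u - 1) ^ 2 + s ≠ 0 := by positivity
    field_simp
    ring
  rw [e]
  exact exp_vac S _ _

theorem small_sup (k : BCF) (hk : k 0 = 0) (ε : ℝ) (hε : 0 < ε) :
    ∃ (s : ℝ) (hs : 0 < s), ‖k * rs s hs‖ ≤ ε := by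
  have hc : ContinuousAt (k : ℝ → ℂ) 0 := k.continuous.continuousAt
  rw [Metric.continuousAt_iff] at hc
  obtain ⟨δ, hδ, hkδ⟩ := hc ε hε
  set c₀ : ℝ := 1 - Real.exp (-δ) with hc₀
  have hc₀pos : 0 < c₀ := by
    have : Real.exp (-δ) < 1 := by rw [Real.exp_lt_one_iff]; linarith
    linarith
  have hc₀δ : c₀ ≤ δ := by
    have := Real.add_one_le_exp (-δ)
    linarith
  have hs : 0 < ε * c₀ ^ 2 / (‖k‖ + 1) := by positivity
  refine ⟨ε * c₀ ^ 2 / (‖k‖ + 1), hs, ?_⟩
  rw [BoundedContinuousFunction.norm_le hε.le]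
  intro u
  rw [BoundedContinuousFunction.mul_apply, norm_mul, rs_apply, Complex.norm_real, Real.norm_eq_abs,
    abs_of_nonneg (by positivity)]
  set s : ℝ := ε * c₀ ^ 2 / (‖k‖ + 1) with hsdef
  by_cases hu : |u| < δ
  · have h1 : ‖k u‖ < ε := by
      have := hkδ (x := u) (by rwa [Real.dist_eq, sub_zero])
      rwa [hk, dist_zero_right] at this
    have h2 : s / ((Real.exp u - 1) ^ 2 + s) ≤ 1 := by
      rw [div_le_one (by positivity)]
      nlinarith [sq_nonneg (Real.exp u - 1)]
    calc ‖k u‖ * (s / ((Real.exp u - 1) ^ 2 + s)) ≤ ε * 1 := by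
          apply mul_le_mul h1.le h2 (by positivity) hε.le
      _ = ε := mul_one _
  · push Not at hu
    have hm : c₀ ^ 2 ≤ (Real.exp u - 1) ^ 2 := by
      rcases le_abs.mp hu with h | h
      · have h1 : δ ≤ Real.exp u - 1 := by
          have := Real.add_one_le_exp u
          linarith
        have h2 : c₀ ≤ Real.exp u - 1 := hc₀δ.trans h1
        exact pow_le_pow_left₀ hc₀pos.le h2 2
      · have h1 : Real.exp u ≤ Real.exp (-δ) := Real.exp_le_exp.mpr (by linarith)
        have h2 : c₀ ≤ 1 - Real.exp u := by linarith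
        have h3 := pow_le_pow_left₀ hc₀pos.le h2 2
        nlinarith
    have h2 : s / ((Real.exp u - 1) ^ 2 + s) ≤ s / c₀ ^ 2 := by
      apply div_le_div_of_nonneg_left hs.le (by positivity)
      linarith
    have h3 : s / c₀ ^ 2 = ε / (‖k‖ + 1) := by
      rw [hsdef]; field_simp
    calc ‖k u‖ * (s / ((Real.exp u - 1) ^ 2 + s)) ≤ ‖k‖ * (ε / (‖k‖ + 1)) := by
          apply mul_le_mul (k.norm_coe_le_norm u) (h2.trans h3.le) (by positivity) (norm_nonneg _)
      _ ≤ ε := by
          rw [mul_div_assoc', div_le_iff₀ (by positivity)]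
          nlinarith [norm_nonneg k]

theorem supp_vac : S.D.SupportedIn {0} S.vac := by
  intro k hk
  have hk0 : k 0 = 0 := hk 0 rfl
  rw [← norm_le_zero_iff]
  refine le_of_forall_pos_le_add fun ε hε => ?_
  obtain ⟨s, hs, hks⟩ := small_sup k hk0 ε hε
  have e : k = k * rs s hs + k * (1 - rs s hs) := by ring
  have e2 : S.D.apply k S.vac = S.D.apply (k * rs s hs) S.vac := by
    conv_lhs => rw [e]
    rw [map_add, _root_.add_apply, res_vac, add_zero]
  rw [e2, zero_add]
  calc ‖S.D.apply (k * rs s hs) S.vac‖ ≤ ‖S.D.apply (k * rs s hs)‖ * ‖S.vac‖ :=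
        ContinuousLinearMap.le_opNorm _ _
    _ ≤ ε * 1 := by
        rw [S.norm_vac]
        exact mul_le_mul_of_nonneg_right ((apply_norm_le S.D _).trans hks) zero_le_one
    _ = ε := mul_one _

theorem apply_vac (f : BCF) : S.D.apply f S.vac = f 0 • S.vac := by
  have h := apply_congr_supp S.D {0} f (f 0 • (1 : BCF))
    (fun u hu => by
      rw [Set.mem_singleton_iff.mp hu]
      simp) S.vac (supp_vac S)
  rw [h, map_smul, map_one]
  rfl

theorem wave_vac (t : ℝ) : S.D.wave t S.vac = S.vac := by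
  unfold LineCalculus.wave
  rw [apply_vac, character_apply]
  simp

theorem flow_vac (t : ℝ) (a : H →L[ℂ] H) : S.flow t a S.vac = S.D.wave t (a S.vac) := by
  change S.D.wave t (a (S.D.wave (-t) S.vac)) = _
  rw [wave_vac]

/-- the function `e^{min(u,β)/2}` -/
noncomputable def capExp (β : ℝ) : BCF :=
  BoundedContinuousFunction.ofNormedAddCommGroup
    (fun u : ℝ => ((Real.exp (min u β / 2) : ℝ) : ℂ)) (by fun_prop) (Real.exp (β / 2))
    (fun u => by
      rw [Complex.norm_real, Real.norm_eq_abs, abs_of_nonneg (Real.exp_pos _).le]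
      apply Real.exp_le_exp.mpr
      have := min_le_right u β
      linarith)

theorem capExp_norm_le (β : ℝ) : ‖capExp β‖ ≤ Real.exp (β / 2) := by
  rw [BoundedContinuousFunction.norm_le (Real.exp_pos _).le]
  intro u
  change ‖((Real.exp (min u β / 2) : ℝ) : ℂ)‖ ≤ _
  rw [Complex.norm_real, Real.norm_eq_abs, abs_of_nonneg (Real.exp_pos _).le]
  apply Real.exp_le_exp.mpr
  have := min_le_right u β
  linarith

theorem adjoint_bound (a : H →L[ℂ] H) (ha : a ∈ S.M) (α β : ℝ)
    (hsupp : S.D.SupportedIn (Set.Icc α β) (a S.vac)) :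
    ‖(star a) S.vac‖ ^ 2 ≤ Real.exp β * ‖a S.vac‖ ^ 2 := by
  have hg := graph_of_mem S a ha
  have hy : S.J (star a S.vac) = S.D.apply (capExp β) (a S.vac) := by
    rw [← sub_eq_zero]
    apply eq_zero_of_compact S.D
    intro f hf
    rw [map_sub, sub_eq_zero, hg f (cmul f hf _ halfexp_cont) (fun u => rfl), ← apply_mul]
    apply apply_congr_supp S.D (Set.Icc α β) _ _ _ _ hsupp
    intro u hu
    rw [cmul_apply, BoundedContinuousFunction.mul_apply]
    change _ = f u * ((Real.exp (min u β / 2) : ℝ) : ℂ)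
    rw [min_eq_left hu.2]
  have h1 : ‖(star a) S.vac‖ = ‖S.D.apply (capExp β) (a S.vac)‖ := by
    rw [← hy, LinearIsometryEquiv.norm_map]
  have h2 : ‖S.D.apply (capExp β) (a S.vac)‖ ≤ Real.exp (β / 2) * ‖a S.vac‖ :=
    (ContinuousLinearMap.le_opNorm _ _).trans
      (mul_le_mul_of_nonneg_right ((apply_norm_le S.D _).trans (capExp_norm_le β)) (norm_nonneg _))
  rw [h1]
  calc ‖S.D.apply (capExp β) (a S.vac)‖ ^ 2 ≤ (Real.exp (β / 2) * ‖a S.vac‖) ^ 2 :=
        pow_le_pow_left₀ (norm_nonneg _) h2 2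
    _ = Real.exp β * ‖a S.vac‖ ^ 2 := by
        rw [mul_pow, ← Real.exp_nat_mul]
        congr 2
        push_cast; ring

end Tomita

end Crest.Agent.R84
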