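import Crest.Agent.S0112_Calc
import Crest.Agent.S0112_Mean
import Crest.Agent.S0112_Tomita

/-! Row 84 (S0112), module D: the modular flow and the ergodic mean. -/

set_option autoImplicit false

namespace Crest.Agent.R84

open Crest.OpAlg Filter MeasureTheory
open scoped Topology

variable {H : Type*} [NormedAddCommGroup H] [InnerProductSpace ℂ H] [CompleteSpace H]

section Ergodic
variable (S : ModularDatum H)

theorem flow_mem' (t : ℝ) (a : H →L[ℂ] H) (ha : a ∈ S.M) : S.flow t a ∈ S.M :=
  S.flow_mem t a ha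

theorem flow_apply (t : ℝ) (a : H →L[ℂ] H) (x : H) :
    S.flow t a x = S.D.wave t (a (S.D.wave (-t) x)) := rfl

theorem wave_neg_mul (t : ℝ) : S.D.wave (-t) * S.D.wave t = 1 := by
  rw [← wave_add, neg_add_cancel, wave_zero]

theorem wave_mul_neg (t : ℝ) : S.D.wave t * S.D.wave (-t) = 1 := by
  rw [← wave_add, add_neg_cancel, wave_zero]

theorem flow_star (t : ℝ) (a : H →L[ℂ] H) : star (S.flow t a) = S.flow t (star a) := by
  unfold ModularDatum.flow
  rw [star_mul, star_mul, wave_star, wave_star, neg_neg, mul_assoc]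

theorem flow_mul (t : ℝ) (a b : H →L[ℂ] H) : S.flow t (a * b) = S.flow t a * S.flow t b := by
  unfold ModularDatum.flow
  calc S.D.wave t * (a * b) * S.D.wave (-t)
      = S.D.wave t * a * 1 * b * S.D.wave (-t) := by simp [mul_assoc]
    _ = S.D.wave t * a * (S.D.wave (-t) * S.D.wave t) * b * S.D.wave (-t) := by
        rw [wave_neg_mul]
    _ = _ := by simp only [mul_assoc]

theorem flow_flow (s t : ℝ) (a : H →L[ℂ] H) : S.flow s (S.flow t a) = S.flow (s + t) a := by
  unfold ModularDatum.flow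
  have h1 : S.D.wave (s + t) = S.D.wave s * S.D.wave t := wave_add _ _ _
  have h2 : S.D.wave (-(s + t)) = S.D.wave (-t) * S.D.wave (-s) := by
    rw [← wave_add]; congr 1; ring
  rw [h1, h2]; simp only [mul_assoc]

theorem flow_zero (a : H →L[ℂ] H) : S.flow 0 a = a := by
  unfold ModularDatum.flow
  rw [neg_zero, wave_zero, one_mul, mul_one]

theorem flow_norm_le (t : ℝ) (a : H →L[ℂ] H) : ‖S.flow t a‖ ≤ ‖a‖ := by
  refine ContinuousLinearMap.opNorm_le_bound _ (norm_nonneg _) (fun x => ?_)
  rw [flow_apply, wave_norm]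
  calc ‖a (S.D.wave (-t) x)‖ ≤ ‖a‖ * ‖S.D.wave (-t) x‖ := a.le_opNorm _
    _ = ‖a‖ * ‖x‖ := by rw [wave_norm]

theorem flow_norm (t : ℝ) (a : H →L[ℂ] H) : ‖S.flow t a‖ = ‖a‖ := by
  refine le_antisymm (flow_norm_le S t a) ?_
  have h : S.flow (-t) (S.flow t a) = a := by rw [flow_flow, neg_add_cancel, flow_zero]
  calc ‖a‖ = ‖S.flow (-t) (S.flow t a)‖ := by rw [h]
    _ ≤ ‖S.flow t a‖ := flow_norm_le S _ _

theorem flow_abs_le (z : H →L[ℂ] H) (x y : H) (t : ℝ) :
    |(inner ℂ y (S.flow t z x)).re| ≤ ‖z‖ * ‖x‖ * ‖y‖ := by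
  calc |(inner ℂ y (S.flow t z x)).re| ≤ ‖inner ℂ y (S.flow t z x)‖ := Complex.abs_re_le_norm _
    _ ≤ ‖y‖ * ‖S.flow t z x‖ := norm_inner_le_norm _ _
    _ ≤ ‖y‖ * (‖S.flow t z‖ * ‖x‖) := by gcongr; exact (S.flow t z).le_opNorm x
    _ = ‖z‖ * ‖x‖ * ‖y‖ := by rw [flow_norm]; ring

theorem flow_bc (z : H →L[ℂ] H) (x y : H) : BC (fun t => (inner ℂ y (S.flow t z x)).re) := by
  refine ⟨?_, ‖z‖ * ‖x‖ * ‖y‖, fun t => flow_abs_le S z x y t⟩
  have h1 : Continuous fun t : ℝ => z (S.D.wave (-t) x) :=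
    z.continuous.comp ((wave_continuous S.D x).comp continuous_neg)
  have h2 : Continuous fun t : ℝ => S.flow t z x := wave_continuous' S.D _ h1
  exact Complex.continuous_re.comp (Continuous.inner continuous_const h2)


/-! ### the mean operator -/

theorem bc_const (c : ℝ) : BC (fun _ : ℝ => c) := ⟨continuous_const, |c|, fun _ => le_rfl⟩

theorem um_abs_le (ω : Ultrafilter ℕ) (hω : (ω : Filter ℕ) ≤ Filter.atTop) {f : ℝ → ℝ} (hf : BC f)
    (B : ℝ) (hB : ∀ t, |f t| ≤ B) : |ultraMean ω f| ≤ B := by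
  rw [abs_le]
  constructor
  · have := um_mono ω hω (bc_const (-B)) hf (fun t => (abs_le.mp (hB t)).1)
    rwa [um_const ω hω] at this
  · have := um_mono ω hω hf (bc_const B) (fun t => (abs_le.mp (hB t)).2)
    rwa [um_const ω hω] at this

/-- the real bilinear form `(x, y) ↦ mean_t Re ⟨y, σ_t(z) x⟩` -/
noncomputable def meanForm (ω : Ultrafilter ℕ) (z : H →L[ℂ] H) (x y : H) : ℝ :=
  ultraMean ω (fun t => (inner ℂ y (S.flow t z x)).re)

variable (ω : Ultrafilter ℕ) (hω : (ω : Filter ℕ) ≤ Filter.atTop) (z : H →L[ℂ] H)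

include hω in
theorem meanForm_add_left (x x' y : H) :
    meanForm S ω z (x + x') y = meanForm S ω z x y + meanForm S ω z x' y := by
  unfold meanForm
  rw [← um_add ω hω (flow_bc S z x y) (flow_bc S z x' y)]
  congr 1; funext t
  rw [map_add, inner_add_right, Complex.add_re]

include hω in
theorem meanForm_add_right (x y y' : H) :
    meanForm S ω z x (y + y') = meanForm S ω z x y + meanForm S ω z x y' := by
  unfold meanForm
  rw [← um_add ω hω (flow_bc S z x y) (flow_bc S z x y')]
  congr 1; funext t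
  rw [inner_add_left, Complex.add_re]

include hω in
theorem meanForm_smul_left (c : ℝ) (x y : H) :
    meanForm S ω z (c • x) y = c * meanForm S ω z x y := by
  unfold meanForm
  rw [← um_const_mul ω hω c (flow_bc S z x y)]
  congr 1; funext t
  rw [← Complex.coe_smul, map_smul, inner_smul_right, Complex.re_ofReal_mul]

include hω in
theorem meanForm_smul_right (c : ℝ) (x y : H) :
    meanForm S ω z x (c • y) = c * meanForm S ω z x y := by
  unfold meanForm
  rw [← um_const_mul ω hω c (flow_bc S z x y)]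
  congr 1; funext t
  rw [← Complex.coe_smul, inner_smul_left, Complex.conj_ofReal, Complex.re_ofReal_mul]

include hω in
theorem meanForm_abs_le (x y : H) : |meanForm S ω z x y| ≤ ‖z‖ * ‖x‖ * ‖y‖ :=
  um_abs_le ω hω (flow_bc S z x y) _ (flow_abs_le S z x y)

/-- complex scalars move from one slot to the other -/
theorem meanForm_csmul (c : ℂ) (x y : H) :
    meanForm S ω z (c • x) y = meanForm S ω z x ((starRingEnd ℂ) c • y) := by
  unfold meanForm
  congr 1; funext t
  rw [map_smul, inner_smul_right, inner_smul_left, Complex.conj_conj]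

/-- the bilinear form as a bundled continuous bilinear map over `ℝ` -/
noncomputable def meanBilin : H →L[ℝ] H →L[ℝ] ℝ :=
  LinearMap.mkContinuous₂
    (LinearMap.mk₂ ℝ (meanForm S ω z)
      (meanForm_add_left S ω hω z) (meanForm_smul_left S ω hω z)
      (meanForm_add_right S ω hω z) (meanForm_smul_right S ω hω z))
    ‖z‖ (fun x y => by
      simpa using meanForm_abs_le S ω hω z x y)

theorem meanBilin_apply (x y : H) : meanBilin S ω hω z x y = meanForm S ω z x y := rfl


/-- the sesquilinear form `(y, x) ↦ mean_t ⟨y, σ_t(z) x⟩` -/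
noncomputable def meanSesq (y x : H) : ℂ :=
  ⟨meanForm S ω z x y, meanForm S ω z x (Complex.I • y)⟩

include hω in
theorem meanForm_csmul_right (c : ℂ) (x y : H) :
    meanForm S ω z x (c • y) = c.re * meanForm S ω z x y + c.im * meanForm S ω z x (Complex.I • y) := by
  have h : c • y = c.re • y + c.im • (Complex.I • y) := by
    conv_lhs => rw [← Complex.re_add_im c]
    rw [add_smul, mul_smul, Complex.coe_smul, Complex.coe_smul]
  rw [h, meanForm_add_right S ω hω, meanForm_smul_right S ω hω, meanForm_smul_right S ω hω]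

include hω in
theorem meanSesq_add_left (y y' x : H) :
    meanSesq S ω z (y + y') x = meanSesq S ω z y x + meanSesq S ω z y' x := by
  unfold meanSesq
  apply Complex.ext
  · simp [meanForm_add_right S ω hω]
  · simp [meanForm_add_right S ω hω, smul_add]

include hω in
theorem meanSesq_add_right (y x x' : H) :
    meanSesq S ω z y (x + x') = meanSesq S ω z y x + meanSesq S ω z y x' := by
  unfold meanSesq
  apply Complex.ext
  · simp [meanForm_add_left S ω hω]
  · simp [meanForm_add_left S ω hω]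

include hω in
theorem meanSesq_smul_left (c : ℂ) (y x : H) :
    meanSesq S ω z (c • y) x = (starRingEnd ℂ) c • meanSesq S ω z y x := by
  unfold meanSesq
  have h2 : Complex.I • c • y = (Complex.I * c) • y := by rw [mul_smul]
  apply Complex.ext
  · rw [meanForm_csmul_right S ω hω]
    simp
  · rw [h2, meanForm_csmul_right S ω hω z (Complex.I * c) x y]
    simp
    ring

include hω in
theorem meanSesq_smul_right (c : ℂ) (y x : H) :
    meanSesq S ω z y (c • x) = c • meanSesq S ω z y x := by
  have h := meanSesq_smul_left S ω hω z ((starRingEnd ℂ) c) y x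
  rw [Complex.conj_conj] at h
  rw [← h]
  unfold meanSesq
  rw [meanForm_csmul, meanForm_csmul, smul_comm]

include hω in
theorem meanSesq_norm_le (y x : H) : ‖meanSesq S ω z y x‖ ≤ (2 * ‖z‖) * ‖y‖ * ‖x‖ := by
  have h1 := meanForm_abs_le S ω hω z x y
  have h2 := meanForm_abs_le S ω hω z x (Complex.I • y)
  rw [norm_smul, Complex.norm_I, one_mul] at h2
  calc ‖meanSesq S ω z y x‖ ≤ |(meanSesq S ω z y x).re| + |(meanSesq S ω z y x).im| :=
        Complex.norm_le_abs_re_add_abs_im _
    _ ≤ ‖z‖ * ‖x‖ * ‖y‖ + ‖z‖ * ‖x‖ * ‖y‖ := add_le_add h1 h2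
    _ = _ := by ring

/-- bundled sesquilinear form -/
noncomputable def meanB : H →L⋆[ℂ] H →L[ℂ] ℂ :=
  LinearMap.mkContinuous₂
    (LinearMap.mk₂'ₛₗ (starRingEnd ℂ) (RingHom.id ℂ) (meanSesq S ω z)
      (meanSesq_add_left S ω hω z) (meanSesq_smul_left S ω hω z)
      (meanSesq_add_right S ω hω z) (meanSesq_smul_right S ω hω z))
    (2 * ‖z‖) (meanSesq_norm_le S ω hω z)

/-- the mean operator `E(z)` -/
noncomputable def meanOp : H →L[ℂ] H :=
  ContinuousLinearMap.adjoint (InnerProductSpace.continuousLinearMapOfBilin (meanB S ω hω z))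

theorem meanOp_inner (x y : H) : inner ℂ y (meanOp S ω hω z x) = meanSesq S ω z y x := by
  unfold meanOp
  rw [ContinuousLinearMap.adjoint_inner_right, InnerProductSpace.continuousLinearMapOfBilin_apply]
  rfl

theorem meanOp_re (x y : H) : (inner ℂ y (meanOp S ω hω z x)).re = meanForm S ω z x y := by
  rw [meanOp_inner]; rfl

omit [CompleteSpace H] in
theorem eq_of_re_inner {u v : H} (h : ∀ y : H, (inner ℂ y u).re = (inner ℂ y v).re) : u = v := by
  have h1 := h (u - v)
  have h2 : (inner ℂ (u - v) (u - v)).re = 0 := by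
    rw [inner_sub_right, Complex.sub_re, h1, sub_self]
  have h3 : ‖u - v‖ ^ 2 = 0 := by
    rw [← h2]; exact (inner_self_eq_norm_sq (𝕜 := ℂ) (u - v)).symm
  have h4 : ‖u - v‖ = 0 := by simpa using h3
  exact sub_eq_zero.mp (norm_eq_zero.mp h4)

theorem meanOp_mem (hz : z ∈ S.M) : meanOp S ω hω z ∈ S.M := by
  rw [← VonNeumannAlgebra.commutant_commutant S.M, VonNeumannAlgebra.mem_commutant_iff]
  intro g hg
  rw [VonNeumannAlgebra.mem_commutant_iff] at hg
  ext x
  apply eq_of_re_inner
  intro y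
  change (inner ℂ y (g (meanOp S ω hω z x))).re = (inner ℂ y (meanOp S ω hω z (g x))).re
  rw [meanOp_re, ← ContinuousLinearMap.adjoint_inner_left, meanOp_re]
  unfold meanForm
  congr 1; funext t
  rw [ContinuousLinearMap.adjoint_inner_left]
  have := hg _ (flow_mem' S t z hz)
  have h2 : S.flow t z (g x) = g (S.flow t z x) := congrArg (fun A : H →L[ℂ] H => A x) this
  rw [h2]

include hω in
theorem meanOp_flow (r : ℝ) : S.flow r (meanOp S ω hω z) = meanOp S ω hω z := by
  ext x
  apply eq_of_re_inner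
  intro y
  rw [flow_apply, ← neg_neg r, ← wave_inner, neg_neg, meanOp_re, meanOp_re]
  unfold meanForm
  rw [← um_shift ω hω r (flow_bc S z x y)]
  congr 1; funext t
  rw [wave_inner, neg_neg, ← flow_apply, flow_flow, add_comm]

include hω in
theorem meanForm_vac (c : ℂ) :
    meanForm S ω z S.vac (c • S.vac) = ((starRingEnd ℂ) c * inner ℂ S.vac (z S.vac)).re := by
  unfold meanForm
  rw [← um_const ω hω (((starRingEnd ℂ) c * inner ℂ S.vac (z S.vac)).re)]
  congr 1; funext t
  rw [flow_vac, inner_smul_left, ← neg_neg t, ← wave_inner, wave_vac]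

theorem ergodic_mean (herg : S.Ergodic) (ω : Ultrafilter ℕ) (hω : (ω : Filter ℕ) ≤ Filter.atTop)
    (z : H →L[ℂ] H) (hz : z ∈ S.M) (x y : H) :
    ultraMean ω (fun t => (inner ℂ y (S.flow t z x)).re)
      = (inner ℂ S.vac (z S.vac) * inner ℂ y x).re := by
  obtain ⟨c, hc⟩ := herg (meanOp S ω hω z) (meanOp_mem S ω hω z hz) (meanOp_flow S ω hω z)
  have hvv : inner ℂ S.vac S.vac = (1 : ℂ) := by
    rw [inner_self_eq_norm_sq_to_K, S.norm_vac]; simp
  have h1 : inner ℂ S.vac (meanOp S ω hω z S.vac) = c := by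
    rw [hc]; simp [S.norm_vac]
  have h2 : c = inner ℂ S.vac (z S.vac) := by
    rw [← h1, meanOp_inner]
    unfold meanSesq
    have e1 := meanForm_vac S ω hω z 1
    have e2 := meanForm_vac S ω hω z Complex.I
    rw [one_smul] at e1
    apply Complex.ext
    · simpa using e1
    · simpa using e2
  have h3 := meanOp_re S ω hω z x y
  unfold meanForm at h3
  rw [← h3, hc, ← h2]
  simp

end Ergodic

end Crest.Agent.R84
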