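import Crest.Agent.S0112_Defs

/-! Row 84 (S0112), module E1: existence of a smoothing kernel (smooth bump + Fourier inversion for Schwartz
functions). -/

set_option autoImplicit false

namespace Crest.Agent.R84

open Crest.OpAlg Filter MeasureTheory FourierTransform
open scoped Topology SchwartzMap ContDiff

theorem kernel_exists : Nonempty Kernel := by
  let b : ContDiffBump (0 : ℝ) := ⟨1, 2, one_pos, one_lt_two⟩
  let gC : ℝ → ℂ := fun r => ((b r : ℝ) : ℂ)
  have hsupp : HasCompactSupport gC := by
    have := b.hasCompactSupport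
    exact this.comp_left (g := fun x : ℝ => (x : ℂ)) (by simp)
  have hsm : ContDiff ℝ ∞ gC := Complex.ofRealCLM.contDiff.comp b.contDiff
  let f : 𝓢(ℝ, ℂ) := hsupp.toSchwartzMap hsm
  let h : 𝓢(ℝ, ℂ) := 𝓕 f
  have hinv : ∀ r, 𝓕⁻ (h : ℝ → ℂ) r = gC r := by
    intro r
    have := f.continuous.fourierInv_fourier_eq f.integrable (𝓕 f).integrable
    exact congrFun this r
  have hpi : (0 : ℝ) < 2 * Real.pi := by positivity
  refine ⟨{ g := b
            k := fun τ => ((2 * Real.pi : ℝ) : ℂ)⁻¹ * h (τ / (2 * Real.pi))
            g_cont := b.continuous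
            g_one := fun r hr => b.one_of_mem_closedBall (by
              rw [mem_closedBall_zero_iff, Real.norm_eq_abs]; exact hr)
            g_zero := fun r hr => b.zero_of_le_dist (by
              rw [dist_zero_right, Real.norm_eq_abs]; exact hr)
            g_nonneg := fun r => b.nonneg
            g_le := fun r => b.le_one
            k_cont := continuous_const.mul (h.continuous.comp (continuous_id.div_const _))
            k_int := ?_
            inv := ?_ }⟩
  · apply Integrable.const_mul
    exact (h.integrable (μ := volume)).comp_div hpi.ne'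
  · intro r
    have h1 : ((b r : ℝ) : ℂ) = 𝓕⁻ (h : ℝ → ℂ) r := (hinv r).symm
    rw [h1, Real.fourierInv_eq']
    have h2 := Measure.integral_comp_div
      (fun v : ℝ => Complex.exp ((↑(2 * Real.pi * inner ℝ v r) * Complex.I)) • h v) (2 * Real.pi)
    rw [abs_of_pos hpi] at h2
    have h3 : (∫ v : ℝ, Complex.exp ((↑(2 * Real.pi * inner ℝ v r) * Complex.I)) • h v)
        = (2 * Real.pi)⁻¹ • ∫ x : ℝ, Complex.exp ((↑(2 * Real.pi * inner ℝ (x / (2 * Real.pi)) r) * Complex.I))
            • h (x / (2 * Real.pi)) := by
      rw [h2, smul_smul, inv_mul_cancel₀ hpi.ne', one_smul]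
    rw [h3, ← integral_smul]
    refine integral_congr_ae (ae_of_all _ fun τ => ?_)
    simp only [smul_eq_mul, Complex.real_smul]
    have h4 : (2 * Real.pi * inner ℝ (τ / (2 * Real.pi)) r) = τ * r := by
      have : inner ℝ (τ / (2 * Real.pi)) r = r * (τ / (2 * Real.pi)) := by simp [inner]
      rw [this]
      field_simp
    rw [h4]
    push_cast
    ring_nf
end Crest.Agent.R84
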