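import Crest.Agent.S0112_Defs

/-! Row 84 (S0112), module F: orthogonality of cube-root characters on `(Fin 3)^N`. -/

set_option autoImplicit false

namespace Crest.Agent.R84

open Finset

section Phases
variable {E : Type*} [NormedAddCommGroup E] [InnerProductSpace ℂ E]

/-- Parseval for an orthogonal family of scalar functions on a finite set. -/
theorem parseval_of_orth {Ω I : Type*} [Fintype Ω] [Fintype I] [DecidableEq I]
    (χ : I → Ω → ℂ) (c : ℝ)
    (horth : ∀ i j, ∑ ω, (starRingEnd ℂ) (χ i ω) * χ j ω = if i = j then (c : ℂ) else 0)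
    (y : I → E) :
    ∑ ω, ‖∑ i, χ i ω • y i‖ ^ 2 = c * ∑ i, ‖y i‖ ^ 2 := by
  have h1 : ∀ ω, ((‖∑ i, χ i ω • y i‖ ^ 2 : ℝ) : ℂ)
      = ∑ i, ∑ j, ((starRingEnd ℂ) (χ i ω) * χ j ω) * inner ℂ (y i) (y j) := by
    intro ω
    have := inner_self_eq_norm_sq_to_K (𝕜 := ℂ) (∑ i, χ i ω • y i)
    rw [Complex.ofReal_pow]
    rw [show ((‖∑ i, χ i ω • y i‖ : ℝ) : ℂ) ^ 2 = inner ℂ (∑ i, χ i ω • y i) (∑ i, χ i ω • y i)
      from this.symm]
    rw [sum_inner]
    refine Finset.sum_congr rfl fun i _ => ?_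
    rw [inner_sum]
    refine Finset.sum_congr rfl fun j _ => ?_
    rw [inner_smul_left, inner_smul_right]; ring
  apply Complex.ofReal_injective
  rw [Complex.ofReal_sum]
  simp_rw [h1]
  rw [Finset.sum_comm]
  have h2 : ∀ i, ∑ ω, ∑ j, ((starRingEnd ℂ) (χ i ω) * χ j ω) * inner ℂ (y i) (y j)
      = (c : ℂ) * ((‖y i‖ ^ 2 : ℝ) : ℂ) := by
    intro i
    rw [Finset.sum_comm]
    simp_rw [← Finset.sum_mul, horth]
    simp only [ite_mul, zero_mul, Finset.sum_ite_eq, Finset.mem_univ, if_true]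
    rw [Complex.ofReal_pow, inner_self_eq_norm_sq_to_K (𝕜 := ℂ)]
    rfl
  simp_rw [h2]
  rw [← Finset.mul_sum]
  push_cast
  rfl

theorem ph_norm (j : Fin 3) : ‖ph j‖ = 1 := by
  unfold ph
  rw [Complex.norm_exp]
  simp

theorem ph_conj_mul (j : Fin 3) : (starRingEnd ℂ) (ph j) * ph j = 1 := by
  rw [mul_comm, Complex.mul_conj, Complex.normSq_eq_norm_sq, ph_norm]; simp

theorem ph_zero : ph 0 = 1 := by simp [ph]

theorem ph_one_cube : ph 1 ^ 3 = 1 := by
  unfold ph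
  rw [← Complex.exp_nat_mul]
  have : ((3 : ℕ) : ℂ) * (2 * Real.pi * Complex.I * (((1 : Fin 3) : ℕ) : ℂ) / 3) = 2 * Real.pi * Complex.I := by
    simp
    ring
  rw [this, Complex.exp_two_pi_mul_I]

theorem ph_eq_pow (j : Fin 3) : ph j = ph 1 ^ (j : ℕ) := by
  unfold ph
  rw [← Complex.exp_nat_mul]
  congr 1
  simp
  ring

theorem ph_one_ne_one : ph 1 ≠ 1 := by
  unfold ph
  intro h
  rw [Complex.exp_eq_one_iff] at h
  obtain ⟨n, hn⟩ := h
  have h2 : (2 * Real.pi * Complex.I : ℂ) ≠ 0 := by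
    simp [Real.pi_ne_zero]
  have h3 : (1 : ℂ) / 3 = n := by
    have : (2 * Real.pi * Complex.I : ℂ) * (1 / 3) = (2 * Real.pi * Complex.I) * n := by
      rw [mul_comm _ (n : ℂ), ← hn]; simp; ring
    exact mul_left_cancel₀ h2 this
  have h4 : (1 : ℂ) = ((3 * n : ℤ) : ℂ) := by
    push_cast; rw [← h3]; norm_num
  have h5 : (1 : ℤ) = 3 * n := by exact_mod_cast h4
  omega

theorem ph_succ (j : Fin 3) : ph (j + 1) = ph 1 * ph j := by
  rw [ph_eq_pow (j + 1), ph_eq_pow j]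
  fin_cases j
  · simp
  · show ph 1 ^ 2 = ph 1 * ph 1 ^ 1
    ring
  · show ph 1 ^ 0 = ph 1 * ph 1 ^ 2
    rw [pow_zero, ← ph_one_cube]; ring

theorem ph_one_sq_ne_one : ph 1 * ph 1 ≠ 1 := by
  intro h
  apply ph_one_ne_one
  have := ph_one_cube
  rw [pow_succ, pow_two, h, one_mul] at this
  exact this

theorem ph_one_conj_ne_one : (starRingEnd ℂ) (ph 1) ≠ 1 := by
  intro h
  apply ph_one_ne_one
  have := ph_conj_mul 1
  rw [h, one_mul] at this
  exact this

/-- the unit shift in coordinate `m` -/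
def esh {N : ℕ} (m : Fin N) : Fin N → Fin 3 := Pi.single m (1 : Fin 3)

/-- a function on `(Fin 3)^N` which is multiplied by `lam ≠ 1` under a coordinate shift sums to zero -/
theorem sum_eq_zero_of_shift {N : ℕ} (F : (Fin N → Fin 3) → ℂ) (m : Fin N) (lam : ℂ) (hlam : lam ≠ 1)
    (h : ∀ ζ, F (ζ + esh m) = lam * F ζ) : ∑ ζ, F ζ = 0 := by
  have h1 : ∑ ζ, F ζ = ∑ ζ, F (ζ + esh m) :=
    (Equiv.sum_comp (Equiv.addRight (esh m)) F).symm
  simp_rw [h, ← Finset.mul_sum] at h1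
  have h2 : (1 - lam) * ∑ ζ, F ζ = 0 := by
    rw [sub_mul, one_mul, ← h1, sub_self]
  rcases mul_eq_zero.mp h2 with h3 | h3
  · exact absurd (sub_eq_zero.mp h3).symm hlam
  · exact h3

theorem ph_shift_same {N : ℕ} (ζ : Fin N → Fin 3) (m : Fin N) :
    ph ((ζ + esh m) m) = ph 1 * ph (ζ m) := by
  simp [ph_succ, esh]

theorem ph_shift_ne {N : ℕ} (ζ : Fin N → Fin 3) {m k : Fin N} (h : k ≠ m) :
    ph ((ζ + esh m) k) = ph (ζ k) := by
  simp [esh, Pi.single_eq_of_ne h]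

theorem card_cfg (N : ℕ) : (Fintype.card (Fin N → Fin 3) : ℂ) = ((3 : ℝ) ^ N : ℝ) := by
  simp

theorem orth_lin {N : ℕ} (k l : Fin N) :
    ∑ ζ : Fin N → Fin 3, (starRingEnd ℂ) (ph (ζ k)) * ph (ζ l)
      = if k = l then (((3 : ℝ) ^ N : ℝ) : ℂ) else 0 := by
  split_ifs with h
  · subst h
    simp_rw [ph_conj_mul]
    simp
  · apply sum_eq_zero_of_shift _ l (ph 1) ph_one_ne_one
    intro ζ
    rw [ph_shift_same, ph_shift_ne ζ h]
    ring

theorem avg_phase_sq (N : ℕ) (x : Fin N → E) :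
    ∑ ζ : Fin N → Fin 3, ‖∑ k, ph (ζ k) • x k‖ ^ 2 = (3 : ℝ) ^ N * ∑ k, ‖x k‖ ^ 2 := by
  have h := parseval_of_orth (E := E) (Ω := Fin N → Fin 3) (I := Fin N)
    (fun k ζ => ph (ζ k)) ((3 : ℝ) ^ N) (by intro k l; exact orth_lin k l) x
  exact h

/-- off-diagonal index pairs -/
abbrev OffD (N : ℕ) := {p : Fin N × Fin N // p.1 ≠ p.2}

theorem sum_offD {M : Type*} [AddCommMonoid M] {N : ℕ} (g : Fin N → Fin N → M) :
    ∑ p : OffD N, g p.1.1 p.1.2 = ∑ k, ∑ l, if k = l then 0 else g k l := by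
  rw [← Fintype.sum_prod_type' (f := fun k l => if k = l then 0 else g k l)]
  rw [← Finset.sum_subtype (Finset.univ.filter fun p : Fin N × Fin N => p.1 ≠ p.2)
    (by intro x; simp) (fun p => g p.1 p.2)]
  rw [Finset.sum_filter]
  refine Finset.sum_congr rfl fun p _ => ?_
  by_cases h : p.1 = p.2 <;> simp [h]

theorem sum_split_diag {M : Type*} [AddCommMonoid M] {N : ℕ} (g : Fin N → Fin N → M) :
    ∑ k, ∑ l, g k l = ∑ k, g k k + ∑ p : OffD N, g p.1.1 p.1.2 := by
  rw [sum_offD, ← Finset.sum_add_distrib]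
  refine Finset.sum_congr rfl fun k _ => ?_
  rw [← Finset.add_sum_erase _ _ (Finset.mem_univ k)]
  congr 1
  rw [← Finset.add_sum_erase (a := k) _ (fun l => if k = l then 0 else g k l) (Finset.mem_univ k)]
  simp only [if_true, zero_add]
  refine Finset.sum_congr rfl fun l hl => ?_
  rw [if_neg (Finset.ne_of_mem_erase hl).symm]

/-- the quadratic characters, with the trivial one put apart -/
noncomputable def chiQ {N : ℕ} : Option (OffD N) → (Fin N → Fin 3) → ℂ
  | none, _ => 1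
  | some p, ζ => (starRingEnd ℂ) (ph (ζ p.1.1)) * ph (ζ p.1.2)

theorem orth_quad {N : ℕ} (i j : Option (OffD N)) :
    ∑ ζ : Fin N → Fin 3, (starRingEnd ℂ) (chiQ i ζ) * chiQ j ζ
      = if i = j then (((3 : ℝ) ^ N : ℝ) : ℂ) else 0 := by
  rcases i with _ | ⟨⟨k, l⟩, hkl⟩ <;> rcases j with _ | ⟨⟨k', l'⟩, hkl'⟩
  · simp [chiQ]
  · simp only [chiQ, map_one, one_mul]
    rw [orth_lin, if_neg hkl', if_neg (by simp)]
  · simp only [chiQ, mul_one, map_mul, Complex.conj_conj]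
    rw [if_neg (by simp)]
    have := orth_lin l k
    rw [if_neg (Ne.symm hkl)] at this
    rw [← this]
    refine Finset.sum_congr rfl fun ζ _ => ?_
    ring
  · simp only [chiQ, map_mul, Complex.conj_conj]
    simp only [ne_eq] at hkl hkl'
    by_cases hpq : k = k' ∧ l = l'
    · obtain ⟨rfl, rfl⟩ := hpq
      rw [if_pos rfl]
      have : ∀ ζ : Fin N → Fin 3, ph (ζ k) * (starRingEnd ℂ) (ph (ζ l)) *
          ((starRingEnd ℂ) (ph (ζ k)) * ph (ζ l)) = 1 := by
        intro ζ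
        calc _ = ((starRingEnd ℂ) (ph (ζ k)) * ph (ζ k)) * ((starRingEnd ℂ) (ph (ζ l)) * ph (ζ l)) := by ring
          _ = 1 := by rw [ph_conj_mul, ph_conj_mul, one_mul]
      simp_rw [this]
      simp
    · rw [if_neg (by
        intro h
        apply hpq
        have h1 := Option.some.inj h
        have h2 := congrArg Subtype.val h1
        simp only [Prod.mk.injEq] at h2
        exact h2)]
      by_cases hk : k' = k
      · subst hk
        have hl : l' ≠ l := fun h => hpq ⟨rfl, h.symm⟩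
        apply sum_eq_zero_of_shift _ l ((starRingEnd ℂ) (ph 1)) ph_one_conj_ne_one
        intro ζ
        rw [ph_shift_same, ph_shift_ne ζ hkl, ph_shift_ne ζ hl, map_mul]
        ring
      · by_cases hl : l' = k
        · subst hl
          apply sum_eq_zero_of_shift _ l' (ph 1 * ph 1) ph_one_sq_ne_one
          intro ζ
          rw [ph_shift_same, ph_shift_ne ζ (Ne.symm hkl), ph_shift_ne ζ hk]
          ring
        · apply sum_eq_zero_of_shift _ k (ph 1) ph_one_ne_one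
          intro ζ
          rw [ph_shift_same, ph_shift_ne ζ (Ne.symm hkl), ph_shift_ne ζ hk, ph_shift_ne ζ hl]
          ring

theorem avg_phase_quad (N : ℕ) (w : Fin N → Fin N → E) :
    ∑ ζ : Fin N → Fin 3, ‖∑ k, ∑ l, ((starRingEnd ℂ) (ph (ζ k)) * ph (ζ l)) • w k l‖ ^ 2
      = (3 : ℝ) ^ N * (‖∑ k, w k k‖ ^ 2 + ∑ k, ∑ l, if k = l then 0 else ‖w k l‖ ^ 2) := by
  have h := parseval_of_orth (E := E) (Ω := Fin N → Fin 3) (I := Option (OffD N))
    chiQ ((3 : ℝ) ^ N) orth_quad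
    (fun i => match i with
      | none => ∑ k, w k k
      | some p => w p.1.1 p.1.2)
  rw [Fintype.sum_option, sum_offD (fun k l => ‖w k l‖ ^ 2)] at h
  rw [← h]
  refine Finset.sum_congr rfl fun ζ _ => ?_
  congr 2
  rw [Fintype.sum_option, sum_split_diag]
  congr 1
  simp only [chiQ, one_smul]
  refine Finset.sum_congr rfl fun k _ => ?_
  rw [ph_conj_mul, one_smul]

end Phases

end Crest.Agent.R84
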