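import Crest.Agent.S0112_Calc
import Crest.Agent.S0112_Mean
import Crest.Agent.S0112_Phases

/-! Row 84 (S0112), module Q: properties of the averaged quadratic form `QQ`. -/

set_option autoImplicit false

namespace Crest.Agent.R84

open Crest.OpAlg Filter MeasureTheory
open scoped Topology

variable {H : Type*} [NormedAddCommGroup H] [InnerProductSpace ℂ H] [CompleteSpace H]

section QQsec
variable (D : LineCalculus H) (ω : Ultrafilter ℕ) (hω : (ω : Filter ℕ) ≤ Filter.atTop) (T : H →L[ℂ] H)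

theorem qq_bc (x : H) : BC (fun t : ℝ => ‖T (D.wave t x)‖ ^ 2) := by
  refine ⟨((T.continuous.comp (wave_continuous D x)).norm).pow 2, (‖T‖ * ‖x‖) ^ 2, fun t => ?_⟩
  rw [abs_of_nonneg (by positivity)]
  have h := T.le_opNorm (D.wave t x)
  rw [wave_norm] at h
  exact pow_le_pow_left₀ (norm_nonneg _) h 2

include hω

theorem qq_wave (r : ℝ) (x : H) : QQ D ω T (D.wave r x) = QQ D ω T x := by
  unfold QQ
  rw [← um_shift ω hω r (qq_bc D T x)]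
  congr 1
  funext t
  rw [wave_add]
  rfl

/-- `Q(x) ≥ Q(y)/2 - ‖T‖²‖x-y‖²` -/
theorem qq_perturb (x y : H) : QQ D ω T y / 2 - ‖T‖ ^ 2 * ‖x - y‖ ^ 2 ≤ QQ D ω T x := by
  unfold QQ
  have hpt : ∀ t : ℝ, ‖T (D.wave t y)‖ ^ 2
      ≤ 2 * ‖T (D.wave t x)‖ ^ 2 + 2 * (‖T‖ ^ 2 * ‖x - y‖ ^ 2) := by
    intro t
    have h1 : T (D.wave t y) = T (D.wave t x) - T (D.wave t (x - y)) := by
      simp [map_sub]
    have h2 : ‖T (D.wave t (x - y))‖ ≤ ‖T‖ * ‖x - y‖ := by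
      have h := T.le_opNorm (D.wave t (x - y))
      rwa [wave_norm] at h
    have h3 : ‖T (D.wave t y)‖ ≤ ‖T (D.wave t x)‖ + ‖T (D.wave t (x - y))‖ := by
      rw [h1]; exact norm_sub_le _ _
    have h4 : ‖T (D.wave t (x - y))‖ ^ 2 ≤ ‖T‖ ^ 2 * ‖x - y‖ ^ 2 := by
      rw [← mul_pow]; gcongr
    have h5 : ‖T (D.wave t y)‖ ^ 2 ≤ (‖T (D.wave t x)‖ + ‖T (D.wave t (x - y))‖) ^ 2 := by
      gcongr
    nlinarith [sq_nonneg (‖T (D.wave t x)‖ - ‖T (D.wave t (x - y))‖)]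
  have hbx := (qq_bc D T x).const_mul 2
  have hc := BC.const (2 * (‖T‖ ^ 2 * ‖x - y‖ ^ 2))
  have h := um_mono ω hω (qq_bc D T y) (hbx.add hc) hpt
  rw [um_add ω hω hbx hc, um_const_mul ω hω 2 (qq_bc D T x), um_const ω hω] at h
  linarith

theorem qq_avg (N : ℕ) (x : Fin N → H) :
    ∑ ζ : Fin N → Fin 3, QQ D ω T (∑ k, ph (ζ k) • x k) = (3 : ℝ) ^ N * ∑ k, QQ D ω T (x k) := by
  unfold QQ
  rw [← um_sum ω hω Finset.univ (fun (ζ : Fin N → Fin 3) (t : ℝ) =>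
      ‖T (D.wave t (∑ k, ph (ζ k) • x k))‖ ^ 2) (fun ζ _ => qq_bc D T _),
    ← um_sum ω hω Finset.univ (fun (k : Fin N) (t : ℝ) => ‖T (D.wave t (x k))‖ ^ 2)
      (fun k _ => qq_bc D T _),
    ← um_const_mul ω hω _ (BC.sum _ _ (fun k _ => qq_bc D T (x k)))]
  congr 1
  funext t
  rw [← avg_phase_sq N (fun k => T (D.wave t (x k)))]
  refine Finset.sum_congr rfl fun ζ _ => ?_
  simp [map_sum, map_smul]

theorem qq_smul (c : ℂ) (x : H) : QQ D ω T (c • x) = ‖c‖ ^ 2 * QQ D ω T x := by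
  unfold QQ
  rw [← um_const_mul ω hω _ (qq_bc D T x)]
  congr 1
  funext t
  rw [map_smul, map_smul, norm_smul, mul_pow]

theorem qq_exists (x : H) {ε : ℝ} (hε : 0 < ε) : ∃ t : ℝ, QQ D ω T x - ε ≤ ‖T (D.wave t x)‖ ^ 2 :=
  um_exists_ge ω hω (qq_bc D T x) hε

end QQsec

end Crest.Agent.R84
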