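import Crest.Agent.S0112_Calc
import Crest.Agent.S0112_Tomita

/-! Row 84 (S0112), module E2: smoothing with a window whose Fourier transform is integrable. -/

set_option autoImplicit false

namespace Crest.Agent.R84

open Crest.OpAlg Filter MeasureTheory
open scoped Topology

variable {H : Type*} [NormedAddCommGroup H] [InnerProductSpace ℂ H] [CompleteSpace H]

local notation "BCF" => BoundedContinuousFunction ℝ ℂ

theorem win_coe (K : Kernel) (s w u : ℝ) : K.win s w u = ((K.g ((u - s) / w) : ℝ) : ℂ) := rfl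

theorem win_one (K : Kernel) (s w : ℝ) (hw : 0 < w) (u : ℝ) (hu : u ∈ Set.Icc (s - w) (s + w)) :
    K.win s w u = 1 := by
  rw [win_coe, K.g_one]
  · simp
  · rw [abs_div, abs_of_pos hw, div_le_one hw, abs_le]
    constructor <;> linarith [hu.1, hu.2]

theorem win_zero (K : Kernel) (s w : ℝ) (hw : 0 < w) (u : ℝ) (hu : u ∉ Set.Icc (s - 2 * w) (s + 2 * w)) :
    K.win s w u = 0 := by
  rw [win_coe, K.g_zero]
  · simp
  · rw [abs_div, abs_of_pos hw, le_div_iff₀ hw]
    by_contra h
    rw [not_le, abs_lt] at h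
    exact hu ⟨by linarith [h.1], by linarith [h.2]⟩

theorem win_norm_le (K : Kernel) (s w : ℝ) : ‖K.win s w‖ ≤ 1 :=
  BoundedContinuousFunction.norm_ofNormedAddCommGroup_le _ zero_le_one _

/-- the coefficient function -/
noncomputable def coef (K : Kernel) (s w τ : ℝ) : ℂ :=
  K.k τ * Complex.exp (-(Complex.I * ((τ * s / w : ℝ) : ℂ)))

theorem coef_norm (K : Kernel) (s w τ : ℝ) : ‖coef K s w τ‖ = ‖K.k τ‖ := by
  unfold coef
  rw [norm_mul, Complex.norm_exp]
  simp

theorem coef_cont (K : Kernel) (s w : ℝ) : Continuous (coef K s w) := by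
  unfold coef
  have := K.k_cont
  fun_prop

/-- the calculus as a continuous linear map -/
noncomputable def applyCLM (D : LineCalculus H) : BCF →L[ℂ] (H →L[ℂ] H) :=
  LinearMap.mkContinuous D.apply.toAlgHom.toLinearMap 1 (fun f => by simpa using apply_norm_le D f)

theorem applyCLM_apply (D : LineCalculus H) (f : BCF) : applyCLM D f = D.apply f := rfl

theorem character_norm_le (t : ℝ) : ‖LineCalculus.character t‖ ≤ 1 :=
  BoundedContinuousFunction.norm_ofNormedAddCommGroup_le _ zero_le_one _

theorem character_mul_cont (f : BCF) (hf : HasCompactSupport (f : ℝ → ℂ)) :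
    Continuous fun t : ℝ => LineCalculus.character t * f := by
  obtain ⟨R, hR⟩ := exists_radius f hf
  have : LipschitzWith (Real.toNNReal (|R| * ‖f‖)) fun t : ℝ => LineCalculus.character t * f := by
    apply LipschitzWith.of_dist_le_mul
    intro s t
    rw [dist_eq_norm, Real.dist_eq, Real.coe_toNNReal _ (by positivity)]
    have := character_mul_lipschitz f R hR s t
    linarith
  exact this.continuous

/-- the `BCF`-valued integrand -/
noncomputable def Phi (K : Kernel) (s w : ℝ) (f : BCF) (τ : ℝ) : BCF :=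
  coef K s w τ • (LineCalculus.character (τ / w) * f)

theorem Phi_integrable (K : Kernel) (s w : ℝ) (f : BCF) (hf : HasCompactSupport (f : ℝ → ℂ)) :
    Integrable (Phi K s w f) := by
  have hc : Continuous (Phi K s w f) :=
    (coef_cont K s w).smul ((character_mul_cont f hf).comp (continuous_id.div_const w))
  refine Integrable.mono' (K.k_int.norm.mul_const ‖f‖) hc.aestronglyMeasurable (ae_of_all _ fun τ => ?_)
  unfold Phi
  rw [norm_smul, coef_norm]
  apply mul_le_mul_of_nonneg_left _ (norm_nonneg _)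
  calc ‖LineCalculus.character (τ / w) * f‖ ≤ ‖LineCalculus.character (τ / w)‖ * ‖f‖ := norm_mul_le _ _
    _ ≤ 1 * ‖f‖ := mul_le_mul_of_nonneg_right (character_norm_le _) (norm_nonneg _)
    _ = ‖f‖ := one_mul _

theorem Phi_integral (K : Kernel) (s w : ℝ) (f : BCF) (hf : HasCompactSupport (f : ℝ → ℂ)) :
    ∫ τ, Phi K s w f τ = K.win s w * f := by
  ext u
  have h1 := ContinuousLinearMap.integral_comp_comm (BoundedContinuousFunction.evalCLM ℂ u)
    (Phi_integrable K s w f hf)
  rw [BoundedContinuousFunction.evalCLM_apply] at h1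
  rw [← h1, BoundedContinuousFunction.mul_apply, win_coe, K.inv, ← integral_mul_const]
  refine integral_congr_ae (ae_of_all _ fun τ => ?_)
  simp only [BoundedContinuousFunction.evalCLM_apply]
  unfold Phi coef
  rw [BoundedContinuousFunction.smul_apply, BoundedContinuousFunction.mul_apply, character_apply,
    smul_eq_mul, mul_assoc, ← mul_assoc (Complex.exp _), ← Complex.exp_add, mul_assoc]
  congr 3
  push_cast
  ring

theorem wave_integrable (K : Kernel) (D : LineCalculus H) (s w : ℝ) (x : H) :
    Integrable (fun τ : ℝ => coef K s w τ • D.wave (τ / w) x) := by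
  have hc : Continuous (fun τ : ℝ => coef K s w τ • D.wave (τ / w) x) :=
    (coef_cont K s w).smul ((wave_continuous D x).comp (continuous_id.div_const w))
  refine Integrable.mono' (K.k_int.norm.mul_const ‖x‖) hc.aestronglyMeasurable (ae_of_all _ fun τ => ?_)
  rw [norm_smul, coef_norm, wave_norm]

/-- `g(D) = ∫ k(τ) e^{-isτ/w} e^{i(τ/w)D} dτ` strongly -/
theorem win_apply (K : Kernel) (D : LineCalculus H) (s w : ℝ) (hw : 0 < w) (x : H) :
    D.apply (K.win s w) x
      = ∫ τ : ℝ, (K.k τ * Complex.exp (-(Complex.I * ((τ * s / w : ℝ) : ℂ)))) • D.wave (τ / w) x := by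
  change _ = ∫ τ : ℝ, coef K s w τ • D.wave (τ / w) x
  rw [← sub_eq_zero]
  apply eq_zero_of_compact D
  intro f hf
  rw [map_sub, sub_eq_zero, ← ContinuousLinearMap.integral_comp_comm _ (wave_integrable K D s w x)]
  set L : BCF →L[ℂ] H := (ContinuousLinearMap.apply ℂ H x).comp (applyCLM D) with hL
  have hLa : ∀ h : BCF, L h = D.apply h x := fun h => rfl
  have h2 : ∀ τ, D.apply f (coef K s w τ • D.wave (τ / w) x) = L (Phi K s w f τ) := by
    intro τ
    rw [hLa]
    unfold Phi
    rw [map_smul, map_smul, ContinuousLinearMap.smul_apply, apply_mul, ← wave_apply_comm]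
    rfl
  simp_rw [h2]
  rw [ContinuousLinearMap.integral_comp_comm _ (Phi_integrable K s w f hf), Phi_integral K s w f hf, hLa,
    apply_mul, apply_comm]

section
variable (K : Kernel) (S : ModularDatum H) (s w : ℝ) (x : H →L[ℂ] H)

theorem flow_apply_norm_le (t : ℝ) (η : H) : ‖S.flow t x η‖ ≤ ‖x‖ * ‖η‖ := by
  have : S.flow t x η = S.D.wave t (x (S.D.wave (-t) η)) := rfl
  rw [this, wave_norm]
  refine (x.le_opNorm _).trans ?_
  rw [wave_norm]

theorem flow_integrable (η : H) : Integrable (fun τ : ℝ => coef K s w τ • S.flow (τ / w) x η) := by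
  have h0 : Continuous fun t : ℝ => S.flow t x η :=
    wave_continuous' S.D (fun t => x (S.D.wave (-t) η))
      (x.continuous.comp ((wave_continuous S.D η).comp continuous_neg))
  have hc : Continuous (fun τ : ℝ => coef K s w τ • S.flow (τ / w) x η) :=
    (coef_cont K s w).smul (h0.comp (continuous_id.div_const w))
  refine Integrable.mono' (K.k_int.norm.mul_const (‖x‖ * ‖η‖)) hc.aestronglyMeasurable
    (ae_of_all _ fun τ => ?_)
  rw [norm_smul, coef_norm]
  exact mul_le_mul_of_nonneg_left (flow_apply_norm_le S x _ η) (norm_nonneg _)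

/-- the smoothed operator -/
noncomputable def smoothOp : H →L[ℂ] H :=
  LinearMap.mkContinuous
    { toFun := fun η => ∫ τ : ℝ, coef K s w τ • S.flow (τ / w) x η
      map_add' := fun η η' => by
        rw [← integral_add (flow_integrable K S s w x η) (flow_integrable K S s w x η')]
        refine integral_congr_ae (ae_of_all _ fun τ => ?_)
        simp only [map_add, smul_add]
      map_smul' := fun c η => by
        rw [RingHom.id_apply, ← integral_smul]
        refine integral_congr_ae (ae_of_all _ fun τ => ?_)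
        simp only [map_smul]
        rw [smul_comm] }
    ((∫ τ, ‖K.k τ‖) * ‖x‖)
    (fun η => by
      change ‖∫ τ : ℝ, coef K s w τ • S.flow (τ / w) x η‖ ≤ _
      refine (norm_integral_le_of_norm_le (K.k_int.norm.mul_const (‖x‖ * ‖η‖))
        (ae_of_all _ fun τ => ?_)).trans ?_
      · rw [norm_smul, coef_norm]
        exact mul_le_mul_of_nonneg_left (flow_apply_norm_le S x _ η) (norm_nonneg _)
      · rw [integral_mul_const, mul_assoc])

theorem smoothOp_apply (η : H) :
    smoothOp K S s w x η = ∫ τ : ℝ, coef K s w τ • S.flow (τ / w) x η := rfl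

theorem smoothOp_norm_le : ‖smoothOp K S s w x‖ ≤ (∫ τ, ‖K.k τ‖) * ‖x‖ :=
  LinearMap.mkContinuous_norm_le _ (mul_nonneg (integral_nonneg fun _ => norm_nonneg _) (norm_nonneg _)) _

theorem smoothOp_mem (hx : x ∈ S.M) : smoothOp K S s w x ∈ S.M := by
  rw [← VonNeumannAlgebra.commutant_commutant S.M, VonNeumannAlgebra.mem_commutant_iff]
  intro g hg
  rw [VonNeumannAlgebra.mem_commutant_iff] at hg
  ext η
  change g (smoothOp K S s w x η) = smoothOp K S s w x (g η)
  rw [smoothOp_apply, smoothOp_apply, ← ContinuousLinearMap.integral_comp_comm _ (flow_integrable K S s w x η)]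
  refine integral_congr_ae (ae_of_all _ fun τ => ?_)
  simp only [map_smul]
  have := hg _ (S.flow_mem (τ / w) x hx)
  have h2 : S.flow (τ / w) x (g η) = g (S.flow (τ / w) x η) := congrArg (fun A : H →L[ℂ] H => A η) this
  rw [h2]

end

theorem smooth_exists (K : Kernel) (S : ModularDatum H) (s w : ℝ) (hw : 0 < w)
    (x : H →L[ℂ] H) (hx : x ∈ S.M) :
    ∃ x' : H →L[ℂ] H, x' ∈ S.M ∧ ‖x'‖ ≤ (∫ τ, ‖K.k τ‖) * ‖x‖ ∧
      x' S.vac = S.D.apply (K.win s w) (x S.vac) := by
  refine ⟨smoothOp K S s w x, smoothOp_mem K S s w x hx, smoothOp_norm_le K S s w x, ?_⟩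
  rw [smoothOp_apply, win_apply K S.D s w hw]
  refine integral_congr_ae (ae_of_all _ fun τ => ?_)
  simp only [flow_vac]
  rfl

end Crest.Agent.R84
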