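import Crest.Agent.S0112_Mean

/-! Row 84 (S0112), module G: well-spread times. -/

set_option autoImplicit false

namespace Crest.Agent.R84

open Crest.OpAlg Filter MeasureTheory

theorem times_step (ω : Ultrafilter ℕ) (hω : (ω : Filter ℕ) ≤ Filter.atTop)
    (G : ℝ → ℝ) (hG : BC G) (ε : ℝ) (hε : 0 < ε) (n : ℕ) (t : ℕ → ℝ) :
    ∃ s : ℝ, ∑ k ∈ Finset.range n, G (s - t k) ≤ n * (ultraMean ω G + ε) := by
  rcases Nat.eq_zero_or_pos n with rfl | hn
  · exact ⟨0, by simp⟩
  have hf : ∀ k ∈ Finset.range n, BC (fun s => G (s + -t k)) := fun k _ => hG.shift _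
  have hsum := um_sum ω hω (Finset.range n) (fun k s => G (s + -t k)) hf
  have hn' : (0 : ℝ) < n := by exact_mod_cast hn
  obtain ⟨s, hs⟩ := um_exists_le ω hω (BC.sum _ _ hf) (ε := n * ε) (by positivity)
  refine ⟨s, ?_⟩
  rw [hsum] at hs
  have h2 : ∑ k ∈ Finset.range n, ultraMean ω (fun s => G (s + -t k)) = n * ultraMean ω G := by
    rw [Finset.sum_congr rfl fun k _ => um_shift ω hω (-t k) hG]
    simp
  rw [h2] at hs
  simp only [sub_eq_add_neg]
  linarith

theorem times_exist (ω : Ultrafilter ℕ) (hω : (ω : Filter ℕ) ≤ Filter.atTop)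
    (G : ℝ → ℝ) (hG : BC G) (ε : ℝ) (hε : 0 < ε) :
    ∃ t : ℕ → ℝ, ∀ n : ℕ, ∑ k ∈ Finset.range n, G (t n - t k) ≤ n * (ultraMean ω G + ε) := by
  classical
  choose F hF using times_step ω hω G hG ε hε
  let u : ℕ → ℕ → ℝ := fun n => Nat.rec (fun _ => 0) (fun m v => Function.update v m (F m v)) n
  have u_succ : ∀ m, u (m + 1) = Function.update (u m) m (F m (u m)) := fun m => rfl
  have u_stab : ∀ k m, k + 1 ≤ m → u m k = u (k + 1) k := by
    intro k m hm
    induction m, hm using Nat.le_induction with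
    | base => rfl
    | succ m hm ih =>
      rw [u_succ m, Function.update_of_ne (by omega), ih]
  refine ⟨fun n => u (n + 1) n, fun n => ?_⟩
  have h1 : u (n + 1) n = F n (u n) := by rw [u_succ, Function.update_self]
  have h2 : ∑ k ∈ Finset.range n, G (u (n + 1) n - u (k + 1) k)
      = ∑ k ∈ Finset.range n, G (F n (u n) - u n k) := by
    refine Finset.sum_congr rfl fun k hk => ?_
    rw [h1, u_stab k n (by have := Finset.mem_range.mp hk; omega)]
  show ∑ k ∈ Finset.range n, G (u (n + 1) n - u (k + 1) k) ≤ _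
  rw [h2]
  exact hF n (u n)

end Crest.Agent.R84
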