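import Crest.Agent.S0112_Ergodic
import Crest.Agent.S0112_Phases
import Crest.Agent.S0112_Times
import Crest.Agent.S0112_QQ

/-! Row 84 (S0112), module J: spreading a (possibly huge) element of `M` by random phases and ergodic time translates. -/

set_option autoImplicit false

namespace Crest.Agent.R84

open Crest.OpAlg Filter MeasureTheory
open scoped Topology

variable {H : Type*} [NormedAddCommGroup H] [InnerProductSpace ℂ H] [CompleteSpace H]

theorem smul_mem_M (S : ModularDatum H) {a : H →L[ℂ] H} (ha : a ∈ S.M) (c : ℂ) : c • a ∈ S.M := by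
  have : c • a ∈ S.M.toStarSubalgebra := S.M.toStarSubalgebra.smul_mem ha c
  exact this

theorem sum_mem_M (S : ModularDatum H) {ι : Type*} (s : Finset ι) (f : ι → H →L[ℂ] H)
    (hf : ∀ i ∈ s, f i ∈ S.M) : ∑ i ∈ s, f i ∈ S.M := by
  have : ∑ i ∈ s, f i ∈ S.M.toStarSubalgebra := S.M.toStarSubalgebra.sum_mem hf
  exact this

theorem star_inner (a : H →L[ℂ] H) (x y : H) : inner ℂ (star a x) y = inner ℂ x (a y) := by
  rw [ContinuousLinearMap.star_eq_adjoint]
  exact ContinuousLinearMap.adjoint_inner_left a y x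

theorem BC.neg' {f : ℝ → ℝ} (hf : BC f) : BC (fun t => f (-t)) := by
  obtain ⟨h1, B, hB⟩ := hf
  exact ⟨h1.comp continuous_neg, B, fun t => hB _⟩

theorem BC.add' {f g : ℝ → ℝ} (hf : BC f) (hg : BC g) : BC (fun t => f t + g t) := by
  obtain ⟨h1, B, hB⟩ := hf
  obtain ⟨h2, C, hC⟩ := hg
  exact ⟨h1.add h2, B + C, fun t => (abs_add_le _ _).trans (add_le_add (hB t) (hC t))⟩

theorem sum_offdiag_range (N : ℕ) (f : ℕ → ℕ → ℝ) :
    ∑ k ∈ Finset.range N, ∑ l ∈ Finset.range N, (if k = l then 0 else f k l)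
      = ∑ n ∈ Finset.range N, ∑ k ∈ Finset.range n, (f k n + f n k) := by
  induction N with
  | zero => simp
  | succ N ih =>
    have h2 : ∑ k ∈ Finset.range N, ∑ l ∈ Finset.range (N + 1), (if k = l then 0 else f k l)
        = ∑ k ∈ Finset.range N, ∑ l ∈ Finset.range N, (if k = l then 0 else f k l)
          + ∑ k ∈ Finset.range N, f k N := by
      rw [← Finset.sum_add_distrib]
      refine Finset.sum_congr rfl fun k hk => ?_
      rw [Finset.sum_range_succ]
      have : k ≠ N := (Finset.mem_range.mp hk).ne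
      simp [this]
    have h3 : ∑ l ∈ Finset.range (N + 1), (if N = l then 0 else f N l) = ∑ k ∈ Finset.range N, f N k := by
      rw [Finset.sum_range_succ]
      simp only [if_true, add_zero]
      refine Finset.sum_congr rfl fun k hk => ?_
      have : N ≠ k := (Finset.mem_range.mp hk).ne'
      simp [this]
    calc ∑ k ∈ Finset.range (N + 1), ∑ l ∈ Finset.range (N + 1), (if k = l then 0 else f k l)
        = ∑ k ∈ Finset.range N, ∑ l ∈ Finset.range (N + 1), (if k = l then 0 else f k l)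
          + ∑ l ∈ Finset.range (N + 1), (if N = l then 0 else f N l) :=
            Finset.sum_range_succ (fun k => ∑ l ∈ Finset.range (N + 1), (if k = l then 0 else f k l)) N
      _ = ∑ n ∈ Finset.range N, ∑ k ∈ Finset.range n, (f k n + f n k)
          + ∑ k ∈ Finset.range N, (f k N + f N k) := by
            rw [h2, h3, ih, Finset.sum_add_distrib]; ring
      _ = _ := (Finset.sum_range_succ (fun n => ∑ k ∈ Finset.range n, (f k n + f n k)) N).symm

/-- off-diagonal double sums as sums over ordered pairs -/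
theorem sum_offdiag (N : ℕ) (f : ℕ → ℕ → ℝ) :
    ∑ k : Fin N, ∑ l : Fin N, (if k = l then 0 else f k l)
      = ∑ n ∈ Finset.range N, ∑ k ∈ Finset.range n, (f k n + f n k) := by
  rw [← sum_offdiag_range]
  rw [← Fin.sum_univ_eq_sum_range (fun k => ∑ l ∈ Finset.range N, (if k = l then 0 else f k l)) N]
  refine Finset.sum_congr rfl fun k _ => ?_
  rw [← Fin.sum_univ_eq_sum_range (fun l => (if (k : ℕ) = l then 0 else f k l)) N]
  refine Finset.sum_congr rfl fun l _ => ?_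
  simp only [Fin.ext_iff]

theorem sum_split_diagJ {N : ℕ} (f : Fin N → Fin N → ℝ) :
    ∑ k, ∑ l, f k l = ∑ k, f k k + ∑ k, ∑ l, (if k = l then 0 else f k l) := by
  rw [← Finset.sum_add_distrib]
  refine Finset.sum_congr rfl fun k _ => ?_
  have : ∀ l, f k l = (if k = l then f k l else 0) + (if k = l then 0 else f k l) := by
    intro l; split_ifs <;> simp
  calc ∑ l, f k l = ∑ l, ((if k = l then f k l else 0) + (if k = l then 0 else f k l)) :=
        Finset.sum_congr rfl fun l _ => this l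
    _ = _ := by rw [Finset.sum_add_distrib, Finset.sum_ite_eq]; simp

theorem norm_sq_sum {ι : Type*} (s : Finset ι) (u : ι → H) :
    ‖∑ k ∈ s, u k‖ ^ 2 = ∑ k ∈ s, ∑ l ∈ s, (inner ℂ (u k) (u l)).re := by
  rw [← inner_self_eq_norm_sq (𝕜 := ℂ), sum_inner]
  simp [inner_sum]

section
variable (S : ModularDatum H)

theorem cross_norm (a : H →L[ℂ] H) (s t : ℝ) :
    ‖(star (S.flow s a) * S.flow t a) S.vac‖ ^ 2
      = (inner ℂ (a S.vac) (S.flow (s - t) (a * star a) (a S.vac))).re := by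
  have h1 : S.flow t a S.vac = S.D.wave t (a S.vac) := flow_vac S t a
  rw [ContinuousLinearMap.mul_apply, h1]
  rw [← inner_self_eq_norm_sq (𝕜 := ℂ), star_inner]
  have h2 : S.flow s a (star (S.flow s a) (S.D.wave t (a S.vac)))
      = S.flow s (a * star a) (S.D.wave t (a S.vac)) := by
    rw [flow_mul, flow_star]; rfl
  rw [h2, wave_inner]
  have h3 : S.D.wave (-t) (S.flow s (a * star a) (S.D.wave t (a S.vac)))
      = S.flow (s - t) (a * star a) (a S.vac) := by
    have : S.flow (s - t) (a * star a) = S.flow (-t) (S.flow s (a * star a)) := by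
      rw [flow_flow]; congr 1; ring
    rw [this]; simp [ModularDatum.flow]
  rw [h3]; rfl

theorem diag_inner (y : H →L[ℂ] H) (s t : ℝ) :
    (inner ℂ (S.D.wave s (y S.vac)) (S.D.wave t (y S.vac))).re
      = (inner ℂ (y S.vac) (S.flow (t - s) y S.vac)).re := by
  rw [wave_inner, flow_vac]
  have : S.D.wave (-s) (S.D.wave t (y S.vac)) = S.D.wave (t - s) (y S.vac) := by
    have := wave_add S.D (-s) t
    rw [show t - s = -s + t by ring, this]; rfl
  rw [this]


/-- the spread operator `r Σ_k ζ_k σ_{t_k}(a)` -/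
noncomputable def spreadOp (a : H →L[ℂ] H) (N : ℕ) (t : ℕ → ℝ) (r : ℝ) (ζ : Fin N → Fin 3) : H →L[ℂ] H :=
  ∑ k : Fin N, ph (ζ k) • ((r : ℂ) • S.flow (t k) a)

theorem spreadOp_mem {a : H →L[ℂ] H} (ha : a ∈ S.M) (N : ℕ) (t : ℕ → ℝ) (r : ℝ) (ζ : Fin N → Fin 3) :
    spreadOp S a N t r ζ ∈ S.M :=
  sum_mem_M S _ _ fun k _ => smul_mem_M S (smul_mem_M S (flow_mem' S _ a ha) _) _

theorem spreadOp_vac (a : H →L[ℂ] H) (N : ℕ) (t : ℕ → ℝ) (r : ℝ) (ζ : Fin N → Fin 3) :
    spreadOp S a N t r ζ S.vac = ∑ k : Fin N, ph (ζ k) • ((r : ℂ) • S.D.wave (t k) (a S.vac)) := by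
  unfold spreadOp
  rw [ContinuousLinearMap.sum_apply]
  refine Finset.sum_congr rfl fun k _ => ?_
  rw [ContinuousLinearMap.smul_apply, ContinuousLinearMap.smul_apply, flow_vac]

theorem spreadOp_sq (a : H →L[ℂ] H) (N : ℕ) (t : ℕ → ℝ) (r : ℝ) (ζ : Fin N → Fin 3) :
    (star (spreadOp S a N t r ζ) * spreadOp S a N t r ζ) S.vac
      = ∑ k : Fin N, ∑ l : Fin N, ((starRingEnd ℂ) (ph (ζ k)) * ph (ζ l)) •
          (((r ^ 2 : ℝ) : ℂ) • (star (S.flow (t k) a) * S.flow (t l) a) S.vac) := by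
  unfold spreadOp
  rw [star_sum, Finset.sum_mul_sum, ContinuousLinearMap.sum_apply]
  refine Finset.sum_congr rfl fun k _ => ?_
  rw [ContinuousLinearMap.sum_apply]
  refine Finset.sum_congr rfl fun l _ => ?_
  rw [star_smul, star_smul, smul_mul_smul_comm, smul_mul_smul_comm,
    ContinuousLinearMap.smul_apply, ContinuousLinearMap.smul_apply]
  congr 2
  simp [sq]

theorem spread_avg (a : H →L[ℂ] H) (N : ℕ) (t : ℕ → ℝ) (r : ℝ) :
    ∑ ζ : Fin N → Fin 3, ‖(star (spreadOp S a N t r ζ) * spreadOp S a N t r ζ) S.vac‖ ^ 2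
      = (3 : ℝ) ^ N * (r ^ 4 * (N * ‖(star a * a) S.vac‖ ^ 2
          + ∑ k : Fin N, ∑ l : Fin N, if k = l then 0 else
              ((inner ℂ ((star a * a) S.vac) (S.flow (t l - t k) (star a * a) S.vac)).re
               + (inner ℂ (a S.vac) (S.flow (t k - t l) (a * star a) (a S.vac))).re))) := by
  simp_rw [spreadOp_sq]
  rw [avg_phase_quad]
  congr 1
  have hr : ‖((r ^ 2 : ℝ) : ℂ)‖ ^ 2 = r ^ 4 := by
    rw [Complex.norm_real, Real.norm_eq_abs, sq_abs]; ring
  have hd : ‖∑ k : Fin N, ((r ^ 2 : ℝ) : ℂ) • (star (S.flow (t k) a) * S.flow (t k) a) S.vac‖ ^ 2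
      = r ^ 4 * ∑ k : Fin N, ∑ l : Fin N,
          (inner ℂ ((star a * a) S.vac) (S.flow (t l - t k) (star a * a) S.vac)).re := by
    rw [← Finset.smul_sum, norm_smul, mul_pow, hr]
    congr 1
    have : ∀ k : Fin N, (star (S.flow (t k) a) * S.flow (t k) a) S.vac
        = S.D.wave (t k) ((star a * a) S.vac) := by
      intro k
      rw [flow_star, ← flow_mul, flow_vac]
    simp_rw [this]
    rw [norm_sq_sum]
    refine Finset.sum_congr rfl fun k _ => Finset.sum_congr rfl fun l _ => ?_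
    exact diag_inner S (star a * a) (t k) (t l)
  have ho : ∀ k l : Fin N, ‖((r ^ 2 : ℝ) : ℂ) • (star (S.flow (t k) a) * S.flow (t l) a) S.vac‖ ^ 2
      = r ^ 4 * (inner ℂ (a S.vac) (S.flow (t k - t l) (a * star a) (a S.vac))).re := by
    intro k l
    rw [norm_smul, mul_pow, hr, cross_norm]
  rw [hd, sum_split_diagJ]
  simp_rw [ho]
  have h0 : ∀ k : Fin N, (inner ℂ ((star a * a) S.vac) (S.flow (t k - t k) (star a * a) S.vac)).re
      = ‖(star a * a) S.vac‖ ^ 2 := by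
    intro k
    rw [sub_self, flow_vac, wave_zero, ← inner_self_eq_norm_sq (𝕜 := ℂ)]
    rfl
  simp_rw [h0]
  rw [Finset.sum_const, Finset.card_univ, Fintype.card_fin, nsmul_eq_mul, mul_add, mul_add, add_assoc]
  congr 1
  rw [Finset.mul_sum, Finset.mul_sum, ← Finset.sum_add_distrib]
  refine Finset.sum_congr rfl fun k _ => ?_
  rw [Finset.mul_sum, Finset.mul_sum, ← Finset.sum_add_distrib]
  refine Finset.sum_congr rfl fun l _ => ?_
  split_ifs <;> ring

theorem spread_qq (ω : Ultrafilter ℕ) (hω : (ω : Filter ℕ) ≤ Filter.atTop) (T : H →L[ℂ] H)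
    (a : H →L[ℂ] H) (N : ℕ) (t : ℕ → ℝ) (r : ℝ) :
    ∑ ζ : Fin N → Fin 3, QQ S.D ω T (spreadOp S a N t r ζ S.vac)
      = (3 : ℝ) ^ N * (N * (r ^ 2 * QQ S.D ω T (a S.vac))) := by
  simp_rw [spreadOp_vac]
  rw [qq_avg S.D ω hω T]
  congr 1
  simp_rw [qq_smul S.D ω hω T, qq_wave S.D ω hω T]
  rw [Finset.sum_const, Finset.card_univ, Fintype.card_fin, nsmul_eq_mul, Complex.norm_real,
    Real.norm_eq_abs, sq_abs]

theorem sum_range_cast (N : ℕ) : ∑ n ∈ Finset.range N, (n : ℝ) = N * (N - 1) / 2 := by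
  induction N with
  | zero => simp
  | succ n ih => rw [Finset.sum_range_succ, ih]; push_cast; ring

end

theorem spread (S : ModularDatum H) (herg : S.Ergodic)
    (ω : Ultrafilter ℕ) (hω : (ω : Filter ℕ) ≤ Filter.atTop) (T : H →L[ℂ] H)
    (a : H →L[ℂ] H) (ha : a ∈ S.M) (ε κ : ℝ) (hε : 0 < ε) (hκ : 0 ≤ κ) :
    ∃ V : H →L[ℂ] H, V ∈ S.M ∧
      (∃ (N : ℕ) (t : Fin N → ℝ) (c : Fin N → ℂ), V S.vac = ∑ k, c k • S.D.wave (t k) (a S.vac)) ∧
      QQ S.D ω T (a S.vac) - κ * (‖a S.vac‖ ^ 4 + ‖(star a) S.vac‖ ^ 2 * ‖a S.vac‖ ^ 2 + ε)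
        ≤ QQ S.D ω T (V S.vac) - κ * ‖(star V * V) S.vac‖ ^ 2 := by
  have hyM : star a * a ∈ S.M := mul_mem (star_mem ha) ha
  have hzM : a * star a ∈ S.M := mul_mem ha (star_mem ha)
  let F₁ : ℝ → ℝ := fun τ => (inner ℂ ((star a * a) S.vac) (S.flow τ (star a * a) S.vac)).re
  let F₂ : ℝ → ℝ := fun τ => (inner ℂ (a S.vac) (S.flow τ (a * star a) (a S.vac))).re
  have hF₁ : BC F₁ := flow_bc S (star a * a) S.vac ((star a * a) S.vac)
  have hF₂ : BC F₂ := flow_bc S (a * star a) (a S.vac) (a S.vac)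
  let G : ℝ → ℝ := fun τ => (F₁ τ + F₂ (-τ)) + (F₁ (-τ) + F₂ τ)
  have hG : BC G := (hF₁.add' hF₂.neg').add' (hF₁.neg'.add' hF₂)
  have i1 : inner ℂ ((star a * a) S.vac) S.vac = ((‖a S.vac‖ ^ 2 : ℝ) : ℂ) := by
    have : (star a * a) S.vac = star a (a S.vac) := rfl
    rw [this, star_inner, inner_self_eq_norm_sq_to_K]; push_cast; rfl
  have i2 : inner ℂ S.vac ((star a * a) S.vac) = ((‖a S.vac‖ ^ 2 : ℝ) : ℂ) := by
    rw [← inner_conj_symm, i1, Complex.conj_ofReal]
  have i3 : inner ℂ S.vac ((a * star a) S.vac) = ((‖star a S.vac‖ ^ 2 : ℝ) : ℂ) := by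
    have : (a * star a) S.vac = a (star a S.vac) := rfl
    rw [this, ← star_inner, inner_self_eq_norm_sq_to_K]; push_cast; rfl
  have i4 : inner ℂ (a S.vac) (a S.vac) = ((‖a S.vac‖ ^ 2 : ℝ) : ℂ) := by
    rw [inner_self_eq_norm_sq_to_K]; push_cast; rfl
  have m1 : ultraMean ω F₁ = ‖a S.vac‖ ^ 4 := by
    have := ergodic_mean S herg ω hω (star a * a) hyM S.vac ((star a * a) S.vac)
    rw [i1, i2, ← Complex.ofReal_mul, Complex.ofReal_re] at this
    rw [this]; ring
  have m2 : ultraMean ω F₂ = ‖star a S.vac‖ ^ 2 * ‖a S.vac‖ ^ 2 := by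
    have := ergodic_mean S herg ω hω (a * star a) hzM (a S.vac) (a S.vac)
    rw [i3, i4, ← Complex.ofReal_mul, Complex.ofReal_re] at this
    exact this
  have mG : ultraMean ω G = 2 * (‖a S.vac‖ ^ 4 + ‖star a S.vac‖ ^ 2 * ‖a S.vac‖ ^ 2) := by
    have e1 := um_add ω hω (hF₁.add' hF₂.neg') (hF₁.neg'.add' hF₂)
    have e2 := um_add ω hω hF₁ hF₂.neg'
    have e3 := um_add ω hω hF₁.neg' hF₂
    rw [e2, e3, um_neg ω hω hF₁, um_neg ω hω hF₂, m1, m2] at e1
    rw [e1]; ring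
  obtain ⟨t, ht⟩ := times_exist ω hω G hG ε hε
  obtain ⟨N, hN0, hN⟩ : ∃ N : ℕ, 0 < N ∧ ‖(star a * a) S.vac‖ ^ 2 / N ≤ ε / 2 := by
    obtain ⟨N, hN⟩ := exists_nat_gt (‖(star a * a) S.vac‖ ^ 2 / (ε / 2))
    have hpos : (0 : ℝ) < N := lt_of_le_of_lt (by positivity) hN
    refine ⟨N, by exact_mod_cast hpos, ?_⟩
    rw [div_le_iff₀ hpos]
    rw [div_lt_iff₀ (by positivity)] at hN
    linarith
  have hNpos : (0 : ℝ) < N := by exact_mod_cast hN0
  set r : ℝ := (Real.sqrt N)⁻¹ with hr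
  have hr2 : r ^ 2 = 1 / N := by
    rw [hr, inv_pow, Real.sq_sqrt hNpos.le, one_div]
  have hr4 : r ^ 4 = 1 / (N : ℝ) ^ 2 := by
    rw [show r ^ 4 = (r ^ 2) ^ 2 by ring, hr2]; ring
  set K : ℝ := ‖a S.vac‖ ^ 4 + ‖star a S.vac‖ ^ 2 * ‖a S.vac‖ ^ 2 with hK
  have hK0 : 0 ≤ K := by positivity
  -- the off-diagonal bound
  have hoff : ∑ k : Fin N, ∑ l : Fin N, (if k = l then 0 else
              ((inner ℂ ((star a * a) S.vac) (S.flow (t l - t k) (star a * a) S.vac)).re
               + (inner ℂ (a S.vac) (S.flow (t k - t l) (a * star a) (a S.vac))).re))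
      ≤ (N : ℝ) ^ 2 / 2 * (2 * K + ε) := by
    have := sum_offdiag N (fun k l => F₁ (t l - t k) + F₂ (t k - t l))
    rw [this]
    calc ∑ n ∈ Finset.range N, ∑ k ∈ Finset.range n,
          ((F₁ (t n - t k) + F₂ (t k - t n)) + (F₁ (t k - t n) + F₂ (t n - t k)))
        = ∑ n ∈ Finset.range N, ∑ k ∈ Finset.range n, G (t n - t k) := by
          refine Finset.sum_congr rfl fun n _ => Finset.sum_congr rfl fun k _ => ?_
          simp only [G, neg_sub]
      _ ≤ ∑ n ∈ Finset.range N, (n : ℝ) * (2 * K + ε) := by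
          refine Finset.sum_le_sum fun n _ => ?_
          have := ht n
          rwa [mG] at this
      _ = (N : ℝ) * (N - 1) / 2 * (2 * K + ε) := by
          rw [← Finset.sum_mul, sum_range_cast]
      _ ≤ (N : ℝ) ^ 2 / 2 * (2 * K + ε) := by
          apply mul_le_mul_of_nonneg_right _ (by positivity)
          nlinarith
  -- the averaged inequality
  have hsum : ∑ _ζ : Fin N → Fin 3, (QQ S.D ω T (a S.vac) - κ * (K + ε))
      ≤ ∑ ζ : Fin N → Fin 3, (QQ S.D ω T (spreadOp S a N t r ζ S.vac)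
          - κ * ‖(star (spreadOp S a N t r ζ) * spreadOp S a N t r ζ) S.vac‖ ^ 2) := by
    rw [Finset.sum_const, Finset.sum_sub_distrib, ← Finset.mul_sum, spread_avg, spread_qq S ω hω,
      Finset.card_univ, Fintype.card_fun, Fintype.card_fin, Fintype.card_fin, nsmul_eq_mul, hr2, hr4,
      Nat.cast_pow, Nat.cast_ofNat]
    have h3 : (0 : ℝ) < 3 ^ N := by positivity
    have e1 : (N : ℝ) * (1 / N * QQ S.D ω T (a S.vac)) = QQ S.D ω T (a S.vac) := by
      field_simp
    rw [e1]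
    have e2 : 1 / (N : ℝ) ^ 2 * (N * ‖(star a * a) S.vac‖ ^ 2
          + ∑ k : Fin N, ∑ l : Fin N, (if k = l then 0 else
              ((inner ℂ ((star a * a) S.vac) (S.flow (t l - t k) (star a * a) S.vac)).re
               + (inner ℂ (a S.vac) (S.flow (t k - t l) (a * star a) (a S.vac))).re))) ≤ K + ε := by
      calc _ ≤ 1 / (N : ℝ) ^ 2 * (N * ‖(star a * a) S.vac‖ ^ 2 + (N : ℝ) ^ 2 / 2 * (2 * K + ε)) := by
            apply mul_le_mul_of_nonneg_left _ (by positivity)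
            linarith
        _ = ‖(star a * a) S.vac‖ ^ 2 / N + (K + ε / 2) := by
            field_simp
        _ ≤ K + ε := by linarith
    have e3 := mul_le_mul_of_nonneg_left e2 hκ
    have e4 := mul_le_mul_of_nonneg_left e3 h3.le
    generalize (1 / (N : ℝ) ^ 2 * (N * ‖(star a * a) S.vac‖ ^ 2
          + ∑ k : Fin N, ∑ l : Fin N, (if k = l then 0 else
              ((inner ℂ ((star a * a) S.vac) (S.flow (t l - t k) (star a * a) S.vac)).re
               + (inner ℂ (a S.vac) (S.flow (t k - t l) (a * star a) (a S.vac))).re)))) = X at e4 ⊢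
    have e5 : κ * ((3 : ℝ) ^ N * X) = 3 ^ N * (κ * X) := by ring
    rw [e5, mul_sub]
    linarith
  obtain ⟨ζ, -, hζ⟩ := Finset.exists_le_of_sum_le Finset.univ_nonempty hsum
  refine ⟨spreadOp S a N t r ζ, spreadOp_mem S ha N t r ζ,
    ⟨N, fun k => t k, fun k => ph (ζ k) * (r : ℂ), ?_⟩, hζ⟩
  rw [spreadOp_vac]
  refine Finset.sum_congr rfl fun k _ => ?_
  rw [smul_smul]

end Crest.Agent.R84
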