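import Crest.Agent.S0112_Defs

/-! Row 84 (S0112), module H: truncation `v = V (1 + V⋆V/R)⁻¹` of an element of a von Neumann algebra. -/

set_option autoImplicit false

namespace Crest.Agent.R84

open Crest.OpAlg Filter MeasureTheory
open scoped Topology

variable {H : Type*} [NormedAddCommGroup H] [InnerProductSpace ℂ H] [CompleteSpace H]

/-- a von Neumann algebra is inverse closed -/
theorem vn_inv_mem (M : VonNeumannAlgebra H) (B C : H →L[ℂ] H) (hB : B ∈ M)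
    (hBC : B * C = 1) (hCB : C * B = 1) : C ∈ M := by
  rw [← M.commutant_commutant, VonNeumannAlgebra.mem_commutant_iff]
  intro g hg
  have hgB : B * g = g * B := (VonNeumannAlgebra.mem_commutant_iff.1 hg) B hB
  calc g * C = (C * B) * g * C := by rw [hCB, one_mul]
    _ = C * (B * g) * C := by simp only [mul_assoc]
    _ = C * (g * B) * C := by rw [hgB]
    _ = C * g * (B * C) := by simp only [mul_assoc]
    _ = C * g := by rw [hBC, mul_one]

theorem truncate (S : ModularDatum H) (V : H →L[ℂ] H) (hV : V ∈ S.M) (R : ℝ) (hR : 0 < R) (ξ : H) :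
    ∃ v : H →L[ℂ] H, v ∈ S.M ∧ ‖v‖ ^ 2 ≤ R / 2 ∧
      ‖V ξ - v ξ‖ ^ 2 ≤ ‖(star V * V) ξ‖ ^ 2 / (2 * R) := by
  set A : H →L[ℂ] H := star V * V with hA
  set B : H →L[ℂ] H := 1 + (R⁻¹ : ℝ) • A with hB
  have hA0 : 0 ≤ A := star_mul_self_nonneg V
  have h1B : (1 : H →L[ℂ] H) ≤ B := by
    rw [hB]
    exact le_add_of_nonneg_right (smul_nonneg (inv_nonneg.2 hR.le) hA0)
  have hBu : IsUnit B := CStarAlgebra.isUnit_of_le 1 h1B
  obtain ⟨u, hu⟩ := hBu
  set C : H →L[ℂ] H := ↑u⁻¹ with hC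
  have hBC : B * C = 1 := by rw [← hu, hC]; exact u.mul_inv
  have hCB : C * B = 1 := by rw [← hu, hC]; exact u.inv_mul
  have hAM : A ∈ S.M := mul_mem (star_mem hV) hV
  have hBM : B ∈ S.M := by
    rw [hB]
    refine add_mem (one_mem _) ?_
    have : (R⁻¹ : ℝ) • A = ((R⁻¹ : ℝ) : ℂ) • A := (Complex.coe_smul _ _).symm
    rw [this]
    exact S.M.toStarSubalgebra.smul_mem hAM _
  have hCM : C ∈ S.M := vn_inv_mem S.M B C hBM hBC hCB
  -- the key pointwise bound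
  have key : ∀ x : H, ‖(V * C) x‖ ^ 2 ≤ R / 2 * ‖x‖ ^ 2 := by
    intro x
    set y : H := C x with hy
    have hx : x = y + (R⁻¹ : ℝ) • A y := by
      have : B (C x) = x := by
        have := congrArg (fun T : H →L[ℂ] H => T x) hBC
        simpa using this
      rw [← this, hB]
      simp [hy]
    have hAy : (inner ℂ y (A y)).re = ‖V y‖ ^ 2 := by
      have e1 : A y = ContinuousLinearMap.adjoint V (V y) := rfl
      rw [e1, ContinuousLinearMap.adjoint_inner_right, inner_self_eq_norm_sq_to_K]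
      norm_cast
    have hxx : ‖x‖ ^ 2 = ‖y‖ ^ 2 + 2 * (R⁻¹ * ‖V y‖ ^ 2) + ‖(R⁻¹ : ℝ) • A y‖ ^ 2 := by
      conv_lhs => rw [hx]
      rw [@norm_add_sq ℂ]
      congr 2
      rw [inner_smul_right_eq_smul]
      simp [hAy]
    have h1 : (V * C) x = V y := rfl
    rw [h1]
    have h2 : 0 ≤ ‖y‖ ^ 2 := by positivity
    have h3 : 0 ≤ ‖(R⁻¹ : ℝ) • A y‖ ^ 2 := by positivity
    have h4 : R / 2 * (2 * (R⁻¹ * ‖V y‖ ^ 2)) = ‖V y‖ ^ 2 := by
      field_simp
    nlinarith [mul_nonneg hR.le h2, mul_nonneg hR.le h3]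
  refine ⟨V * C, mul_mem hV hCM, ?_, ?_⟩
  · have hb : ‖V * C‖ ≤ Real.sqrt (R / 2) := by
      refine ContinuousLinearMap.opNorm_le_bound _ (Real.sqrt_nonneg _) fun x => ?_
      have := key x
      rw [← Real.sqrt_sq (norm_nonneg ((V * C) x)), ← Real.sqrt_sq (norm_nonneg x),
        ← Real.sqrt_mul (by positivity)]
      exact Real.sqrt_le_sqrt this
    calc ‖V * C‖ ^ 2 ≤ Real.sqrt (R / 2) ^ 2 := by gcongr
      _ = R / 2 := Real.sq_sqrt (by positivity)
  · have hdiff : V ξ - (V * C) ξ = (R⁻¹ : ℝ) • (V * C) (A ξ) := by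
      have h1 : C (B ξ) = ξ := by
        have := congrArg (fun T : H →L[ℂ] H => T ξ) hCB
        simpa using this
      have h2 : B ξ = ξ + (R⁻¹ : ℝ) • A ξ := by rw [hB]; simp
      have h3 : ξ = C ξ + (R⁻¹ : ℝ) • C (A ξ) := by
        conv_lhs => rw [← h1, h2]
        simp
      have h4 : V ξ = V (C ξ) + (R⁻¹ : ℝ) • V (C (A ξ)) := by
        conv_lhs => rw [h3]
        simp
      rw [h4]
      simp
    rw [hdiff, norm_smul, mul_pow]
    have := key (A ξ)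
    have hRn : ‖(R⁻¹ : ℝ)‖ ^ 2 = (R ^ 2)⁻¹ := by
      rw [Real.norm_eq_abs, sq_abs, inv_pow]
    rw [hRn]
    calc (R ^ 2)⁻¹ * ‖(V * C) (A ξ)‖ ^ 2 ≤ (R ^ 2)⁻¹ * (R / 2 * ‖A ξ‖ ^ 2) := by gcongr
      _ = ‖A ξ‖ ^ 2 / (2 * R) := by field_simp

end Crest.Agent.R84
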