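import Crest.Agent.S0112_Calc
import Crest.Agent.S0112_Mean
import Crest.Agent.S0112_Tomita
import Crest.Agent.S0112_Ergodic
import Crest.Agent.S0112_Kernel
import Crest.Agent.S0112_Smooth
import Crest.Agent.S0112_Phases
import Crest.Agent.S0112_Times
import Crest.Agent.S0112_Trunc
import Crest.Agent.S0112_QQ
import Crest.Agent.S0112_Spread

/-! Row 84 (S0112): the core estimate for a single vector `h` in the `δ`-band. -/

set_option autoImplicit false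

namespace Crest.Agent.R84

open Crest.OpAlg Filter MeasureTheory
open scoped Topology

variable {H : Type*} [NormedAddCommGroup H] [InnerProductSpace ℂ H] [CompleteSpace H]

theorem core (K : Kernel) (S : ModularDatum H) (herg : S.Ergodic)
    (ω : Ultrafilter ℕ) (hω : (ω : Filter ℕ) ≤ Filter.atTop)
    (T : H →L[ℂ] H) (s δ : ℝ) (hδ : 0 < δ) (hδ1 : δ ≤ 1) (h : H) (hh : ‖h‖ = 1)
    (hband : S.D.SupportedIn (Set.Icc (s - δ) (s + δ)) h) (c : ℝ) (hc : 0 < c)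
    (hpos : c ≤ ultraMean ω (fun t : ℝ => ‖T (S.D.wave t h)‖ ^ 2)) :
    ∃ v : H →L[ℂ] H, v ∈ S.M ∧
      ‖v‖ ≤ (∫ τ, ‖K.k τ‖) *
        Real.sqrt ((‖T‖ ^ 2 + 1) / (c / (8 * (16 * (1 + Real.exp (s + 2)) + 1))) / 2) ∧
      Real.sqrt (c / 32) ≤ ‖T (v S.vac)‖ ∧
      S.D.SupportedIn (Set.Icc (s - 4 * δ) (s + 4 * δ)) (v S.vac) := by
  set K0 : ℝ := 16 * (1 + Real.exp (s + 2)) with hK0
  have hK0pos : 0 < K0 := by have := Real.exp_pos (s + 2); positivity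
  set κ : ℝ := c / (8 * (K0 + 1)) with hκ
  have hκpos : 0 < κ := by positivity
  set R : ℝ := (‖T‖ ^ 2 + 1) / κ with hR
  have hRpos : 0 < R := by positivity
  -- Step A
  obtain ⟨ε₁, hε₁pos, hε₁1, hε₁T⟩ : ∃ ε₁ : ℝ, 0 < ε₁ ∧ ε₁ ≤ 1 ∧ ‖T‖ ^ 2 * ε₁ ^ 2 ≤ c / 4 := by
    refine ⟨min 1 (Real.sqrt (c / (4 * (‖T‖ ^ 2 + 1)))), ?_, min_le_left _ _, ?_⟩
    · exact lt_min one_pos (Real.sqrt_pos.mpr (by positivity))
    · have h1 : (min 1 (Real.sqrt (c / (4 * (‖T‖ ^ 2 + 1))))) ^ 2 ≤ c / (4 * (‖T‖ ^ 2 + 1)) := by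
        have h2 : min 1 (Real.sqrt (c / (4 * (‖T‖ ^ 2 + 1)))) ≤ Real.sqrt (c / (4 * (‖T‖ ^ 2 + 1))) :=
          min_le_right _ _
        have h3 : 0 ≤ min 1 (Real.sqrt (c / (4 * (‖T‖ ^ 2 + 1)))) :=
          le_min zero_le_one (Real.sqrt_nonneg _)
        calc _ ≤ (Real.sqrt (c / (4 * (‖T‖ ^ 2 + 1)))) ^ 2 := by gcongr
          _ = _ := Real.sq_sqrt (by positivity)
      calc ‖T‖ ^ 2 * _ ≤ ‖T‖ ^ 2 * (c / (4 * (‖T‖ ^ 2 + 1))) := by gcongr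
        _ = (‖T‖ ^ 2 / (‖T‖ ^ 2 + 1)) * (c / 4) := by field_simp
        _ ≤ 1 * (c / 4) := by
            gcongr
            rw [div_le_one (by positivity)]; linarith
        _ = c / 4 := one_mul _
  obtain ⟨a₀, ha₀M, ha₀⟩ : ∃ a₀ : H →L[ℂ] H, a₀ ∈ S.M ∧ ‖a₀ S.vac - h‖ < ε₁ := by
    have := S.cyclic.exists_dist_lt h hε₁pos
    obtain ⟨y, ⟨a, rfl⟩, hy⟩ := this
    refine ⟨a, a.2, ?_⟩
    rw [← dist_eq_norm, dist_comm]; exact hy
  obtain ⟨a, haM, -, haξ⟩ := smooth_exists K S s δ hδ a₀ ha₀M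
  have hwinh : S.D.apply (K.win s δ) h = h :=
    apply_eq_self S.D _ _ (fun u hu => win_one K s δ hδ u hu) h hband
  have hah : ‖a S.vac - h‖ ≤ ε₁ := by
    have : a S.vac - h = S.D.apply (K.win s δ) (a₀ S.vac - h) := by
      rw [map_sub, hwinh, haξ]
    rw [this]
    calc _ ≤ ‖S.D.apply (K.win s δ)‖ * ‖a₀ S.vac - h‖ := ContinuousLinearMap.le_opNorm _ _
      _ ≤ 1 * ‖a₀ S.vac - h‖ := by
          gcongr
          exact (apply_norm_le S.D _).trans (win_norm_le K s δ)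
      _ ≤ ε₁ := by rw [one_mul]; exact ha₀.le
  have hasupp : S.D.SupportedIn (Set.Icc (s - 2 * δ) (s + 2 * δ)) (a S.vac) := by
    rw [haξ]
    exact supp_apply S.D _ _ (fun u hu => win_zero K s δ hδ u hu) _
  have hanorm : ‖a S.vac‖ ≤ 2 := by
    calc ‖a S.vac‖ = ‖(a S.vac - h) + h‖ := by rw [sub_add_cancel]
      _ ≤ ‖a S.vac - h‖ + ‖h‖ := norm_add_le _ _
      _ ≤ 1 + 1 := by rw [hh]; linarith
      _ = 2 := by norm_num
  have hQa : c / 4 ≤ QQ S.D ω T (a S.vac) := by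
    have h1 := qq_perturb S.D ω hω T (a S.vac) h
    have h2 : ‖T‖ ^ 2 * ‖a S.vac - h‖ ^ 2 ≤ c / 4 := by
      calc _ ≤ ‖T‖ ^ 2 * ε₁ ^ 2 := by gcongr
        _ ≤ _ := hε₁T
    have h3 : c ≤ QQ S.D ω T h := hpos
    linarith
  have hadj : ‖(star a) S.vac‖ ^ 2 ≤ Real.exp (s + 2) * ‖a S.vac‖ ^ 2 := by
    have h1 := adjoint_bound S a haM _ _ hasupp
    have h2 : Real.exp (s + 2 * δ) ≤ Real.exp (s + 2) := Real.exp_le_exp.mpr (by linarith)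
    calc _ ≤ Real.exp (s + 2 * δ) * ‖a S.vac‖ ^ 2 := h1
      _ ≤ _ := by gcongr
  have ha4 : ‖a S.vac‖ ^ 4 ≤ 16 := by
    calc ‖a S.vac‖ ^ 4 ≤ 2 ^ 4 := by gcongr
      _ = 16 := by norm_num
  have hKbound : ‖a S.vac‖ ^ 4 + ‖(star a) S.vac‖ ^ 2 * ‖a S.vac‖ ^ 2 + 1 ≤ K0 + 1 := by
    have h1 : ‖(star a) S.vac‖ ^ 2 * ‖a S.vac‖ ^ 2 ≤ Real.exp (s + 2) * ‖a S.vac‖ ^ 4 := by
      calc _ ≤ (Real.exp (s + 2) * ‖a S.vac‖ ^ 2) * ‖a S.vac‖ ^ 2 := by gcongr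
        _ = _ := by ring
    have h2 : Real.exp (s + 2) * ‖a S.vac‖ ^ 4 ≤ Real.exp (s + 2) * 16 := by
      have := Real.exp_pos (s + 2); gcongr
    rw [hK0]; linarith
  -- Step C
  obtain ⟨V, hVM, ⟨N, t, cc, hVξ⟩, hV⟩ := spread S herg ω hω T a haM 1 κ one_pos hκpos.le
  set X : ℝ := ‖(star V * V) S.vac‖ ^ 2 with hX
  have hXnn : 0 ≤ X := by positivity
  have hQV : c / 8 + κ * X ≤ QQ S.D ω T (V S.vac) := by
    have h1 : κ * (‖a S.vac‖ ^ 4 + ‖(star a) S.vac‖ ^ 2 * ‖a S.vac‖ ^ 2 + 1) ≤ κ * (K0 + 1) := by gcongr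
    have h2 : κ * (K0 + 1) = c / 8 := by rw [hκ]; field_simp
    linarith
  have hVsupp : S.D.SupportedIn (Set.Icc (s - 2 * δ) (s + 2 * δ)) (V S.vac) := by
    rw [hVξ]
    exact supp_sum S.D _ _ _ (fun k _ => supp_smul S.D _ _ (supp_wave S.D _ _ hasupp))
  -- Step D
  obtain ⟨v, hvM, hvnorm, hvV⟩ := truncate S V hVM R hRpos S.vac
  -- Step E
  have h2δ : 0 < 2 * δ := by positivity
  obtain ⟨v', hv'M, hv'norm, hv'ξ⟩ := smooth_exists K S s (2 * δ) h2δ v hvM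
  have hwinV : S.D.apply (K.win s (2 * δ)) (V S.vac) = V S.vac :=
    apply_eq_self S.D _ _ (fun u hu => win_one K s (2 * δ) h2δ u hu) _ hVsupp
  have hv'V : ‖v' S.vac - V S.vac‖ ^ 2 ≤ X / (2 * R) := by
    have : v' S.vac - V S.vac = S.D.apply (K.win s (2 * δ)) (v S.vac - V S.vac) := by
      rw [map_sub, hwinV, hv'ξ]
    have h1 : ‖v' S.vac - V S.vac‖ ≤ ‖V S.vac - v S.vac‖ := by
      rw [this]
      calc _ ≤ ‖S.D.apply (K.win s (2 * δ))‖ * ‖v S.vac - V S.vac‖ := ContinuousLinearMap.le_opNorm _ _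
        _ ≤ 1 * ‖v S.vac - V S.vac‖ := by
            gcongr
            exact (apply_norm_le S.D _).trans (win_norm_le K s _)
        _ = _ := by rw [one_mul, norm_sub_rev]
    calc _ ≤ ‖V S.vac - v S.vac‖ ^ 2 := by gcongr
      _ ≤ _ := hvV
  have hv'supp : S.D.SupportedIn (Set.Icc (s - 4 * δ) (s + 4 * δ)) (v' S.vac) := by
    rw [hv'ξ]
    refine supp_apply S.D _ _ (fun u hu => win_zero K s (2 * δ) h2δ u ?_) _
    have e1 : s - 2 * (2 * δ) = s - 4 * δ := by ring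
    have e2 : s + 2 * (2 * δ) = s + 4 * δ := by ring
    rw [e1, e2]; exact hu
  have hQv' : c / 16 ≤ QQ S.D ω T (v' S.vac) := by
    have h1 := qq_perturb S.D ω hω T (v' S.vac) (V S.vac)
    have h2 : ‖T‖ ^ 2 * ‖v' S.vac - V S.vac‖ ^ 2 ≤ κ * X / 2 := by
      calc _ ≤ ‖T‖ ^ 2 * (X / (2 * R)) := by gcongr
        _ = (‖T‖ ^ 2 / (‖T‖ ^ 2 + 1)) * (κ * X / 2) := by rw [hR]; field_simp
        _ ≤ 1 * (κ * X / 2) := by
            gcongr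
            rw [div_le_one (by positivity)]; linarith
        _ = _ := one_mul _
    linarith
  -- Step F
  obtain ⟨t₀, ht₀⟩ := qq_exists S.D ω hω T (v' S.vac) (ε := c / 32) (by positivity)
  refine ⟨S.flow t₀ v', flow_mem' S t₀ v' hv'M, ?_, ?_, ?_⟩
  · rw [flow_norm]
    have h1 : ‖v‖ ≤ Real.sqrt (R / 2) := Real.le_sqrt_of_sq_le hvnorm
    calc ‖v'‖ ≤ (∫ τ, ‖K.k τ‖) * ‖v‖ := hv'norm
      _ ≤ (∫ τ, ‖K.k τ‖) * Real.sqrt (R / 2) := by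
          gcongr
  · rw [flow_vac]
    apply Real.sqrt_le_iff.mpr
    refine ⟨norm_nonneg _, ?_⟩
    linarith
  · rw [flow_vac]
    exact supp_wave S.D _ _ hv'supp

end Crest.Agent.R84
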