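import Crest.Agent.S0112_Defs

/-! Row 84 (S0112), module A: basic facts on `LineCalculus`. -/

set_option autoImplicit false

namespace Crest.Agent.R84

open Crest.OpAlg Filter MeasureTheory
open scoped Topology

variable {H : Type*} [NormedAddCommGroup H] [InnerProductSpace ℂ H] [CompleteSpace H]

local notation "BCF" => BoundedContinuousFunction ℝ ℂ

/-- the C⋆-algebra structure on bounded continuous functions (bundled) -/
noncomputable def bcfCStar : CStarAlgebra (BoundedContinuousFunction ℝ ℂ) where

section Calc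
variable (D : LineCalculus H)

theorem apply_norm_le (f : BCF) : ‖D.apply f‖ ≤ ‖f‖ := by
  letI := bcfCStar
  exact NonUnitalStarAlgHom.norm_apply_le D.apply f

theorem apply_mul (f g : BCF) (x : H) : D.apply (f * g) x = D.apply f (D.apply g x) := by
  rw [map_mul]; rfl

theorem apply_comm (f g : BCF) (x : H) : D.apply f (D.apply g x) = D.apply g (D.apply f x) := by
  rw [← apply_mul, ← apply_mul, mul_comm]

theorem character_apply (t u : ℝ) :
    LineCalculus.character t u = Complex.exp (Complex.I * ((t * u : ℝ) : ℂ)) := rfl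

theorem character_zero : LineCalculus.character 0 = 1 := by
  ext u; simp [character_apply]

theorem character_add (s t : ℝ) :
    LineCalculus.character (s + t) = LineCalculus.character s * LineCalculus.character t := by
  ext u
  rw [BoundedContinuousFunction.mul_apply, character_apply, character_apply, character_apply,
    ← Complex.exp_add]
  congr 1; push_cast; ring

theorem character_star (t : ℝ) : star (LineCalculus.character t) = LineCalculus.character (-t) := by
  ext u
  rw [BoundedContinuousFunction.star_apply, character_apply, character_apply,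
    Complex.star_def, ← Complex.exp_conj]
  congr 1
  simp

theorem character_norm_apply (t u : ℝ) : ‖LineCalculus.character t u‖ = 1 := by
  rw [character_apply, mul_comm]; exact Complex.norm_exp_ofReal_mul_I _

theorem wave_zero : D.wave 0 = 1 := by
  unfold LineCalculus.wave; rw [character_zero, map_one]

theorem wave_add (s t : ℝ) : D.wave (s + t) = D.wave s * D.wave t := by
  unfold LineCalculus.wave; rw [character_add, map_mul]

theorem wave_star (t : ℝ) : star (D.wave t) = D.wave (-t) := by
  unfold LineCalculus.wave; rw [← map_star, character_star]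

theorem wave_inner (t : ℝ) (x y : H) : inner ℂ (D.wave t x) y = inner ℂ x (D.wave (-t) y) := by
  rw [← wave_star, ContinuousLinearMap.star_eq_adjoint, ContinuousLinearMap.adjoint_inner_right]

theorem wave_neg_wave (t : ℝ) (x : H) : D.wave (-t) (D.wave t x) = x := by
  have := wave_add D (-t) t
  rw [neg_add_cancel, wave_zero] at this
  have h := congrArg (fun A : H →L[ℂ] H => A x) this
  exact h.symm

theorem wave_norm (t : ℝ) (x : H) : ‖D.wave t x‖ = ‖x‖ := by
  have h : ‖D.wave t x‖ ^ 2 = ‖x‖ ^ 2 := by
    rw [← inner_self_eq_norm_sq (𝕜 := ℂ), ← inner_self_eq_norm_sq (𝕜 := ℂ), wave_inner, wave_neg_wave]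
  exact (pow_left_inj₀ (norm_nonneg _) (norm_nonneg _) two_ne_zero).mp h

theorem wave_opNorm_le (t : ℝ) : ‖D.wave t‖ ≤ 1 :=
  ContinuousLinearMap.opNorm_le_bound _ zero_le_one fun x => by rw [wave_norm, one_mul]

theorem wave_apply_comm (t : ℝ) (f : BCF) (x : H) : D.wave t (D.apply f x) = D.apply f (D.wave t x) :=
  apply_comm D _ _ x

/-- norm continuity of `t ↦ e^{it·} f` for compactly supported `f` -/
theorem character_mul_lipschitz (f : BCF) (R : ℝ) (hR : ∀ u, R < |u| → f u = 0) (s t : ℝ) :
    ‖LineCalculus.character s * f - LineCalculus.character t * f‖ ≤ |s - t| * |R| * ‖f‖ := by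
  rw [BoundedContinuousFunction.norm_le (by positivity)]
  intro u
  rw [BoundedContinuousFunction.sub_apply, BoundedContinuousFunction.mul_apply,
    BoundedContinuousFunction.mul_apply, ← sub_mul, norm_mul]
  by_cases hu : R < |u|
  · rw [hR u hu]; simp; positivity
  · push_neg at hu
    apply mul_le_mul _ (f.norm_coe_le_norm u) (norm_nonneg _) (by positivity)
    have h1 : LineCalculus.character s u - LineCalculus.character t u
        = LineCalculus.character t u * (Complex.exp (Complex.I * (((s - t) * u : ℝ) : ℂ)) - 1) := by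
      rw [mul_sub, mul_one, character_apply, character_apply, ← Complex.exp_add]
      congr 2; push_cast; ring
    rw [h1, norm_mul, character_norm_apply, one_mul]
    refine (Real.norm_exp_I_mul_ofReal_sub_one_le).trans ?_
    rw [Real.norm_eq_abs, abs_mul]
    exact mul_le_mul_of_nonneg_left (hu.trans (le_abs_self R)) (abs_nonneg _)

theorem exists_radius (f : BCF) (hf : HasCompactSupport (f : ℝ → ℂ)) : ∃ R : ℝ, ∀ u, R < |u| → f u = 0 := by
  obtain ⟨R, hR⟩ := hf.isCompact.isBounded.subset_closedBall 0
  refine ⟨R, fun u hu => ?_⟩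
  by_contra hne
  have : u ∈ tsupport (f : ℝ → ℂ) := subset_tsupport _ hne
  have := hR this
  rw [mem_closedBall_zero_iff, Real.norm_eq_abs] at this
  linarith

theorem wave_continuous (x : H) : Continuous fun t : ℝ => D.wave t x := by
  rw [Metric.continuous_iff]
  intro t₀ ε hε
  obtain ⟨f, hf, hfx⟩ := D.window x (ε / 3) (by positivity)
  obtain ⟨R, hR⟩ := exists_radius f hf
  have key : ∀ t, ‖D.wave t (D.apply f x) - D.wave t₀ (D.apply f x)‖ ≤ |t - t₀| * |R| * ‖f‖ * ‖x‖ := by
    intro t
    have : D.wave t (D.apply f x) - D.wave t₀ (D.apply f x)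
        = D.apply (LineCalculus.character t * f - LineCalculus.character t₀ * f) x := by
      rw [map_sub, ContinuousLinearMap.sub_apply, apply_mul, apply_mul]; rfl
    rw [this]
    refine (ContinuousLinearMap.le_opNorm _ _).trans ?_
    exact mul_le_mul_of_nonneg_right ((apply_norm_le D _).trans (character_mul_lipschitz f R hR t t₀))
      (norm_nonneg _)
  set C : ℝ := |R| * ‖f‖ * ‖x‖ with hC
  have hC0 : 0 ≤ C := by positivity
  refine ⟨ε / 3 / (C + 1), by positivity, fun t ht => ?_⟩
  rw [Real.dist_eq] at ht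
  rw [dist_eq_norm]
  have h1 : ‖D.wave t x - D.wave t (D.apply f x)‖ < ε / 3 := by
    rw [← map_sub, wave_norm, norm_sub_rev]; exact hfx
  have h2 : ‖D.wave t₀ (D.apply f x) - D.wave t₀ x‖ < ε / 3 := by
    rw [← map_sub, wave_norm]; exact hfx
  have h3 : ‖D.wave t (D.apply f x) - D.wave t₀ (D.apply f x)‖ ≤ ε / 3 := by
    refine (key t).trans ?_
    have : |t - t₀| * |R| * ‖f‖ * ‖x‖ = |t - t₀| * C := by rw [hC]; ring
    rw [this]
    have h4 : |t - t₀| * C ≤ ε / 3 / (C + 1) * C := mul_le_mul_of_nonneg_right ht.le hC0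
    have h5 : ε / 3 / (C + 1) * C ≤ ε / 3 := by
      rw [div_mul_eq_mul_div, div_le_iff₀ (by positivity)]
      nlinarith
    linarith
  have h6 : D.wave t x - D.wave t₀ x = (D.wave t x - D.wave t (D.apply f x))
      + (D.wave t (D.apply f x) - D.wave t₀ (D.apply f x)) + (D.wave t₀ (D.apply f x) - D.wave t₀ x) := by
    abel
  rw [h6]
  refine (norm_add₃_le).trans_lt ?_
  linarith

/-- joint continuity: `t ↦ e^{itD} (x t)` is continuous when `x` is. -/
theorem wave_continuous' (x : ℝ → H) (hx : Continuous x) : Continuous fun t : ℝ => D.wave t (x t) := by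
  rw [continuous_iff_continuousAt]
  intro t₀
  have h1 : Tendsto (fun t => D.wave t (x t₀)) (𝓝 t₀) (𝓝 (D.wave t₀ (x t₀))) :=
    (wave_continuous D (x t₀)).tendsto t₀
  have h2 : Tendsto (fun t => D.wave t (x t) - D.wave t (x t₀)) (𝓝 t₀) (𝓝 0) := by
    rw [tendsto_zero_iff_norm_tendsto_zero]
    have : ∀ t, ‖D.wave t (x t) - D.wave t (x t₀)‖ = ‖x t - x t₀‖ := by
      intro t; rw [← map_sub, wave_norm]
    simp_rw [this]
    have h3 : Tendsto (fun t => x t - x t₀) (𝓝 t₀) (𝓝 (x t₀ - x t₀)) := (hx.tendsto t₀).sub_const _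
    rw [sub_self] at h3
    simpa using h3.norm
  have h4 := h2.add h1
  rw [zero_add] at h4
  refine h4.congr fun t => ?_
  abel

theorem eq_zero_of_compact (x : H)
    (h : ∀ f : BCF, HasCompactSupport (f : ℝ → ℂ) → D.apply f x = 0) : x = 0 := by
  rw [← norm_le_zero_iff]
  refine le_of_forall_pos_le_add fun ε hε => ?_
  obtain ⟨f, hf, hfx⟩ := D.window x ε hε
  rw [h f hf, zero_sub, norm_neg] at hfx
  linarith

theorem supp_apply (K : Set ℝ) (g : BCF) (hg : ∀ u, u ∉ K → g u = 0) (x : H) :
    D.SupportedIn K (D.apply g x) := by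
  intro f hf
  rw [← apply_mul]
  have : f * g = 0 := by
    ext u
    rw [BoundedContinuousFunction.mul_apply]
    by_cases hu : u ∈ K
    · rw [hf u hu, zero_mul]; rfl
    · rw [hg u hu, mul_zero]; rfl
  rw [this, map_zero]; rfl

theorem apply_congr_supp (K : Set ℝ) (f g : BCF) (hfg : ∀ u ∈ K, f u = g u) (x : H) (hx : D.SupportedIn K x) :
    D.apply f x = D.apply g x := by
  have := hx (f - g) (fun u hu => by rw [BoundedContinuousFunction.sub_apply, hfg u hu, sub_self])
  rw [map_sub, ContinuousLinearMap.sub_apply, sub_eq_zero] at this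
  exact this

theorem apply_eq_self (K : Set ℝ) (g : BCF) (hg : ∀ u ∈ K, g u = 1) (x : H) (hx : D.SupportedIn K x) :
    D.apply g x = x := by
  rw [apply_congr_supp D K g 1 (fun u hu => by rw [hg u hu]; rfl) x hx, map_one]; rfl

theorem supp_mono {K L : Set ℝ} (hKL : K ⊆ L) {x : H} (hx : D.SupportedIn K x) : D.SupportedIn L x :=
  fun f hf => hx f fun u hu => hf u (hKL hu)

theorem supp_wave (K : Set ℝ) (t : ℝ) {x : H} (hx : D.SupportedIn K x) : D.SupportedIn K (D.wave t x) := by
  intro f hf
  rw [← wave_apply_comm, hx f hf, map_zero]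

theorem supp_smul (K : Set ℝ) (c : ℂ) {x : H} (hx : D.SupportedIn K x) : D.SupportedIn K (c • x) := by
  intro f hf
  rw [map_smul, hx f hf, smul_zero]

theorem supp_sum (K : Set ℝ) {ι : Type*} (s : Finset ι) (x : ι → H) (hx : ∀ i ∈ s, D.SupportedIn K (x i)) :
    D.SupportedIn K (∑ i ∈ s, x i) := by
  intro f hf
  rw [map_sum]
  exact Finset.sum_eq_zero fun i hi => hx i hi f hf

end Calc

end Crest.Agent.R84
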