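import Mathlib
import Crest.Prelude.Def_ModularData

/-! Row 84 (S0112): shared definitions for the proof of "bounded recovery". -/

set_option autoImplicit false

namespace Crest.Agent.R84

open Crest.OpAlg Filter MeasureTheory
open scoped Topology

/-- bounded continuous real functions (the only ones on which `ultraMean` is used) -/
def BC (f : ℝ → ℝ) : Prop := Continuous f ∧ ∃ B : ℝ, ∀ t, |f t| ≤ B

/-- cube roots of unity -/
noncomputable def ph (j : Fin 3) : ℂ :=
  Complex.exp (2 * Real.pi * Complex.I * ((j : ℕ) : ℂ) / 3)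

variable {H : Type*} [NormedAddCommGroup H] [InnerProductSpace ℂ H] [CompleteSpace H]

/-- the averaged quadratic form `Q(x) = ω-mean over t of ‖T e^{itD} x‖²` -/
noncomputable def QQ (D : LineCalculus H) (ω : Ultrafilter ℕ) (T : H →L[ℂ] H) (x : H) : ℝ :=
  ultraMean ω (fun t : ℝ => ‖T (D.wave t x)‖ ^ 2)

/-- data of a smoothing window: a profile `g₁` (=1 on [-1,1], =0 off [-2,2], values in [0,1]) which is the
Fourier transform of an integrable continuous kernel `k`. -/
structure Kernel where
  g : ℝ → ℝ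
  k : ℝ → ℂ
  g_cont : Continuous g
  g_one : ∀ r, |r| ≤ 1 → g r = 1
  g_zero : ∀ r, 2 ≤ |r| → g r = 0
  g_nonneg : ∀ r, 0 ≤ g r
  g_le : ∀ r, g r ≤ 1
  k_cont : Continuous k
  k_int : Integrable k
  inv : ∀ r : ℝ, ((g r : ℝ) : ℂ) = ∫ τ : ℝ, k τ * Complex.exp (Complex.I * ((τ * r : ℝ) : ℂ))

/-- the rescaled window `u ↦ g₁((u - s)/w)` as a bounded continuous function -/
noncomputable def Kernel.win (K : Kernel) (s w : ℝ) : BoundedContinuousFunction ℝ ℂ :=
  BoundedContinuousFunction.ofNormedAddCommGroup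
    (fun u : ℝ => ((K.g ((u - s) / w) : ℝ) : ℂ))
    (by have := K.g_cont; fun_prop) 1
    (fun u => by
      rw [Complex.norm_real, Real.norm_eq_abs, abs_of_nonneg (K.g_nonneg _)]
      exact K.g_le _)

end Crest.Agent.R84
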