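import Crest.Statements.S0166
import Crest.Agent.R125_TP
import Crest.Agent.R125_Diamond
import Crest.Agent.R125_Reflexive
import Crest.Agent.R125_Lp2
import Crest.Agent.R125_Gen
import Crest.Agent.R125_Models
import Crest.Agent.R125_Height
import Crest.Agent.R125_TreeCore
import Crest.Agent.R125_TreeLevels

set_option autoImplicit false
open Crest Crest.AnalysisR

namespace Crest.Agent.S0166

open Crest.Agent.R125

theorem refl_XH (n : ℕ) : Refl (XH n) := Refl.of_equiv (equivXH n) (refl_of_hilbert (HH n))

theorem tp_ES : TP ES := by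
  refine TPx.tp (tpx_lp2 (fun n => XH n) fun n => ?_)
  obtain ⟨R⟩ := exists_genRealization (testSys_HT n)
  exact R125.Realization.tpx (testSys_HT n) R

theorem not_auc_ES (N : ES → ℝ) (hN : EquivNorm N) : ¬ AUC N := by
  refine not_auc_of_levels (C := 1) (θ := 1) one_pos ?_ N hN
  intro n
  obtain ⟨R⟩ := exists_genRealization (testSys_HT (n + 1))
  obtain ⟨ι⟩ : Nonempty (XH (n + 1) →ₗᵢ[ℝ] ES) := exists_lp2_embedding (fun n => XH n) (n + 1)
  exact R125.Realization.levels (testSys_HT (n + 1)) R ι n (fun u _ hu => hu)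

/-- There is a real Banach space (RealBanach record) that is separable, infinite-dimensional and reflexive, whose given norm has at every t > 0 averaged midpoint asymptotic modulus at least √(1 + t²/12) - 1 and at least (√(1 + t²/4) - 1)/2 and maximum-based midpoint modulus at least √(1 + t²/4) - 1, on which no equivalent norm is asymptotically uniformly convex, and in which for every k every map of the depth-k countably branching diamond graph of distortion at most D has 1 + k/4 ≤ D². -/
theorem result :
    ∃ E : Crest.AnalysisR.RealBanach, E.IsSeparableInfiniteDim ∧ E.IsReflexive ∧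
      (∀ t : ℝ, 0 < t → E.MidpointModulusGE E.norm t (Real.sqrt (1 + t ^ 2 / 12) - 1) ∧
        E.MidpointModulusGE E.norm t ((Real.sqrt (1 + t ^ 2 / 4) - 1) / 2) ∧
        E.MaxMidpointModulusGE E.norm t (Real.sqrt (1 + t ^ 2 / 4) - 1)) ∧
      (∀ N : E.X → ℝ, E.IsEquivNorm N → ¬ E.IsAUC N) ∧
      ∀ (k : ℕ) (f : Crest.AnalysisR.DiamondVertex k → E.X) (D : ℝ),
        E.HasDistortionLE k f D → 1 + (k : ℝ) / 4 ≤ D ^ 2 := by
  refine ⟨RealBanach.mk ES inferInstance inferInstance inferInstance, ⟨?_, ?_⟩, ?_, ?_, ?_, ?_⟩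
  · exact separable_lp2 (fun n => XH n) fun n => separable_genSpace _ _
  · exact not_finiteDimensional_of_not_auc (not_auc_ES _ equivNorm_norm)
  · exact refl_lp2 (fun n => XH n) refl_XH
  · intro t ht
    have h1 : (1 : ℝ) ≤ Real.sqrt (1 + t ^ 2 / 4) := by
      rw [Real.one_le_sqrt]; have : 0 ≤ t ^ 2 := sq_nonneg t; linarith
    refine ⟨TP.midGE tp_ES ht ?_, TP.midGE tp_ES ht ?_, TP.maxGE tp_ES ht le_rfl⟩
    · have : Real.sqrt (1 + t ^ 2 / 12) ≤ Real.sqrt (1 + t ^ 2 / 4) := by
        apply Real.sqrt_le_sqrt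
        have : 0 ≤ t ^ 2 := sq_nonneg t
        linarith
      linarith
    · linarith
  · intro N hN
    exact not_auc_ES N hN
  · intro k f D hf
    exact TP.diamond tp_ES k f D hf

end Crest.Agent.S0166
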