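import Mathlib
import Crest.Prelude.Def_TreePotentials

/-!
# S0168, part 1: potentials on the tree, clipping, closure properties of the test sets (helper3)
-/

set_option autoImplicit false

namespace Crest.Agent.S0168Aux

open Crest.AnalysisR Crest.AnalysisR.TreePotential

/-- the coefficient family with prescribed potential `R`. -/
def ofPot (R : List ℕ → ℝ) : List ℕ → ℝ
  | [] => R []
  | a :: v => R (a :: v) - R v

theorem pathPotential_ofPot (R : List ℕ → ℝ) (s : List ℕ) : pathPotential (ofPot R) s = R s := by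
  induction s with
  | nil => rfl
  | cons a v ih => simp only [pathPotential, ih, ofPot]; ring

theorem ofPot_pathPotential (f : List ℕ → ℝ) (s : List ℕ) : ofPot (pathPotential f) s = f s := by
  cases s with
  | nil => rfl
  | cons a v => simp only [pathPotential, ofPot]; ring

theorem pathPotential_lin (a b : ℝ) (f g : List ℕ → ℝ) (s : List ℕ) :
    pathPotential (fun u => a * f u + b * g u) s = a * pathPotential f s + b * pathPotential g s := by
  induction s with
  | nil => rfl
  | cons c v ih => simp only [pathPotential, ih]; ring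

/-- ancestor-closed sets of vertices containing the root. -/
def Closed (S : Set (List ℕ)) : Prop := [] ∈ S ∧ ∀ a v, a :: v ∈ S → v ∈ S

open Classical in
/-- restriction of a family to `S`. -/
noncomputable def res (S : Set (List ℕ)) (f : List ℕ → ℝ) : List ℕ → ℝ :=
  fun u => if u ∈ S then f u else 0

open Classical in
/-- restriction of a family to the complement of `S`. -/
noncomputable def cores (S : Set (List ℕ)) (f : List ℕ → ℝ) : List ℕ → ℝ :=
  fun u => if u ∈ S then 0 else f u

theorem res_add_cores (S : Set (List ℕ)) (f : List ℕ → ℝ) (u : List ℕ) :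
    res S f u + cores S f u = f u := by
  unfold res cores; split_ifs <;> simp

theorem pot_res {S : Set (List ℕ)} (hS : Closed S) (f : List ℕ → ℝ) (s : List ℕ) :
    (s ∈ S → pathPotential (res S f) s = pathPotential f s) ∧
      ∃ u, pathPotential (res S f) s = pathPotential f u := by
  induction s with
  | nil =>
    have : pathPotential (res S f) [] = pathPotential f [] := by
      simp [pathPotential, res, hS.1]
    exact ⟨fun _ => this, [], this⟩
  | cons a v ih =>
    by_cases h : a :: v ∈ S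
    · have hv := hS.2 a v h
      have : pathPotential (res S f) (a :: v) = pathPotential f (a :: v) := by
        simp only [pathPotential, ih.1 hv]
        simp [res, h]
      exact ⟨fun _ => this, _, this⟩
    · refine ⟨fun h' => absurd h' h, ?_⟩
      obtain ⟨u, hu⟩ := ih.2
      refine ⟨u, ?_⟩
      simp only [pathPotential, hu]
      simp [res, h]

theorem pot_res_succ_of_notMem {S : Set (List ℕ)} (f : List ℕ → ℝ) (a : ℕ) (v : List ℕ)
    (h : a :: v ∉ S) : pathPotential (res S f) (a :: v) = pathPotential (res S f) v := by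
  simp only [pathPotential]; simp [res, h]

theorem abs_pot_res_le {S : Set (List ℕ)} (hS : Closed S) {f : List ℕ → ℝ}
    (hf : ∀ s, |pathPotential f s| ≤ 1) (s : List ℕ) : |pathPotential (res S f) s| ≤ 1 := by
  obtain ⟨u, hu⟩ := (pot_res hS f s).2
  rw [hu]; exact hf u

theorem pot_cores (S : Set (List ℕ)) (f : List ℕ → ℝ) (s : List ℕ) :
    pathPotential (cores S f) s = pathPotential f s - pathPotential (res S f) s := by
  induction s with
  | nil => simp only [pathPotential]; linarith [res_add_cores S f []]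
  | cons a v ih => simp only [pathPotential, ih]; linarith [res_add_cores S f (a :: v)]

theorem abs_pot_cores_le {S : Set (List ℕ)} (hS : Closed S) {f : List ℕ → ℝ}
    (hf : ∀ s, |pathPotential f s| ≤ 1) (s : List ℕ) : |pathPotential (cores S f) s| ≤ 2 := by
  rw [pot_cores]
  have h1 := abs_le.mp (hf s)
  have h2 := abs_le.mp (abs_pot_res_le hS hf s)
  rw [abs_le]; constructor <;> linarith [h1.1, h1.2, h2.1, h2.2]

theorem pot_cores_of_mem {S : Set (List ℕ)} (hS : Closed S) (f : List ℕ → ℝ) {s : List ℕ}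
    (hs : s ∈ S) : pathPotential (cores S f) s = 0 := by
  rw [pot_cores, (pot_res hS f s).1 hs, sub_self]

/-! ### The clipped potentials -/

open Classical in
/-- `R₁`: the part of `Q` that may be *added* on top of the potential `c`. -/
noncomputable def clipA (c Q : List ℕ → ℝ) : List ℕ → ℝ :=
  fun s => if 0 ≤ c s then min (Q s) 0 else max (Q s) 0

open Classical in
/-- `R₂ = Q - R₁`: the part of `Q` that may be *subtracted* from the potential `c`. -/
noncomputable def clipB (c Q : List ℕ → ℝ) : List ℕ → ℝ :=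
  fun s => if 0 ≤ c s then max (Q s) 0 else min (Q s) 0

theorem clipA_add_clipB (c Q : List ℕ → ℝ) (s : List ℕ) : clipA c Q s + clipB c Q s = Q s := by
  unfold clipA clipB
  split_ifs
  · rw [min_add_max, add_zero]
  · rw [max_add_min, add_zero]

theorem ofPot_add (R R' : List ℕ → ℝ) (s : List ℕ) :
    ofPot R s + ofPot R' s = ofPot (fun u => R u + R' u) s := by
  cases s with
  | nil => rfl
  | cons a v => simp only [ofPot]; ring

theorem abs_min_zero_sub (a b : ℝ) : |min a 0 - min b 0| ≤ |a - b| := by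
  have := abs_min_sub_min_le_max a 0 b 0
  simpa using this

theorem abs_max_zero_sub (a b : ℝ) : |max a 0 - max b 0| ≤ |a - b| := abs_max_sub_max_le_abs a b 0

section Main

variable {S : Set (List ℕ)} (hS : Closed S) (f g : List ℕ → ℝ)

/-- the potential of the restricted family `f`. -/
noncomputable abbrev cc (S : Set (List ℕ)) (f : List ℕ → ℝ) : List ℕ → ℝ := pathPotential (res S f)

/-- the potential of the co-restricted family `g`. -/
noncomputable abbrev QQ (S : Set (List ℕ)) (g : List ℕ → ℝ) : List ℕ → ℝ :=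
  pathPotential (cores S g)

/-- `K₁`. -/
noncomputable def KA (S : Set (List ℕ)) (f g : List ℕ → ℝ) : List ℕ → ℝ :=
  ofPot (clipA (cc S f) (QQ S g))

/-- `K₂`. -/
noncomputable def KB (S : Set (List ℕ)) (f g : List ℕ → ℝ) : List ℕ → ℝ :=
  ofPot (clipB (cc S f) (QQ S g))

theorem KA_add_KB (u : List ℕ) : KA S f g u + KB S f g u = cores S g u := by
  unfold KA KB
  rw [ofPot_add]
  have : (fun u => clipA (cc S f) (QQ S g) u + clipB (cc S f) (QQ S g) u) = QQ S g := by
    funext u; exact clipA_add_clipB _ _ _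
  rw [this]
  exact ofPot_pathPotential _ _

include hS in
theorem clipA_of_mem {u : List ℕ} (hu : u ∈ S) : clipA (cc S f) (QQ S g) u = 0 := by
  have h0 : QQ S g u = 0 := pot_cores_of_mem hS g hu
  unfold clipA; rw [h0]; simp

include hS in
theorem clipB_of_mem {u : List ℕ} (hu : u ∈ S) : clipB (cc S f) (QQ S g) u = 0 := by
  have h0 : QQ S g u = 0 := pot_cores_of_mem hS g hu
  unfold clipB; rw [h0]; simp

include hS in
theorem KA_of_mem {u : List ℕ} (hu : u ∈ S) : KA S f g u = 0 := by
  unfold KA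
  cases u with
  | nil => simp only [ofPot]; exact clipA_of_mem hS f g hu
  | cons a v =>
    simp only [ofPot]
    rw [clipA_of_mem hS f g hu, clipA_of_mem hS f g (hS.2 a v hu), sub_self]

include hS in
theorem KB_of_mem {u : List ℕ} (hu : u ∈ S) : KB S f g u = 0 := by
  unfold KB
  cases u with
  | nil => simp only [ofPot]; exact clipB_of_mem hS f g hu
  | cons a v =>
    simp only [ofPot]
    rw [clipB_of_mem hS f g hu, clipB_of_mem hS f g (hS.2 a v hu), sub_self]

include hS in
theorem abs_KA_le (u : List ℕ) : |KA S f g u| ≤ |g u| := by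
  by_cases hu : u ∈ S
  · rw [KA_of_mem hS f g hu]; simp
  · cases u with
    | nil => exact absurd hS.1 hu
    | cons a v =>
      have hc : cc S f (a :: v) = cc S f v := pot_res_succ_of_notMem f a v hu
      have hQ : QQ S g (a :: v) - QQ S g v = g (a :: v) := by
        simp only [QQ, pathPotential]; simp [cores, hu]
      unfold KA
      simp only [ofPot, clipA, hc]
      rw [← hQ]
      split_ifs
      · exact abs_min_zero_sub _ _
      · exact abs_max_zero_sub _ _

include hS in
theorem abs_KB_le (u : List ℕ) : |KB S f g u| ≤ |g u| := by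
  by_cases hu : u ∈ S
  · rw [KB_of_mem hS f g hu]; simp
  · cases u with
    | nil => exact absurd hS.1 hu
    | cons a v =>
      have hc : cc S f (a :: v) = cc S f v := pot_res_succ_of_notMem f a v hu
      have hQ : QQ S g (a :: v) - QQ S g v = g (a :: v) := by
        simp only [QQ, pathPotential]; simp [cores, hu]
      unfold KB
      simp only [ofPot, clipB, hc]
      rw [← hQ]
      split_ifs
      · exact abs_max_zero_sub _ _
      · exact abs_min_zero_sub _ _

/-- `h₊ = α f₀ + β K₁`. -/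
noncomputable def hP (S : Set (List ℕ)) (f g : List ℕ → ℝ) (α β : ℝ) : List ℕ → ℝ :=
  fun u => α * res S f u + β * KA S f g u

/-- `h₋ = α f₀ - β K₂`. -/
noncomputable def hM (S : Set (List ℕ)) (f g : List ℕ → ℝ) (α β : ℝ) : List ℕ → ℝ :=
  fun u => α * res S f u + (-β) * KB S f g u

theorem hP_sub_hM (α β : ℝ) (u : List ℕ) :
    hP S f g α β u - hM S f g α β u = β * cores S g u := by
  unfold hP hM; rw [← KA_add_KB f g u]; ring

include hS in
theorem hP_of_mem (α β : ℝ) {u : List ℕ} (hu : u ∈ S) : hP S f g α β u = α * f u := by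
  unfold hP; rw [KA_of_mem hS f g hu]; simp [res, hu]

include hS in
theorem hM_of_mem (α β : ℝ) {u : List ℕ} (hu : u ∈ S) : hM S f g α β u = α * f u := by
  unfold hM; rw [KB_of_mem hS f g hu]; simp [res, hu]

include hS in
theorem hP_sq_le (α β : ℝ) (u : List ℕ) :
    hP S f g α β u ^ 2 ≤ α ^ 2 * f u ^ 2 + β ^ 2 * g u ^ 2 := by
  by_cases hu : u ∈ S
  · rw [hP_of_mem hS f g α β hu]; nlinarith [sq_nonneg (β * g u)]
  · have h1 : hP S f g α β u = β * KA S f g u := by unfold hP; simp [res, hu]
    have h2 : KA S f g u ^ 2 ≤ g u ^ 2 := sq_le_sq.mpr (abs_KA_le hS f g u)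
    rw [h1, mul_pow]
    nlinarith [sq_nonneg (α * f u), sq_nonneg β]

include hS in
theorem hM_sq_le (α β : ℝ) (u : List ℕ) :
    hM S f g α β u ^ 2 ≤ α ^ 2 * f u ^ 2 + β ^ 2 * g u ^ 2 := by
  by_cases hu : u ∈ S
  · rw [hM_of_mem hS f g α β hu]; nlinarith [sq_nonneg (β * g u)]
  · have h1 : hM S f g α β u = (-β) * KB S f g u := by unfold hM; simp [res, hu]
    have h2 : KB S f g u ^ 2 ≤ g u ^ 2 := sq_le_sq.mpr (abs_KB_le hS f g u)
    rw [h1, mul_pow]
    nlinarith [sq_nonneg (α * f u), sq_nonneg β]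

include hS in
theorem abs_pot_hP_le (hf : ∀ s, |pathPotential f s| ≤ 1) (hg : ∀ s, |pathPotential g s| ≤ 1)
    {α β : ℝ} (hα0 : 0 ≤ α) (hα1 : α ≤ 1) (hβ0 : 0 ≤ β) (hβ : β ≤ 1 / 2) (s : List ℕ) :
    |pathPotential (hP S f g α β) s| ≤ 1 := by
  unfold hP
  rw [pathPotential_lin]
  unfold KA
  rw [pathPotential_ofPot]
  have hc := abs_le.mp (abs_pot_res_le hS hf s)
  have hQ := abs_le.mp (abs_pot_cores_le hS hg s)
  unfold clipA
  rw [abs_le]
  split_ifs with h
  · have h1 : min (QQ S g s) 0 ≤ 0 := min_le_right _ _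
    have h2 : -2 ≤ min (QQ S g s) 0 := le_min hQ.1 (by norm_num)
    constructor <;> nlinarith [hc.1, hc.2]
  · have h1 : 0 ≤ max (QQ S g s) 0 := le_max_right _ _
    have h2 : max (QQ S g s) 0 ≤ 2 := max_le hQ.2 (by norm_num)
    push Not at h
    constructor <;> nlinarith [hc.1, hc.2]

include hS in
theorem abs_pot_hM_le (hf : ∀ s, |pathPotential f s| ≤ 1) (hg : ∀ s, |pathPotential g s| ≤ 1)
    {α β : ℝ} (hα0 : 0 ≤ α) (hα1 : α ≤ 1) (hβ0 : 0 ≤ β) (hβ : β ≤ 1 / 2) (s : List ℕ) :
    |pathPotential (hM S f g α β) s| ≤ 1 := by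
  unfold hM
  rw [pathPotential_lin]
  unfold KB
  rw [pathPotential_ofPot]
  have hc := abs_le.mp (abs_pot_res_le hS hf s)
  have hQ := abs_le.mp (abs_pot_cores_le hS hg s)
  unfold clipB
  rw [abs_le]
  split_ifs with h
  · have h1 : 0 ≤ max (QQ S g s) 0 := le_max_right _ _
    have h2 : max (QQ S g s) 0 ≤ 2 := max_le hQ.2 (by norm_num)
    constructor <;> nlinarith [hc.1, hc.2]
  · have h1 : min (QQ S g s) 0 ≤ 0 := min_le_right _ _
    have h2 : -2 ≤ min (QQ S g s) 0 := le_min hQ.1 (by norm_num)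
    push Not at h
    constructor <;> nlinarith [hc.1, hc.2]

end Main

/-! ### closure property of the extra conditions -/

theorem extra_of_sq_le (m : PotentialModel) {f g h : List ℕ → ℝ} (hf : ExtraCondition m f)
    (hg : ExtraCondition m g) {α β : ℝ} (hαβ : α ^ 2 + β ^ 2 ≤ 1)
    (hsq : ∀ u, h u ^ 2 ≤ α ^ 2 * f u ^ 2 + β ^ 2 * g u ^ 2) : ExtraCondition m h := by
  have key : ∀ {ι : Type} (A : Finset ι) (e : ι → List ℕ), ∑ n ∈ A, f (e n) ^ 2 ≤ 1 →
      ∑ n ∈ A, g (e n) ^ 2 ≤ 1 → ∑ n ∈ A, h (e n) ^ 2 ≤ 1 := by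
    intro ι A e h1 h2
    calc ∑ n ∈ A, h (e n) ^ 2 ≤ ∑ n ∈ A, (α ^ 2 * f (e n) ^ 2 + β ^ 2 * g (e n) ^ 2) :=
          Finset.sum_le_sum fun n _ => hsq _
      _ = α ^ 2 * ∑ n ∈ A, f (e n) ^ 2 + β ^ 2 * ∑ n ∈ A, g (e n) ^ 2 := by
          rw [Finset.sum_add_distrib, Finset.mul_sum, Finset.mul_sum]
      _ ≤ α ^ 2 * 1 + β ^ 2 * 1 := by
          gcongr
      _ ≤ 1 := by linarith
  cases m with
  | rootlessSibling =>
    refine ⟨?_, fun r A => key A (fun n => n :: r) (hf.2 r A) (hg.2 r A)⟩
    have := hsq []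
    rw [hf.1, hg.1] at this
    have h0 : h [] ^ 2 ≤ 0 := by simpa using this
    exact pow_eq_zero_iff (two_ne_zero) |>.mp (le_antisymm h0 (sq_nonneg _))
  | rootedSibling => exact fun r A => key A (fun n => n :: r) (hf r A) (hg r A)
  | antichain =>
    refine ⟨?_, fun A hA => key A id (hf.2 A hA) (hg.2 A hA)⟩
    refine (hf.1.union hg.1).subset ?_
    intro u hu
    by_contra hcon
    simp only [Set.mem_union, Function.mem_support, not_or, not_not] at hcon
    have := hsq u
    rw [hcon.1, hcon.2] at this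
    have h0 : h u ^ 2 ≤ 0 := by simpa using this
    exact hu (pow_eq_zero_iff (two_ne_zero) |>.mp (le_antisymm h0 (sq_nonneg _)))
  | global => exact fun A => key A id (hf A) (hg A)

theorem isTest_hP (m : PotentialModel) {S : Set (List ℕ)} (hS : Closed S) {f g : List ℕ → ℝ}
    (hf : IsTest m f) (hg : IsTest m g) {α β : ℝ} (hα0 : 0 ≤ α) (hβ0 : 0 ≤ β) (hβ : β ≤ 1 / 2)
    (hαβ : α ^ 2 + β ^ 2 ≤ 1) : IsTest m (hP S f g α β) :=
  ⟨abs_pot_hP_le hS f g hf.1 hg.1 hα0 (by nlinarith) hβ0 hβ,
    extra_of_sq_le m hf.2 hg.2 hαβ (hP_sq_le hS f g α β)⟩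

theorem isTest_hM (m : PotentialModel) {S : Set (List ℕ)} (hS : Closed S) {f g : List ℕ → ℝ}
    (hf : IsTest m f) (hg : IsTest m g) {α β : ℝ} (hα0 : 0 ≤ α) (hβ0 : 0 ≤ β) (hβ : β ≤ 1 / 2)
    (hαβ : α ^ 2 + β ^ 2 ≤ 1) : IsTest m (hM S f g α β) :=
  ⟨abs_pot_hM_le hS f g hf.1 hg.1 hα0 (by nlinarith) hβ0 hβ,
    extra_of_sq_le m hf.2 hg.2 hαβ (hM_sq_le hS f g α β)⟩

end Crest.Agent.S0168Aux
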