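import Mathlib
import Crest.Prelude.Def_TreePotentials
import Crest.Agent.S0168_Pot
import Crest.Agent.R125_Common

/-!
# S0168, part 2: the model spaces: evaluations, delta tests, separability, no AUC renorming (helper3)
-/

set_option autoImplicit false

namespace Crest.Agent.S0168Aux

open Crest.AnalysisR Crest.AnalysisR.TreePotential Crest.Agent.R125

/-- the ambient space. -/
abbrev LL (m : PotentialModel) := lp (fun _ : PotentialTest m => ℝ) ⊤

variable {m : PotentialModel}

/-- evaluation at a test. -/
noncomputable def ev (φ : PotentialTest m) : LL m →L[ℝ] ℝ :=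
  LinearMap.mkContinuous
    { toFun := fun y => y φ
      map_add' := fun x y => by simp
      map_smul' := fun c x => by simp } 1
    (by
      intro y
      show ‖y φ‖ ≤ 1 * ‖y‖
      rw [one_mul]
      exact lp.norm_apply_le_norm ENNReal.top_ne_zero y φ)

@[simp] theorem ev_apply (φ : PotentialTest m) (y : LL m) : ev φ y = y φ := rfl

@[simp] theorem coordVector_apply (s : List ℕ) (φ : PotentialTest m) :
    coordVector m s φ = φ.1 s := rfl

theorem apply_le_norm (y : LL m) (φ : PotentialTest m) : y φ ≤ ‖y‖ :=
  (le_abs_self _).trans (by simpa using lp.norm_apply_le_norm ENNReal.top_ne_zero y φ)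

/-- a continuous functional killing all coordinate vectors kills the model space. -/
theorem clm_zero (Λ : LL m →L[ℝ] ℝ) (h : ∀ u, Λ (coordVector m u) = 0) {y : LL m}
    (hy : y ∈ modelSpace m) : Λ y = 0 := by
  have hle : modelSpace m ≤ LinearMap.ker (Λ : LL m →ₗ[ℝ] ℝ) := by
    apply Submodule.topologicalClosure_minimal
    · rw [Submodule.span_le]
      rintro _ ⟨u, rfl⟩
      exact h u
    · exact Λ.isClosed_ker
  exact hle hy

/-! ### special tests -/

theorem pot_zero (s : List ℕ) : pathPotential (fun _ => (0 : ℝ)) s = 0 := by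
  induction s with
  | nil => rfl
  | cons a v ih => simp [pathPotential, ih]

theorem isTest_zero (m : PotentialModel) : IsTest m (fun _ => (0 : ℝ)) := by
  refine ⟨fun s => by rw [pot_zero]; simp, ?_⟩
  cases m with
  | rootlessSibling => exact ⟨rfl, fun r A => by simp⟩
  | rootedSibling => exact fun r A => by simp
  | antichain => exact ⟨by simp [Function.support], fun A _ => by simp⟩
  | global => exact fun A => by simp

instance : Nonempty (PotentialTest m) := ⟨⟨_, isTest_zero m⟩⟩

theorem isTest_neg {f : List ℕ → ℝ} (hf : IsTest m f) : IsTest m (fun u => -f u) := by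
  refine ⟨fun s => ?_, ?_⟩
  · have := pathPotential_lin (-1) 0 f f s
    have h2 : (fun u => -1 * f u + 0 * f u) = fun u => -f u := by funext u; ring
    rw [h2] at this
    rw [this]
    have := hf.1 s
    simpa using this
  · exact extra_of_sq_le m hf.2 hf.2 (α := 1) (β := 0) (by norm_num) (fun u => by simp)

/-- the negative of a test. -/
def negTest (φ : PotentialTest m) : PotentialTest m := ⟨fun u => -φ.1 u, isTest_neg φ.2⟩

theorem apply_negTest {y : LL m} (hy : y ∈ modelSpace m) (φ : PotentialTest m) :
    y (negTest φ) = -y φ := by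
  have := clm_zero (ev (negTest φ) + ev φ)
    (fun u => by show -φ.1 u + φ.1 u = 0; ring) hy
  simp only [add_apply, ev_apply] at this
  linarith

/-- almost norming tests. -/
theorem exists_norming {y : LL m} (hy : y ∈ modelSpace m) {ε : ℝ} (hε : 0 < ε) :
    ∃ φ : PotentialTest m, ‖y‖ - ε < y φ := by
  have h1 : ‖y‖ - ε < ⨆ i, ‖y i‖ := by rw [← lp.norm_eq_ciSup]; linarith
  obtain ⟨φ, hφ⟩ := exists_lt_of_lt_ciSup h1
  rw [Real.norm_eq_abs] at hφ
  rcases abs_cases (y φ) with ⟨h, -⟩ | ⟨h, -⟩
  · exact ⟨φ, by rwa [h] at hφ⟩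
  · exact ⟨negTest φ, by rw [apply_negTest hy]; rwa [h] at hφ⟩

open Classical in
/-- the delta family. -/
noncomputable def dl (s : List ℕ) : List ℕ → ℝ := fun u => if u = s then 1 else 0

open Classical in
theorem pot_dl (s u : List ℕ) : pathPotential (dl s) u = if s <:+ u then 1 else 0 := by
  induction u with
  | nil =>
    simp only [pathPotential, dl, List.suffix_nil]
    by_cases h : s = []
    · simp [h]
    · simp [h, Ne.symm h]
  | cons a v ih =>
    simp only [pathPotential, ih, dl, List.suffix_cons_iff]
    by_cases h1 : s = a :: v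
    · have h2 : ¬ s <:+ v := by
        intro h
        have := h.length_le
        rw [h1] at this
        simp at this
      simp [h1.symm, h2]
    · simp [h1, Ne.symm h1]

theorem sum_dl_sq_le (s : List ℕ) (A : Finset (List ℕ)) : ∑ u ∈ A, dl s u ^ 2 ≤ 1 := by
  classical
  have : ∀ u, dl s u ^ 2 = if u = s then 1 else 0 := by
    intro u; unfold dl; split_ifs <;> simp
  simp_rw [this]
  rw [Finset.sum_ite_eq']
  split_ifs <;> norm_num

theorem sum_sibling_eq (h : List ℕ → ℝ) (r : List ℕ) (A : Finset ℕ) :
    ∑ n ∈ A, h (n :: r) ^ 2 = ∑ u ∈ A.image (fun n => n :: r), h u ^ 2 := by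
  classical
  rw [Finset.sum_image]
  intro a _ b _ hab
  simpa using hab

theorem isTest_dl (m : PotentialModel) (s : List ℕ) (hs : s ≠ []) : IsTest m (dl s) := by
  classical
  refine ⟨fun u => ?_, ?_⟩
  · rw [pot_dl]; split_ifs <;> simp
  · cases m with
    | rootlessSibling =>
      exact ⟨by simp [dl, Ne.symm hs], fun r A => by rw [sum_sibling_eq]; exact sum_dl_sq_le _ _⟩
    | rootedSibling => exact fun r A => by rw [sum_sibling_eq]; exact sum_dl_sq_le _ _
    | antichain =>
      refine ⟨(Set.finite_singleton s).subset ?_, fun A _ => sum_dl_sq_le _ _⟩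
      intro u hu
      by_contra h
      exact hu (by simp only [Set.mem_singleton_iff] at h; simp [dl, h])
    | global => exact fun A => sum_dl_sq_le _ _

theorem isTest_dl_nil {m : PotentialModel} (hm : m ≠ .rootlessSibling) : IsTest m (dl []) := by
  classical
  refine ⟨fun u => ?_, ?_⟩
  · rw [pot_dl]; split_ifs <;> simp
  · cases m with
    | rootlessSibling => exact absurd rfl hm
    | rootedSibling => exact fun r A => by rw [sum_sibling_eq]; exact sum_dl_sq_le _ _
    | antichain =>
      refine ⟨(Set.finite_singleton []).subset ?_, fun A _ => sum_dl_sq_le _ _⟩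
      intro u hu
      by_contra h
      exact hu (by simp only [Set.mem_singleton_iff] at h; simp [dl, h])
    | global => exact fun A => sum_dl_sq_le _ _

/-- bundling a test. -/
def mkTest {m : PotentialModel} (f : List ℕ → ℝ) (h : IsTest m f) : PotentialTest m := ⟨f, h⟩

@[simp] theorem mkTest_val {m : PotentialModel} (f : List ℕ → ℝ) (h : IsTest m f) :
    (mkTest f h).1 = f := rfl

open Classical in
/-- the delta test (the zero test when the delta family is not a test). -/
noncomputable def dtest (m : PotentialModel) (s : List ℕ) : PotentialTest m :=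
  if h : IsTest m (dl s) then mkTest _ h else mkTest _ (isTest_zero m)

theorem dtest_of_ne (m : PotentialModel) {s : List ℕ} (hs : s ≠ []) : (dtest m s).1 = dl s := by
  unfold dtest; rw [dif_pos (isTest_dl m s hs)]; rfl

/-- in all models, `g s • δ_s` is `g s •` the delta test. -/
theorem mul_dtest {g : List ℕ → ℝ} (hg : IsTest m g) (s u : List ℕ) :
    g s * (dtest m s).1 u = g s * dl s u := by
  by_cases h : IsTest m (dl s)
  · unfold dtest; rw [dif_pos h]; rfl
  · have hs : s = [] := by
      by_contra hs; exact h (isTest_dl m s hs)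
    have hm : m = .rootlessSibling := by
      by_contra hm; exact h (hs ▸ isTest_dl_nil hm)
    subst hm; subst hs
    have : g [] = 0 := hg.2.1
    rw [this]; simp

/-- the sibling square sums are at most one in all four models. -/
theorem sibling_sq {g : List ℕ → ℝ} (hg : IsTest m g) (r : List ℕ) (A : Finset ℕ) :
    ∑ n ∈ A, g (n :: r) ^ 2 ≤ 1 := by
  classical
  cases m with
  | rootlessSibling => exact hg.2.2 r A
  | rootedSibling => exact hg.2 r A
  | antichain =>
    rw [sum_sibling_eq]
    apply hg.2.2
    intro u hu v hv huv hsuf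
    simp only [Finset.mem_image] at hu hv
    obtain ⟨a, -, rfl⟩ := hu
    obtain ⟨b, -, rfl⟩ := hv
    exact huv (hsuf.eq_of_length (by simp))
  | global => rw [sum_sibling_eq]; exact hg.2 _

/-! ### vectors of the model space -/

/-- coordinate vectors as elements of the model space. -/
noncomputable def eX (m : PotentialModel) (s : List ℕ) : modelSpace m :=
  ⟨coordVector m s, Submodule.le_topologicalClosure _ (Submodule.subset_span ⟨s, rfl⟩)⟩

/-- the branch sums. -/
noncomputable def xs (m : PotentialModel) : List ℕ → modelSpace m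
  | [] => eX m []
  | a :: v => xs m v + eX m (a :: v)

theorem xs_apply (s : List ℕ) (φ : PotentialTest m) :
    (xs m s : LL m) φ = pathPotential φ.1 s := by
  induction s with
  | nil => rfl
  | cons a v ih =>
    simp only [xs, pathPotential, Submodule.coe_add, lp.coeFn_add, Pi.add_apply, ih]
    rfl

theorem norm_xs_le (s : List ℕ) : ‖xs m s‖ ≤ 1 := by
  rw [Submodule.coe_norm]
  apply lp.norm_le_of_forall_le zero_le_one
  intro φ
  rw [xs_apply, Real.norm_eq_abs]
  exact φ.2.1 s

theorem one_le_norm_eX {s : List ℕ} (hs : s ≠ []) : 1 ≤ ‖eX m s‖ := by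
  rw [Submodule.coe_norm]
  have := apply_le_norm (eX m s : LL m) (dtest m s)
  have h2 : (eX m s : LL m) (dtest m s) = 1 := by
    show (dtest m s).1 s = 1
    rw [dtest_of_ne m hs]; simp [dl]
  linarith

theorem one_le_norm_xs {s : List ℕ} (hs : s ≠ []) : 1 ≤ ‖xs m s‖ := by
  classical
  rw [Submodule.coe_norm]
  have := apply_le_norm (xs m s : LL m) (dtest m s)
  rw [xs_apply, dtest_of_ne m hs, pot_dl] at this
  simpa using this

theorem norm_eX_le (s : List ℕ) : ‖eX m s‖ ≤ 2 := by
  rw [Submodule.coe_norm]
  apply lp.norm_le_of_forall_le (by norm_num)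
  intro φ
  show ‖φ.1 s‖ ≤ 2
  rw [Real.norm_eq_abs]
  cases s with
  | nil =>
    have h0 := φ.2.1 []
    simp only [pathPotential] at h0
    linarith
  | cons a v =>
    have h1 := φ.2.1 (a :: v)
    have h2 := φ.2.1 v
    simp only [pathPotential] at h1
    rw [abs_le] at h1 h2 ⊢
    constructor <;> linarith [h1.1, h1.2, h2.1, h2.2]

theorem norm_sum_siblings_le (r : List ℕ) (A : Finset ℕ) :
    ‖∑ n ∈ A, eX m (n :: r)‖ ≤ Real.sqrt A.card := by
  rw [Submodule.coe_norm]
  apply lp.norm_le_of_forall_le (Real.sqrt_nonneg _)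
  intro φ
  have h1 : ((∑ n ∈ A, eX m (n :: r) : modelSpace m) : LL m) φ = ∑ n ∈ A, φ.1 (n :: r) := by
    have : ((∑ n ∈ A, eX m (n :: r) : modelSpace m) : LL m) φ
        = ev φ ((modelSpace m).subtype (∑ n ∈ A, eX m (n :: r))) := rfl
    rw [this, map_sum, map_sum]
    rfl
  rw [h1, Real.norm_eq_abs]
  apply Real.abs_le_sqrt
  have hcs := Finset.sum_mul_sq_le_sq_mul_sq A (fun _ => (1 : ℝ)) (fun n => φ.1 (n :: r))
  simp only [one_mul, one_pow, Finset.sum_const, nsmul_eq_mul, mul_one] at hcs
  have h2 := sibling_sq φ.2 r A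
  nlinarith [Nat.cast_nonneg (α := ℝ) A.card]

/-- **No AUC renorming.** -/
theorem not_auc (N : modelSpace m → ℝ) (hN : EquivNorm N) : ¬ AUC N := by
  apply not_auc_of_levels (C := 1) (θ := 1) one_pos _ N hN
  intro n
  refine ⟨fun k => {x | ∃ s : List ℕ, s.length = k + 1 ∧ x = xs m s}, ?_, ?_, ?_⟩
  · exact ⟨xs m [0], ⟨[0], rfl, rfl⟩, one_le_norm_xs (by simp)⟩
  · rintro k _ ⟨s, -, rfl⟩
    exact norm_xs_le s
  · rintro k - _ ⟨s, hs, rfl⟩ F hF ε hε
    obtain ⟨j, -, z', hz', hzz⟩ := exists_close_of_averages (z := fun n => eX m (n :: s)) (B := 2)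
      (fun k => norm_eX_le _)
      (by
        intro δ hδ
        obtain ⟨K, hK⟩ := exists_nat_ge (1 / δ ^ 2)
        refine ⟨K + 1, fun A hA => (norm_sum_siblings_le s A).trans ?_⟩
        have hA' : (1 : ℝ) / δ ^ 2 ≤ A.card := hK.trans (by exact_mod_cast (by omega : K ≤ A.card))
        have hpos : (0 : ℝ) < A.card := lt_of_lt_of_le (by positivity) hA'
        rw [Real.sqrt_le_left (by positivity)]
        rw [div_le_iff₀ (by positivity)] at hA'
        nlinarith)
      hF hε 0
    exact ⟨eX m (j :: s), z', ⟨j :: s, by simp [hs], rfl⟩, one_le_norm_eX (by simp), hz', hzz⟩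

/-- **Separability.** -/
theorem separable (m : PotentialModel) : TopologicalSpace.SeparableSpace (modelSpace m) := by
  have h1 : TopologicalSpace.IsSeparable (Set.range (coordVector m)) :=
    (Set.countable_range _).isSeparable
  have h2 : TopologicalSpace.IsSeparable
      ((Submodule.span ℝ (Set.range (coordVector m)) : Submodule ℝ (LL m)) : Set (LL m)) := h1.span
  have h3 : TopologicalSpace.IsSeparable ((modelSpace m : Submodule ℝ (LL m)) : Set (LL m)) := by
    have := h2.closure
    simpa [modelSpace, Submodule.topologicalClosure_coe] using this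
  exact h3.separableSpace

/-- **Infinite dimension.** -/
theorem not_finiteDimensional (m : PotentialModel) : ¬ FiniteDimensional ℝ (modelSpace m) := by
  classical
  intro hfd
  have hli : LinearIndependent ℝ (fun n : ℕ => eX m [n]) := by
    rw [linearIndependent_iff']
    intro A c hc j hj
    have h1 : ev (dtest m [j]) ((modelSpace m).subtype (∑ i ∈ A, c i • eX m [i])) = 0 := by
      rw [hc]; simp
    rw [map_sum, map_sum] at h1
    have h2 : ∀ i ∈ A, ev (dtest m [j]) ((modelSpace m).subtype (c i • eX m [i]))
        = if i = j then c i else 0 := by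
      intro i _
      have : ev (dtest m [j]) ((modelSpace m).subtype (c i • eX m [i])) = c i * (dtest m [j]).1 [i] := by
        simp [eX]
      rw [this, dtest_of_ne m (by simp)]
      by_cases hij : i = j
      · simp [dl, hij]
      · simp [dl, hij]
    rw [Finset.sum_congr rfl h2, Finset.sum_ite_eq' A j] at h1
    simpa [hj] using h1
  have := hli.finite
  exact not_finite ℕ

end Crest.Agent.S0168Aux
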