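import Mathlib
import Crest.Prelude.Def_TreePotentials
import Crest.Agent.S0168_Pot
import Crest.Agent.S0168_Space
import Crest.Agent.R125_Common

/-!
# S0168, part 3: the midpoint modulus (helper3)
-/

set_option autoImplicit false

namespace Crest.Agent.S0168Aux

open Crest.AnalysisR Crest.AnalysisR.TreePotential Crest.Agent.R125

variable {m : PotentialModel}

/-- the finite ancestor-closed set generated by a finite set of vertices. -/
def hull (A : Finset (List ℕ)) : Finset (List ℕ) :=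
  insert [] (A.biUnion fun s => s.tails.toFinset)

theorem mem_hull {A : Finset (List ℕ)} {u : List ℕ} :
    u ∈ hull A ↔ u = [] ∨ ∃ s ∈ A, u <:+ s := by
  simp [hull]

theorem closed_hull (A : Finset (List ℕ)) : Closed (hull A : Set (List ℕ)) := by
  refine ⟨by simp [hull], ?_⟩
  intro a v h
  rw [Finset.mem_coe, mem_hull] at h ⊢
  rcases h with h | ⟨s, hs, hsuf⟩
  · simp at h
  · exact Or.inr ⟨s, hs, (List.suffix_cons a v).trans hsuf⟩

theorem subset_hull (A : Finset (List ℕ)) {s : List ℕ} (hs : s ∈ A) : s ∈ hull A :=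
  mem_hull.mpr (Or.inr ⟨s, hs, List.suffix_rfl⟩)

/-- evaluation of a finitely supported vector. -/
theorem finsupp_apply (c : List ℕ →₀ ℝ) (φ : PotentialTest m) :
    (c.sum fun i a => a • coordVector m i : LL m) φ = ∑ s ∈ c.support, c s * φ.1 s := by
  have : (c.sum fun i a => a • coordVector m i : LL m) φ
      = ev φ (c.sum fun i a => a • coordVector m i) := rfl
  rw [this, Finsupp.sum, map_sum]
  refine Finset.sum_congr rfl fun s _ => ?_
  simp

theorem sum_mul_dl (A : Finset (List ℕ)) (g : List ℕ → ℝ) (u : List ℕ) :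
    ∑ s ∈ A, g s * dl s u = res (A : Set (List ℕ)) g u := by
  classical
  have : ∀ s, g s * dl s u = if u = s then g s else 0 := by
    intro s; unfold dl; split_ifs <;> simp
  simp_rw [this]
  rw [Finset.sum_ite_eq A u]
  unfold res
  simp only [Finset.mem_coe]

/-- the key relation for vectors whose coordinates vanish on `A`. -/
theorem key_relation (A : Finset (List ℕ)) (f g : PotentialTest m) (α β : ℝ)
    (hP' hM' : PotentialTest m) (h1 : hP'.1 = hP (A : Set (List ℕ)) f.1 g.1 α β)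
    (h2 : hM'.1 = hM (A : Set (List ℕ)) f.1 g.1 α β) {y : LL m} (hy : y ∈ modelSpace m)
    (hy0 : ∀ s ∈ A, y (dtest m s) = 0) : y hP' - y hM' = β * y g := by
  have := clm_zero (ev hP' - ev hM' - β • ev g + β • ∑ s ∈ A, g.1 s • ev (dtest m s))
    (by
      intro u
      simp only [add_apply, sub_apply, smul_apply, sum_apply,
        ev_apply, coordVector_apply, smul_eq_mul]
      rw [h1, h2]
      have e1 : ∑ s ∈ A, g.1 s * (dtest m s).1 u = res (A : Set (List ℕ)) g.1 u := by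
        rw [← sum_mul_dl]
        exact Finset.sum_congr rfl fun s _ => mul_dtest g.2 s u
      rw [e1]
      have e2 := hP_sub_hM (S := (A : Set (List ℕ))) f.1 g.1 α β u
      have e3 := res_add_cores (A : Set (List ℕ)) g.1 u
      rw [e2, ← e3]; ring) hy
  simp only [add_apply, sub_apply, smul_apply, sum_apply,
    ev_apply, smul_eq_mul] at this
  have h0 : ∑ s ∈ A, g.1 s * y (dtest m s) = 0 :=
    Finset.sum_eq_zero fun s hs => by rw [hy0 s hs, mul_zero]
  rw [h0] at this
  linarith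

theorem final_estimate (t ε a b p q r : ℝ) (ht0 : 0 < t) (ht1 : t < 1) (hε : 0 < ε)
    (hp : 1 - 2 * ε < p) (hq : 1 - ε < q)
    (ha : (1 / Real.sqrt (1 + t ^ 2 / 4)) * p + t * r - ε ≤ a)
    (hb : (1 / Real.sqrt (1 + t ^ 2 / 4)) * p - t * (r - (t / 2 / Real.sqrt (1 + t ^ 2 / 4)) * q) - ε
      ≤ b) :
    Real.sqrt (1 + t ^ 2 / 4) - 1 - 4 * ε ≤ (a + b) / 2 - 1 := by
  set σ := Real.sqrt (1 + t ^ 2 / 4) with hσ
  have hσ2 : σ ^ 2 = 1 + t ^ 2 / 4 := Real.sq_sqrt (by positivity)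
  have hσ1 : 1 ≤ σ := by
    rw [hσ, show (1 : ℝ) = Real.sqrt 1 by simp]
    exact Real.sqrt_le_sqrt (by simp only [Real.sqrt_one]; nlinarith)
  have hσpos : 0 < σ := by linarith
  have hα1 : 1 / σ ≤ 1 := by rw [div_le_one hσpos]; exact hσ1
  have hα0 : 0 < 1 / σ := by positivity
  have hβ0 : 0 < t / 2 / σ := by positivity
  have hβ1 : t / 2 / σ ≤ 1 / 2 := by
    rw [div_le_iff₀ hσpos]; nlinarith
  have hid : 1 / σ + t * (t / 2 / σ) / 2 = σ := by
    field_simp
    nlinarith
  have h1 : 2 * (1 / σ) * p + t * (t / 2 / σ) * q - 2 * ε ≤ a + b := by nlinarith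
  have h2 : 2 * (1 / σ) * (1 - 2 * ε) ≤ 2 * (1 / σ) * p := by nlinarith
  have h3 : t * (t / 2 / σ) * (1 - ε) ≤ t * (t / 2 / σ) * q := by
    have : 0 < t * (t / 2 / σ) := by positivity
    nlinarith
  have h4 : t * (t / 2 / σ) ≤ 1 := by nlinarith
  nlinarith

theorem midpoint (t : ℝ) (ht0 : 0 < t) (ht1 : t < 1) (x : modelSpace m) (hx : ‖x‖ = 1) (η : ℝ)
    (hη : 0 < η) :
    ∃ F : Set (modelSpace m), Cof F ∧ ∀ y ∈ F, ‖y‖ = 1 →
      Real.sqrt (1 + t ^ 2 / 4) - 1 - η ≤ (‖x + t • y‖ + ‖x - t • y‖) / 2 - 1 := by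
  classical
  obtain ⟨ε, hε⟩ : ∃ ε, ε = η / 4 := ⟨_, rfl⟩
  have hεpos : 0 < ε := by rw [hε]; positivity
  -- approximate `x`
  have hxcl : (x : LL m) ∈ closure
      ((Submodule.span ℝ (Set.range (coordVector m)) : Submodule ℝ (LL m)) : Set (LL m)) := by
    have h0 : (x : LL m) ∈ (Submodule.span ℝ (Set.range (coordVector m))).topologicalClosure := x.2
    rwa [← SetLike.mem_coe, Submodule.topologicalClosure_coe] at h0
  obtain ⟨x', hx'span, hx'dist⟩ := Metric.mem_closure_iff.mp hxcl ε hεpos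
  obtain ⟨c, hc⟩ := Finsupp.mem_span_range_iff_exists_finsupp.mp hx'span
  have hx'mem : x' ∈ modelSpace m := Submodule.le_topologicalClosure _ hx'span
  have hx'norm : 1 - ε < ‖x'‖ := by
    have h1 : ‖(x : LL m)‖ = 1 := hx
    have h2 : ‖(x : LL m)‖ ≤ ‖x'‖ + ‖(x : LL m) - x'‖ := by
      have := norm_add_le x' ((x : LL m) - x')
      simpa using this
    rw [dist_eq_norm] at hx'dist
    linarith
  set A := hull c.support with hA
  have hAcl : Closed (A : Set (List ℕ)) := closed_hull _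
  obtain ⟨f, hf⟩ := exists_norming hx'mem hεpos
  -- the subspace
  refine ⟨{y : modelSpace m | ∀ j : A, ((ev (dtest m j.1)).comp (modelSpace m).subtypeL) y = 0},
    cof_of_functionals _, ?_⟩
  intro y hyF hy1
  have hy0 : ∀ s ∈ A, (y : LL m) (dtest m s) = 0 := fun s hs => hyF ⟨s, hs⟩
  obtain ⟨g, hg⟩ := exists_norming y.2 hεpos
  have hy1' : ‖(y : LL m)‖ = 1 := hy1
  rw [hy1'] at hg
  set σ := Real.sqrt (1 + t ^ 2 / 4) with hσ
  have hσ2 : σ ^ 2 = 1 + t ^ 2 / 4 := Real.sq_sqrt (by positivity)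
  have hσ1 : 1 ≤ σ := by
    rw [hσ, show (1 : ℝ) = Real.sqrt 1 by simp]
    exact Real.sqrt_le_sqrt (by simp only [Real.sqrt_one]; nlinarith)
  have hσpos : 0 < σ := by linarith
  set α := 1 / σ with hα
  set β := t / 2 / σ with hβ
  have hα0 : 0 ≤ α := by positivity
  have hβ0 : 0 ≤ β := by positivity
  have hβ1 : β ≤ 1 / 2 := by
    rw [hβ, div_le_iff₀ hσpos]; nlinarith
  have hαβ : α ^ 2 + β ^ 2 ≤ 1 := by
    have : α ^ 2 + β ^ 2 = (1 + t ^ 2 / 4) / σ ^ 2 := by
      rw [hα, hβ]; field_simp; ring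
    rw [this, hσ2, div_self (by positivity)]
  set hp : PotentialTest m := mkTest _ (isTest_hP m hAcl f.2 g.2 hα0 hβ0 hβ1 hαβ) with hhp
  set hm : PotentialTest m := mkTest _ (isTest_hM m hAcl f.2 g.2 hα0 hβ0 hβ1 hαβ) with hhm
  have hrel := key_relation A f g α β hp hm rfl rfl y.2 hy0
  -- evaluation of x'
  have hxp : x' hp = α * x' f := by
    rw [← hc, finsupp_apply, finsupp_apply, Finset.mul_sum]
    refine Finset.sum_congr rfl fun s hs => ?_
    have : hp.1 s = α * f.1 s := hP_of_mem hAcl f.1 g.1 α β (Finset.mem_coe.mpr (subset_hull _ hs))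
    rw [this]; ring
  have hxm : x' hm = α * x' f := by
    rw [← hc, finsupp_apply, finsupp_apply, Finset.mul_sum]
    refine Finset.sum_congr rfl fun s hs => ?_
    have : hm.1 s = α * f.1 s := hM_of_mem hAcl f.1 g.1 α β (Finset.mem_coe.mpr (subset_hull _ hs))
    rw [this]; ring
  rw [dist_eq_norm] at hx'dist
  have hplus : α * x' f + t * (y : LL m) hp - ε ≤ ‖x + t • y‖ := by
    have h1 : (x' + t • (y : LL m)) hp ≤ ‖x' + t • (y : LL m)‖ := apply_le_norm _ _
    have h2 : (x' + t • (y : LL m)) hp = α * x' f + t * (y : LL m) hp := by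
      rw [← hxp]
      simp only [lp.coeFn_add, lp.coeFn_smul, Pi.add_apply, Pi.smul_apply, smul_eq_mul]
    have h3 : ‖x' + t • (y : LL m)‖ ≤ ‖(x : LL m) + t • (y : LL m)‖ + ‖(x : LL m) - x'‖ := by
      have := norm_sub_le ((x : LL m) + t • (y : LL m)) ((x : LL m) - x')
      have e : (x : LL m) + t • (y : LL m) - ((x : LL m) - x') = x' + t • (y : LL m) := by abel
      rwa [e] at this
    have h4 : ‖x + t • y‖ = ‖(x : LL m) + t • (y : LL m)‖ := rfl
    rw [h4]; linarith
  have hminus : α * x' f - t * (y : LL m) hm - ε ≤ ‖x - t • y‖ := by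
    have h1 : (x' - t • (y : LL m)) hm ≤ ‖x' - t • (y : LL m)‖ := apply_le_norm _ _
    have h2 : (x' - t • (y : LL m)) hm = α * x' f - t * (y : LL m) hm := by
      rw [← hxm]
      simp only [lp.coeFn_sub, lp.coeFn_smul, Pi.sub_apply, Pi.smul_apply, smul_eq_mul]
    have h3 : ‖x' - t • (y : LL m)‖ ≤ ‖(x : LL m) - t • (y : LL m)‖ + ‖(x : LL m) - x'‖ := by
      have := norm_sub_le ((x : LL m) - t • (y : LL m)) ((x : LL m) - x')
      have e : (x : LL m) - t • (y : LL m) - ((x : LL m) - x') = x' - t • (y : LL m) := by abel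
      rwa [e] at this
    have h4 : ‖x - t • y‖ = ‖(x : LL m) - t • (y : LL m)‖ := rfl
    rw [h4]; linarith
  have hym : (y : LL m) hm = (y : LL m) hp - β * (y : LL m) g := by linarith
  rw [hym] at hminus
  have := final_estimate t ε _ _ (x' f) ((y : LL m) g) ((y : LL m) hp) ht0 ht1 hεpos
    (by linarith) hg hplus hminus
  rw [hε] at this
  linarith

end Crest.Agent.S0168Aux
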