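import Mathlib
import Crest.Prelude.Def_TreeProducts

/-!
# S0169 (row 125): probabilistic lemmas on the path products
-/

set_option autoImplicit false

namespace Crest.Agent.S0169

open MeasureTheory ProbabilityTheory Crest.AnalysisR Crest.AnalysisR.TreeProduct

set_option linter.unusedSectionVars false
set_option warn.classDefReducibility false

variable {Ω : Type} [mΩ : MeasurableSpace Ω] {μ : Measure Ω} {W : List ℕ → Ω → ℝ}

/-- σ-algebra generated by the multipliers with index in `S`. -/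
def sig (W : List ℕ → Ω → ℝ) (S : Set (List ℕ)) : MeasurableSpace Ω :=
  ⨆ u ∈ S, MeasurableSpace.comap (W u) inferInstance

theorem measurable_W_sig {S : Set (List ℕ)} {u : List ℕ} (hu : u ∈ S) :
    Measurable[sig W S] (W u) := by
  have h1 : MeasurableSpace.comap (W u) inferInstance ≤ sig W S :=
    le_iSup₂_of_le u hu le_rfl
  exact (comap_measurable (W u)).mono h1 le_rfl

theorem measurable_pathProduct_sig {S : Set (List ℕ)} (v : List ℕ)
    (h : ∀ u, u <:+ v → u ≠ [] → u ∈ S) : Measurable[sig W S] (pathProduct W v) := by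
  induction v with
  | nil => exact @measurable_const _ _ _ (sig W S) _
  | cons a v ih =>
    have h1 := ih fun u hu hne => h u (hu.trans (List.suffix_cons a v)) hne
    have h2 : Measurable[sig W S] (W (a :: v)) :=
      measurable_W_sig (h _ (List.suffix_refl _) (by simp))
    exact h1.mul h2

theorem indepFun_of_sig (hm : ∀ v, Measurable (W v)) (hW : iIndepFun W μ) {S T : Set (List ℕ)}
    (hST : Disjoint S T) {f g : Ω → ℝ} (hf : Measurable[sig W S] f) (hg : Measurable[sig W T] g) :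
    IndepFun f g μ := by
  have h1 : Indep (sig W S) (sig W T) μ :=
    indep_iSup_of_disjoint (fun i => (hm i).comap_le) hW hST
  exact indep_of_indep_of_le_left (indep_of_indep_of_le_right h1 hg.comap_le) hf.comap_le


theorem measurable_pathProduct (hm : ∀ v, Measurable (W v)) (v : List ℕ) :
    Measurable (pathProduct W v) := by
  induction v with
  | nil => exact measurable_const
  | cons a v ih => exact ih.mul (hm _)

theorem integral_abs_mul {f g : Ω → ℝ} (h : IndepFun f g μ) (hf : Measurable f)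
    (hg : Measurable g) :
    ∫ ω, |f ω * g ω| ∂μ = (∫ ω, |f ω| ∂μ) * ∫ ω, |g ω| ∂μ := by
  simp_rw [abs_mul]
  exact h.integral_fun_comp_mul_comp (f := fun x : ℝ => |x|) (g := fun x : ℝ => |x|)
    hf.aemeasurable hg.aemeasurable measurable_abs.aestronglyMeasurable
    measurable_abs.aestronglyMeasurable

/-! ### the law -/

variable {ν : Measure ℝ}

theorem integrable_law (hmean : ∫ x, x ∂ν = 1) : Integrable (fun x : ℝ => x) ν := by
  by_contra h
  rw [integral_undef h] at hmean
  norm_num at hmean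

theorem integral_abs_law [IsProbabilityMeasure ν] (hpos : ν (Set.Ioi 0) = 1)
    (hmean : ∫ x, x ∂ν = 1) : ∫ x, |x| ∂ν = 1 := by
  rw [← hmean]
  apply integral_congr_ae
  have : ∀ᵐ x ∂ν, x ∈ Set.Ioi (0 : ℝ) := (mem_ae_iff_prob_eq_one measurableSet_Ioi).2 hpos
  filter_upwards [this] with x hx
  exact abs_of_pos hx

theorem theta_pos [IsProbabilityMeasure ν] (hnc : ∀ c : ℝ, ν ≠ Measure.dirac c)
    (hmean : ∫ x, x ∂ν = 1) : 0 < ∫ x, |x - 1| ∂ν := by
  have hint : Integrable (fun x : ℝ => |x - 1|) ν :=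
    ((integrable_law hmean).sub (integrable_const 1)).abs
  have h0 : 0 ≤ ∫ x, |x - 1| ∂ν := integral_nonneg fun x => abs_nonneg _
  rcases h0.lt_or_eq with h | h
  · exact h
  · exfalso
    have h1 := (integral_eq_zero_iff_of_nonneg (fun x => abs_nonneg (x - 1)) hint).1 h.symm
    have h2 : (fun x : ℝ => x) =ᵐ[ν] fun _ => (1 : ℝ) := by
      filter_upwards [h1] with x hx
      have : |x - 1| = 0 := hx
      rw [abs_eq_zero] at this
      linarith
    apply hnc 1
    have h3 : Measure.map (fun x : ℝ => x) ν = Measure.map (fun _ : ℝ => (1 : ℝ)) ν :=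
      Measure.map_congr h2
    have h4 : Measure.map (fun x : ℝ => x) ν = ν := Measure.map_id
    rw [h4, Measure.map_const] at h3
    simpa using h3

theorem integral_comp_W (hW : IsRealization ν μ W) {u : List ℕ} (hu : u ≠ []) {g : ℝ → ℝ}
    (hg : Measurable g) : ∫ ω, g (W u ω) ∂μ = ∫ x, g x ∂ν := by
  rw [← hW.2.2 u hu, integral_map (hW.1 u).aemeasurable hg.aestronglyMeasurable]

theorem integrable_comp_W (hW : IsRealization ν μ W) {u : List ℕ} (hu : u ≠ []) {g : ℝ → ℝ}
    (hg : Measurable g) (hi : Integrable g ν) : Integrable (fun ω => g (W u ω)) μ := by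
  rw [← hW.2.2 u hu] at hi
  exact (integrable_map_measure hg.aestronglyMeasurable (hW.1 u).aemeasurable).1 hi

/-- the path product at `v` is independent of everything generated by the children multipliers. -/
theorem indepFun_path_children (hW : IsRealization ν μ W) (v : List ℕ) {g : Ω → ℝ}
    (hg : Measurable[sig W {u | ∃ a, u = a :: v}] g) : IndepFun (pathProduct W v) g μ := by
  refine indepFun_of_sig (S := {u | u <:+ v ∧ u ≠ []}) hW.1 hW.2.1 ?_
    (measurable_pathProduct_sig v fun u hu hne => ⟨hu, hne⟩) hg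
  rw [Set.disjoint_left]
  rintro u ⟨hu, -⟩ ⟨a, rfl⟩
  have := hu.length_le
  simp at this

theorem path_integrable_norm [IsProbabilityMeasure μ] [IsProbabilityMeasure ν]
    (hpos : ν (Set.Ioi 0) = 1) (hmean : ∫ x, x ∂ν = 1) (hW : IsRealization ν μ W) (v : List ℕ) :
    Integrable (pathProduct W v) μ ∧ ∫ ω, |pathProduct W v ω| ∂μ = 1 := by
  induction v with
  | nil =>
    refine ⟨integrable_const 1, ?_⟩
    simp [pathProduct]
  | cons a v ih =>
    have hind : IndepFun (pathProduct W v) (W (a :: v)) μ :=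
      indepFun_path_children hW v (measurable_W_sig ⟨a, rfl⟩)
    have hWi : Integrable (W (a :: v)) μ :=
      integrable_comp_W hW (by simp) measurable_id (integrable_law hmean)
    refine ⟨hind.integrable_mul ih.1 hWi, ?_⟩
    have h1 := integral_abs_mul hind (measurable_pathProduct hW.1 v) (hW.1 _)
    have h2 : ∫ ω, |W (a :: v) ω| ∂μ = 1 := by
      rw [integral_comp_W hW (by simp) measurable_abs]
      exact integral_abs_law hpos hmean
    rw [ih.2, h2, one_mul] at h1
    exact h1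


theorem memLp_child [IsProbabilityMeasure μ] [IsProbabilityMeasure ν]
    (hm2 : Integrable (fun x : ℝ => x ^ 2) ν) (hW : IsRealization ν μ W) {u : List ℕ}
    (hu : u ≠ []) : MemLp (fun ω => W u ω - 1) 2 μ := by
  have h1 : MemLp (W u) 2 μ := by
    rw [memLp_two_iff_integrable_sq (hW.1 u).aestronglyMeasurable]
    exact integrable_comp_W hW hu (measurable_id.pow_const 2) hm2
  exact h1.sub (memLp_const 1)

theorem sq_integral_abs_le [IsProbabilityMeasure μ] {Y : Ω → ℝ} (hY : MemLp Y 2 μ) :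
    (∫ ω, |Y ω| ∂μ) ^ 2 ≤ ∫ ω, Y ω ^ 2 ∂μ := by
  have h1 : MemLp (fun ω => |Y ω|) 2 μ := hY.abs
  have h2 := variance_eq_sub h1
  have h3 := variance_nonneg (fun ω => |Y ω|) μ
  have h4 : μ[(fun ω => |Y ω|) ^ 2] = ∫ ω, Y ω ^ 2 ∂μ := by
    apply integral_congr_ae
    filter_upwards with ω
    simp
  rw [h4] at h2
  linarith

theorem sq_integral_abs_sum_le [IsProbabilityMeasure μ] [IsProbabilityMeasure ν]
    (hmean : ∫ x, x ∂ν = 1) (hm2 : Integrable (fun x : ℝ => x ^ 2) ν)
    (hW : IsRealization ν μ W) (v : List ℕ) (A : Finset ℕ) :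
    (∫ ω, |∑ a ∈ A, (W (a :: v) ω - 1)| ∂μ) ^ 2 ≤ A.card * ∫ x, (x - 1) ^ 2 ∂ν := by
  let Z : ℕ → Ω → ℝ := fun a ω => W (a :: v) ω - 1
  have hZ : ∀ a, MemLp (Z a) 2 μ := fun a => memLp_child hm2 hW (by simp)
  have hZ0 : ∀ a, ∫ ω, Z a ω ∂μ = 0 := by
    intro a
    have := integral_comp_W hW (u := a :: v) (by simp) (g := fun x => x - 1)
      (measurable_id.sub_const 1)
    rw [show (∫ ω, Z a ω ∂μ) = ∫ ω, (W (a :: v) ω - 1) ∂μ from rfl, this,
      integral_sub (integrable_law hmean) (integrable_const 1), hmean]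
    simp
  have hZ2 : ∀ a, ∫ ω, Z a ω ^ 2 ∂μ = ∫ x, (x - 1) ^ 2 ∂ν := by
    intro a
    exact integral_comp_W hW (u := a :: v) (by simp) (g := fun x => (x - 1) ^ 2)
      ((measurable_id.sub_const 1).pow_const 2)
  have hvar : ∀ a, variance (Z a) μ = ∫ x, (x - 1) ^ 2 ∂ν := by
    intro a
    rw [variance_eq_sub (hZ a), hZ0 a, ← hZ2 a]
    simp
  have hY : MemLp (∑ a ∈ A, Z a) 2 μ := memLp_finsetSum' A fun a _ => hZ a
  have hind : Set.Pairwise (A : Set ℕ) fun i j => IndepFun (Z i) (Z j) μ := by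
    intro i _ j _ hij
    have h1 : IndepFun (W (i :: v)) (W (j :: v)) μ :=
      hW.2.1.indepFun (by simpa using hij)
    exact h1.comp (φ := fun x : ℝ => x - 1) (ψ := fun x : ℝ => x - 1)
      (measurable_id.sub_const 1) (measurable_id.sub_const 1)
  have hvs := IndepFun.variance_sum (s := A) (fun a _ => hZ a) hind
  have hmeanY : μ[∑ a ∈ A, Z a] = 0 := by
    have : (∫ ω, (∑ a ∈ A, Z a) ω ∂μ) = ∫ ω, ∑ a ∈ A, Z a ω ∂μ := by
      simp only [Finset.sum_apply]
    rw [this, integral_finsetSum A fun a _ => (hZ a).integrable one_le_two]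
    exact Finset.sum_eq_zero fun a _ => hZ0 a
  rw [variance_eq_sub hY, hmeanY] at hvs
  have h5 := sq_integral_abs_le hY
  have h6 : (∫ ω, |(∑ a ∈ A, Z a) ω| ∂μ) = ∫ ω, |∑ a ∈ A, (W (a :: v) ω - 1)| ∂μ := by
    simp only [Finset.sum_apply, Z]
  have h7 : (∫ ω, (∑ a ∈ A, Z a) ω ^ 2 ∂μ) = μ[(∑ a ∈ A, Z a) ^ 2] := rfl
  rw [h6, h7] at h5
  have h8 : ∑ a ∈ A, variance (Z a) μ = A.card * ∫ x, (x - 1) ^ 2 ∂ν := by
    rw [Finset.sum_congr rfl fun a _ => hvar a]
    simp
  rw [h8] at hvs
  linarith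

/-- `L¹` norm of a sum of increments to children. -/
theorem sq_integral_abs_incr_le [IsProbabilityMeasure μ] [IsProbabilityMeasure ν]
    (hpos : ν (Set.Ioi 0) = 1) (hmean : ∫ x, x ∂ν = 1) (hm2 : Integrable (fun x : ℝ => x ^ 2) ν)
    (hW : IsRealization ν μ W) (v : List ℕ) (A : Finset ℕ) :
    (∫ ω, |∑ a ∈ A, (pathProduct W (a :: v) ω - pathProduct W v ω)| ∂μ) ^ 2
      ≤ A.card * ∫ x, (x - 1) ^ 2 ∂ν := by
  have hg : Measurable[sig W {u | ∃ a, u = a :: v}] fun ω => ∑ a ∈ A, (W (a :: v) ω - 1) := by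
    refine Finset.measurable_fun_sum A fun a _ => ?_
    exact (measurable_W_sig (W := W) (S := {u | ∃ a, u = a :: v}) ⟨a, rfl⟩).sub_const 1
  have hg' : Measurable fun ω => ∑ a ∈ A, (W (a :: v) ω - 1) :=
    Finset.measurable_fun_sum A fun a _ => (hW.1 _).sub_const 1
  have h1 := integral_abs_mul (indepFun_path_children hW v hg) (measurable_pathProduct hW.1 v) hg'
  rw [(path_integrable_norm hpos hmean hW v).2, one_mul] at h1
  have h2 : ∀ ω, ∑ a ∈ A, (pathProduct W (a :: v) ω - pathProduct W v ω)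
      = pathProduct W v ω * ∑ a ∈ A, (W (a :: v) ω - 1) := by
    intro ω
    rw [Finset.mul_sum]
    refine Finset.sum_congr rfl fun a _ => ?_
    simp only [pathProduct]
    ring
  simp_rw [h2]
  rw [h1]
  exact sq_integral_abs_sum_le hmean hm2 hW v A

/-- `L¹` norm of one increment. -/
theorem integral_abs_incr [IsProbabilityMeasure μ] [IsProbabilityMeasure ν]
    (hpos : ν (Set.Ioi 0) = 1) (hmean : ∫ x, x ∂ν = 1)
    (hW : IsRealization ν μ W) (v : List ℕ) (a : ℕ) :
    ∫ ω, |pathProduct W (a :: v) ω - pathProduct W v ω| ∂μ = ∫ x, |x - 1| ∂ν := by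
  have hg : Measurable[sig W {u | ∃ a, u = a :: v}] fun ω => (W (a :: v) ω - 1) :=
    (measurable_W_sig (W := W) (S := {u | ∃ a, u = a :: v}) ⟨a, rfl⟩).sub_const 1
  have h1 := integral_abs_mul (indepFun_path_children hW v hg) (measurable_pathProduct hW.1 v)
    ((hW.1 _).sub_const 1)
  rw [(path_integrable_norm hpos hmean hW v).2, one_mul] at h1
  have h2 : ∀ ω, pathProduct W (a :: v) ω - pathProduct W v ω
      = pathProduct W v ω * (W (a :: v) ω - 1) := by
    intro ω
    simp only [pathProduct]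
    ring
  simp_rw [h2]
  rw [h1]
  exact integral_comp_W hW (u := a :: v) (by simp) (g := fun x => |x - 1|)
    (measurable_id.sub_const 1).abs

end Crest.Agent.S0169
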