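import Mathlib
import Crest.Prelude.Def_TreeProducts
import Crest.Agent.R125_Common
import Crest.Agent.R125_TP
import Crest.Agent.S0169_Prob

/-!
# S0169 (row 125): the product span has no AUC renorming
-/

set_option autoImplicit false

namespace Crest.Agent.S0169

open MeasureTheory ProbabilityTheory Crest.AnalysisR Crest.AnalysisR.TreeProduct
open Crest.Agent.R125

variable {Ω : Type} [mΩ : MeasurableSpace Ω] {μ : Measure Ω} {W : List ℕ → Ω → ℝ}

/-- the class of a path product, as an element of the product span. -/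
noncomputable def cls (hint : ∀ v, Integrable (pathProduct W v) μ) (v : List ℕ) :
    productSpan μ W :=
  ⟨(hint v).toL1 _, Submodule.le_topologicalClosure _
    (Submodule.subset_span ⟨v, Integrable.coeFn_toL1 _⟩)⟩

theorem norm_cls (hint : ∀ v, Integrable (pathProduct W v) μ) (v : List ℕ) :
    ‖cls hint v‖ = ∫ ω, |pathProduct W v ω| ∂μ :=
  L1.norm_of_fun_eq_integral_norm (hint v)

theorem coe_sum_incr (hint : ∀ v, Integrable (pathProduct W v) μ) (v : List ℕ) (A : Finset ℕ) :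
    ((∑ a ∈ A, (cls hint (a :: v) - cls hint v) : productSpan μ W) : Lp ℝ 1 μ)
      = (integrable_finsetSum A fun a _ => (hint (a :: v)).sub (hint v)).toL1
          (fun ω => ∑ a ∈ A, (pathProduct W (a :: v) ω - pathProduct W v ω)) := by
  classical
  induction A using Finset.induction_on with
  | empty =>
    simp only [Finset.sum_empty, Submodule.coe_zero]
    rfl
  | insert b A hb ih =>
    rw [Finset.sum_insert hb, Submodule.coe_add, ih]
    have h1 : ((cls hint (b :: v) - cls hint v : productSpan μ W) : Lp ℝ 1 μ)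
        = ((hint (b :: v)).sub (hint v)).toL1 _ := rfl
    rw [h1, ← Integrable.toL1_add]
    rw [Integrable.toL1_eq_toL1_iff]
    filter_upwards with ω
    simp [Finset.sum_insert hb]

theorem norm_sum_incr (hint : ∀ v, Integrable (pathProduct W v) μ) (v : List ℕ) (A : Finset ℕ) :
    ‖∑ a ∈ A, (cls hint (a :: v) - cls hint v)‖
      = ∫ ω, |∑ a ∈ A, (pathProduct W (a :: v) ω - pathProduct W v ω)| ∂μ := by
  rw [Submodule.coe_norm, coe_sum_incr]
  exact L1.norm_of_fun_eq_integral_norm _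

theorem norm_incr (hint : ∀ v, Integrable (pathProduct W v) μ) (v : List ℕ) (a : ℕ) :
    ‖cls hint (a :: v) - cls hint v‖
      = ∫ ω, |pathProduct W (a :: v) ω - pathProduct W v ω| ∂μ :=
  L1.norm_of_fun_eq_integral_norm ((hint (a :: v)).sub (hint v))

variable {ν : Measure ℝ}

theorem span_not_auc [IsProbabilityMeasure μ] [IsProbabilityMeasure ν]
    (hpos : ν (Set.Ioi 0) = 1) (hnc : ∀ c : ℝ, ν ≠ Measure.dirac c) (hmean : ∫ x, x ∂ν = 1)
    (hm2 : Integrable (fun x : ℝ => x ^ 2) ν) (hW : IsRealization ν μ W)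
    (N : productSpan μ W → ℝ) (hN : EquivNorm N) : ¬ AUC N := by
  have hint : ∀ v, Integrable (pathProduct W v) μ := fun v =>
    (path_integrable_norm hpos hmean hW v).1
  have hn1 : ∀ v, ‖cls hint v‖ = 1 := fun v => by
    rw [norm_cls]; exact (path_integrable_norm hpos hmean hW v).2
  obtain ⟨θ₀, hθ₀⟩ : ∃ θ₀, θ₀ = ∫ x, |x - 1| ∂ν := ⟨_, rfl⟩
  have hθ₀pos : 0 < θ₀ := hθ₀ ▸ theta_pos hnc hmean
  obtain ⟨V, hV⟩ : ∃ V, V = ∫ x, (x - 1) ^ 2 ∂ν := ⟨_, rfl⟩
  have hV0 : 0 ≤ V := hV ▸ integral_nonneg fun x => sq_nonneg _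
  have hinc : ∀ v a, ‖cls hint (a :: v) - cls hint v‖ = θ₀ := fun v a => by
    rw [norm_incr, hθ₀]; exact integral_abs_incr hpos hmean hW v a
  have hsum : ∀ v (A : Finset ℕ), ‖∑ a ∈ A, (cls hint (a :: v) - cls hint v)‖ ^ 2 ≤ A.card * V :=
    fun v A => by
      rw [norm_sum_incr, hV]; exact sq_integral_abs_incr_le hpos hmean hm2 hW v A
  refine not_auc_of_levels (C := 1) (θ := min 1 θ₀) (lt_min one_pos hθ₀pos) ?_ N hN
  intro n
  refine ⟨fun k => {x | ∃ v : List ℕ, x = cls hint v}, ⟨cls hint [], ⟨[], rfl⟩, ?_⟩, ?_, ?_⟩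
  · rw [hn1]; exact min_le_left _ _
  · rintro k x ⟨v, rfl⟩
    exact (hn1 v).le
  · rintro k - x ⟨v, rfl⟩ F hF ε hε
    have hav : ∀ δ : ℝ, 0 < δ → ∃ K : ℕ, ∀ A : Finset ℕ, K ≤ A.card →
        ‖∑ a ∈ A, (cls hint (a :: v) - cls hint v)‖ ≤ δ * A.card := by
      intro δ hδ
      obtain ⟨K, hK⟩ := exists_nat_ge (V / δ ^ 2)
      refine ⟨K, fun A hA => ?_⟩
      have h1 : V ≤ δ ^ 2 * A.card := by
        have h2 : V / δ ^ 2 ≤ A.card := hK.trans (by exact_mod_cast hA)
        rw [div_le_iff₀ (by positivity)] at h2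
        linarith
      have h3 := hsum v A
      have h4 : (0 : ℝ) ≤ A.card := Nat.cast_nonneg _
      refine abs_le_of_sq_le_sq' ?_ (by positivity) |>.2
      calc ‖∑ a ∈ A, (cls hint (a :: v) - cls hint v)‖ ^ 2 ≤ A.card * V := h3
        _ ≤ A.card * (δ ^ 2 * A.card) := mul_le_mul_of_nonneg_left h1 h4
        _ = (δ * A.card) ^ 2 := by ring
    obtain ⟨a, -, z', hz', hlt⟩ := exists_close_of_averages
      (z := fun a => cls hint (a :: v) - cls hint v) (B := θ₀) (fun a => (hinc v a).le) hav hF hε 0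
    refine ⟨cls hint (a :: v) - cls hint v, z', ⟨a :: v, by abel⟩, ?_, hz', hlt⟩
    rw [hinc]; exact min_le_right _ _

end Crest.Agent.S0169
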