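import Crest.Agent.S0175_Defs

/-! Row 130 (S0175), module O: the abstract optimal transport argument. -/

set_option autoImplicit false

namespace Crest.Agent.R130

open MeasureTheory Set
open scoped ENNReal
open Crest.AnalysisR.OT

section AbstractOT

variable {X : Type*} [MeasurableSpace X]

theorem ae_mem_of_map {Y : Type*} [MeasurableSpace Y] {π : Measure Y} {μ : Measure X} {f : Y → X}
    (hf : Measurable f) (h : π.map f = μ) {N : Set X} (h0 : μ Nᶜ = 0) : ∀ᵐ p ∂π, f p ∈ N := by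
  have h1 : ∀ᵐ x ∂(π.map f), x ∈ N := by
    rw [h]; exact ae_iff.2 h0
  exact ae_of_ae_map hf.aemeasurable h1

theorem meas_p1 : Measurable (fun p : X × X × X => p.1) := measurable_fst
theorem meas_p2 : Measurable (fun p : X × X × X => p.2.1) := measurable_fst.comp measurable_snd
theorem meas_p3 : Measurable (fun p : X × X × X => p.2.2) := measurable_snd.comp measurable_snd

theorem lintegral_pot_coupling (μ : Measure X) (π : Measure (X × X × X)) (hπ : IsCoupling₃ μ π)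
    (v : X → ℝ≥0∞) (hv : Measurable v) :
    ∫⁻ p, (v p.1 + v p.2.1 + v p.2.2) ∂π = 3 * ∫⁻ x, v x ∂μ := by
  obtain ⟨h1, h2, h3⟩ := hπ
  have e1 : ∫⁻ p, v p.1 ∂π = ∫⁻ x, v x ∂μ := by
    rw [← h1, lintegral_map hv meas_p1]
  have e2 : ∫⁻ p, v p.2.1 ∂π = ∫⁻ x, v x ∂μ := by
    rw [← h2, lintegral_map hv meas_p2]
  have e3 : ∫⁻ p, v p.2.2 ∂π = ∫⁻ x, v x ∂μ := by
    rw [← h3, lintegral_map hv meas_p3]
  have m2 : Measurable (fun p : X × X × X => v p.2.1) := hv.comp meas_p2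
  have m3 : Measurable (fun p : X × X × X => v p.2.2) := hv.comp meas_p3
  rw [lintegral_add_right _ m3, lintegral_add_right _ m2, e1, e2, e3]
  ring

theorem meas_pot (v : X → ℝ≥0∞) (hv : Measurable v) :
    Measurable (fun p : X × X × X => v p.1 + v p.2.1 + v p.2.2) :=
  ((hv.comp meas_p1).add (hv.comp meas_p2)).add (hv.comp meas_p3)

theorem coupling_univ (μ : Measure X) (π : Measure (X × X × X)) (hπ : IsCoupling₃ μ π) :
    π univ = μ univ := by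
  rw [← hπ.1, Measure.map_apply meas_p1 MeasurableSet.univ, preimage_univ]

theorem weak_duality (μ : Measure X) (c : X × X × X → ℝ≥0∞)
    (N : Set X) (hμN : μ Nᶜ = 0) (v : X → ℝ≥0∞) (hv : Measurable v) (K : ℝ≥0∞)
    (H1 : ∀ x₁ ∈ N, ∀ x₂ ∈ N, ∀ x₃ ∈ N, v x₁ + v x₂ + v x₃ ≤ c (x₁, x₂, x₃) + K)
    (π : Measure (X × X × X)) (hπ : IsCoupling₃ μ π) :
    3 * ∫⁻ x, v x ∂μ ≤ ∫⁻ p, c p ∂π + K * μ univ := by
  rw [← lintegral_pot_coupling μ π hπ v hv, ← coupling_univ μ π hπ, ← lintegral_const,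
    ← lintegral_add_right _ measurable_const]
  refine lintegral_mono_ae ?_
  filter_upwards [ae_mem_of_map meas_p1 hπ.1 hμN, ae_mem_of_map meas_p2 hπ.2.1 hμN,
    ae_mem_of_map meas_p3 hπ.2.2 hμN] with p h1 h2 h3
  exact H1 _ h1 _ h2 _ h3

/-- the key measure estimate of the no-Monge argument (no measurability of `E` needed) -/
theorem noMonge_null (μA μB : Measure X) [IsFiniteMeasure μA]
    (A B : Set X) (hAB : Disjoint A B) (hμA : μA Aᶜ = 0)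
    (φ : X → X) (hφ : Measurable φ) (hp : μA = (2 : ℝ≥0∞) • μB.map φ)
    (T : X → X) (hT : Measurable T) (hTμ : (μA + μB).map T = μA + μB) :
    μA {x | T x ∈ B ∧ φ (T x) = x} = 0 := by
  set E : Set X := {x | T x ∈ B ∧ φ (T x) = x} with hE
  have hsub : E ⊆ T ⁻¹' (B ∩ φ ⁻¹' E) := by
    intro x hx
    refine ⟨hx.1, ?_⟩
    show φ (T x) ∈ E
    rw [hx.2]; exact hx
  have h1 : μA E ≤ (μA + μB) (B ∩ φ ⁻¹' E) := by
    calc μA E ≤ (μA + μB) E := by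
          rw [Measure.add_apply]; exact le_self_add
      _ ≤ (μA + μB) (T ⁻¹' (B ∩ φ ⁻¹' E)) := measure_mono hsub
      _ ≤ ((μA + μB).map T) (B ∩ φ ⁻¹' E) := Measure.le_map_apply hT.aemeasurable _
      _ = (μA + μB) (B ∩ φ ⁻¹' E) := by rw [hTμ]
  have h2 : μA (B ∩ φ ⁻¹' E) = 0 := by
    refine measure_mono_null ?_ hμA
    intro x hx hxA
    exact (Set.disjoint_left.mp hAB hxA) hx.1
  have h3 : μB (B ∩ φ ⁻¹' E) ≤ (μB.map φ) E :=
    (measure_mono inter_subset_right).trans (Measure.le_map_apply hφ.aemeasurable _)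
  have h4 : μA E = 2 * (μB.map φ) E := by
    conv_lhs => rw [hp]
    rw [Measure.smul_apply, smul_eq_mul]
  rw [Measure.add_apply, h2, zero_add] at h1
  have h5 : 2 * (μB.map φ) E ≤ (μB.map φ) E := h4 ▸ (h1.trans h3)
  have hfin : (μB.map φ) E ≠ ⊤ := by
    intro htop
    have : μA E = ⊤ := by rw [h4, htop]; simp
    exact measure_ne_top μA E this
  have h6 : (μB.map φ) E = 0 := by
    by_contra hne
    have : (μB.map φ) E < 2 * (μB.map φ) E := by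
      rw [two_mul]
      exact ENNReal.lt_add_right hfin hne
    exact absurd h5 (not_le.mpr this)
  rw [h4, h6, mul_zero]

theorem abstractOT (c : X × X × X → ℝ≥0∞) (hc : Measurable c)
    (hs1 : ∀ a b d, c (a, b, d) = c (b, a, d)) (hs2 : ∀ a b d, c (a, b, d) = c (a, d, b))
    (μA μB : Measure X) [IsFiniteMeasure μA] [IsFiniteMeasure μB]
    (A B : Set X) (hA : MeasurableSet A) (hB : MeasurableSet B) (hAB : Disjoint A B)
    (hμA : μA Aᶜ = 0) (hμB : μB Bᶜ = 0) (hμA0 : μA ≠ 0)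
    (φp φm : X → X) (hφp : Measurable φp) (hφm : Measurable φm)
    (hpp : μA = (2 : ℝ≥0∞) • μB.map φp) (hpm : μA = (2 : ℝ≥0∞) • μB.map φm)
    (v : X → ℝ≥0∞) (hv : Measurable v) (Kv K : ℝ≥0∞) (hKv : Kv ≠ ⊤) (hK : K ≠ ⊤) (hvK : ∀ x, v x ≤ Kv)
    (H1 : ∀ x₁ ∈ A ∪ B, ∀ x₂ ∈ A ∪ B, ∀ x₃ ∈ A ∪ B, v x₁ + v x₂ + v x₃ ≤ c (x₁, x₂, x₃) + K)
    (H2 : ∀ y ∈ B, v y + v (φp y) + v (φm y) = c (y, φp y, φm y) + K)
    (H3 : ∀ x₁ ∈ A, ∀ x₂ ∈ A ∪ B, ∀ x₃ ∈ A ∪ B, v x₁ + v x₂ + v x₃ = c (x₁, x₂, x₃) + K →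
      (x₂ ∈ B ∧ (φp x₂ = x₁ ∨ φm x₂ = x₁)) ∨ (x₃ ∈ B ∧ (φp x₃ = x₁ ∨ φm x₃ = x₁)))
    (Happ : ∀ ε : ℝ≥0∞, 0 < ε → ∃ T₂ T₃ b : X → X, Measurable T₂ ∧ Measurable T₃ ∧ Measurable b ∧
      (μA + μB).map T₂ = μA + μB ∧ (μA + μB).map T₃ = μA + μB ∧ (μA + μB).map b = (3 : ℝ≥0∞) • μB ∧
      ∀ᵐ x ∂(μA + μB), c (x, T₂ x, T₃ x) ≤ c (b x, φp (b x), φm (b x)) + ε) :
    OTStatement (μA + μB) c := by
  have hμN : (μA + μB) (A ∪ B)ᶜ = 0 := by
    have h1 : μA (A ∪ B)ᶜ = 0 := measure_mono_null (compl_subset_compl.mpr subset_union_left) hμA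
    have h2 : μB (A ∪ B)ᶜ = 0 := measure_mono_null (compl_subset_compl.mpr subset_union_right) hμB
    rw [Measure.add_apply, h1, h2, add_zero]
  have hBae : ∀ᵐ y ∂μB, y ∈ B := ae_iff.2 hμB
  -- the two images coincide
  have hνeq : μB.map φp = μB.map φm := by
    ext S _
    have h := congrArg (fun m : Measure X => m S) (hpp.symm.trans hpm)
    simp only [Measure.smul_apply, smul_eq_mul] at h
    exact (ENNReal.mul_right_inj (by norm_num) (by norm_num)).mp h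
  have hνsum : μB.map φp + μB.map φm = μA := by
    rw [← hνeq, ← two_smul ℝ≥0∞ (μB.map φp), ← hpp]
  -- the three maps
  let g₁ : X → X × X × X := fun y => (y, φp y, φm y)
  let g₂ : X → X × X × X := fun y => (φm y, y, φp y)
  let g₃ : X → X × X × X := fun y => (φp y, φm y, y)
  have hg₁ : Measurable g₁ := measurable_id.prodMk (hφp.prodMk hφm)
  have hg₂ : Measurable g₂ := hφm.prodMk (measurable_id.prodMk hφp)
  have hg₃ : Measurable g₃ := hφp.prodMk (hφm.prodMk measurable_id)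
  let π₀ : Measure (X × X × X) := μB.map g₁ + μB.map g₂ + μB.map g₃
  have hπ₀int : ∀ f : X × X × X → ℝ≥0∞, Measurable f →
      ∫⁻ p, f p ∂π₀ = ∫⁻ y, f (g₁ y) ∂μB + ∫⁻ y, f (g₂ y) ∂μB + ∫⁻ y, f (g₃ y) ∂μB := by
    intro f hf
    show ∫⁻ p, f p ∂(μB.map g₁ + μB.map g₂ + μB.map g₃) = _
    rw [lintegral_add_measure, lintegral_add_measure, lintegral_map hf hg₁, lintegral_map hf hg₂,
      lintegral_map hf hg₃]
  have hπ₀map : ∀ q : X × X × X → X, Measurable q →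
      π₀.map q = μB.map (q ∘ g₁) + μB.map (q ∘ g₂) + μB.map (q ∘ g₃) := by
    intro q hq
    show (μB.map g₁ + μB.map g₂ + μB.map g₃).map q = _
    rw [Measure.map_add _ _ hq, Measure.map_add _ _ hq, Measure.map_map hq hg₁,
      Measure.map_map hq hg₂, Measure.map_map hq hg₃]
  have hid : μB.map (fun y : X => y) = μB := Measure.map_id
  have hcoup : IsCoupling₃ (μA + μB) π₀ := by
    refine ⟨?_, ?_, ?_⟩
    · rw [hπ₀map _ meas_p1]
      show μB.map (fun y : X => y) + μB.map φm + μB.map φp = _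
      rw [hid, ← hνsum]; abel
    · rw [hπ₀map _ meas_p2]
      show μB.map φp + μB.map (fun y : X => y) + μB.map φm = _
      rw [hid, ← hνsum]; abel
    · rw [hπ₀map _ meas_p3]
      show μB.map φm + μB.map φp + μB.map (fun y : X => y) = _
      rw [hid, ← hνsum]; abel
  have hcg₂ : ∀ y, c (g₂ y) = c (g₁ y) := fun y => by
    show c (φm y, y, φp y) = c (y, φp y, φm y)
    rw [hs1, hs2]
  have hcg₃ : ∀ y, c (g₃ y) = c (g₁ y) := fun y => by
    show c (φp y, φm y, y) = c (y, φp y, φm y)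
    rw [hs2, hs1]
  have hcost : ∫⁻ p, c p ∂π₀ = 3 * ∫⁻ y, c (g₁ y) ∂μB := by
    rw [hπ₀int c hc]
    simp only [hcg₂, hcg₃]
    ring
  have hm : (μA + μB) univ ≠ ⊤ := measure_ne_top _ _
  have hKm : K * (μA + μB) univ ≠ ⊤ := ENNReal.mul_ne_top hK hm
  -- finiteness
  have hfin : ∫⁻ p, c p ∂π₀ < ⊤ := by
    rw [hcost]
    refine ENNReal.mul_lt_top (by norm_num) ?_
    have hle : ∫⁻ y, c (g₁ y) ∂μB ≤ ∫⁻ _y, (Kv + Kv + Kv) ∂μB := by
      refine lintegral_mono_ae ?_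
      filter_upwards [hBae] with y hy
      calc c (g₁ y) ≤ c (y, φp y, φm y) + K := le_self_add
        _ = v y + v (φp y) + v (φm y) := (H2 y hy).symm
        _ ≤ Kv + Kv + Kv := add_le_add (add_le_add (hvK _) (hvK _)) (hvK _)
    refine lt_of_le_of_lt hle ?_
    rw [lintegral_const]
    exact ENNReal.mul_lt_top (by simp [hKv, lt_top_iff_ne_top]) (measure_lt_top _ _)
  -- equality in weak duality for π₀
  have hdual₀ : ∫⁻ p, c p ∂π₀ + K * (μA + μB) univ = 3 * ∫⁻ x, v x ∂(μA + μB) := by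
    rw [← lintegral_pot_coupling _ π₀ hcoup v hv, ← coupling_univ _ π₀ hcoup, ← lintegral_const,
      ← lintegral_add_right _ measurable_const,
      hπ₀int (fun p => c p + K) (hc.add measurable_const),
      hπ₀int _ (meas_pot v hv)]
    have e1 : ∫⁻ y, (c (g₁ y) + K) ∂μB = ∫⁻ y, (v (g₁ y).1 + v (g₁ y).2.1 + v (g₁ y).2.2) ∂μB := by
      refine lintegral_congr_ae ?_
      filter_upwards [hBae] with y hy
      exact (H2 y hy).symm
    have e2 : ∫⁻ y, (c (g₂ y) + K) ∂μB = ∫⁻ y, (v (g₂ y).1 + v (g₂ y).2.1 + v (g₂ y).2.2) ∂μB := by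
      refine lintegral_congr_ae ?_
      filter_upwards [hBae] with y hy
      rw [hcg₂]
      show c (y, φp y, φm y) + K = v (φm y) + v y + v (φp y)
      rw [← H2 y hy]; ring
    have e3 : ∫⁻ y, (c (g₃ y) + K) ∂μB = ∫⁻ y, (v (g₃ y).1 + v (g₃ y).2.1 + v (g₃ y).2.2) ∂μB := by
      refine lintegral_congr_ae ?_
      filter_upwards [hBae] with y hy
      rw [hcg₃]
      show c (y, φp y, φm y) + K = v (φp y) + v (φm y) + v y
      rw [← H2 y hy]; ring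
    exact congrArg₂ (· + ·) (congrArg₂ (· + ·) e1 e2) e3
  have hopt : ∀ π : Measure (X × X × X), IsCoupling₃ (μA + μB) π →
      ∫⁻ p, c p ∂π₀ ≤ ∫⁻ p, c p ∂π := by
    intro π hπ
    have h := weak_duality (μA + μB) c (A ∪ B) hμN v hv K H1 π hπ
    rw [← hdual₀] at h
    exact ENNReal.le_of_add_le_add_right hKm h
  refine ⟨π₀, hcoup, hfin, hopt, ?_, ?_⟩
  · -- no Monge minimiser
    intro T₂ T₃ hT₂ hT₃ hT₂μ hT₃μ
    let G : X → X × X × X := fun x => (x, T₂ x, T₃ x)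
    have hG : Measurable G := measurable_id.prodMk (hT₂.prodMk hT₃)
    have hGc : IsCoupling₃ (μA + μB) ((μA + μB).map G) := by
      refine ⟨?_, ?_, ?_⟩
      · rw [Measure.map_map meas_p1 hG]; exact Measure.map_id
      · rw [Measure.map_map meas_p2 hG]; exact hT₂μ
      · rw [Measure.map_map meas_p3 hG]; exact hT₃μ
    have hle := hopt _ hGc
    rw [lintegral_map hc hG] at hle
    refine lt_of_le_of_ne hle ?_
    intro heq
    apply hμA0
    -- a.e. equality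
    have hpotG : ∫⁻ x, (v x + v (T₂ x) + v (T₃ x)) ∂(μA + μB) = 3 * ∫⁻ x, v x ∂(μA + μB) := by
      rw [← lintegral_pot_coupling _ _ hGc v hv,
        lintegral_map (meas_pot v hv) hG]
    have hN1 : ∀ᵐ x ∂(μA + μB), x ∈ A ∪ B := ae_iff.2 hμN
    have hN2 : ∀ᵐ x ∂(μA + μB), T₂ x ∈ A ∪ B := ae_mem_of_map hT₂ hT₂μ hμN
    have hN3 : ∀ᵐ x ∂(μA + μB), T₃ x ∈ A ∪ B := ae_mem_of_map hT₃ hT₃μ hμN
    have hae_le : (fun x => v x + v (T₂ x) + v (T₃ x)) ≤ᵐ[μA + μB] fun x => c (G x) + K := by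
      filter_upwards [hN1, hN2, hN3] with x h1 h2 h3
      exact H1 _ h1 _ h2 _ h3
    have hint : ∫⁻ x, (c (G x) + K) ∂(μA + μB) = 3 * ∫⁻ x, v x ∂(μA + μB) := by
      rw [lintegral_add_right _ measurable_const, lintegral_const, ← heq, hdual₀]
    have hfin3 : 3 * ∫⁻ x, v x ∂(μA + μB) ≠ ⊤ := by
      rw [← hdual₀]
      exact ENNReal.add_ne_top.mpr ⟨hfin.ne, hKm⟩
    have hae_eq : (fun x => v x + v (T₂ x) + v (T₃ x)) =ᵐ[μA + μB] fun x => c (G x) + K :=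
      ae_eq_of_ae_le_of_lintegral_le hae_le (by rw [hpotG]; exact hfin3)
        ((hc.comp hG).add measurable_const).aemeasurable (by rw [hint, hpotG])
    have habs : μA ≪ μA + μB := Measure.absolutelyContinuous_of_le (Measure.le_add_right le_rfl)
    have hAae : ∀ᵐ x ∂μA, x ∈ A := ae_iff.2 hμA
    have hcover : ∀ᵐ x ∂μA, x ∈ ({x | T₂ x ∈ B ∧ φp (T₂ x) = x} ∪ {x | T₂ x ∈ B ∧ φm (T₂ x) = x}) ∪
        ({x | T₃ x ∈ B ∧ φp (T₃ x) = x} ∪ {x | T₃ x ∈ B ∧ φm (T₃ x) = x}) := by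
      filter_upwards [hAae, habs.ae_le hae_eq, habs.ae_le hN2, habs.ae_le hN3] with x hxA hx h2 h3
      rcases H3 x hxA _ h2 _ h3 hx with ⟨hb, h | h⟩ | ⟨hb, h | h⟩
      · exact Or.inl (Or.inl ⟨hb, h⟩)
      · exact Or.inl (Or.inr ⟨hb, h⟩)
      · exact Or.inr (Or.inl ⟨hb, h⟩)
      · exact Or.inr (Or.inr ⟨hb, h⟩)
    have n1 := noMonge_null μA μB A B hAB hμA φp hφp hpp T₂ hT₂ hT₂μ
    have n2 := noMonge_null μA μB A B hAB hμA φm hφm hpm T₂ hT₂ hT₂μ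
    have n3 := noMonge_null μA μB A B hAB hμA φp hφp hpp T₃ hT₃ hT₃μ
    have n4 := noMonge_null μA μB A B hAB hμA φm hφm hpm T₃ hT₃ hT₃μ
    have hU : μA (({x | T₂ x ∈ B ∧ φp (T₂ x) = x} ∪ {x | T₂ x ∈ B ∧ φm (T₂ x) = x}) ∪
        ({x | T₃ x ∈ B ∧ φp (T₃ x) = x} ∪ {x | T₃ x ∈ B ∧ φm (T₃ x) = x})) = 0 :=
      measure_union_null (measure_union_null n1 n2) (measure_union_null n3 n4)
    have hUc := ae_iff.1 hcover
    rw [← Measure.measure_univ_eq_zero]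
    refine le_antisymm ?_ zero_le
    calc μA univ ≤ μA ((({x | T₂ x ∈ B ∧ φp (T₂ x) = x} ∪ {x | T₂ x ∈ B ∧ φm (T₂ x) = x}) ∪
        ({x | T₃ x ∈ B ∧ φp (T₃ x) = x} ∪ {x | T₃ x ∈ B ∧ φm (T₃ x) = x})) ∪
        {x | ¬ x ∈ (({x | T₂ x ∈ B ∧ φp (T₂ x) = x} ∪ {x | T₂ x ∈ B ∧ φm (T₂ x) = x}) ∪
        ({x | T₃ x ∈ B ∧ φp (T₃ x) = x} ∪ {x | T₃ x ∈ B ∧ φm (T₃ x) = x}))}) := by
          refine measure_mono fun x _ => ?_
          by_cases hx : x ∈ (({x | T₂ x ∈ B ∧ φp (T₂ x) = x} ∪ {x | T₂ x ∈ B ∧ φm (T₂ x) = x}) ∪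
            ({x | T₃ x ∈ B ∧ φp (T₃ x) = x} ∪ {x | T₃ x ∈ B ∧ φm (T₃ x) = x}))
          · exact Or.inl hx
          · exact Or.inr hx
      _ = 0 := measure_union_null hU hUc
  · -- Monge approximants
    intro ε hε
    obtain ⟨δ, hδ0, hδ⟩ := ENNReal.exists_nnreal_pos_mul_lt hm hε.ne'
    obtain ⟨T₂, T₃, b, hT₂, hT₃, hb, hT₂μ, hT₃μ, hbμ, hae⟩ :=
      Happ (δ : ℝ≥0∞) (by exact_mod_cast hδ0)
    refine ⟨T₂, T₃, hT₂, hT₃, hT₂μ, hT₃μ, ?_⟩
    have h1 : ∫⁻ x, c (x, T₂ x, T₃ x) ∂(μA + μB) ≤ ∫⁻ x, (c (g₁ (b x)) + δ) ∂(μA + μB) :=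
      lintegral_mono_ae hae
    have h2 : ∫⁻ x, (c (g₁ (b x)) + δ) ∂(μA + μB) = ∫⁻ p, c p ∂π₀ + δ * (μA + μB) univ := by
      have hcg : Measurable (fun y => c (g₁ y)) := hc.comp hg₁
      rw [lintegral_add_right _ measurable_const, lintegral_const, hcost,
        ← lintegral_map hcg hb, hbμ, lintegral_smul_measure, smul_eq_mul]
    rw [h2] at h1
    exact lt_of_le_of_lt h1 (ENNReal.add_lt_add_left hfin.ne hδ)

end AbstractOT

end Crest.Agent.R130
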