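import Crest.Agent.S0175_Defs

/-! Row 130 (S0175), module L: piecewise linear compress / stretch maps of the angle interval. -/

set_option autoImplicit false

namespace Crest.Agent.R130

open MeasureTheory Set
open scoped ENNReal

namespace Cells

/-- rescaled angle -/
noncomputable def uu (h t : ℝ) : ℝ := (t + Real.pi) / h
/-- compress each cell to its `j`-th half (`j = 0, 1`) -/
noncomputable def cj (h j t : ℝ) : ℝ :=
  h * ((⌊uu h t⌋ : ℝ) + (Int.fract (uu h t) + j) / 2) - Real.pi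
/-- stretch each half cell to the cell -/
noncomputable def stt (h t : ℝ) : ℝ :=
  h * ((⌊uu h t⌋ : ℝ) + Int.fract (2 * Int.fract (uu h t))) - Real.pi

variable {h : ℝ}

theorem uu_aff (hh : 0 < h) (x : ℝ) : uu h (h * x - Real.pi) = x := by
  unfold uu; field_simp; ring

theorem aff_uu (hh : 0 < h) (t : ℝ) : h * uu h t - Real.pi = t := by
  unfold uu; field_simp; ring

theorem floor_add_of_mem (k : ℤ) {r : ℝ} (h0 : 0 ≤ r) (h1 : r < 1) : ⌊(k : ℝ) + r⌋ = k := by
  rw [Int.floor_eq_iff]; constructor <;> linarith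

theorem fract_add_of_mem (k : ℤ) {r : ℝ} (h0 : 0 ≤ r) (h1 : r < 1) : Int.fract ((k : ℝ) + r) = r := by
  rw [Int.fract, floor_add_of_mem k h0 h1]; ring

theorem half_mem {j : ℝ} (hj : j = 0 ∨ j = 1) (x : ℝ) :
    0 ≤ (Int.fract x + j) / 2 ∧ (Int.fract x + j) / 2 < 1 := by
  have h0 := Int.fract_nonneg x
  have h1 := Int.fract_lt_one x
  rcases hj with rfl | rfl <;> constructor <;> linarith

theorem floor_uu_cj (hh : 0 < h) {j : ℝ} (hj : j = 0 ∨ j = 1) (t : ℝ) :
    ⌊uu h (cj h j t)⌋ = ⌊uu h t⌋ := by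
  unfold cj
  rw [uu_aff hh]
  exact floor_add_of_mem _ (half_mem hj _).1 (half_mem hj _).2

theorem fract_uu_cj (hh : 0 < h) {j : ℝ} (hj : j = 0 ∨ j = 1) (t : ℝ) :
    Int.fract (uu h (cj h j t)) = (Int.fract (uu h t) + j) / 2 := by
  unfold cj
  rw [uu_aff hh]
  exact fract_add_of_mem _ (half_mem hj _).1 (half_mem hj _).2

theorem stt_cj (hh : 0 < h) {j : ℝ} (hj : j = 0 ∨ j = 1) (t : ℝ) : stt h (cj h j t) = t := by
  unfold stt
  rw [floor_uu_cj hh hj, fract_uu_cj hh hj]
  have : Int.fract (2 * ((Int.fract (uu h t) + j) / 2)) = Int.fract (uu h t) := by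
    have e : 2 * ((Int.fract (uu h t) + j) / 2) = Int.fract (uu h t) + j := by ring
    rw [e]
    rcases hj with rfl | rfl
    · simp
    · simp
  rw [this, Int.floor_add_fract, aff_uu hh]

theorem floor_uu_stt (hh : 0 < h) (t : ℝ) : ⌊uu h (stt h t)⌋ = ⌊uu h t⌋ := by
  unfold stt
  rw [uu_aff hh]
  exact floor_add_of_mem _ (Int.fract_nonneg _) (Int.fract_lt_one _)

theorem fract_uu_stt (hh : 0 < h) (t : ℝ) :
    Int.fract (uu h (stt h t)) = Int.fract (2 * Int.fract (uu h t)) := by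
  unfold stt
  rw [uu_aff hh]
  exact fract_add_of_mem _ (Int.fract_nonneg _) (Int.fract_lt_one _)

theorem cj0_stt (hh : 0 < h) {y : ℝ} (hy : Int.fract (uu h y) < 1 / 2) : cj h 0 (stt h y) = y := by
  unfold cj
  rw [floor_uu_stt hh, fract_uu_stt hh]
  have h0 := Int.fract_nonneg (uu h y)
  have : Int.fract (2 * Int.fract (uu h y)) = 2 * Int.fract (uu h y) := by
    rw [Int.fract_eq_self]; constructor <;> linarith
  rw [this]
  have e : (2 * Int.fract (uu h y) + 0) / 2 = Int.fract (uu h y) := by ring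
  rw [e, Int.floor_add_fract, aff_uu hh]

theorem cj1_stt (hh : 0 < h) {y : ℝ} (hy : 1 / 2 ≤ Int.fract (uu h y)) : cj h 1 (stt h y) = y := by
  unfold cj
  rw [floor_uu_stt hh, fract_uu_stt hh]
  have h1 := Int.fract_lt_one (uu h y)
  have : Int.fract (2 * Int.fract (uu h y)) = 2 * Int.fract (uu h y) - 1 := by
    have e : 2 * Int.fract (uu h y) = ((1 : ℤ) : ℝ) + (2 * Int.fract (uu h y) - 1) := by
      push_cast; ring
    conv_lhs => rw [e]
    exact fract_add_of_mem 1 (by linarith) (by linarith)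
  rw [this]
  have e : (2 * Int.fract (uu h y) - 1 + 1) / 2 = Int.fract (uu h y) := by ring
  rw [e, Int.floor_add_fract, aff_uu hh]

theorem range_cj0 (hh : 0 < h) : range (cj h 0) = {y | Int.fract (uu h y) < 1 / 2} := by
  ext y
  constructor
  · rintro ⟨t, rfl⟩
    simp only [mem_ofPred_eq]
    rw [fract_uu_cj hh (Or.inl rfl)]
    have := Int.fract_lt_one (uu h t)
    linarith
  · intro hy
    exact ⟨stt h y, cj0_stt hh hy⟩

theorem range_cj1 (hh : 0 < h) : range (cj h 1) = {y | Int.fract (uu h y) < 1 / 2}ᶜ := by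
  ext y
  constructor
  · rintro ⟨t, rfl⟩
    simp only [mem_compl_iff, mem_ofPred_eq, not_lt]
    rw [fract_uu_cj hh (Or.inr rfl)]
    have := Int.fract_nonneg (uu h t)
    linarith
  · intro hy
    simp only [mem_compl_iff, mem_ofPred_eq, not_lt] at hy
    exact ⟨stt h y, cj1_stt hh hy⟩

theorem measurable_uu : Measurable (uu h) := by unfold uu; fun_prop

theorem measurable_cj (j : ℝ) : Measurable (cj h j) := by
  have := measurable_uu (h := h)
  unfold cj
  fun_prop

theorem measurable_stt : Measurable (stt h) := by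
  have := measurable_uu (h := h)
  unfold stt
  fun_prop

theorem t_eq (hh : 0 < h) (t : ℝ) :
    t = h * ((⌊uu h t⌋ : ℝ) + Int.fract (uu h t)) - Real.pi := by
  rw [Int.floor_add_fract, aff_uu hh]

theorem abs_cj_sub (hh : 0 < h) {j : ℝ} (hj : j = 0 ∨ j = 1) (t : ℝ) : |cj h j t - t| ≤ h := by
  have ht := t_eq hh t
  have e : cj h j t - t = h * ((Int.fract (uu h t) + j) / 2 - Int.fract (uu h t)) := by
    unfold cj
    linear_combination (-1 : ℝ) * ht
  rw [e, abs_mul, abs_of_pos hh]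
  have h0 := Int.fract_nonneg (uu h t)
  have h1 := Int.fract_lt_one (uu h t)
  have : |(Int.fract (uu h t) + j) / 2 - Int.fract (uu h t)| ≤ 1 := by
    rw [abs_le]
    rcases hj with rfl | rfl <;> constructor <;> linarith
  nlinarith

theorem abs_stt_sub (hh : 0 < h) (t : ℝ) : |stt h t - t| ≤ h := by
  have ht := t_eq hh t
  have e : stt h t - t = h * (Int.fract (2 * Int.fract (uu h t)) - Int.fract (uu h t)) := by
    unfold stt
    linear_combination (-1 : ℝ) * ht
  rw [e, abs_mul, abs_of_pos hh]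
  have h0 := Int.fract_nonneg (uu h t)
  have h1 := Int.fract_lt_one (uu h t)
  have h2 := Int.fract_nonneg (2 * Int.fract (uu h t))
  have h3 := Int.fract_lt_one (2 * Int.fract (uu h t))
  have : |Int.fract (2 * Int.fract (uu h t)) - Int.fract (uu h t)| ≤ 1 := by
    rw [abs_le]
    constructor <;> linarith
  nlinarith

/-- the grid -/
def ZZ (h : ℝ) : Set ℝ := {t | Int.fract (uu h t) = 0}

theorem countable_ZZ (hh : 0 < h) : (ZZ h).Countable := by
  have : ZZ h ⊆ range (fun k : ℤ => h * (k : ℝ) - Real.pi) := by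
    intro t ht
    refine ⟨⌊uu h t⌋, ?_⟩
    have h1 := t_eq hh t
    have h2 : Int.fract (uu h t) = 0 := ht
    rw [h2, add_zero] at h1
    exact h1.symm
  exact (countable_range _).mono this

theorem hasDerivAt_cj (hh : 0 < h) (j : ℝ) {t : ℝ} (ht : t ∉ ZZ h) : HasDerivAt (cj h j) (1 / 2) t := by
  have hf : Int.fract (uu h t) ≠ 0 := ht
  have hpos : 0 < Int.fract (uu h t) := lt_of_le_of_ne (Int.fract_nonneg _) (Ne.symm hf)
  have hcont : ContinuousAt (uu h) t := by unfold uu; fun_prop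
  have hmem : Ioo ((⌊uu h t⌋ : ℝ)) ((⌊uu h t⌋ : ℝ) + 1) ∈ nhds (uu h t) := by
    apply Ioo_mem_nhds
    · have := Int.self_sub_floor (uu h t)
      linarith
    · exact Int.lt_floor_add_one _
  have hev : cj h j =ᶠ[nhds t] fun t' =>
      h * ((⌊uu h t⌋ : ℝ) + ((t' + Real.pi) / h - (⌊uu h t⌋ : ℝ) + j) / 2) - Real.pi := by
    filter_upwards [hcont hmem] with t' ht'
    have hfl : ⌊uu h t'⌋ = ⌊uu h t⌋ := by
      rw [Int.floor_eq_iff]
      exact ⟨ht'.1.le, ht'.2⟩
    unfold cj
    rw [Int.fract, hfl]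
    rfl
  refine HasDerivAt.congr_of_eventuallyEq ?_ hev
  have h1 : HasDerivAt (fun t' : ℝ => (t' + Real.pi) / h) (1 / h) t :=
    ((hasDerivAt_id t).add_const Real.pi).div_const h
  have h2 := (((((h1.sub_const (⌊uu h t⌋ : ℝ)).add_const j).div_const 2).const_add
    (⌊uu h t⌋ : ℝ)).const_mul h).sub_const Real.pi
  convert h2 using 1
  field_simp

/-- global push-forward of Lebesgue measure under a compression map -/
theorem map_cj (hh : 0 < h) {j : ℝ} (hj : j = 0 ∨ j = 1) :
    (volume : Measure ℝ).map (cj h j) = (2 : ℝ≥0∞) • volume.restrict (range (cj h j)) := by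
  have hZ : volume (ZZ h) = 0 := (countable_ZZ hh).measure_zero _
  have hZm : MeasurableSet (ZZ h) := (countable_ZZ hh).measurableSet
  have hinj : Function.Injective (cj h j) := Function.LeftInverse.injective (stt_cj hh hj)
  have himg : (cj h j '' (ZZ h)ᶜ : Set ℝ) =ᵐ[volume] range (cj h j) := by
    have h1 : range (cj h j) = cj h j '' (ZZ h)ᶜ ∪ cj h j '' (ZZ h) := by
      rw [← image_union, compl_union_self, image_univ]
    rw [h1]
    have h2 : volume (cj h j '' (ZZ h)) = 0 := ((countable_ZZ hh).image _).measure_zero _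
    exact (union_ae_eq_left_of_ae_eq_empty (ae_eq_empty.2 h2)).symm
  refine Measure.ext_of_lintegral _ (fun φ hφ => ?_)
  rw [lintegral_map hφ (measurable_cj j), lintegral_smul_measure, ← Measure.restrict_congr_set himg,
    lintegral_image_eq_lintegral_abs_deriv_mul hZm.compl
      (fun x hx => (hasDerivAt_cj hh j hx).hasDerivWithinAt) hinj.injOn]
  have h3 : (volume.restrict (ZZ h)ᶜ : Measure ℝ) = volume := by
    rw [Measure.restrict_eq_self_of_ae_mem]
    exact measure_eq_zero_iff_ae_notMem.1 hZ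
  rw [h3, lintegral_const_mul _ (show Measurable (fun x => φ (cj h j x)) from
    hφ.comp (measurable_cj j)), smul_eq_mul, ← mul_assoc]
  have h4 : (2 : ℝ≥0∞) * ENNReal.ofReal |(1 / 2 : ℝ)| = 1 := by
    rw [abs_of_pos (by norm_num), one_div, ENNReal.ofReal_inv_of_pos (by norm_num)]
    simp only [ENNReal.ofReal_ofNat]
    exact ENNReal.mul_inv_cancel (by norm_num) (by norm_num)
  rw [h4, one_mul]

theorem mem_Ico_iff (hh : 0 < h) {N : ℕ} (hN : h * N = 2 * Real.pi) (t : ℝ) :
    t ∈ Ico (-Real.pi) Real.pi ↔ 0 ≤ ⌊uu h t⌋ ∧ ⌊uu h t⌋ < (N : ℤ) := by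
  rw [Int.floor_nonneg, Int.floor_lt]
  unfold uu
  rw [le_div_iff₀ hh, div_lt_iff₀ hh, mem_Ico]
  push_cast
  constructor
  · rintro ⟨h1, h2⟩; constructor <;> nlinarith
  · rintro ⟨h1, h2⟩; constructor <;> nlinarith

theorem restrict_map_cj (hh : 0 < h) {N : ℕ} (hN : h * N = 2 * Real.pi) {j : ℝ} (hj : j = 0 ∨ j = 1)
    {R : Set ℝ} (hR : range (cj h j) = R) (hRm : MeasurableSet R) :
    (volume.restrict II).map (cj h j) = (2 : ℝ≥0∞) • volume.restrict (II ∩ R) := by
  have hII : (II : Set ℝ) =ᵐ[volume] Ico (-Real.pi) Real.pi := Ico_ae_eq_Ioc.symm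
  have hpre : cj h j ⁻¹' (Ico (-Real.pi) Real.pi) = Ico (-Real.pi) Real.pi := by
    ext t
    rw [mem_preimage, mem_Ico_iff hh hN, mem_Ico_iff hh hN, floor_uu_cj hh hj]
  have h2 : (II ∩ R : Set ℝ) =ᵐ[volume] (Ico (-Real.pi) Real.pi ∩ R : Set ℝ) :=
    hII.inter (Filter.EventuallyEq.refl _ _)
  rw [Measure.restrict_congr_set hII, Measure.restrict_congr_set h2]
  conv_lhs => rw [← hpre]
  rw [← Measure.restrict_map (measurable_cj j) measurableSet_Ico, map_cj hh hj, hR,
    Measure.restrict_smul, Measure.restrict_restrict measurableSet_Ico]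

theorem restrict_map_stt (hh : 0 < h) {j : ℝ} (hj : j = 0 ∨ j = 1) {S : Set ℝ}
    (hS : (volume.restrict II).map (cj h j) = (2 : ℝ≥0∞) • volume.restrict S) :
    (volume.restrict S).map (stt h) = (2 : ℝ≥0∞)⁻¹ • volume.restrict II := by
  have h1 : (volume.restrict S : Measure ℝ) = (2 : ℝ≥0∞)⁻¹ • (volume.restrict II).map (cj h j) := by
    rw [hS, smul_smul, ENNReal.inv_mul_cancel (by norm_num) (by norm_num), one_smul]
  rw [h1, Measure.map_smul, Measure.map_map measurable_stt (measurable_cj j)]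
  have : stt h ∘ cj h j = id := funext (stt_cj hh hj)
  rw [this, Measure.map_id]

end Cells

open Cells in
/-- cells of length `2π/N ≤ δ`; `I0` = union of the first halves; `c0, c1` compress a cell to its first / second
half, `st` stretches each half cell to the cell. -/
theorem exists_cell_maps (δ : ℝ) (hδ : 0 < δ) : ∃ (I0 : Set ℝ) (c0 c1 st : ℝ → ℝ),
    MeasurableSet I0 ∧ Measurable c0 ∧ Measurable c1 ∧ Measurable st ∧
    (∀ t, |c0 t - t| ≤ δ) ∧ (∀ t, |c1 t - t| ≤ δ) ∧ (∀ t, |st t - t| ≤ δ) ∧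
    (volume.restrict II).map c0 = (2 : ℝ≥0∞) • volume.restrict (II ∩ I0) ∧
    (volume.restrict II).map c1 = (2 : ℝ≥0∞) • volume.restrict (II \ I0) ∧
    (volume.restrict (II ∩ I0)).map st = (2 : ℝ≥0∞)⁻¹ • volume.restrict II ∧
    (volume.restrict (II \ I0)).map st = (2 : ℝ≥0∞)⁻¹ • volume.restrict II := by
  obtain ⟨N, hN⟩ := exists_nat_gt (2 * Real.pi / δ)
  have hpi := Real.pi_pos
  have hN0 : (0 : ℝ) < N := lt_trans (by positivity) hN
  set h : ℝ := 2 * Real.pi / N with hdef
  have hh : 0 < h := by positivity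
  have hhN : h * N = 2 * Real.pi := by rw [hdef]; field_simp
  have hle : h ≤ δ := by
    rw [hdef, div_le_iff₀ hN0]
    rw [div_lt_iff₀ hδ] at hN
    linarith
  have hI0 : MeasurableSet {y | Int.fract (uu h y) < 1 / 2} :=
    measurableSet_lt (measurable_fract.comp measurable_uu) measurable_const
  have e0 := restrict_map_cj hh hhN (Or.inl rfl) (range_cj0 hh) hI0
  have e1 := restrict_map_cj hh hhN (Or.inr rfl) (range_cj1 hh) hI0.compl
  rw [← sdiff_eq] at e1
  refine ⟨{y | Int.fract (uu h y) < 1 / 2}, cj h 0, cj h 1, stt h, hI0, measurable_cj 0, measurable_cj 1,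
    measurable_stt, fun t => (abs_cj_sub hh (Or.inl rfl) t).trans hle,
    fun t => (abs_cj_sub hh (Or.inr rfl) t).trans hle, fun t => (abs_stt_sub hh t).trans hle,
    e0, e1, restrict_map_stt hh (Or.inl rfl) e0, restrict_map_stt hh (Or.inr rfl) e1⟩

end Crest.Agent.R130
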