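import Crest.Agent.S0175_Param1

/-! Row 130 (S0175), module K: the key inequality (tangent lines + parallelogram identity). -/

set_option autoImplicit false

namespace Crest.Agent.R130

open MeasureTheory Set
open scoped ENNReal

variable {n : ℕ} {s : ℝ}

theorem tangent_core {p r : ℝ} (hp : 0 < p) (hr : 0 < r) : 1 - p * (r - 1) ≤ r ^ (-p) := by
  rw [Real.rpow_def_of_pos hr]
  have h1 := Real.add_one_le_exp (Real.log r * -p)
  have h2 := Real.log_le_sub_one_of_pos hr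
  nlinarith

theorem tangent_core_eq {p r : ℝ} (hp : 0 < p) (hr : 0 < r) (h : 1 - p * (r - 1) = r ^ (-p)) : r = 1 := by
  by_contra hne
  rw [Real.rpow_def_of_pos hr] at h
  have hlog : Real.log r ≠ 0 := Real.log_ne_zero_of_pos_of_ne_one hr hne
  have h1 := Real.add_one_lt_exp (x := Real.log r * -p) (mul_ne_zero hlog (by linarith))
  have h2 := Real.log_le_sub_one_of_pos hr
  nlinarith

theorem tangent_rescale {u u₀ : ℝ} (hu : 0 < u) (hu₀ : 0 < u₀) :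
    u ^ (-s / 2) = (u / u₀) ^ (-(s / 2)) * u₀ ^ (-s / 2) ∧
    u₀ ^ (-s / 2) - s / 2 * u₀ ^ (-s / 2 - 1) * (u - u₀) = (1 - s / 2 * (u / u₀ - 1)) * u₀ ^ (-s / 2) := by
  have hr : 0 < u / u₀ := div_pos hu hu₀
  constructor
  · rw [show -s / 2 = -(s / 2) by ring, ← Real.mul_rpow hr.le hu₀.le, div_mul_cancel₀ _ hu₀.ne']
  · rw [Real.rpow_sub_one hu₀.ne']
    field_simp

/-- identity in the `ℂ` factor -/
theorem ineq_idz {E : Type*} [NormedAddCommGroup E] [InnerProductSpace ℝ E] (x x' y : E) {w : ℝ} (hw : w < 1) :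
    ‖x‖ ^ 2 + ‖x'‖ ^ 2 - (1 - w) / 2 * ‖x - x'‖ ^ 2 - w * ‖x - y‖ ^ 2 - w * ‖x' - y‖ ^ 2
        + 2 * kap w * ‖y‖ ^ 2
      = 2 * (1 - w) * ‖(1 / 2 : ℝ) • (x + x') + kap w • y‖ ^ 2 := by
  have h1 : (1 - w) ≠ 0 := by linarith
  rw [norm_sub_sq_real, norm_sub_sq_real, norm_sub_sq_real, norm_add_sq_real, norm_smul, norm_smul,
    inner_smul_left, inner_smul_right, mul_pow, mul_pow, norm_add_sq_real, inner_add_left]
  simp only [Real.norm_eq_abs, sq_abs, conj_trivial]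
  unfold kap
  field_simp
  ring

/-- identity in the `V` factor -/
theorem ineq_idv {E : Type*} [NormedAddCommGroup E] [InnerProductSpace ℝ E] (x x' y : E) {w : ℝ} (hw : w < 1) :
    2 * ‖x‖ ^ 2 + 2 * ‖x'‖ ^ 2 - (1 - w) / 2 * ‖x - x'‖ ^ 2 - w * ‖x - y‖ ^ 2 - w * ‖x' - y‖ ^ 2
        + 4 * w / (2 - w) * ‖y‖ ^ 2
      = ‖x - x'‖ ^ 2 / 2 + 2 * (2 - w) * ‖(1 / 2 : ℝ) • (x + x') + kapN w • y‖ ^ 2 := by
  have h1 : (2 - w) ≠ 0 := by linarith
  rw [norm_sub_sq_real, norm_sub_sq_real, norm_sub_sq_real, norm_add_sq_real, norm_smul, norm_smul,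
    inner_smul_left, inner_smul_right, mul_pow, mul_pow, norm_add_sq_real, inner_add_left]
  simp only [Real.norm_eq_abs, sq_abs, conj_trivial]
  unfold kapN
  field_simp
  ring

theorem key_decomp {w : ℝ} (h1 : w < 1) (y x x' : M n) :
    (dist2 x x' ^ (-s / 2) + dist2 x y ^ (-s / 2) + dist2 x' y ^ (-s / 2))
      - (UB s w (‖y.1‖ ^ 2) (‖y.2‖ ^ 2) - wN x - wN x')
    = (dist2 x x' ^ (-s / 2) - (S1 s w ^ (-s / 2) - (1 - w) / 2 * (dist2 x x' - S1 s w)))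
      + (dist2 x y ^ (-s / 2) - (S2 s w ^ (-s / 2) - w * (dist2 x y - S2 s w)))
      + (dist2 x' y ^ (-s / 2) - (S2 s w ^ (-s / 2) - w * (dist2 x' y - S2 s w)))
      + 2 * (1 - w) * ‖(1 / 2 : ℝ) • (x.1 + x'.1) + kap w • y.1‖ ^ 2
      + ‖x.2 - x'.2‖ ^ 2 / 2
      + 2 * (2 - w) * ‖(1 / 2 : ℝ) • (x.2 + x'.2) + kapN w • y.2‖ ^ 2 := by
  have a := ineq_idz x.1 x'.1 y.1 h1
  have b := ineq_idv x.2 x'.2 y.2 h1
  unfold UB wN dist2
  linear_combination a + b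

/-- a complex number orthogonal to `z` of given modulus -/
theorem perp_lemma (z d : ℂ) (hz : z ≠ 0) (S : ℝ) (hS : 0 ≤ S)
    (horth : z.re * d.re + z.im * d.im = 0) (hn : ‖d‖ ^ 2 = S) :
    d = ((Real.sqrt S / ‖z‖ : ℝ) : ℂ) * Complex.I * z ∨ d = -(((Real.sqrt S / ‖z‖ : ℝ) : ℂ) * Complex.I * z) := by
  set c : ℂ := d / z with hc
  have hd : d = c * z := (div_mul_cancel₀ d hz).symm
  have hzn : 0 < ‖z‖ := norm_pos_iff.mpr hz
  have hre : c.re = 0 := by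
    rw [hc, Complex.div_re, ← add_div]
    have : d.re * z.re + d.im * z.im = 0 := by linarith
    rw [this, zero_div]
  have hcI : c = (c.im : ℂ) * Complex.I := by
    apply Complex.ext <;> simp [hre]
  have hnc : ‖c‖ = |c.im| := by
    rw [hcI, norm_mul, Complex.norm_real, Complex.norm_I, mul_one, Real.norm_eq_abs]
    simp
  have hnd : ‖d‖ = Real.sqrt S := by
    rw [← hn, Real.sqrt_sq (norm_nonneg _)]
  have habs : |c.im| = Real.sqrt S / ‖z‖ := by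
    rw [eq_div_iff hzn.ne', ← hnc, ← norm_mul, ← hd, hnd]
  rcases (abs_eq (by positivity)).mp habs with h | h
  · left; rw [← h, ← hcI]; exact hd
  · right
    have : -(((Real.sqrt S / ‖z‖ : ℝ) : ℂ) * Complex.I * z) = ((-(Real.sqrt S / ‖z‖) : ℝ) : ℂ) * Complex.I * z := by
      push_cast; ring
    rw [this, ← h, ← hcI]; exact hd

theorem cnorm_lemma (α β : ℝ) (z : ℂ) :
    ‖(α : ℂ) * z + (β : ℂ) * Complex.I * z‖ ^ 2 = (α ^ 2 + β ^ 2) * ‖z‖ ^ 2 := by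
  have : (α : ℂ) * z + (β : ℂ) * Complex.I * z = ((α : ℂ) + (β : ℂ) * Complex.I) * z := by ring
  have h2 : Complex.normSq ((α : ℂ) + (β : ℂ) * Complex.I) = α ^ 2 + β ^ 2 := by
    rw [Complex.normSq_apply]; simp; ring
  rw [this, norm_mul, mul_pow, Complex.sq_norm ((α : ℂ) + (β : ℂ) * Complex.I), h2]

section Ineq
variable (hs : 0 < s)
include hs

/-- tangent line inequality -/
theorem tangent_ineq {u u₀ : ℝ} (hu : 0 < u) (hu₀ : 0 < u₀) :
    u₀ ^ (-s / 2) - s / 2 * u₀ ^ (-s / 2 - 1) * (u - u₀) ≤ u ^ (-s / 2) := by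
  obtain ⟨e1, e2⟩ := tangent_rescale (s := s) hu hu₀
  rw [e1, e2]
  exact mul_le_mul_of_nonneg_right (tangent_core (by positivity) (div_pos hu hu₀))
    (Real.rpow_pos_of_pos hu₀ _).le

theorem tangent_eq {u u₀ : ℝ} (hu : 0 < u) (hu₀ : 0 < u₀)
    (h : u₀ ^ (-s / 2) - s / 2 * u₀ ^ (-s / 2 - 1) * (u - u₀) = u ^ (-s / 2)) : u = u₀ := by
  obtain ⟨e1, e2⟩ := tangent_rescale (s := s) hu hu₀
  rw [e1, e2] at h
  have h' := mul_right_cancel₀ (Real.rpow_pos_of_pos hu₀ _).ne' h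
  have := tangent_core_eq (by positivity) (div_pos hu hu₀) h'
  rwa [div_eq_one_iff_eq hu₀.ne'] at this

theorem gap1 {w : ℝ} (h1 : w < 1) {u : ℝ} (hu : 0 < u) :
    0 ≤ u ^ (-s / 2) - (S1 s w ^ (-s / 2) - (1 - w) / 2 * (u - S1 s w)) := by
  have := tangent_ineq hs hu (S1_pos hs h1)
  rw [S1_weight hs h1] at this
  linarith

theorem gap2 {w : ℝ} (h0 : 0 < w) {u : ℝ} (hu : 0 < u) :
    0 ≤ u ^ (-s / 2) - (S2 s w ^ (-s / 2) - w * (u - S2 s w)) := by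
  have := tangent_ineq hs hu (S2_pos hs h0)
  rw [S2_weight hs h0] at this
  linarith

theorem gap1_eq {w : ℝ} (h1 : w < 1) {u : ℝ} (hu : 0 < u)
    (h : u ^ (-s / 2) - (S1 s w ^ (-s / 2) - (1 - w) / 2 * (u - S1 s w)) = 0) : u = S1 s w := by
  apply tangent_eq hs hu (S1_pos hs h1)
  rw [S1_weight hs h1]
  linarith

theorem gap2_eq {w : ℝ} (h0 : 0 < w) {u : ℝ} (hu : 0 < u)
    (h : u ^ (-s / 2) - (S2 s w ^ (-s / 2) - w * (u - S2 s w)) = 0) : u = S2 s w := by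
  apply tangent_eq hs hu (S2_pos hs h0)
  rw [S2_weight hs h0]
  linarith

/-- valid for EVERY `w ∈ (0,1)` -/
theorem key_ineq {w : ℝ} (h0 : 0 < w) (h1 : w < 1) (y x x' : M n)
    (d1 : 0 < dist2 x x') (d2 : 0 < dist2 x y) (d3 : 0 < dist2 x' y) :
    UB s w (‖y.1‖ ^ 2) (‖y.2‖ ^ 2) - wN x - wN x' ≤
      dist2 x x' ^ (-s / 2) + dist2 x y ^ (-s / 2) + dist2 x' y ^ (-s / 2) := by
  have hd := key_decomp (s := s) h1 y x x'
  have g1 := gap1 hs h1 d1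
  have g2 := gap2 hs h0 d2
  have g3 := gap2 hs h0 d3
  have q1 : 0 ≤ 2 * (1 - w) * ‖(1 / 2 : ℝ) • (x.1 + x'.1) + kap w • y.1‖ ^ 2 :=
    mul_nonneg (by linarith) (sq_nonneg _)
  have q2 : 0 ≤ ‖x.2 - x'.2‖ ^ 2 / 2 := by positivity
  have q3 : 0 ≤ 2 * (2 - w) * ‖(1 / 2 : ℝ) • (x.2 + x'.2) + kapN w • y.2‖ ^ 2 :=
    mul_nonneg (by linarith) (sq_nonneg _)
  linarith

theorem key_eq {w : ℝ} (h0 : 0 < w) (h1 : w < 1) (y x x' : M n) (hz : y.1 ≠ 0)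
    (d1 : 0 < dist2 x x') (d2 : 0 < dist2 x y) (d3 : 0 < dist2 x' y)
    (h : UB s w (‖y.1‖ ^ 2) (‖y.2‖ ^ 2) - wN x - wN x' =
      dist2 x x' ^ (-s / 2) + dist2 x y ^ (-s / 2) + dist2 x' y ^ (-s / 2)) :
    (x = cfg s w 1 y ∧ x' = cfg s w (-1) y) ∨ (x = cfg s w (-1) y ∧ x' = cfg s w 1 y) := by
  have hd := key_decomp (s := s) h1 y x x'
  have g1 := gap1 hs h1 d1
  have g2 := gap2 hs h0 d2
  have g3 := gap2 hs h0 d3
  have q1 : 0 ≤ 2 * (1 - w) * ‖(1 / 2 : ℝ) • (x.1 + x'.1) + kap w • y.1‖ ^ 2 :=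
    mul_nonneg (by linarith) (sq_nonneg _)
  have q2 : 0 ≤ ‖x.2 - x'.2‖ ^ 2 / 2 := by positivity
  have q3 : 0 ≤ 2 * (2 - w) * ‖(1 / 2 : ℝ) • (x.2 + x'.2) + kapN w • y.2‖ ^ 2 :=
    mul_nonneg (by linarith) (sq_nonneg _)
  have e1 : dist2 x x' = S1 s w := gap1_eq hs h1 d1 (by linarith)
  have e2 : dist2 x y = S2 s w := gap2_eq hs h0 d2 (by linarith)
  have e3 : dist2 x' y = S2 s w := gap2_eq hs h0 d3 (by linarith)
  have z1 : (1 / 2 : ℝ) • (x.1 + x'.1) + kap w • y.1 = 0 := by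
    have : 2 * (1 - w) * ‖(1 / 2 : ℝ) • (x.1 + x'.1) + kap w • y.1‖ ^ 2 = 0 := by linarith
    have h2 : ‖(1 / 2 : ℝ) • (x.1 + x'.1) + kap w • y.1‖ ^ 2 = 0 := by
      rcases mul_eq_zero.mp this with h | h
      · linarith
      · exact h
    exact norm_eq_zero.mp (pow_eq_zero_iff two_ne_zero |>.mp h2)
  have z2 : x.2 = x'.2 := by
    have : ‖x.2 - x'.2‖ ^ 2 = 0 := by linarith
    exact sub_eq_zero.mp (norm_eq_zero.mp (pow_eq_zero_iff two_ne_zero |>.mp this))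
  have z3 : (1 / 2 : ℝ) • (x.2 + x'.2) + kapN w • y.2 = 0 := by
    have : 2 * (2 - w) * ‖(1 / 2 : ℝ) • (x.2 + x'.2) + kapN w • y.2‖ ^ 2 = 0 := by linarith
    have h2 : ‖(1 / 2 : ℝ) • (x.2 + x'.2) + kapN w • y.2‖ ^ 2 = 0 := by
      rcases mul_eq_zero.mp this with h | h
      · linarith
      · exact h
    exact norm_eq_zero.mp (pow_eq_zero_iff two_ne_zero |>.mp h2)
  -- second components
  have s2 : x.2 = (-(kapN w)) • y.2 := by
    rw [← z2, ← two_smul ℝ x.2, smul_smul] at z3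
    norm_num at z3
    rw [neg_smul]; exact eq_neg_of_add_eq_zero_left z3
  have s2' : x'.2 = (-(kapN w)) • y.2 := z2 ▸ s2
  -- first components
  have hS1 := S1_pos hs h1
  have hn : ‖x.1 - x'.1‖ ^ 2 = S1 s w := by
    unfold dist2 at e1
    rw [z2, sub_self, norm_zero] at e1
    linarith
  have z1c : (1 / 2 : ℂ) * (x.1 + x'.1) + (kap w : ℂ) * y.1 = 0 := by
    have := z1
    simp only [Complex.real_smul] at this
    push_cast at this
    exact this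
  have horth : y.1.re * (x.1 - x'.1).re + y.1.im * (x.1 - x'.1).im = 0 := by
    have e23 : ‖x.1 - y.1‖ ^ 2 = ‖x'.1 - y.1‖ ^ 2 := by
      unfold dist2 at e2 e3
      rw [z2] at e2
      linarith
    rw [Complex.sq_norm, Complex.sq_norm, Complex.normSq_apply, Complex.normSq_apply] at e23
    simp only [Complex.sub_re, Complex.sub_im] at e23 ⊢
    have r1 := congrArg Complex.re z1c
    have r2 := congrArg Complex.im z1c
    simp at r1 r2
    have hk : 0 < 1 + kap w := by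
      unfold kap
      have : 0 < 1 - w := by linarith
      positivity
    have key : (1 + kap w) * (y.1.re * (x.1.re - x'.1.re) + y.1.im * (x.1.im - x'.1.im)) = 0 := by
      linear_combination (-1 / 2) * e23 + (x.1.re - x'.1.re) * r1 + (x.1.im - x'.1.im) * r2
    rcases mul_eq_zero.mp key with h | h
    · linarith
    · exact h
  rcases perp_lemma y.1 (x.1 - x'.1) hz (S1 s w) hS1.le horth hn with hdl | hdl
  · left
    constructor
    · apply Prod.ext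
      · unfold cfg
        simp only
        push_cast at hdl ⊢
        linear_combination z1c + (1 / 2) * hdl
      · exact s2
    · apply Prod.ext
      · unfold cfg
        simp only
        push_cast at hdl ⊢
        linear_combination z1c - (1 / 2) * hdl
      · exact s2'
  · right
    constructor
    · apply Prod.ext
      · unfold cfg
        simp only
        push_cast at hdl ⊢
        linear_combination z1c + (1 / 2) * hdl
      · exact s2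
    · apply Prod.ext
      · unfold cfg
        simp only
        push_cast at hdl ⊢
        linear_combination z1c - (1 / 2) * hdl
      · exact s2'

omit hs in
theorem cfg_fst (w σ : ℝ) (y : M n) :
    (cfg s w σ y).1 = ((-(kap w) : ℝ) : ℂ) * y.1
      + ((σ * (Real.sqrt (S1 s w) / 2) / ‖y.1‖ : ℝ) : ℂ) * Complex.I * y.1 := rfl

omit hs in
theorem cfg_snd (w σ : ℝ) (y : M n) : (cfg s w σ y).2 = (-(kapN w)) • y.2 := rfl

theorem cfg_tsq {w σ : ℝ} (hσ : σ = 1 ∨ σ = -1) (h1 : w < 1) (y : M n) (hz : y.1 ≠ 0) :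
    (σ * (Real.sqrt (S1 s w) / 2) / ‖y.1‖) ^ 2 * ‖y.1‖ ^ 2 = S1 s w / 4 := by
  have hzn : 0 < ‖y.1‖ := norm_pos_iff.mpr hz
  have hS := Real.sq_sqrt (S1_pos hs h1).le
  have hσ2 : σ ^ 2 = 1 := by rcases hσ with h | h <;> rw [h] <;> norm_num
  field_simp
  rw [hσ2, hS]; ring

theorem cfg_normSq {w σ : ℝ} (hσ : σ = 1 ∨ σ = -1) (h1 : w < 1) (y : M n) (hz : y.1 ≠ 0) :
    ‖(cfg s w σ y).1‖ ^ 2 = S1 s w / 4 + kap w ^ 2 * ‖y.1‖ ^ 2 := by
  rw [cfg_fst, cnorm_lemma, add_mul, cfg_tsq hs hσ h1 y hz]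
  ring

theorem cfg_dist_base {w : ℝ} (h0 : 0 < w) (h1 : w < 1) (y : M n) (hz : y.1 ≠ 0) :
    dist2 (cfg s w 1 y) (cfg s w (-1) y) = S1 s w := by
  unfold dist2
  rw [cfg_snd, cfg_snd, sub_self, norm_zero, cfg_fst, cfg_fst]
  have e : ((-(kap w) : ℝ) : ℂ) * y.1 + ((1 * (Real.sqrt (S1 s w) / 2) / ‖y.1‖ : ℝ) : ℂ) * Complex.I * y.1
      - (((-(kap w) : ℝ) : ℂ) * y.1 + (((-1) * (Real.sqrt (S1 s w) / 2) / ‖y.1‖ : ℝ) : ℂ) * Complex.I * y.1)
      = ((0 : ℝ) : ℂ) * y.1 + ((2 * (1 * (Real.sqrt (S1 s w) / 2) / ‖y.1‖) : ℝ) : ℂ) * Complex.I * y.1 := by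
    push_cast; ring
  rw [e, cnorm_lemma]
  have := cfg_tsq hs (Or.inl rfl) h1 y hz
  nlinarith

theorem cfg_dist_side {w σ : ℝ} (hσ : σ = 1 ∨ σ = -1) (h0 : 0 < w) (h1 : w < 1) (y : M n) (hz : y.1 ≠ 0)
    (hy : PP s w (‖y.2‖ ^ 2) = ‖y.1‖ ^ 2) : dist2 (cfg s w σ y) y = S2 s w := by
  unfold dist2
  rw [cfg_snd, cfg_fst]
  have e : ((-(kap w) : ℝ) : ℂ) * y.1 + ((σ * (Real.sqrt (S1 s w) / 2) / ‖y.1‖ : ℝ) : ℂ) * Complex.I * y.1 - y.1
      = ((-(1 + kap w) : ℝ) : ℂ) * y.1 + ((σ * (Real.sqrt (S1 s w) / 2) / ‖y.1‖ : ℝ) : ℂ) * Complex.I * y.1 := by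
    push_cast; ring
  have e2 : (-(kapN w)) • y.2 - y.2 = (-(1 + kapN w)) • y.2 := by
    rw [neg_smul, neg_smul, add_smul, one_smul]; abel
  rw [e, e2, cnorm_lemma, norm_smul, mul_pow, add_mul, cfg_tsq hs hσ h1 y hz, Real.norm_eq_abs, sq_abs]
  have := S2_eq hs h0 h1 (‖y.2‖ ^ 2)
  rw [hy] at this
  linarith

/-- equality at the configuration -/
theorem cfg_value {w : ℝ} (h0 : 0 < w) (h1 : w < 1) (y : M n) (hz : y.1 ≠ 0)
    (hy : PP s w (‖y.2‖ ^ 2) = ‖y.1‖ ^ 2) :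
    UB s w (‖y.1‖ ^ 2) (‖y.2‖ ^ 2) - wN (cfg s w 1 y) - wN (cfg s w (-1) y) =
      S1 s w ^ (-s / 2) + 2 * S2 s w ^ (-s / 2) := by
  unfold wN
  rw [cfg_normSq hs (Or.inl rfl) h1 y hz, cfg_normSq hs (Or.inr rfl) h1 y hz, cfg_snd, cfg_snd, norm_smul,
    mul_pow, Real.norm_eq_abs, sq_abs]
  have h2 := S2_eq hs h0 h1 (‖y.2‖ ^ 2)
  rw [hy] at h2
  unfold UB
  have a1 : (1 - w) ≠ 0 := by linarith
  have a2 : (2 - w) ≠ 0 := by linarith
  rw [← h2]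
  unfold kap kapN
  field_simp
  ring

end Ineq

end Crest.Agent.R130
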