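import Crest.Agent.S0175_Param2
import Crest.Agent.S0175_Ineq

/-! Row 130 (S0175), module F: the maps `phi`, `psi`. -/

set_option autoImplicit false
set_option linter.unusedSectionVars false

namespace Crest.Agent.R130

open MeasureTheory Set
open scoped ENNReal ContDiff
open Crest.AnalysisR.OT

variable {n : ℕ} {s : ℝ}

theorem norm_rot_fst (θ : ℝ) (x : M n) : ‖(rot θ x).1‖ = ‖x.1‖ := by
  unfold rot
  simp [Complex.norm_exp_ofReal_mul_I]

theorem rot_snd (θ : ℝ) (x : M n) : (rot θ x).2 = x.2 := rfl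

theorem rot_fst (θ : ℝ) (x : M n) : (rot θ x).1 = Complex.exp (θ * Complex.I) * x.1 := rfl

theorem measurable_S1 : Measurable (S1 s) := by
  unfold S1
  fun_prop

theorem measurable_S2 : Measurable (S2 s) := by
  unfold S2
  fun_prop

theorem measurable_kap : Measurable kap := by
  unfold kap
  fun_prop

theorem measurable_kapN : Measurable kapN := by
  unfold kapN
  fun_prop

section Maps
variable (hs : 0 < s)
include hs

theorem measurable_omY : Measurable (omY (n := n) s) := by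
  unfold omY
  exact (measurable_omB hs).comp (by fun_prop : Measurable fun y : M n => (‖y.1‖ ^ 2, ‖y.2‖ ^ 2))

theorem measurable_omX : Measurable (omX (n := n) s) := by
  unfold omX
  exact (measurable_omA hs).comp (by fun_prop : Measurable fun x : M n => ‖x.1‖ ^ 2 + 4 * ‖x.2‖ ^ 2)

theorem measurable_phi (σ : ℝ) : Measurable (phi (n := n) s σ) := by
  have h1 := measurable_omY (n := n) hs
  have h2 : Measurable fun y : M n => kap (omY s y) := measurable_kap.comp h1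
  have h3 : Measurable fun y : M n => kapN (omY s y) := measurable_kapN.comp h1
  have h4 : Measurable fun y : M n => S1 s (omY s y) := measurable_S1.comp h1
  unfold phi cfg
  fun_prop


theorem measurable_psi (σ : ℝ) : Measurable (psi (n := n) s σ) := by
  have h1 := measurable_omX (n := n) hs
  have h2 : Measurable fun y : M n => kap (omX s y) := measurable_kap.comp h1
  have h3 : Measurable fun y : M n => kapN (omX s y) := measurable_kapN.comp h1
  have h4 : Measurable fun y : M n => S1 s (omX s y) := measurable_S1.comp h1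
  have h5 : Measurable fun y : M n => S2 s (omX s y) := measurable_S2.comp h1
  have h6 : Measurable fun y : M n => QX s y := by
    unfold QX
    fun_prop
  have h7 : Measurable fun y : M n => PX s y := by
    unfold PX PP Dd
    fun_prop
  unfold psi
  fun_prop

omit hs in
theorem omY_rot (θ : ℝ) (y : M n) : omY s (rot θ y) = omY s y := by
  unfold omY
  rw [norm_rot_fst, rot_snd]

omit hs in
theorem omX_rot (θ : ℝ) (y : M n) : omX s (rot θ y) = omX s y := by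
  unfold omX
  rw [norm_rot_fst, rot_snd]

omit hs in
theorem QX_rot (θ : ℝ) (y : M n) : QX s (rot θ y) = QX s y := by
  unfold QX
  rw [omX_rot, rot_snd]

omit hs in
theorem PX_rot (θ : ℝ) (y : M n) : PX s (rot θ y) = PX s y := by
  unfold PX
  rw [omX_rot, QX_rot]

theorem phi_rot (σ θ : ℝ) (y : M n) : phi s σ (rot θ y) = rot θ (phi s σ y) := by
  unfold phi
  rw [omY_rot]
  unfold cfg
  rw [norm_rot_fst, rot_snd, rot_fst]
  unfold rot
  ext1
  · simp only
    ring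
  · rfl

theorem psi_rot (σ θ : ℝ) (x : M n) : psi s σ (rot θ x) = rot θ (psi s σ x) := by
  unfold psi
  rw [omX_rot, PX_rot, norm_rot_fst, rot_snd, rot_fst]
  unfold rot
  ext1
  · simp only
    ring
  · rfl

theorem omY_mem (y : M n) : omY s y ∈ Om s := omB_mem hs _ _

theorem PP_omY (y : M n) (hz : y.1 ≠ 0) : PP s (omY s y) (‖y.2‖ ^ 2) = ‖y.1‖ ^ 2 :=
  PP_omB hs (by positivity) (by positivity)

theorem omY_pos (y : M n) : 0 < omY s y := (omY_mem hs y).1

theorem omY_lt_one (y : M n) : omY s y < 1 := (omY_mem hs y).2.trans (omax_lt_one hs)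

theorem phi_normSq {σ : ℝ} (hσ : σ = 1 ∨ σ = -1) (y : M n) (hz : y.1 ≠ 0) :
    ‖(phi s σ y).1‖ ^ 2 = R0 s (omY s y) - 4 * kapN (omY s y) ^ 2 * ‖y.2‖ ^ 2 := by
  unfold phi
  rw [cfg_normSq hs hσ (omY_lt_one hs y) y hz, R0_sub hs (omY_pos hs y) (omY_lt_one hs y),
    PP_omY hs y hz]

theorem phi_snd (σ : ℝ) (y : M n) : (phi s σ y).2 = (-(kapN (omY s y))) • y.2 := rfl

theorem phi_snd_normSq (σ : ℝ) (y : M n) :
    ‖(phi s σ y).2‖ ^ 2 = kapN (omY s y) ^ 2 * ‖y.2‖ ^ 2 := by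
  rw [phi_snd hs, norm_smul, mul_pow, norm_neg, Real.norm_eq_abs, sq_abs]

theorem phi_total {σ : ℝ} (hσ : σ = 1 ∨ σ = -1) (y : M n) (hz : y.1 ≠ 0) :
    ‖(phi s σ y).1‖ ^ 2 + 4 * ‖(phi s σ y).2‖ ^ 2 = R0 s (omY s y) := by
  rw [phi_normSq hs hσ y hz, phi_snd_normSq hs]
  ring

theorem omX_phi {σ : ℝ} (hσ : σ = 1 ∨ σ = -1) (y : M n) (hz : y.1 ≠ 0) :
    omX s (phi s σ y) = omY s y := by
  unfold omX
  rw [phi_total hs hσ y hz, omA_R0 hs (omY_mem hs y)]

theorem kapN_omY_pos (y : M n) : 0 < kapN (omY s y) := by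
  unfold kapN
  have h1 := omY_pos hs y
  have h2 := omY_lt_one hs y
  exact div_pos h1 (by linarith)

theorem QX_phi {σ : ℝ} (hσ : σ = 1 ∨ σ = -1) (y : M n) (hz : y.1 ≠ 0) :
    QX s (phi s σ y) = ‖y.2‖ ^ 2 := by
  unfold QX
  rw [omX_phi hs hσ y hz, phi_snd_normSq hs]
  have := (kapN_omY_pos hs y).ne'
  field_simp

theorem PX_phi {σ : ℝ} (hσ : σ = 1 ∨ σ = -1) (y : M n) (hz : y.1 ≠ 0) :
    PX s (phi s σ y) = ‖y.1‖ ^ 2 := by
  unfold PX
  rw [omX_phi hs hσ y hz, QX_phi hs hσ y hz, PP_omY hs y hz]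

theorem psi_phi {σ : ℝ} (hσ : σ = 1 ∨ σ = -1) (y : M n) (hz : y.1 ≠ 0) :
    psi s σ (phi s σ y) = y := by
  have hw1 := omY_lt_one hs y
  have hS : 0 < S1 s (omY s y) := S1_pos hs hw1
  have hρ : 0 < ‖y.1‖ := norm_pos_iff.mpr hz
  have hN : ‖(phi s σ y).1‖ ^ 2 = S1 s (omY s y) / 4 + kap (omY s y) ^ 2 * ‖y.1‖ ^ 2 := by
    unfold phi
    exact cfg_normSq hs hσ hw1 y hz
  have hσ2 : σ ^ 2 = 1 := by rcases hσ with h | h <;> rw [h] <;> norm_num
  unfold psi
  rw [omX_phi hs hσ y hz, PX_phi hs hσ y hz, Real.sqrt_sq hρ.le, hN]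
  ext1
  · simp only
    have e1 : (phi s σ y).1 = ((-(kap (omY s y)) : ℝ) : ℂ) * y.1 +
        ((σ * (Real.sqrt (S1 s (omY s y)) / 2) / ‖y.1‖ : ℝ) : ℂ) * Complex.I * y.1 := rfl
    rw [e1]
    set a := kap (omY s y) with ha
    set r := Real.sqrt (S1 s (omY s y)) with hr
    have hr2 : r ^ 2 = S1 s (omY s y) := Real.sq_sqrt hS.le
    rw [← hr2]
    set ρ := ‖y.1‖ with hρdef
    have hden : (r ^ 2 / 4 + a ^ 2 * ρ ^ 2) ≠ 0 := by
      have : 0 < r ^ 2 := by rw [hr2]; exact hS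
      positivity
    have hdenC : ((r : ℂ) ^ 2 / 4 + (a : ℂ) ^ 2 * (ρ : ℂ) ^ 2) ≠ 0 := by
      exact_mod_cast hden
    have hρC : (ρ : ℂ) ≠ 0 := by exact_mod_cast hρ.ne'
    have hσC : (σ : ℂ) ^ 2 = 1 := by exact_mod_cast hσ2
    push_cast
    have key : ((ρ : ℂ) / ((r : ℂ) ^ 2 / 4 + (a : ℂ) ^ 2 * (ρ : ℂ) ^ 2)) *
        (-((a : ℂ) * ρ) - (σ : ℂ) * ((r : ℂ) / 2) * Complex.I) *
        (-(a : ℂ) + (σ : ℂ) * ((r : ℂ) / 2) / ρ * Complex.I) = 1 := by
      have e2 : (-((a : ℂ) * ρ) - (σ : ℂ) * ((r : ℂ) / 2) * Complex.I) *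
          (-(a : ℂ) + (σ : ℂ) * ((r : ℂ) / 2) / ρ * Complex.I)
          = ((r : ℂ) ^ 2 / 4 + (a : ℂ) ^ 2 * (ρ : ℂ) ^ 2) / ρ := by
        field_simp
        ring_nf
        rw [Complex.I_sq, hσC]
        ring
      rw [mul_assoc, e2, div_mul_div_comm, mul_comm, div_self (mul_ne_zero hdenC hρC)]
    calc _ = (((ρ : ℂ) / ((r : ℂ) ^ 2 / 4 + (a : ℂ) ^ 2 * (ρ : ℂ) ^ 2)) *
        (-((a : ℂ) * ρ) - (σ : ℂ) * ((r : ℂ) / 2) * Complex.I) *
        (-(a : ℂ) + (σ : ℂ) * ((r : ℂ) / 2) / ρ * Complex.I)) * y.1 := by ring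
      _ = y.1 := by rw [key, one_mul]
  · simp only
    rw [phi_snd hs, smul_smul]
    have := (kapN_omY_pos hs y).ne'
    have e : -(kapN (omY s y))⁻¹ * -kapN (omY s y) = 1 := by field_simp
    rw [e, one_smul]

theorem Bset_fst_ne {y : M n} (hy : y ∈ Bset s n) : y.1 ≠ 0 := by
  intro h
  have h1 := hy.1
  rw [h] at h1
  have := bb_pos hs
  simp at h1
  linarith

theorem phi_mem_Aset {σ : ℝ} (hσ : σ = 1 ∨ σ = -1) {y : M n} (hy : y ∈ Bset s n) :
    phi s σ y ∈ Aset s n := by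
  have hz := Bset_fst_ne hs hy
  have hw0 := omY_pos hs y
  have hw1 := omY_lt_one hs y
  refine ⟨?_, ?_⟩
  · have hN : ‖(phi s σ y).1‖ ^ 2 = S1 s (omY s y) / 4 + kap (omY s y) ^ 2 * ‖y.1‖ ^ 2 := by
      unfold phi
      exact cfg_normSq hs hσ hw1 y hz
    rw [hN]
    have := S1_ge hs hw0.le hw1
    have h2 : 0 ≤ kap (omY s y) ^ 2 * ‖y.1‖ ^ 2 := by positivity
    linarith
  · rw [phi_total hs hσ y hz]
    exact R0_le_KA hs hw0 hw1

theorem measurableSet_Bset : MeasurableSet (Bset s n) := by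
  have h1 : Measurable fun y : M n => ‖y.1‖ ^ 2 := by fun_prop
  have h2 : Measurable fun y : M n => ‖y.2‖ ^ 2 := by fun_prop
  exact (measurableSet_le measurable_const h1).inter
    ((measurableSet_le h1 measurable_const).inter (measurableSet_le h2 measurable_const))

theorem measurableSet_Aset : MeasurableSet (Aset s n) := by
  have h1 : Measurable fun y : M n => ‖y.1‖ ^ 2 := by fun_prop
  have h2 : Measurable fun y : M n => ‖y.1‖ ^ 2 + 4 * ‖y.2‖ ^ 2 := by fun_prop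
  exact (measurableSet_le measurable_const h1).inter (measurableSet_le h2 measurable_const)

theorem disjoint_Aset_Bset : Disjoint (Aset s n) (Bset s n) := by
  rw [Set.disjoint_left]
  intro x hA hB
  have h1 := hA.1
  have h2 := hB.2.1
  have := bb_lt hs
  linarith

theorem rot_mem_Bset (θ : ℝ) {y : M n} (hy : y ∈ Bset s n) : rot θ y ∈ Bset s n := by
  change bb s / 2 ≤ ‖(rot θ y).1‖ ^ 2 ∧ ‖(rot θ y).1‖ ^ 2 ≤ bb s ∧ ‖(rot θ y).2‖ ^ 2 ≤ bb s
  rw [norm_rot_fst, rot_snd]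
  exact hy

end Maps

end Crest.Agent.R130
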