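import Crest.Agent.S0175_Ineq
import Crest.Agent.S0175_Maps

/-! Row 130 (S0175), module N: the cost of slightly rotated optimal configurations. -/

set_option autoImplicit false

namespace Crest.Agent.R130

open MeasureTheory Set
open scoped ENNReal ContDiff
open Crest.AnalysisR.OT

variable {n : ℕ} {s : ℝ}

theorem dist2_comm (p q : M n) : dist2 p q = dist2 q p := by
  unfold dist2
  rw [norm_sub_rev p.1, norm_sub_rev p.2]

theorem dist2_nonneg (p q : M n) : 0 ≤ dist2 p q := by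
  unfold dist2; positivity

/-- triangle inequality in the plane, in the only form needed -/
theorem sqrt_add_sq_le {a a' b η : ℝ} (hη : 0 ≤ η) (ha : 0 ≤ a) (h : a ≤ a' + η) :
    Real.sqrt (a ^ 2 + b ^ 2) ≤ Real.sqrt (a' ^ 2 + b ^ 2) + η := by
  have h0 : 0 ≤ Real.sqrt (a' ^ 2 + b ^ 2) := Real.sqrt_nonneg _
  have h1 : a' ≤ Real.sqrt (a' ^ 2 + b ^ 2) := by
    apply Real.le_sqrt_of_sq_le; nlinarith [sq_nonneg b]
  have h2 : Real.sqrt (a' ^ 2 + b ^ 2) ^ 2 = a' ^ 2 + b ^ 2 := Real.sq_sqrt (by positivity)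
  rw [Real.sqrt_le_left (by positivity)]
  nlinarith [mul_le_mul_of_nonneg_left h1 hη, mul_self_le_mul_self ha h]

theorem norm_rot_sub (θ : ℝ) (z : ℂ) : ‖Complex.exp (θ * Complex.I) * z - z‖ ≤ |θ| * ‖z‖ := by
  have h : Complex.exp (θ * Complex.I) * z - z = (Complex.exp (Complex.I * θ) - 1) * z := by
    rw [mul_comm (θ : ℂ)]; ring
  rw [h, norm_mul]
  exact mul_le_mul_of_nonneg_right Real.norm_exp_I_mul_ofReal_sub_one_le (norm_nonneg _)

/-- rotating the two points by small angles decreases the distance only a little -/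
theorem sqrt_dist2_rot_le (p q : M n) (θ θ' : ℝ) :
    Real.sqrt (dist2 p q) ≤ Real.sqrt (dist2 (rot θ p) (rot θ' q)) + (|θ| * ‖p.1‖ + |θ'| * ‖q.1‖) := by
  unfold dist2 rot
  refine sqrt_add_sq_le (by positivity) (norm_nonneg _) ?_
  have e : p.1 - q.1 = (Complex.exp (θ * Complex.I) * p.1 - Complex.exp (θ' * Complex.I) * q.1)
      - (Complex.exp (θ * Complex.I) * p.1 - p.1) + (Complex.exp (θ' * Complex.I) * q.1 - q.1) := by
    ring
  calc ‖p.1 - q.1‖ ≤ ‖(Complex.exp (θ * Complex.I) * p.1 - Complex.exp (θ' * Complex.I) * q.1)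
      - (Complex.exp (θ * Complex.I) * p.1 - p.1)‖ + ‖Complex.exp (θ' * Complex.I) * q.1 - q.1‖ := by
        conv_lhs => rw [e]
        exact norm_add_le _ _
    _ ≤ ‖Complex.exp (θ * Complex.I) * p.1 - Complex.exp (θ' * Complex.I) * q.1‖
      + ‖Complex.exp (θ * Complex.I) * p.1 - p.1‖ + ‖Complex.exp (θ' * Complex.I) * q.1 - q.1‖ := by
        gcongr
        exact norm_sub_le _ _
    _ ≤ _ := by
        have := norm_rot_sub θ p.1
        have := norm_rot_sub θ' q.1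
        linarith

/-- multiplicative comparison of pair costs -/
theorem pc_le_mul (hs : 0 < s) {p q p' q' : M n} {d0 η : ℝ} (hd0 : 0 < d0) (hη0 : 0 ≤ η) (hη1 : η < 1)
    (hD : d0 ≤ Real.sqrt (dist2 p q))
    (h : Real.sqrt (dist2 p q) ≤ Real.sqrt (dist2 p' q') + η * d0) :
    pc s p' q' ≤ ENNReal.ofReal ((1 - η) ^ (-s)) * pc s p q := by
  set D := Real.sqrt (dist2 p q) with hDdef
  set D' := Real.sqrt (dist2 p' q') with hD'def
  have hDpos : 0 < D := lt_of_lt_of_le hd0 hD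
  have h1η : 0 < 1 - η := by linarith
  have hle : (1 - η) * D ≤ D' := by nlinarith
  have hpos : 0 < (1 - η) * D := by positivity
  have hD'pos : 0 < D' := lt_of_lt_of_le hpos hle
  unfold pc
  rw [← hDdef, ← hD'def, ENNReal.ofReal_rpow_of_pos hD'pos, ENNReal.ofReal_rpow_of_pos hDpos,
    ← ENNReal.ofReal_mul (by positivity), ← Real.mul_rpow h1η.le hDpos.le]
  apply ENNReal.ofReal_le_ofReal
  exact Real.rpow_le_rpow_of_nonpos hpos hle (by linarith)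

theorem pc_le_of_le (hs : 0 < s) {p q : M n} {d0 : ℝ} (hd0 : 0 < d0)
    (hD : d0 ≤ Real.sqrt (dist2 p q)) : pc s p q ≤ ENNReal.ofReal (d0 ^ (-s)) := by
  have hDpos : 0 < Real.sqrt (dist2 p q) := lt_of_lt_of_le hd0 hD
  unfold pc
  rw [ENNReal.ofReal_rpow_of_pos hDpos]
  apply ENNReal.ofReal_le_ofReal
  exact Real.rpow_le_rpow_of_nonpos hd0 hD (by linarith)

section Cont
variable (hs : 0 < s)
include hs

theorem cost_cont (ε : ℝ≥0∞) (hε : 0 < ε) : ∃ δ : ℝ, 0 < δ ∧ ∀ y ∈ Bset s n, ∀ θ₁ θ₂ θ₃ : ℝ,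
    |θ₁| ≤ δ → |θ₂| ≤ δ → |θ₃| ≤ δ →
    cM s (rot θ₁ y, rot θ₂ (phi s 1 y), rot θ₃ (phi s (-1) y)) ≤ cM s (y, phi s 1 y, phi s (-1) y) + ε := by
  have hs2 : 0 < (s / 2) ^ ea s := Real.rpow_pos_of_pos (by linarith) _
  set d0 : ℝ := Real.sqrt ((s / 2) ^ ea s) with hd0def
  have hd0 : 0 < d0 := Real.sqrt_pos.2 hs2
  set kA : ℝ := Real.sqrt (KA s) with hkAdef
  have hkA : 0 < kA := Real.sqrt_pos.2 (KA_pos hs)
  obtain ⟨ε', hε'0, hε'⟩ : ∃ ε' : ℝ, 0 < ε' ∧ ENNReal.ofReal ε' ≤ ε := by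
    obtain ⟨r, hr0, hr⟩ := ENNReal.lt_iff_exists_nnreal_btwn.1 hε
    refine ⟨r, by exact_mod_cast hr0, ?_⟩
    rw [ENNReal.ofReal_coe_nnreal]; exact hr.le
  set C : ℝ := 3 * d0 ^ (-s) with hCdef
  have hC : 0 < C := by positivity
  -- choice of `η0`
  obtain ⟨η0, hη0, hη1, hη⟩ : ∃ η0 : ℝ, 0 < η0 ∧ η0 < 1 ∧ (1 - η0) ^ (-s) ≤ 1 + ε' / C := by
    have hcont : ContinuousAt (fun η : ℝ => (1 - η) ^ (-s)) 0 :=
      ContinuousAt.rpow_const (by fun_prop) (Or.inl (by norm_num))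
    have hev : ∀ᶠ η in nhds (0 : ℝ), (1 - η) ^ (-s) < 1 + ε' / C := by
      refine hcont.eventually_lt_const ?_
      simp only [sub_zero, Real.one_rpow]
      have : 0 < ε' / C := by positivity
      linarith
    obtain ⟨r, hr, hball⟩ := Metric.eventually_nhds_iff.1 hev
    refine ⟨min (r / 2) (1 / 2), by positivity, lt_of_le_of_lt (min_le_right _ _) (by norm_num), ?_⟩
    refine (hball ?_).le
    rw [Real.dist_eq, sub_zero, abs_of_pos (by positivity)]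
    exact lt_of_le_of_lt (min_le_left _ _) (by linarith)
  refine ⟨η0 * d0 / (2 * kA), by positivity, ?_⟩
  intro y hy θ₁ θ₂ θ₃ h₁ h₂ h₃
  set δ : ℝ := η0 * d0 / (2 * kA) with hδdef
  have hδ0 : 0 < δ := by positivity
  have hδkA : 2 * (δ * kA) = η0 * d0 := by
    rw [hδdef]; field_simp
  have hw := omY_mem hs y
  have h0 : 0 < omY s y := hw.1
  have h1 : omY s y < 1 := lt_trans hw.2 (omax_lt_one hs)
  have hz : y.1 ≠ 0 := Bset_fst_ne hs hy
  have hPP := PP_omY hs y hz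
  have d12 : dist2 y (phi s 1 y) = S2 s (omY s y) := by
    rw [dist2_comm]; exact cfg_dist_side hs (Or.inl rfl) h0 h1 y hz hPP
  have d13 : dist2 y (phi s (-1) y) = S2 s (omY s y) := by
    rw [dist2_comm]; exact cfg_dist_side hs (Or.inr rfl) h0 h1 y hz hPP
  have d23 : dist2 (phi s 1 y) (phi s (-1) y) = S1 s (omY s y) := cfg_dist_base hs h0 h1 y hz
  have hS2 : d0 ≤ Real.sqrt (S2 s (omY s y)) := Real.sqrt_le_sqrt (S2_ge hs h0 h1.le)
  have hss : (s / 2) ^ ea s ≤ s ^ ea s :=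
    Real.rpow_le_rpow (by linarith) (by linarith) (ea_pos hs).le
  have hS1 : d0 ≤ Real.sqrt (S1 s (omY s y)) :=
    Real.sqrt_le_sqrt (hss.trans (S1_ge hs h0.le h1))
  have hny : ‖y.1‖ ≤ kA := by
    apply Real.le_sqrt_of_sq_le
    have hb := bb_lt hs
    have := hy.2.1
    unfold KA
    linarith
  have hnphi : ∀ σ : ℝ, σ = 1 ∨ σ = -1 → ‖(phi s σ y).1‖ ≤ kA := by
    intro σ hσ
    apply Real.le_sqrt_of_sq_le
    have := (phi_mem_Aset hs hσ hy).2
    nlinarith [sq_nonneg ‖(phi s σ y).2‖]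
  have hang : ∀ (θ θ' : ℝ) (p q : M n), |θ| ≤ δ → |θ'| ≤ δ → ‖p.1‖ ≤ kA → ‖q.1‖ ≤ kA →
      Real.sqrt (dist2 p q) ≤ Real.sqrt (dist2 (rot θ p) (rot θ' q)) + η0 * d0 := by
    intro θ θ' p q hθ hθ' hp hq
    have h := sqrt_dist2_rot_le p q θ θ'
    have e1 : |θ| * ‖p.1‖ ≤ δ * kA := mul_le_mul hθ hp (norm_nonneg _) hδ0.le
    have e2 : |θ'| * ‖q.1‖ ≤ δ * kA := mul_le_mul hθ' hq (norm_nonneg _) hδ0.le
    linarith
  set c : ℝ≥0∞ := ENNReal.ofReal ((1 - η0) ^ (-s)) with hcdef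
  have p12 : pc s (rot θ₁ y) (rot θ₂ (phi s 1 y)) ≤ c * pc s y (phi s 1 y) :=
    pc_le_mul hs hd0 hη0.le hη1 (by rw [d12]; exact hS2)
      (hang _ _ _ _ h₁ h₂ hny (hnphi 1 (Or.inl rfl)))
  have p13 : pc s (rot θ₁ y) (rot θ₃ (phi s (-1) y)) ≤ c * pc s y (phi s (-1) y) :=
    pc_le_mul hs hd0 hη0.le hη1 (by rw [d13]; exact hS2)
      (hang _ _ _ _ h₁ h₃ hny (hnphi (-1) (Or.inr rfl)))
  have p23 : pc s (rot θ₂ (phi s 1 y)) (rot θ₃ (phi s (-1) y)) ≤ c * pc s (phi s 1 y) (phi s (-1) y) :=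
    pc_le_mul hs hd0 hη0.le hη1 (by rw [d23]; exact hS1)
      (hang _ _ _ _ h₂ h₃ (hnphi 1 (Or.inl rfl)) (hnphi (-1) (Or.inr rfl)))
  have q12 : pc s y (phi s 1 y) ≤ ENNReal.ofReal (d0 ^ (-s)) :=
    pc_le_of_le hs hd0 (by rw [d12]; exact hS2)
  have q13 : pc s y (phi s (-1) y) ≤ ENNReal.ofReal (d0 ^ (-s)) :=
    pc_le_of_le hs hd0 (by rw [d13]; exact hS2)
  have q23 : pc s (phi s 1 y) (phi s (-1) y) ≤ ENNReal.ofReal (d0 ^ (-s)) :=
    pc_le_of_le hs hd0 (by rw [d23]; exact hS1)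
  have hold : cM s (y, phi s 1 y, phi s (-1) y) ≤ ENNReal.ofReal C := by
    have hd : 0 ≤ d0 ^ (-s) := by positivity
    have : ENNReal.ofReal C = ENNReal.ofReal (d0 ^ (-s)) + ENNReal.ofReal (d0 ^ (-s))
        + ENNReal.ofReal (d0 ^ (-s)) := by
      rw [← ENNReal.ofReal_add hd hd, ← ENNReal.ofReal_add (by positivity) hd, hCdef]
      congr 1; ring
    rw [this]
    unfold cM
    exact add_le_add (add_le_add q12 q13) q23
  have hnew : cM s (rot θ₁ y, rot θ₂ (phi s 1 y), rot θ₃ (phi s (-1) y))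
      ≤ c * cM s (y, phi s 1 y, phi s (-1) y) := by
    unfold cM
    rw [mul_add, mul_add]
    exact add_le_add (add_le_add p12 p13) p23
  have hc : c ≤ 1 + ENNReal.ofReal (ε' / C) := by
    rw [hcdef, ← ENNReal.ofReal_one, ← ENNReal.ofReal_add zero_le_one (by positivity)]
    exact ENNReal.ofReal_le_ofReal hη
  calc cM s (rot θ₁ y, rot θ₂ (phi s 1 y), rot θ₃ (phi s (-1) y))
      ≤ c * cM s (y, phi s 1 y, phi s (-1) y) := hnew
    _ ≤ (1 + ENNReal.ofReal (ε' / C)) * cM s (y, phi s 1 y, phi s (-1) y) := by gcongr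
    _ = cM s (y, phi s 1 y, phi s (-1) y)
        + ENNReal.ofReal (ε' / C) * cM s (y, phi s 1 y, phi s (-1) y) := by rw [add_mul, one_mul]
    _ ≤ cM s (y, phi s 1 y, phi s (-1) y) + ENNReal.ofReal (ε' / C) * ENNReal.ofReal C := by gcongr
    _ = cM s (y, phi s 1 y, phi s (-1) y) + ENNReal.ofReal ε' := by
        rw [← ENNReal.ofReal_mul (by positivity)]
        congr 2; field_simp
    _ ≤ cM s (y, phi s 1 y, phi s (-1) y) + ε := by gcongr

end Cont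

end Crest.Agent.R130
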