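import Crest.Agent.S0175_Param2

/-! Row 130 (S0175), module D: smoothness and supports of the densities. -/

set_option autoImplicit false

namespace Crest.Agent.R130

open MeasureTheory Set
open scoped ENNReal ContDiff Topology
open Crest.AnalysisR.OT

variable {n : ℕ} {s : ℝ}

/-! ### `gB` -/

theorem gB_nonneg (s P Q : ℝ) : 0 ≤ gB s P Q := by
  unfold gB
  have := Real.smoothTransition.nonneg
  exact mul_nonneg (mul_nonneg (this _) (this _)) (this _)

theorem gB_ne_zero {s P Q : ℝ} (h : gB s P Q ≠ 0) : bb s / 2 < P ∧ P < bb s ∧ Q < bb s := by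
  unfold gB at h
  have h1 := left_ne_zero_of_mul (left_ne_zero_of_mul h)
  have h2 := right_ne_zero_of_mul (left_ne_zero_of_mul h)
  have h3 := right_ne_zero_of_mul h
  rw [Ne, Real.smoothTransition.zero_iff_nonpos, not_le] at h1 h2 h3
  exact ⟨by linarith, by linarith, by linarith⟩

theorem gB_pos {s P Q : ℝ} (h1 : bb s / 2 < P) (h2 : P < bb s) (h3 : Q < bb s) : 0 < gB s P Q := by
  unfold gB
  have := @Real.smoothTransition.pos_of_pos
  exact mul_pos (mul_pos (this (by linarith)) (this (by linarith))) (this (by linarith))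

theorem gB_eq_zero_of_le {s P Q : ℝ} (h : P ≤ bb s / 2) : gB s P Q = 0 := by
  by_contra h0
  have := (gB_ne_zero h0).1
  linarith

theorem contDiff_gB (s : ℝ) : ContDiff ℝ ∞ (fun p : ℝ × ℝ => gB s p.1 p.2) := by
  unfold gB
  have h := Real.smoothTransition.contDiff (n := ⊤)
  exact ((h.comp (contDiff_fst.sub contDiff_const)).mul (h.comp (contDiff_const.sub contDiff_fst))).mul
    (h.comp (contDiff_const.sub contDiff_snd))

theorem den_contDiff_nsq1 : ContDiff ℝ ∞ (fun x : M n => ‖x.1‖ ^ 2) :=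
  (contDiff_norm_sq ℝ).comp contDiff_fst

theorem den_contDiff_nsq2 : ContDiff ℝ ∞ (fun x : M n => ‖x.2‖ ^ 2) :=
  (contDiff_norm_sq ℝ).comp contDiff_snd

section Density
variable (hs : 0 < s)
include hs

omit hs in
theorem rB0_nonneg' (y : M n) : 0 ≤ rB0 s y := gB_nonneg _ _ _

theorem rB0_nonneg (y : M n) : 0 ≤ rB0 s y := gB_nonneg _ _ _

theorem rB0_support {y : M n} (h : rB0 s y ≠ 0) : y ∈ Bset s n := by
  obtain ⟨h1, h2, h3⟩ := gB_ne_zero h
  exact ⟨h1.le, h2.le, h3.le⟩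

theorem contDiff_rB0 : ContDiff ℝ ∞ (rB0 (n := n) s) :=
  (contDiff_gB s).comp (den_contDiff_nsq1.prodMk den_contDiff_nsq2)

theorem measurable_gB : Measurable (fun p : ℝ × ℝ => gB s p.1 p.2) :=
  (contDiff_gB s).continuous.measurable

theorem rA0_nonneg (x : M n) : 0 ≤ rA0 s x := by
  unfold rA0 gA
  split_ifs
  · exact mul_nonneg (mul_nonneg (Real.sqrt_nonneg _) (gB_nonneg _ _ _)) (Real.sqrt_nonneg _)
  · exact le_rfl

omit hs in
theorem rA0_of_mem {x : M n} (h : ‖x.1‖ ^ 2 + 4 * ‖x.2‖ ^ 2 ∈ R0 s '' Om s) :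
    rA0 s x = Real.sqrt 2 * gB s (PX s x) (QX s x) * Real.sqrt (Jac s n (omX s x) (QX s x)) := by
  unfold rA0 gA; rw [if_pos h]; rfl

omit hs in
theorem rA0_of_not_mem {x : M n} (h : ‖x.1‖ ^ 2 + 4 * ‖x.2‖ ^ 2 ∉ R0 s '' Om s) : rA0 s x = 0 := by
  unfold rA0 gA; rw [if_neg h]

omit hs in
theorem rA0_ne_zero {x : M n} (h : rA0 s x ≠ 0) :
    ‖x.1‖ ^ 2 + 4 * ‖x.2‖ ^ 2 ∈ R0 s '' Om s ∧ bb s / 2 < PX s x ∧ PX s x < bb s ∧ QX s x < bb s := by
  by_cases hm : ‖x.1‖ ^ 2 + 4 * ‖x.2‖ ^ 2 ∈ R0 s '' Om s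
  · refine ⟨hm, ?_⟩
    rw [rA0_of_mem hm] at h
    exact gB_ne_zero (right_ne_zero_of_mul (left_ne_zero_of_mul h))
  · exact absurd (rA0_of_not_mem hm) h

theorem den_Om_pos {w : ℝ} (h : w ∈ Om s) : 0 < w := h.1
theorem den_Om_lt_one {w : ℝ} (h : w ∈ Om s) : w < 1 := h.2.trans (omax_lt_one hs)

omit hs in
theorem den_kapN_pos {w : ℝ} (h0 : 0 < w) (h1 : w < 1) : 0 < kapN w := by
  unfold kapN; exact div_pos h0 (by linarith)

theorem den_QX_nonneg (x : M n) : 0 ≤ QX s x := by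
  unfold QX; positivity

theorem den_QX_mul (x : M n) : kapN (omX s x) ^ 2 * QX s x = ‖x.2‖ ^ 2 := by
  have hw := omA_mem hs (‖x.1‖ ^ 2 + 4 * ‖x.2‖ ^ 2)
  have := den_kapN_pos (den_Om_pos hs hw) (den_Om_lt_one hs hw)
  unfold QX omX
  field_simp

theorem rA0_support {x : M n} (h : rA0 s x ≠ 0) : x ∈ Aset s n := by
  obtain ⟨hm, h1, h2, h3⟩ := rA0_ne_zero h
  have hw : omX s x ∈ Om s := omA_mem hs _
  have hR : R0 s (omX s x) = ‖x.1‖ ^ 2 + 4 * ‖x.2‖ ^ 2 := R0_omA hs hm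
  have hsub := R0_sub hs (den_Om_pos hs hw) (den_Om_lt_one hs hw) (QX s x)
  have hq := den_QX_mul hs x
  have hS := S1_ge hs (den_Om_pos hs hw).le (den_Om_lt_one hs hw)
  have hb := bb_pos hs
  have hP : 0 ≤ kap (omX s x) ^ 2 * PP s (omX s x) (QX s x) :=
    mul_nonneg (sq_nonneg _) (by have : PX s x = PP s (omX s x) (QX s x) := rfl; linarith)
  refine ⟨?_, ?_⟩
  · nlinarith
  · rw [← hR]; exact R0_le_KA hs (den_Om_pos hs hw) (den_Om_lt_one hs hw)

theorem rA0_mul_rB0 (x : M n) : rA0 s x * rB0 s x = 0 := by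
  by_contra h
  have h1 := rA0_support hs (left_ne_zero_of_mul h)
  have h2 := rB0_support hs (right_ne_zero_of_mul h)
  have := bb_lt hs
  linarith [h1.1, h2.2.1]

/-- the parameter stays in a compact subinterval of `Om s` on the support -/
theorem den_exists_param_bounds : ∃ w₁ w₂ : ℝ, w₁ ∈ Om s ∧ w₂ ∈ Om s ∧ ∀ w ∈ Om s, ∀ Q, 0 ≤ Q → Q ≤ bb s →
    bb s / 2 < PP s w Q → PP s w Q < bb s → w₁ ≤ w ∧ w ≤ w₂ := by
  have hb := bb_pos hs
  obtain ⟨w₁, hw₁, h₁⟩ := exists_PP_gt hs (bb s) (bb s)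
  obtain ⟨w₂, hw₂, h₂⟩ := exists_PP_lt hs (P := bb s / 2) (Q := 0) (by positivity) le_rfl
  refine ⟨w₁, w₂, hw₁, hw₂, fun w hw Q hQ0 hQb hl hu => ⟨?_, ?_⟩⟩
  · by_contra hlt
    rw [not_le] at hlt
    have a1 := PP_anti hs hw hw₁ hlt hb.le (by linarith)
    have a2 := PP_le_of_le hs (w := w) hQb
    linarith
  · by_contra hlt
    rw [not_le] at hlt
    have a2 := PP_le_of_le hs (w := w) hQ0
    have a1 := PP_anti hs hw₂ hw hlt le_rfl (by linarith)
    linarith

omit hs in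
theorem den_contDiff_GX : ContDiff ℝ ∞ (fun x : M n => ‖x.1‖ ^ 2 + 4 * ‖x.2‖ ^ 2) :=
  den_contDiff_nsq1.add (contDiff_const.mul den_contDiff_nsq2)

section at_point
variable {x : M n} (hx : ‖x.1‖ ^ 2 + 4 * ‖x.2‖ ^ 2 ∈ R0 s '' Om s)
include hx

theorem cda_omX : ContDiffAt ℝ ∞ (omX (n := n) s) x :=
  ((contDiffOn_omA hs).contDiffAt ((isOpen_R0_image hs).mem_nhds hx)).comp x den_contDiff_GX.contDiffAt

theorem cda_S1 : ContDiffAt ℝ ∞ (fun y : M n => S1 s (omX s y)) x := by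
  have h : ContDiffAt ℝ ∞ (S1 s) (omX s x) :=
    (contDiffOn_S1 hs).contDiffAt (Iio_mem_nhds (den_Om_lt_one hs (omA_mem hs _)))
  exact h.comp x (cda_omX hs hx)

theorem cda_S2 : ContDiffAt ℝ ∞ (fun y : M n => S2 s (omX s y)) x := by
  have h : ContDiffAt ℝ ∞ (S2 s) (omX s x) :=
    (contDiffOn_S2 hs).contDiffAt (Ioi_mem_nhds (den_Om_pos hs (omA_mem hs _)))
  exact h.comp x (cda_omX hs hx)

theorem cda_kapN : ContDiffAt ℝ ∞ (fun y : M n => kapN (omX s y)) x := by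
  have hw : omX s x ∈ Om s := omA_mem hs _
  have := den_Om_lt_one hs hw
  exact (cda_omX hs hx).div (contDiffAt_const.sub (cda_omX hs hx)) (by linarith)

theorem cda_QX : ContDiffAt ℝ ∞ (QX (n := n) s) x := by
  have hw : omX s x ∈ Om s := omA_mem hs _
  have := den_kapN_pos (den_Om_pos hs hw) (den_Om_lt_one hs hw)
  exact den_contDiff_nsq2.contDiffAt.div ((cda_kapN hs hx).pow 2) (by positivity)

theorem cda_Dd : ContDiffAt ℝ ∞ (fun y : M n => Dd s (omX s y)) x :=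
  (cda_S2 hs hx).sub ((cda_S1 hs hx).div_const 4)

/-- `Dd - 4 Q / (2 - w)^2` -/
theorem cda_aux : ContDiffAt ℝ ∞ (fun y : M n => Dd s (omX s y) - 4 * QX s y / (2 - omX s y) ^ 2) x := by
  have hw : omX s x ∈ Om s := omA_mem hs _
  have := den_Om_lt_one hs hw
  have h2 : (2 - omX s x) ^ 2 ≠ 0 := by
    have : 0 < 2 - omX s x := by linarith
    positivity
  exact (cda_Dd hs hx).sub ((contDiffAt_const.mul (cda_QX hs hx)).div
    ((contDiffAt_const.sub (cda_omX hs hx)).pow 2) h2)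

theorem cda_PX : ContDiffAt ℝ ∞ (PX (n := n) s) x :=
  ((contDiffAt_const.sub (cda_omX hs hx)).pow 2).mul (cda_aux hs hx)

theorem cda_dPP : ContDiffAt ℝ ∞ (fun y : M n => dPP s (omX s y) (QX s y)) x := by
  have hw : omX s x ∈ Om s := omA_mem hs _
  have h1 := den_Om_lt_one hs hw
  have h0 := den_Om_pos hs hw
  have hom := cda_omX hs hx
  have c1 : ContDiffAt ℝ ∞ (fun y : M n => 1 - omX s y) x := contDiffAt_const.sub hom
  have c2 : ContDiffAt ℝ ∞ (fun y : M n => 2 - omX s y) x := contDiffAt_const.sub hom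
  have h3 : (2 - omX s x) ^ 3 ≠ 0 := by
    have : 0 < 2 - omX s x := by linarith
    positivity
  have h4 : 4 * (1 - omX s x) ≠ 0 := by
    have : 0 < 1 - omX s x := by linarith
    positivity
  exact ((contDiffAt_const.mul c1).mul (cda_aux hs hx)).add ((c1.pow 2).mul
    ((((contDiffAt_const.div hom h0.ne').mul (cda_S2 hs hx)).add
      ((contDiffAt_const.div (contDiffAt_const.mul c1) h4).mul (cda_S1 hs hx))).add
      ((contDiffAt_const.mul (cda_QX hs hx)).div (c2.pow 3) h3)))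

theorem cda_R0' : ContDiffAt ℝ ∞ (fun y : M n => R0' s (omX s y)) x :=
  (contDiffAt_const.mul (cda_S1 hs hx)).add ((contDiffAt_const.mul (cda_omX hs hx)).mul (cda_Dd hs hx))

theorem cda_Jac : ContDiffAt ℝ ∞ (fun y : M n => Jac s n (omX s y) (QX s y)) x := by
  have hw : omX s x ∈ Om s := omA_mem hs _
  have h1 := den_kapN_pos (den_Om_pos hs hw) (den_Om_lt_one hs hw)
  have h2 := R0'_pos hs hw
  exact (cda_dPP hs hx).div ((cda_R0' hs hx).mul ((cda_kapN hs hx).pow n)) (by positivity)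

theorem den_Jac_pos (hP : 0 < PX s x) : 0 < Jac s n (omX s x) (QX s x) := by
  have hw : omX s x ∈ Om s := omA_mem hs _
  have h1 := den_kapN_pos (den_Om_pos hs hw) (den_Om_lt_one hs hw)
  have h2 := R0'_pos hs hw
  have h3 := dPP_pos hs hw (den_QX_nonneg hs x) hP
  unfold Jac
  positivity

theorem cda_expr : ContDiffAt ℝ ∞
    (fun y : M n => Real.sqrt 2 * gB s (PX s y) (QX s y) * Real.sqrt (Jac s n (omX s y) (QX s y))) x := by
  have hg : ContDiffAt ℝ ∞ (fun y : M n => gB s (PX s y) (QX s y)) x :=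
    (contDiff_gB s).contDiffAt.comp x ((cda_PX hs hx).prodMk (cda_QX hs hx))
  by_cases hP : 0 < PX s x
  · exact (contDiffAt_const.mul hg).mul ((cda_Jac hs hx).sqrt (den_Jac_pos hs hx hP).ne')
  · rw [not_lt] at hP
    have hb := bb_pos hs
    have hev : ∀ᶠ y in 𝓝 x, PX s y < bb s / 2 :=
      (cda_PX hs hx).continuousAt.eventually (Iio_mem_nhds (by linarith))
    have : (fun y : M n => Real.sqrt 2 * gB s (PX s y) (QX s y) * Real.sqrt (Jac s n (omX s y) (QX s y)))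
        =ᶠ[𝓝 x] fun _ => 0 := by
      filter_upwards [hev] with y hy
      rw [gB_eq_zero_of_le hy.le]; ring
    exact contDiffAt_const.congr_of_eventuallyEq this

end at_point

theorem contDiff_rA0 : ContDiff ℝ ∞ (rA0 (n := n) s) := by
  obtain ⟨w₁, w₂, hw₁, hw₂, hbd⟩ := den_exists_param_bounds hs
  have hsub : Icc w₁ w₂ ⊆ Om s := Icc_subset_Ioo hw₁.1 hw₂.2
  have hcont : ContinuousOn (R0 s) (Icc w₁ w₂) := fun w hw =>
    (hasDerivAt_R0 hs (den_Om_pos hs (hsub hw)) (den_Om_lt_one hs (hsub hw))).continuousAt.continuousWithinAt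
  have hC : IsClosed (R0 s '' Icc w₁ w₂) := (isCompact_Icc.image_of_continuousOn hcont).isClosed
  have hsupp : ∀ y : M n, rA0 s y ≠ 0 → ‖y.1‖ ^ 2 + 4 * ‖y.2‖ ^ 2 ∈ R0 s '' Icc w₁ w₂ := by
    intro y hy
    obtain ⟨hm, h1, h2, h3⟩ := rA0_ne_zero hy
    have hw : omX s y ∈ Om s := omA_mem hs _
    exact ⟨omX s y, hbd _ hw _ (den_QX_nonneg hs y) h3.le h1 h2, R0_omA hs hm⟩
  rw [contDiff_iff_contDiffAt]
  intro x
  by_cases hx : ‖x.1‖ ^ 2 + 4 * ‖x.2‖ ^ 2 ∈ R0 s '' Icc w₁ w₂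
  · have hxU : ‖x.1‖ ^ 2 + 4 * ‖x.2‖ ^ 2 ∈ R0 s '' Om s := image_mono hsub hx
    have hev : ∀ᶠ y : M n in 𝓝 x, ‖y.1‖ ^ 2 + 4 * ‖y.2‖ ^ 2 ∈ R0 s '' Om s :=
      den_contDiff_GX.continuous.continuousAt.eventually ((isOpen_R0_image hs).mem_nhds hxU)
    refine (cda_expr hs hxU).congr_of_eventuallyEq ?_
    filter_upwards [hev] with y hy
    exact rA0_of_mem hy
  · have hev : ∀ᶠ y : M n in 𝓝 x, ‖y.1‖ ^ 2 + 4 * ‖y.2‖ ^ 2 ∈ (R0 s '' Icc w₁ w₂)ᶜ :=
      den_contDiff_GX.continuous.continuousAt.eventually (hC.isOpen_compl.mem_nhds hx)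
    have : rA0 (n := n) s =ᶠ[𝓝 x] fun _ => 0 := by
      filter_upwards [hev] with y hy
      by_contra h0
      exact hy (hsupp y h0)
    exact contDiffAt_const.congr_of_eventuallyEq this

theorem ZB_lt_top : ZB s n < ⊤ := by
  have hb := bb_pos hs
  have hc : Continuous (fun y : M n => rB0 s y ^ 2) := ((contDiff_rB0 hs).continuous).pow 2
  have hK : HasCompactSupport (fun y : M n => rB0 s y ^ 2) := by
    apply HasCompactSupport.intro
      (K := Metric.closedBall (0 : ℂ) (Real.sqrt (bb s)) ×ˢ Metric.closedBall (0 : V n) (Real.sqrt (bb s)))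
      ((isCompact_closedBall _ _).prod (isCompact_closedBall _ _))
    intro y hy
    by_contra h
    have hB := rB0_support hs (y := y) (fun h0 => h (by rw [h0]; ring))
    apply hy
    refine ⟨?_, ?_⟩
    · rw [mem_closedBall_zero_iff]; exact Real.le_sqrt_of_sq_le hB.2.1
    · rw [mem_closedBall_zero_iff]; exact Real.le_sqrt_of_sq_le hB.2.2
  exact (hc.integrable_of_hasCompactSupport hK).lintegral_lt_top

theorem ZB_pos : 0 < ZB s n := by
  have hb := bb_pos hs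
  have hc : Continuous (rB0 (n := n) s) := (contDiff_rB0 hs).continuous
  unfold ZB
  rw [lintegral_pos_iff_support (by fun_prop)]
  have hsupp : (Function.support fun y : M n => ENNReal.ofReal (rB0 s y ^ 2)) = rB0 (n := n) s ⁻¹' {0}ᶜ := by
    ext y
    simp only [Function.mem_support, ne_eq, ENNReal.ofReal_eq_zero, not_le, mem_preimage, mem_compl_iff,
      mem_singleton_iff]
    exact ⟨fun h h0 => by rw [h0] at h; simp at h, fun h => by positivity⟩
  rw [hsupp]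
  refine (isOpen_compl_singleton.preimage hc).measure_pos volume
    ⟨(((Real.sqrt (3 * bb s / 4) : ℝ) : ℂ), 0), ?_⟩
  have : 0 < rB0 (n := n) s (((Real.sqrt (3 * bb s / 4) : ℝ) : ℂ), 0) := by
    unfold rB0
    have e : ‖((Real.sqrt (3 * bb s / 4) : ℝ) : ℂ)‖ ^ 2 = 3 * bb s / 4 := by
      rw [Complex.norm_real, Real.norm_eq_abs, sq_abs, Real.sq_sqrt (by positivity)]
    apply gB_pos
    · simp only [e]; linarith
    · simp only [e]; linarith
    · simp; exact hb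
  exact this.ne'

theorem measurable_gA : Measurable (fun p : ℝ × ℝ => gA s n p.1 p.2) := by
  unfold gA
  have hom : Measurable (fun p : ℝ × ℝ => omA s p.1) := (measurable_omA hs).comp measurable_fst
  have hQ : Measurable (fun p : ℝ × ℝ => p.2 / kapN (omA s p.1) ^ 2) := by
    unfold kapN; fun_prop
  have hP : Measurable (fun p : ℝ × ℝ => PP s (omA s p.1) (p.2 / kapN (omA s p.1) ^ 2)) := by
    unfold PP Dd S1 S2; fun_prop
  have hJ : Measurable (fun p : ℝ × ℝ => Jac s n (omA s p.1) (p.2 / kapN (omA s p.1) ^ 2)) := by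
    unfold Jac dPP R0' Dd S1 S2
    have hk : Measurable (fun p : ℝ × ℝ => kapN (omA s p.1)) := by unfold kapN; fun_prop
    fun_prop
  apply Measurable.ite
  · exact (isOpen_R0_image hs).measurableSet.preimage measurable_fst
  · exact (measurable_const.mul ((measurable_gB hs).comp (hP.prodMk hQ))).mul hJ.sqrt
  · exact measurable_const

end Density

end Crest.Agent.R130
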