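import Crest.Agent.S0175_Param2
import Crest.Agent.S0175_Ineq
import Crest.Agent.S0175_Maps

/-! Row 130 (S0175), module U: the potential inequalities in `ℝ≥0∞`. -/

set_option autoImplicit false
set_option linter.unusedSectionVars false

namespace Crest.Agent.R130

open MeasureTheory Set
open scoped ENNReal
open Crest.AnalysisR.OT

variable {n : ℕ} {s : ℝ}

/-! ### elementary facts on `dist2`, `pc`, `cM` -/

theorem pot_dist2_nonneg (p q : M n) : 0 ≤ dist2 p q := by unfold dist2; positivity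

theorem pot_dist2_comm (p q : M n) : dist2 p q = dist2 q p := by
  unfold dist2; rw [norm_sub_rev p.1, norm_sub_rev p.2]

theorem pot_pc_comm (p q : M n) : pc s p q = pc s q p := by unfold pc; rw [pot_dist2_comm]

theorem pot_dist2_rot (θ : ℝ) (p q : M n) : dist2 (rot θ p) (rot θ q) = dist2 p q := by
  unfold dist2 rot
  simp only
  rw [← mul_sub, norm_mul, Complex.norm_exp_ofReal_mul_I, one_mul]

theorem pot_pc_of_pos {p q : M n} (h : 0 < dist2 p q) :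
    pc s p q = ENNReal.ofReal (dist2 p q ^ (-s / 2)) := by
  unfold pc
  rw [ENNReal.ofReal_rpow_of_pos (Real.sqrt_pos.mpr h), Real.sqrt_eq_rpow, ← Real.rpow_mul h.le]
  congr 2; ring

theorem pot_pc_of_zero (hs : 0 < s) {p q : M n} (h : dist2 p q = 0) : pc s p q = ⊤ := by
  unfold pc
  rw [h, Real.sqrt_zero, ENNReal.ofReal_zero, ENNReal.zero_rpow_of_neg (by linarith)]

theorem pot_cM_of_pos {x₁ x₂ x₃ : M n} (h12 : 0 < dist2 x₁ x₂) (h13 : 0 < dist2 x₁ x₃)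
    (h23 : 0 < dist2 x₂ x₃) :
    cM s (x₁, x₂, x₃) = ENNReal.ofReal
      (dist2 x₁ x₂ ^ (-s / 2) + dist2 x₁ x₃ ^ (-s / 2) + dist2 x₂ x₃ ^ (-s / 2)) := by
  unfold cM
  simp only
  rw [pot_pc_of_pos h12, pot_pc_of_pos h13, pot_pc_of_pos h23, ← ENNReal.ofReal_add (by positivity) (by positivity),
    ← ENNReal.ofReal_add (by positivity) (by positivity)]

theorem pot_cM_top (hs : 0 < s) {x₁ x₂ x₃ : M n}
    (h : ¬ (0 < dist2 x₁ x₂ ∧ 0 < dist2 x₁ x₃ ∧ 0 < dist2 x₂ x₃)) : cM s (x₁, x₂, x₃) = ⊤ := by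
  unfold cM
  simp only
  by_cases h12 : 0 < dist2 x₁ x₂
  · by_cases h13 : 0 < dist2 x₁ x₃
    · have h23 : dist2 x₂ x₃ = 0 :=
        le_antisymm (not_lt.mp fun h23 => h ⟨h12, h13, h23⟩) (pot_dist2_nonneg _ _)
      rw [pot_pc_of_zero hs h23]; simp
    · rw [pot_pc_of_zero hs (le_antisymm (not_lt.mp h13) (pot_dist2_nonneg _ _))]; simp
  · rw [pot_pc_of_zero hs (le_antisymm (not_lt.mp h12) (pot_dist2_nonneg _ _))]; simp

theorem pot_wN_nonneg (x : M n) : 0 ≤ wN x := by unfold wN; positivity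

/-! ### real bounds on the potential -/

section
variable (hs : 0 < s)
include hs

theorem pot_uM_A {x : M n} (hx : x ∈ Aset s n) : uM s x = -(wN x) := by
  unfold uM
  rw [if_neg (Set.disjoint_left.mp (disjoint_Aset_Bset hs) hx)]

omit hs in
theorem pot_uM_B {y : M n} (hy : y ∈ Bset s n) :
    uM s y = UB s (omY s y) (‖y.1‖ ^ 2) (‖y.2‖ ^ 2) := by
  unfold uM
  rw [if_pos hy]

theorem pot_omY_pos (y : M n) : 0 < omY s y := (omY_mem hs y).1
theorem pot_omY_lt_one (y : M n) : omY s y < 1 := (omY_mem hs y).2.trans (omax_lt_one hs)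

theorem pot_sa_pos : 0 < s ^ ea s := Real.rpow_pos_of_pos hs _

theorem pot_wN_pos_A {x : M n} (hx : x ∈ Aset s n) : 0 < wN x := by
  have h1 := hx.1
  have h2 := pot_sa_pos hs
  unfold wN
  have : 0 ≤ ‖x.2‖ ^ 2 := by positivity
  linarith

omit hs in
theorem pot_wN_le_A {x : M n} (hx : x ∈ Aset s n) : wN x ≤ KA s := by
  have h1 := hx.2
  unfold wN
  have : 0 ≤ ‖x.2‖ ^ 2 := by positivity
  linarith

theorem pot_uM_B_nonneg {y : M n} (hy : y ∈ Bset s n) : 0 ≤ uM s y := by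
  rw [pot_uM_B hy]
  have hz := Bset_fst_ne hs hy
  have h := cfg_value hs (pot_omY_pos hs y) (pot_omY_lt_one hs y) y hz (PP_omY hs y hz)
  have h1 : 0 ≤ S1 s (omY s y) ^ (-s / 2) := (Real.rpow_pos_of_pos (S1_pos hs (pot_omY_lt_one hs y)) _).le
  have h2 : 0 ≤ S2 s (omY s y) ^ (-s / 2) := (Real.rpow_pos_of_pos (S2_pos hs (pot_omY_pos hs y)) _).le
  have h3 := pot_wN_nonneg (cfg s (omY s y) 1 y)
  have h4 := pot_wN_nonneg (cfg s (omY s y) (-1) y)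
  linarith

theorem pot_uM_B_le {y : M n} (hy : y ∈ Bset s n) : uM s y ≤ K1 s := by
  rw [pot_uM_B hy]
  exact UB_le_K1 hs (pot_omY_pos hs y) (pot_omY_lt_one hs y) (by positivity) (by positivity)

theorem pot_uM_add_KA_nonneg {x : M n} (hx : x ∈ Aset s n ∪ Bset s n) : 0 ≤ uM s x + KA s := by
  rcases hx with hx | hx
  · rw [pot_uM_A hs hx]; have := pot_wN_le_A hx; linarith
  · have := pot_uM_B_nonneg hs hx; have := KA_pos hs; linarith

theorem pot_vM_sum {x₁ x₂ x₃ : M n} (h₁ : x₁ ∈ Aset s n ∪ Bset s n) (h₂ : x₂ ∈ Aset s n ∪ Bset s n)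
    (h₃ : x₃ ∈ Aset s n ∪ Bset s n) :
    vM s x₁ + vM s x₂ + vM s x₃ = ENNReal.ofReal (uM s x₁ + uM s x₂ + uM s x₃ + 3 * KA s) := by
  have a₁ := pot_uM_add_KA_nonneg hs h₁
  have a₂ := pot_uM_add_KA_nonneg hs h₂
  have a₃ := pot_uM_add_KA_nonneg hs h₃
  unfold vM
  rw [← ENNReal.ofReal_add a₁ a₂, ← ENNReal.ofReal_add (by linarith) a₃]
  congr 1; ring

omit hs in
theorem pot_dist2_B_le {y y' : M n} (hy : y ∈ Bset s n) (hy' : y' ∈ Bset s n) :
    dist2 y y' ≤ 8 * bb s := by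
  obtain ⟨-, h1, h2⟩ := hy
  obtain ⟨-, h1', h2'⟩ := hy'
  unfold dist2
  have e1 : ‖y.1 - y'.1‖ ^ 2 ≤ 2 * (‖y.1‖ ^ 2 + ‖y'.1‖ ^ 2) := by
    have h := norm_sub_le y.1 y'.1
    have h' : ‖y.1 - y'.1‖ ^ 2 ≤ (‖y.1‖ + ‖y'.1‖) ^ 2 := pow_le_pow_left₀ (norm_nonneg _) h 2
    nlinarith [sq_nonneg (‖y.1‖ - ‖y'.1‖)]
  have e2 : ‖y.2 - y'.2‖ ^ 2 ≤ 2 * (‖y.2‖ ^ 2 + ‖y'.2‖ ^ 2) := by
    have h := norm_sub_le y.2 y'.2
    have h' : ‖y.2 - y'.2‖ ^ 2 ≤ (‖y.2‖ + ‖y'.2‖) ^ 2 := pow_le_pow_left₀ (norm_nonneg _) h 2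
    nlinarith [sq_nonneg (‖y.2‖ - ‖y'.2‖)]
  linarith

theorem pot_cost_BB {y y' : M n} (hy : y ∈ Bset s n) (hy' : y' ∈ Bset s n) (hd : 0 < dist2 y y') :
    2 * K1 s < dist2 y y' ^ (-s / 2) :=
  lt_of_lt_of_le (bb_cost hs)
    (Real.rpow_le_rpow_of_nonpos hd (pot_dist2_B_le hy hy') (by linarith))

omit hs in
theorem pot_Phi_pos {p q : M n} (h : 0 < dist2 p q) : 0 < dist2 p q ^ (-s / 2) :=
  Real.rpow_pos_of_pos h _

/-- type AAB -/
theorem pot_real_AAB {x x' y : M n} (hx : x ∈ Aset s n) (hx' : x' ∈ Aset s n) (hy : y ∈ Bset s n)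
    (d1 : 0 < dist2 x x') (d2 : 0 < dist2 x y) (d3 : 0 < dist2 x' y) :
    uM s x + uM s x' + uM s y ≤
      dist2 x x' ^ (-s / 2) + dist2 x y ^ (-s / 2) + dist2 x' y ^ (-s / 2) := by
  rw [pot_uM_A hs hx, pot_uM_A hs hx', pot_uM_B hy]
  have := key_ineq hs (pot_omY_pos hs y) (pot_omY_lt_one hs y) y x x' d1 d2 d3
  linarith

theorem pot_real_AAB_eq {x x' y : M n} (hx : x ∈ Aset s n) (hx' : x' ∈ Aset s n) (hy : y ∈ Bset s n)
    (d1 : 0 < dist2 x x') (d2 : 0 < dist2 x y) (d3 : 0 < dist2 x' y)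
    (h : uM s x + uM s x' + uM s y =
      dist2 x x' ^ (-s / 2) + dist2 x y ^ (-s / 2) + dist2 x' y ^ (-s / 2)) :
    phi s 1 y = x ∨ phi s (-1) y = x := by
  rw [pot_uM_A hs hx, pot_uM_A hs hx', pot_uM_B hy] at h
  rcases key_eq hs (pot_omY_pos hs y) (pot_omY_lt_one hs y) y x x' (Bset_fst_ne hs hy) d1 d2 d3
    (by linarith) with ⟨h1, -⟩ | ⟨h1, -⟩
  · exact Or.inl h1.symm
  · exact Or.inr h1.symm

/-- type AAA, strict -/
theorem pot_real_AAA {x₁ x₂ x₃ : M n} (h₁ : x₁ ∈ Aset s n) (h₂ : x₂ ∈ Aset s n) (h₃ : x₃ ∈ Aset s n)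
    (d1 : 0 < dist2 x₁ x₂) (d2 : 0 < dist2 x₁ x₃) (d3 : 0 < dist2 x₂ x₃) :
    uM s x₁ + uM s x₂ + uM s x₃ <
      dist2 x₁ x₂ ^ (-s / 2) + dist2 x₁ x₃ ^ (-s / 2) + dist2 x₂ x₃ ^ (-s / 2) := by
  rw [pot_uM_A hs h₁, pot_uM_A hs h₂, pot_uM_A hs h₃]
  have := pot_wN_pos_A hs h₁
  have := pot_wN_pos_A hs h₂
  have := pot_wN_pos_A hs h₃
  have := pot_Phi_pos (s := s) d1
  have := pot_Phi_pos (s := s) d2
  have := pot_Phi_pos (s := s) d3
  linarith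

/-- type ABB, strict -/
theorem pot_real_ABB {x y y' : M n} (hx : x ∈ Aset s n) (hy : y ∈ Bset s n) (hy' : y' ∈ Bset s n)
    (d1 : 0 < dist2 x y) (d2 : 0 < dist2 x y') (d3 : 0 < dist2 y y') :
    uM s x + uM s y + uM s y' <
      dist2 x y ^ (-s / 2) + dist2 x y' ^ (-s / 2) + dist2 y y' ^ (-s / 2) := by
  rw [pot_uM_A hs hx]
  have := pot_wN_pos_A hs hx
  have := pot_uM_B_le hs hy
  have := pot_uM_B_le hs hy'
  have := pot_Phi_pos (s := s) d1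
  have := pot_Phi_pos (s := s) d2
  have := pot_cost_BB hs hy hy' d3
  linarith

/-- type BBB, strict -/
theorem pot_real_BBB {x₁ x₂ x₃ : M n} (h₁ : x₁ ∈ Bset s n) (h₂ : x₂ ∈ Bset s n) (h₃ : x₃ ∈ Bset s n)
    (d1 : 0 < dist2 x₁ x₂) (d2 : 0 < dist2 x₁ x₃) (d3 : 0 < dist2 x₂ x₃) :
    uM s x₁ + uM s x₂ + uM s x₃ <
      dist2 x₁ x₂ ^ (-s / 2) + dist2 x₁ x₃ ^ (-s / 2) + dist2 x₂ x₃ ^ (-s / 2) := by
  have := pot_uM_B_le hs h₁
  have := pot_uM_B_le hs h₂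
  have := pot_uM_B_le hs h₃
  have := pot_cost_BB hs h₁ h₂ d1
  have := pot_cost_BB hs h₁ h₃ d2
  have := pot_cost_BB hs h₂ h₃ d3
  have := K1_pos hs
  linarith

theorem pot_real_H1 {x₁ x₂ x₃ : M n} (h₁ : x₁ ∈ Aset s n ∪ Bset s n) (h₂ : x₂ ∈ Aset s n ∪ Bset s n)
    (h₃ : x₃ ∈ Aset s n ∪ Bset s n)
    (d12 : 0 < dist2 x₁ x₂) (d13 : 0 < dist2 x₁ x₃) (d23 : 0 < dist2 x₂ x₃) :
    uM s x₁ + uM s x₂ + uM s x₃ ≤
      dist2 x₁ x₂ ^ (-s / 2) + dist2 x₁ x₃ ^ (-s / 2) + dist2 x₂ x₃ ^ (-s / 2) := by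
  have d21 : 0 < dist2 x₂ x₁ := pot_dist2_comm x₁ x₂ ▸ d12
  have d31 : 0 < dist2 x₃ x₁ := pot_dist2_comm x₁ x₃ ▸ d13
  have d32 : 0 < dist2 x₃ x₂ := pot_dist2_comm x₂ x₃ ▸ d23
  have e21 := pot_dist2_comm x₂ x₁
  have e31 := pot_dist2_comm x₃ x₁
  have e32 := pot_dist2_comm x₃ x₂
  rcases h₁ with h₁ | h₁ <;> rcases h₂ with h₂ | h₂ <;> rcases h₃ with h₃ | h₃
  · exact (pot_real_AAA hs h₁ h₂ h₃ d12 d13 d23).le
  · exact pot_real_AAB hs h₁ h₂ h₃ d12 d13 d23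
  · have := pot_real_AAB hs h₁ h₃ h₂ d13 d12 d32
    rw [e32] at this; linarith
  · exact (pot_real_ABB hs h₁ h₂ h₃ d12 d13 d23).le
  · have := pot_real_AAB hs h₂ h₃ h₁ d23 d21 d31
    rw [e21, e31] at this; linarith
  · have := pot_real_ABB hs h₂ h₁ h₃ d21 d23 d13
    rw [e21] at this; linarith
  · have := pot_real_ABB hs h₃ h₁ h₂ d31 d32 d12
    rw [e31, e32] at this; linarith
  · exact (pot_real_BBB hs h₁ h₂ h₃ d12 d13 d23).le

end

/-! ### the Plan statements -/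

section Pot
variable (hs : 0 < s)
include hs

omit hs in
theorem pot_measurable_pc' {α : Type*} [MeasurableSpace α] {f g : α → M n} (hf : Measurable f)
    (hg : Measurable g) : Measurable (fun a => pc s (f a) (g a)) := by
  have h : Measurable (fun a => dist2 (f a) (g a)) := by
    unfold dist2; fun_prop
  unfold pc
  exact (h.sqrt.ennreal_ofReal).pow_const _

theorem measurable_cM : Measurable (cM (n := n) s) := by
  unfold cM
  have m1 : Measurable (fun t : M n × M n × M n => t.1) := measurable_fst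
  have m2 : Measurable (fun t : M n × M n × M n => t.2.1) := measurable_fst.comp measurable_snd
  have m3 : Measurable (fun t : M n × M n × M n => t.2.2) := measurable_snd.comp measurable_snd
  exact ((pot_measurable_pc' m1 m2).add (pot_measurable_pc' m1 m3)).add (pot_measurable_pc' m2 m3)

theorem cM_symm1 (a b d : M n) : cM s (a, b, d) = cM s (b, a, d) := by
  unfold cM
  simp only
  rw [pot_pc_comm a b, add_assoc, add_assoc, add_comm (pc s a d)]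

theorem cM_symm2 (a b d : M n) : cM s (a, b, d) = cM s (a, d, b) := by
  unfold cM
  simp only
  rw [pot_pc_comm b d, add_comm (pc s a b)]

theorem cM_rot (θ : ℝ) (a b d : M n) : cM s (rot θ a, rot θ b, rot θ d) = cM s (a, b, d) := by
  unfold cM pc
  simp only [pot_dist2_rot]

theorem pot_measurable_uM : Measurable (uM (n := n) s) := by
  unfold uM
  refine Measurable.ite (measurableSet_Bset hs) ?_ ?_
  · have hw : Measurable (fun x : M n => omY s x) := by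
      have h2 : Measurable (fun x : M n => ((‖x.1‖ ^ 2, ‖x.2‖ ^ 2) : ℝ × ℝ)) := by fun_prop
      unfold omY
      exact (measurable_omB hs).comp h2
    unfold UB S1 S2 kap
    fun_prop
  · unfold wN; fun_prop

theorem measurable_vM : Measurable (vM (n := n) s) := by
  unfold vM
  exact ((pot_measurable_uM hs).add_const _).ennreal_ofReal

theorem vM_le (x : M n) : vM s x ≤ ENNReal.ofReal (K1 s + KA s) := by
  unfold vM
  apply ENNReal.ofReal_le_ofReal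
  have : uM s x ≤ K1 s := by
    by_cases hx : x ∈ Bset s n
    · exact pot_uM_B_le hs hx
    · unfold uM; rw [if_neg hx]
      have := pot_wN_nonneg x
      have := K1_pos hs
      linarith
  linarith

theorem pot_H1 : ∀ x₁ ∈ Aset s n ∪ Bset s n, ∀ x₂ ∈ Aset s n ∪ Bset s n, ∀ x₃ ∈ Aset s n ∪ Bset s n,
    vM s x₁ + vM s x₂ + vM s x₃ ≤ cM s (x₁, x₂, x₃) + ENNReal.ofReal (3 * KA s) := by
  intro x₁ h₁ x₂ h₂ x₃ h₃
  by_cases hd : 0 < dist2 x₁ x₂ ∧ 0 < dist2 x₁ x₃ ∧ 0 < dist2 x₂ x₃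
  · obtain ⟨d12, d13, d23⟩ := hd
    have hK := KA_pos hs
    have p1 := pot_Phi_pos (s := s) d12
    have p2 := pot_Phi_pos (s := s) d13
    have p3 := pot_Phi_pos (s := s) d23
    rw [pot_vM_sum hs h₁ h₂ h₃, pot_cM_of_pos d12 d13 d23, ← ENNReal.ofReal_add (by positivity) (by positivity)]
    apply ENNReal.ofReal_le_ofReal
    have := pot_real_H1 hs h₁ h₂ h₃ d12 d13 d23
    linarith
  · rw [pot_cM_top hs hd, top_add]; exact le_top

theorem pot_H2 : ∀ y ∈ Bset s n, vM s y + vM s (phi s 1 y) + vM s (phi s (-1) y) =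
    cM s (y, phi s 1 y, phi s (-1) y) + ENNReal.ofReal (3 * KA s) := by
  intro y hy
  have hz := Bset_fst_ne hs hy
  have h0 := pot_omY_pos hs y
  have h1 := pot_omY_lt_one hs y
  have hP := PP_omY hs y hz
  have hp : phi s 1 y ∈ Aset s n := phi_mem_Aset hs (Or.inl rfl) hy
  have hm : phi s (-1) y ∈ Aset s n := phi_mem_Aset hs (Or.inr rfl) hy
  have e12 : dist2 y (phi s 1 y) = S2 s (omY s y) := by
    rw [pot_dist2_comm]; exact cfg_dist_side hs (Or.inl rfl) h0 h1 y hz hP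
  have e13 : dist2 y (phi s (-1) y) = S2 s (omY s y) := by
    rw [pot_dist2_comm]; exact cfg_dist_side hs (Or.inr rfl) h0 h1 y hz hP
  have e23 : dist2 (phi s 1 y) (phi s (-1) y) = S1 s (omY s y) := cfg_dist_base hs h0 h1 y hz
  have s1 := S1_pos hs h1
  have s2 := S2_pos hs h0
  have hK := KA_pos hs
  have p1 : 0 < S1 s (omY s y) ^ (-s / 2) := Real.rpow_pos_of_pos s1 _
  have p2 : 0 < S2 s (omY s y) ^ (-s / 2) := Real.rpow_pos_of_pos s2 _
  rw [pot_vM_sum hs (Or.inr hy) (Or.inl hp) (Or.inl hm),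
    pot_cM_of_pos (by rw [e12]; exact s2) (by rw [e13]; exact s2) (by rw [e23]; exact s1),
    e12, e13, e23, ← ENNReal.ofReal_add (by positivity) (by positivity),
    pot_uM_B hy, pot_uM_A hs hp, pot_uM_A hs hm]
  congr 1
  have := cfg_value hs h0 h1 y hz hP
  unfold phi
  linarith

theorem pot_H3 : ∀ x₁ ∈ Aset s n, ∀ x₂ ∈ Aset s n ∪ Bset s n, ∀ x₃ ∈ Aset s n ∪ Bset s n,
    vM s x₁ + vM s x₂ + vM s x₃ = cM s (x₁, x₂, x₃) + ENNReal.ofReal (3 * KA s) →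
    (x₂ ∈ Bset s n ∧ (phi s 1 x₂ = x₁ ∨ phi s (-1) x₂ = x₁)) ∨
      (x₃ ∈ Bset s n ∧ (phi s 1 x₃ = x₁ ∨ phi s (-1) x₃ = x₁)) := by
  intro x₁ h₁ x₂ h₂ x₃ h₃ heq
  rw [pot_vM_sum hs (Or.inl h₁) h₂ h₃] at heq
  by_cases hd : 0 < dist2 x₁ x₂ ∧ 0 < dist2 x₁ x₃ ∧ 0 < dist2 x₂ x₃
  · obtain ⟨d12, d13, d23⟩ := hd
    have hK := KA_pos hs
    have p1 := pot_Phi_pos (s := s) d12
    have p2 := pot_Phi_pos (s := s) d13
    have p3 := pot_Phi_pos (s := s) d23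
    rw [pot_cM_of_pos d12 d13 d23, ← ENNReal.ofReal_add (by positivity) (by positivity)] at heq
    have a₁ := pot_uM_add_KA_nonneg hs (Or.inl h₁ : x₁ ∈ Aset s n ∪ Bset s n)
    have a₂ := pot_uM_add_KA_nonneg hs h₂
    have a₃ := pot_uM_add_KA_nonneg hs h₃
    have hreal := (ENNReal.ofReal_eq_ofReal_iff (by linarith) (by positivity)).mp heq
    have d32 : 0 < dist2 x₃ x₂ := pot_dist2_comm x₂ x₃ ▸ d23
    have e32 := pot_dist2_comm x₃ x₂
    rcases h₂ with h₂ | h₂ <;> rcases h₃ with h₃ | h₃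
    · have := pot_real_AAA hs h₁ h₂ h₃ d12 d13 d23
      linarith
    · exact Or.inr ⟨h₃, pot_real_AAB_eq hs h₁ h₂ h₃ d12 d13 d23 (by linarith)⟩
    · exact Or.inl ⟨h₂, pot_real_AAB_eq hs h₁ h₃ h₂ d13 d12 d32 (by rw [e32]; linarith)⟩
    · have := pot_real_ABB hs h₁ h₂ h₃ d12 d13 d23
      linarith
  · rw [pot_cM_top hs hd, top_add] at heq
    exact absurd heq ENNReal.ofReal_ne_top

end Pot

end Crest.Agent.R130
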