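import Crest.Agent.S0175_Param2

/-! Row 130 (S0175), module J: the change of variables on `ℝ × V n`. -/

set_option autoImplicit false

namespace Crest.Agent.R130

open MeasureTheory Set
open scoped ENNReal

variable {n : ℕ} {s : ℝ}

/-- the common integrand in the coordinates `(w, η)` -/
noncomputable def hJ (s : ℝ) (f : ℝ × V n → ℝ≥0∞) (w : ℝ) (η : V n) : ℝ≥0∞ :=
  ENNReal.ofReal (dPP s w (‖η‖ ^ 2)) *
    (f (R0 s w - 4 * kapN w ^ 2 * ‖η‖ ^ 2, (-(kapN w)) • η) *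
      ENNReal.ofReal (gB s (PP s w (‖η‖ ^ 2)) (‖η‖ ^ 2) ^ 2))

theorem pcr_Om_sub (hs : 0 < s) {w : ℝ} (h : w ∈ Om s) : 0 < w ∧ w < 1 :=
  ⟨h.1, h.2.trans (omax_lt_one hs)⟩

theorem pcr_gB_eq_zero_of_nonpos (hs : 0 < s) {P : ℝ} (hP : P ≤ 0) (Q : ℝ) : gB s P Q = 0 := by
  unfold gB
  have : P - bb s / 2 ≤ 0 := by have := bb_pos hs; linarith
  rw [Real.smoothTransition.zero_of_nonpos this]; simp

/-- Step A: for fixed `η`, substitute `P = PP w |η|²`. -/
theorem stepA (hs : 0 < s) (f : ℝ × V n → ℝ≥0∞) (η : V n) :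
    ∫⁻ P in Ioi (0 : ℝ),
        f (R0 s (omB s P (‖η‖ ^ 2)) - 4 * kapN (omB s P (‖η‖ ^ 2)) ^ 2 * ‖η‖ ^ 2,
            (-(kapN (omB s P (‖η‖ ^ 2)))) • η) * ENNReal.ofReal (gB s P (‖η‖ ^ 2) ^ 2)
      = ∫⁻ w in Om s, hJ s f w η := by
  set Q := ‖η‖ ^ 2 with hQdef
  have hQ : 0 ≤ Q := by positivity
  set S : Set ℝ := {w | w ∈ Om s ∧ 0 < PP s w Q} with hS
  have hcont : ContinuousOn (fun w => PP s w Q) (Om s) := fun w hw =>
    (hasDerivAt_PP hs (pcr_Om_sub hs hw).1 (pcr_Om_sub hs hw).2 Q).continuousAt.continuousWithinAt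
  have hSm : MeasurableSet S := by
    have : S = Om s ∩ (fun w => PP s w Q) ⁻¹' Ioi 0 := by ext w; simp [hS]
    rw [this]
    exact (hcont.isOpen_inter_preimage isOpen_Ioo isOpen_Ioi).measurableSet
  have himg : (fun w => PP s w Q) '' S = Ioi 0 := by
    ext P
    constructor
    · rintro ⟨w, hw, rfl⟩; exact hw.2
    · intro hP
      refine ⟨omB s P Q, ⟨omB_mem hs P Q, ?_⟩, PP_omB hs hP hQ⟩
      rw [PP_omB hs hP hQ]; exact hP
  have hinj : InjOn (fun w => PP s w Q) S := by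
    intro a ha b hb hab
    simp only at hab
    rw [← omB_unique hs ha.2 hQ ha.1 rfl, ← omB_unique hs hb.2 hQ hb.1 rfl, hab]
  have hder : ∀ w ∈ S, HasDerivWithinAt (fun w => PP s w Q) (-(dPP s w Q)) S w := fun w hw =>
    (hasDerivAt_PP hs (pcr_Om_sub hs hw.1).1 (pcr_Om_sub hs hw.1).2 Q).hasDerivWithinAt
  rw [← himg, lintegral_image_eq_lintegral_abs_deriv_mul hSm hder hinj]
  -- now compare the integrals over `S` and `Om s`
  have hsub : S ⊆ Om s := fun w hw => hw.1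
  have h1 : ∫⁻ w in S, ENNReal.ofReal |-(dPP s w Q)| *
        (f (R0 s (omB s (PP s w Q) Q) - 4 * kapN (omB s (PP s w Q) Q) ^ 2 * Q,
            (-(kapN (omB s (PP s w Q) Q))) • η) * ENNReal.ofReal (gB s (PP s w Q) Q ^ 2))
      = ∫⁻ w in S, hJ s f w η := by
    apply setLIntegral_congr_fun hSm
    intro w hw
    simp only
    rw [omB_unique hs hw.2 hQ hw.1 rfl, abs_neg, abs_of_pos (dPP_pos hs hw.1 hQ hw.2)]
    rfl
  rw [h1]
  -- `hJ` vanishes on `Om s \ S`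
  have h2 : ∫⁻ w in Om s, hJ s f w η = ∫⁻ w in Om s, S.indicator (fun w => hJ s f w η) w := by
    apply setLIntegral_congr_fun measurableSet_Ioo
    intro w hw
    by_cases hwS : w ∈ S
    · simp [hwS]
    · have hP : PP s w Q ≤ 0 := by
        by_contra hcon
        exact hwS ⟨hw, not_le.1 hcon⟩
      simp only [indicator_of_notMem hwS]
      unfold hJ
      rw [← hQdef, pcr_gB_eq_zero_of_nonpos hs hP]
      simp
  rw [h2, lintegral_indicator hSm, Measure.restrict_restrict hSm, inter_eq_left.2 hsub]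

/-- the integrand in the coordinates `(w, ξ)` -/
noncomputable def gJ (s : ℝ) (f : ℝ × V n → ℝ≥0∞) (w : ℝ) (ξ : V n) : ℝ≥0∞ :=
  ENNReal.ofReal (dPP s w (‖ξ‖ ^ 2 / kapN w ^ 2)) *
    (f (R0 s w - 4 * ‖ξ‖ ^ 2, ξ) *
      ENNReal.ofReal (gB s (PP s w (‖ξ‖ ^ 2 / kapN w ^ 2)) (‖ξ‖ ^ 2 / kapN w ^ 2) ^ 2))

theorem pcr_kapN_pos (hs : 0 < s) {w : ℝ} (h : w ∈ Om s) : 0 < kapN w := by
  unfold kapN
  have := pcr_Om_sub hs h
  exact div_pos this.1 (by linarith)

theorem pcr_kap_pos (hs : 0 < s) {w : ℝ} (h : w ∈ Om s) : 0 < kap w := by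
  unfold kap
  have := pcr_Om_sub hs h
  exact div_pos this.1 (by linarith)

theorem pcr_PP_pos_of_gB_ne (hs : 0 < s) {P Q : ℝ} (h : gB s P Q ≠ 0) : 0 < P := by
  by_contra hcon
  exact h (pcr_gB_eq_zero_of_nonpos hs (not_lt.1 hcon) Q)

/-- pointwise identity behind step B -/
theorem stepB_pt (hs : 0 < s) (f : ℝ × V n → ℝ≥0∞) (ξ : V n) {w : ℝ} (hw : w ∈ Om s) :
    ENNReal.ofReal |R0' s w| * (f (R0 s w - 4 * ‖ξ‖ ^ 2, ξ) *
        ENNReal.ofReal (gA s n (R0 s w - 4 * ‖ξ‖ ^ 2 + 4 * ‖ξ‖ ^ 2) (‖ξ‖ ^ 2) ^ 2))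
      = 2 * (ENNReal.ofReal (kapN w ^ n))⁻¹ * gJ s f w ξ := by
  have hk := pcr_kapN_pos hs hw
  have hR := R0'_pos hs hw
  have hkn : 0 < kapN w ^ n := by positivity
  rw [sub_add_cancel, abs_of_pos hR]
  unfold gA gJ
  rw [if_pos (mem_image_of_mem _ hw), omA_R0 hs hw]
  set Q := ‖ξ‖ ^ 2 / kapN w ^ 2 with hQdef
  have hQ : 0 ≤ Q := by positivity
  by_cases hg : gB s (PP s w Q) Q = 0
  · simp [hg]
  · have hP := pcr_PP_pos_of_gB_ne hs hg
    have hd := dPP_pos hs hw hQ hP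
    have hJ : 0 < Jac s n w Q := by unfold Jac; positivity
    have e1 : (Real.sqrt 2 * gB s (PP s w Q) Q * Real.sqrt (Jac s n w Q)) ^ 2
        = 2 * (kapN w ^ n)⁻¹ * (R0' s w)⁻¹ * dPP s w Q * gB s (PP s w Q) Q ^ 2 := by
      rw [mul_pow, mul_pow, Real.sq_sqrt hJ.le, Real.sq_sqrt (by norm_num : (0:ℝ) ≤ 2)]
      unfold Jac
      field_simp
    rw [e1]
    have e2 : ENNReal.ofReal (2 * (kapN w ^ n)⁻¹ * (R0' s w)⁻¹ * dPP s w Q * gB s (PP s w Q) Q ^ 2)
        = 2 * (ENNReal.ofReal (kapN w ^ n))⁻¹ * (ENNReal.ofReal (R0' s w))⁻¹ * ENNReal.ofReal (dPP s w Q) *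
          ENNReal.ofReal (gB s (PP s w Q) Q ^ 2) := by
      rw [ENNReal.ofReal_mul (by positivity), ENNReal.ofReal_mul (by positivity),
        ENNReal.ofReal_mul (by positivity), ENNReal.ofReal_mul (by positivity),
        ENNReal.ofReal_inv_of_pos hkn, ENNReal.ofReal_inv_of_pos hR]
      simp
    rw [e2]
    have hR0 : ENNReal.ofReal (R0' s w) ≠ 0 := by simpa using hR
    have hRt : ENNReal.ofReal (R0' s w) ≠ ⊤ := ENNReal.ofReal_ne_top
    calc ENNReal.ofReal (R0' s w) * (f (R0 s w - 4 * ‖ξ‖ ^ 2, ξ) *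
          (2 * (ENNReal.ofReal (kapN w ^ n))⁻¹ * (ENNReal.ofReal (R0' s w))⁻¹ * ENNReal.ofReal (dPP s w Q) *
          ENNReal.ofReal (gB s (PP s w Q) Q ^ 2)))
        = (ENNReal.ofReal (R0' s w) * (ENNReal.ofReal (R0' s w))⁻¹) *
          (2 * (ENNReal.ofReal (kapN w ^ n))⁻¹ * (ENNReal.ofReal (dPP s w Q) *
            (f (R0 s w - 4 * ‖ξ‖ ^ 2, ξ) * ENNReal.ofReal (gB s (PP s w Q) Q ^ 2)))) := by ring
      _ = _ := by rw [ENNReal.mul_inv_cancel hR0 hRt, one_mul]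

/-- Step B: for fixed `ξ`, substitute `R = R0 w - 4|ξ|²`. -/
theorem stepB (hs : 0 < s) (f : ℝ × V n → ℝ≥0∞) (ξ : V n) :
    ∫⁻ R in Ioi (0 : ℝ), f (R, ξ) * ENNReal.ofReal (gA s n (R + 4 * ‖ξ‖ ^ 2) (‖ξ‖ ^ 2) ^ 2)
      = ∫⁻ w in Om s, 2 * (ENNReal.ofReal (kapN w ^ n))⁻¹ * gJ s f w ξ := by
  set q := ‖ξ‖ ^ 2 with hqdef
  set S : Set ℝ := {w | w ∈ Om s ∧ 0 < R0 s w - 4 * q} with hS
  have hcont : ContinuousOn (fun w => R0 s w - 4 * q) (Om s) := fun w hw =>
    ((hasDerivAt_R0 hs (pcr_Om_sub hs hw).1 (pcr_Om_sub hs hw).2).sub_const (4 * q)).continuousAt.continuousWithinAt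
  have hSm : MeasurableSet S := by
    have : S = Om s ∩ (fun w => R0 s w - 4 * q) ⁻¹' Ioi 0 := by ext w; simp [hS]
    rw [this]
    exact (hcont.isOpen_inter_preimage isOpen_Ioo isOpen_Ioi).measurableSet
  have hsub : S ⊆ Om s := fun w hw => hw.1
  have hinj : InjOn (fun w => R0 s w - 4 * q) S := by
    intro a ha b hb hab
    simp only at hab
    exact (R0_strictMonoOn hs).injOn ha.1 hb.1 (by linarith)
  have hder : ∀ w ∈ S, HasDerivWithinAt (fun w => R0 s w - 4 * q) (R0' s w) S w := fun w hw =>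
    ((hasDerivAt_R0 hs (pcr_Om_sub hs hw.1).1 (pcr_Om_sub hs hw.1).2).sub_const (4 * q)).hasDerivWithinAt
  have himgsub : (fun w => R0 s w - 4 * q) '' S ⊆ Ioi 0 := by
    rintro _ ⟨w, hw, rfl⟩; exact hw.2
  have himgm : MeasurableSet ((fun w => R0 s w - 4 * q) '' S) :=
    measurable_image_of_fderivWithin hSm (fun w hw => (hder w hw).hasFDerivWithinAt) hinj
  -- the integrand vanishes outside the image
  have h0 : ∫⁻ R in Ioi (0 : ℝ), f (R, ξ) * ENNReal.ofReal (gA s n (R + 4 * q) q ^ 2)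
      = ∫⁻ R in (fun w => R0 s w - 4 * q) '' S, f (R, ξ) * ENNReal.ofReal (gA s n (R + 4 * q) q ^ 2) := by
    have : ∫⁻ R in Ioi (0 : ℝ), f (R, ξ) * ENNReal.ofReal (gA s n (R + 4 * q) q ^ 2)
        = ∫⁻ R in Ioi (0 : ℝ), ((fun w => R0 s w - 4 * q) '' S).indicator
            (fun R => f (R, ξ) * ENNReal.ofReal (gA s n (R + 4 * q) q ^ 2)) R := by
      apply setLIntegral_congr_fun measurableSet_Ioi
      intro R hR
      by_cases hRS : R ∈ (fun w => R0 s w - 4 * q) '' S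
      · simp [hRS]
      · simp only [indicator_of_notMem hRS]
        have : R + 4 * q ∉ R0 s '' Om s := by
          rintro ⟨w, hw, hwR⟩
          apply hRS
          refine ⟨w, ⟨hw, ?_⟩, ?_⟩
          · have : (0:ℝ) < R := hR
            linarith
          · simp only; linarith
        unfold gA
        rw [if_neg this]; simp
    rw [this, lintegral_indicator himgm, Measure.restrict_restrict himgm, inter_eq_left.2 himgsub]
  rw [h0, lintegral_image_eq_lintegral_abs_deriv_mul hSm hder hinj]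
  have h1 : ∫⁻ w in S, ENNReal.ofReal |R0' s w| * (f (R0 s w - 4 * q, ξ) *
        ENNReal.ofReal (gA s n (R0 s w - 4 * q + 4 * q) q ^ 2))
      = ∫⁻ w in S, 2 * (ENNReal.ofReal (kapN w ^ n))⁻¹ * gJ s f w ξ := by
    apply setLIntegral_congr_fun hSm
    intro w hw
    exact stepB_pt hs f ξ hw.1
  rw [h1]
  have h2 : ∫⁻ w in Om s, 2 * (ENNReal.ofReal (kapN w ^ n))⁻¹ * gJ s f w ξ
      = ∫⁻ w in Om s, S.indicator (fun w => 2 * (ENNReal.ofReal (kapN w ^ n))⁻¹ * gJ s f w ξ) w := by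
    apply setLIntegral_congr_fun measurableSet_Ioo
    intro w hw
    by_cases hwS : w ∈ S
    · simp [hwS]
    · simp only [indicator_of_notMem hwS]
      have hle : R0 s w - 4 * q ≤ 0 := by
        by_contra hcon
        exact hwS ⟨hw, not_le.1 hcon⟩
      have hk := pcr_kapN_pos hs hw
      have hsubR := R0_sub hs (pcr_Om_sub hs hw).1 (pcr_Om_sub hs hw).2 (q / kapN w ^ 2)
      have e : 4 * kapN w ^ 2 * (q / kapN w ^ 2) = 4 * q := by field_simp
      rw [e] at hsubR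
      have hS1 := S1_pos hs (pcr_Om_sub hs hw).2
      have hkap := pcr_kap_pos hs hw
      have hP : PP s w (q / kapN w ^ 2) ≤ 0 := by
        by_contra hcon
        have hpos : 0 < kap w ^ 2 * PP s w (q / kapN w ^ 2) := by
          have := not_le.1 hcon
          positivity
        linarith
      unfold gJ
      rw [← hqdef, pcr_gB_eq_zero_of_nonpos hs hP]
      simp
  rw [h2, lintegral_indicator hSm, Measure.restrict_restrict hSm, inter_eq_left.2 hsub]

theorem pcr_measurable_S1 : Measurable (S1 s) := by unfold S1; fun_prop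
theorem pcr_measurable_S2 : Measurable (S2 s) := by unfold S2; fun_prop
theorem pcr_measurable_Dd : Measurable (Dd s) := by
  unfold Dd; exact pcr_measurable_S2.sub (pcr_measurable_S1.div_const 4)
theorem pcr_measurable_R0 : Measurable (R0 s) := by
  unfold R0
  have h1 := pcr_measurable_S1 (s := s)
  have h2 := pcr_measurable_S2 (s := s)
  fun_prop
theorem pcr_measurable_kapN : Measurable kapN := by unfold kapN; fun_prop
theorem pcr_measurable_PP : Measurable (fun p : ℝ × ℝ => PP s p.1 p.2) := by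
  unfold PP
  have h1 := pcr_measurable_Dd (s := s)
  fun_prop
theorem pcr_measurable_dPP : Measurable (fun p : ℝ × ℝ => dPP s p.1 p.2) := by
  unfold dPP
  have h1 := pcr_measurable_Dd (s := s)
  have h2 := pcr_measurable_S1 (s := s)
  have h3 := pcr_measurable_S2 (s := s)
  fun_prop
theorem pcr_measurable_gB' : Measurable (fun p : ℝ × ℝ => gB s p.1 p.2) := by
  unfold gB
  have h := Real.smoothTransition.continuous.measurable
  fun_prop

theorem pcr_measurable_hJ (f : ℝ × V n → ℝ≥0∞) (hf : Measurable f) :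
    Measurable (fun p : ℝ × V n => hJ s f p.1 p.2) := by
  unfold hJ
  have h1 := pcr_measurable_dPP (s := s)
  have h2 := pcr_measurable_PP (s := s)
  have h3 := pcr_measurable_gB' (s := s)
  have h4 := pcr_measurable_R0 (s := s)
  have h5 := pcr_measurable_kapN
  have a1 : Measurable (fun p : ℝ × V n => dPP s p.1 (‖p.2‖ ^ 2)) :=
    h1.comp (measurable_fst.prodMk (measurable_snd.norm.pow_const 2))
  have a2 : Measurable (fun p : ℝ × V n => PP s p.1 (‖p.2‖ ^ 2)) :=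
    h2.comp (measurable_fst.prodMk (measurable_snd.norm.pow_const 2))
  have a3 : Measurable (fun p : ℝ × V n => gB s (PP s p.1 (‖p.2‖ ^ 2)) (‖p.2‖ ^ 2)) :=
    h3.comp (a2.prodMk (measurable_snd.norm.pow_const 2))
  have a4 : Measurable (fun p : ℝ × V n =>
      ((R0 s p.1 - 4 * kapN p.1 ^ 2 * ‖p.2‖ ^ 2, (-(kapN p.1)) • p.2) : ℝ × V n)) := by
    apply Measurable.prodMk
    · fun_prop
    · exact (h5.comp measurable_fst).neg.smul measurable_snd
  exact a1.ennreal_ofReal.mul ((hf.comp a4).mul (a3.pow_const 2).ennreal_ofReal)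

theorem pcr_measurable_gJ (f : ℝ × V n → ℝ≥0∞) (hf : Measurable f) :
    Measurable (fun p : ℝ × V n => gJ s f p.1 p.2) := by
  unfold gJ
  have h1 := pcr_measurable_dPP (s := s)
  have h2 := pcr_measurable_PP (s := s)
  have h3 := pcr_measurable_gB' (s := s)
  have h4 := pcr_measurable_R0 (s := s)
  have h5 := pcr_measurable_kapN
  have a0 : Measurable (fun p : ℝ × V n => ‖p.2‖ ^ 2 / kapN p.1 ^ 2) := by fun_prop
  have a1 : Measurable (fun p : ℝ × V n => dPP s p.1 (‖p.2‖ ^ 2 / kapN p.1 ^ 2)) :=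
    h1.comp (measurable_fst.prodMk a0)
  have a2 : Measurable (fun p : ℝ × V n => PP s p.1 (‖p.2‖ ^ 2 / kapN p.1 ^ 2)) :=
    h2.comp (measurable_fst.prodMk a0)
  have a3 : Measurable (fun p : ℝ × V n =>
      gB s (PP s p.1 (‖p.2‖ ^ 2 / kapN p.1 ^ 2)) (‖p.2‖ ^ 2 / kapN p.1 ^ 2)) :=
    h3.comp (a2.prodMk a0)
  have a4 : Measurable (fun p : ℝ × V n => ((R0 s p.1 - 4 * ‖p.2‖ ^ 2, p.2) : ℝ × V n)) := by
    apply Measurable.prodMk
    · fun_prop
    · exact measurable_snd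
  exact a1.ennreal_ofReal.mul ((hf.comp a4).mul (a3.pow_const 2).ennreal_ofReal)

/-- Step C: for fixed `w`, substitute `ξ = -kapN w • η`. -/
theorem stepC (hs : 0 < s) (f : ℝ × V n → ℝ≥0∞) (hf : Measurable f) {w : ℝ} (hw : w ∈ Om s) :
    ∫⁻ ξ : V n, gJ s f w ξ = ENNReal.ofReal (kapN w ^ n) * ∫⁻ η : V n, hJ s f w η := by
  have hk := pcr_kapN_pos hs hw
  have hr : -(kapN w) ≠ 0 := neg_ne_zero.2 hk.ne'
  have hm : Measurable (fun ξ : V n => gJ s f w ξ) := by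
    have := (pcr_measurable_gJ (s := s) f hf).comp (measurable_prodMk_left (x := w))
    exact this
  have hmap := Measure.map_addHaar_smul (volume : Measure (V n)) hr
  have h2 : ∀ η : V n, gJ s f w ((-(kapN w)) • η) = hJ s f w η := by
    intro η
    unfold gJ hJ
    have e1 : ‖(-(kapN w)) • η‖ ^ 2 = kapN w ^ 2 * ‖η‖ ^ 2 := by
      rw [norm_smul, mul_pow, Real.norm_eq_abs, abs_neg, sq_abs]
    have e2 : kapN w ^ 2 * ‖η‖ ^ 2 / kapN w ^ 2 = ‖η‖ ^ 2 := by field_simp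
    have e4 : 4 * (kapN w ^ 2 * ‖η‖ ^ 2) = 4 * kapN w ^ 2 * ‖η‖ ^ 2 := by ring
    rw [e1, e2, e4]
  have hkn : 0 < kapN w ^ n := by positivity
  have e3 : |((-(kapN w)) ^ Module.finrank ℝ (V n))⁻¹| = (kapN w ^ n)⁻¹ := by
    rw [finrank_euclideanSpace, Fintype.card_fin, abs_inv, abs_pow, abs_neg, abs_of_pos hk]
  have h1 : ∫⁻ η : V n, hJ s f w η
      = (ENNReal.ofReal (kapN w ^ n))⁻¹ * ∫⁻ ξ : V n, gJ s f w ξ := by
    calc ∫⁻ η : V n, hJ s f w η = ∫⁻ η : V n, gJ s f w ((-(kapN w)) • η) := by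
          exact lintegral_congr (fun η => (h2 η).symm)
      _ = ∫⁻ ξ, gJ s f w ξ ∂(Measure.map (fun η : V n => (-(kapN w)) • η) volume) :=
          (lintegral_map hm (measurable_const_smul _)).symm
      _ = _ := by
          rw [hmap, lintegral_smul_measure, smul_eq_mul, e3, ENNReal.ofReal_inv_of_pos hkn]
  rw [h1, ← mul_assoc, ENNReal.mul_inv_cancel (by simpa using hkn) ENNReal.ofReal_ne_top, one_mul]

theorem push_core (hs : 0 < s) (f : ℝ × V n → ℝ≥0∞) (hf : Measurable f) :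
    ∫⁻ η : V n, ∫⁻ P in Ioi (0 : ℝ),
        f (R0 s (omB s P (‖η‖ ^ 2)) - 4 * kapN (omB s P (‖η‖ ^ 2)) ^ 2 * ‖η‖ ^ 2,
            (-(kapN (omB s P (‖η‖ ^ 2)))) • η) * ENNReal.ofReal (gB s P (‖η‖ ^ 2) ^ 2)
      = (1 / 2 : ℝ≥0∞) * ∫⁻ ξ : V n, ∫⁻ R in Ioi (0 : ℝ),
        f (R, ξ) * ENNReal.ofReal (gA s n (R + 4 * ‖ξ‖ ^ 2) (‖ξ‖ ^ 2) ^ 2) := by
  simp only [stepA hs f, stepB hs f]
  have hkm : Measurable (fun w : ℝ => 2 * (ENNReal.ofReal (kapN w ^ n))⁻¹) :=
    ((pcr_measurable_kapN.pow_const n).ennreal_ofReal.inv).const_mul 2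
  -- swap on the right
  rw [lintegral_lintegral_swap (μ := (volume : Measure (V n))) (ν := volume.restrict (Om s))
    (f := fun ξ w => 2 * (ENNReal.ofReal (kapN w ^ n))⁻¹ * gJ s f w ξ)
    (((hkm.comp measurable_snd).mul ((pcr_measurable_gJ f hf).comp measurable_swap)).aemeasurable)]
  -- swap on the left
  rw [lintegral_lintegral_swap (μ := (volume : Measure (V n))) (ν := volume.restrict (Om s))
    (f := fun η w => hJ s f w η) (((pcr_measurable_hJ f hf).comp measurable_swap).aemeasurable)]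
  rw [← lintegral_const_mul' _ _ (by simp)]
  apply setLIntegral_congr_fun measurableSet_Ioo
  intro w hw
  simp only
  have hkn : 0 < kapN w ^ n := by have := pcr_kapN_pos hs hw; positivity
  rw [lintegral_const_mul' _ _ (by
    apply ENNReal.mul_ne_top (by simp)
    simpa using hkn), stepC hs f hf hw]
  calc ∫⁻ η : V n, hJ s f w η
      = (1 / 2 * 2) * ((ENNReal.ofReal (kapN w ^ n))⁻¹ * ENNReal.ofReal (kapN w ^ n)) *
          ∫⁻ η : V n, hJ s f w η := by
        rw [ENNReal.inv_mul_cancel (by simpa using hkn) ENNReal.ofReal_ne_top, one_div,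
          ENNReal.inv_mul_cancel (by simp) (by simp)]
        simp
    _ = _ := by ring

end Crest.Agent.R130
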