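import Crest.Agent.S0175_Cyl
import Crest.Agent.S0175_Maps
import Crest.Agent.S0175_PushCore
import Crest.Agent.S0175_Density

/-! Row 130 (S0175), module H: `μ_A = 2 (φ_σ)_# μ_B` and the mass of `μ_B`. -/

set_option autoImplicit false

namespace Crest.Agent.R130

open MeasureTheory Set
open scoped ENNReal ContDiff
open Crest.AnalysisR.OT

variable {n : ℕ} {s : ℝ}

/-- the angular integral of `F` -/
noncomputable def Fbar (F : M n → ℝ≥0∞) (p : ℝ × V n) : ℝ≥0∞ := ∫⁻ t in II, F (cyl t p.1 p.2)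

theorem measurable_Fbar (F : M n → ℝ≥0∞) (hF : Measurable F) : Measurable (Fbar F) := by
  unfold Fbar
  have h : Measurable (fun q : (ℝ × V n) × ℝ => F (cyl q.2 q.1.1 q.1.2)) :=
    hF.comp (measurable_cyl.comp
      (f := fun q : (ℝ × V n) × ℝ => ((q.2, q.1.1, q.1.2) : ℝ × ℝ × V n)) (by fun_prop))
  exact h.lintegral_prod_right'

theorem cyl_periodic (P : ℝ) (η : V n) : Function.Periodic (fun t : ℝ => cyl t P η) (2 * Real.pi) := by
  intro t
  unfold cyl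
  refine Prod.ext ?_ rfl
  simp only
  congr 1
  push_cast
  rw [add_mul, Complex.exp_add, Complex.exp_two_pi_mul_I, mul_one]

theorem Fbar_shift (F : M n → ℝ≥0∞) (a R : ℝ) (ξ : V n) :
    ∫⁻ t in II, F (cyl (t + a) R ξ) = Fbar F (R, ξ) := by
  unfold Fbar
  exact lintegral_II_shift (fun t => F (cyl t R ξ)) (fun t => by
    have := cyl_periodic R ξ t
    simp only at this ⊢
    rw [this]) a

theorem norm_cyl_fst' (t P : ℝ) (η : V n) : ‖(cyl t P η).1‖ = Real.sqrt P := by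
  simp only [cyl, Complex.norm_mul, Complex.norm_real, Complex.norm_exp_ofReal_mul_I, mul_one,
    Real.norm_eq_abs, abs_of_nonneg (Real.sqrt_nonneg P)]

/-- `φ_σ` in cylindrical coordinates: a shift of the angle, `P ↦ R`, `η ↦ -κ_N η`. -/
theorem phi_cyl (hs : 0 < s) {σ : ℝ} (hσ : σ = 1 ∨ σ = -1) {P : ℝ} (hP : 0 < P) (η : V n) :
    ∃ a : ℝ, ∀ t : ℝ, phi s σ (cyl t P η) =
      cyl (t + a) (R0 s (omB s P (‖η‖ ^ 2)) - 4 * kapN (omB s P (‖η‖ ^ 2)) ^ 2 * ‖η‖ ^ 2)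
        ((-(kapN (omB s P (‖η‖ ^ 2)))) • η) := by
  set w := omB s P (‖η‖ ^ 2) with hw
  have hwm : w ∈ Om s := omB_mem hs P (‖η‖ ^ 2)
  have h0 : 0 < w := hwm.1
  have h1 : w < 1 := lt_trans hwm.2 (omax_lt_one hs)
  have hPP : PP s w (‖η‖ ^ 2) = P := PP_omB hs hP (by positivity)
  have hS1 : 0 < S1 s w := S1_pos hs h1
  set R := R0 s w - 4 * kapN w ^ 2 * ‖η‖ ^ 2 with hR
  have hRe : R = S1 s w / 4 + kap w ^ 2 * P := by rw [hR, R0_sub hs h0 h1, hPP]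
  have hsP : 0 < Real.sqrt P := Real.sqrt_pos.2 hP
  set ζ : ℂ := ((-(kap w) * Real.sqrt P : ℝ) : ℂ) + ((σ * (Real.sqrt (S1 s w) / 2) : ℝ) : ℂ) * Complex.I
    with hζ
  have hσ2 : σ ^ 2 = 1 := by rcases hσ with h | h <;> rw [h] <;> norm_num
  have hnζ : ‖ζ‖ = Real.sqrt R := by
    rw [hζ, Complex.norm_add_mul_I, hRe]
    congr 1
    rw [mul_pow, mul_pow, hσ2, div_pow, Real.sq_sqrt hS1.le, Real.sq_sqrt hP.le]
    ring
  refine ⟨Complex.arg ζ, fun t => ?_⟩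
  have homY : omY s (cyl t P η) = w := by
    unfold omY
    rw [norm_cyl_fst hP]
    rfl
  unfold phi
  rw [homY]
  unfold cfg
  refine Prod.ext ?_ rfl
  simp only
  rw [norm_cyl_fst']
  have e1 : (cyl t P η).1 = (Real.sqrt P : ℂ) * Complex.exp (t * Complex.I) := rfl
  have e2 : (cyl (t + Complex.arg ζ) R ((-(kapN w)) • η)).1
      = (Real.sqrt R : ℂ) * Complex.exp (((t + Complex.arg ζ : ℝ) : ℂ) * Complex.I) := rfl
  rw [e1, e2, ← hnζ]
  have e3 : Complex.exp (((t + Complex.arg ζ : ℝ) : ℂ) * Complex.I)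
      = Complex.exp (Complex.arg ζ * Complex.I) * Complex.exp (t * Complex.I) := by
    rw [← Complex.exp_add]; congr 1; push_cast; ring
  rw [e3, ← mul_assoc (‖ζ‖ : ℂ), Complex.norm_mul_exp_arg_mul_I, hζ]
  have hsPc : (Real.sqrt P : ℂ) ≠ 0 := by exact_mod_cast hsP.ne'
  push_cast
  field_simp

theorem cB_nonneg : 0 ≤ cB s n := by unfold cB; positivity

theorem lintegral_B (hs : 0 < s) {σ : ℝ} (hσ : σ = 1 ∨ σ = -1) (F : M n → ℝ≥0∞) (hF : Measurable F) :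
    ∫⁻ y : M n, ENNReal.ofReal (cB s n * rB0 s y ^ 2) * F (phi s σ y) =
      (1 / 2 : ℝ≥0∞) * ENNReal.ofReal (cB s n) * ∫⁻ η : V n, ∫⁻ P in Ioi (0 : ℝ),
        Fbar F (R0 s (omB s P (‖η‖ ^ 2)) - 4 * kapN (omB s P (‖η‖ ^ 2)) ^ 2 * ‖η‖ ^ 2,
            (-(kapN (omB s P (‖η‖ ^ 2)))) • η) * ENNReal.ofReal (gB s P (‖η‖ ^ 2) ^ 2) := by
  have hc : (1 / 2 : ℝ≥0∞) * ENNReal.ofReal (cB s n) ≠ ⊤ :=
    ENNReal.mul_ne_top (by simp) ENNReal.ofReal_ne_top
  have hmB : Measurable (rB0 (n := n) s) := (contDiff_rB0 hs).continuous.measurable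
  have hH : Measurable (fun y : M n => ENNReal.ofReal (cB s n * rB0 s y ^ 2) * F (phi s σ y)) :=
    ((hmB.pow_const 2).const_mul _).ennreal_ofReal.mul (hF.comp (measurable_phi hs σ))
  rw [lintegral_cyl _ hH]
  rw [← lintegral_const_mul' _ _ hc]
  refine lintegral_congr fun η => ?_
  rw [← lintegral_const_mul' _ _ hc]
  refine setLIntegral_congr_fun measurableSet_Ioi fun P hP => ?_
  obtain ⟨a, ha⟩ := phi_cyl hs hσ hP η
  have h1 : ∀ t : ℝ, (1 / 2 : ℝ≥0∞) * (ENNReal.ofReal (cB s n * rB0 s (cyl t P η) ^ 2)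
        * F (phi s σ (cyl t P η)))
      = ((1 / 2 : ℝ≥0∞) * ENNReal.ofReal (cB s n) * ENNReal.ofReal (gB s P (‖η‖ ^ 2) ^ 2))
        * F (cyl (t + a) (R0 s (omB s P (‖η‖ ^ 2)) - 4 * kapN (omB s P (‖η‖ ^ 2)) ^ 2 * ‖η‖ ^ 2)
            ((-(kapN (omB s P (‖η‖ ^ 2)))) • η)) := by
    intro t
    have e : rB0 s (cyl t P η) = gB s P (‖η‖ ^ 2) := by
      unfold rB0
      rw [norm_cyl_fst hP]
      rfl
    rw [ha t, e, ENNReal.ofReal_mul cB_nonneg]
    ring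
  simp only [h1]
  rw [lintegral_const_mul' _ _ (ENNReal.mul_ne_top hc ENNReal.ofReal_ne_top), Fbar_shift]
  ring

theorem lintegral_A (hs : 0 < s) (F : M n → ℝ≥0∞) (hF : Measurable F) :
    ∫⁻ x : M n, ENNReal.ofReal (cB s n * rA0 s x ^ 2) * F x =
      (1 / 2 : ℝ≥0∞) * ENNReal.ofReal (cB s n) * ∫⁻ ξ : V n, ∫⁻ R in Ioi (0 : ℝ),
        Fbar F (R, ξ) * ENNReal.ofReal (gA s n (R + 4 * ‖ξ‖ ^ 2) (‖ξ‖ ^ 2) ^ 2) := by
  have hc : (1 / 2 : ℝ≥0∞) * ENNReal.ofReal (cB s n) ≠ ⊤ :=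
    ENNReal.mul_ne_top (by simp) ENNReal.ofReal_ne_top
  have hmA : Measurable (rA0 (n := n) s) := (contDiff_rA0 hs).continuous.measurable
  have hH : Measurable (fun x : M n => ENNReal.ofReal (cB s n * rA0 s x ^ 2) * F x) :=
    ((hmA.pow_const 2).const_mul _).ennreal_ofReal.mul hF
  rw [lintegral_cyl _ hH]
  rw [← lintegral_const_mul' _ _ hc]
  refine lintegral_congr fun ξ => ?_
  rw [← lintegral_const_mul' _ _ hc]
  refine setLIntegral_congr_fun measurableSet_Ioi fun R hR => ?_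
  have h1 : ∀ t : ℝ, (1 / 2 : ℝ≥0∞) * (ENNReal.ofReal (cB s n * rA0 s (cyl t R ξ) ^ 2)
        * F (cyl t R ξ))
      = ((1 / 2 : ℝ≥0∞) * ENNReal.ofReal (cB s n)
          * ENNReal.ofReal (gA s n (R + 4 * ‖ξ‖ ^ 2) (‖ξ‖ ^ 2) ^ 2)) * F (cyl t R ξ) := by
    intro t
    have e : rA0 s (cyl t R ξ) = gA s n (R + 4 * ‖ξ‖ ^ 2) (‖ξ‖ ^ 2) := by
      unfold rA0
      rw [norm_cyl_fst hR]
      rfl
    rw [e, ENNReal.ofReal_mul cB_nonneg]
    ring
  simp only [h1]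
  rw [lintegral_const_mul' _ _ (ENNReal.mul_ne_top hc ENNReal.ofReal_ne_top)]
  unfold Fbar
  ring

section Push
variable (hs : 0 < s)
include hs

theorem muA_eq {σ : ℝ} (hσ : σ = 1 ∨ σ = -1) :
    muA s n = (2 : ℝ≥0∞) • (muB s n).map (phi s σ) := by
  have hmA : Measurable (rA0 (n := n) s) := (contDiff_rA0 hs).continuous.measurable
  have hmB : Measurable (rB0 (n := n) s) := (contDiff_rB0 hs).continuous.measurable
  refine Measure.ext_of_lintegral _ fun F hF => ?_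
  rw [lintegral_smul_measure, lintegral_map hF (measurable_phi hs σ)]
  unfold muA muB
  have hFp : Measurable (fun a => F (phi s σ a)) := hF.comp (measurable_phi hs σ)
  rw [lintegral_withDensity_eq_lintegral_mul _ ((hmA.pow_const 2).const_mul _).ennreal_ofReal hF,
    lintegral_withDensity_eq_lintegral_mul _ ((hmB.pow_const 2).const_mul _).ennreal_ofReal hFp]
  simp only [Pi.mul_apply]
  rw [lintegral_A hs F hF, lintegral_B hs hσ F hF, push_core hs (Fbar F) (measurable_Fbar F hF)]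
  have h2 : (2 : ℝ≥0∞) * (1 / 2) = 1 := by
    rw [one_div]; exact ENNReal.mul_inv_cancel (by simp) (by simp)
  rw [smul_eq_mul]
  calc _ = ((2 : ℝ≥0∞) * (1 / 2)) * ((1 / 2 : ℝ≥0∞) * ENNReal.ofReal (cB s n) * ∫⁻ ξ : V n, ∫⁻ R in Ioi (0 : ℝ),
        Fbar F (R, ξ) * ENNReal.ofReal (gA s n (R + 4 * ‖ξ‖ ^ 2) (‖ξ‖ ^ 2) ^ 2)) := by rw [h2, one_mul]
    _ = _ := by ring

theorem muB_univ : muB s n univ = 1 / 3 := by
  have hZ0 := ZB_pos (n := n) hs
  have hZt := ZB_lt_top (n := n) hs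
  unfold muB
  rw [withDensity_apply _ MeasurableSet.univ, Measure.restrict_univ]
  have h1 : ∀ y : M n, ENNReal.ofReal (cB s n * rB0 s y ^ 2)
      = ENNReal.ofReal (cB s n) * ENNReal.ofReal (rB0 s y ^ 2) := fun y =>
    ENNReal.ofReal_mul cB_nonneg
  simp only [h1]
  rw [lintegral_const_mul' _ _ ENNReal.ofReal_ne_top]
  change ENNReal.ofReal (cB s n) * ZB s n = 1 / 3
  have hZr : 0 < (ZB s n).toReal := ENNReal.toReal_pos hZ0.ne' hZt.ne
  conv_lhs => rw [← ENNReal.ofReal_toReal hZt.ne]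
  rw [← ENNReal.ofReal_mul cB_nonneg]
  have : cB s n * (ZB s n).toReal = 1 / 3 := by
    unfold cB; field_simp
  rw [this, ENNReal.ofReal_div_of_pos (by norm_num)]
  simp

end Push

end Crest.Agent.R130
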