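import Crest.Agent.S0175_Cyl
import Crest.Agent.S0175_Cells
import Crest.Agent.S0175_Maps
import Crest.Agent.S0175_Cont
import Crest.Agent.S0175_Push
import Crest.Agent.S0175_Pot
import Crest.Agent.S0175_Density

/-! Row 130 (S0175), module X: Monge approximants on the model space. -/

set_option autoImplicit false

namespace Crest.Agent.R130

open MeasureTheory Set
open scoped ENNReal

variable {n : ℕ} {s : ℝ}

/-! ### generalities -/

theorem apx_map_ite {X : Type*} [MeasurableSpace X] (μ ν : Measure X) (B : Set X) [DecidablePred (· ∈ B)]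
    (hμ : μ B = 0) (hν : ν Bᶜ = 0) (f g : X → X) (hf : Measurable f) (hg : Measurable g)
    (hB : MeasurableSet B) :
    (μ + ν).map (fun x => if x ∈ B then f x else g x) = μ.map g + ν.map f := by
  have hT : Measurable (fun x => if x ∈ B then f x else g x) := Measurable.ite hB hf hg
  rw [Measure.map_add _ _ hT]
  congr 1
  · apply Measure.map_congr
    have : ∀ᵐ x ∂μ, x ∉ B := by
      rw [ae_iff]; simpa using hμ
    filter_upwards [this] with x hx
    simp [hx]
  · apply Measure.map_congr
    have : ∀ᵐ x ∂ν, x ∈ B := by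
      rw [ae_iff]; exact hν
    filter_upwards [this] with x hx
    simp [hx]

theorem apx_map_ite' {X : Type*} [MeasurableSpace X] (μ : Measure X) (S : Set X) [DecidablePred (· ∈ S)]
    (f g : X → X) (hf : Measurable f) (hg : Measurable g) (hS : MeasurableSet S) :
    μ.map (fun x => if x ∈ S then f x else g x) = (μ.restrict S).map f + (μ.restrict Sᶜ).map g := by
  have h := apx_map_ite (μ.restrict Sᶜ) (μ.restrict S) S
    (by rw [Measure.restrict_apply hS]; simp) (by rw [Measure.restrict_apply hS.compl]; simp) f g hf hg hS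
  rw [add_comm, Measure.restrict_add_restrict_compl hS] at h
  rw [h, add_comm]

theorem rot_zero (x : M n) : rot 0 x = x := by
  unfold rot; simp

/-! ### the measures -/

/-- the density of `muA` as a function of the invariants -/
noncomputable def apxRho (s : ℝ) (n : ℕ) (p : ℝ × V n) : ℝ≥0∞ :=
  ENNReal.ofReal (cB s n * gA s n (p.1 + 4 * ‖p.2‖ ^ 2) (‖p.2‖ ^ 2) ^ 2)

theorem measurable_apxRho (hs : 0 < s) : Measurable (apxRho s n) := by
  unfold apxRho
  have h := measurable_gA (n := n) hs
  have h2 : Measurable (fun p : ℝ × V n => gA s n (p.1 + 4 * ‖p.2‖ ^ 2) (‖p.2‖ ^ 2)) :=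
    h.comp (Measurable.prodMk (by fun_prop) (by fun_prop))
  exact ((h2.pow_const 2).const_mul _).ennreal_ofReal

theorem muA_eq_apxRho : muA s n = volume.withDensity fun x : M n => apxRho s n (‖x.1‖ ^ 2, x.2) := rfl

/-- the set of points whose angle lies in `S` -/
def angSet (n : ℕ) (S : Set ℝ) : Set (M n) := {x | Complex.arg x.1 ∈ S}

theorem measurableSet_angSet {S : Set ℝ} (hS : MeasurableSet S) : MeasurableSet (angSet n S) :=
  (Complex.measurable_arg.comp measurable_fst) hS

theorem apx_restrict (hs : 0 < s) (a : ℝ≥0∞) {S : Set ℝ} (hS : MeasurableSet S) :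
    a • (muA s n).restrict (angSet n S) = volume.withDensity fun x : M n =>
      apxRho s n (‖x.1‖ ^ 2, x.2) * (a * S.indicator 1 (Complex.arg x.1)) := by
  have hm : Measurable fun x : M n => apxRho s n (‖x.1‖ ^ 2, x.2) :=
    (measurable_apxRho hs).comp (Measurable.prodMk (by fun_prop) measurable_snd)
  rw [muA_eq_apxRho, restrict_withDensity (measurableSet_angSet hS),
    ← withDensity_indicator (measurableSet_angSet hS),
    ← withDensity_smul _ (hm.indicator (measurableSet_angSet hS))]
  congr 1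
  funext x
  by_cases hx : x ∈ angSet n S
  · have hx' : Complex.arg x.1 ∈ S := hx
    simp [hx, hx', mul_comm]
  · have hx' : Complex.arg x.1 ∉ S := hx
    simp [hx, hx']

theorem apx_line (a : ℝ≥0∞) {S : Set ℝ} (hS : MeasurableSet S) :
    (volume.restrict II).withDensity (fun t => a * S.indicator 1 t) = a • volume.restrict (II ∩ S) := by
  have h1 : (fun t => a * S.indicator (1 : ℝ → ℝ≥0∞) t) = a • S.indicator (1 : ℝ → ℝ≥0∞) := by
    funext t; simp
  have h2 : (volume.restrict II).withDensity (a • S.indicator (1 : ℝ → ℝ≥0∞))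
      = a • (volume.restrict II).withDensity (S.indicator (1 : ℝ → ℝ≥0∞)) :=
    withDensity_smul _ (measurable_one.indicator hS)
  have h3 : (volume.restrict II).withDensity (S.indicator (1 : ℝ → ℝ≥0∞))
      = ((volume.restrict II).restrict S).withDensity 1 := withDensity_indicator hS _
  rw [h1, h2, h3, Measure.restrict_restrict hS, withDensity_one, inter_comm]

/-- angle maps acting on `muA` -/
theorem apx_Dpush (hs : 0 < s) (f : ℝ → ℝ) (hf : Measurable f) {S S' : Set ℝ} (hS : MeasurableSet S)
    (hS' : MeasurableSet S') (a a' : ℝ≥0∞)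
    (h : (a • volume.restrict (II ∩ S)).map f = a' • volume.restrict (II ∩ S')) :
    (a • (muA s n).restrict (angSet n S)).map (Dmap f) = a' • (muA s n).restrict (angSet n S') := by
  rw [apx_restrict hs a hS, apx_restrict hs a' hS']
  exact map_Dmap (apxRho s n) (measurable_apxRho hs) f hf (fun t => a * S.indicator 1 t)
    (fun t => a' * S'.indicator 1 t) ((measurable_one.indicator hS).const_mul a)
    ((measurable_one.indicator hS').const_mul a') (by rw [apx_line a hS, apx_line a' hS', h])

theorem angSet_univ : angSet n univ = univ := by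
  ext x; simp [angSet]

theorem angSet_compl (S : Set ℝ) : angSet n Sᶜ = (angSet n S)ᶜ := by
  ext x; simp [angSet]

theorem muA_Bset (hs : 0 < s) : muA s n (Bset s n) = 0 := by
  unfold muA
  rw [withDensity_apply _ (measurableSet_Bset hs)]
  apply setLIntegral_eq_zero (measurableSet_Bset hs)
  intro x hx
  have : rA0 s x = 0 := by
    by_contra h
    exact (disjoint_left.1 (disjoint_Aset_Bset hs)) (rA0_support hs h) hx
  simp [this]

theorem muB_Bset_compl (hs : 0 < s) : muB s n (Bset s n)ᶜ = 0 := by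
  unfold muB
  rw [withDensity_apply _ (measurableSet_Bset hs).compl]
  apply setLIntegral_eq_zero (measurableSet_Bset hs).compl
  intro x hx
  have : rB0 s x = 0 := by
    by_contra h
    exact hx (rB0_support hs h)
  simp [this]

theorem ae_muB_mem (hs : 0 < s) : ∀ᵐ y ∂(muB s n), y ∈ Bset s n := by
  rw [ae_iff]; exact muB_Bset_compl hs

theorem map_phi_muB (hs : 0 < s) {σ : ℝ} (hσ : σ = 1 ∨ σ = -1) :
    (muB s n).map (phi s σ) = (2 : ℝ≥0∞)⁻¹ • muA s n := by
  rw [muA_eq hs hσ, smul_smul, ENNReal.inv_mul_cancel (by simp) (by simp), one_smul]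

theorem map_psi_muA (hs : 0 < s) {σ : ℝ} (hσ : σ = 1 ∨ σ = -1) :
    (muA s n).map (psi s σ) = (2 : ℝ≥0∞) • muB s n := by
  conv_lhs => rw [muA_eq hs hσ]
  rw [Measure.map_smul, Measure.map_map (measurable_psi hs σ) (measurable_phi hs σ)]
  congr 1
  conv_rhs => rw [← Measure.map_id (μ := muB s n)]
  apply Measure.map_congr
  filter_upwards [ae_muB_mem hs] with y hy
  exact psi_phi hs hσ y (Bset_fst_ne hs hy)

/-- `muA`-almost every point is `phi σ` of a point of `Bset`, namely of `psi σ x`. -/
theorem ae_muA_phi_psi (hs : 0 < s) {σ : ℝ} (hσ : σ = 1 ∨ σ = -1) :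
    ∀ᵐ x ∂(muA s n), phi s σ (psi s σ x) = x ∧ psi s σ x ∈ Bset s n := by
  rw [muA_eq hs hσ]
  apply Measure.ae_smul_measure
  have hm : MeasurableSet {x : M n | phi s σ (psi s σ x) = x ∧ psi s σ x ∈ Bset s n} := by
    apply MeasurableSet.inter
    · exact measurableSet_eq_fun ((measurable_phi hs σ).comp (measurable_psi hs σ)) measurable_id
    · exact (measurable_psi hs σ) (measurableSet_Bset hs)
  rw [ae_map_iff (measurable_phi hs σ).aemeasurable hm]
  filter_upwards [ae_muB_mem hs] with y hy
  rw [psi_phi hs hσ y (Bset_fst_ne hs hy)]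
  exact ⟨rfl, hy⟩

/-- `phi σ ∘ psi σ'` preserves `muA`. -/
theorem map_tau_muA (hs : 0 < s) {σ σ' : ℝ} (hσ : σ = 1 ∨ σ = -1) (hσ' : σ' = 1 ∨ σ' = -1) :
    (muA s n).map (fun x => phi s σ (psi s σ' x)) = muA s n := by
  have h : (fun x : M n => phi s σ (psi s σ' x)) = phi s σ ∘ psi s σ' := rfl
  rw [h, ← Measure.map_map (measurable_phi hs σ) (measurable_psi hs σ'), map_psi_muA hs hσ',
    Measure.map_smul, ← muA_eq hs hσ]

open scoped Classical in
theorem approx (hs : 0 < s) (ε : ℝ≥0∞) (hε : 0 < ε) : ∃ T₂ T₃ b : M n → M n,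
    Measurable T₂ ∧ Measurable T₃ ∧ Measurable b ∧
    (muA s n + muB s n).map T₂ = muA s n + muB s n ∧ (muA s n + muB s n).map T₃ = muA s n + muB s n ∧
    (muA s n + muB s n).map b = (3 : ℝ≥0∞) • muB s n ∧
    ∀ᵐ x ∂(muA s n + muB s n),
      cM s (x, T₂ x, T₃ x) ≤ cM s (b x, phi s 1 (b x), phi s (-1) (b x)) + ε := by
  obtain ⟨δ, hδ, hcost⟩ := cost_cont (n := n) hs ε hε
  obtain ⟨I0, c0, c1, st, hI0, hc0, hc1, hst, bc0, bc1, bst, mc0, mc1, mst0, mst1⟩ := exists_cell_maps δ hδ
  have hp : (1 : ℝ) = 1 ∨ (1 : ℝ) = -1 := Or.inl rfl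
  have hm : (-1 : ℝ) = 1 ∨ (-1 : ℝ) = -1 := Or.inr rfl
  have hB := measurableSet_Bset (n := n) hs
  have hA0 : MeasurableSet (angSet n I0) := measurableSet_angSet hI0
  have mφp := measurable_phi (n := n) hs 1
  have mφm := measurable_phi (n := n) hs (-1)
  have mψp := measurable_psi (n := n) hs 1
  have mψm := measurable_psi (n := n) hs (-1)
  have mD0 := measurable_Dmap (n := n) c0 hc0
  have mD1 := measurable_Dmap (n := n) c1 hc1
  have mDs := measurable_Dmap (n := n) st hst
  -- the four angle push-forwards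
  have P0 : ((muA s n).restrict (angSet n I0)).map (Dmap st) = (2 : ℝ≥0∞)⁻¹ • muA s n := by
    have := apx_Dpush (n := n) hs st hst hI0 MeasurableSet.univ 1 (2 : ℝ≥0∞)⁻¹
      (by rw [one_smul, inter_univ]; exact mst0)
    rwa [one_smul, angSet_univ, Measure.restrict_univ] at this
  have P1 : ((muA s n).restrict (angSet n I0)ᶜ).map (Dmap st) = (2 : ℝ≥0∞)⁻¹ • muA s n := by
    have := apx_Dpush (n := n) hs st hst hI0.compl MeasurableSet.univ 1 (2 : ℝ≥0∞)⁻¹
      (by rw [one_smul, inter_univ, ← sdiff_eq]; exact mst1)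
    rwa [one_smul, angSet_univ, Measure.restrict_univ, angSet_compl] at this
  have Q0 : ((2 : ℝ≥0∞)⁻¹ • muA s n).map (Dmap c0) = (muA s n).restrict (angSet n I0) := by
    have := apx_Dpush (n := n) hs c0 hc0 MeasurableSet.univ hI0 1 2
      (by rw [one_smul, inter_univ]; exact mc0)
    rw [one_smul, angSet_univ, Measure.restrict_univ] at this
    rw [Measure.map_smul, this, smul_smul, ENNReal.inv_mul_cancel (by simp) (by simp), one_smul]
  have Q1 : ((2 : ℝ≥0∞)⁻¹ • muA s n).map (Dmap c1) = (muA s n).restrict (angSet n I0)ᶜ := by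
    have := apx_Dpush (n := n) hs c1 hc1 MeasurableSet.univ hI0.compl 1 2
      (by rw [one_smul, inter_univ, ← sdiff_eq]; exact mc1)
    rw [one_smul, angSet_univ, Measure.restrict_univ, angSet_compl] at this
    rw [Measure.map_smul, this, smul_smul, ENNReal.inv_mul_cancel (by simp) (by simp), one_smul]
  have half_psi : ∀ σ : ℝ, (σ = 1 ∨ σ = -1) → ((2 : ℝ≥0∞)⁻¹ • muA s n).map (psi s σ) = muB s n := by
    intro σ hσ
    rw [Measure.map_smul, map_psi_muA hs hσ, smul_smul, ENNReal.inv_mul_cancel (by simp) (by simp), one_smul]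
  -- the building blocks
  set f2 : M n → M n := fun x => phi s 1 (psi s (-1) (Dmap c0 (phi s (-1) x))) with hf2
  set f3 : M n → M n := fun x => phi s (-1) (psi s 1 (Dmap c1 (phi s 1 x))) with hf3
  set τ' : M n → M n := fun x => phi s 1 (psi s (-1) x) with hτ'
  set τ : M n → M n := fun x => phi s (-1) (psi s 1 x) with hτ
  set e2 : M n → M n := fun x => psi s 1 (Dmap st x) with he2
  set e3 : M n → M n := fun x => psi s (-1) (Dmap st x) with he3
  have mf2 : Measurable f2 := mφp.comp (mψm.comp (mD0.comp mφm))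
  have mf3 : Measurable f3 := mφm.comp (mψp.comp (mD1.comp mφp))
  have mτ' : Measurable τ' := mφp.comp mψm
  have mτ : Measurable τ := mφm.comp mψp
  have me2 : Measurable e2 := mψp.comp mDs
  have me3 : Measurable e3 := mψm.comp mDs
  have Mf2 : (muB s n).map f2 = ((muA s n).restrict (angSet n I0)).map τ' := by
    have : f2 = τ' ∘ (Dmap c0 ∘ phi s (-1)) := rfl
    rw [this, ← Measure.map_map mτ' (mD0.comp mφm), ← Measure.map_map mD0 mφm, map_phi_muB hs hm, Q0]
  have Mf3 : (muB s n).map f3 = ((muA s n).restrict (angSet n I0)ᶜ).map τ := by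
    have : f3 = τ ∘ (Dmap c1 ∘ phi s 1) := rfl
    rw [this, ← Measure.map_map mτ (mD1.comp mφp), ← Measure.map_map mD1 mφp, map_phi_muB hs hp, Q1]
  have Me2 : ((muA s n).restrict (angSet n I0)).map e2 = muB s n := by
    have : e2 = psi s 1 ∘ Dmap st := rfl
    rw [this, ← Measure.map_map mψp mDs, P0, half_psi 1 hp]
  have Me3 : ((muA s n).restrict (angSet n I0)ᶜ).map e3 = muB s n := by
    have : e3 = psi s (-1) ∘ Dmap st := rfl
    rw [this, ← Measure.map_map mψm mDs, P1, half_psi (-1) hm]
  have Mτ' : ((muA s n).restrict (angSet n I0)ᶜ).map τ' + ((muA s n).restrict (angSet n I0)).map τ'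
      = muA s n := by
    rw [← Measure.map_add _ _ mτ', add_comm, Measure.restrict_add_restrict_compl hA0]
    exact map_tau_muA hs hp hm
  have Mτ : ((muA s n).restrict (angSet n I0)).map τ + ((muA s n).restrict (angSet n I0)ᶜ).map τ
      = muA s n := by
    rw [← Measure.map_add _ _ mτ, Measure.restrict_add_restrict_compl hA0]
    exact map_tau_muA hs hm hp
  have mg2 : Measurable (fun x => if x ∈ angSet n I0 then e2 x else τ' x) := Measurable.ite hA0 me2 mτ'
  have mg3 : Measurable (fun x => if x ∈ angSet n I0 then τ x else e3 x) := Measurable.ite hA0 mτ me3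
  have mgb : Measurable (fun x => if x ∈ angSet n I0 then e2 x else e3 x) := Measurable.ite hA0 me2 me3
  refine ⟨fun x => if x ∈ Bset s n then f2 x else (if x ∈ angSet n I0 then e2 x else τ' x),
    fun x => if x ∈ Bset s n then f3 x else (if x ∈ angSet n I0 then τ x else e3 x),
    fun x => if x ∈ Bset s n then x else (if x ∈ angSet n I0 then e2 x else e3 x),
    Measurable.ite hB mf2 mg2, Measurable.ite hB mf3 mg3,
    Measurable.ite hB measurable_id mgb, ?_, ?_, ?_, ?_⟩
  · rw [apx_map_ite _ _ _ (muA_Bset hs) (muB_Bset_compl hs) f2 _ mf2 mg2 hB,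
      apx_map_ite' _ _ e2 τ' me2 mτ' hA0, Me2, Mf2, add_assoc, Mτ', add_comm]
  · rw [apx_map_ite _ _ _ (muA_Bset hs) (muB_Bset_compl hs) f3 _ mf3 mg3 hB,
      apx_map_ite' _ _ τ e3 mτ me3 hA0, Me3, Mf3, add_right_comm, Mτ]
  · rw [apx_map_ite _ _ _ (muA_Bset hs) (muB_Bset_compl hs) (fun x => x) _ measurable_id
        mgb hB,
      apx_map_ite' _ _ e2 e3 me2 me3 hA0, Me2, Me3]
    have : (muB s n).map (fun x => x) = muB s n := Measure.map_id
    rw [this]
    ext S hS
    simp only [Measure.add_apply, Measure.smul_apply, smul_eq_mul]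
    ring
  · rw [ae_add_measure_iff]
    constructor
    · -- the `A` part
      have hnB : ∀ᵐ x ∂(muA s n), x ∉ Bset s n := by
        rw [ae_iff]; simpa using muA_Bset (n := n) hs
      filter_upwards [hnB, ae_muA_phi_psi (n := n) hs hp, ae_muA_phi_psi (n := n) hs hm]
        with x hx ⟨hp1, hp2⟩ ⟨hm1, hm2⟩
      simp only [if_neg hx]
      by_cases hx0 : x ∈ angSet n I0
      · simp only [if_pos hx0]
        set y := psi s 1 x with hy
        set θ := st (Complex.arg x.1) - Complex.arg x.1 with hθ
        have e2x : e2 x = rot θ y := by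
          simp only [he2]
          rw [Dmap_eq_rot, psi_rot hs]
        have τx : τ x = phi s (-1) y := rfl
        rw [e2x, τx, phi_rot hs, phi_rot hs, cM_rot hs]
        have := hcost y hp2 θ 0 0 (bst _) (by simpa using hδ.le) (by simpa using hδ.le)
        rw [rot_zero, rot_zero] at this
        calc cM s (x, rot θ y, phi s (-1) y) = cM s (phi s 1 y, rot θ y, phi s (-1) y) := by rw [hp1]
          _ = cM s (rot θ y, phi s 1 y, phi s (-1) y) := cM_symm1 hs _ _ _
          _ ≤ _ := this
      · simp only [if_neg hx0]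
        set y := psi s (-1) x with hy
        set θ := st (Complex.arg x.1) - Complex.arg x.1 with hθ
        have e3x : e3 x = rot θ y := by
          simp only [he3]
          rw [Dmap_eq_rot, psi_rot hs]
        have τx : τ' x = phi s 1 y := rfl
        rw [e3x, τx, phi_rot hs, phi_rot hs, cM_rot hs]
        have := hcost y hm2 θ 0 0 (bst _) (by simpa using hδ.le) (by simpa using hδ.le)
        rw [rot_zero, rot_zero] at this
        calc cM s (x, phi s 1 y, rot θ y) = cM s (phi s (-1) y, phi s 1 y, rot θ y) := by rw [hm1]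
          _ = cM s (phi s (-1) y, rot θ y, phi s 1 y) := cM_symm2 hs _ _ _
          _ = cM s (rot θ y, phi s (-1) y, phi s 1 y) := cM_symm1 hs _ _ _
          _ = cM s (rot θ y, phi s 1 y, phi s (-1) y) := cM_symm2 hs _ _ _
          _ ≤ _ := this
    · -- the `B` part
      filter_upwards [ae_muB_mem (n := n) hs] with y hy
      simp only [if_pos hy]
      have hz := Bset_fst_ne hs hy
      have e2y : f2 y = rot (c0 (Complex.arg (phi s (-1) y).1) - Complex.arg (phi s (-1) y).1) (phi s 1 y) := by
        simp only [hf2]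
        rw [Dmap_eq_rot, psi_rot hs, phi_rot hs, psi_phi hs hm y hz]
      have e3y : f3 y = rot (c1 (Complex.arg (phi s 1 y).1) - Complex.arg (phi s 1 y).1) (phi s (-1) y) := by
        simp only [hf3]
        rw [Dmap_eq_rot, psi_rot hs, phi_rot hs, psi_phi hs hp y hz]
      rw [e2y, e3y]
      have := hcost y hy 0 _ _ (by simpa using hδ.le) (bc0 (Complex.arg (phi s (-1) y).1))
        (bc1 (Complex.arg (phi s 1 y).1))
      rwa [rot_zero] at this

end Crest.Agent.R130
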