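import Crest.Agent.S0175_Transfer
import Crest.Agent.S0175_AbstractOT
import Crest.Agent.S0175_Approx

/-! Row 130 (S0175): assembly on the model space. -/

set_option autoImplicit false

namespace Crest.Agent.R130

open MeasureTheory Set
open scoped ENNReal ContDiff
open Crest.AnalysisR.OT

variable {n : ℕ} {s : ℝ}

theorem cB_pos (hs : 0 < s) : 0 < cB s n := by
  unfold cB
  have h := ENNReal.toReal_pos (ZB_pos (n := n) hs).ne' (ZB_lt_top (n := n) hs).ne
  positivity

theorem rM_nonneg (hs : 0 < s) (x : M n) : 0 ≤ rM s x := by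
  unfold rM
  have h1 := rB0_nonneg hs x
  have h2 := rA0_nonneg hs x
  positivity

theorem rM_sq (hs : 0 < s) (x : M n) :
    rM s x ^ 2 = cB s n * rA0 s x ^ 2 + cB s n * rB0 s x ^ 2 := by
  unfold rM
  have h := rA0_mul_rB0 hs x
  have hc := Real.sq_sqrt (cB_pos (n := n) hs).le
  calc (Real.sqrt (cB s n) * (rB0 s x + rA0 s x)) ^ 2
      = Real.sqrt (cB s n) ^ 2 * (rB0 s x ^ 2 + rA0 s x ^ 2 + 2 * (rA0 s x * rB0 s x)) := by ring
    _ = _ := by rw [hc, h]; ring

theorem measurable_rA0 (hs : 0 < s) : Measurable (rA0 (n := n) s) :=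
  (contDiff_rA0 hs).continuous.measurable
theorem measurable_rB0 (hs : 0 < s) : Measurable (rB0 (n := n) s) :=
  (contDiff_rB0 hs).continuous.measurable

theorem muM_eq (hs : 0 < s) :
    (volume.withDensity fun x : M n => ENNReal.ofReal (rM s x ^ 2)) = muA s n + muB s n := by
  unfold muA muB
  rw [← withDensity_add_left]
  · congr 1
    funext x
    have hc := (cB_pos (n := n) hs).le
    rw [rM_sq hs, ENNReal.ofReal_add (by positivity) (by positivity)]
    rfl
  · exact ((measurable_rA0 hs).pow_const 2).const_mul _ |>.ennreal_ofReal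

theorem rM_contDiff (hs : 0 < s) : ContDiff ℝ ∞ (rM (n := n) s) := by
  unfold rM
  exact contDiff_const.mul ((contDiff_rB0 hs).add (contDiff_rA0 hs))

theorem rM_hasCompactSupport (hs : 0 < s) : HasCompactSupport (rM (n := n) s) := by
  -- the support is contained in the bounded set `Aset ∪ Bset`
  have hb : ∀ x : M n, rM s x ≠ 0 → x ∈ Metric.closedBall (0 : M n) (Real.sqrt (KA s + bb s)) := by
    intro x hx
    have hKA := KA_pos hs
    have hbb := bb_pos hs
    have hx' : rB0 s x ≠ 0 ∨ rA0 s x ≠ 0 := by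
      by_contra hcon
      push Not at hcon
      apply hx
      unfold rM
      rw [hcon.1, hcon.2]; simp
    have key : ‖x.1‖ ^ 2 ≤ KA s + bb s ∧ ‖x.2‖ ^ 2 ≤ KA s + bb s := by
      rcases hx' with h | h
      · have := rB0_support hs h
        obtain ⟨_, h2, h3⟩ := this
        constructor <;> linarith
      · have := rA0_support hs h
        obtain ⟨_, h2⟩ := this
        have a1 := sq_nonneg ‖x.1‖
        have a2 := sq_nonneg ‖x.2‖
        constructor <;> nlinarith
    rw [mem_closedBall_zero_iff, Prod.norm_def]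
    apply max_le
    · exact Real.le_sqrt_of_sq_le key.1
    · exact Real.le_sqrt_of_sq_le key.2
  apply HasCompactSupport.of_support_subset_isCompact (isCompact_closedBall (0 : M n) _)
  intro x hx
  exact hb x hx

theorem muA_univ (hs : 0 < s) : muA s n univ = 2 / 3 := by
  rw [muA_eq hs (Or.inl rfl), Measure.smul_apply, Measure.map_apply (measurable_phi hs 1) MeasurableSet.univ,
    preimage_univ, muB_univ hs, smul_eq_mul]
  rw [mul_one_div]

theorem model_OT (hs : 0 < s) : OTStatement (muA s n + muB s n) (cM (n := n) s) := by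
  have : IsFiniteMeasure (muA s n) := ⟨by rw [muA_univ hs]; exact ENNReal.div_lt_top (by simp) (by simp)⟩
  have : IsFiniteMeasure (muB s n) := ⟨by rw [muB_univ hs]; exact ENNReal.div_lt_top (by simp) (by simp)⟩
  refine abstractOT (cM s) (measurable_cM hs) (cM_symm1 hs) (cM_symm2 hs) (muA s n) (muB s n)
    (Aset s n) (Bset s n) (measurableSet_Aset hs) (measurableSet_Bset hs) (disjoint_Aset_Bset hs)
    ?_ ?_ ?_ (phi s 1) (phi s (-1)) (measurable_phi hs 1) (measurable_phi hs (-1))
    (muA_eq hs (Or.inl rfl)) (muA_eq hs (Or.inr rfl)) (vM s) (measurable_vM hs)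
    (ENNReal.ofReal (K1 s + KA s)) (ENNReal.ofReal (3 * KA s)) ENNReal.ofReal_ne_top ENNReal.ofReal_ne_top
    (vM_le hs) (pot_H1 hs) (pot_H2 hs) (pot_H3 hs) (approx hs)
  · -- muA is carried by Aset
    unfold muA
    rw [withDensity_apply _ (measurableSet_Aset hs).compl]
    apply setLIntegral_eq_zero (measurableSet_Aset hs).compl
    intro x hx
    have : rA0 s x = 0 := by
      by_contra h
      exact hx (rA0_support hs h)
    simp [this]
  · unfold muB
    rw [withDensity_apply _ (measurableSet_Bset hs).compl]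
    apply setLIntegral_eq_zero (measurableSet_Bset hs).compl
    intro x hx
    have : rB0 s x = 0 := by
      by_contra h
      exact hx (rB0_support hs h)
    simp [this]
  · intro h
    have := muA_univ (n := n) hs
    rw [h] at this
    have h2 : (2 / 3 : ℝ≥0∞) ≠ 0 := ENNReal.div_ne_zero.2 ⟨by simp, by simp⟩
    exact h2 (by simpa using this.symm)

theorem model_mass (hs : 0 < s) : ∫⁻ x : M n, ENNReal.ofReal (rM s x ^ 2) = 1 := by
  have h : (volume.withDensity fun x : M n => ENNReal.ofReal (rM s x ^ 2)) univ = 1 := by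
    rw [muM_eq hs, Measure.add_apply, muA_univ hs, muB_univ hs]
    rw [← ENNReal.add_div]
    norm_num
    exact ENNReal.div_self (by simp) (by simp)
  rwa [withDensity_apply _ MeasurableSet.univ, Measure.restrict_univ] at h

theorem main (n : ℕ) (s : ℝ) (hs : 0 < s) :
    ∃ ρ : EuclideanSpace ℝ (Fin (n + 2)) → ℝ, (∀ x, 0 ≤ ρ x) ∧ ContDiff ℝ ∞ ρ ∧ HasCompactSupport ρ ∧
      ContDiff ℝ ∞ (fun x => Real.sqrt (ρ x)) ∧ ∫ x, ρ x = 1 ∧
      OTStatement (measOfDensity ρ) (tripleCost s) :=
  result_of_model n s (rM s) (rM_nonneg hs) (rM_contDiff hs) (rM_hasCompactSupport hs) (model_mass hs)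
    (by rw [muM_eq hs]; exact model_OT hs)

end Crest.Agent.R130
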