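import Crest.Agent.S0175_Defs

/-! Row 130 (S0175), module C: cylindrical coordinates on `M n = ℂ × ℝⁿ`. -/

set_option autoImplicit false

namespace Crest.Agent.R130

open MeasureTheory Set
open scoped ENNReal

variable {n : ℕ}

theorem lintegral_II_shift (h : ℝ → ℝ≥0∞) (hp : Function.Periodic h (2 * Real.pi)) (a : ℝ) :
    ∫⁻ t in II, h (t + a) = ∫⁻ t in II, h t := by
  have : Fact (0 < 2 * Real.pi) := ⟨by positivity⟩
  have key : ∀ t₀ : ℝ, ∫⁻ t in Ioc t₀ (t₀ + 2 * Real.pi), h t
      = ∫⁻ b : AddCircle (2 * Real.pi), hp.lift b := by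
    intro t₀
    rw [← AddCircle.lintegral_preimage (2 * Real.pi) t₀ hp.lift]
    rfl
  have e1 : (II : Set ℝ) = Ioc (-Real.pi) (-Real.pi + 2 * Real.pi) := by
    have : -Real.pi + 2 * Real.pi = Real.pi := by ring
    rw [this]
  have hshift : ∫⁻ t in II, h (t + a) = ∫⁻ t in Ioc (-Real.pi + a) (-Real.pi + a + 2 * Real.pi), h t := by
    have hmp : MeasurePreserving (fun t : ℝ => t + a) volume volume :=
      measurePreserving_add_right volume a
    have hemb : MeasurableEmbedding (fun t : ℝ => t + a) :=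
      (MeasurableEquiv.addRight a).measurableEmbedding
    have h3 := hmp.setLIntegral_comp_preimage_emb hemb h (Ioc (-Real.pi + a) (-Real.pi + a + 2 * Real.pi))
    have h4 : (fun t : ℝ => t + a) ⁻¹' (Ioc (-Real.pi + a) (-Real.pi + a + 2 * Real.pi)) = II := by
      ext t
      simp only [mem_preimage, mem_Ioc]
      constructor
      · rintro ⟨h1, h2⟩; constructor <;> linarith
      · rintro ⟨h1, h2⟩; constructor <;> linarith
    rw [h4] at h3
    exact h3
  rw [hshift, key, e1, key]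

theorem measurable_cyl : Measurable (fun q : ℝ × ℝ × V n => cyl q.1 q.2.1 q.2.2) := by
  unfold cyl
  fun_prop

theorem sq_image_Ioi : (fun r : ℝ => r ^ 2) '' Ioi (0 : ℝ) = Ioi 0 := by
  ext P
  simp only [mem_image, mem_Ioi]
  constructor
  · rintro ⟨r, hr, rfl⟩; positivity
  · intro hP
    exact ⟨Real.sqrt P, Real.sqrt_pos.2 hP, Real.sq_sqrt hP.le⟩

/-- polar coordinates with `P = r²` on `ℂ` -/
theorem lintegral_complex_polar (F : ℂ → ℝ≥0∞) (hF : Measurable F) :
    ∫⁻ z, F z = ∫⁻ P in Ioi (0 : ℝ), ∫⁻ t in II,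
      (1 / 2 : ℝ≥0∞) * F ((Real.sqrt P : ℂ) * Complex.exp (t * Complex.I)) := by
  rw [← Complex.lintegral_comp_polarCoord_symm, polarCoord_target, Measure.volume_eq_prod,
    ← Measure.prod_restrict, lintegral_prod]
  swap
  · apply Measurable.aemeasurable
    simp only [Complex.polarCoord_symm_apply]
    fun_prop
  have himg := lintegral_image_eq_lintegral_abs_deriv_mul (s := Ioi (0 : ℝ)) (f := fun r : ℝ => r ^ 2)
    (f' := fun r => 2 * r) measurableSet_Ioi
    (fun x _ => by simpa using (hasDerivAt_pow 2 x).hasDerivWithinAt)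
    (fun x hx y hy hxy => by
      have hx' : (0 : ℝ) ≤ x := le_of_lt hx
      have hy' : (0 : ℝ) ≤ y := le_of_lt hy
      exact (pow_left_inj₀ hx' hy' two_ne_zero).1 hxy)
    (fun P => ∫⁻ t in II, (1 / 2 : ℝ≥0∞) * F ((Real.sqrt P : ℂ) * Complex.exp (t * Complex.I)))
  rw [sq_image_Ioi] at himg
  rw [himg]
  refine setLIntegral_congr_fun measurableSet_Ioi (fun r hr => ?_)
  have hr0 : (0 : ℝ) < r := hr
  rw [← lintegral_const_mul]
  swap
  · fun_prop
  have hIoo : (volume.restrict (Ioo (-Real.pi) Real.pi) : Measure ℝ) = volume.restrict II :=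
    Measure.restrict_congr_set Ioo_ae_eq_Ioc
  rw [hIoo]
  refine lintegral_congr (fun t => ?_)
  simp only [Complex.polarCoord_symm_apply, smul_eq_mul]
  rw [Real.sqrt_sq hr0.le, abs_of_pos (by positivity : (0 : ℝ) < 2 * r), ← mul_assoc]
  have h1 : ENNReal.ofReal (2 * r) * (1 / 2 : ℝ≥0∞) = ENNReal.ofReal r := by
    rw [ENNReal.ofReal_mul (by norm_num), mul_comm (ENNReal.ofReal 2), mul_assoc]
    have : ENNReal.ofReal 2 * (1 / 2 : ℝ≥0∞) = 1 := by
      rw [show ENNReal.ofReal 2 = 2 by simp, one_div]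
      exact ENNReal.mul_inv_cancel (by norm_num) (by norm_num)
    rw [this, mul_one]
  rw [h1]
  congr 2
  rw [Complex.exp_mul_I]
  push_cast
  ring_nf

/-- cylindrical coordinates with `P = |z|²` -/
theorem lintegral_cyl (H : M n → ℝ≥0∞) (hH : Measurable H) :
    ∫⁻ x, H x = ∫⁻ η : V n, ∫⁻ P in Ioi (0 : ℝ), ∫⁻ t in II, (1 / 2 : ℝ≥0∞) * H (cyl t P η) := by
  rw [Measure.volume_eq_prod, lintegral_prod_symm _ hH.aemeasurable]
  refine lintegral_congr (fun η => ?_)
  exact lintegral_complex_polar (fun z => H (z, η)) (by fun_prop)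

theorem measurable_Dmap (f : ℝ → ℝ) (hf : Measurable f) : Measurable (Dmap (n := n) f) := by
  unfold Dmap
  have := Complex.measurable_arg
  fun_prop

theorem Dmap_eq_rot (f : ℝ → ℝ) (x : M n) :
    Dmap f x = rot (f (Complex.arg x.1) - Complex.arg x.1) x := by
  unfold Dmap rot
  refine Prod.ext ?_ rfl
  simp only
  have hx := Complex.norm_mul_exp_arg_mul_I x.1
  calc (‖x.1‖ : ℂ) * Complex.exp (f (Complex.arg x.1) * Complex.I)
      = Complex.exp (((f (Complex.arg x.1) - Complex.arg x.1 : ℝ) : ℂ) * Complex.I) *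
          ((‖x.1‖ : ℂ) * Complex.exp (Complex.arg x.1 * Complex.I)) := by
        rw [mul_left_comm, ← Complex.exp_add]
        congr 2
        push_cast
        ring
    _ = _ := by rw [hx]

theorem norm_cyl_fst {t P : ℝ} (hP : 0 < P) (η : V n) : ‖(cyl t P η).1‖ ^ 2 = P := by
  simp only [cyl, Complex.norm_mul, Complex.norm_real, Complex.norm_exp_ofReal_mul_I, mul_one,
    Real.norm_eq_abs, abs_of_nonneg (Real.sqrt_nonneg P)]
  exact Real.sq_sqrt hP.le

theorem arg_cyl_fst {t P : ℝ} (hP : 0 < P) (ht : t ∈ II) (η : V n) :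
    Complex.arg (cyl t P η).1 = t := by
  simp only [cyl]
  rw [Complex.exp_mul_I]
  exact_mod_cast Complex.arg_mul_cos_add_sin_mul_I (Real.sqrt_pos.2 hP) ht

theorem Dmap_cyl (f : ℝ → ℝ) {t P : ℝ} (hP : 0 < P) (ht : t ∈ II) (η : V n) :
    Dmap f (cyl t P η) = cyl (f t) P η := by
  have h1 : ‖(cyl t P η).1‖ = Real.sqrt P := by
    simp only [cyl, Complex.norm_mul, Complex.norm_real, Complex.norm_exp_ofReal_mul_I, mul_one,
      Real.norm_eq_abs, abs_of_nonneg (Real.sqrt_nonneg P)]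
  unfold Dmap
  rw [arg_cyl_fst hP ht, h1]
  rfl

/-- angle maps: if `f # (w dt|II) = w' dt|II` then `Dmap f` pushes `ϱ(|z|²,ξ) w(arg z) dx` to
`ϱ(|z|²,ξ) w'(arg z) dx`. -/
theorem map_Dmap (ϱ : ℝ × V n → ℝ≥0∞) (hϱ : Measurable ϱ) (f : ℝ → ℝ) (hf : Measurable f)
    (w w' : ℝ → ℝ≥0∞) (hw : Measurable w) (hw' : Measurable w')
    (hfw : ((volume.restrict II).withDensity w).map f = (volume.restrict II).withDensity w') :
    (volume.withDensity fun x : M n => ϱ (‖x.1‖ ^ 2, x.2) * w (Complex.arg x.1)).map (Dmap f) =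
      volume.withDensity fun x : M n => ϱ (‖x.1‖ ^ 2, x.2) * w' (Complex.arg x.1) := by
  have harg := Complex.measurable_arg
  have hD := measurable_Dmap (n := n) f hf
  have hcyl := measurable_cyl (n := n)
  have key : ∀ K : ℝ → ℝ≥0∞, Measurable K →
      ∫⁻ t in II, w t * K (f t) = ∫⁻ t in II, w' t * K t := by
    intro K hK
    have h1 : ∫⁻ u, K u ∂(((volume.restrict II).withDensity w).map f) = ∫⁻ t in II, w t * K (f t) := by
      rw [lintegral_map hK hf, lintegral_withDensity_eq_lintegral_mul _ hw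
        (show Measurable (fun a => K (f a)) from hK.comp hf)]
      rfl
    have h2 : ∫⁻ u, K u ∂((volume.restrict II).withDensity w') = ∫⁻ t in II, w' t * K t := by
      rw [lintegral_withDensity_eq_lintegral_mul _ hw' hK]
      rfl
    rw [← h1, ← h2, hfw]
  refine Measure.ext_of_lintegral _ (fun H hH => ?_)
  rw [lintegral_map hH hD, lintegral_withDensity_eq_lintegral_mul _ (by fun_prop)
      (show Measurable (fun a => H (Dmap f a)) from hH.comp hD),
    lintegral_withDensity_eq_lintegral_mul _ (by fun_prop) hH, lintegral_cyl _ (by fun_prop),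
    lintegral_cyl _ (by fun_prop)]
  refine lintegral_congr (fun η => ?_)
  refine setLIntegral_congr_fun measurableSet_Ioi (fun P hP => ?_)
  have hP0 : (0 : ℝ) < P := hP
  have hK : Measurable (fun u : ℝ => H (cyl u P η)) := by
    have : Measurable (fun u : ℝ => cyl u P η) := hcyl.comp (by fun_prop : Measurable (fun u : ℝ => (u, P, η)))
    exact hH.comp this
  calc ∫⁻ t in II, (1 / 2 : ℝ≥0∞) * ((fun x : M n => ϱ (‖x.1‖ ^ 2, x.2) * w (Complex.arg x.1)) *
        (fun a => H (Dmap f a))) (cyl t P η)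
      = ∫⁻ t in II, ((1 / 2 : ℝ≥0∞) * ϱ (P, η)) * (w t * H (cyl (f t) P η)) := by
        refine setLIntegral_congr_fun measurableSet_Ioc (fun t ht => ?_)
        simp only [Pi.mul_apply]
        rw [norm_cyl_fst hP0, arg_cyl_fst hP0 ht, Dmap_cyl f hP0 ht]
        simp only [cyl]
        ring
    _ = ((1 / 2 : ℝ≥0∞) * ϱ (P, η)) * ∫⁻ t in II, w t * H (cyl (f t) P η) := by
        rw [lintegral_const_mul]
        exact hw.mul (hK.comp hf)
    _ = ((1 / 2 : ℝ≥0∞) * ϱ (P, η)) * ∫⁻ t in II, w' t * H (cyl t P η) := by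
        rw [key _ hK]
    _ = ∫⁻ t in II, ((1 / 2 : ℝ≥0∞) * ϱ (P, η)) * (w' t * H (cyl t P η)) := by
        rw [lintegral_const_mul]
        exact hw'.mul hK
    _ = _ := by
        refine setLIntegral_congr_fun measurableSet_Ioc (fun t ht => ?_)
        simp only [Pi.mul_apply]
        rw [norm_cyl_fst hP0, arg_cyl_fst hP0 ht]
        simp only [cyl]
        ring

end Crest.Agent.R130
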