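import Mathlib
import Crest.Prelude.Def_MultiMarginal

/-! Row 130 (S0175): common definitions.  See `notes/R130_plan.md` and `S0175_Plan.lean`.

Model space `M n = ℂ × ℝⁿ` (`d = n + 2`), points `x = (z, ξ)`.  One real parameter `w ∈ Om s = (0, omax s)`
describes an isosceles triangle with squared sides `S1` (base) and `S2, S2`. -/

set_option autoImplicit false

namespace Crest.Agent.R130

open MeasureTheory Set
open scoped ENNReal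
open Crest.AnalysisR.OT

noncomputable section

/-! ### the four-part transport statement on an arbitrary measurable space -/

/-- optimal plan of finite cost exists, no Monge pair attains it, Monge pairs approach it. -/
def OTStatement {X : Type*} [MeasurableSpace X] (μ : Measure X) (c : X × X × X → ℝ≥0∞) : Prop :=
  ∃ π₀ : Measure (X × X × X),
    IsCoupling₃ μ π₀ ∧ ∫⁻ p, c p ∂π₀ < ⊤ ∧
    (∀ π : Measure (X × X × X), IsCoupling₃ μ π → ∫⁻ p, c p ∂π₀ ≤ ∫⁻ p, c p ∂π) ∧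
    (∀ T₂ T₃ : X → X, Measurable T₂ → Measurable T₃ → μ.map T₂ = μ → μ.map T₃ = μ →
      ∫⁻ p, c p ∂π₀ < ∫⁻ x, c (x, T₂ x, T₃ x) ∂μ) ∧
    (∀ ε : ℝ≥0∞, 0 < ε → ∃ T₂ T₃ : X → X, Measurable T₂ ∧ Measurable T₃ ∧
      μ.map T₂ = μ ∧ μ.map T₃ = μ ∧ ∫⁻ x, c (x, T₂ x, T₃ x) ∂μ < ∫⁻ p, c p ∂π₀ + ε)

/-! ### the model space -/

abbrev V (n : ℕ) := EuclideanSpace ℝ (Fin n)
abbrev M (n : ℕ) := ℂ × V n

variable {n : ℕ}

/-- squared euclidean distance on the model space -/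
def dist2 (p q : M n) : ℝ := ‖p.1 - q.1‖ ^ 2 + ‖p.2 - q.2‖ ^ 2
/-- pair cost on the model space -/
def pc (s : ℝ) (p q : M n) : ℝ≥0∞ := ENNReal.ofReal (Real.sqrt (dist2 p q)) ^ (-s)
/-- triple cost on the model space -/
def cM (s : ℝ) (t : M n × M n × M n) : ℝ≥0∞ := pc s t.1 t.2.1 + pc s t.1 t.2.2 + pc s t.2.1 t.2.2
/-- rotation of the `ℂ` factor -/
def rot (θ : ℝ) (x : M n) : M n := (Complex.exp (θ * Complex.I) * x.1, x.2)
/-- cylindrical coordinates `(t, P, η) ↦ (√P e^{it}, η)` -/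
def cyl (t P : ℝ) (η : V n) : M n := ((Real.sqrt P : ℂ) * Complex.exp (t * Complex.I), η)
/-- the map acting by `f` on the angle -/
def Dmap (f : ℝ → ℝ) (x : M n) : M n :=
  ((‖x.1‖ : ℂ) * Complex.exp (f (Complex.arg x.1) * Complex.I), x.2)
/-- the angle interval -/
abbrev II : Set ℝ := Ioc (-Real.pi) Real.pi
/-- weighted square norm: `-wN` is the potential on the `A` region -/
def wN (x : M n) : ℝ := ‖x.1‖ ^ 2 + 2 * ‖x.2‖ ^ 2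

/-! ### parameter functions -/

def ea (s : ℝ) : ℝ := 2 / (2 + s)
def S1 (s w : ℝ) : ℝ := (s / (1 - w)) ^ ea s
def S2 (s w : ℝ) : ℝ := (s / (2 * w)) ^ ea s
def Dd (s w : ℝ) : ℝ := S2 s w - S1 s w / 4
def kap (w : ℝ) : ℝ := w / (1 - w)
def kapN (w : ℝ) : ℝ := w / (2 - w)
def omax (s : ℝ) : ℝ := 1 / (1 + 2 * (4 : ℝ) ^ (-(1 + s / 2)))
def Om (s : ℝ) : Set ℝ := Ioo 0 (omax s)
def R0 (s w : ℝ) : ℝ := (1 - w ^ 2) * S1 s w / 4 + w ^ 2 * S2 s w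
/-- derivative of `R0` -/
def R0' (s w : ℝ) : ℝ := ea s / 4 * S1 s w + (2 - ea s) * w * Dd s w
/-- `|y.1|²` as a function of the parameter and of `Q = |y.2|²` -/
def PP (s w Q : ℝ) : ℝ := (1 - w) ^ 2 * (Dd s w - 4 * Q / (2 - w) ^ 2)
/-- minus the `w`-derivative of `PP` -/
def dPP (s w Q : ℝ) : ℝ :=
  2 * (1 - w) * (Dd s w - 4 * Q / (2 - w) ^ 2) +
    (1 - w) ^ 2 * (ea s / w * S2 s w + ea s / (4 * (1 - w)) * S1 s w + 8 * Q / (2 - w) ^ 3)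

open scoped Classical in
/-- the root `w ∈ Om s` of `PP s w Q = P` (for `0 < P`, `0 ≤ Q`); junk value `1/3` -/
def omB (s P Q : ℝ) : ℝ := if 0 < P ∧ 0 ≤ Q then sSup {w ∈ Om s | P ≤ PP s w Q} else 1 / 3

open scoped Classical in
/-- the inverse function of `R0 s` on `Om s`; junk value `1/3` -/
def omA (s G : ℝ) : ℝ := if G ∈ R0 s '' Om s then Function.invFunOn (R0 s) (Om s) G else 1 / 3

/-- value of the `B` potential -/
def UB (s w P Q : ℝ) : ℝ :=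
  S1 s w ^ (-s / 2) + 2 * S2 s w ^ (-s / 2) + (1 - w) / 2 * S1 s w + 2 * w * S2 s w
    - 2 * kap w * P - 4 * w / (2 - w) * Q

def K1 (s : ℝ) : ℝ :=
  (s ^ ea s) ^ (-s / 2) + 2 * ((s / 2) ^ ea s) ^ (-s / 2) + s ^ ea s / 2 + 2 * (s / 2) ^ ea s
def KA (s : ℝ) : ℝ := s ^ ea s / 2 + (s / 2) ^ ea s
/-- size of the `B` region -/
def bb (s : ℝ) : ℝ := min (s ^ ea s / 8) ((2 * K1 s + 1) ^ (-2 / s) / 8)

/-! ### regions, maps -/

def Bset (s : ℝ) (n : ℕ) : Set (M n) :=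
  {y | bb s / 2 ≤ ‖y.1‖ ^ 2 ∧ ‖y.1‖ ^ 2 ≤ bb s ∧ ‖y.2‖ ^ 2 ≤ bb s}
def Aset (s : ℝ) (n : ℕ) : Set (M n) :=
  {x | s ^ ea s / 4 ≤ ‖x.1‖ ^ 2 ∧ ‖x.1‖ ^ 2 + 4 * ‖x.2‖ ^ 2 ≤ KA s}

/-- the configuration point with explicit parameter `w`, `σ = ±1` -/
def cfg (s w σ : ℝ) (y : M n) : M n :=
  (((-(kap w) : ℝ) : ℂ) * y.1 + ((σ * (Real.sqrt (S1 s w) / 2) / ‖y.1‖ : ℝ) : ℂ) * Complex.I * y.1,
    (-(kapN w)) • y.2)
/-- parameter of a point of the `B` side -/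
def omY (s : ℝ) (y : M n) : ℝ := omB s (‖y.1‖ ^ 2) (‖y.2‖ ^ 2)
/-- `φ_σ`, `σ = ±1` -/
def phi (s σ : ℝ) (y : M n) : M n := cfg s (omY s y) σ y

/-- parameter of a point of the `A` side -/
def omX (s : ℝ) (x : M n) : ℝ := omA s (‖x.1‖ ^ 2 + 4 * ‖x.2‖ ^ 2)
def QX (s : ℝ) (x : M n) : ℝ := ‖x.2‖ ^ 2 / kapN (omX s x) ^ 2
def PX (s : ℝ) (x : M n) : ℝ := PP s (omX s x) (QX s x)
/-- `ψ_σ`, left inverse of `φ_σ` -/
def psi (s σ : ℝ) (x : M n) : M n :=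
  (((Real.sqrt (PX s x) / ‖x.1‖ ^ 2 : ℝ) : ℂ) *
      (((-(kap (omX s x) * Real.sqrt (PX s x)) : ℝ) : ℂ)
        - ((σ * (Real.sqrt (S1 s (omX s x)) / 2) : ℝ) : ℂ) * Complex.I) * x.1,
    (-(kapN (omX s x))⁻¹) • x.2)

/-! ### densities -/

def gB (s P Q : ℝ) : ℝ :=
  Real.smoothTransition (P - bb s / 2) * Real.smoothTransition (bb s - P) *
    Real.smoothTransition (bb s - Q)
def Jac (s : ℝ) (n : ℕ) (w Q : ℝ) : ℝ := dPP s w Q / (R0' s w * kapN w ^ n)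

open scoped Classical in
def gA (s : ℝ) (n : ℕ) (G q : ℝ) : ℝ :=
  if G ∈ R0 s '' Om s then
    Real.sqrt 2 * gB s (PP s (omA s G) (q / kapN (omA s G) ^ 2)) (q / kapN (omA s G) ^ 2) *
      Real.sqrt (Jac s n (omA s G) (q / kapN (omA s G) ^ 2))
  else 0

def rB0 (s : ℝ) (y : M n) : ℝ := gB s (‖y.1‖ ^ 2) (‖y.2‖ ^ 2)
def rA0 (s : ℝ) (x : M n) : ℝ := gA s n (‖x.1‖ ^ 2 + 4 * ‖x.2‖ ^ 2) (‖x.2‖ ^ 2)
def ZB (s : ℝ) (n : ℕ) : ℝ≥0∞ := ∫⁻ y : M n, ENNReal.ofReal (rB0 s y ^ 2)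
def cB (s : ℝ) (n : ℕ) : ℝ := 1 / (3 * (ZB s n).toReal)
/-- the square root of the density -/
def rM (s : ℝ) (x : M n) : ℝ := Real.sqrt (cB s n) * (rB0 s x + rA0 s x)
def muB (s : ℝ) (n : ℕ) : Measure (M n) :=
  volume.withDensity fun y => ENNReal.ofReal (cB s n * rB0 s y ^ 2)
def muA (s : ℝ) (n : ℕ) : Measure (M n) :=
  volume.withDensity fun x => ENNReal.ofReal (cB s n * rA0 s x ^ 2)

/-! ### potentials -/

open scoped Classical in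
def uM (s : ℝ) (x : M n) : ℝ :=
  if x ∈ Bset s n then UB s (omY s x) (‖x.1‖ ^ 2) (‖x.2‖ ^ 2) else -(wN x)
def vM (s : ℝ) (x : M n) : ℝ≥0∞ := ENNReal.ofReal (uM s x + KA s)

end

end Crest.Agent.R130
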