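import Crest.Agent.S0175_Defs

/-! Row 130 (S0175), module P1: parameter functions (algebra, bounds, derivatives). -/

set_option autoImplicit false

namespace Crest.Agent.R130

open MeasureTheory Set Filter
open scoped ENNReal ContDiff Topology

variable {n : ℕ} {s : ℝ}

section Param1
variable (hs : 0 < s)
include hs

theorem ea_pos : 0 < ea s := by unfold ea; positivity
theorem ea_lt_one : ea s < 1 := by unfold ea; rw [div_lt_one (by linarith)]; linarith
theorem ea_mul : ea s * (1 + s / 2) = 1 := by unfold ea; field_simp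

theorem c4_pos : 0 < (4 : ℝ) ^ (-(1 + s / 2)) := Real.rpow_pos_of_pos (by norm_num) _
theorem c4_lt_one : (4 : ℝ) ^ (-(1 + s / 2)) < 1 :=
  Real.rpow_lt_one_of_one_lt_of_neg (by norm_num) (by linarith)
theorem c4_rpow : ((4 : ℝ) ^ (-(1 + s / 2))) ^ ea s = 1 / 4 := by
  rw [← Real.rpow_mul (by norm_num)]
  have : -(1 + s / 2) * ea s = -1 := by have := ea_mul hs; linarith
  rw [this, Real.rpow_neg_one]; norm_num

theorem omax_pos : 0 < omax s := by
  have := c4_pos hs
  unfold omax; positivity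
theorem omax_lt_one : omax s < 1 := by
  have := c4_pos hs
  unfold omax; rw [div_lt_one (by linarith)]; linarith
theorem omax_eq : 2 * (4 : ℝ) ^ (-(1 + s / 2)) * omax s = 1 - omax s := by
  have := c4_pos hs
  unfold omax; field_simp; ring
theorem third_mem_Om : (1 / 3 : ℝ) ∈ Om s := by
  have h1 := c4_pos hs
  have h2 := c4_lt_one hs
  refine ⟨by norm_num, ?_⟩
  unfold omax
  apply one_div_lt_one_div_of_lt (by linarith) (by linarith)

theorem S1_pos {w : ℝ} (h : w < 1) : 0 < S1 s w :=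
  Real.rpow_pos_of_pos (div_pos hs (by linarith)) _
theorem S2_pos {w : ℝ} (h : 0 < w) : 0 < S2 s w :=
  Real.rpow_pos_of_pos (div_pos hs (by linarith)) _

/-- slope of the tangent of `u ↦ u^(-s/2)` at `S1` -/
theorem S1_weight {w : ℝ} (h : w < 1) : s / 2 * S1 s w ^ (-s / 2 - 1) = (1 - w) / 2 := by
  have h1 : 0 < 1 - w := by linarith
  unfold S1
  rw [← Real.rpow_mul (div_pos hs h1).le]
  have : ea s * (-s / 2 - 1) = -1 := by have := ea_mul hs; linarith
  rw [this, Real.rpow_neg_one]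
  field_simp
theorem S2_weight {w : ℝ} (h : 0 < w) : s / 2 * S2 s w ^ (-s / 2 - 1) = w := by
  unfold S2
  rw [← Real.rpow_mul (div_pos hs (by linarith)).le]
  have : ea s * (-s / 2 - 1) = -1 := by have := ea_mul hs; linarith
  rw [this, Real.rpow_neg_one]
  field_simp

theorem S1_quarter {w : ℝ} (h : w < 1) :
    S1 s w / 4 = (s * (4 : ℝ) ^ (-(1 + s / 2)) / (1 - w)) ^ ea s := by
  have h1 : 0 < 1 - w := by linarith
  have : s * (4 : ℝ) ^ (-(1 + s / 2)) / (1 - w) = s / (1 - w) * (4 : ℝ) ^ (-(1 + s / 2)) := by ring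
  rw [this, Real.mul_rpow (div_pos hs h1).le (c4_pos hs).le, c4_rpow hs]
  unfold S1; ring

theorem Dd_pos {w : ℝ} (h : w ∈ Om s) : 0 < Dd s w := by
  have hc := c4_pos hs
  have hw1 : w < 1 := h.2.trans (omax_lt_one hs)
  have h1 : 0 < 1 - w := by linarith
  have hw0 := h.1
  have hkey : 2 * (4 : ℝ) ^ (-(1 + s / 2)) * w < 1 - w := by
    have h2 := h.2
    unfold omax at h2
    rw [lt_div_iff₀ (by linarith)] at h2
    linarith
  unfold Dd
  rw [S1_quarter hs hw1, sub_pos]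
  unfold S2
  apply Real.rpow_lt_rpow (by positivity) _ (ea_pos hs)
  rw [div_lt_div_iff₀ h1 (by linarith)]
  nlinarith

theorem Dd_omax : Dd s (omax s) = 0 := by
  have hc := c4_pos hs
  have hw1 := omax_lt_one hs
  have hw0 := omax_pos hs
  have h1 : 0 < 1 - omax s := by linarith
  unfold Dd
  rw [S1_quarter hs hw1, sub_eq_zero]
  unfold S2
  congr 1
  rw [div_eq_div_iff (by linarith) h1.ne']
  have := omax_eq hs
  linear_combination (-s) * this

theorem S1_ge {w : ℝ} (h0 : 0 ≤ w) (h1 : w < 1) : s ^ ea s ≤ S1 s w := by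
  unfold S1
  apply Real.rpow_le_rpow hs.le _ (ea_pos hs).le
  rw [le_div_iff₀ (by linarith)]
  nlinarith
theorem S2_ge {w : ℝ} (h0 : 0 < w) (h1 : w ≤ 1) : (s / 2) ^ ea s ≤ S2 s w := by
  unfold S2
  apply Real.rpow_le_rpow (by positivity) _ (ea_pos hs).le
  rw [div_le_div_iff₀ (by norm_num) (by linarith)]
  nlinarith

theorem le_rpow_ea {x : ℝ} (h0 : 0 < x) (h1 : x ≤ 1) : x ≤ x ^ ea s := by
  have := Real.rpow_le_rpow_of_exponent_ge h0 h1 (ea_lt_one hs).le
  rwa [Real.rpow_one] at this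

theorem w1S1_le {w : ℝ} (h0 : 0 ≤ w) (h1 : w < 1) : (1 - w) / 2 * S1 s w ≤ s ^ ea s / 2 := by
  have h : 0 < 1 - w := by linarith
  unfold S1
  rw [Real.div_rpow hs.le h.le]
  have hx := le_rpow_ea hs h (by linarith)
  have hp : 0 < (1 - w) ^ ea s := Real.rpow_pos_of_pos h _
  have hsp : 0 < s ^ ea s := Real.rpow_pos_of_pos hs _
  have : (1 - w) / 2 * (s ^ ea s / (1 - w) ^ ea s) = s ^ ea s / 2 * ((1 - w) / (1 - w) ^ ea s) := by
    ring
  rw [this]
  have h2 : (1 - w) / (1 - w) ^ ea s ≤ 1 := (div_le_one hp).mpr hx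
  nlinarith
theorem wS2_le {w : ℝ} (h0 : 0 < w) (h1 : w ≤ 1) : w * S2 s w ≤ (s / 2) ^ ea s := by
  unfold S2
  have : s / (2 * w) = s / 2 / w := by field_simp
  rw [this, Real.div_rpow (by positivity) h0.le]
  have hx := le_rpow_ea hs h0 h1
  have hp : 0 < w ^ ea s := Real.rpow_pos_of_pos h0 _
  have hsp : 0 < (s / 2) ^ ea s := Real.rpow_pos_of_pos (by positivity) _
  have : w * ((s / 2) ^ ea s / w ^ ea s) = (s / 2) ^ ea s * (w / w ^ ea s) := by ring
  rw [this]
  have h2 : w / w ^ ea s ≤ 1 := (div_le_one hp).mpr hx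
  nlinarith

theorem R0_le_KA {w : ℝ} (h0 : 0 < w) (h1 : w < 1) : R0 s w ≤ KA s := by
  have a1 := w1S1_le hs h0.le h1
  have a2 := wS2_le hs h0 h1.le
  have p1 := S1_pos hs h1
  have p2 := S2_pos hs h0
  have hsp : 0 < s ^ ea s := Real.rpow_pos_of_pos hs _
  have hsp2 : 0 < (s / 2) ^ ea s := Real.rpow_pos_of_pos (by positivity) _
  unfold R0 KA
  have e1 : (1 - w ^ 2) * S1 s w / 4 = (1 + w) / 2 * ((1 - w) / 2 * S1 s w) := by ring
  have e2 : w ^ 2 * S2 s w = w * (w * S2 s w) := by ring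
  rw [e1, e2]
  have b1 : (1 + w) / 2 * ((1 - w) / 2 * S1 s w) ≤ 1 * (s ^ ea s / 2) := by
    apply mul_le_mul (by linarith) a1 (by apply mul_nonneg <;> [linarith; exact p1.le]) (by norm_num)
  have b2 : w * (w * S2 s w) ≤ 1 * (s / 2) ^ ea s := by
    apply mul_le_mul h1.le a2 (by positivity) (by norm_num)
  linarith

theorem UB_le_K1 {w P Q : ℝ} (h0 : 0 < w) (h1 : w < 1) (hP : 0 ≤ P) (hQ : 0 ≤ Q) :
    UB s w P Q ≤ K1 s := by
  have a1 := w1S1_le hs h0.le h1
  have a2 := wS2_le hs h0 h1.le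
  have hsp : 0 < s ^ ea s := Real.rpow_pos_of_pos hs _
  have hsp2 : 0 < (s / 2) ^ ea s := Real.rpow_pos_of_pos (by positivity) _
  have c1 : S1 s w ^ (-s / 2) ≤ (s ^ ea s) ^ (-s / 2) :=
    Real.rpow_le_rpow_of_nonpos hsp (S1_ge hs h0.le h1) (by linarith)
  have c2 : S2 s w ^ (-s / 2) ≤ ((s / 2) ^ ea s) ^ (-s / 2) :=
    Real.rpow_le_rpow_of_nonpos hsp2 (S2_ge hs h0 h1.le) (by linarith)
  have k1 : 0 ≤ 2 * kap w * P := by
    unfold kap
    have : 0 < 1 - w := by linarith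
    positivity
  have k2 : 0 ≤ 4 * w / (2 - w) * Q := by
    have : 0 < 2 - w := by linarith
    positivity
  unfold UB K1
  linarith

theorem K1_pos : 0 < K1 s := by unfold K1; positivity
theorem KA_pos : 0 < KA s := by unfold KA; positivity
theorem bb_pos : 0 < bb s := by
  have := K1_pos hs
  unfold bb
  apply lt_min <;> positivity
theorem bb_lt : bb s < s ^ ea s / 4 := by
  have hsp : 0 < s ^ ea s := Real.rpow_pos_of_pos hs _
  have : bb s ≤ s ^ ea s / 8 := min_le_left _ _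
  linarith
theorem bb_cost : 2 * K1 s < (8 * bb s) ^ (-s / 2) := by
  have hK := K1_pos hs
  have hb := bb_pos hs
  have h1 : 8 * bb s ≤ (2 * K1 s + 1) ^ (-2 / s) := by
    have : bb s ≤ (2 * K1 s + 1) ^ (-2 / s) / 8 := min_le_right _ _
    linarith
  have h2 : ((2 * K1 s + 1) ^ (-2 / s)) ^ (-s / 2) ≤ (8 * bb s) ^ (-s / 2) :=
    Real.rpow_le_rpow_of_nonpos (by positivity) h1 (by linarith)
  rw [← Real.rpow_mul (by positivity)] at h2
  have : -2 / s * (-s / 2) = 1 := by field_simp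
  rw [this, Real.rpow_one] at h2
  linarith

theorem hasDerivAt_S1 {w : ℝ} (h : w < 1) : HasDerivAt (S1 s) (ea s / (1 - w) * S1 s w) w := by
  have h1 : 0 < 1 - w := by linarith
  have hb : HasDerivAt (fun w : ℝ => s / (1 - w)) (s / (1 - w) ^ 2) w := by
    have := (hasDerivAt_const w s).fun_div
      ((hasDerivAt_const w (1 : ℝ)).fun_sub (hasDerivAt_id' w)) h1.ne'
    exact this.congr_deriv (by ring)
  have := hb.rpow_const (p := ea s) (Or.inl (div_pos hs h1).ne')
  unfold S1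
  refine this.congr_deriv ?_
  rw [Real.rpow_sub_one (div_pos hs h1).ne']
  field_simp

theorem hasDerivAt_S2 {w : ℝ} (h : 0 < w) : HasDerivAt (S2 s) (-(ea s / w * S2 s w)) w := by
  have hb : HasDerivAt (fun w : ℝ => s / (2 * w)) (-(s / (2 * w ^ 2))) w := by
    have := (hasDerivAt_const w s).fun_div
      ((hasDerivAt_id' w).const_mul (2 : ℝ)) (by positivity)
    refine this.congr_deriv ?_
    field_simp
    ring
  have := hb.rpow_const (p := ea s) (Or.inl (div_pos hs (by linarith : (0:ℝ) < 2 * w)).ne')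
  unfold S2
  refine this.congr_deriv ?_
  rw [Real.rpow_sub_one (div_pos hs (by linarith : (0:ℝ) < 2 * w)).ne']
  field_simp

theorem hasDerivAt_R0 {w : ℝ} (h0 : 0 < w) (h1 : w < 1) : HasDerivAt (R0 s) (R0' s w) w := by
  have d1 := hasDerivAt_S1 hs h1
  have d2 := hasDerivAt_S2 hs h0
  have hw : HasDerivAt (fun w : ℝ => w ^ 2) (2 * w) w := by
    simpa using hasDerivAt_pow 2 w
  have := ((((hasDerivAt_const w (1 : ℝ)).fun_sub hw).fun_mul d1).div_const 4).fun_add (hw.fun_mul d2)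
  have h1' : (1 - w) ≠ 0 := by linarith
  have hfun : R0 s = fun w => (1 - w ^ 2) * S1 s w / 4 + w ^ 2 * S2 s w := by
    funext w; rfl
  rw [hfun]
  refine this.congr_deriv ?_
  unfold R0' Dd
  field_simp
  ring

theorem hasDerivAt_PP {w : ℝ} (h0 : 0 < w) (h1 : w < 1) (Q : ℝ) :
    HasDerivAt (fun w => PP s w Q) (-(dPP s w Q)) w := by
  have d1 := hasDerivAt_S1 hs h1
  have d2 := hasDerivAt_S2 hs h0
  have h1' : (1 - w) ≠ 0 := by linarith
  have h2' : (2 - w) ≠ 0 := by linarith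
  have ha : HasDerivAt (fun w : ℝ => (1 - w) ^ 2) (-(2 * (1 - w))) w := by
    have := ((hasDerivAt_const w (1 : ℝ)).fun_sub (hasDerivAt_id' w)).fun_pow 2
    refine this.congr_deriv ?_
    simp
  have hb : HasDerivAt (fun w : ℝ => (2 - w) ^ 2) (-(2 * (2 - w))) w := by
    have := ((hasDerivAt_const w (2 : ℝ)).fun_sub (hasDerivAt_id' w)).fun_pow 2
    refine this.congr_deriv ?_
    simp
  have hc : HasDerivAt (fun w : ℝ => 4 * Q / (2 - w) ^ 2) (8 * Q / (2 - w) ^ 3) w := by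
    have := (hasDerivAt_const w (4 * Q)).fun_div hb (pow_ne_zero 2 h2')
    refine this.congr_deriv ?_
    field_simp
    ring
  have := ha.fun_mul ((d2.fun_sub (d1.div_const 4)).fun_sub hc)
  have hfun : (fun w => PP s w Q) =
      fun w => (1 - w) ^ 2 * (S2 s w - S1 s w / 4 - 4 * Q / (2 - w) ^ 2) := by
    funext w; rfl
  rw [hfun]
  refine this.congr_deriv ?_
  unfold dPP Dd
  field_simp
  ring

theorem R0'_pos {w : ℝ} (h : w ∈ Om s) : 0 < R0' s w := by
  have hw1 : w < 1 := h.2.trans (omax_lt_one hs)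
  have a := S1_pos hs hw1
  have b := Dd_pos hs h
  have c := ea_pos hs
  have d := ea_lt_one hs
  have e := h.1
  unfold R0'
  have : 0 < (2 - ea s) * w * Dd s w := by
    apply mul_pos (mul_pos (by linarith) e) b
  positivity

theorem dPP_pos {w Q : ℝ} (h : w ∈ Om s) (hQ : 0 ≤ Q) (hP : 0 < PP s w Q) : 0 < dPP s w Q := by
  have hw1 : w < 1 := h.2.trans (omax_lt_one hs)
  have h1 : 0 < 1 - w := by linarith
  have h2 : 0 < 2 - w := by linarith
  have a := S1_pos hs hw1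
  have b := S2_pos hs h.1
  have c := ea_pos hs
  have e := h.1
  have hE : 0 < Dd s w - 4 * Q / (2 - w) ^ 2 := by
    unfold PP at hP
    exact (pos_iff_pos_of_mul_pos hP).mp (by positivity)
  unfold dPP
  positivity

theorem R0_strictMonoOn : StrictMonoOn (R0 s) (Om s) := by
  apply strictMonoOn_of_deriv_pos (convex_Ioo _ _)
  · intro w hw
    exact (hasDerivAt_R0 hs hw.1 (hw.2.trans (omax_lt_one hs))).continuousAt.continuousWithinAt
  · intro w hw
    rw [interior_Ioo] at hw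
    rw [(hasDerivAt_R0 hs hw.1 (hw.2.trans (omax_lt_one hs))).deriv]
    exact R0'_pos hs hw

theorem PP_anti {w₁ w₂ Q : ℝ} (h₁ : w₁ ∈ Om s) (h₂ : w₂ ∈ Om s) (h : w₁ < w₂) (hQ : 0 ≤ Q)
    (hP : 0 < PP s w₂ Q) : PP s w₂ Q < PP s w₁ Q := by
  have hm := omax_lt_one hs
  have a1 : w₁ < 1 := h₁.2.trans hm
  have a2 : w₂ < 1 := h₂.2.trans hm
  have p1 := h₁.1
  have p2 := h₂.1
  have hE : 0 < Dd s w₂ - 4 * Q / (2 - w₂) ^ 2 := by
    unfold PP at hP
    have : 0 < (1 - w₂) ^ 2 := by have : 0 < 1 - w₂ := by linarith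
                                  positivity
    exact (pos_iff_pos_of_mul_pos hP).mp this
  have hS1 : S1 s w₁ ≤ S1 s w₂ := by
    unfold S1
    apply Real.rpow_le_rpow (div_pos hs (by linarith)).le _ (ea_pos hs).le
    apply div_le_div_of_nonneg_left hs.le (by linarith) (by linarith)
  have hS2 : S2 s w₂ ≤ S2 s w₁ := by
    unfold S2
    apply Real.rpow_le_rpow (div_pos hs (by linarith)).le _ (ea_pos hs).le
    apply div_le_div_of_nonneg_left hs.le (by linarith) (by linarith)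
  have hq : 4 * Q / (2 - w₁) ^ 2 ≤ 4 * Q / (2 - w₂) ^ 2 := by
    apply div_le_div_of_nonneg_left (by positivity)
    · have : 0 < 2 - w₂ := by linarith
      positivity
    · apply pow_le_pow_left₀ (by linarith) (by linarith)
  have hEE : Dd s w₂ - 4 * Q / (2 - w₂) ^ 2 ≤ Dd s w₁ - 4 * Q / (2 - w₁) ^ 2 := by
    unfold Dd; linarith
  have hsq : (1 - w₂) ^ 2 < (1 - w₁) ^ 2 := by
    apply pow_lt_pow_left₀ (by linarith) (by linarith) (by norm_num)
  unfold PP
  calc (1 - w₂) ^ 2 * (Dd s w₂ - 4 * Q / (2 - w₂) ^ 2)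
      < (1 - w₁) ^ 2 * (Dd s w₂ - 4 * Q / (2 - w₂) ^ 2) := mul_lt_mul_of_pos_right hsq hE
    _ ≤ (1 - w₁) ^ 2 * (Dd s w₁ - 4 * Q / (2 - w₁) ^ 2) :=
        mul_le_mul_of_nonneg_left hEE (by positivity)

theorem PP_le_of_le {w Q Q' : ℝ} (hQ : Q ≤ Q') : PP s w Q' ≤ PP s w Q := by
  unfold PP
  apply mul_le_mul_of_nonneg_left _ (by positivity)
  have : 4 * Q / (2 - w) ^ 2 ≤ 4 * Q' / (2 - w) ^ 2 :=
    div_le_div_of_nonneg_right (by linarith) (by positivity)
  linarith

theorem contDiffOn_S1 : ContDiffOn ℝ ∞ (S1 s) (Iio 1) := by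
  unfold S1
  apply ContDiffOn.rpow_const_of_ne
  · apply ContDiffOn.div contDiffOn_const (contDiffOn_const.sub contDiffOn_id)
    intro w hw
    have : w < 1 := hw
    simp only [id]
    linarith
  · intro w hw
    have : w < 1 := hw
    exact (div_pos hs (by linarith)).ne'
theorem contDiffOn_S2 : ContDiffOn ℝ ∞ (S2 s) (Ioi 0) := by
  unfold S2
  apply ContDiffOn.rpow_const_of_ne
  · apply ContDiffOn.div contDiffOn_const (contDiffOn_const.mul contDiffOn_id)
    intro w hw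
    have : 0 < w := hw
    positivity
  · intro w hw
    have : 0 < w := hw
    exact (div_pos hs (by linarith)).ne'

/-- `R0 = S1/4 + w² Dd`, hence `R0 w - 4 kapN² Q = S1/4 + kap² PP w Q` -/
theorem R0_sub {w : ℝ} (h0 : 0 < w) (h1 : w < 1) (Q : ℝ) :
    R0 s w - 4 * kapN w ^ 2 * Q = S1 s w / 4 + kap w ^ 2 * PP s w Q := by
  have h1' : (1 - w) ≠ 0 := by linarith
  have h2' : (2 - w) ≠ 0 := by linarith
  unfold R0 kapN kap PP Dd
  field_simp
  ring
/-- the side length identity -/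
theorem S2_eq {w : ℝ} (h0 : 0 < w) (h1 : w < 1) (Q : ℝ) :
    (1 + kap w) ^ 2 * PP s w Q + S1 s w / 4 + (1 + kapN w) ^ 2 * Q = S2 s w := by
  have h1' : (1 - w) ≠ 0 := by linarith
  have h2' : (2 - w) ≠ 0 := by linarith
  unfold kapN kap PP Dd
  field_simp
  ring

/-- limits used for the intermediate value theorem -/
theorem exists_PP_gt (P Q : ℝ) : ∃ w ∈ Om s, P < PP s w Q := by
  have hS2 : Tendsto (S2 s) (𝓝[>] 0) atTop := by
    unfold S2
    apply (tendsto_rpow_atTop (ea_pos hs)).comp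
    have h1 : Tendsto (fun w : ℝ => 2 * w) (𝓝[>] 0) (𝓝[>] 0) := by
      apply tendsto_nhdsWithin_of_tendsto_nhds_of_eventually_within
      · have : Tendsto (fun w : ℝ => 2 * w) (𝓝 0) (𝓝 (2 * 0)) := (continuous_const.mul continuous_id).tendsto 0
        rw [mul_zero] at this
        exact this.mono_left nhdsWithin_le_nhds
      · filter_upwards [self_mem_nhdsWithin] with w hw
        have : 0 < w := hw
        show 0 < 2 * w
        linarith
    have h2 : Tendsto (fun w : ℝ => (2 * w)⁻¹) (𝓝[>] 0) atTop := tendsto_inv_nhdsGT_zero.comp h1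
    have := h2.const_mul_atTop hs
    simpa [div_eq_mul_inv] using this
  have hc1 : Tendsto (fun w : ℝ => S1 s w / 4 + 4 * Q / (2 - w) ^ 2) (𝓝[>] 0)
      (𝓝 (S1 s 0 / 4 + 4 * Q / (2 - 0) ^ 2)) := by
    apply Tendsto.mono_left _ nhdsWithin_le_nhds
    apply Tendsto.add
    · exact ((hasDerivAt_S1 hs (by norm_num : (0:ℝ) < 1)).continuousAt.tendsto).div_const 4
    · apply Tendsto.div tendsto_const_nhds
      · exact ((continuous_const.sub continuous_id).pow 2).tendsto 0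
      · norm_num
  have hE : Tendsto (fun w : ℝ => S2 s w - (S1 s w / 4 + 4 * Q / (2 - w) ^ 2)) (𝓝[>] 0) atTop := by
    have := hS2.atTop_add hc1.neg
    simpa [sub_eq_add_neg] using this
  have hA : Tendsto (fun w : ℝ => (1 - w) ^ 2) (𝓝[>] 0) (𝓝 ((1 - 0) ^ 2)) :=
    (((continuous_const.sub continuous_id).pow 2).tendsto 0).mono_left nhdsWithin_le_nhds
  have hPP : Tendsto (fun w : ℝ => PP s w Q) (𝓝[>] 0) atTop := by
    have := hA.pos_mul_atTop (by norm_num) hE
    refine this.congr (fun w => ?_)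
    unfold PP Dd; ring
  have h1 := hPP.eventually_gt_atTop P
  have h2 : ∀ᶠ w in 𝓝[>] (0:ℝ), w ∈ Om s := Ioo_mem_nhdsGT (omax_pos hs)
  obtain ⟨w, hw1, hw2⟩ := (h1.and h2).exists
  exact ⟨w, hw2, hw1⟩

theorem exists_PP_lt {P Q : ℝ} (hP : 0 < P) (hQ : 0 ≤ Q) : ∃ w ∈ Om s, PP s w Q < P := by
  have h0 := omax_pos hs
  have h1 := omax_lt_one hs
  have hc : ContinuousAt (fun w => PP s w Q) (omax s) := (hasDerivAt_PP hs h0 h1 Q).continuousAt
  have hval : PP s (omax s) Q < P := by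
    have : PP s (omax s) Q ≤ 0 := by
      unfold PP
      rw [Dd_omax hs]
      have : 0 ≤ 4 * Q / (2 - omax s) ^ 2 := by positivity
      have h2 : 0 ≤ (1 - omax s) ^ 2 := by positivity
      nlinarith
    linarith
  have h3 : ∀ᶠ w in 𝓝[<] (omax s), PP s w Q < P :=
    (hc.tendsto.mono_left nhdsWithin_le_nhds).eventually (Iio_mem_nhds hval)
  have h4 : ∀ᶠ w in 𝓝[<] (omax s), w ∈ Om s := Ioo_mem_nhdsLT h0
  obtain ⟨w, hw1, hw2⟩ := (h3.and h4).exists
  exact ⟨w, hw2, hw1⟩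

end Param1

end Crest.Agent.R130
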