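import Crest.Agent.S0175_Param1

/-! Row 130 (S0175), module P2: the two inverse functions `omB`, `omA`. -/

set_option autoImplicit false

namespace Crest.Agent.R130

open MeasureTheory Set Crest.Agent.R130
open scoped ENNReal ContDiff Topology

variable {n : ℕ} {s : ℝ}

section Param2
variable (hs : 0 < s)
include hs

theorem Om_lt_one {w : ℝ} (h : w ∈ Om s) : w < 1 := lt_trans h.2 (omax_lt_one hs)

theorem continuousOn_PP (Q : ℝ) : ContinuousOn (fun w => PP s w Q) (Om s) := fun w hw =>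
  (hasDerivAt_PP hs hw.1 (Om_lt_one hs hw) Q).continuousAt.continuousWithinAt

theorem isGreatest_root {P Q w : ℝ} (hP : 0 < P) (hQ : 0 ≤ Q) (hw : w ∈ Om s) (h : PP s w Q = P) :
    IsGreatest {w ∈ Om s | P ≤ PP s w Q} w := by
  refine ⟨⟨hw, h.ge⟩, ?_⟩
  rintro w' ⟨hw', hPw'⟩
  by_contra hlt
  have hlt : w < w' := not_le.mp hlt
  have := PP_anti hs hw hw' hlt hQ (lt_of_lt_of_le hP hPw')
  rw [h] at this
  exact absurd hPw' (not_le.mpr this)

theorem exists_root {P Q : ℝ} (hP : 0 < P) (hQ : 0 ≤ Q) : ∃ w ∈ Om s, PP s w Q = P := by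
  obtain ⟨w₁, hw₁, h₁⟩ := exists_PP_gt hs P Q
  obtain ⟨w₂, hw₂, h₂⟩ := exists_PP_lt hs hP hQ
  have hsub : uIcc w₁ w₂ ⊆ Om s := (ordConnected_Ioo (a := (0:ℝ)) (b := omax s)).uIcc_subset hw₁ hw₂
  have hc : ContinuousOn (fun w => PP s w Q) (uIcc w₁ w₂) := (continuousOn_PP hs Q).mono hsub
  have := intermediate_value_uIcc hc
  have hPm : P ∈ uIcc (PP s w₁ Q) (PP s w₂ Q) := by
    rw [mem_uIcc]; right; exact ⟨h₂.le, h₁.le⟩
  obtain ⟨w, hw, hwP⟩ := this hPm
  exact ⟨w, hsub hw, hwP⟩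

theorem omB_unique {P Q w : ℝ} (hP : 0 < P) (hQ : 0 ≤ Q) (hw : w ∈ Om s) (h : PP s w Q = P) :
    omB s P Q = w := by
  unfold omB
  rw [if_pos ⟨hP, hQ⟩]
  exact (isGreatest_root hs hP hQ hw h).csSup_eq

theorem omB_mem (P Q : ℝ) : omB s P Q ∈ Om s := by
  by_cases h : 0 < P ∧ 0 ≤ Q
  · obtain ⟨w, hw, hwP⟩ := exists_root hs h.1 h.2
    rw [omB_unique hs h.1 h.2 hw hwP]; exact hw
  · unfold omB; rw [if_neg h]; exact third_mem_Om hs

theorem PP_omB {P Q : ℝ} (hP : 0 < P) (hQ : 0 ≤ Q) : PP s (omB s P Q) Q = P := by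
  obtain ⟨w, hw, hwP⟩ := exists_root hs hP hQ
  rw [omB_unique hs hP hQ hw hwP]; exact hwP

theorem le_omB_iff {P Q t : ℝ} (hP : 0 < P) (hQ : 0 ≤ Q) (ht : t ∈ Om s) :
    t ≤ omB s P Q ↔ P ≤ PP s t Q := by
  have hm := omB_mem hs P Q
  have hr := PP_omB hs hP hQ
  constructor
  · intro h
    rcases h.eq_or_lt with h | h
    · rw [h, hr]
    · have := PP_anti hs ht hm h hQ (by rw [hr]; exact hP)
      rw [hr] at this; exact this.le
  · intro h
    exact (isGreatest_root hs hP hQ hm hr).2 ⟨ht, h⟩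

theorem measurable_omB : Measurable (fun p : ℝ × ℝ => omB s p.1 p.2) := by
  apply measurable_of_Ici
  intro t
  by_cases ht0 : t ≤ 0
  · have : (fun p : ℝ × ℝ => omB s p.1 p.2) ⁻¹' Ici t = univ := by
      ext p; simp only [mem_preimage, mem_Ici, mem_univ, iff_true]
      exact ht0.trans (omB_mem hs p.1 p.2).1.le
    rw [this]; exact MeasurableSet.univ
  by_cases ht1 : omax s ≤ t
  · have : (fun p : ℝ × ℝ => omB s p.1 p.2) ⁻¹' Ici t = ∅ := by
      ext p; simp only [mem_preimage, mem_Ici, mem_empty_iff_false, iff_false, not_le]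
      exact lt_of_lt_of_le (omB_mem hs p.1 p.2).2 ht1
    rw [this]; exact MeasurableSet.empty
  have ht : t ∈ Om s := ⟨not_le.mp ht0, not_le.mp ht1⟩
  have hD : MeasurableSet {p : ℝ × ℝ | 0 < p.1 ∧ 0 ≤ p.2} :=
    (measurableSet_lt measurable_const measurable_fst).inter
      (measurableSet_le measurable_const measurable_snd)
  have hE : MeasurableSet {p : ℝ × ℝ | p.1 ≤ PP s t p.2} := by
    apply measurableSet_le measurable_fst
    unfold PP
    fun_prop
  have : (fun p : ℝ × ℝ => omB s p.1 p.2) ⁻¹' Ici t =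
      ({p : ℝ × ℝ | 0 < p.1 ∧ 0 ≤ p.2} ∩ {p : ℝ × ℝ | p.1 ≤ PP s t p.2}) ∪
        ({p : ℝ × ℝ | 0 < p.1 ∧ 0 ≤ p.2}ᶜ ∩ {_p : ℝ × ℝ | t ≤ 1 / 3}) := by
    ext p
    by_cases hp : 0 < p.1 ∧ 0 ≤ p.2
    · have := le_omB_iff hs hp.1 hp.2 ht
      simp only [mem_preimage, mem_Ici, mem_union, mem_inter_iff, mem_compl_iff]
      constructor
      · intro h; exact Or.inl ⟨hp, this.mp h⟩
      · rintro (h | h)
        · exact this.mpr h.2
        · exact absurd hp h.1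
    · have h3 : omB s p.1 p.2 = 1 / 3 := by unfold omB; rw [if_neg hp]
      simp only [mem_preimage, mem_Ici, mem_union, mem_inter_iff, mem_compl_iff, h3]
      constructor
      · intro h; exact Or.inr ⟨hp, h⟩
      · rintro (h | h)
        · exact absurd h.1 hp
        · exact h.2
  rw [this]
  exact (hD.inter hE).union (hD.compl.inter (MeasurableSet.const _))

theorem omA_mem (G : ℝ) : omA s G ∈ Om s := by
  unfold omA
  split_ifs with h
  · exact Function.invFunOn_mem h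
  · exact third_mem_Om hs

theorem R0_omA {G : ℝ} (h : G ∈ R0 s '' Om s) : R0 s (omA s G) = G := by
  unfold omA
  rw [if_pos h]
  exact Function.invFunOn_eq h

theorem omA_R0 {w : ℝ} (h : w ∈ Om s) : omA s (R0 s w) = w :=
  (R0_strictMonoOn hs).injOn (omA_mem hs _) h (R0_omA hs (mem_image_of_mem _ h))

theorem continuousOn_R0 : ContinuousOn (R0 s) (Om s) := fun w hw =>
  (hasDerivAt_R0 hs hw.1 (Om_lt_one hs hw)).continuousAt.continuousWithinAt

theorem isOpen_R0_image : IsOpen (R0 s '' Om s) := by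
  rw [isOpen_iff_mem_nhds]
  rintro _ ⟨w, hw, rfl⟩
  obtain ⟨w₁, h01, h1w⟩ := exists_between hw.1
  obtain ⟨w₂, hw2, h2m⟩ := exists_between hw.2
  have hw₁ : w₁ ∈ Om s := ⟨h01, h1w.trans hw.2⟩
  have hw₂ : w₂ ∈ Om s := ⟨hw.1.trans hw2, h2m⟩
  have hsub : Icc w₁ w₂ ⊆ Om s := (ordConnected_Ioo (a := (0:ℝ)) (b := omax s)).out hw₁ hw₂
  have hiv := intermediate_value_Icc (h1w.trans hw2).le ((continuousOn_R0 hs).mono hsub)
  have hmem : Icc (R0 s w₁) (R0 s w₂) ∈ 𝓝 (R0 s w) :=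
    Icc_mem_nhds (R0_strictMonoOn hs hw₁ hw h1w) (R0_strictMonoOn hs hw hw₂ hw2)
  exact Filter.mem_of_superset hmem (hiv.trans (image_mono hsub))

theorem contDiffAt_R0 {w : ℝ} (hw : w ∈ Om s) : ContDiffAt ℝ ∞ (R0 s) w := by
  have h1 : ContDiffAt ℝ ∞ (S1 s) w :=
    (contDiffOn_S1 hs).contDiffAt (Iio_mem_nhds (Om_lt_one hs hw))
  have h2 : ContDiffAt ℝ ∞ (S2 s) w := (contDiffOn_S2 hs).contDiffAt (Ioi_mem_nhds hw.1)
  unfold R0
  fun_prop

theorem contDiffOn_omA : ContDiffOn ℝ ∞ (omA s) (R0 s '' Om s) := by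
  rintro _ ⟨w, hw, rfl⟩
  apply ContDiffAt.contDiffWithinAt
  have hc := contDiffAt_R0 hs hw
  have hd := hasDerivAt_R0 hs hw.1 (Om_lt_one hs hw)
  have hne : R0' s w ≠ 0 := (R0'_pos hs hw).ne'
  have hf' : HasFDerivAt (R0 s)
      ((ContinuousLinearEquiv.unitsEquivAut ℝ (Units.mk0 (R0' s w) hne) : ℝ ≃L[ℝ] ℝ) : ℝ →L[ℝ] ℝ) w := by
    have heq : ((ContinuousLinearEquiv.unitsEquivAut ℝ (Units.mk0 (R0' s w) hne) : ℝ ≃L[ℝ] ℝ) :
        ℝ →L[ℝ] ℝ) = ContinuousLinearMap.toSpanSingleton ℝ (R0' s w) := by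
      ext
      simp
    rw [heq]
    exact hd.hasFDerivAt
  have hn : (∞ : WithTop ℕ∞) ≠ 0 := by simp
  have hloc := hc.to_localInverse hf' hn
  refine hloc.congr_of_eventuallyEq ?_
  apply (hc.hasStrictFDerivAt' hf' hn).localInverse_unique
  filter_upwards [isOpen_Ioo.mem_nhds hw] with x hx
  exact omA_R0 hs hx

theorem measurable_omA : Measurable (omA s) := by
  classical
  have : omA s = (R0 s '' Om s).piecewise (omA s) (fun _ => 1 / 3) := by
    funext G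
    by_cases h : G ∈ R0 s '' Om s
    · rw [piecewise_eq_of_mem _ _ _ h]
    · rw [piecewise_eq_of_notMem _ _ _ h]; unfold omA; rw [if_neg h]
  rw [this]
  exact ContinuousOn.measurable_piecewise (contDiffOn_omA hs).continuousOn continuousOn_const
    (isOpen_R0_image hs).measurableSet

end Param2

end Crest.Agent.R130
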