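import Crest.Agent.S0175_Defs

/-! Row 130 (S0175), module T: transfer of the optimal-transport statement along a measurable
equivalence, the linear measure preserving bijection `EuclideanSpace ℝ (Fin (n+2)) ≃ ℂ × ℝⁿ`, and the
reduction of the Euclidean statement to the model space. -/

set_option autoImplicit false

namespace Crest.Agent.R130

open MeasureTheory Set
open scoped ENNReal ContDiff
open Crest.AnalysisR.OT

section Abstract

variable {X Y : Type*} [MeasurableSpace X] [MeasurableSpace Y]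

/-- the triple product of a measurable equivalence -/
def equiv3 (e : X ≃ᵐ Y) : (X × X × X) ≃ᵐ (Y × Y × Y) :=
  MeasurableEquiv.prodCongr e (MeasurableEquiv.prodCongr e e)

@[simp] theorem equiv3_apply (e : X ≃ᵐ Y) (p : X × X × X) :
    equiv3 e p = (e p.1, e p.2.1, e p.2.2) := rfl

@[simp] theorem equiv3_symm_apply (e : X ≃ᵐ Y) (p : Y × Y × Y) :
    (equiv3 e).symm p = (e.symm p.1, e.symm p.2.1, e.symm p.2.2) := rfl

theorem IsCoupling₃.map_equiv {μ : Measure X} {π : Measure (X × X × X)} (h : IsCoupling₃ μ π)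
    (e : X ≃ᵐ Y) : IsCoupling₃ (μ.map e) (π.map (equiv3 e)) := by
  obtain ⟨h1, h2, h3⟩ := h
  refine ⟨?_, ?_, ?_⟩
  · rw [← h1, Measure.map_map (by fun_prop) (equiv3 e).measurable,
      Measure.map_map e.measurable (by fun_prop)]
    rfl
  · rw [← h2, Measure.map_map (by fun_prop) (equiv3 e).measurable,
      Measure.map_map e.measurable (by fun_prop)]
    rfl
  · rw [← h3, Measure.map_map (by fun_prop) (equiv3 e).measurable,
      Measure.map_map e.measurable (by fun_prop)]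
    rfl

/-- transport of the OT statement along a measurable equivalence. -/
theorem OTStatement.transfer {X Y : Type*} [MeasurableSpace X] [MeasurableSpace Y] (e : X ≃ᵐ Y)
    (μ : Measure X) (ν : Measure Y) (hμ : μ.map e = ν) (cX : X × X × X → ℝ≥0∞) (cY : Y × Y × Y → ℝ≥0∞)
    (hc : ∀ p, cX p = cY (e p.1, e p.2.1, e p.2.2)) (h : OTStatement ν cY) : OTStatement μ cX := by
  obtain ⟨π₀, hπ₀, hfin, hmin, hmonge, happrox⟩ := h
  have hμ' : ν.map e.symm = μ := by
    rw [← hμ, Measure.map_map e.symm.measurable e.measurable]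
    simp
  have hcost : ∀ π : Measure (X × X × X), ∫⁻ p, cY p ∂(π.map (equiv3 e)) = ∫⁻ p, cX p ∂π := by
    intro π
    rw [lintegral_map_equiv]
    refine lintegral_congr fun p => ?_
    rw [hc]; rfl
  have hπ₀' : (π₀.map (equiv3 e).symm).map (equiv3 e) = π₀ := by
    rw [Measure.map_map (equiv3 e).measurable (equiv3 e).symm.measurable]
    simp
  have hcost0 : ∫⁻ p, cX p ∂(π₀.map (equiv3 e).symm) = ∫⁻ p, cY p ∂π₀ := by
    rw [← hcost, hπ₀']
  have hcostT : ∀ T₂ T₃ : X → X, ∫⁻ y, cY (y, e (T₂ (e.symm y)), e (T₃ (e.symm y))) ∂ν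
      = ∫⁻ x, cX (x, T₂ x, T₃ x) ∂μ := by
    intro T₂ T₃
    rw [← hμ, lintegral_map_equiv]
    refine lintegral_congr fun x => ?_
    rw [hc, e.symm_apply_apply]
  refine ⟨π₀.map (equiv3 e).symm, ?_, ?_, ?_, ?_, ?_⟩
  · have := IsCoupling₃.map_equiv hπ₀ e.symm
    rw [hμ'] at this
    exact this
  · rw [hcost0]; exact hfin
  · intro π hπ
    rw [hcost0, ← hcost π]
    refine hmin _ ?_
    have := IsCoupling₃.map_equiv hπ e
    rw [hμ] at this
    exact this
  · intro T₂ T₃ hT₂ hT₃ h2 h3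
    rw [hcost0, ← hcostT]
    refine hmonge _ _ (e.measurable.comp (hT₂.comp e.symm.measurable))
      (e.measurable.comp (hT₃.comp e.symm.measurable)) ?_ ?_
    · have : (fun y => e (T₂ (e.symm y))) = e ∘ T₂ ∘ e.symm := rfl
      rw [this, ← Measure.map_map e.measurable (hT₂.comp e.symm.measurable),
        ← Measure.map_map hT₂ e.symm.measurable, hμ', h2, hμ]
    · have : (fun y => e (T₃ (e.symm y))) = e ∘ T₃ ∘ e.symm := rfl
      rw [this, ← Measure.map_map e.measurable (hT₃.comp e.symm.measurable),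
        ← Measure.map_map hT₃ e.symm.measurable, hμ', h3, hμ]
  · intro ε hε
    obtain ⟨S₂, S₃, hS₂, hS₃, h2, h3, hlt⟩ := happrox ε hε
    refine ⟨e.symm ∘ S₂ ∘ e, e.symm ∘ S₃ ∘ e, e.symm.measurable.comp (hS₂.comp e.measurable),
      e.symm.measurable.comp (hS₃.comp e.measurable), ?_, ?_, ?_⟩
    · rw [← Measure.map_map e.symm.measurable (hS₂.comp e.measurable),
        ← Measure.map_map hS₂ e.measurable, hμ, h2, hμ']
    · rw [← Measure.map_map e.symm.measurable (hS₃.comp e.measurable),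
        ← Measure.map_map hS₃ e.measurable, hμ, h3, hμ']
    · rw [hcost0, ← hcostT]
      simpa using hlt

end Abstract

section Concrete

theorem finrank_L2Mod (n : ℕ) :
    Module.finrank ℝ (WithLp 2 (ℂ × EuclideanSpace ℝ (Fin n))) = n + 2 := by
  rw [LinearEquiv.finrank_eq (WithLp.linearEquiv 2 ℝ (ℂ × EuclideanSpace ℝ (Fin n)))]
  simp [Module.finrank_prod, Complex.finrank_real_complex, add_comm]

/-- an isometry `ℝ^{n+2} ≃ ℂ ×₂ ℝⁿ` -/
noncomputable def isoL2 (n : ℕ) :
    EuclideanSpace ℝ (Fin (n + 2)) ≃ₗᵢ[ℝ] WithLp 2 (ℂ × EuclideanSpace ℝ (Fin n)) :=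
  (((stdOrthonormalBasis ℝ (WithLp 2 (ℂ × EuclideanSpace ℝ (Fin n)))).reindex
    (finCongr (finrank_L2Mod n))).repr).symm

/-- a linear equivalence `ℝ^{n+2} ≃ ℂ × ℝⁿ` -/
noncomputable def toMod (n : ℕ) : EuclideanSpace ℝ (Fin (n + 2)) ≃L[ℝ] M n :=
  (isoL2 n).toContinuousLinearEquiv.trans
    (WithLp.prodContinuousLinearEquiv 2 ℝ ℂ (EuclideanSpace ℝ (Fin n)))

theorem toMod_measurePreserving (n : ℕ) : MeasurePreserving (toMod n) volume volume :=
  (WithLp.volume_preserving_ofLp ℂ (EuclideanSpace ℝ (Fin n))).comp (isoL2 n).measurePreserving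

theorem norm_sq_toMod (n : ℕ) (x : EuclideanSpace ℝ (Fin (n + 2))) :
    ‖x‖ ^ 2 = ‖(toMod n x).1‖ ^ 2 + ‖(toMod n x).2‖ ^ 2 := by
  rw [← (isoL2 n).norm_map x, WithLp.prod_norm_sq_eq_of_L2]
  rfl

/-- a linear measure preserving bijection which is isometric for the Euclidean norm of `ℂ × ℝⁿ`. -/
theorem exists_Ups (n : ℕ) : ∃ U : EuclideanSpace ℝ (Fin (n + 2)) ≃L[ℝ] M n,
    (∀ x, ‖x‖ ^ 2 = ‖(U x).1‖ ^ 2 + ‖(U x).2‖ ^ 2) ∧ MeasurePreserving U volume volume :=
  ⟨toMod n, norm_sq_toMod n, toMod_measurePreserving n⟩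

/-- everything that has to do with `EuclideanSpace ℝ (Fin d)`: `ρ = (r ∘ U)²`. -/
theorem result_of_model (n : ℕ) (s : ℝ) (r : M n → ℝ) (hr0 : ∀ x, 0 ≤ r x) (hr : ContDiff ℝ ∞ r)
    (hcs : HasCompactSupport r) (hint : ∫⁻ x, ENNReal.ofReal (r x ^ 2) = 1)
    (hOT : OTStatement (volume.withDensity fun x => ENNReal.ofReal (r x ^ 2)) (cM (n := n) s)) :
    ∃ ρ : EuclideanSpace ℝ (Fin (n + 2)) → ℝ, (∀ x, 0 ≤ ρ x) ∧ ContDiff ℝ ∞ ρ ∧ HasCompactSupport ρ ∧
      ContDiff ℝ ∞ (fun x => Real.sqrt (ρ x)) ∧ ∫ x, ρ x = 1 ∧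
      OTStatement (measOfDensity ρ) (tripleCost s) := by
  obtain ⟨U, hU, hUm⟩ := exists_Ups n
  set em : EuclideanSpace ℝ (Fin (n + 2)) ≃ᵐ M n := U.toHomeomorph.toMeasurableEquiv with hem
  have hemp : MeasurePreserving em volume volume := hUm
  have hrU : ContDiff ℝ ∞ (fun x => r (U x)) := hr.comp U.contDiff
  have hcsU : HasCompactSupport (fun x => r (U x)) := hcs.comp_homeomorph U.toHomeomorph
  refine ⟨fun x => r (U x) ^ 2, fun x => sq_nonneg _, hrU.pow 2, ?_, ?_, ?_, ?_⟩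
  · have : (fun x => r (U x) ^ 2) = fun x => r (U x) * r (U x) := by
      funext x; ring
    rw [this]
    exact hcsU.mul_left
  · have : (fun x => Real.sqrt (r (U x) ^ 2)) = fun x => r (U x) := by
      funext x; exact Real.sqrt_sq (hr0 _)
    rw [this]; exact hrU
  · rw [integral_eq_lintegral_of_nonneg_ae (Filter.Eventually.of_forall fun x => sq_nonneg _)
      (hrU.pow 2).continuous.aestronglyMeasurable]
    have : ∫⁻ x, ENNReal.ofReal (r (U x) ^ 2) = ∫⁻ y, ENNReal.ofReal (r y ^ 2) :=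
      hemp.lintegral_comp_emb em.measurableEmbedding (fun y => ENNReal.ofReal (r y ^ 2))
    rw [this, hint]; simp
  · refine OTStatement.transfer em _ _ ?_ _ _ ?_ hOT
    · ext t ht
      rw [Measure.map_apply em.measurable ht]
      unfold measOfDensity
      rw [withDensity_apply _ ht, withDensity_apply _ (em.measurable ht)]
      exact hemp.setLIntegral_comp_preimage_emb em.measurableEmbedding
        (fun y => ENNReal.ofReal (r y ^ 2)) t
    · intro p
      have key : ∀ x y : EuclideanSpace ℝ (Fin (n + 2)), pairCost s x y = pc s (em x) (em y) := by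
        intro x y
        unfold pairCost pc dist2
        have h1 : ‖x - y‖ ^ 2 = ‖(U x).1 - (U y).1‖ ^ 2 + ‖(U x).2 - (U y).2‖ ^ 2 := by
          rw [hU (x - y), map_sub]; rfl
        have h2 : ‖x - y‖ = Real.sqrt (‖(U x).1 - (U y).1‖ ^ 2 + ‖(U x).2 - (U y).2‖ ^ 2) := by
          rw [← h1, Real.sqrt_sq (norm_nonneg _)]
        rw [h2]; rfl
      simp only [tripleCost, cM, key]

end Concrete

end Crest.Agent.R130
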