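import Crest.Statements.S0223

set_option autoImplicit false
open Crest Crest.ProbabilityR

namespace Crest.Agent.S0223

open Crest.ProbabilityR.Shuffle Finset

theorem mod_key (m z : ℕ) (hz : z < 2 * m) : z % m = if m ≤ z then z - m else z := by
  split_ifs with hmz
  · rw [Nat.mod_eq_sub_mod hmz, Nat.mod_eq_of_lt (by omega)]
  · exact Nat.mod_eq_of_lt (by omega)

theorem stepPos_inj (m : ℕ) (c : Fin m → Bool) : Function.Injective (stepPos m c) := by
  intro x y h
  have hx := x.isLt
  have hy := y.isLt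
  simp only [stepPos, Fin.mk.injEq] at h
  have h1 : x.val % m = y.val % m := by
    split_ifs at h <;> omega
  have hc : c ⟨x.val % m, Nat.mod_lt _ (by omega)⟩ = c ⟨y.val % m, Nat.mod_lt _ (by omega)⟩ :=
    congrArg c (Fin.ext h1)
  rw [hc, h1] at h
  have kx := mod_key m x.val hx
  have ky := mod_key m y.val hy
  apply Fin.ext
  by_cases hmx : m ≤ x.val <;> by_cases hmy : m ≤ y.val <;>
    cases hcy : c ⟨y.val % m, Nat.mod_lt _ (by omega)⟩ <;>
    simp [hmx, hmy, hcy] at h kx ky <;> omega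

theorem iterPos_inj (m : ℕ) : ∀ (t : ℕ) (cs : Fin t → Fin m → Bool),
    Function.Injective (iterPos m t cs)
  | 0, _ => fun _ _ h => h
  | t + 1, cs => fun _ _ h =>
      iterPos_inj m t (fun i => cs i.castSucc) (stepPos_inj m (cs (Fin.last t)) h)

noncomputable def permOf (m t : ℕ) (cs : Fin t → Fin m → Bool) : Equiv.Perm (Fin (2 * m)) :=
  Equiv.ofBijective (iterPos m t cs) (Finite.injective_iff_bijective.mp (iterPos_inj m t cs))

theorem permOf_eq_iff (m t : ℕ) (cs : Fin t → Fin m → Bool) (g : Equiv.Perm (Fin (2 * m))) :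
    permOf m t cs = g ↔ iterPos m t cs = ⇑g := by
  constructor
  · intro h; rw [← h]; rfl
  · intro h; apply Equiv.ext; intro x; exact congrFun h x

theorem main (m t : ℕ) :
    1 - (2 : ℝ) ^ (m * t) / ((2 * m).factorial : ℝ) ≤ tvFromUniform m t := by
  classical
  set u : ℝ := 1 / ((2 * m).factorial : ℝ) with hu
  have hu0 : 0 ≤ u := by positivity
  set c : Equiv.Perm (Fin (2 * m)) → ℕ := fun g =>
    (univ.filter (fun cs : Fin t → Fin m → Bool => iterPos m t cs = ⇑g)).card with hcdef
  have hM : (Fintype.card (Fin t → Fin m → Bool) : ℝ) = (2 : ℝ) ^ (m * t) := by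
    simp [pow_mul]
  have hMpos : (0 : ℝ) < (2 : ℝ) ^ (m * t) := by positivity
  have hsum : ∑ g, c g = Fintype.card (Fin t → Fin m → Bool) := by
    have h := Finset.card_eq_sum_card_fiberwise (f := fun cs => permOf m t cs)
      (s := (univ : Finset (Fin t → Fin m → Bool))) (t := (univ : Finset (Equiv.Perm (Fin (2 * m)))))
      (fun _ _ => mem_coe.mpr (mem_univ _))
    rw [← Finset.card_univ, h]
    apply Finset.sum_congr rfl
    intro g _
    simp only [hcdef, permOf_eq_iff]
  have hP : ∀ g : Equiv.Perm (Fin (2 * m)),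
      Crest.FinProb.uniformProb {cs : Fin t → Fin m → Bool | iterPos m t cs = ⇑g}
        = (c g : ℝ) / (2 : ℝ) ^ (m * t) := by
    intro g
    unfold Crest.FinProb.uniformProb
    rw [hM]
    congr 2
    simp only [hcdef, Set.mem_ofPred_eq]
  have hterm : ∀ g : Equiv.Perm (Fin (2 * m)),
      (c g : ℝ) / (2 : ℝ) ^ (m * t) + u - 2 * u * (c g : ℝ)
        ≤ |(c g : ℝ) / (2 : ℝ) ^ (m * t) - u| := by
    intro g
    rcases Nat.eq_zero_or_pos (c g) with h0 | h1
    · rw [h0]; simp [abs_of_nonneg hu0]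
    · have h1' : (1 : ℝ) ≤ (c g : ℝ) := by exact_mod_cast h1
      have := le_abs_self ((c g : ℝ) / (2 : ℝ) ^ (m * t) - u)
      nlinarith
  have hsumR : ∑ g, (c g : ℝ) = (2 : ℝ) ^ (m * t) := by
    rw [← hM, ← hsum]; push_cast; rfl
  have hcardP : (Fintype.card (Equiv.Perm (Fin (2 * m))) : ℝ) = ((2 * m).factorial : ℝ) := by
    rw [Fintype.card_perm, Fintype.card_fin]
  have hfpos : (0 : ℝ) < ((2 * m).factorial : ℝ) := by positivity
  have hlow : 2 - 2 * u * (2 : ℝ) ^ (m * t)
      ≤ ∑ g : Equiv.Perm (Fin (2 * m)), |(c g : ℝ) / (2 : ℝ) ^ (m * t) - u| := by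
    calc 2 - 2 * u * (2 : ℝ) ^ (m * t)
        = ∑ g : Equiv.Perm (Fin (2 * m)),
            ((c g : ℝ) / (2 : ℝ) ^ (m * t) + u - 2 * u * (c g : ℝ)) := by
          rw [Finset.sum_sub_distrib, Finset.sum_add_distrib, ← Finset.sum_div, ← Finset.mul_sum,
            hsumR, Finset.sum_const, Finset.card_univ, nsmul_eq_mul, hcardP, hu]
          field_simp
          ring
      _ ≤ _ := Finset.sum_le_sum (fun g _ => hterm g)
  unfold tvFromUniform
  simp only [hP]
  have e : (2 : ℝ) ^ (m * t) / ((2 * m).factorial : ℝ) = u * (2 : ℝ) ^ (m * t) := by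
    rw [hu]; ring
  rw [e]
  linarith

/-- For a deck of `2 * 2 ^ d` cards and every number `t` of shuffles, the total variation distance between the law of the arrangement of the deck and the uniform law on all arrangements is at least `1 - 2 ^ (2 ^ d * t) / (2 * 2 ^ d)!`. -/
theorem result (d t : ℕ) :
    1 - (2 : ℝ) ^ (2 ^ d * t) / ((2 * 2 ^ d).factorial : ℝ)
      ≤ Crest.ProbabilityR.Shuffle.tvFromUniform (2 ^ d) t := by
  exact main (2 ^ d) t

end Crest.Agent.S0223
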