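import Crest.Statements.S0324
import Crest.Agent.R211_Defs
import Crest.Agent.R211_Area
import Crest.Agent.R211_Proj
import Crest.Agent.R211_FixedCover

set_option autoImplicit false
open MeasureTheory
open scoped ENNReal
open Crest Crest.GeometryTopology Crest.GeometryTopology.Convex

namespace Crest.Agent.S0324

/-- The regular tetrahedron `K` with vertices `(±1, 0, 0)`, `(0, ±1, √2)` is covered by finitely many cylinders `Bᵢ + ℝ uᵢ`, each with unit direction `uᵢ` and base `Bᵢ` a triangle (convex hull of three points) in the plane `uᵢ^⊥`, whose total base area `∑ᵢ area(Bᵢ)` is smaller, by a positive margin, than half the area of the orthogonal projection of `K` onto `v^⊥` for every unit vector `v`; areas are 2-dimensional Hausdorff measure. -/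
theorem result :
    ∃ (m : ℕ) (u p q r : Fin m → EuclideanSpace ℝ (Fin 3)),
      (∀ i, ‖u i‖ = 1) ∧
      (∀ i, inner ℝ (p i) (u i) = 0 ∧ inner ℝ (q i) (u i) = 0 ∧ inner ℝ (r i) (u i) = 0) ∧
      convexHull ℝ {!₂[1, 0, 0], !₂[-1, 0, 0], !₂[0, 1, Real.sqrt 2], !₂[0, -1, Real.sqrt 2]} ⊆
        ⋃ i, {x : EuclideanSpace ℝ (Fin 3) | ∃ b ∈ convexHull ℝ {p i, q i, r i}, ∃ t : ℝ, x = b + t • u i} ∧
      ∃ δ : ℝ, 0 < δ ∧ ∀ v : EuclideanSpace ℝ (Fin 3), ‖v‖ = 1 →
        ∑ i, (μH[(2 : ℝ)] (convexHull ℝ {p i, q i, r i})).toReal + δ ≤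
          (μH[(2 : ℝ)] ((fun y => y - inner ℝ y v • v) '' convexHull ℝ {!₂[1, 0, 0], !₂[-1, 0, 0], !₂[0, 1, Real.sqrt 2], !₂[0, -1, Real.sqrt 2]})).toReal / 2 := by
  obtain ⟨m, u, p, q, r, -, hu, hin, hcov, hsum⟩ := Crest.Agent.R211.fixedCover
  obtain ⟨κ, hκ, hκs⟩ := Crest.Agent.R211.exists_muH_const
  refine ⟨m, u, p, q, r, hu, hin, hcov, Real.sqrt 2 * (1 / 10 ^ 7) / κ, by positivity, ?_⟩
  intro v hv
  have h1 := Crest.Agent.R211.proj_area_ge v hv
  have h2 := Crest.Agent.R211.proj_area_lt_top v hv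
  have h3 : Real.sqrt 2 ≤ (μHE[2] ((fun y => y - inner ℝ y v • v) '' Crest.Agent.R211.Kstd)).toReal :=
    (ENNReal.ofReal_le_iff_le_toReal h2.ne).1 h1
  rw [hκs] at h3
  simp only [hκs] at hsum
  rw [← Finset.mul_sum] at hsum
  change _ ≤ (μH[(2 : ℝ)] ((fun y => y - inner ℝ y v • v) '' Crest.Agent.R211.Kstd)).toReal / 2
  set S := ∑ i, (μH[(2 : ℝ)] (convexHull ℝ {p i, q i, r i})).toReal with hS
  set T := (μH[(2 : ℝ)] ((fun y => y - inner ℝ y v • v) '' Crest.Agent.R211.Kstd)).toReal with hT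
  have e : S + Real.sqrt 2 * (1 / 10 ^ 7) / κ = (κ * S + Real.sqrt 2 * (1 / 10 ^ 7)) / κ := by
    field_simp
  rw [e, div_le_iff₀ hκ]
  nlinarith

end Crest.Agent.S0324
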