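import Crest.Statements.S0327
import Crest.Agent.R211_Transfer
import Crest.Agent.R211_S0327_Core

set_option autoImplicit false
open MeasureTheory
open scoped ENNReal
open Crest Crest.GeometryTopology Crest.GeometryTopology.Convex

namespace Crest.Agent.S0327

/-- Let K ⊂ ℝ³ be a regular tetrahedron (convex hull of four points with equal pairwise distances ℓ > 0); areas are Lebesgue-normalised 2-dimensional Hausdorff measure, π_v y = y − ⟪y, v⟫ v. (1) Finitely many cylinders Bᵢ + ℝ uᵢ, ‖uᵢ‖ = 1, with parallelogram bases Bᵢ = cᵢ + [0,1]aᵢ + [0,1]bᵢ in uᵢ^⊥ cover K, ∑ᵢ area(Bᵢ) being below half of area(π_v K) by a positive margin for all unit v, and ∑ᵢ area(Bᵢ)/area(π_{uᵢ} K) < 1/2. (2) The same with bounded relatively open subsets of the uᵢ^⊥ as bases. -/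
theorem result
    (w : Fin 4 → EuclideanSpace ℝ (Fin 3)) (ℓ : ℝ) (hℓ : 0 < ℓ)
    (hw : ∀ i j, i ≠ j → dist (w i) (w j) = ℓ) :
    (∃ (k : ℕ) (u c a b : Fin k → EuclideanSpace ℝ (Fin 3)),
      (∀ i, ‖u i‖ = 1) ∧
      (∀ i, inner ℝ (c i) (u i) = 0 ∧ inner ℝ (a i) (u i) = 0 ∧ inner ℝ (b i) (u i) = 0) ∧
      convexHull ℝ (Set.range w) ⊆ ⋃ i, {x : EuclideanSpace ℝ (Fin 3) |
        ∃ s ∈ Set.Icc (0 : ℝ) 1, ∃ t ∈ Set.Icc (0 : ℝ) 1, ∃ τ : ℝ, x = c i + s • a i + t • b i + τ • u i} ∧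
      (∃ δ : ℝ, 0 < δ ∧ ∀ v : EuclideanSpace ℝ (Fin 3), ‖v‖ = 1 →
        (∑ i, (μHE[2] {x : EuclideanSpace ℝ (Fin 3) |
            ∃ s ∈ Set.Icc (0 : ℝ) 1, ∃ t ∈ Set.Icc (0 : ℝ) 1, x = c i + s • a i + t • b i}).toReal) + δ ≤
          (μHE[2] ((fun y => y - inner ℝ y v • v) '' convexHull ℝ (Set.range w))).toReal / 2) ∧
      ∑ i, (μHE[2] {x : EuclideanSpace ℝ (Fin 3) |
            ∃ s ∈ Set.Icc (0 : ℝ) 1, ∃ t ∈ Set.Icc (0 : ℝ) 1, x = c i + s • a i + t • b i}).toReal /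
          (μHE[2] ((fun y => y - inner ℝ y (u i) • u i) '' convexHull ℝ (Set.range w))).toReal < 1 / 2) ∧
    (∃ (k : ℕ) (u : Fin k → EuclideanSpace ℝ (Fin 3)) (B : Fin k → Set (EuclideanSpace ℝ (Fin 3))),
      (∀ i, ‖u i‖ = 1) ∧
      (∀ i, Bornology.IsBounded (B i) ∧ ∃ O : Set (EuclideanSpace ℝ (Fin 3)), IsOpen O ∧
        B i = O ∩ {x | inner ℝ x (u i) = 0}) ∧
      convexHull ℝ (Set.range w) ⊆
        ⋃ i, {x : EuclideanSpace ℝ (Fin 3) | ∃ y ∈ B i, ∃ τ : ℝ, x = y + τ • u i} ∧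
      (∃ δ : ℝ, 0 < δ ∧ ∀ v : EuclideanSpace ℝ (Fin 3), ‖v‖ = 1 →
        (∑ i, (μHE[2] (B i)).toReal) + δ ≤
          (μHE[2] ((fun y => y - inner ℝ y v • v) '' convexHull ℝ (Set.range w))).toReal / 2) ∧
      ∑ i, (μHE[2] (B i)).toReal /
          (μHE[2] ((fun y => y - inner ℝ y (u i) • u i) '' convexHull ℝ (Set.range w))).toReal < 1 / 2) := by
  obtain ⟨hcov, hmin⟩ := R211.fixedCover_general w ℓ hℓ hw
  have hμ₀ : 0 < (ℓ / 2) ^ 2 * Real.sqrt 2 := by positivity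
  have hcov' : ∃ (m : ℕ) (u p q r : Fin m → R211.E3), (∀ i, ‖u i‖ = 1) ∧
      (∀ i, inner ℝ (p i) (u i) = 0 ∧ inner ℝ (q i) (u i) = 0 ∧ inner ℝ (r i) (u i) = 0) ∧
      convexHull ℝ (Set.range w) ⊆
        ⋃ i, {x : R211.E3 | ∃ b ∈ convexHull ℝ {p i, q i, r i}, ∃ t : ℝ, x = b + t • u i} ∧
      ∑ i, (μHE[2] (convexHull ℝ ({p i, q i, r i} : Set R211.E3))).toReal ≤
        (ℓ / 2) ^ 2 * Real.sqrt 2 * (1 / 2 - 1 / 10 ^ 7) := by
    obtain ⟨m, u, p, q, r, h1, h2, h3, h4⟩ := hcov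
    exact ⟨m, u, p, q, r, h1, h2, h3, by rw [mul_assoc]; exact h4⟩
  obtain ⟨k, u, c, a, b, hu, hperp, hK, hsum⟩ :=
    R211.s0327_pgram (convexHull ℝ (Set.range w)) _ hμ₀ hcov'
  constructor
  · obtain ⟨hδ, hratio⟩ := R211.s0327_finish (convexHull ℝ (Set.range w)) _ hμ₀ hmin k u hu
      (fun i => (μHE[2] (R211.pgram (c i) (a i) (b i))).toReal) (fun _ => ENNReal.toReal_nonneg)
      (hsum.trans (mul_le_mul_of_nonneg_left (by norm_num) hμ₀.le))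
    refine ⟨k, u, c, a, b, hu, hperp, ?_, hδ, hratio⟩
    intro x hx
    obtain ⟨i, y, ⟨s, hs, t, ht, rfl⟩, τ, rfl⟩ := Set.mem_iUnion.mp (hK hx)
    rw [Set.mem_iUnion]
    exact ⟨i, s, hs, t, ht, τ, rfl⟩
  · obtain ⟨B, hB, hKB, hsumB⟩ :=
      R211.s0327_open (convexHull ℝ (Set.range w)) _ hμ₀ k u c a b hu hperp hK hsum
    obtain ⟨hδ, hratio⟩ := R211.s0327_finish (convexHull ℝ (Set.range w)) _ hμ₀ hmin k u hu
      (fun i => (μHE[2] (B i)).toReal) (fun _ => ENNReal.toReal_nonneg) hsumB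
    exact ⟨k, u, B, hu, hB, hKB, hδ, hratio⟩


end Crest.Agent.S0327
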