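import Crest.Agent.S0328_Piece

set_option autoImplicit false
open MeasureTheory
open scoped ENNReal
open Crest.Agent.R211

namespace Crest.Agent.S0328Aux

/-- the piece of the ruled set over `[t₁,t₂]`. -/
def piece (e a b p₀ : E3) (L : ℝ) (R : ℝ → ℝ) (w : ℝ → E3) (t₁ t₂ : ℝ) : Set E3 :=
  {x : E3 | ∃ τ ∈ Set.Icc t₁ t₂, ∃ ρ ∈ Set.Icc 0 (R τ), ∃ s : ℝ, |s| ≤ L ∧
        x = p₀ + ρ • (a + τ • b) + s • (e + w τ)}

theorem piece_main (e a b p₀ : E3) (he : ‖e‖ = 1)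
    (ha : inner ℝ a e = 0) (hb : inner ℝ b e = 0)
    (hab : LinearIndependent ℝ ![a, b]) (L : ℝ) (hL : 0 < L) (t₁ t₂ : ℝ) (ht : t₁ < t₂)
    (R : ℝ → ℝ) (hR0 : ∀ t ∈ Set.Icc t₁ t₂, 0 ≤ R t)
    (w : ℝ → E3) (hw : ∀ t ∈ Set.Icc t₁ t₂, inner ℝ (w t) e = 0)
    (lam : ℝ → ℝ) (Λ : ℝ) (hΛ : ∀ t ∈ Set.Icc t₁ t₂, |lam t| ≤ Λ)
    (hw' : ∀ t ∈ Set.Icc t₁ t₂, HasDerivWithinAt w (lam t • (a + t • b)) (Set.Icc t₁ t₂) t)
    (c : ℝ) (hc : c ∈ Set.Icc t₁ t₂) (Rb θ : ℝ) (hRb : R c ≤ Rb) (hθ0 : 0 < θ) (hθ1 : θ ≤ 1)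
    (hRmod : ∀ τ ∈ Set.Icc t₁ t₂, |R τ - R c| ≤ θ / 2)
    (hσ : 3 * ((L * Λ + 1) * (t₂ - t₁)) ≤ θ / 2) :
    ∃ p q r : E3, inner ℝ p (e + w c) = 0 ∧ inner ℝ q (e + w c) = 0 ∧ inner ℝ r (e + w c) = 0 ∧
      AffineIndependent ℝ ![p, q, r] ∧
      (∀ x ∈ piece e a b p₀ L R w t₁ t₂, proj (e + w c) x ∈ convexHull ℝ ({p, q, r} : Set E3)) ∧
      |(μHE[2] (convexHull ℝ ({p, q, r} : Set E3))).toReal -
        Real.sqrt (gram a b) * (R c ^ 2 / (2 * Real.sqrt (1 + ‖w c‖ ^ 2)) * (t₂ - t₁))| ≤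
          Real.sqrt (gram a b) * (θ * (2 * Rb + 1) / 2) * (t₂ - t₁) ∧
      |(μHE[2] (proj (e + w c) '' piece e a b p₀ L R w t₁ t₂)).toReal -
        Real.sqrt (gram a b) * (R c ^ 2 / (2 * Real.sqrt (1 + ‖w c‖ ^ 2)) * (t₂ - t₁))| ≤
          Real.sqrt (gram a b) * (θ * (2 * Rb + 1) / 2) * (t₂ - t₁) := by
  have hΔ : 0 < t₂ - t₁ := by linarith
  have hΛ0 : 0 ≤ Λ := le_trans (abs_nonneg _) (hΛ c hc)
  have hu : e + w c ≠ 0 := e_add_ne_zero e (w c) he (hw c hc)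
  obtain ⟨φ, ψ, -, -, -, -, hrep⟩ := dual_frame e a b he ha hb hab
  have hwc := hrep (w c) (hw c hc)
  set x := φ (w c)
  set y := ψ (w c)
  set σ := (L * Λ + 1) * (t₂ - t₁) with hσdef
  have hσpos : 0 < σ := by positivity
  set ρ' := R c + θ / 2 + 3 * σ with hρ'
  have hRc0 : 0 ≤ R c := hR0 c hc
  have hρ'pos : 0 < ρ' := by positivity
  set Rm := max (R c - θ / 2) 0 with hRm
  have hRm0 : 0 ≤ Rm := le_max_right _ _
  set P := p₀ - σ • ((a + t₁ • b) + (a + t₂ • b)) with hP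
  set κ := Real.sqrt (gram a b) with hκ
  have hG : 0 < gram a b := gram_ab_pos a b hab
  have hκ0 : 0 < κ := Real.sqrt_pos.mpr hG
  set D := 2 * Real.sqrt (1 + ‖w c‖ ^ 2) with hD
  have hD2 : 2 ≤ D := by
    have : 1 ≤ Real.sqrt (1 + ‖w c‖ ^ 2) := by
      rw [Real.one_le_sqrt]; nlinarith [sq_nonneg ‖w c‖]
    linarith
  have hDpos : 0 < D := by linarith
  -- areas
  have areaU := area_proj_tri e a b (w c) he ha hb x y hwc P t₁ t₂ ρ' ht.le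
  have areaL := area_proj_tri e a b (w c) he ha hb x y hwc p₀ t₁ t₂ Rm ht.le
  rw [← hκ, ← hD] at areaU areaL
  -- numeric comparisons
  have hE : 0 ≤ θ * (2 * Rb + 1) / 2 := by
    have : 0 ≤ Rb := le_trans hRc0 hRb
    positivity
  have hup1 : R c ^ 2 / D * (t₂ - t₁) ≤ ρ' ^ 2 * (t₂ - t₁) / D := by
    rw [div_mul_eq_mul_div]
    apply div_le_div_of_nonneg_right _ hDpos.le
    apply mul_le_mul_of_nonneg_right _ hΔ.le
    apply pow_le_pow_left₀ hRc0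
    rw [hρ']; linarith
  have hup2 : ρ' ^ 2 * (t₂ - t₁) / D ≤
      R c ^ 2 / D * (t₂ - t₁) + θ * (2 * Rb + 1) / 2 * (t₂ - t₁) := by
    have h1 : ρ' - R c ≤ θ := by rw [hρ']; linarith
    have h1' : 0 ≤ ρ' - R c := by rw [hρ']; linarith
    have h2 : ρ' + R c ≤ 2 * Rb + 1 := by linarith
    have h2' : 0 ≤ ρ' + R c := by linarith
    have h3 : ρ' ^ 2 - R c ^ 2 ≤ θ * (2 * Rb + 1) := by
      have : ρ' ^ 2 - R c ^ 2 = (ρ' - R c) * (ρ' + R c) := by ring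
      rw [this]
      exact mul_le_mul h1 h2 h2' hθ0.le
    have h4 : (ρ' ^ 2 - R c ^ 2) / D ≤ θ * (2 * Rb + 1) / 2 := by
      have h5 : 0 ≤ ρ' ^ 2 - R c ^ 2 := by
        have : ρ' ^ 2 - R c ^ 2 = (ρ' - R c) * (ρ' + R c) := by ring
        rw [this]; positivity
      calc (ρ' ^ 2 - R c ^ 2) / D ≤ (ρ' ^ 2 - R c ^ 2) / 2 :=
            div_le_div_of_nonneg_left h5 (by norm_num) hD2
        _ ≤ θ * (2 * Rb + 1) / 2 := by linarith
    have h6 : ρ' ^ 2 * (t₂ - t₁) / D = R c ^ 2 / D * (t₂ - t₁) +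
        (ρ' ^ 2 - R c ^ 2) / D * (t₂ - t₁) := by
      field_simp; ring
    rw [h6]
    have := mul_le_mul_of_nonneg_right h4 hΔ.le
    linarith
  have hlo1 : Rm ^ 2 * (t₂ - t₁) / D ≤ R c ^ 2 / D * (t₂ - t₁) := by
    rw [div_mul_eq_mul_div]
    apply div_le_div_of_nonneg_right _ hDpos.le
    apply mul_le_mul_of_nonneg_right _ hΔ.le
    apply pow_le_pow_left₀ hRm0
    rw [hRm]; exact max_le (by linarith) hRc0
  have hlo2 : R c ^ 2 / D * (t₂ - t₁) - θ * (2 * Rb + 1) / 2 * (t₂ - t₁) ≤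
      Rm ^ 2 * (t₂ - t₁) / D := by
    have h1 : R c - Rm ≤ θ := by
      have : R c - θ / 2 ≤ Rm := le_max_left _ _
      linarith
    have hRmle : Rm ≤ R c := by rw [hRm]; exact max_le (by linarith) hRc0
    have h1' : 0 ≤ R c - Rm := by linarith
    have h2 : R c + Rm ≤ 2 * Rb + 1 := by linarith
    have h2' : 0 ≤ R c + Rm := by linarith
    have h3 : R c ^ 2 - Rm ^ 2 ≤ θ * (2 * Rb + 1) := by
      have : R c ^ 2 - Rm ^ 2 = (R c - Rm) * (R c + Rm) := by ring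
      rw [this]
      exact mul_le_mul h1 h2 h2' hθ0.le
    have h4 : (R c ^ 2 - Rm ^ 2) / D ≤ θ * (2 * Rb + 1) / 2 := by
      have h5 : 0 ≤ R c ^ 2 - Rm ^ 2 := by
        have : R c ^ 2 - Rm ^ 2 = (R c - Rm) * (R c + Rm) := by ring
        rw [this]; positivity
      calc (R c ^ 2 - Rm ^ 2) / D ≤ (R c ^ 2 - Rm ^ 2) / 2 :=
            div_le_div_of_nonneg_left h5 (by norm_num) hD2
        _ ≤ θ * (2 * Rb + 1) / 2 := by linarith
    have h6 : Rm ^ 2 * (t₂ - t₁) / D = R c ^ 2 / D * (t₂ - t₁) -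
        (R c ^ 2 - Rm ^ 2) / D * (t₂ - t₁) := by
      field_simp; ring
    rw [h6]
    have := mul_le_mul_of_nonneg_right h4 hΔ.le
    linarith
  -- general squeeze
  have squeeze : ∀ m : ℝ, κ * (Rm ^ 2 * (t₂ - t₁) / D) ≤ m → m ≤ κ * (ρ' ^ 2 * (t₂ - t₁) / D) →
      |m - κ * (R c ^ 2 / D * (t₂ - t₁))| ≤ κ * (θ * (2 * Rb + 1) / 2) * (t₂ - t₁) := by
    intro m h1 h2
    have a1 := mul_le_mul_of_nonneg_left hup2 hκ0.le
    have a2 := mul_le_mul_of_nonneg_left hlo2 hκ0.le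
    rw [abs_le]
    constructor <;> nlinarith
  -- covering of the piece
  have hcov : ∀ z ∈ piece e a b p₀ L R w t₁ t₂, proj (e + w c) z ∈
      convexHull ℝ ({proj (e + w c) P, proj (e + w c) (P + ρ' • (a + t₁ • b)),
        proj (e + w c) (P + ρ' • (a + t₂ • b))} : Set E3) := by
    rintro z ⟨τ, hτ, ρ, hρ, s, hs, rfl⟩
    apply piece_upper e a b p₀ he ha hb hab L hL t₁ t₂ ht w hw lam Λ hΛ hw' c hc σ ρ' _ τ hτ ρ hρ.1
      _ s hs
    · rw [hσdef]; nlinarith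
    · have := abs_le.mp (hRmod τ hτ)
      rw [hρ']; linarith [hρ.2, this.2]
  have hfin : μHE[2] (convexHull ℝ ({proj (e + w c) P, proj (e + w c) (P + ρ' • (a + t₁ • b)),
        proj (e + w c) (P + ρ' • (a + t₂ • b))} : Set E3)) ≠ ⊤ := by
    rw [area_triangle]; exact ENNReal.ofReal_ne_top
  have hsub : proj (e + w c) '' piece e a b p₀ L R w t₁ t₂ ⊆
      convexHull ℝ ({proj (e + w c) P, proj (e + w c) (P + ρ' • (a + t₁ • b)),
        proj (e + w c) (P + ρ' • (a + t₂ • b))} : Set E3) := Set.image_subset_iff.mpr hcov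
  refine ⟨proj (e + w c) P, proj (e + w c) (P + ρ' • (a + t₁ • b)),
    proj (e + w c) (P + ρ' • (a + t₂ • b)), inner_proj_self _ _ hu, inner_proj_self _ _ hu,
    inner_proj_self _ _ hu, ?_, hcov, ?_, ?_⟩
  · apply affineIndependent_of_gram_ne
    rw [map_add, map_add, add_sub_cancel_left, add_sub_cancel_left,
      gram_proj e a b (w c) he ha hb x y hwc]
    have : (0:ℝ) < 1 + ‖w c‖ ^ 2 := by positivity
    positivity
  · rw [areaU]
    apply squeeze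
    · exact mul_le_mul_of_nonneg_left (hlo1.trans hup1) hκ0.le
    · exact le_refl _
  · apply squeeze
    · rw [← areaL]
      apply ENNReal.toReal_mono
      · exact ne_top_of_le_ne_top hfin (measure_mono hsub)
      · apply measure_mono
        apply piece_lower e a b p₀ (e + w c) t₁ t₂ ht L hL R w Rm hRm0
        intro τ hτ
        rw [hRm]
        apply max_le _ (hR0 τ hτ)
        have := abs_le.mp (hRmod τ hτ)
        linarith [this.1]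
    · rw [← areaU]
      apply ENNReal.toReal_mono
      · exact hfin
      · exact measure_mono hsub

end Crest.Agent.S0328Aux
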