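import Mathlib

set_option autoImplicit false
open MeasureTheory

namespace Crest.Agent.S0328Aux

theorem exists_piece (N : ℕ) (t : Fin (N + 1) → ℝ) (τ : ℝ) (h0 : t 0 ≤ τ)
    (h1 : τ ≤ t (Fin.last N)) (hlt : t 0 < t (Fin.last N)) :
    ∃ i : Fin N, t i.castSucc ≤ τ ∧ τ ≤ t i.succ := by
  by_contra hcon
  push Not at hcon
  have key : ∀ j : Fin (N + 1), t j ≤ τ ∧ (j ≠ 0 → t j < τ) := by
    intro j
    induction j using Fin.induction with
    | zero => exact ⟨h0, fun h => absurd rfl h⟩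
    | succ i ih =>
      have := hcon i ih.1
      exact ⟨this.le, fun _ => this⟩
  by_cases hN : Fin.last N = 0
  · rw [hN] at hlt; exact lt_irrefl _ hlt
  · exact absurd ((key (Fin.last N)).2 hN) (not_lt.mpr h1)

/-- extension of a `Fin`-indexed partition to `ℕ`. -/
def ext (N : ℕ) (t : Fin (N + 1) → ℝ) (k : ℕ) : ℝ := t ⟨min k N, by omega⟩

theorem ext_castSucc (N : ℕ) (t : Fin (N + 1) → ℝ) (i : Fin N) : t i.castSucc = ext N t i := by
  unfold ext
  congr 1
  ext
  simp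

theorem ext_succ (N : ℕ) (t : Fin (N + 1) → ℝ) (i : Fin N) : t i.succ = ext N t (i + 1) := by
  unfold ext
  congr 1
  ext
  simp

theorem ext_zero (N : ℕ) (t : Fin (N + 1) → ℝ) : ext N t 0 = t 0 := by
  unfold ext
  congr 1

theorem ext_last (N : ℕ) (t : Fin (N + 1) → ℝ) : ext N t N = t (Fin.last N) := by
  unfold ext
  congr 1
  ext
  simp

theorem sum_integral_pieces (N : ℕ) (t : Fin (N + 1) → ℝ) (f : ℝ → ℝ)
    (hint : ∀ i : Fin N, IntervalIntegrable f volume (t i.castSucc) (t i.succ)) :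
    ∑ i : Fin N, ∫ x in (t i.castSucc)..(t i.succ), f x = ∫ x in (t 0)..(t (Fin.last N)), f x := by
  have h := intervalIntegral.sum_integral_adjacent_intervals (f := f) (μ := volume)
    (a := ext N t) (n := N) (by
      intro k hk
      have := hint ⟨k, hk⟩
      rw [ext_castSucc N t, ext_succ N t] at this
      exact this)
  rw [ext_zero, ext_last] at h
  rw [← h, ← Fin.sum_univ_eq_sum_range (fun k => ∫ x in (ext N t k)..(ext N t (k + 1)), f x) N]
  apply Finset.sum_congr rfl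
  intro i _
  rw [ext_castSucc N t, ext_succ N t]

theorem sum_lengths (N : ℕ) (t : Fin (N + 1) → ℝ) :
    ∑ i : Fin N, (t i.succ - t i.castSucc) = t (Fin.last N) - t 0 := by
  have h := Finset.sum_range_sub (ext N t) N
  rw [ext_zero, ext_last] at h
  rw [← h, ← Fin.sum_univ_eq_sum_range (fun k => ext N t (k + 1) - ext N t k) N]
  apply Finset.sum_congr rfl
  intro i _
  rw [ext_castSucc N t, ext_succ N t]

theorem riemann_bound (α β : ℝ) (F : ℝ → ℝ) (hF : ContinuousOn F (Set.Icc α β)) (θ δ : ℝ)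
    (hmod : ∀ x ∈ Set.Icc α β, ∀ y ∈ Set.Icc α β, |x - y| ≤ δ → |F x - F y| ≤ θ)
    (N : ℕ) (t : Fin (N + 1) → ℝ) (c : Fin N → ℝ) (hmono : StrictMono t) (h0 : t 0 = α)
    (h1 : t (Fin.last N) = β) (hmesh : ∀ i : Fin N, t i.succ - t i.castSucc ≤ δ)
    (hc : ∀ i : Fin N, t i.castSucc ≤ c i ∧ c i ≤ t i.succ) :
    |∑ i : Fin N, F (c i) * (t i.succ - t i.castSucc) - ∫ x in α..β, F x| ≤ θ * (β - α) := by
  have hmem : ∀ j : Fin (N + 1), t j ∈ Set.Icc α β := by
    intro j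
    exact ⟨h0 ▸ hmono.monotone (Fin.zero_le j), h1 ▸ hmono.monotone (Fin.le_last j)⟩
  have hle : ∀ i : Fin N, t i.castSucc ≤ t i.succ := fun i =>
    (hmono (Fin.castSucc_lt_succ)).le
  have hsub : ∀ i : Fin N, Set.Icc (t i.castSucc) (t i.succ) ⊆ Set.Icc α β := fun i =>
    Set.Icc_subset_Icc (hmem _).1 (hmem _).2
  have hint : ∀ i : Fin N, IntervalIntegrable F volume (t i.castSucc) (t i.succ) := by
    intro i
    apply ContinuousOn.intervalIntegrable
    rw [Set.uIcc_of_le (hle i)]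
    exact hF.mono (hsub i)
  rw [← h0, ← h1, ← sum_integral_pieces N t F hint, ← Finset.sum_sub_distrib, ← sum_lengths,
    Finset.mul_sum]
  refine (Finset.abs_sum_le_sum_abs _ _).trans (Finset.sum_le_sum ?_)
  intro i _
  have e1 : F (c i) * (t i.succ - t i.castSucc) = ∫ _x in (t i.castSucc)..(t i.succ), F (c i) := by
    rw [intervalIntegral.integral_const, smul_eq_mul, mul_comm]
  rw [e1, ← intervalIntegral.integral_sub intervalIntegrable_const (hint i)]
  have := intervalIntegral.norm_integral_le_of_norm_le_const (a := t i.castSucc) (b := t i.succ)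
    (f := fun x => F (c i) - F x) (C := θ) (by
      intro x hx
      rw [Set.uIoc_of_le (hle i)] at hx
      rw [Real.norm_eq_abs]
      apply hmod _ (hsub i ⟨(hc i).1, (hc i).2⟩) _ (hsub i ⟨hx.1.le, hx.2⟩)
      rw [abs_le]
      constructor <;> linarith [hmesh i, (hc i).1, (hc i).2, hx.1, hx.2])
  rw [Real.norm_eq_abs, abs_of_nonneg (sub_nonneg.mpr (hle i))] at this
  exact this

theorem final_sum (α β : ℝ) (F : ℝ → ℝ) (hF : ContinuousOn F (Set.Icc α β)) (θ δ : ℝ)
    (hmod : ∀ x ∈ Set.Icc α β, ∀ y ∈ Set.Icc α β, |x - y| ≤ δ → |F x - F y| ≤ θ)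
    (N : ℕ) (t : Fin (N + 1) → ℝ) (c : Fin N → ℝ) (hmono : StrictMono t) (h0 : t 0 = α)
    (h1 : t (Fin.last N) = β) (hmesh : ∀ i : Fin N, t i.succ - t i.castSucc ≤ δ)
    (hc : ∀ i : Fin N, t i.castSucc ≤ c i ∧ c i ≤ t i.succ)
    (κ E : ℝ) (hκ : 0 ≤ κ) (m : Fin N → ℝ)
    (hm : ∀ i, |m i - κ * (F (c i) * (t i.succ - t i.castSucc))| ≤
      κ * E * (t i.succ - t i.castSucc)) :
    |∑ i, m i - κ * ∫ x in α..β, F x| ≤ κ * (E + θ) * (β - α) := by
  have hR := riemann_bound α β F hF θ δ hmod N t c hmono h0 h1 hmesh hc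
  have e : ∑ i, m i - κ * ∫ x in α..β, F x =
      ∑ i, (m i - κ * (F (c i) * (t i.succ - t i.castSucc))) +
        κ * (∑ i : Fin N, F (c i) * (t i.succ - t i.castSucc) - ∫ x in α..β, F x) := by
    rw [Finset.sum_sub_distrib, ← Finset.mul_sum]; ring
  rw [e]
  refine (abs_add_le _ _).trans ?_
  have b1 : |∑ i, (m i - κ * (F (c i) * (t i.succ - t i.castSucc)))| ≤ κ * E * (β - α) := by
    refine (Finset.abs_sum_le_sum_abs _ _).trans ((Finset.sum_le_sum (fun i _ => hm i)).trans ?_)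
    rw [← Finset.mul_sum, sum_lengths, h0, h1]
  have b2 : |κ * (∑ i : Fin N, F (c i) * (t i.succ - t i.castSucc) - ∫ x in α..β, F x)| ≤
      κ * (θ * (β - α)) := by
    rw [abs_mul, abs_of_nonneg hκ]
    exact mul_le_mul_of_nonneg_left hR hκ
  linarith

end Crest.Agent.S0328Aux
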