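import Crest.Statements.S0328
import Crest.Agent.S0328_PieceMain
import Crest.Agent.S0328_Riem

set_option autoImplicit false
open MeasureTheory
open scoped ENNReal
open Crest Crest.GeometryTopology Crest.GeometryTopology.Convex

namespace Crest.Agent.S0328

/-- Unit e; a, b, p₀ ∈ e^⊥, a, b independent; α < β; L > 0; R ≥ 0, λ both continuous on [α, β]; w(t) ∈ e^⊥, w′ = λ(t)(a + tb). S = {p₀ + ρ(a + t b) + s(e + w t) : α ≤ t ≤ β, 0 ≤ ρ ≤ R t, ‖s‖ ≤ L}; A = κ ∫_α^β R²/(2√(1 + ‖w‖²)), κ = area spanned by a, b. For η > 0 a δ > 0 makes each partition t₀ < … < t_N of [α, β] of mesh ≤ δ, tags cᵢ, admit N cylinders (axes e + w(cᵢ), nondegenerate triangle bases) covering S, total area within η of A; same for S's pieces tᵢ ≤ t ≤ tᵢ₊₁ projected along these axes. -/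
theorem result
    (e a b p₀ : EuclideanSpace ℝ (Fin 3)) (he : ‖e‖ = 1)
    (ha : inner ℝ a e = 0) (hb : inner ℝ b e = 0) (hp₀ : inner ℝ p₀ e = 0)
    (hab : LinearIndependent ℝ ![a, b]) (L : ℝ) (hL : 0 < L) (α β : ℝ) (hαβ : α < β)
    (R : ℝ → ℝ) (hR : ContinuousOn R (Set.Icc α β)) (hR0 : ∀ t ∈ Set.Icc α β, 0 ≤ R t)
    (w : ℝ → EuclideanSpace ℝ (Fin 3)) (hw : ∀ t ∈ Set.Icc α β, inner ℝ (w t) e = 0)
    (lam : ℝ → ℝ) (hlam : ContinuousOn lam (Set.Icc α β))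
    (hw' : ∀ t ∈ Set.Icc α β, HasDerivWithinAt w (lam t • (a + t • b)) (Set.Icc α β) t)
    (η : ℝ) (hη : 0 < η) :
    ∃ δ : ℝ, 0 < δ ∧ ∀ (N : ℕ) (t : Fin (N + 1) → ℝ) (c : Fin N → ℝ),
      StrictMono t → t 0 = α → t (Fin.last N) = β →
      (∀ i : Fin N, t i.succ - t i.castSucc ≤ δ) →
      (∀ i : Fin N, t i.castSucc ≤ c i ∧ c i ≤ t i.succ) →
      (∃ (p q r : Fin N → EuclideanSpace ℝ (Fin 3)),
        (∀ i, inner ℝ (p i) (e + w (c i)) = 0 ∧ inner ℝ (q i) (e + w (c i)) = 0 ∧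
          inner ℝ (r i) (e + w (c i)) = 0) ∧
        (∀ i, AffineIndependent ℝ ![p i, q i, r i]) ∧
        {x : EuclideanSpace ℝ (Fin 3) | ∃ τ ∈ Set.Icc α β, ∃ ρ ∈ Set.Icc 0 (R τ), ∃ s : ℝ, abs s ≤ L ∧
            x = p₀ + ρ • (a + τ • b) + s • (e + w τ)} ⊆
          ⋃ i, {x : EuclideanSpace ℝ (Fin 3) | ∃ y ∈ convexHull ℝ {p i, q i, r i}, ∃ σ : ℝ,
            x = y + σ • (e + w (c i))} ∧
        abs ((∑ i, (μHE[2] (convexHull ℝ ({p i, q i, r i} : Set (EuclideanSpace ℝ (Fin 3))))).toReal) -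
            Real.sqrt (‖a‖ ^ 2 * ‖b‖ ^ 2 - inner ℝ a b ^ 2) *
              ∫ τ in α..β, R τ ^ 2 / (2 * Real.sqrt (1 + ‖w τ‖ ^ 2))) ≤ η) ∧
      abs ((∑ i : Fin N, (μHE[2] ((fun y => y - (inner ℝ y (e + w (c i)) / ‖e + w (c i)‖ ^ 2) • (e + w (c i))) ''
            {x : EuclideanSpace ℝ (Fin 3) | ∃ τ ∈ Set.Icc (t i.castSucc) (t i.succ), ∃ ρ ∈ Set.Icc 0 (R τ),
              ∃ s : ℝ, abs s ≤ L ∧ x = p₀ + ρ • (a + τ • b) + s • (e + w τ)})).toReal) -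
          Real.sqrt (‖a‖ ^ 2 * ‖b‖ ^ 2 - inner ℝ a b ^ 2) *
            ∫ τ in α..β, R τ ^ 2 / (2 * Real.sqrt (1 + ‖w τ‖ ^ 2))) ≤ η := by
  classical
  have hG : 0 < R211.gram a b := S0328Aux.gram_ab_pos a b hab
  have hκdef : Real.sqrt (‖a‖ ^ 2 * ‖b‖ ^ 2 - inner ℝ a b ^ 2) = Real.sqrt (R211.gram a b) := rfl
  simp only [hκdef]
  set κ := Real.sqrt (R211.gram a b) with hκ
  have hκ0 : 0 < κ := Real.sqrt_pos.mpr hG
  obtain ⟨Λ, hΛ⟩ := isCompact_Icc.exists_bound_of_continuousOn hlam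
  obtain ⟨Rb, hRb⟩ := isCompact_Icc.exists_bound_of_continuousOn hR
  simp only [Real.norm_eq_abs] at hΛ hRb
  have hαmem : α ∈ Set.Icc α β := ⟨le_refl _, hαβ.le⟩
  have hΛ0 : 0 ≤ Λ := le_trans (abs_nonneg _) (hΛ α hαmem)
  have hRb0 : 0 ≤ Rb := le_trans (abs_nonneg _) (hRb α hαmem)
  have hB : 0 < β - α := by linarith
  have hwc : ContinuousOn w (Set.Icc α β) := fun t ht => (hw' t ht).continuousWithinAt
  set F : ℝ → ℝ := fun τ => R τ ^ 2 / (2 * Real.sqrt (1 + ‖w τ‖ ^ 2)) with hFdef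
  have hF : ContinuousOn F (Set.Icc α β) := by
    apply ContinuousOn.div (hR.pow 2)
    · exact continuousOn_const.mul
        (Real.continuous_sqrt.comp_continuousOn (continuousOn_const.add (hwc.norm.pow 2)))
    · intro x _
      have : 0 < Real.sqrt (1 + ‖w x‖ ^ 2) := Real.sqrt_pos.mpr (by positivity)
      positivity
  set K := κ * (Rb + 2) * (β - α) with hK
  have hKpos : 0 < K := by positivity
  set θ := min 1 (η / K) with hθ
  have hθ0 : 0 < θ := lt_min one_pos (div_pos hη hKpos)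
  have hθ1 : θ ≤ 1 := min_le_left _ _
  have hθK : θ * K ≤ η := by
    have : θ ≤ η / K := min_le_right _ _
    rwa [le_div_iff₀ hKpos] at this
  obtain ⟨δ1, hδ1, hR1⟩ := Metric.uniformContinuousOn_iff.mp
    (isCompact_Icc.uniformContinuousOn_of_continuous hR) (θ / 2) (by positivity)
  obtain ⟨δ2, hδ2, hF2⟩ := Metric.uniformContinuousOn_iff.mp
    (isCompact_Icc.uniformContinuousOn_of_continuous hF) θ hθ0
  have hLΛ : 0 < L * Λ + 1 := by positivity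
  refine ⟨min (min (δ1 / 2) (δ2 / 2)) (θ / (6 * (L * Λ + 1))), by positivity, ?_⟩
  intro N t c hmono h0 h1 hmesh hc
  have hm1 : ∀ i : Fin N, t i.succ - t i.castSucc ≤ δ1 / 2 := fun i =>
    (hmesh i).trans ((min_le_left _ _).trans (min_le_left _ _))
  have hm2 : ∀ i : Fin N, t i.succ - t i.castSucc ≤ δ2 / 2 := fun i =>
    (hmesh i).trans ((min_le_left _ _).trans (min_le_right _ _))
  have hm3 : ∀ i : Fin N, t i.succ - t i.castSucc ≤ θ / (6 * (L * Λ + 1)) := fun i =>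
    (hmesh i).trans (min_le_right _ _)
  have hmem : ∀ j : Fin (N + 1), t j ∈ Set.Icc α β := by
    intro j
    exact ⟨h0 ▸ hmono.monotone (Fin.zero_le j), h1 ▸ hmono.monotone (Fin.le_last j)⟩
  have hlt : ∀ i : Fin N, t i.castSucc < t i.succ := fun i => hmono (Fin.castSucc_lt_succ)
  have hsub : ∀ i : Fin N, Set.Icc (t i.castSucc) (t i.succ) ⊆ Set.Icc α β := fun i =>
    Set.Icc_subset_Icc (hmem _).1 (hmem _).2
  have hmodF : ∀ x ∈ Set.Icc α β, ∀ y ∈ Set.Icc α β, |x - y| ≤ δ2 / 2 → |F x - F y| ≤ θ := by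
    intro x hx y hy hxy
    have := hF2 x hx y hy (by rw [Real.dist_eq]; linarith)
    rw [Real.dist_eq] at this
    exact this.le
  have hpm := fun i : Fin N => S0328Aux.piece_main e a b p₀ he ha hb hab L hL (t i.castSucc)
    (t i.succ) (hlt i) R (fun τ hτ => hR0 τ (hsub i hτ)) w (fun τ hτ => hw τ (hsub i hτ)) lam Λ
    (fun τ hτ => hΛ τ (hsub i hτ)) (fun τ hτ => (hw' τ (hsub i hτ)).mono (hsub i)) (c i) (hc i)
    Rb θ (le_trans (le_abs_self _) (hRb _ (hsub i (hc i)))) hθ0 hθ1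
    (by
      intro τ hτ
      have := hR1 τ (hsub i hτ) (c i) (hsub i (hc i)) (by
        rw [Real.dist_eq]
        have : |τ - c i| ≤ δ1 / 2 := by
          rw [abs_le]
          constructor <;> linarith [hm1 i, hτ.1, hτ.2, (hc i).1, (hc i).2]
        linarith)
      rw [Real.dist_eq] at this
      exact this.le)
    (by
      have := hm3 i
      rw [le_div_iff₀ (by positivity)] at this
      linarith)
  choose p q r hp hq hr haff hcov hareaT hareaS using hpm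
  have hfinal : κ * (θ * (2 * Rb + 1) / 2 + θ) * (β - α) ≤ η := by
    have : κ * (θ * (2 * Rb + 1) / 2 + θ) * (β - α) ≤ θ * K := by
      rw [hK]
      have h3 : 0 ≤ θ * κ * (β - α) := by positivity
      nlinarith
    linarith
  refine ⟨⟨p, q, r, fun i => ⟨hp i, hq i, hr i⟩, haff, ?_, ?_⟩, ?_⟩
  · rintro x ⟨τ, hτ, ρ, hρ, s, hs, rfl⟩
    obtain ⟨i, hi1, hi2⟩ := S0328Aux.exists_piece N t τ (h0 ▸ hτ.1) (h1 ▸ hτ.2)
      (by rw [h0, h1]; exact hαβ)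
    rw [Set.mem_iUnion]
    refine ⟨i, _, hcov i _ ⟨τ, ⟨hi1, hi2⟩, ρ, hρ, s, hs, rfl⟩,
      inner ℝ (p₀ + ρ • (a + τ • b) + s • (e + w τ)) (e + w (c i)) / ‖e + w (c i)‖ ^ 2, ?_⟩
    rw [S0328Aux.proj_apply]; abel
  · exact (S0328Aux.final_sum α β F hF θ (δ2 / 2) hmodF N t c hmono h0 h1 hm2 hc κ _ hκ0.le _
      hareaT).trans hfinal
  · exact (S0328Aux.final_sum α β F hF θ (δ2 / 2) hmodF N t c hmono h0 h1 hm2 hc κ _ hκ0.le _
      hareaS).trans hfinal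


end Crest.Agent.S0328
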