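import Crest.Agent.R211_Area0

set_option autoImplicit false
open MeasureTheory
open scoped ENNReal
open Crest.Agent.R211

namespace Crest.Agent.S0328Aux

/-- dual frame of an independent pair in `e^⊥`. -/
theorem dual_frame (e A B : E3) (he : ‖e‖ = 1) (hA : inner ℝ A e = 0) (hB : inner ℝ B e = 0)
    (hAB : LinearIndependent ℝ ![A, B]) :
    ∃ φ ψ : E3 →L[ℝ] ℝ, φ A = 1 ∧ φ B = 0 ∧ ψ A = 0 ∧ ψ B = 1 ∧
      ∀ v : E3, inner ℝ v e = 0 → v = φ v • A + ψ v • B := by
  have hee : inner ℝ e e = 1 := by rw [real_inner_self_eq_norm_sq, he]; norm_num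
  have hne : e ≠ 0 := by intro h; simp [h] at he
  have hli : LinearIndependent ℝ ![A, B, e] := by
    rw [Fintype.linearIndependent_iff]
    intro g hg
    simp only [Fin.sum_univ_three, Matrix.cons_val_zero, Matrix.cons_val_one,
      Matrix.cons_val_two, Matrix.head_cons, Matrix.tail_cons] at hg
    have h2 : g 2 = 0 := by
      have := congrArg (fun x => inner ℝ x e) hg
      simpa [inner_add_left, inner_smul_left, hA, hB, hee, hne] using this
    rw [h2, zero_smul, add_zero] at hg
    have := (LinearIndependent.pair_iff.mp hAB) (g 0) (g 1) hg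
    intro i
    fin_cases i
    · exact this.1
    · exact this.2
    · exact h2
  have hcard : Fintype.card (Fin 3) = Module.finrank ℝ E3 := by simp
  let bs := basisOfLinearIndependentOfCardEqFinrank hli hcard
  have hbs : ∀ i, bs i = ![A, B, e] i := fun i => by
    simp [bs]
  refine ⟨LinearMap.toContinuousLinearMap (bs.coord 0), LinearMap.toContinuousLinearMap (bs.coord 1), ?_, ?_, ?_, ?_, ?_⟩
  · have : A = bs 0 := by rw [hbs]; rfl
    simp only [LinearMap.coe_toContinuousLinearMap']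
    rw [this]; simp
  · have : B = bs 1 := by rw [hbs]; rfl
    simp only [LinearMap.coe_toContinuousLinearMap']
    rw [this]; simp
  · have : A = bs 0 := by rw [hbs]; rfl
    simp only [LinearMap.coe_toContinuousLinearMap']
    rw [this]; simp
  · have : B = bs 1 := by rw [hbs]; rfl
    simp only [LinearMap.coe_toContinuousLinearMap']
    rw [this]; simp
  · intro v hv
    have hsum := bs.sum_repr v
    simp only [Fin.sum_univ_three, hbs, Matrix.cons_val_zero, Matrix.cons_val_one,
      Matrix.cons_val_two, Matrix.head_cons, Matrix.tail_cons] at hsum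
    have h2 : bs.repr v 2 = 0 := by
      have := congrArg (fun x => inner ℝ x e) hsum
      simpa [inner_add_left, inner_smul_left, hA, hB, hee, hv, hne] using this
    rw [h2, zero_smul, add_zero] at hsum
    simp only [LinearMap.coe_toContinuousLinearMap', Module.Basis.coord_apply]
    exact hsum.symm

/-- orthogonal projection along `u` (onto `u^⊥`), as a linear map. -/
noncomputable def proj (u : E3) : E3 →ₗ[ℝ] E3 where
  toFun y := y - (inner ℝ y u / ‖u‖ ^ 2) • u
  map_add' x y := by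
    simp only [inner_add_left, add_div, add_smul]; abel
  map_smul' c x := by
    simp only [inner_smul_left, RingHom.id_apply, smul_sub, smul_smul, mul_div_assoc]
    rfl

theorem proj_apply (u y : E3) : proj u y = y - (inner ℝ y u / ‖u‖ ^ 2) • u := rfl

theorem inner_proj_self (u y : E3) (hu : u ≠ 0) : inner ℝ (proj u y) u = 0 := by
  have h : ‖u‖ ^ 2 ≠ 0 := by positivity
  rw [proj_apply, inner_sub_left, inner_smul_left, real_inner_self_eq_norm_sq]
  simp only [conj_trivial]
  field_simp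
  ring

theorem proj_self (u : E3) (hu : u ≠ 0) : proj u u = 0 := by
  have h : ‖u‖ ^ 2 ≠ 0 := by positivity
  rw [proj_apply, real_inner_self_eq_norm_sq, div_self h, one_smul, sub_self]

theorem inner_proj_proj (u x y : E3) (hu : u ≠ 0) :
    inner ℝ (proj u x) (proj u y) = inner ℝ x y - inner ℝ x u * inner ℝ y u / ‖u‖ ^ 2 := by
  have h : ‖u‖ ^ 2 ≠ 0 := by positivity
  rw [proj_apply u y, inner_sub_right, inner_smul_right, inner_proj_self u x hu, mul_zero, sub_zero,
    proj_apply, inner_sub_left, inner_smul_left, real_inner_comm y u]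
  simp only [conj_trivial]
  ring

theorem norm_sq_e_add (e w : E3) (he : ‖e‖ = 1) (hw : inner ℝ w e = 0) :
    ‖e + w‖ ^ 2 = 1 + ‖w‖ ^ 2 := by
  rw [← real_inner_self_eq_norm_sq, inner_add_left, inner_add_right, inner_add_right,
    real_inner_self_eq_norm_sq, real_inner_self_eq_norm_sq, hw, real_inner_comm, hw, he]
  ring

theorem e_add_ne_zero (e w : E3) (he : ‖e‖ = 1) (hw : inner ℝ w e = 0) : e + w ≠ 0 := by
  intro h
  have := norm_sq_e_add e w he hw
  rw [h] at this
  simp at this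
  nlinarith [sq_nonneg ‖w‖]

theorem gram_proj (e a b w : E3) (he : ‖e‖ = 1) (ha : inner ℝ a e = 0) (hb : inner ℝ b e = 0)
    (x y : ℝ) (hw : w = x • a + y • b) (t₁ t₂ ρ : ℝ) :
    gram (proj (e + w) (ρ • (a + t₁ • b))) (proj (e + w) (ρ • (a + t₂ • b))) =
      ρ ^ 4 * (t₂ - t₁) ^ 2 * gram a b / (1 + ‖w‖ ^ 2) := by
  have hwe : inner ℝ w e = 0 := by
    rw [hw, inner_add_left, inner_smul_left, inner_smul_left, ha, hb]; simp
  have hu : e + w ≠ 0 := e_add_ne_zero e w he hwe
  have hU := norm_sq_e_add e w he hwe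
  have hae : inner ℝ e a = 0 := by rw [real_inner_comm]; exact ha
  have hbe : inner ℝ e b = 0 := by rw [real_inner_comm]; exact hb
  have hba : inner ℝ b a = inner ℝ a b := real_inner_comm _ _
  have hW : ‖w‖ ^ 2 = x ^ 2 * inner ℝ a a + 2 * x * y * inner ℝ a b + y ^ 2 * inner ℝ b b := by
    rw [← real_inner_self_eq_norm_sq, hw]
    simp only [inner_add_left, inner_add_right, inner_smul_left, inner_smul_right, conj_trivial, hba]
    ring
  have hpos : (0:ℝ) < 1 + ‖w‖ ^ 2 := by positivity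
  unfold gram
  simp only [← real_inner_self_eq_norm_sq]
  rw [inner_proj_proj _ _ _ hu, inner_proj_proj _ _ _ hu, inner_proj_proj _ _ _ hu,
    real_inner_self_eq_norm_sq w, hU]
  have c : ∀ t : ℝ, inner ℝ (ρ • (a + t • b)) (e + w) =
      ρ * (x * inner ℝ a a + (y + t * x) * inner ℝ a b + t * y * inner ℝ b b) := by
    intro t
    rw [hw]
    simp only [inner_add_left, inner_add_right, inner_smul_left, inner_smul_right, conj_trivial, hba,
      ha, hb]
    ring
  have n : ∀ t s : ℝ, inner ℝ (ρ • (a + t • b)) (ρ • (a + s • b)) =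
      ρ ^ 2 * (inner ℝ a a + (t + s) * inner ℝ a b + t * s * inner ℝ b b) := by
    intro t s
    simp only [inner_add_left, inner_add_right, inner_smul_left, inner_smul_right, conj_trivial, hba]
    ring
  rw [c, c, n, n, n]
  rw [hW] at hpos ⊢
  generalize inner ℝ a a = g11 at *
  generalize inner ℝ a b = g12 at *
  generalize inner ℝ b b = g22 at *
  have hne := hpos.ne'
  obtain ⟨U, hUU⟩ : ∃ U, U = 1 + (x ^ 2 * g11 + 2 * x * y * g12 + y ^ 2 * g22) := ⟨_, rfl⟩
  rw [← hUU] at hne ⊢
  field_simp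
  rw [hUU]
  ring

/-- a point with nonnegative oblique coordinates of sum `≤ ρ` lies in the triangle. -/
theorem mem_tri (P A B : E3) (ρ X Y : ℝ) (hX : 0 ≤ X) (hY : 0 ≤ Y) (hXY : X + Y ≤ ρ) :
    P + X • A + Y • B ∈ convexHull ℝ ({P, P + ρ • A, P + ρ • B} : Set E3) := by
  rw [convexHull_triple_eq_image]
  rcases eq_or_lt_of_le (le_trans (add_nonneg hX hY) hXY) with h0 | hpos
  · have hX0 : X = 0 := by linarith
    have hY0 : Y = 0 := by linarith
    exact ⟨!₂[0, 0], by simp [stdTri], by simp [hX0, hY0]⟩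
  · refine ⟨!₂[X / ρ, Y / ρ], ?_, ?_⟩
    · simp only [stdTri, Set.mem_ofPred_eq]
      refine ⟨by simp; positivity, by simp; positivity, ?_⟩
      simp
      rw [← add_div, div_le_one hpos]; exact hXY
    · simp only [add_sub_cancel_left, smul_smul]
      simp
      rw [div_mul_cancel₀ _ hpos.ne', div_mul_cancel₀ _ hpos.ne', add_assoc]

/-- conversely. -/
theorem of_mem_tri (P A B : E3) (ρ : ℝ) (hρ : 0 ≤ ρ) (z : E3)
    (hz : z ∈ convexHull ℝ ({P, P + ρ • A, P + ρ • B} : Set E3)) :
    ∃ X Y : ℝ, 0 ≤ X ∧ 0 ≤ Y ∧ X + Y ≤ ρ ∧ z = P + X • A + Y • B := by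
  rw [convexHull_triple_eq_image] at hz
  obtain ⟨x, ⟨h0, h1, h2⟩, rfl⟩ := hz
  refine ⟨x 0 * ρ, x 1 * ρ, by positivity, by positivity, by nlinarith, ?_⟩
  simp only [add_sub_cancel_left, smul_smul, add_assoc]

theorem image_tri (f : E3 →ₗ[ℝ] E3) (P Q S : E3) :
    f '' convexHull ℝ ({P, Q, S} : Set E3) = convexHull ℝ ({f P, f Q, f S} : Set E3) := by
  rw [f.image_convexHull]
  congr 1
  simp [Set.image_insert_eq]

theorem affineIndependent_of_gram_ne (p q r : E3) (h : gram (q - p) (r - p) ≠ 0) :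
    AffineIndependent ℝ ![p, q, r] := by
  rw [affineIndependent_iff_not_collinear_set]
  intro hcol
  rw [collinear_iff_of_mem (p₀ := p) (by simp)] at hcol
  obtain ⟨v, hv⟩ := hcol
  obtain ⟨r1, h1⟩ := hv q (by simp)
  obtain ⟨r2, h2⟩ := hv r (by simp)
  apply h
  have e1 : q - p = r1 • v := by rw [h1]; simp
  have e2 : r - p = r2 • v := by rw [h2]; simp
  rw [e1, e2]
  unfold gram
  rw [inner_smul_left, inner_smul_right, real_inner_self_eq_norm_sq, norm_smul, norm_smul]
  simp only [conj_trivial, Real.norm_eq_abs, mul_pow, sq_abs]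
  ring

theorem gram_ab_pos (a b : E3) (hab : LinearIndependent ℝ ![a, b]) : 0 < gram a b := by
  have hpair := LinearIndependent.pair_iff.mp hab
  have hb : b ≠ 0 := by
    intro h
    have := hpair 0 1 (by simp [h])
    exact one_ne_zero this.2
  have hbb : 0 < ‖b‖ ^ 2 := by positivity
  have hne : (‖b‖ ^ 2) • a + (-(inner ℝ a b)) • b ≠ 0 := by
    intro h
    have := hpair _ _ h
    exact hbb.ne' this.1
  have hpos : 0 < ‖(‖b‖ ^ 2) • a + (-(inner ℝ a b)) • b‖ ^ 2 := by positivity
  have hba : inner ℝ b a = inner ℝ a b := real_inner_comm _ _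
  have key : ‖(‖b‖ ^ 2) • a + (-(inner ℝ a b)) • b‖ ^ 2 = ‖b‖ ^ 2 * gram a b := by
    rw [← real_inner_self_eq_norm_sq]
    simp only [inner_add_left, inner_add_right, inner_smul_left, inner_smul_right, conj_trivial, hba,
      real_inner_self_eq_norm_sq]
    unfold gram
    ring
  rw [key] at hpos
  exact (pos_iff_pos_of_mul_pos hpos).mp hbb

theorem area_proj_tri (e a b w : E3) (he : ‖e‖ = 1) (ha : inner ℝ a e = 0) (hb : inner ℝ b e = 0)
    (x y : ℝ) (hw : w = x • a + y • b) (P : E3) (t₁ t₂ ρ : ℝ) (ht : t₁ ≤ t₂) :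
    (μHE[2] (convexHull ℝ ({proj (e + w) P, proj (e + w) (P + ρ • (a + t₁ • b)),
        proj (e + w) (P + ρ • (a + t₂ • b))} : Set E3))).toReal =
      Real.sqrt (gram a b) * (ρ ^ 2 * (t₂ - t₁) / (2 * Real.sqrt (1 + ‖w‖ ^ 2))) := by
  rw [area_triangle_toReal, map_add, map_add, add_sub_cancel_left, add_sub_cancel_left,
    ← gram_eq_gram2, gram_proj e a b w he ha hb x y hw]
  have h1 : ρ ^ 4 * (t₂ - t₁) ^ 2 * gram a b = (ρ ^ 2 * (t₂ - t₁)) ^ 2 * gram a b := by ring
  have h2 : 0 ≤ ρ ^ 2 * (t₂ - t₁) := mul_nonneg (sq_nonneg _) (by linarith)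
  rw [h1, Real.sqrt_div (mul_nonneg (sq_nonneg _) (gram_nonneg a b)),
    Real.sqrt_mul (sq_nonneg _), Real.sqrt_sq h2]
  have h3 : 0 < Real.sqrt (1 + ‖w‖ ^ 2) := Real.sqrt_pos.mpr (by positivity)
  field_simp

end Crest.Agent.S0328Aux
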