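import Crest.Agent.S0328_Geo

set_option autoImplicit false
open MeasureTheory
open scoped ENNReal
open Crest.Agent.R211

namespace Crest.Agent.S0328Aux

theorem linInd_pair (a b : E3) (hab : LinearIndependent ℝ ![a, b]) (t₁ t₂ : ℝ) (ht : t₁ < t₂) :
    LinearIndependent ℝ ![a + t₁ • b, a + t₂ • b] := by
  rw [LinearIndependent.pair_iff] at hab ⊢
  intro s t h
  have h' : (s + t) • a + (s * t₁ + t * t₂) • b = 0 := by
    rw [← h]; simp only [smul_add, add_smul, smul_smul]; abel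
  obtain ⟨h1, h2⟩ := hab _ _ h'
  have hs : s = -t := by linarith
  have h3 : t * (t₂ - t₁) = 0 := by rw [hs] at h2; linarith
  have h4 : t = 0 := by
    rcases mul_eq_zero.mp h3 with h | h
    · exact h
    · exfalso; linarith
  exact ⟨by rw [hs, h4]; simp, h4⟩

/-- bound for a functional along `w`. -/
theorem functional_bound (a b : E3) (t₁ t₂ : ℝ)
    (w : ℝ → E3) (lam : ℝ → ℝ) (Λ : ℝ) (hΛ : ∀ t ∈ Set.Icc t₁ t₂, |lam t| ≤ Λ)
    (hw' : ∀ t ∈ Set.Icc t₁ t₂, HasDerivWithinAt w (lam t • (a + t • b)) (Set.Icc t₁ t₂) t)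
    (φ : E3 →L[ℝ] ℝ) (hφ : ∀ t ∈ Set.Icc t₁ t₂, |φ (a + t • b)| ≤ 1)
    (c τ : ℝ) (hc : c ∈ Set.Icc t₁ t₂) (hτ : τ ∈ Set.Icc t₁ t₂) :
    |φ (w τ - w c)| ≤ Λ * (t₂ - t₁) := by
  have hd : ∀ t ∈ Set.Icc t₁ t₂,
      HasDerivWithinAt (φ ∘ w) (φ (lam t • (a + t • b))) (Set.Icc t₁ t₂) t := fun t ht =>
    φ.hasFDerivAt.comp_hasDerivWithinAt t (hw' t ht)
  have hΛ0 : 0 ≤ Λ := le_trans (abs_nonneg _) (hΛ c hc)
  have hb : ∀ t ∈ Set.Icc t₁ t₂, ‖φ (lam t • (a + t • b))‖ ≤ Λ := by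
    intro t ht
    rw [map_smul, smul_eq_mul, Real.norm_eq_abs, abs_mul]
    calc |lam t| * |φ (a + t • b)| ≤ Λ * 1 :=
          mul_le_mul (hΛ t ht) (hφ t ht) (abs_nonneg _) hΛ0
      _ = Λ := mul_one _
  have := Convex.norm_image_sub_le_of_norm_hasDerivWithin_le hd hb (convex_Icc t₁ t₂) hc hτ
  rw [map_sub]
  simp only [Function.comp, Real.norm_eq_abs] at this
  refine this.trans (mul_le_mul_of_nonneg_left ?_ hΛ0)
  rw [abs_le]
  constructor <;> linarith [hc.1, hc.2, hτ.1, hτ.2]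

theorem piece_upper (e a b p₀ : E3) (he : ‖e‖ = 1)
    (ha : inner ℝ a e = 0) (hb : inner ℝ b e = 0)
    (hab : LinearIndependent ℝ ![a, b]) (L : ℝ) (hL : 0 < L) (t₁ t₂ : ℝ) (ht : t₁ < t₂)
    (w : ℝ → E3) (hw : ∀ t ∈ Set.Icc t₁ t₂, inner ℝ (w t) e = 0)
    (lam : ℝ → ℝ) (Λ : ℝ) (hΛ : ∀ t ∈ Set.Icc t₁ t₂, |lam t| ≤ Λ)
    (hw' : ∀ t ∈ Set.Icc t₁ t₂, HasDerivWithinAt w (lam t • (a + t • b)) (Set.Icc t₁ t₂) t)
    (c : ℝ) (hc : c ∈ Set.Icc t₁ t₂) (σ ρ' : ℝ) (hσ : L * Λ * (t₂ - t₁) ≤ σ)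
    (τ : ℝ) (hτ : τ ∈ Set.Icc t₁ t₂) (ρ : ℝ) (hρ0 : 0 ≤ ρ) (hρ : ρ + 3 * σ ≤ ρ') (s : ℝ)
    (hs : |s| ≤ L) :
    proj (e + w c) (p₀ + ρ • (a + τ • b) + s • (e + w τ)) ∈
      convexHull ℝ ({proj (e + w c) (p₀ - σ • ((a + t₁ • b) + (a + t₂ • b))),
        proj (e + w c) (p₀ - σ • ((a + t₁ • b) + (a + t₂ • b)) + ρ' • (a + t₁ • b)),
        proj (e + w c) (p₀ - σ • ((a + t₁ • b) + (a + t₂ • b)) + ρ' • (a + t₂ • b))} : Set E3) := by
  have hΔ : 0 < t₂ - t₁ := by linarith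
  have hA : inner ℝ (a + t₁ • b) e = 0 := by
    rw [inner_add_left, inner_smul_left, ha, hb]; simp
  have hB : inner ℝ (a + t₂ • b) e = 0 := by
    rw [inner_add_left, inner_smul_left, ha, hb]; simp
  obtain ⟨φ, ψ, hφA, hφB, hψA, hψB, hrep⟩ :=
    dual_frame e (a + t₁ • b) (a + t₂ • b) he hA hB (linInd_pair a b hab t₁ t₂ ht)
  -- decomposition of a + t b
  have hdec : ∀ t : ℝ, a + t • b =
      ((t₂ - t) / (t₂ - t₁)) • (a + t₁ • b) + ((t - t₁) / (t₂ - t₁)) • (a + t₂ • b) := by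
    intro t
    have h1 : (t₂ - t) / (t₂ - t₁) + (t - t₁) / (t₂ - t₁) = 1 := by
      field_simp; ring
    have h2 : (t₂ - t) / (t₂ - t₁) * t₁ + (t - t₁) / (t₂ - t₁) * t₂ = t := by
      field_simp; ring
    calc a + t • b = ((t₂ - t) / (t₂ - t₁) + (t - t₁) / (t₂ - t₁)) • a +
          ((t₂ - t) / (t₂ - t₁) * t₁ + (t - t₁) / (t₂ - t₁) * t₂) • b := by rw [h1, h2, one_smul]
      _ = _ := by simp only [smul_add, add_smul, smul_smul]; abel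
  have hφt : ∀ t : ℝ, φ (a + t • b) = (t₂ - t) / (t₂ - t₁) := by
    intro t
    rw [hdec t, map_add, map_smul, map_smul, hφA, hφB]; simp
  have hψt : ∀ t : ℝ, ψ (a + t • b) = (t - t₁) / (t₂ - t₁) := by
    intro t
    rw [hdec t, map_add, map_smul, map_smul, hψA, hψB]; simp
  have hφ1 : ∀ t ∈ Set.Icc t₁ t₂, |φ (a + t • b)| ≤ 1 := by
    intro t h
    rw [hφt, abs_of_nonneg (div_nonneg (by linarith [h.2]) hΔ.le), div_le_one hΔ]
    linarith [h.1]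
  have hψ1 : ∀ t ∈ Set.Icc t₁ t₂, |ψ (a + t • b)| ≤ 1 := by
    intro t h
    rw [hψt, abs_of_nonneg (div_nonneg (by linarith [h.1]) hΔ.le), div_le_one hΔ]
    linarith [h.2]
  have hφψ1 : ∀ t ∈ Set.Icc t₁ t₂, |(φ + ψ) (a + t • b)| ≤ 1 := by
    intro t h
    rw [add_apply, hφt, hψt, ← add_div]
    have : t₂ - t + (t - t₁) = t₂ - t₁ := by ring
    rw [this, div_self hΔ.ne']; simp
  have bφ := functional_bound a b t₁ t₂ w lam Λ hΛ hw' φ hφ1 c τ hc hτ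
  have bψ := functional_bound a b t₁ t₂ w lam Λ hΛ hw' ψ hψ1 c τ hc hτ
  have bφψ := functional_bound a b t₁ t₂ w lam Λ hΛ hw' (φ + ψ) hφψ1 c τ hc hτ
  rw [add_apply] at bφψ
  set ξ := φ (w τ - w c) with hξ
  set ζ := ψ (w τ - w c) with hζ
  have hwd : w τ - w c = ξ • (a + t₁ • b) + ζ • (a + t₂ • b) := by
    apply hrep
    rw [inner_sub_left, hw τ hτ, hw c hc, sub_zero]
  have hu : e + w c ≠ 0 := e_add_ne_zero e (w c) he (hw c hc)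
  have hΛ0 : 0 ≤ Λ := le_trans (abs_nonneg _) (hΛ c hc)
  -- bounds on s ξ etc
  have hbound : ∀ z : ℝ, |z| ≤ Λ * (t₂ - t₁) → |s * z| ≤ σ := by
    intro z hz
    rw [abs_mul]
    calc |s| * |z| ≤ L * (Λ * (t₂ - t₁)) :=
          mul_le_mul hs hz (abs_nonneg _) hL.le
      _ = L * Λ * (t₂ - t₁) := by ring
      _ ≤ σ := hσ
  have h1 := abs_le.mp (hbound ξ bφ)
  have h2 := abs_le.mp (hbound ζ bψ)
  have h3 := abs_le.mp (hbound (ξ + ζ) bφψ)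
  set lm := (t₂ - τ) / (t₂ - t₁) with hlm
  set lm' := (τ - t₁) / (t₂ - t₁) with hlm'
  have hlm0 : 0 ≤ lm := div_nonneg (by linarith [hτ.2]) hΔ.le
  have hlm0' : 0 ≤ lm' := div_nonneg (by linarith [hτ.1]) hΔ.le
  have hlmsum : lm + lm' = 1 := by
    rw [hlm, hlm', ← add_div]
    have : t₂ - τ + (τ - t₁) = t₂ - t₁ := by ring
    rw [this, div_self hΔ.ne']
  -- the planar point
  have hx : p₀ + ρ • (a + τ • b) + s • (e + w τ) =
      (p₀ - σ • ((a + t₁ • b) + (a + t₂ • b)) + (σ + ρ * lm + s * ξ) • (a + t₁ • b)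
        + (σ + ρ * lm' + s * ζ) • (a + t₂ • b)) + s • (e + w c) := by
    have : w τ = w c + (ξ • (a + t₁ • b) + ζ • (a + t₂ • b)) := by rw [← hwd]; abel
    rw [this, hdec τ, ← hlm, ← hlm']
    module
  have hpx : ∀ X : E3, proj (e + w c) (X + s • (e + w c)) = proj (e + w c) X := by
    intro X
    rw [map_add, map_smul, proj_self _ hu, smul_zero, add_zero]
  rw [hx, hpx, ← image_tri]
  refine Set.mem_image_of_mem _ (mem_tri _ _ _ _ _ _ ?_ ?_ ?_)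
  · have : 0 ≤ ρ * lm := mul_nonneg hρ0 hlm0
    linarith [h1.1]
  · have : 0 ≤ ρ * lm' := mul_nonneg hρ0 hlm0'
    linarith [h2.1]
  · have e1 : ρ * lm + ρ * lm' = ρ := by rw [← mul_add, hlmsum, mul_one]
    have e2 : s * ξ + s * ζ = s * (ξ + ζ) := by ring
    linarith [h3.2]

theorem piece_lower (e a b p₀ u : E3) (t₁ t₂ : ℝ) (ht : t₁ < t₂) (L : ℝ) (hL : 0 < L)
    (R : ℝ → ℝ) (w : ℝ → E3) (Rmin : ℝ) (hRmin0 : 0 ≤ Rmin)
    (hRmin : ∀ τ ∈ Set.Icc t₁ t₂, Rmin ≤ R τ) :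
    convexHull ℝ ({proj u p₀, proj u (p₀ + Rmin • (a + t₁ • b)),
        proj u (p₀ + Rmin • (a + t₂ • b))} : Set E3) ⊆
      proj u '' {x : E3 | ∃ τ ∈ Set.Icc t₁ t₂, ∃ ρ ∈ Set.Icc 0 (R τ), ∃ s : ℝ, |s| ≤ L ∧
        x = p₀ + ρ • (a + τ • b) + s • (e + w τ)} := by
  rw [← image_tri]
  apply Set.image_mono
  intro z hz
  obtain ⟨X, Y, hX, hY, hXY, rfl⟩ := of_mem_tri _ _ _ _ hRmin0 z hz
  rcases eq_or_lt_of_le (add_nonneg hX hY) with h0 | hpos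
  · have hX0 : X = 0 := by linarith
    have hY0 : Y = 0 := by linarith
    refine ⟨t₁, ⟨le_refl _, ht.le⟩, 0, ⟨le_refl _, le_trans hRmin0 (hRmin t₁ ⟨le_refl _, ht.le⟩)⟩,
      0, by simpa using hL.le, ?_⟩
    simp [hX0, hY0]
  · have hτ : (X * t₁ + Y * t₂) / (X + Y) ∈ Set.Icc t₁ t₂ := by
      constructor
      · rw [le_div_iff₀ hpos]; nlinarith
      · rw [div_le_iff₀ hpos]; nlinarith
    refine ⟨(X * t₁ + Y * t₂) / (X + Y), hτ, X + Y, ⟨hpos.le, le_trans hXY (hRmin _ hτ)⟩,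
      0, by simpa using hL.le, ?_⟩
    have h1 : (X + Y) * ((X * t₁ + Y * t₂) / (X + Y)) = X * t₁ + Y * t₂ := by
      field_simp
    rw [zero_smul, add_zero, smul_add (X + Y), smul_smul, h1]
    module

end Crest.Agent.S0328Aux
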