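import Crest.Statements.S0329
import Crest.Agent.R211_Area
import Crest.Agent.S0326

set_option autoImplicit false
open MeasureTheory
open scoped ENNReal
open Crest Crest.GeometryTopology Crest.GeometryTopology.Convex

namespace Crest.Agent.S0329

open Crest.Agent.R211

theorem isBounded_pgram (c a b : E3) : Bornology.IsBounded (pgram c a b) := by
  rw [isBounded_iff_forall_norm_le]
  refine ⟨‖c‖ + ‖a‖ + ‖b‖, ?_⟩
  rintro x ⟨s, hs, t, ht, rfl⟩
  have h1 : ‖s • a‖ ≤ ‖a‖ := by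
    rw [norm_smul, Real.norm_eq_abs, abs_of_nonneg hs.1]
    exact mul_le_of_le_one_left (norm_nonneg _) hs.2
  have h2 : ‖t • b‖ ≤ ‖b‖ := by
    rw [norm_smul, Real.norm_eq_abs, abs_of_nonneg ht.1]
    exact mul_le_of_le_one_left (norm_nonneg _) ht.2
  calc ‖c + s • a + t • b‖ ≤ ‖c + s • a‖ + ‖t • b‖ := norm_add_le _ _
    _ ≤ ‖c‖ + ‖s • a‖ + ‖t • b‖ := by gcongr; exact norm_add_le _ _
    _ ≤ _ := by gcongr

theorem pgram_perp (u c a b : E3) (hc : inner ℝ c u = 0) (ha : inner ℝ a u = 0)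
    (hb : inner ℝ b u = 0) : ∀ y ∈ pgram c a b, inner ℝ y u = 0 := by
  rintro y ⟨s, _, t, _, rfl⟩
  rw [inner_add_left, inner_add_left, inner_smul_left, inner_smul_left, hc, ha, hb]
  simp

/-- lift of a planar vector to the plane `x = 0`, second coordinate stretched by `h`. -/
noncomputable def lift (h : ℝ) (a : E2) : E3 := !₂[0, a 0, h * a 1]

/-- axis direction -/
noncomputable def dir (h : ℝ) (g : E2) : E3 := !₂[1, g 0, h * g 1]

theorem dir_ne_zero (h : ℝ) (g : E2) : dir h g ≠ 0 := by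
  intro h0
  have := congrFun (congrArg (fun v : E3 => (v : Fin 3 → ℝ)) h0) 0
  simp [dir] at this

theorem norm_dir (h : ℝ) (g : E2) : ‖dir h g‖ = Real.sqrt (1 + (g 0) ^ 2 + h ^ 2 * (g 1) ^ 2) := by
  rw [← Real.sqrt_sq (norm_nonneg _), normsq3]
  congr 1
  simp [dir]; ring

theorem abs_det3_lift (h : ℝ) (hh : 0 < h) (a b g : E2) (hn : ‖b‖ = ‖a‖) (hab : inner ℝ a b = 0) :
    |det3 (lift h a) (lift h b) (dir h g)| = h * ‖a‖ ^ 2 := by
  have h1 : det3 (lift h a) (lift h b) (dir h g) = h * (a 0 * b 1 - a 1 * b 0) := by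
    simp [det3, lift, dir]; ring
  have h2 : (a 0 * b 1 - a 1 * b 0) ^ 2 = (‖a‖ ^ 2) ^ 2 := by
    have e1 : ‖b‖ ^ 2 = ‖a‖ ^ 2 := by rw [hn]
    rw [normsq2, normsq2] at e1
    rw [inner2] at hab
    rw [normsq2]
    have : (a 0 * b 1 - a 1 * b 0) ^ 2 =
        (a 0 ^ 2 + a 1 ^ 2) * (b 0 ^ 2 + b 1 ^ 2) - (a 0 * b 0 + a 1 * b 1) ^ 2 := by ring
    rw [this, hab, e1]; ring
  have h3 : |a 0 * b 1 - a 1 * b 0| = ‖a‖ ^ 2 := by
    have := (sq_eq_sq_iff_abs_eq_abs _ _).1 h2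
    rwa [abs_of_nonneg (by positivity : (0:ℝ) ≤ ‖a‖ ^ 2)] at this
  rw [h1, abs_mul, abs_of_pos hh, h3]

/-- Let h, M > 0, D ⊂ ℝ² be compact with Lebesgue-null boundary, and V : ℝ² → ℝ² be C¹ on an open set containing D with tr DV(p) = 0 and −1/M² < det DV(p) < 0 for p ∈ D. For every ε > 0 the set of points (x, p₁ + x V₁(p), h (p₂ + x V₂(p))) ∈ ℝ³ with p ∈ D, −M ≤ x ≤ M is covered by finitely many cylinders Bᵢ + ℝ uᵢ, ‖uᵢ‖ = 1, with bases Bᵢ bounded relatively open subsets of the planes uᵢ^⊥ and ∑ᵢ area(Bᵢ) ≤ h ∫_D (1 + V₁² + h² V₂²)^(−1/2) + ε (areas: normalised 2-dimensional Hausdorff measure). -/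
theorem result
    (h M : ℝ) (hh : 0 < h) (hM : 0 < M) (D : Set (EuclideanSpace ℝ (Fin 2))) (hD : IsCompact D)
    (hbd : volume (frontier D) = 0)
    (V : EuclideanSpace ℝ (Fin 2) → EuclideanSpace ℝ (Fin 2)) (U : Set (EuclideanSpace ℝ (Fin 2)))
    (hU : IsOpen U) (hDU : D ⊆ U) (hV : ContDiffOn ℝ 1 V U)
    (htr : ∀ p ∈ D, LinearMap.trace ℝ _ (fderiv ℝ V p).toLinearMap = 0)
    (hdet : ∀ p ∈ D, -(M ^ 2)⁻¹ < LinearMap.det (fderiv ℝ V p).toLinearMap ∧
      LinearMap.det (fderiv ℝ V p).toLinearMap < 0)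
    (ε : ℝ) (hε : 0 < ε) :
    ∃ (k : ℕ) (u : Fin k → EuclideanSpace ℝ (Fin 3)) (B : Fin k → Set (EuclideanSpace ℝ (Fin 3))),
      (∀ i, ‖u i‖ = 1) ∧
      (∀ i, Bornology.IsBounded (B i) ∧ ∃ O : Set (EuclideanSpace ℝ (Fin 3)), IsOpen O ∧
        B i = O ∩ {x | inner ℝ x (u i) = 0}) ∧
      {z : EuclideanSpace ℝ (Fin 3) | ∃ p ∈ D, ∃ x : ℝ, abs x ≤ M ∧
          z = !₂[x, p 0 + x * V p 0, h * (p 1 + x * V p 1)]} ⊆
        ⋃ i, {z : EuclideanSpace ℝ (Fin 3) | ∃ y ∈ B i, ∃ τ : ℝ, z = y + τ • u i} ∧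
      ∑ i, (μHE[2] (B i)).toReal ≤
        h * (∫ p in D, 1 / Real.sqrt (1 + (V p 0) ^ 2 + h ^ 2 * (V p 1) ^ 2)) + ε := by
  obtain ⟨k, c, a, b, g, hab, hcov, hsum⟩ := Crest.Agent.S0326.result D hD V U hU hDU hV M h hM hh htr
    (fun p hp => ⟨(hdet p hp).1, (hdet p hp).2.le⟩) (ε / (2 * h)) (by positivity)
  set u : Fin k → E3 := fun i => ‖dir h (g i)‖⁻¹ • dir h (g i) with hu_def
  have hu : ∀ i, ‖u i‖ = 1 := fun i => norm_unit _ (dir_ne_zero h (g i))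
  set P : Fin k → Set E3 := fun i =>
    pgram (prj (u i) (lift h (c i))) (prj (u i) (lift h (a i))) (prj (u i) (lift h (b i))) with hP_def
  have hPperp : ∀ i, ∀ y ∈ P i, inner ℝ y (u i) = 0 := fun i =>
    pgram_perp _ _ _ _ (inner_prj _ _ (hu i)) (inner_prj _ _ (hu i)) (inner_prj _ _ (hu i))
  have hε' : 0 < ε / (2 * (k + 1)) := by positivity
  have hO := fun i => exists_open_base (u i) (hu i) (P i) (hPperp i) (isBounded_pgram _ _ _)
    (ε / (2 * (k + 1))) hε'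
  choose O hO1 hO2 hO3 hO4 using hO
  refine ⟨k, u, fun i => O i ∩ {x | inner ℝ x (u i) = 0}, hu,
    fun i => ⟨hO2 i, O i, hO1 i, rfl⟩, ?_, ?_⟩
  · rintro z ⟨p, hp, x, hx, rfl⟩
    have hmem : ((x, p + x • V p) : ℝ × EuclideanSpace ℝ (Fin 2)) ∈
        {z : ℝ × EuclideanSpace ℝ (Fin 2) | ∃ p ∈ D, abs z.1 ≤ M ∧ z.2 = p + z.1 • V p} :=
      ⟨p, hp, hx, rfl⟩
    obtain ⟨i, hi⟩ := Set.mem_iUnion.1 (hcov hmem)
    obtain ⟨s, hs, t, ht, hst⟩ := hi
    simp only at hst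
    refine Set.mem_iUnion.2 ⟨i, ?_⟩
    have hz : (!₂[x, p 0 + x * V p 0, h * (p 1 + x * V p 1)] : E3) =
        lift h (c i) + s • lift h (a i) + t • lift h (b i) + x • dir h (g i) := by
      have e0 := congrFun (congrArg (fun v : E2 => (v : Fin 2 → ℝ)) hst) 0
      have e1 := congrFun (congrArg (fun v : E2 => (v : Fin 2 → ℝ)) hst) 1
      simp at e0 e1
      ext j
      fin_cases j
      · simp [lift, dir]
      · simp [lift, dir]; linarith
      · simp [lift, dir]; rw [e1]; ring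
    have h1 := (cylPgram (lift h (c i)) (lift h (a i)) (lift h (b i)) (dir h (g i))
      (dir_ne_zero h (g i))).1 s t x
    rw [hz, h1]
    have hy : prj (u i) (lift h (c i)) + s • prj (u i) (lift h (a i)) +
        t • prj (u i) (lift h (b i)) ∈ P i := ⟨s, hs, t, ht, rfl⟩
    exact ⟨_, ⟨hO3 i hy, hPperp i _ hy⟩, _, rfl⟩
  · have harea : ∀ i, (μHE[2] (P i)).toReal =
        h * (‖a i‖ ^ 2 / Real.sqrt (1 + (g i 0) ^ 2 + h ^ 2 * (g i 1) ^ 2)) := by
      intro i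
      have h2 := (cylPgram (lift h (c i)) (lift h (a i)) (lift h (b i)) (dir h (g i))
        (dir_ne_zero h (g i))).2
      rw [abs_det3_lift h hh _ _ _ (hab i).2.1 (hab i).2.2] at h2
      show (μHE[2] (pgram _ _ _)).toReal = _
      rw [h2, ENNReal.toReal_ofReal (by positivity), norm_dir]
      ring
    calc ∑ i, (μHE[2] (O i ∩ {x | inner ℝ x (u i) = 0})).toReal
        ≤ ∑ i, ((μHE[2] (P i)).toReal + ε / (2 * (k + 1))) := Finset.sum_le_sum fun i _ => hO4 i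
      _ = h * ∑ i, ‖a i‖ ^ 2 / Real.sqrt (1 + (g i 0) ^ 2 + h ^ 2 * (g i 1) ^ 2)
            + k * (ε / (2 * (k + 1))) := by
          rw [Finset.sum_add_distrib, Finset.mul_sum]
          simp [harea]
      _ ≤ h * ((∫ p in D, 1 / Real.sqrt (1 + (V p 0) ^ 2 + h ^ 2 * (V p 1) ^ 2)) + ε / (2 * h))
            + ε / 2 := by
          have hk : (k : ℝ) * (ε / (2 * (k + 1))) ≤ ε / 2 := by
            have : (k : ℝ) * (ε / (2 * (k + 1))) = (ε / 2) * (k / (k + 1)) := by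
              field_simp
            rw [this]
            have h3 : (k : ℝ) / (k + 1) ≤ 1 := by
              rw [div_le_one (by positivity)]; linarith
            nlinarith
          have := mul_le_mul_of_nonneg_left hsum hh.le
          linarith
      _ = _ := by field_simp; ring

end Crest.Agent.S0329
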