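import Crest.Agent.S0423_K

set_option autoImplicit false

namespace Crest.Agent.S0423

open MeasureTheory Set Real

/-- the near-extremal coefficient vectors `(-δ, …, -δ, 2)` -/
noncomputable def bvec (δ : ℝ) : (k : ℕ) → Fin (k + 1) → ℝ
  | 0 => fun _ => 2
  | k + 1 => Fin.cons (-δ) (bvec δ k)

lemma bvec_sum (δ : ℝ) : ∀ k : ℕ, ∑ i, bvec δ k i = 2 - k * δ
  | 0 => by simp [bvec]
  | k + 1 => by
    rw [Fin.sum_univ_succ]
    simp only [bvec, Fin.cons_zero, Fin.cons_succ]
    rw [bvec_sum δ k]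
    push_cast
    ring

lemma S2G_le (y : ℝ) : S 2 G y ≤ (4/9) * exp (1/2 * y) := by
  have h1 : S 2 G y = Cw (S 2 E0) y := by
    rw [Cw_S E0_mono.measurable E0_abs_le]
    congr 1
    ext z
    rw [Cw_E0]
  rw [h1]
  unfold Cw
  have hg := good_S good_E0 2
  have i1 : Integrable (fun t => w0 t * S 2 E0 (y - t)) :=
    Cw_integrable hg.mono.measurable (C := 1)
      (fun z => by rw [abs_of_nonneg (hg.nonneg z)]; exact hg.le_one z) y
  have e2 : (fun t => w0 t * exp ((y - t) / 2))
      = (Ioi (0:ℝ)).indicator (fun t => exp (1/2 * y) * (t * exp (-(3/2 * t)))) := by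
    ext t
    by_cases ht : 0 < t
    · rw [indicator_of_mem (show t ∈ Ioi (0:ℝ) from ht)]
      unfold w0
      rw [if_pos ht]
      have : t * exp (-t) * exp ((y - t) / 2) = t * (exp (-t) * exp ((y - t) / 2)) := by ring
      rw [this, ← exp_add]
      have : exp (1/2 * y) * (t * exp (-(3/2 * t))) = t * (exp (1/2 * y) * exp (-(3/2 * t))) := by
        ring
      rw [this, ← exp_add]
      congr 2
      ring
    · rw [indicator_of_notMem (show t ∉ Ioi (0:ℝ) from ht)]
      unfold w0
      rw [if_neg ht, zero_mul]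
  have i2 : Integrable (fun t => w0 t * exp ((y - t) / 2)) := by
    rw [e2, integrable_indicator_iff measurableSet_Ioi]
    exact (integrableOn_t_exp (by norm_num)).const_mul _
  have h2 : ∫ t, w0 t * exp ((y - t) / 2) = (4/9) * exp (1/2 * y) := by
    rw [e2, integral_indicator measurableSet_Ioi, integral_const_mul,
      integral_t_exp (by norm_num)]
    norm_num
    ring
  rw [← h2]
  refine integral_mono i1 i2 fun t => ?_
  simp only
  rw [S_E0 (by norm_num)]
  exact mul_le_mul_of_nonneg_left (min_le_right _ _) (w0_nonneg t)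

lemma It_G_mono (N : ℕ) (a : Fin N → ℝ) : Monotone (It N a G) := by
  rw [It_G]
  have hg := good_It N a
  exact Cw_mono hg.mono hg.nonneg hg.le_one

lemma It_G_nonneg (N : ℕ) (a : Fin N → ℝ) (y : ℝ) : 0 ≤ It N a G y := by
  rw [It_G]
  exact Cw_nonneg (good_It N a).nonneg y

lemma It_G_le_one (N : ℕ) (a : Fin N → ℝ) (y : ℝ) : It N a G y ≤ 1 := by
  rw [It_G]
  have hg := good_It N a
  exact Cw_le_one hg.mono hg.nonneg hg.le_one y

lemma It_bvec_le {δ : ℝ} (hδ : 0 ≤ δ) :
    ∀ (k : ℕ) (y : ℝ), It (k + 1) (bvec δ k) G y ≤ (4/9) / (1 + δ / 2) ^ k * exp (1/2 * y) := by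
  intro k
  induction k with
  | zero =>
    intro y
    simp only [It, bvec]
    simpa using S2G_le y
  | succ k ih =>
    intro y
    have e : It (k + 1 + 1) (bvec δ (k + 1)) G y = S (-δ) (It (k + 1) (bvec δ k) G) y := by
      rw [It]
      simp only [bvec, Fin.cons_zero, Fin.cons_succ]
    rw [e]
    have hκ : (1/2 : ℝ) * (-δ) < 1 := by linarith
    have i1 := S_int_of_bdd (It_G_mono (k + 1) (bvec δ k)) (It_G_nonneg _ _) (It_G_le_one _ _)
      (-δ) y
    have i2 : IntegrableOn (fun t => (fun z => (4/9) / (1 + δ / 2) ^ k * exp (1/2 * z))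
        (y + (-δ) * t) * exp (-t)) (Ioi 0) := by
      have : IntegrableOn (fun t => (4/9) / (1 + δ / 2) ^ k
          * (exp (1/2 * (y + (-δ) * t)) * exp (-t))) (Ioi 0) :=
        (integrableOn_exp_lin hκ y).const_mul _
      refine this.congr_fun (fun t _ => ?_) measurableSet_Ioi
      simp only
      ring
    refine (S_le_S i1 i2 ih).trans (le_of_eq ?_)
    rw [S_const_mul, S_exp hκ]
    have : (1 + δ / 2) ≠ 0 := by positivity
    have e2 : 1 - 1 / 2 * -δ = 1 + δ / 2 := by ring
    rw [e2, pow_succ]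
    field_simp

end Crest.Agent.S0423
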