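import Crest.Statements.S0423
import Crest.Agent.S0423_L

set_option autoImplicit false
open Crest Crest.AlgGeometry

namespace Crest.Agent.S0423

lemma trunc_eq (y : ℝ) : Crest.AlgGeometry.truncExpWeight y = 1 - G y := by
  unfold Crest.AlgGeometry.truncExpWeight G
  split_ifs <;> ring

lemma integral_eq_J (N : ℕ) (a : Fin N → ℝ) :
    (∫ x in Set.pi Set.univ (fun _ : Fin N => Set.Ioi (0 : ℝ)),
      Crest.AlgGeometry.truncExpWeight (4 / 3 + ∑ i, a i * x i) * Real.exp (-∑ i, x i))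
      = J N a (fun s => 1 - G (4 / 3 + s)) := by
  unfold J
  simp_rw [trunc_eq]

lemma exists_good_k (ε : ℝ) (hε : 0 < ε) :
    ∃ k : ℕ, 1 ≤ k ∧ Real.exp 2 / (1 + 1 / (k : ℝ)) ^ k < Real.exp 1 + 3 * ε := by
  have h1 := Real.tendsto_one_add_div_pow_exp 1
  have h2 : Filter.Tendsto (fun n : ℕ => Real.exp 2 / (1 + 1 / (n : ℝ)) ^ n) Filter.atTop
      (nhds (Real.exp 2 / Real.exp 1)) :=
    Filter.Tendsto.div tendsto_const_nhds h1 (Real.exp_ne_zero 1)
  have e : Real.exp 2 / Real.exp 1 = Real.exp 1 := by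
    rw [← Real.exp_sub]; norm_num
  rw [e] at h2
  have h3 := h2.eventually_lt_const (show Real.exp 1 < Real.exp 1 + 3 * ε by linarith)
  obtain ⟨k, hk1, hk2⟩ := (h3.and (Filter.eventually_ge_atTop 1)).exists
  exact ⟨k, hk2, hk1⟩

/-- For independent mean-one exponential random variables `X_1, …, X_N` (written as an integral over the positive orthant against the density `exp (-(x_1 + ⋯ + x_N))`), real coefficients `a_1, …, a_N` summing to zero, and the weight `g = truncExpWeight`, the quantity `(e^{4/3} / (4/3)) · E[g(4/3 + a_1 X_1 + ⋯ + a_N X_N)]` has supremum over all `N ≥ 1` and all such `a` exactly `(3/4) e^{4/3} − e/3`: it never exceeds this value, and comes within any `ε > 0` of it for some `N` and `a`. -/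
theorem result :
    (∀ (N : ℕ) (a : Fin N → ℝ), 1 ≤ N → ∑ i, a i = 0 →
      Real.exp (4 / 3) / (4 / 3) *
          ∫ x in Set.pi Set.univ (fun _ : Fin N => Set.Ioi (0 : ℝ)),
            Crest.AlgGeometry.truncExpWeight (4 / 3 + ∑ i, a i * x i) * Real.exp (-∑ i, x i)
        ≤ 3 / 4 * Real.exp (4 / 3) - Real.exp 1 / 3) ∧
    (∀ ε : ℝ, 0 < ε → ∃ (N : ℕ) (a : Fin N → ℝ), 1 ≤ N ∧ ∑ i, a i = 0 ∧
      3 / 4 * Real.exp (4 / 3) - Real.exp 1 / 3 - ε <
        Real.exp (4 / 3) / (4 / 3) *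
          ∫ x in Set.pi Set.univ (fun _ : Fin N => Set.Ioi (0 : ℝ)),
            Crest.AlgGeometry.truncExpWeight (4 / 3 + ∑ i, a i * x i) * Real.exp (-∑ i, x i)) := by
  constructor
  · intro N a _ ha
    rw [integral_eq_J]
    have h := upper_bound N a ha
    have hpos : 0 ≤ Real.exp (4 / 3) / (4 / 3) := by positivity
    have h2 := mul_le_mul_of_nonneg_left h hpos
    refine h2.trans (le_of_eq ?_)
    have e : Real.exp (4 / 3) * Real.exp (-(1 / 3)) = Real.exp 1 := by
      rw [← Real.exp_add]; norm_num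
    have : Real.exp (4 / 3) / (4 / 3) * (1 - 4 / 9 * Real.exp (-(1 / 3)))
        = 3 / 4 * Real.exp (4 / 3) - (Real.exp (4 / 3) * Real.exp (-(1 / 3))) / 3 := by ring
    rw [this, e]
  · intro ε hε
    obtain ⟨k, hk1, hk2⟩ := exists_good_k ε hε
    have hk0 : (0:ℝ) < k := by exact_mod_cast hk1
    refine ⟨k + 1, bvec (2 / k) k, by omega, ?_, ?_⟩
    · rw [bvec_sum]
      field_simp
      ring
    · rw [integral_eq_J, J_one_sub_G, ← It_G]
      have h := It_bvec_le (δ := 2 / k) (by positivity) k (4 / 3)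
      have e1 : (1:ℝ) + 2 / k / 2 = 1 + 1 / k := by ring
      rw [e1] at h
      have hpos : 0 < Real.exp (4 / 3) / (4 / 3) := by positivity
      have e2 : Real.exp (4 / 3) * Real.exp (1 / 2 * (4 / 3)) = Real.exp 2 := by
        rw [← Real.exp_add]; norm_num
      have h3 : Real.exp (4 / 3) / (4 / 3) * (1 - 4 / 9 / (1 + 1 / (k:ℝ)) ^ k
          * Real.exp (1 / 2 * (4 / 3)))
          = 3 / 4 * Real.exp (4 / 3)
            - (Real.exp (4 / 3) * Real.exp (1 / 2 * (4 / 3))) / (1 + 1 / (k:ℝ)) ^ k / 3 := by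
        ring
      rw [e2] at h3
      have h4 : Real.exp (4 / 3) / (4 / 3) * (1 - 4 / 9 / (1 + 1 / (k:ℝ)) ^ k
          * Real.exp (1 / 2 * (4 / 3)))
          ≤ Real.exp (4 / 3) / (4 / 3) * (1 - It (k + 1) (bvec (2 / k) k) G (4 / 3)) :=
        mul_le_mul_of_nonneg_left (by linarith) hpos.le
      rw [h3] at h4
      linarith

end Crest.Agent.S0423
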