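import Crest.Agent.S0423_B

set_option autoImplicit false

namespace Crest.Agent.S0423

open MeasureTheory Set Real

/-- the `N`-dimensional integral of the statement -/
noncomputable def J (N : ℕ) (a : Fin N → ℝ) (φ : ℝ → ℝ) : ℝ :=
  ∫ x in Set.pi univ (fun _ : Fin N => Ioi (0:ℝ)), φ (∑ i, a i * x i) * exp (-∑ i, x i)

/-- iterated one-dimensional averaging -/
noncomputable def It : (N : ℕ) → (Fin N → ℝ) → (ℝ → ℝ) → ℝ → ℝ
  | 0, _, φ => φ
  | N + 1, a, φ => S (a 0) (It N (fun i => a i.succ) φ)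

lemma J_zero (a : Fin 0 → ℝ) (φ : ℝ → ℝ) : J 0 a φ = φ 0 := by
  unfold J
  have : Set.pi univ (fun _ : Fin 0 => Ioi (0:ℝ)) = univ := by
    ext x; simp
  rw [this, Measure.restrict_univ, Measure.volume_pi_eq_dirac, integral_dirac]
  simp

lemma restrict_orthant (N : ℕ) :
    (volume : Measure (Fin N → ℝ)).restrict (Set.pi univ (fun _ : Fin N => Ioi (0:ℝ)))
      = Measure.pi (fun _ : Fin N => (volume : Measure ℝ).restrict (Ioi 0)) := by
  rw [volume_pi]
  exact Measure.restrict_pi_pi _ _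

lemma integrable_orthant (N : ℕ) :
    Integrable (fun x : Fin N → ℝ => exp (-∑ i, x i))
      (Measure.pi (fun _ : Fin N => (volume : Measure ℝ).restrict (Ioi 0))) := by
  have h := Integrable.fintype_prod (ι := Fin N) (f := fun _ (t : ℝ) => exp (-t))
    (μ := fun _ : Fin N => (volume : Measure ℝ).restrict (Ioi 0))
    (fun _ => integrableOn_exp_neg_Ioi 0)
  refine h.congr (Filter.Eventually.of_forall fun x => ?_)
  simp only
  rw [← exp_sum, Finset.sum_neg_distrib]

lemma integrable_J {N : ℕ} (a : Fin N → ℝ) {φ : ℝ → ℝ} (hm : Measurable φ) {C : ℝ}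
    (hC : ∀ y, |φ y| ≤ C) :
    Integrable (fun x : Fin N → ℝ => φ (∑ i, a i * x i) * exp (-∑ i, x i))
      (Measure.pi (fun _ : Fin N => (volume : Measure ℝ).restrict (Ioi 0))) := by
  refine (integrable_orthant N).bdd_mul (c := C) ?_ ?_
  · exact (hm.comp (by fun_prop)).aestronglyMeasurable
  · exact Filter.Eventually.of_forall fun t => by simpa using hC _

lemma J_succ {N : ℕ} (a : Fin (N + 1) → ℝ) {φ : ℝ → ℝ} (hm : Measurable φ) {C : ℝ}
    (hC : ∀ y, |φ y| ≤ C) :
    J (N + 1) a φ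
      = ∫ t in Ioi (0:ℝ), J N (fun i => a i.succ) (fun s => φ (a 0 * t + s)) * exp (-t) := by
  unfold J
  rw [restrict_orthant, restrict_orthant]
  have mp := measurePreserving_piFinSuccAbove
    (fun _ : Fin (N + 1) => (volume : Measure ℝ).restrict (Ioi 0)) 0
  have e1 : ∀ x : Fin (N + 1) → ℝ, φ (∑ i, a i * x i) * exp (-∑ i, x i)
      = (fun z : ℝ × (Fin N → ℝ) => φ (a 0 * z.1 + ∑ i, a i.succ * z.2 i)
          * exp (-∑ i, z.2 i) * exp (-z.1))
        (MeasurableEquiv.piFinSuccAbove (fun _ : Fin (N + 1) => ℝ) 0 x) := by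
    intro x
    simp only [MeasurableEquiv.piFinSuccAbove_apply, Fin.insertNthEquiv_zero,
      Fin.consEquiv_symm_apply, Fin.sum_univ_succ, Fin.tail]
    rw [mul_assoc, ← exp_add]
    congr 2
    ring
  rw [integral_congr_ae (Filter.Eventually.of_forall e1)]
  rw [mp.integral_comp' (fun z : ℝ × (Fin N → ℝ) => φ (a 0 * z.1 + ∑ i, a i.succ * z.2 i)
          * exp (-∑ i, z.2 i) * exp (-z.1))]
  have hint : Integrable (fun z : ℝ × (Fin N → ℝ) => φ (a 0 * z.1 + ∑ i, a i.succ * z.2 i)
          * exp (-∑ i, z.2 i) * exp (-z.1))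
      (((volume : Measure ℝ).restrict (Ioi 0)).prod
        (Measure.pi fun _ : Fin N => (volume : Measure ℝ).restrict (Ioi 0))) := by
    have h1 := integrable_J a hm hC
    have h2 := (mp.integrable_comp_emb
      (MeasurableEquiv.measurableEmbedding _)
      (g := fun z : ℝ × (Fin N → ℝ) => φ (a 0 * z.1 + ∑ i, a i.succ * z.2 i)
          * exp (-∑ i, z.2 i) * exp (-z.1))).mp
    apply h2
    refine h1.congr (Filter.Eventually.of_forall fun x => ?_)
    exact e1 x
  rw [integral_prod _ hint]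
  congr 1
  ext t
  rw [← integral_mul_const]

end Crest.Agent.S0423
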