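import Mathlib

set_option autoImplicit false
open MeasureTheory Set Real

namespace Crest.Agent.S0423

/-! ### Basic exponential integrals -/

lemma integrableOn_pow_mul_exp (n : ℕ) {κ : ℝ} (hκ : 0 < κ) :
    IntegrableOn (fun s : ℝ => s ^ n * rexp (-(κ * s))) (Ioi 0) := by
  have h := integrableOn_rpow_mul_exp_neg_mul_rpow (p := 1) (s := n) (b := κ)
    (by have : (0:ℝ) ≤ n := Nat.cast_nonneg n; linarith) one_pos hκ
  refine (integrableOn_congr_fun (fun s hs => ?_) measurableSet_Ioi).1 h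
  simp [rpow_natCast]

lemma integral_pow_mul_exp (n : ℕ) {κ : ℝ} (hκ : 0 < κ) :
    ∫ s in Ioi (0:ℝ), s ^ n * rexp (-(κ * s)) = n.factorial / κ ^ (n + 1) := by
  have h := Real.integral_rpow_mul_exp_neg_mul_Ioi (a := (n:ℝ) + 1) (r := κ)
    (by have : (0:ℝ) ≤ n := Nat.cast_nonneg n; linarith) hκ
  have e : ∫ s in Ioi (0:ℝ), s ^ n * rexp (-(κ * s))
      = ∫ t in Ioi (0:ℝ), t ^ ((n:ℝ) + 1 - 1) * rexp (-(κ * t)) := by
    refine setIntegral_congr_fun measurableSet_Ioi (fun s hs => ?_)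
    simp [rpow_natCast]
  rw [e, h, Real.Gamma_nat_eq_factorial]
  have : (1 / κ) ^ ((n:ℝ) + 1) = 1 / κ ^ (n + 1) := by
    rw [show ((n:ℝ) + 1) = ((n + 1 : ℕ) : ℝ) by push_cast; ring, rpow_natCast]
    simp
  rw [this]; ring

lemma integral_exp_kappa {κ : ℝ} (hκ : 0 < κ) :
    ∫ s in Ioi (0:ℝ), rexp (-(κ * s)) = 1 / κ := by
  have := integral_pow_mul_exp 0 hκ
  simpa using this

lemma integral_id_mul_exp_kappa {κ : ℝ} (hκ : 0 < κ) :
    ∫ s in Ioi (0:ℝ), s * rexp (-(κ * s)) = 1 / κ ^ 2 := by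
  have := integral_pow_mul_exp 1 hκ
  simpa using this

lemma integrableOn_exp_neg : IntegrableOn (fun s : ℝ => rexp (-s)) (Ioi 0) := by
  have := integrableOn_pow_mul_exp 0 one_pos
  simpa using this

lemma integrableOn_id_mul_exp_neg : IntegrableOn (fun s : ℝ => s * rexp (-s)) (Ioi 0) := by
  have := integrableOn_pow_mul_exp 1 one_pos
  simpa using this

lemma integrableOn_sq_mul_exp_neg : IntegrableOn (fun s : ℝ => s ^ 2 * rexp (-s)) (Ioi 0) := by
  have := integrableOn_pow_mul_exp 2 one_pos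
  simpa using this

lemma integral_id_mul_exp_neg : ∫ s in Ioi (0:ℝ), s * rexp (-s) = 1 := by
  have := integral_pow_mul_exp 1 one_pos
  simpa using this

lemma integral_sq_mul_exp_neg : ∫ s in Ioi (0:ℝ), s ^ 2 * rexp (-s) = 2 := by
  have := integral_pow_mul_exp 2 one_pos
  simpa using this


/-! ### The exponential averaging operator -/

/-- `T a f v = E f (v + a X)` for a mean-one exponential variable `X`. -/
noncomputable def T (a : ℝ) (f : ℝ → ℝ) (v : ℝ) : ℝ :=
  ∫ s in Ioi (0:ℝ), f (v + a * s) * rexp (-s)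

/-- integrability of the integrand defining `T a f v`. -/
def TI (a : ℝ) (f : ℝ → ℝ) (v : ℝ) : Prop :=
  IntegrableOn (fun s : ℝ => f (v + a * s) * rexp (-s)) (Ioi 0)

/-- 1-Lipschitz functions. -/
def Lip (f : ℝ → ℝ) : Prop := ∀ x y, |f x - f y| ≤ |x - y|

lemma Lip.continuous {f : ℝ → ℝ} (h : Lip f) : Continuous f :=
  (LipschitzWith.of_dist_le_mul (K := 1)
    (by intro x y; simpa [Real.dist_eq] using h x y)).continuous

lemma Lip.abs_le {f : ℝ → ℝ} (h : Lip f) (v w : ℝ) : |f (v + w)| ≤ |f v| + |w| := by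
  have h1 := h (v + w) v
  have h2 : |f (v + w)| ≤ |f (v + w) - f v| + |f v| := by
    have := abs_add_le (f (v + w) - f v) (f v)
    simpa using this
  have h3 : |v + w - v| = |w| := by congr 1; ring
  rw [h3] at h1
  linarith

lemma Lip.TI {f : ℝ → ℝ} (h : Lip f) (a v : ℝ) : TI a f v := by
  have hdom : IntegrableOn (fun s : ℝ => |f v| * rexp (-s) + |a| * (s * rexp (-s))) (Ioi 0) :=
    (integrableOn_exp_neg.const_mul _).add (integrableOn_id_mul_exp_neg.const_mul _)
  refine Integrable.mono' hdom ?_ ?_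
  · have : Continuous (fun s : ℝ => f (v + a * s) * rexp (-s)) := by
      have := h.continuous
      fun_prop
    exact this.aestronglyMeasurable
  · refine ae_restrict_of_forall_mem measurableSet_Ioi (fun s hs => ?_)
    have hs' : (0:ℝ) < s := hs
    have h1 := h.abs_le v (a * s)
    rw [abs_mul, abs_of_pos hs'] at h1
    rw [Real.norm_eq_abs, abs_mul, abs_of_pos (exp_pos _)]
    have := mul_le_mul_of_nonneg_right h1 (exp_pos (-s)).le
    nlinarith [this]

lemma T_const (a k v : ℝ) : T a (fun _ => k) v = k := by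
  unfold T
  rw [integral_const_mul, integral_exp_neg_Ioi_zero, mul_one]

lemma TI_const (a k v : ℝ) : TI a (fun _ => k) v := integrableOn_exp_neg.const_mul k

lemma T_zero_left (f : ℝ → ℝ) (v : ℝ) : T 0 f v = f v := by
  unfold T
  simp only [zero_mul, add_zero]
  rw [integral_const_mul, integral_exp_neg_Ioi_zero, mul_one]

lemma T_sub {a : ℝ} {f g : ℝ → ℝ} {v : ℝ} (hf : TI a f v) (hg : TI a g v) :
    T a (fun w => f w - g w) v = T a f v - T a g v := by
  unfold T
  rw [← integral_sub hf hg]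
  congr 1; ext s; ring

lemma TI_sub {a : ℝ} {f g : ℝ → ℝ} {v : ℝ} (hf : TI a f v) (hg : TI a g v) :
    TI a (fun w => f w - g w) v := by
  have := Integrable.sub hf hg
  refine this.congr (ae_of_all _ fun s => ?_)
  simp only [Pi.sub_apply]; ring

lemma T_const_mul (a k : ℝ) (f : ℝ → ℝ) (v : ℝ) :
    T a (fun w => k * f w) v = k * T a f v := by
  unfold T
  rw [← integral_const_mul]
  congr 1; ext s; ring

lemma TI_const_mul {a : ℝ} (k : ℝ) {f : ℝ → ℝ} {v : ℝ} (hf : TI a f v) :
    TI a (fun w => k * f w) v := by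
  have := Integrable.const_mul hf k
  refine this.congr (ae_of_all _ fun s => ?_)
  ring

lemma T_mono {a : ℝ} {f g : ℝ → ℝ} {v : ℝ} (hf : TI a f v) (hg : TI a g v)
    (h : ∀ w, f w ≤ g w) : T a f v ≤ T a g v := by
  unfold T
  refine integral_mono hf hg (fun s => ?_)
  exact mul_le_mul_of_nonneg_right (h _) (exp_pos _).le

lemma T_nonneg {a : ℝ} {f : ℝ → ℝ} (h : ∀ w, 0 ≤ f w) (v : ℝ) : 0 ≤ T a f v := by
  unfold T
  exact integral_nonneg (fun s => mul_nonneg (h _) (exp_pos _).le)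

/-- `T` of an affine function. -/
lemma T_affine (a m v : ℝ) : T a (fun w => w + m) v = v + m + a := by
  unfold T
  have e : ∀ s : ℝ, (v + a * s + m) * rexp (-s) = (v + m) * rexp (-s) + a * (s * rexp (-s)) := by
    intro s; ring
  simp_rw [e]
  rw [integral_add (integrableOn_exp_neg.const_mul _) (integrableOn_id_mul_exp_neg.const_mul _),
    integral_const_mul, integral_const_mul, integral_exp_neg_Ioi_zero, integral_id_mul_exp_neg]
  ring

lemma TI_affine (a m v : ℝ) : TI a (fun w => w + m) v := by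
  have : IntegrableOn (fun s : ℝ => (v + m) * rexp (-s) + a * (s * rexp (-s))) (Ioi 0) :=
    (integrableOn_exp_neg.const_mul _).add (integrableOn_id_mul_exp_neg.const_mul _)
  refine this.congr (ae_of_all _ fun s => ?_)
  ring

/-- `T` of an exponential. -/
lemma T_exp {a μ : ℝ} (hκ : 0 < 1 - a * μ) (v : ℝ) :
    T a (fun w => rexp (μ * w)) v = rexp (μ * v) / (1 - a * μ) := by
  unfold T
  have e : ∀ s : ℝ, rexp (μ * (v + a * s)) * rexp (-s) = rexp (μ * v) * rexp (-((1 - a * μ) * s)) := by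
    intro s; rw [← exp_add, ← exp_add]; congr 1; ring
  simp_rw [e]
  rw [integral_const_mul, integral_exp_kappa hκ]
  ring

lemma TI_exp {a μ : ℝ} (hκ : 0 < 1 - a * μ) (v : ℝ) :
    TI a (fun w => rexp (μ * w)) v := by
  have h0 := integrableOn_pow_mul_exp 0 hκ
  have : IntegrableOn (fun s : ℝ => rexp (μ * v) * (s ^ 0 * rexp (-((1 - a * μ) * s)))) (Ioi 0) :=
    h0.const_mul _
  refine this.congr (ae_of_all _ fun s => ?_)
  simp only [pow_zero, one_mul]
  rw [← exp_add, ← exp_add]; congr 1; ring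

/-- Shift of the domain of integration. -/
lemma integral_Ioi_shift (F : ℝ → ℝ) (τ : ℝ) :
    ∫ s in Ioi τ, F s = ∫ s in Ioi (0:ℝ), F (s + τ) := by
  rw [← integral_indicator measurableSet_Ioi, ← integral_indicator measurableSet_Ioi,
    ← integral_add_right_eq_self _ τ]
  congr 1; ext s
  by_cases hs : 0 < s
  · rw [indicator_of_mem (show s + τ ∈ Ioi τ by simp [hs]), indicator_of_mem (show s ∈ Ioi (0:ℝ) from hs)]
  · rw [indicator_of_notMem (show s + τ ∉ Ioi τ by simp [hs]),
      indicator_of_notMem (show s ∉ Ioi (0:ℝ) from hs)]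

/-- The Markov (memoryless) identity for `T`. -/
lemma T_split {a : ℝ} {f : ℝ → ℝ} {v : ℝ} (hf : TI a f v) {τ : ℝ} (hτ : 0 ≤ τ) :
    T a f v = (∫ s in Ioc 0 τ, f (v + a * s) * rexp (-s)) + rexp (-τ) * T a f (v + a * τ) := by
  have hU : Ioi (0:ℝ) = Ioc 0 τ ∪ Ioi τ := (Ioc_union_Ioi_eq_Ioi hτ).symm
  have hd : Disjoint (Ioc 0 τ) (Ioi τ) := by
    rw [Set.disjoint_left]; intro s hs hs'; exact absurd hs.2 (not_le.2 hs')
  have h1 : IntegrableOn (fun s : ℝ => f (v + a * s) * rexp (-s)) (Ioc 0 τ) :=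
    hf.mono_set (by rw [hU]; exact subset_union_left)
  have h2 : IntegrableOn (fun s : ℝ => f (v + a * s) * rexp (-s)) (Ioi τ) :=
    hf.mono_set (by rw [hU]; exact subset_union_right)
  have h3 : T a f v = (∫ s in Ioc 0 τ, f (v + a * s) * rexp (-s))
      + ∫ s in Ioi τ, f (v + a * s) * rexp (-s) := by
    unfold T
    rw [hU, setIntegral_union hd measurableSet_Ioi h1 h2]
  rw [h3, integral_Ioi_shift]
  congr 1
  unfold T
  rw [← integral_const_mul]
  congr 1; ext s
  have : rexp (-(s + τ)) = rexp (-τ) * rexp (-s) := by rw [← exp_add]; congr 1; ring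
  rw [this, show v + a * (s + τ) = v + a * τ + a * s by ring]
  ring

lemma Lip.T {f : ℝ → ℝ} (h : Lip f) (a : ℝ) : Lip (T a f) := by
  intro x y
  have e : Crest.Agent.S0423.T a f x - Crest.Agent.S0423.T a f y
      = ∫ s in Ioi (0:ℝ), (f (x + a * s) - f (y + a * s)) * rexp (-s) := by
    unfold Crest.Agent.S0423.T
    rw [← integral_sub (h.TI a x) (h.TI a y)]
    congr 1; ext s; ring
  rw [e]
  have hb : ∀ s : ℝ, ‖(f (x + a * s) - f (y + a * s)) * rexp (-s)‖ ≤ |x - y| * rexp (-s) := by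
    intro s
    rw [Real.norm_eq_abs, abs_mul, abs_of_pos (exp_pos _)]
    refine mul_le_mul_of_nonneg_right ?_ (exp_pos _).le
    have := h (x + a * s) (y + a * s)
    rwa [show x + a * s - (y + a * s) = x - y by ring] at this
  have := norm_integral_le_of_norm_le (μ := volume.restrict (Ioi (0:ℝ)))
    (integrableOn_exp_neg.const_mul |x - y|) (ae_of_all _ hb)
  rw [integral_const_mul, integral_exp_neg_Ioi_zero, mul_one, Real.norm_eq_abs] at this
  exact this

end Crest.Agent.S0423
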