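import Crest.Agent.S0423_Aux1

set_option autoImplicit false
open MeasureTheory Set Real

namespace Crest.Agent.S0423

/-! ### Quasi-concavity of exponential tilts (log-concavity) and its preservation by `T` -/

/-- quasi-concavity on the line -/
def QC (h : ℝ → ℝ) : Prop := ∀ x y z, x ≤ y → y ≤ z → min (h x) (h z) ≤ h y

/-- log-concavity, phrased through quasi-concavity of all exponential tilts -/
def LC (I : ℝ → ℝ) : Prop := ∀ μ : ℝ, QC (fun v => I v * rexp (-(μ * v)))

lemma QC.dir {h : ℝ → ℝ} (hq : QC h) (u a : ℝ) {σ₀ σ₁ σ₂ : ℝ} (h01 : σ₀ ≤ σ₁) (h12 : σ₁ ≤ σ₂) :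
    min (h (u + a * σ₀)) (h (u + a * σ₂)) ≤ h (u + a * σ₁) := by
  rcases le_total 0 a with ha | ha
  · exact hq _ _ _ (by nlinarith) (by nlinarith)
  · rw [min_comm]
    exact hq _ _ _ (by nlinarith) (by nlinarith)

lemma exists_pos_of_integral_pos {S : Set ℝ} (hS : MeasurableSet S) {F : ℝ → ℝ}
    (h : 0 < ∫ s in S, F s) : ∃ s ∈ S, 0 < F s := by
  by_contra hcon
  push Not at hcon
  exact absurd (setIntegral_nonpos hS hcon) (not_le.2 h)

lemma exists_neg_of_integral_neg {S : Set ℝ} (hS : MeasurableSet S) {F : ℝ → ℝ}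
    (h : ∫ s in S, F s < 0) : ∃ s ∈ S, F s < 0 := by
  by_contra hcon
  push Not at hcon
  exact absurd (setIntegral_nonneg hS hcon) (not_le.2 h)

/-- directional form of the preservation of log-concavity -/
lemma LC_T_dir {I : ℝ → ℝ} (hL : Lip I) (h0 : ∀ v, 0 ≤ I v) (hI : LC I) (a μ u₀ : ℝ)
    {τ₀ τ₁ : ℝ} (hτ₀ : 0 ≤ τ₀) (hτ₁ : 0 ≤ τ₁) :
    min (T a I u₀ * rexp (-(μ * u₀))) (T a I (u₀ + a * (τ₀ + τ₁)) * rexp (-(μ * (u₀ + a * (τ₀ + τ₁)))))
      ≤ T a I (u₀ + a * τ₀) * rexp (-(μ * (u₀ + a * τ₀))) := by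
  set u₁ := u₀ + a * τ₀ with hu₁
  set u₂ := u₀ + a * (τ₀ + τ₁) with hu₂
  have hu12 : u₂ = u₁ + a * τ₁ := by rw [hu₂, hu₁]; ring
  by_cases hκ : 0 < 1 - a * μ
  · by_contra hcon
    push Not at hcon
    obtain ⟨B, hB1, hB2⟩ := exists_between hcon
    have hB0 : T a I u₀ * rexp (-(μ * u₀)) > B := lt_of_lt_of_le hB2 (min_le_left _ _)
    have hB2' : T a I u₂ * rexp (-(μ * u₂)) > B := lt_of_lt_of_le hB2 (min_le_right _ _)
    set κ := 1 - a * μ with hκdef
    set f : ℝ → ℝ := fun w => I w - (B * κ) * rexp (μ * w) with hf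
    have hfI : ∀ v, TI a f v := fun v => TI_sub (hL.TI a v) (TI_const_mul _ (TI_exp hκ v))
    have hTf : ∀ v, T a f v = T a I v - B * rexp (μ * v) := by
      intro v
      rw [hf, T_sub (hL.TI a v) (TI_const_mul _ (TI_exp hκ v)), T_const_mul, T_exp hκ, ← hκdef]
      have hk : κ ≠ 0 := hκ.ne'
      field_simp
    have key : ∀ v, (B < T a I v * rexp (-(μ * v)) → 0 < T a f v) ∧
        (T a I v * rexp (-(μ * v)) < B → T a f v < 0) := by
      intro v
      have e : T a I v = (T a I v * rexp (-(μ * v))) * rexp (μ * v) := by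
        rw [mul_assoc, ← exp_add]; simp
      constructor
      · intro h
        rw [hTf, e]
        have := mul_lt_mul_of_pos_right h (exp_pos (μ * v))
        linarith
      · intro h
        rw [hTf, e]
        have := mul_lt_mul_of_pos_right h (exp_pos (μ * v))
        linarith
    have p0 : 0 < T a f u₀ := (key u₀).1 hB0
    have p1 : T a f u₁ < 0 := (key u₁).2 hB1
    have p2 : 0 < T a f u₂ := (key u₂).1 hB2'
    -- the three points
    have s0 := T_split (hfI u₀) hτ₀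
    have s1 := T_split (hfI u₁) hτ₁
    rw [← hu₁] at s0
    rw [← hu12] at s1
    have i0 : 0 < ∫ s in Ioc 0 τ₀, f (u₀ + a * s) * rexp (-s) := by
      have := mul_neg_of_pos_of_neg (exp_pos (-τ₀)) p1
      linarith
    have i1 : ∫ s in Ioc 0 τ₁, f (u₁ + a * s) * rexp (-s) < 0 := by
      have := mul_pos (exp_pos (-τ₁)) p2
      linarith
    obtain ⟨σ₀, hσ₀, q0⟩ := exists_pos_of_integral_pos measurableSet_Ioc i0
    obtain ⟨σ₁, hσ₁, q1⟩ := exists_neg_of_integral_neg measurableSet_Ioc i1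
    obtain ⟨σ₂, hσ₂, q2⟩ := exists_pos_of_integral_pos measurableSet_Ioi p2
    have q0' : 0 < f (u₀ + a * σ₀) := by
      by_contra hh; push Not at hh
      exact absurd (mul_nonpos_of_nonpos_of_nonneg hh (exp_pos (-σ₀)).le) (not_le.2 q0)
    have q1' : f (u₁ + a * σ₁) < 0 := by
      by_contra hh; push Not at hh
      exact absurd (mul_nonneg hh (exp_pos (-σ₁)).le) (not_le.2 q1)
    have q2' : 0 < f (u₂ + a * σ₂) := by
      by_contra hh; push Not at hh
      exact absurd (mul_nonpos_of_nonpos_of_nonneg hh (exp_pos (-σ₂)).le) (not_le.2 q2)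
    have e1 : u₁ + a * σ₁ = u₀ + a * (τ₀ + σ₁) := by rw [hu₁]; ring
    have e2 : u₂ + a * σ₂ = u₀ + a * (τ₀ + τ₁ + σ₂) := by rw [hu₂]; ring
    rw [e1] at q1'
    rw [e2] at q2'
    have hq := (hI μ).dir u₀ a (σ₀ := σ₀) (σ₁ := τ₀ + σ₁) (σ₂ := τ₀ + τ₁ + σ₂)
      (by have := hσ₀.2; have := hσ₁.1; linarith)
      (by have := hσ₁.2; have : (0:ℝ) < σ₂ := hσ₂; linarith)
    have conv : ∀ w, (0 < f w → B * κ < I w * rexp (-(μ * w))) ∧
        (f w < 0 → I w * rexp (-(μ * w)) < B * κ) := by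
      intro w
      have e : (B * κ) = (B * κ * rexp (μ * w)) * rexp (-(μ * w)) := by
        rw [mul_assoc, ← exp_add]; simp
      constructor
      · intro h
        rw [e]
        exact mul_lt_mul_of_pos_right (by simpa [hf] using h) (exp_pos _)
      · intro h
        rw [e]
        exact mul_lt_mul_of_pos_right (by simpa [hf] using h) (exp_pos _)
    have c0 := (conv _).1 q0'
    have c1 := (conv _).2 q1'
    have c2 := (conv _).1 q2'
    have : B * κ < min (I (u₀ + a * σ₀) * rexp (-(μ * (u₀ + a * σ₀))))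
        (I (u₀ + a * (τ₀ + τ₁ + σ₂)) * rexp (-(μ * (u₀ + a * (τ₀ + τ₁ + σ₂))))) := lt_min c0 c2
    linarith
  · -- monotone case
    push Not at hκ
    refine le_trans (min_le_right _ _) ?_
    have s1 := T_split (hL.TI a u₁) hτ₁
    rw [← hu12] at s1
    have i1 : 0 ≤ ∫ s in Ioc 0 τ₁, I (u₁ + a * s) * rexp (-s) :=
      setIntegral_nonneg measurableSet_Ioc (fun s _ => mul_nonneg (h0 _) (exp_pos _).le)
    have h1 : rexp (-τ₁) * T a I u₂ ≤ T a I u₁ := by linarith
    have hT2 : 0 ≤ T a I u₂ := T_nonneg h0 _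
    have e : rexp (-(μ * u₂)) ≤ rexp (-τ₁) * rexp (-(μ * u₁)) := by
      rw [← exp_add]
      apply exp_le_exp.2
      rw [hu12]
      nlinarith
    calc T a I u₂ * rexp (-(μ * u₂)) ≤ T a I u₂ * (rexp (-τ₁) * rexp (-(μ * u₁))) :=
          mul_le_mul_of_nonneg_left e hT2
      _ = (rexp (-τ₁) * T a I u₂) * rexp (-(μ * u₁)) := by ring
      _ ≤ T a I u₁ * rexp (-(μ * u₁)) := mul_le_mul_of_nonneg_right h1 (exp_pos _).le

lemma LC_T {I : ℝ → ℝ} (hL : Lip I) (h0 : ∀ v, 0 ≤ I v) (hI : LC I) (a : ℝ) : LC (T a I) := by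
  intro μ x y z hxy hyz
  rcases lt_trichotomy a 0 with ha | ha | ha
  · have := LC_T_dir hL h0 hI a μ z (τ₀ := (y - z) / a) (τ₁ := (x - y) / a)
      (div_nonneg_of_nonpos (by linarith) ha.le) (div_nonneg_of_nonpos (by linarith) ha.le)
    have ha' : a ≠ 0 := ha.ne
    have e1 : z + a * ((y - z) / a) = y := by field_simp; ring
    have e2 : z + a * ((y - z) / a + (x - y) / a) = x := by field_simp; ring
    rw [e1, e2] at this
    rw [min_comm]
    exact this
  · subst ha
    have : T 0 I = I := by ext v; exact T_zero_left I v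
    rw [this]
    exact hI μ x y z hxy hyz
  · have := LC_T_dir hL h0 hI a μ x (τ₀ := (y - x) / a) (τ₁ := (z - y) / a)
      (div_nonneg (by linarith) ha.le) (div_nonneg (by linarith) ha.le)
    have ha' : a ≠ 0 := ha.ne'
    have e1 : x + a * ((y - x) / a) = y := by field_simp; ring
    have e2 : x + a * ((y - x) / a + (z - y) / a) = z := by field_simp; ring
    rw [e1, e2] at this
    exact this

end Crest.Agent.S0423
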