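import Crest.Agent.S0423_Aux2

set_option autoImplicit false
open MeasureTheory Set Real Filter Topology

namespace Crest.Agent.S0423

/-! ### The positive part -/

/-- positive part -/
noncomputable def rho (v : ℝ) : ℝ := max v 0

lemma rho_nonneg (v : ℝ) : 0 ≤ rho v := le_max_right _ _

lemma rho_ge (v : ℝ) : v ≤ rho v := le_max_left _ _

lemma rho_lip : Lip rho := by
  intro x y
  unfold rho
  exact abs_max_sub_max_le_abs x y 0

lemma rho_LC : LC rho := by
  intro μ x y z hxy hyz
  beta_reduce
  by_cases hx : x ≤ 0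
  · refine le_trans (min_le_left _ _) ?_
    have : rho x = 0 := max_eq_right hx
    rw [this, zero_mul]
    exact mul_nonneg (rho_nonneg _) (exp_pos _).le
  · push Not at hx
    have hy : 0 < y := lt_of_lt_of_le hx hxy
    have hz : 0 < z := lt_of_lt_of_le hy hyz
    have ex : rho x = x := max_eq_left hx.le
    have ey : rho y = y := max_eq_left hy.le
    have ez : rho z = z := max_eq_left hz.le
    simp only [ex, ey, ez]
    by_contra hcon
    push Not at hcon
    have h1 : y * rexp (-(μ * y)) < x * rexp (-(μ * x)) := lt_of_lt_of_le hcon (min_le_left _ _)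
    have h2 : y * rexp (-(μ * y)) < z * rexp (-(μ * z)) := lt_of_lt_of_le hcon (min_le_right _ _)
    have l1 := Real.log_lt_log (mul_pos hy (exp_pos _)) h1
    have l2 := Real.log_lt_log (mul_pos hy (exp_pos _)) h2
    rw [Real.log_mul hy.ne' (exp_pos _).ne', Real.log_mul hx.ne' (exp_pos _).ne', Real.log_exp,
      Real.log_exp] at l1
    rw [Real.log_mul hy.ne' (exp_pos _).ne', Real.log_mul hz.ne' (exp_pos _).ne', Real.log_exp,
      Real.log_exp] at l2
    have k1 := Real.log_le_sub_one_of_pos (div_pos hx hy)
    have k2 := Real.log_le_sub_one_of_pos (div_pos hz hy)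
    rw [Real.log_div hx.ne' hy.ne'] at k1
    rw [Real.log_div hz.ne' hy.ne'] at k2
    set w := 1 / y with hw
    have hyw : y * w = 1 := by rw [hw]; field_simp
    have e1 : x / y = x * w := by rw [hw]; ring
    have e2 : z / y = z * w := by rw [hw]; ring
    rw [e1] at k1
    rw [e2] at k2
    have A : 0 < (y - x) * (μ - w) := by nlinarith
    have B : 0 < (z - y) * (w - μ) := by nlinarith
    rcases le_or_gt μ w with hμ | hμ
    · have : (y - x) * (μ - w) ≤ 0 := mul_nonpos_of_nonneg_of_nonpos (by linarith) (by linarith)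
      linarith
    · have : (z - y) * (w - μ) ≤ 0 := mul_nonpos_of_nonneg_of_nonpos (by linarith) (by linarith)
      linarith

/-! ### Chord comparison for log-concave functions -/

section chord

variable {I : ℝ → ℝ} (hI : LC I) {p q l : ℝ} (hpq : p < q) (hp : 0 < I p)
  (hl : I q = I p * rexp (l * (q - p)))

include hI hl in
lemma chord_inside {v : ℝ} (h1 : p ≤ v) (h2 : v ≤ q) : I p * rexp (l * (v - p)) ≤ I v := by
  have h := hI l p v q h1 h2
  have e : I q * rexp (-(l * q)) = I p * rexp (-(l * p)) := by
    rw [hl, mul_assoc, ← exp_add]; congr 2; ring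
  simp only [e, min_self] at h
  have := mul_le_mul_of_nonneg_right h (exp_pos (l * v)).le
  rw [mul_assoc, mul_assoc, ← exp_add, ← exp_add] at this
  have e1 : -(l * p) + l * v = l * (v - p) := by ring
  have e2 : -(l * v) + l * v = 0 := by ring
  rw [e1, e2, exp_zero, mul_one] at this
  exact this

include hI hpq hp hl in
lemma chord_left {v : ℝ} (h1 : v ≤ p) : I v ≤ I p * rexp (l * (v - p)) := by
  have key : ∀ ε : ℝ, 0 < ε → I v ≤ I p * rexp (l * (v - p)) * rexp (ε * (p - v)) := by
    intro ε hε
    have h := hI (l - ε) v p q h1 hpq.le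
    have e : I p * rexp (-((l - ε) * p)) < I q * rexp (-((l - ε) * q)) := by
      rw [hl, mul_assoc, ← exp_add]
      refine mul_lt_mul_of_pos_left ?_ hp
      apply exp_lt_exp.2
      nlinarith
    have h' : I v * rexp (-((l - ε) * v)) ≤ I p * rexp (-((l - ε) * p)) := by
      rcases min_le_iff.1 h with h | h
      · exact h
      · exact absurd h (not_le.2 e)
    have := mul_le_mul_of_nonneg_right h' (exp_pos ((l - ε) * v)).le
    rw [mul_assoc, mul_assoc, ← exp_add, ← exp_add] at this
    have e2 : -((l - ε) * v) + (l - ε) * v = 0 := by ring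
    have e3 : -((l - ε) * p) + (l - ε) * v = l * (v - p) + ε * (p - v) := by ring
    rw [e2, exp_zero, mul_one, e3] at this
    rw [mul_assoc, ← exp_add]
    exact this
  have ht : Tendsto (fun ε : ℝ => I p * rexp (l * (v - p)) * rexp (ε * (p - v))) (𝓝[>] 0)
      (𝓝 (I p * rexp (l * (v - p)) * rexp (0 * (p - v)))) := by
    apply tendsto_nhdsWithin_of_tendsto_nhds
    apply Continuous.tendsto
    fun_prop
  rw [zero_mul, exp_zero, mul_one] at ht
  exact ge_of_tendsto ht (eventually_nhdsWithin_of_forall (fun ε hε => key ε hε))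

include hI hpq hp hl in
lemma chord_right {v : ℝ} (h1 : q ≤ v) : I v ≤ I p * rexp (l * (v - p)) := by
  have key : ∀ ε : ℝ, 0 < ε → I v ≤ I p * rexp (l * (v - p)) * rexp (ε * (v - q)) := by
    intro ε hε
    have h := hI (l + ε) p q v hpq.le h1
    have e : I q * rexp (-((l + ε) * q)) < I p * rexp (-((l + ε) * p)) := by
      rw [hl, mul_assoc, ← exp_add]
      refine mul_lt_mul_of_pos_left ?_ hp
      apply exp_lt_exp.2
      nlinarith
    have h' : I v * rexp (-((l + ε) * v)) ≤ I q * rexp (-((l + ε) * q)) := by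
      rcases min_le_iff.1 h with h | h
      · exact absurd h (not_le.2 e)
      · exact h
    have := mul_le_mul_of_nonneg_right h' (exp_pos ((l + ε) * v)).le
    rw [mul_assoc, mul_assoc, ← exp_add, ← exp_add] at this
    have e2 : -((l + ε) * v) + (l + ε) * v = 0 := by ring
    have e3 : l * (q - p) + (-((l + ε) * q) + (l + ε) * v) = l * (v - p) + ε * (v - q) := by ring
    rw [e2, exp_zero, mul_one, hl, mul_assoc, ← exp_add, e3] at this
    rw [mul_assoc, ← exp_add]
    exact this
  have ht : Tendsto (fun ε : ℝ => I p * rexp (l * (v - p)) * rexp (ε * (v - q))) (𝓝[>] 0)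
      (𝓝 (I p * rexp (l * (v - p)) * rexp (0 * (v - q)))) := by
    apply tendsto_nhdsWithin_of_tendsto_nhds
    apply Continuous.tendsto
    fun_prop
  rw [zero_mul, exp_zero, mul_one] at ht
  exact ge_of_tendsto ht (eventually_nhdsWithin_of_forall (fun ε hε => key ε hε))

end chord

end Crest.Agent.S0423
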