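import Crest.Agent.S0423_Aux3

set_option autoImplicit false
open MeasureTheory Set Real Filter Topology

namespace Crest.Agent.S0423

/-! ### The operator `M` with kernel `(1 - s) e^{-s}` -/

/-- `M f u = ∫_0^∞ f (u - s) (1 - s) e^{-s} ds`. -/
noncomputable def M (f : ℝ → ℝ) (u : ℝ) : ℝ :=
  ∫ s in Ioi (0:ℝ), f (u - s) * ((1 - s) * rexp (-s))

lemma Lip.MI {f : ℝ → ℝ} (h : Lip f) (u : ℝ) :
    IntegrableOn (fun s : ℝ => f (u - s) * ((1 - s) * rexp (-s))) (Ioi 0) := by
  have hdom : IntegrableOn (fun s : ℝ => |f u| * rexp (-s) + (|f u| + 1) * (s * rexp (-s))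
      + s ^ 2 * rexp (-s)) (Ioi 0) :=
    ((integrableOn_exp_neg.const_mul _).add (integrableOn_id_mul_exp_neg.const_mul _)).add
      integrableOn_sq_mul_exp_neg
  refine Integrable.mono' hdom ?_ ?_
  · have : Continuous (fun s : ℝ => f (u - s) * ((1 - s) * rexp (-s))) := by
      have := h.continuous
      fun_prop
    exact this.aestronglyMeasurable
  · refine ae_restrict_of_forall_mem measurableSet_Ioi (fun s hs => ?_)
    have hs' : (0:ℝ) < s := hs
    have h1 := h.abs_le u (-s)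
    rw [abs_neg, abs_of_pos hs', ← sub_eq_add_neg] at h1
    have h2 : |1 - s| ≤ 1 + s := by
      rw [_root_.abs_le]; constructor <;> linarith
    rw [Real.norm_eq_abs, abs_mul, abs_mul, abs_of_pos (exp_pos _)]
    have h3 : |f (u - s)| * |1 - s| ≤ (|f u| + s) * (1 + s) :=
      mul_le_mul h1 h2 (abs_nonneg _) (by positivity)
    have := mul_le_mul_of_nonneg_right h3 (exp_pos (-s)).le
    nlinarith [this]

lemma MI_exp (A p u : ℝ) {l : ℝ} (hl : 0 < 1 + l) :
    IntegrableOn (fun s : ℝ => (A * rexp (l * (u - s - p))) * ((1 - s) * rexp (-s))) (Ioi 0) := by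
  have h0 := integrableOn_pow_mul_exp 0 hl
  have h1 := integrableOn_pow_mul_exp 1 hl
  have : IntegrableOn (fun s : ℝ => (A * rexp (l * (u - p))) * (s ^ 0 * rexp (-((1 + l) * s))
      - s ^ 1 * rexp (-((1 + l) * s)))) (Ioi 0) := (h0.sub h1).const_mul _
  refine this.congr (ae_of_all _ fun s => ?_)
  have e : rexp (l * (u - s - p)) * rexp (-s) = rexp (l * (u - p)) * rexp (-((1 + l) * s)) := by
    rw [← exp_add, ← exp_add]; congr 1; ring
  simp only [pow_zero, pow_one, one_mul]
  calc A * rexp (l * (u - p)) * (rexp (-((1 + l) * s)) - s * rexp (-((1 + l) * s)))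
      = A * (1 - s) * (rexp (l * (u - p)) * rexp (-((1 + l) * s))) := by ring
    _ = A * (1 - s) * (rexp (l * (u - s - p)) * rexp (-s)) := by rw [e]
    _ = _ := by ring

lemma M_exp (A p u : ℝ) {l : ℝ} (hl : 0 < 1 + l) :
    M (fun v => A * rexp (l * (v - p))) u
      = A * rexp (l * (u - p)) * (1 / (1 + l) - 1 / (1 + l) ^ 2) := by
  unfold M
  have h0 := integrableOn_pow_mul_exp 0 hl
  have h1 := integrableOn_pow_mul_exp 1 hl
  have e : ∀ s : ℝ, (A * rexp (l * (u - s - p))) * ((1 - s) * rexp (-s))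
      = (A * rexp (l * (u - p))) * (s ^ 0 * rexp (-((1 + l) * s)) - s ^ 1 * rexp (-((1 + l) * s))) := by
    intro s
    have e : rexp (l * (u - s - p)) * rexp (-s) = rexp (l * (u - p)) * rexp (-((1 + l) * s)) := by
      rw [← exp_add, ← exp_add]; congr 1; ring
    simp only [pow_zero, pow_one, one_mul]
    calc A * rexp (l * (u - s - p)) * ((1 - s) * rexp (-s))
        = A * (1 - s) * (rexp (l * (u - s - p)) * rexp (-s)) := by ring
      _ = A * (1 - s) * (rexp (l * (u - p)) * rexp (-((1 + l) * s))) := by rw [e]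
      _ = _ := by ring
  simp_rw [e]
  rw [integral_const_mul, integral_sub h0 h1, integral_pow_mul_exp 0 hl, integral_pow_mul_exp 1 hl]
  simp

/-! ### The core inequality -/

lemma exp_neg_third_le : rexp (-(1/3)) ≤ 18 / 25 := by
  have h := Real.quadratic_le_exp_of_nonneg (x := 1/3) (by norm_num)
  have h2 : (25:ℝ) / 18 ≤ rexp (1/3) := by
    have : (1:ℝ) + 1/3 + (1/3)^2/2 = 25/18 := by norm_num
    linarith
  rw [exp_neg]
  rw [inv_le_comm₀ (exp_pos _) (by norm_num)]
  have : ((18:ℝ)/25)⁻¹ = 25/18 := by norm_num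
  rw [this]; exact h2

lemma four_lt_exp : (4:ℝ) < rexp (3/2) := by
  have h := Real.sum_le_exp_of_nonneg (x := 3/2) (by norm_num) 4
  simp only [Finset.sum_range_succ, Finset.sum_range_zero, Nat.factorial] at h
  norm_num at h
  linarith

theorem core {I : ℝ → ℝ} (hL : Lip I) (hLC : LC I) (hge : ∀ v, v ≤ I v) :
    4 / 9 * rexp (-(1/3)) ≤ M I (4/3) := by
  set ι := I (1/3) with hι
  set Ic := I (4/3) with hIc
  have hι1 : 1/3 ≤ ι := hge _
  have hιpos : 0 < ι := by linarith
  have hIc1 : 4/3 ≤ Ic := hge _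
  have hIcpos : 0 < Ic := by linarith
  set l := Real.log (Ic / ι) with hl
  have hexpl : rexp l = Ic / ι := by rw [hl, Real.exp_log (div_pos hIcpos hιpos)]
  have hchord : I (4/3) = I (1/3) * rexp (l * (4/3 - 1/3)) := by
    rw [show (4:ℝ)/3 - 1/3 = 1 by norm_num, mul_one, hexpl, ← hι, ← hIc]
    field_simp
  have hpq : (1:ℝ)/3 < 4/3 := by norm_num
  have C1 : ∀ v, 1/3 ≤ v → v ≤ 4/3 → ι * rexp (l * (v - 1/3)) ≤ I v :=
    fun v h1 h2 => chord_inside hLC hchord h1 h2
  have C2 : ∀ v, v ≤ 1/3 → I v ≤ ι * rexp (l * (v - 1/3)) :=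
    fun v h1 => chord_left hLC hpq hιpos hchord h1
  have C3 : ∀ v, 4/3 ≤ v → I v ≤ ι * rexp (l * (v - 1/3)) :=
    fun v h1 => chord_right hLC hpq hιpos hchord h1
  -- positivity of the slope
  have hlpos : 0 < l := by
    by_contra hcon
    push Not at hcon
    have hv : (4:ℝ)/3 ≤ max (4/3) (ι + 1) := le_max_left _ _
    have h1 := C3 _ hv
    have h2 := hge (max (4/3) (ι + 1))
    have h3 : rexp (l * (max (4/3) (ι + 1) - 1/3)) ≤ 1 := by
      apply Real.exp_le_one_iff.2
      apply mul_nonpos_of_nonpos_of_nonneg hcon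
      linarith
    have h4 : ι + 1 ≤ max (4/3) (ι + 1) := le_max_right _ _
    have h5 : ι * rexp (l * (max (4/3) (ι + 1) - 1/3)) ≤ ι * 1 :=
      mul_le_mul_of_nonneg_left h3 hιpos.le
    linarith
  have hl1 : 0 < 1 + l := by linarith
  -- comparison with the exponential
  have hJ : ι * rexp l * (1 / (1 + l) - 1 / (1 + l) ^ 2) ≤ M I (4/3) := by
    have e := M_exp ι (1/3) (4/3) hl1
    rw [show (4:ℝ)/3 - 1/3 = 1 by norm_num, mul_one] at e
    rw [← e]
    unfold M
    refine setIntegral_mono_on (MI_exp ι (1/3) (4/3) hl1) (hL.MI (4/3)) measurableSet_Ioi ?_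
    intro s hs
    have hs' : (0:ℝ) < s := hs
    rcases le_or_gt s 1 with h1 | h1
    · refine mul_le_mul_of_nonneg_right (C1 _ (by linarith) (by linarith)) ?_
      exact mul_nonneg (by linarith) (exp_pos _).le
    · refine mul_le_mul_of_nonpos_right (C2 _ (by linarith)) ?_
      exact mul_nonpos_of_nonpos_of_nonneg (by linarith) (exp_pos _).le
  have hQ : 1 / (1 + l) - 1 / (1 + l) ^ 2 = l / (1 + l) ^ 2 := by
    field_simp; ring
  rw [hQ] at hJ
  refine le_trans ?_ hJ
  have hsq : 0 < (1 + l) ^ 2 := by positivity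
  rcases le_or_gt l (3/4) with hr | hr
  · -- regime 1
    have hv : (4:ℝ)/3 ≤ 1 / l := by
      rw [le_div_iff₀ hlpos]; linarith
    have h1 := le_trans (hge (1 / l)) (C3 _ hv)
    have e1 : l * (1 / l - 1/3) = 1 - l / 3 := by field_simp
    rw [e1] at h1
    have h2 : rexp (-(1 - l/3)) ≤ ι * l := by
      have h3 : 1 ≤ ι * l * rexp (1 - l/3) := by
        have := mul_le_mul_of_nonneg_right h1 hlpos.le
        rw [div_mul_cancel₀ _ hlpos.ne'] at this
        linarith
      have := mul_le_mul_of_nonneg_right h3 (exp_pos (-(1 - l/3))).le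
      rw [mul_assoc, ← exp_add, add_neg_cancel, exp_zero, mul_one, one_mul] at this
      exact this
    have hz : 2/3 * (1 + l) ≤ rexp (2/3 * l - 1/3) := by
      have := Real.add_one_le_exp (2/3 * l - 1/3); linarith
    have hz2 : (2/3 * (1 + l)) ^ 2 ≤ rexp (4/3 * l - 2/3) := by
      have : rexp (4/3 * l - 2/3) = rexp (2/3 * l - 1/3) ^ 2 := by
        rw [sq, ← exp_add]; congr 1; ring
      rw [this]
      exact pow_le_pow_left₀ (by positivity) hz 2
    rw [← mul_div_assoc, le_div_iff₀ hsq]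
    have h4 : rexp (-(1 - l/3)) * rexp l ≤ ι * l * rexp l :=
      mul_le_mul_of_nonneg_right h2 (exp_pos _).le
    have h5 : rexp (-(1 - l/3)) * rexp l = rexp (4/3 * l - 2/3) * rexp (-(1/3)) := by
      rw [← exp_add, ← exp_add]; congr 1; ring
    have h6 : (2/3 * (1 + l)) ^ 2 * rexp (-(1/3)) ≤ rexp (4/3 * l - 2/3) * rexp (-(1/3)) :=
      mul_le_mul_of_nonneg_right hz2 (exp_pos _).le
    nlinarith [h4, h5, h6]
  · -- regime 2
    have hl32 : l ≤ 3/2 := by
      by_contra hcon
      push Not at hcon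
      have h1 : rexp (3/2) < rexp l := exp_lt_exp.2 hcon
      have h2 := hL (4/3) (1/3)
      rw [show (4:ℝ)/3 - 1/3 = 1 by norm_num, abs_one] at h2
      have h3 : Ic ≤ ι + 1 := by
        have := le_abs_self (I (4/3) - I (1/3)); linarith
      have h4 : Ic / ι ≤ 4 := by
        rw [div_le_iff₀ hιpos]; linarith
      have := four_lt_exp
      linarith
    have e1 : ι * rexp l = Ic := by rw [hexpl]; field_simp
    rw [e1]
    have h1 : 6/25 ≤ l / (1 + l) ^ 2 := by
      rw [le_div_iff₀ hsq]; nlinarith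
    have h2 := exp_neg_third_le
    have h3 : 4/3 * (6/25) ≤ Ic * (l / (1 + l) ^ 2) :=
      mul_le_mul hIc1 h1 (by norm_num) hIcpos.le
    linarith

end Crest.Agent.S0423
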