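import Crest.Agent.S0423_Aux4

set_option autoImplicit false
open MeasureTheory Set Real Filter Topology

namespace Crest.Agent.S0423

/-! ### `T` and `M` commute -/

lemma swap_integrable {f : ℝ → ℝ} (h : Lip f) (a u : ℝ) :
    Integrable (Function.uncurry fun x s : ℝ => f (u + a * x - s) * ((1 - s) * rexp (-s)) * rexp (-x))
      ((volume.restrict (Ioi (0:ℝ))).prod (volume.restrict (Ioi (0:ℝ)))) := by
  have D1 : Integrable (fun x : ℝ => |f u| * rexp (-x) + |a| * (x * rexp (-x)))
      (volume.restrict (Ioi (0:ℝ))) :=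
    (integrableOn_exp_neg.const_mul _).add (integrableOn_id_mul_exp_neg.const_mul _)
  have D2 : Integrable (fun s : ℝ => rexp (-s) + s * rexp (-s)) (volume.restrict (Ioi (0:ℝ))) :=
    integrableOn_exp_neg.add integrableOn_id_mul_exp_neg
  have D3 : Integrable (fun x : ℝ => rexp (-x)) (volume.restrict (Ioi (0:ℝ))) := integrableOn_exp_neg
  have D4 : Integrable (fun s : ℝ => s * rexp (-s) + s ^ 2 * rexp (-s))
      (volume.restrict (Ioi (0:ℝ))) :=
    integrableOn_id_mul_exp_neg.add integrableOn_sq_mul_exp_neg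
  have hdom := (D1.mul_prod D2).add (D3.mul_prod D4)
  refine Integrable.mono' hdom ?_ ?_
  · have : Continuous (Function.uncurry fun x s : ℝ =>
        f (u + a * x - s) * ((1 - s) * rexp (-s)) * rexp (-x)) := by
      have := h.continuous
      unfold Function.uncurry
      fun_prop
    exact this.aestronglyMeasurable
  · rw [Measure.prod_restrict]
    refine ae_restrict_of_forall_mem (measurableSet_Ioi.prod measurableSet_Ioi) ?_
    rintro ⟨x, s⟩ ⟨hx, hs⟩
    have hx' : (0:ℝ) < x := hx
    have hs' : (0:ℝ) < s := hs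
    have h1 := h.abs_le u (a * x - s)
    have h1' : |a * x - s| ≤ |a| * x + s := by
      have := abs_sub (a * x) s
      rw [abs_mul, abs_of_pos hx', abs_of_pos hs'] at this
      exact this
    have h2 : |1 - s| ≤ 1 + s := by
      rw [abs_le]; constructor <;> linarith
    have e : u + a * x - s = u + (a * x - s) := by ring
    simp only [Function.uncurry, Pi.add_apply]
    rw [Real.norm_eq_abs, abs_mul, abs_mul, abs_mul, abs_of_pos (exp_pos _), abs_of_pos (exp_pos _), e]
    have h3 : |f (u + (a * x - s))| * |1 - s| ≤ (|f u| + |a| * x + s) * (1 + s) :=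
      mul_le_mul (by linarith) h2 (abs_nonneg _) (by positivity)
    have h4 := mul_le_mul_of_nonneg_right h3 (mul_pos (exp_pos (-s)) (exp_pos (-x))).le
    nlinarith [h4]

lemma T_M_swap {f : ℝ → ℝ} (h : Lip f) (a u : ℝ) : T a (M f) u = M (T a f) u := by
  unfold T M
  have e1 : ∀ x : ℝ, (∫ s in Ioi (0:ℝ), f (u + a * x - s) * ((1 - s) * rexp (-s))) * rexp (-x)
      = ∫ s in Ioi (0:ℝ), f (u + a * x - s) * ((1 - s) * rexp (-s)) * rexp (-x) := by
    intro x; rw [integral_mul_const]
  have e2 : ∀ s : ℝ, (∫ x in Ioi (0:ℝ), f (u - s + a * x) * rexp (-x)) * ((1 - s) * rexp (-s))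
      = ∫ x in Ioi (0:ℝ), f (u + a * x - s) * ((1 - s) * rexp (-s)) * rexp (-x) := by
    intro s; rw [← integral_mul_const]
    congr 1; ext x
    rw [show u - s + a * x = u + a * x - s by ring]; ring
  simp_rw [e1, e2]
  exact integral_integral_swap (swap_integrable h a u)

end Crest.Agent.S0423
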