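import Crest.Agent.S0423_Aux5
import Crest.Prelude.Def_TruncExpWeight

set_option autoImplicit false
open MeasureTheory Set Real Filter Topology

namespace Crest.Agent.S0423

/-! ### `M` preserves the Lipschitz class -/

lemma integrableOn_abs_kernel : IntegrableOn (fun s : ℝ => |1 - s| * rexp (-s)) (Ioi 0) := by
  have hdom : IntegrableOn (fun s : ℝ => rexp (-s) + s * rexp (-s)) (Ioi 0) :=
    integrableOn_exp_neg.add integrableOn_id_mul_exp_neg
  refine Integrable.mono' hdom ?_ ?_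
  · have : Continuous (fun s : ℝ => |1 - s| * rexp (-s)) := by fun_prop
    exact this.aestronglyMeasurable
  · refine ae_restrict_of_forall_mem measurableSet_Ioi (fun s hs => ?_)
    have hs' : (0:ℝ) < s := hs
    have h2 : |1 - s| ≤ 1 + s := by
      rw [abs_le]; constructor <;> linarith
    rw [Real.norm_eq_abs, abs_mul, abs_abs, abs_of_pos (exp_pos _)]
    have := mul_le_mul_of_nonneg_right h2 (exp_pos (-s)).le
    linarith

lemma integral_abs_kernel_le : ∫ s in Ioi (0:ℝ), |1 - s| * rexp (-s) ≤ 1 := by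
  have hdom : IntegrableOn (fun s : ℝ => rexp (-s) - s * rexp (-s) + 1/2 * (s ^ 2 * rexp (-s))) (Ioi 0) :=
    (integrableOn_exp_neg.sub integrableOn_id_mul_exp_neg).add (integrableOn_sq_mul_exp_neg.const_mul _)
  have h1 : ∫ s in Ioi (0:ℝ), |1 - s| * rexp (-s)
      ≤ ∫ s in Ioi (0:ℝ), (rexp (-s) - s * rexp (-s) + 1/2 * (s ^ 2 * rexp (-s))) := by
    refine integral_mono integrableOn_abs_kernel hdom (fun s => ?_)
    have h : |1 - s| ≤ 1 - s + 1/2 * s ^ 2 := by
      rw [abs_le]; constructor <;> nlinarith [sq_nonneg (s - 2), sq_nonneg s]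
    have := mul_le_mul_of_nonneg_right h (exp_pos (-s)).le
    linarith
  have h2 : ∫ s in Ioi (0:ℝ), (rexp (-s) - s * rexp (-s) + 1/2 * (s ^ 2 * rexp (-s))) = 1 := by
    have i1 : IntegrableOn (fun s : ℝ => rexp (-s) - s * rexp (-s)) (Ioi 0) :=
      integrableOn_exp_neg.sub integrableOn_id_mul_exp_neg
    rw [integral_add i1
      (integrableOn_sq_mul_exp_neg.const_mul _), integral_sub integrableOn_exp_neg
      integrableOn_id_mul_exp_neg, integral_const_mul, integral_exp_neg_Ioi_zero,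
      integral_id_mul_exp_neg, integral_sq_mul_exp_neg]
    norm_num
  linarith

lemma Lip.M {f : ℝ → ℝ} (h : Lip f) : Lip (M f) := by
  intro x y
  have e : Crest.Agent.S0423.M f x - Crest.Agent.S0423.M f y
      = ∫ s in Ioi (0:ℝ), (f (x - s) - f (y - s)) * ((1 - s) * rexp (-s)) := by
    unfold Crest.Agent.S0423.M
    rw [← integral_sub (h.MI x) (h.MI y)]
    congr 1; ext s; ring
  rw [e]
  have hb : ∀ s : ℝ, ‖(f (x - s) - f (y - s)) * ((1 - s) * rexp (-s))‖
      ≤ |x - y| * (|1 - s| * rexp (-s)) := by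
    intro s
    rw [Real.norm_eq_abs, abs_mul, abs_mul, abs_of_pos (exp_pos _)]
    refine mul_le_mul_of_nonneg_right ?_ (by positivity)
    have := h (x - s) (y - s)
    rwa [show x - s - (y - s) = x - y by ring] at this
  have := norm_integral_le_of_norm_le (μ := volume.restrict (Ioi (0:ℝ)))
    (integrableOn_abs_kernel.const_mul |x - y|) (ae_of_all _ hb)
  rw [integral_const_mul, Real.norm_eq_abs] at this
  have h2 := mul_le_mul_of_nonneg_left integral_abs_kernel_le (abs_nonneg (x - y))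
  linarith

/-! ### The weight `g` -/

/-- abbreviation for the weight of the statement -/
noncomputable abbrev g : ℝ → ℝ := Crest.AlgGeometry.truncExpWeight

lemma g_of_nonpos {u : ℝ} (h : u ≤ 0) : g u = 1 := by
  simp [g, Crest.AlgGeometry.truncExpWeight, h]

lemma g_of_pos {u : ℝ} (h : 0 < u) : g u = (1 + u) * rexp (-u) := by
  simp [g, Crest.AlgGeometry.truncExpWeight, not_le.2 h]

lemma M_rho_of_nonpos {u : ℝ} (h : u ≤ 0) : M rho u = 0 := by
  unfold M
  refine setIntegral_eq_zero_of_forall_eq_zero (fun s hs => ?_)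
  have hs' : (0:ℝ) < s := hs
  have : rho (u - s) = 0 := max_eq_right (by linarith)
  rw [this, zero_mul]

lemma M_rho_of_pos {u : ℝ} (h : 0 < u) : M rho u = 1 - (1 + u) * rexp (-u) := by
  have hU : Ioi (0:ℝ) = Ioc 0 u ∪ Ioi u := (Ioc_union_Ioi_eq_Ioi h.le).symm
  have hd : Disjoint (Ioc 0 u) (Ioi u) := by
    rw [Set.disjoint_left]; intro s hs hs'; exact absurd hs.2 (not_le.2 hs')
  have hI := rho_lip.MI u
  have h1 : IntegrableOn (fun s : ℝ => rho (u - s) * ((1 - s) * rexp (-s))) (Ioc 0 u) :=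
    hI.mono_set (by rw [hU]; exact subset_union_left)
  have h2 : IntegrableOn (fun s : ℝ => rho (u - s) * ((1 - s) * rexp (-s))) (Ioi u) :=
    hI.mono_set (by rw [hU]; exact subset_union_right)
  unfold M
  rw [hU, setIntegral_union hd measurableSet_Ioi h1 h2]
  have z : ∫ s in Ioi u, rho (u - s) * ((1 - s) * rexp (-s)) = 0 := by
    refine setIntegral_eq_zero_of_forall_eq_zero (fun s hs => ?_)
    have hs' : u < s := hs
    have : rho (u - s) = 0 := max_eq_right (by linarith)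
    rw [this, zero_mul]
  rw [z, add_zero]
  have e : ∫ s in Ioc 0 u, rho (u - s) * ((1 - s) * rexp (-s))
      = ∫ s in Ioc 0 u, (u - s) * ((1 - s) * rexp (-s)) := by
    refine setIntegral_congr_fun measurableSet_Ioc (fun s hs => ?_)
    have : rho (u - s) = u - s := max_eq_left (by linarith [hs.2])
    simp only [this]
  rw [e, ← intervalIntegral.integral_of_le h.le]
  have hder : ∀ s ∈ uIcc 0 u, HasDerivAt (fun s : ℝ => -(1 + (1 - u) * s + s ^ 2) * rexp (-s))
      ((u - s) * ((1 - s) * rexp (-s))) s := by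
    intro s _
    have d1 : HasDerivAt (fun s : ℝ => -(1 + (1 - u) * s + s ^ 2))
        (-((1 - u) * 1 + ((2:ℕ):ℝ) * s ^ (2 - 1))) s :=
      ((((hasDerivAt_id' s).const_mul (1 - u)).const_add 1).fun_add (hasDerivAt_pow 2 s)).fun_neg
    have d2 : HasDerivAt (fun s : ℝ => rexp (-s)) (rexp (-s) * -1) s := (hasDerivAt_neg s).exp
    refine (d1.fun_mul d2).congr_deriv ?_
    push_cast
    ring
  rw [intervalIntegral.integral_eq_sub_of_hasDerivAt hder]
  · simp only [neg_zero, exp_zero]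
    ring
  · apply Continuous.intervalIntegrable
    fun_prop

lemma g_eq (u : ℝ) : g u = 1 - M rho u := by
  rcases le_or_gt u 0 with h | h
  · rw [g_of_nonpos h, M_rho_of_nonpos h]; ring
  · rw [g_of_pos h, M_rho_of_pos h]; ring

lemma g_lip : Lip g := by
  intro x y
  rw [g_eq, g_eq]
  have := rho_lip.M x y
  rw [show (1 - M rho x) - (1 - M rho y) = -(M rho x - M rho y) by ring, abs_neg]
  exact this

/-! ### Iterating `T` -/

/-- `Tn N a f v = E f (v + ∑ a i X i)`. -/
noncomputable def Tn : (N : ℕ) → (Fin N → ℝ) → (ℝ → ℝ) → ℝ → ℝ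
  | 0, _, f => f
  | N + 1, a, f => T (a 0) (Tn N (fun i => a i.succ) f)

lemma Tn_lip {f : ℝ → ℝ} (h : Lip f) : ∀ (N : ℕ) (a : Fin N → ℝ), Lip (Tn N a f)
  | 0, _ => h
  | N + 1, a => (Tn_lip h N (fun i => a i.succ)).T (a 0)

lemma Tn_nonneg {f : ℝ → ℝ} (h : ∀ v, 0 ≤ f v) : ∀ (N : ℕ) (a : Fin N → ℝ) (v : ℝ), 0 ≤ Tn N a f v
  | 0, _ => h
  | N + 1, a => T_nonneg (Tn_nonneg h N (fun i => a i.succ))

lemma Tn_LC {f : ℝ → ℝ} (hL : Lip f) (h0 : ∀ v, 0 ≤ f v) (h : LC f) :
    ∀ (N : ℕ) (a : Fin N → ℝ), LC (Tn N a f)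
  | 0, _ => h
  | N + 1, a => LC_T (Tn_lip hL N _) (Tn_nonneg h0 N _) (Tn_LC hL h0 h N (fun i => a i.succ)) (a 0)

lemma Tn_ge {f : ℝ → ℝ} (hL : Lip f) (h : ∀ v, v ≤ f v) :
    ∀ (N : ℕ) (a : Fin N → ℝ) (v : ℝ), v + ∑ i, a i ≤ Tn N a f v
  | 0, _ => fun v => by simpa [Tn] using h v
  | N + 1, a => fun v => by
      have ih := Tn_ge hL h N (fun i => a i.succ)
      have h1 := T_mono (a := a 0) (v := v) (TI_affine (a 0) (∑ i : Fin N, a i.succ) v)
        ((Tn_lip hL N (fun i => a i.succ)).TI (a 0) v) ih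
      rw [T_affine] at h1
      rw [Fin.sum_univ_succ]
      show _ ≤ T (a 0) (Tn N (fun i => a i.succ) f) v
      linarith

lemma Tn_g : ∀ (N : ℕ) (a : Fin N → ℝ) (u : ℝ), Tn N a g u = 1 - M (Tn N a rho) u
  | 0, _ => fun u => g_eq u
  | N + 1, a => fun u => by
      have ih := Tn_g N (fun i => a i.succ)
      have hF := Tn_lip rho_lip N (fun i => a i.succ)
      show T (a 0) (Tn N (fun i => a i.succ) g) u = 1 - M (T (a 0) (Tn N (fun i => a i.succ) rho)) u
      have : Tn N (fun i => a i.succ) g = fun w => (fun _ => (1:ℝ)) w - M (Tn N (fun i => a i.succ) rho) w := by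
        ext w; exact ih w
      rw [this, T_sub (TI_const _ _ _) (hF.M.TI _ _), T_const, T_M_swap hF]

/-- The upper bound, in operator form. -/
theorem Tn_g_le (N : ℕ) (a : Fin N → ℝ) (ha : ∑ i, a i = 0) :
    Tn N a g (4/3) ≤ 1 - 4 / 9 * rexp (-(1/3)) := by
  rw [Tn_g]
  have := core (Tn_lip rho_lip N a) (Tn_LC rho_lip rho_nonneg rho_LC N a)
    (fun v => by have := Tn_ge rho_lip rho_ge N a v; rw [ha, add_zero] at this; exact this)
  linarith

end Crest.Agent.S0423
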