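import Crest.Agent.S0423_Aux6

set_option autoImplicit false
open MeasureTheory Set Real Filter Topology

namespace Crest.Agent.S0423

/-! ### The `N`-dimensional integral as an iterated `T` -/

/-- Lebesgue measure on the positive half-line -/
noncomputable abbrev nu : Measure ℝ := volume.restrict (Ioi (0:ℝ))

lemma pi_integrable {φ : ℝ → ℝ} (hc : Continuous φ) (hb : ∀ u, |φ u| ≤ 1) (N : ℕ) (a : Fin N → ℝ)
    (y : ℝ) :
    Integrable (fun x : Fin N → ℝ => φ (y + ∑ i, a i * x i) * rexp (-∑ i, x i))
      (Measure.pi fun _ : Fin N => nu) := by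
  have h1 : Integrable (fun x : Fin N → ℝ => ∏ i, rexp (-(x i))) (Measure.pi fun _ : Fin N => nu) :=
    Integrable.fintype_prod (f := fun _ : Fin N => fun s : ℝ => rexp (-s))
      (μ := fun _ : Fin N => nu) (fun _ => integrableOn_exp_neg)
  refine Integrable.mono' h1 ?_ (ae_of_all _ fun x => ?_)
  · have : Continuous (fun x : Fin N → ℝ => φ (y + ∑ i, a i * x i) * rexp (-∑ i, x i)) := by
      fun_prop
    exact this.aestronglyMeasurable
  · rw [Real.norm_eq_abs, abs_mul, abs_of_pos (exp_pos _), ← Finset.sum_neg_distrib, Real.exp_sum]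
    have := mul_le_mul_of_nonneg_right (hb (y + ∑ i, a i * x i))
      (Finset.prod_nonneg (fun i _ => (exp_pos (-(x i))).le) : 0 ≤ ∏ i, rexp (-(x i)))
    linarith

lemma pi_integral {φ : ℝ → ℝ} (hc : Continuous φ) (hb : ∀ u, |φ u| ≤ 1) :
    ∀ (N : ℕ) (a : Fin N → ℝ) (y : ℝ),
      ∫ x : Fin N → ℝ, φ (y + ∑ i, a i * x i) * rexp (-∑ i, x i) ∂(Measure.pi fun _ : Fin N => nu)
        = Tn N a φ y
  | 0, a => fun y => by
      rw [Measure.pi_of_empty (fun _ : Fin 0 => nu) (fun i => i.elim0), integral_dirac]
      simp [Tn]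
  | N + 1, a => fun y => by
      have ih := pi_integral hc hb N (fun i => a i.succ)
      have mp := measurePreserving_piFinSuccAbove (fun _ : Fin (N + 1) => nu) 0
      set F : (Fin (N + 1) → ℝ) → ℝ := fun x => φ (y + ∑ i, a i * x i) * rexp (-∑ i, x i) with hF
      have hFi : Integrable F (Measure.pi fun _ : Fin (N + 1) => nu) := pi_integrable hc hb (N + 1) a y
      set e := MeasurableEquiv.piFinSuccAbove (fun _ : Fin (N + 1) => ℝ) 0 with he
      have h1 : ∫ x, F x ∂(Measure.pi fun _ : Fin (N + 1) => nu)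
          = ∫ z, F (e.symm z) ∂(nu.prod (Measure.pi fun _ : Fin N => nu)) := by
        have := mp.integral_comp' (fun z => F (e.symm z))
        simpa using this
      have hi : Integrable (fun z => F (e.symm z)) (nu.prod (Measure.pi fun _ : Fin N => nu)) := by
        have := (mp.integrable_comp_emb e.measurableEmbedding (g := fun z => F (e.symm z))).1
        apply this
        have e2 : (fun z => F (e.symm z)) ∘ e = F := by ext x; simp
        rw [e2]; exact hFi
      rw [h1, integral_prod _ hi]
      show _ = T (a 0) (Tn N (fun i => a i.succ) φ) y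
      unfold T
      congr 1; ext x0
      rw [← ih, ← integral_mul_const]
      congr 1; ext x'
      simp only [hF, he, MeasurableEquiv.piFinSuccAbove_symm_apply, Fin.insertNthEquiv_zero,
        Fin.sum_univ_succ]
      simp only [Fin.consEquiv_apply, Fin.cons_zero, Fin.cons_succ]
      rw [neg_add, exp_add]
      ring_nf

lemma setIntegral_pi_eq (N : ℕ) (F : (Fin N → ℝ) → ℝ) :
    ∫ x in Set.pi Set.univ (fun _ : Fin N => Set.Ioi (0 : ℝ)), F x
      = ∫ x, F x ∂(Measure.pi fun _ : Fin N => nu) := by
  rw [volume_pi, Measure.restrict_pi_pi]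

end Crest.Agent.S0423
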