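import Crest.Agent.S0423_Aux7

set_option autoImplicit false
open MeasureTheory Set Real Filter Topology

namespace Crest.Agent.S0423

/-! ### Elementary properties of `g` -/

lemma g_nonneg (u : ℝ) : 0 ≤ g u := by
  rcases le_or_gt u 0 with h | h
  · rw [g_of_nonpos h]; norm_num
  · rw [g_of_pos h]; exact mul_nonneg (by linarith) (exp_pos _).le

lemma g_le_one (u : ℝ) : g u ≤ 1 := by
  rcases le_or_gt u 0 with h | h
  · rw [g_of_nonpos h]
  · rw [g_of_pos h]
    have h1 := Real.add_one_le_exp u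
    have h2 : (1 + u) * rexp (-u) ≤ rexp u * rexp (-u) :=
      mul_le_mul_of_nonneg_right (by linarith) (exp_pos _).le
    rw [← exp_add, add_neg_cancel, exp_zero] at h2
    exact h2

lemma g_abs_le (u : ℝ) : |g u| ≤ 1 := by
  rw [abs_of_nonneg (g_nonneg u)]; exact g_le_one u

/-- the derivative of `g` -/
noncomputable def dg (x : ℝ) : ℝ := -(rho x * rexp (-x))

/-- semi-convexity of `g` -/
lemma g_semiconvex (x y : ℝ) : g x + dg x * (y - x) - (y - x) ^ 2 ≤ g y := by
  unfold dg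
  rcases le_or_gt x 0 with hx | hx
  · have r : rho x = 0 := max_eq_right hx
    rw [r, g_of_nonpos hx]
    rcases le_or_gt y 0 with hy | hy
    · rw [g_of_nonpos hy]; nlinarith [sq_nonneg (y - x)]
    · rw [g_of_pos hy]
      have h1 := Real.add_one_le_exp (-y)
      have h2 : (1 + y) * (-y + 1) ≤ (1 + y) * rexp (-y) :=
        mul_le_mul_of_nonneg_left h1 (by linarith)
      nlinarith [mul_nonneg hy.le (neg_nonneg.2 hx), sq_nonneg x]
  · have r : rho x = x := max_eq_left hx.le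
    rw [r, g_of_pos hx]
    have hex : rexp (-x) ≤ 1 := Real.exp_le_one_iff.2 (by linarith)
    have hex0 : 0 < rexp (-x) := exp_pos _
    rcases le_or_gt y 0 with hy | hy
    · rw [g_of_nonpos hy]
      have h0 := g_le_one x
      rw [g_of_pos hx] at h0
      -- x e^{-x} (x - y) ≤ (x - y)^2
      have h3 : x * rexp (-x) ≤ x - y := by nlinarith
      have h4 : x * rexp (-x) * (x - y) ≤ (x - y) * (x - y) :=
        mul_le_mul_of_nonneg_right h3 (by linarith)
      nlinarith
    · rw [g_of_pos hy]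
      have h1 := Real.add_one_le_exp (-(y - x))
      have h2 : (1 + y) * (-(y - x) + 1) ≤ (1 + y) * rexp (-(y - x)) :=
        mul_le_mul_of_nonneg_left h1 (by linarith)
      have e : rexp (-y) = rexp (-x) * rexp (-(y - x)) := by
        rw [← exp_add]; congr 1; ring
      rw [e]
      have h3 : rexp (-x) * ((1 + y) * (-(y - x) + 1)) ≤ rexp (-x) * ((1 + y) * rexp (-(y - x))) :=
        mul_le_mul_of_nonneg_left h2 hex0.le
      have h4 : rexp (-x) * (y - x) ^ 2 ≤ 1 * (y - x) ^ 2 :=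
        mul_le_mul_of_nonneg_right hex (sq_nonneg _)
      nlinarith

/-! ### One step and many steps -/

lemma T_g_ge (b u : ℝ) : g (u + b) - b ^ 2 ≤ T b g u := by
  set x0 := u + b with hx0
  have hint : IntegrableOn (fun s : ℝ => (g x0 - dg x0 * b - b ^ 2) * rexp (-s)
      + (dg x0 * b + 2 * b ^ 2) * (s * rexp (-s)) - b ^ 2 * (s ^ 2 * rexp (-s))) (Ioi 0) :=
    ((integrableOn_exp_neg.const_mul _).add (integrableOn_id_mul_exp_neg.const_mul _)).sub
      (integrableOn_sq_mul_exp_neg.const_mul _)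
  have i1 : IntegrableOn (fun s : ℝ => (g x0 - dg x0 * b - b ^ 2) * rexp (-s)
      + (dg x0 * b + 2 * b ^ 2) * (s * rexp (-s))) (Ioi 0) :=
    (integrableOn_exp_neg.const_mul _).add (integrableOn_id_mul_exp_neg.const_mul _)
  have hval : ∫ s in Ioi (0:ℝ), ((g x0 - dg x0 * b - b ^ 2) * rexp (-s)
      + (dg x0 * b + 2 * b ^ 2) * (s * rexp (-s)) - b ^ 2 * (s ^ 2 * rexp (-s))) = g x0 - b ^ 2 := by
    rw [integral_sub i1 (integrableOn_sq_mul_exp_neg.const_mul _),
      integral_add (integrableOn_exp_neg.const_mul _) (integrableOn_id_mul_exp_neg.const_mul _),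
      integral_const_mul, integral_const_mul, integral_const_mul, integral_exp_neg_Ioi_zero,
      integral_id_mul_exp_neg, integral_sq_mul_exp_neg]
    ring
  rw [← hval]
  unfold T
  refine integral_mono hint (g_lip.TI b u) (fun s => ?_)
  have h := g_semiconvex x0 (u + b * s)
  have e : u + b * s - x0 = b * (s - 1) := by rw [hx0]; ring
  rw [e] at h
  have := mul_le_mul_of_nonneg_right h (exp_pos (-s)).le
  nlinarith [this]

lemma T_shift (a : ℝ) (f : ℝ → ℝ) (k u : ℝ) : T a (fun w => f (w + k)) u = T a f (u + k) := by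
  unfold T
  congr 1; ext s
  beta_reduce
  rw [show u + a * s + k = u + k + a * s by ring]

lemma TI_shift {a : ℝ} {f : ℝ → ℝ} {k u : ℝ} (h : TI a f (u + k)) : TI a (fun w => f (w + k)) u := by
  unfold TI at *
  refine h.congr (ae_of_all _ fun s => ?_)
  simp only
  rw [show u + a * s + k = u + k + a * s by ring]

lemma Tn_const_ge (b : ℝ) : ∀ (n : ℕ) (u : ℝ), g (u + n * b) - n * b ^ 2 ≤ Tn n (fun _ => b) g u
  | 0 => fun u => by simp [Tn]
  | n + 1 => fun u => by
      have ih := Tn_const_ge b n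
      show _ ≤ T b (Tn n (fun _ => b) g) u
      have hI1 : TI b (fun w => g (w + n * b) - (fun _ => (n:ℝ) * b ^ 2) w) u :=
        TI_sub (TI_shift (g_lip.TI b _)) (TI_const _ _ _)
      have h1 := T_mono (a := b) (v := u) hI1 ((Tn_lip g_lip n (fun _ => b)).TI b u) ih
      rw [T_sub (TI_shift (g_lip.TI b _)) (TI_const _ _ _), T_const, T_shift] at h1
      have h2 := T_g_ge b (u + n * b)
      push_cast
      rw [show u + (n + 1) * b = u + n * b + b by ring]
      linarith

/-! ### The extremal value -/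

lemma T_two_g_zero : T 2 g 0 = 5 / 9 := by
  unfold T
  have h3 : (0:ℝ) < 3 := by norm_num
  have e : ∫ s in Ioi (0:ℝ), g (0 + 2 * s) * rexp (-s)
      = ∫ s in Ioi (0:ℝ), (s ^ 0 * rexp (-(3 * s)) + 2 * (s ^ 1 * rexp (-(3 * s)))) := by
    refine setIntegral_congr_fun measurableSet_Ioi (fun s hs => ?_)
    have hs' : (0:ℝ) < s := hs
    rw [g_of_pos (by linarith)]
    have : rexp (-(0 + 2 * s)) * rexp (-s) = rexp (-(3 * s)) := by
      rw [← exp_add]; congr 1; ring
    calc (1 + (0 + 2 * s)) * rexp (-(0 + 2 * s)) * rexp (-s)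
        = (1 + 2 * s) * (rexp (-(0 + 2 * s)) * rexp (-s)) := by ring
      _ = _ := by rw [this]; ring
  rw [e, integral_add (integrableOn_pow_mul_exp 0 h3) ((integrableOn_pow_mul_exp 1 h3).const_mul _),
    integral_const_mul, integral_pow_mul_exp 0 h3, integral_pow_mul_exp 1 h3]
  norm_num

lemma T_two_g : T 2 g (-(2/3)) = 1 - 4 / 9 * rexp (-(1/3)) := by
  have hτ : (0:ℝ) ≤ 1/3 := by norm_num
  have s1 := T_split (g_lip.TI 2 (-(2/3))) hτ
  have s2 := T_split (TI_const 2 1 (-(2/3))) hτ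
  rw [T_const, T_const] at s2
  have e : ∫ s in Ioc (0:ℝ) (1/3), g (-(2/3) + 2 * s) * rexp (-s)
      = ∫ s in Ioc (0:ℝ) (1/3), 1 * rexp (-s) := by
    refine setIntegral_congr_fun measurableSet_Ioc (fun s hs => ?_)
    rw [g_of_nonpos (by linarith [hs.2])]
  rw [e, show -(2/3:ℝ) + 2 * (1/3) = 0 by norm_num, T_two_g_zero] at s1
  linarith

/-- The lower bound in operator form. -/
theorem Tn_g_ge (n : ℕ) (hn : 0 < n) :
    1 - 4 / 9 * rexp (-(1/3)) - 4 / n
      ≤ Tn (n + 1) (Fin.cons 2 (fun _ => -(2 / (n:ℝ)))) g (4/3) := by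
  set b : ℝ := -(2 / (n:ℝ)) with hb
  have hn' : (0:ℝ) < n := Nat.cast_pos.2 hn
  show _ ≤ T ((Fin.cons 2 (fun _ => b) : Fin (n + 1) → ℝ) 0)
    (Tn n (fun i => (Fin.cons 2 (fun _ => b) : Fin (n + 1) → ℝ) i.succ) g) (4/3)
  simp only [Fin.cons_zero, Fin.cons_succ]
  have ih := Tn_const_ge b n
  have hI1 : TI 2 (fun w => g (w + n * b) - (fun _ => (n:ℝ) * b ^ 2) w) (4/3) :=
    TI_sub (TI_shift (g_lip.TI 2 _)) (TI_const _ _ _)
  have h1 := T_mono (a := 2) (v := 4/3) hI1 ((Tn_lip g_lip n (fun _ => b)).TI 2 (4/3)) ih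
  rw [T_sub (TI_shift (g_lip.TI 2 _)) (TI_const _ _ _), T_const, T_shift] at h1
  have e1 : (4:ℝ)/3 + n * b = -(2/3) := by
    rw [hb]; field_simp; ring
  have e2 : (n:ℝ) * b ^ 2 = 4 / n := by
    rw [hb]; field_simp; ring
  rw [e1, e2, T_two_g] at h1
  exact h1

end Crest.Agent.S0423
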