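import Mathlib

set_option autoImplicit false

namespace Crest.Agent.S0423

open MeasureTheory Set Real

/-- one-step averaging operator: `S a φ y = E φ(y + a X)`, `X` a mean one exponential variable -/
noncomputable def S (a : ℝ) (φ : ℝ → ℝ) (y : ℝ) : ℝ :=
  ∫ t in Ioi (0:ℝ), φ (y + a * t) * exp (-t)

/-- Heaviside function -/
noncomputable def E0 (r : ℝ) : ℝ := if 0 ≤ r then 1 else 0

lemma S_integrable {φ : ℝ → ℝ} (hm : Measurable φ) {C : ℝ} (hC : ∀ y, |φ y| ≤ C) (a y : ℝ) :
    IntegrableOn (fun t => φ (y + a * t) * exp (-t)) (Ioi 0) := by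
  refine Integrable.bdd_mul (c := C) (integrableOn_exp_neg_Ioi 0) ?_ ?_
  · exact (hm.comp (by fun_prop)).aestronglyMeasurable
  · exact Filter.Eventually.of_forall fun t => by simpa using hC _

lemma S_const (a c y : ℝ) : S a (fun _ => c) y = c := by
  unfold S
  rw [integral_const_mul, integral_exp_neg_Ioi_zero, mul_one]

lemma S_zero (φ : ℝ → ℝ) (y : ℝ) : S 0 φ y = φ y := by
  unfold S
  simp only [zero_mul, add_zero]
  rw [integral_const_mul, integral_exp_neg_Ioi_zero, mul_one]

lemma S_le_S {φ ψ : ℝ → ℝ} {a y : ℝ}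
    (hφ : IntegrableOn (fun t => φ (y + a * t) * exp (-t)) (Ioi 0))
    (hψ : IntegrableOn (fun t => ψ (y + a * t) * exp (-t)) (Ioi 0))
    (h : ∀ z, φ z ≤ ψ z) : S a φ y ≤ S a ψ y := by
  unfold S
  refine integral_mono hφ hψ fun t => ?_
  exact mul_le_mul_of_nonneg_right (h _) (exp_pos _).le

lemma S_sub {φ ψ : ℝ → ℝ} {a y : ℝ}
    (hφ : IntegrableOn (fun t => φ (y + a * t) * exp (-t)) (Ioi 0))
    (hψ : IntegrableOn (fun t => ψ (y + a * t) * exp (-t)) (Ioi 0)) :
    S a (fun z => φ z - ψ z) y = S a φ y - S a ψ y := by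
  unfold S
  rw [← integral_sub hφ hψ]
  congr 1
  ext t
  ring

lemma S_const_mul (c : ℝ) (φ : ℝ → ℝ) (a y : ℝ) :
    S a (fun z => c * φ z) y = c * S a φ y := by
  unfold S
  rw [← integral_const_mul]
  congr 1
  ext t
  ring

lemma integrableOn_exp_lin {κ a : ℝ} (h : κ * a < 1) (y : ℝ) :
    IntegrableOn (fun t => exp (κ * (y + a * t)) * exp (-t)) (Ioi 0) := by
  have h1 : (fun t => exp (κ * (y + a * t)) * exp (-t))
      = fun t => exp (κ * y) * exp ((κ * a - 1) * t) := by
    ext t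
    rw [← exp_add, ← exp_add]
    congr 1
    ring
  rw [h1]
  exact (integrableOn_exp_mul_Ioi (by linarith) 0).const_mul _

lemma S_exp {κ a : ℝ} (h : κ * a < 1) (y : ℝ) :
    S a (fun z => exp (κ * z)) y = exp (κ * y) / (1 - κ * a) := by
  unfold S
  have h1 : (fun t => exp (κ * (y + a * t)) * exp (-t))
      = fun t => exp (κ * y) * exp ((κ * a - 1) * t) := by
    ext t
    rw [← exp_add, ← exp_add]
    congr 1
    ring
  rw [h1, integral_const_mul, integral_exp_mul_Ioi (by linarith) 0]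
  have : κ * a - 1 ≠ 0 := by linarith
  have h2 : 1 - κ * a ≠ 0 := by linarith
  simp only [mul_zero, exp_zero]
  field_simp
  ring

/-- translation of an integral over a ray -/
lemma integral_Ioi_shift (f : ℝ → ℝ) (x0 : ℝ) :
    ∫ t in Ioi x0, f t = ∫ t in Ioi (0:ℝ), f (x0 + t) := by
  rw [← integral_indicator measurableSet_Ioi, ← integral_indicator measurableSet_Ioi]
  rw [← integral_add_left_eq_self (μ := volume) (fun t => (Ioi x0).indicator f t) x0]
  congr 1
  ext t
  by_cases ht : 0 < t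
  · rw [indicator_of_mem (by simpa using ht), indicator_of_mem (by simpa using ht)]
  · rw [indicator_of_notMem (by simpa using ht), indicator_of_notMem (by simpa using ht)]

/-- memoryless property -/
lemma S_markov {φ : ℝ → ℝ} {a y : ℝ}
    (hφ : IntegrableOn (fun t => φ (y + a * t) * exp (-t)) (Ioi 0)) {x0 : ℝ} (hx : 0 ≤ x0) :
    S a φ y = (∫ t in Ioc 0 x0, φ (y + a * t) * exp (-t)) + exp (-x0) * S a φ (y + a * x0) := by
  unfold S
  rw [← Ioc_union_Ioi_eq_Ioi hx]
  rw [setIntegral_union (Ioc_disjoint_Ioi le_rfl) measurableSet_Ioi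
    (hφ.mono_set Ioc_subset_Ioi_self) (hφ.mono_set (Ioi_subset_Ioi hx))]
  congr 1
  rw [integral_Ioi_shift, ← integral_const_mul, Ioc_union_Ioi_eq_Ioi hx]
  congr 1
  ext t
  rw [neg_add, exp_add]
  have : y + a * (x0 + t) = y + a * x0 + a * t := by ring
  rw [this]
  ring

lemma exists_pos_of_setIntegral_pos {f : ℝ → ℝ} {s : Set ℝ} (hs : MeasurableSet s)
    (h : 0 < ∫ t in s, f t) : ∃ t ∈ s, 0 < f t := by
  by_contra hcon
  push Not at hcon
  exact absurd (setIntegral_nonpos hs hcon) (not_le.mpr h)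

lemma exists_neg_of_setIntegral_neg {f : ℝ → ℝ} {s : Set ℝ} (hs : MeasurableSet s)
    (h : ∫ t in s, f t < 0) : ∃ t ∈ s, f t < 0 := by
  by_contra hcon
  push Not at hcon
  exact absurd (setIntegral_nonneg hs hcon) (not_le.mpr h)


/-- sign pattern is preserved, case `0 < a` -/
lemma sign_pattern_pos {a : ℝ} (ha : 0 < a) {D : ℝ → ℝ}
    (hint : ∀ y, IntegrableOn (fun t => D (y + a * t) * exp (-t)) (Ioi 0))
    (hP : OrdConnected {z | 0 < D z}) : OrdConnected {y | 0 < S a D y} := by
  constructor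
  intro y1 h1 y3 h3 y2 h2
  simp only [mem_setOf_eq] at h1 h3 ⊢
  by_contra hcon
  have hcon : S a D y2 ≤ 0 := not_lt.mp hcon
  have h12 : y1 < y2 := by
    rcases h2.1.lt_or_eq with h | h
    · exact h
    · subst h; linarith
  have h23 : y2 < y3 := by
    rcases h2.2.lt_or_eq with h | h
    · exact h
    · subst h; linarith
  -- first piece
  have m1 := S_markov (hint y1) (x0 := (y2 - y1) / a) (div_nonneg (by linarith) ha.le)
  have e1 : y1 + a * ((y2 - y1) / a) = y2 := by field_simp; ring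
  rw [e1] at m1
  have p1 : 0 < ∫ t in Ioc 0 ((y2 - y1) / a), D (y1 + a * t) * exp (-t) := by
    have : exp (-((y2 - y1) / a)) * S a D y2 ≤ 0 :=
      mul_nonpos_of_nonneg_of_nonpos (exp_pos _).le hcon
    linarith
  obtain ⟨t1, ht1, hD1⟩ := exists_pos_of_setIntegral_pos measurableSet_Ioc p1
  have hz0 : 0 < D (y1 + a * t1) := by
    by_contra h
    exact absurd hD1 (not_lt.mpr (mul_nonpos_of_nonpos_of_nonneg (not_lt.mp h) (exp_pos _).le))
  have hz0le : y1 + a * t1 ≤ y2 := by
    have := ht1.2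
    rw [le_div_iff₀ ha] at this
    linarith
  -- second piece
  have m2 := S_markov (hint y2) (x0 := (y3 - y2) / a) (div_nonneg (by linarith) ha.le)
  have e2 : y2 + a * ((y3 - y2) / a) = y3 := by field_simp; ring
  rw [e2] at m2
  have p2 : ∫ t in Ioc 0 ((y3 - y2) / a), D (y2 + a * t) * exp (-t) < 0 := by
    have : 0 < exp (-((y3 - y2) / a)) * S a D y3 := mul_pos (exp_pos _) h3
    linarith
  obtain ⟨t2, ht2, hD2⟩ := exists_neg_of_setIntegral_neg measurableSet_Ioc p2
  have hz1 : D (y2 + a * t2) < 0 := by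
    by_contra h
    exact absurd hD2 (not_lt.mpr (mul_nonneg (not_lt.mp h) (exp_pos _).le))
  have hz1lt : y2 < y2 + a * t2 := by
    have := mul_pos ha ht2.1
    linarith
  have hz1le : y2 + a * t2 ≤ y3 := by
    have := ht2.2
    rw [le_div_iff₀ ha] at this
    linarith
  -- third piece
  obtain ⟨t3, ht3, hD3⟩ := exists_pos_of_setIntegral_pos measurableSet_Ioi h3
  have hz2 : 0 < D (y3 + a * t3) := by
    by_contra h
    exact absurd hD3 (not_lt.mpr (mul_nonpos_of_nonpos_of_nonneg (not_lt.mp h) (exp_pos _).le))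
  have hz2lt : y3 < y3 + a * t3 := by
    have := mul_pos ha ht3
    linarith
  have := hP.out (show y1 + a * t1 ∈ {z | 0 < D z} from hz0)
    (show y3 + a * t3 ∈ {z | 0 < D z} from hz2)
    (show y2 + a * t2 ∈ Icc (y1 + a * t1) (y3 + a * t3) from ⟨by linarith, by linarith⟩)
  simp only [mem_setOf_eq] at this
  linarith

lemma S_neg_comp (a : ℝ) (D : ℝ → ℝ) (y : ℝ) : S a D y = S (-a) (fun z => D (-z)) (-y) := by
  unfold S
  congr 1
  ext t
  congr 2
  ring

/-- sign pattern is preserved -/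
lemma sign_pattern (a : ℝ) {D : ℝ → ℝ}
    (hint : ∀ y, IntegrableOn (fun t => D (y + a * t) * exp (-t)) (Ioi 0))
    (hP : OrdConnected {z | 0 < D z}) : OrdConnected {y | 0 < S a D y} := by
  rcases lt_trichotomy a 0 with ha | ha | ha
  · have h1 : OrdConnected {z | 0 < (fun z => D (-z)) z} :=
      hP.preimage_anti (f := fun z : ℝ => -z) (fun x y h => neg_le_neg h)
    have h2 : ∀ y, IntegrableOn (fun t => (fun z => D (-z)) (y + (-a) * t) * exp (-t)) (Ioi 0) := by
      intro y
      have := hint (-y)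
      refine this.congr_fun (fun t _ => ?_) measurableSet_Ioi
      simp only
      congr 2
      ring
    have h3 := sign_pattern_pos (neg_pos.mpr ha) h2 h1
    have h4 : {y | 0 < S a D y} = (fun z : ℝ => -z) ⁻¹' {y | 0 < S (-a) (fun z => D (-z)) y} := by
      ext y
      simp only [mem_setOf_eq, mem_preimage]
      rw [S_neg_comp]
    rw [h4]
    exact h3.preimage_anti (fun x y h => neg_le_neg h)
  · subst ha
    simpa only [S_zero] using hP
  · exact sign_pattern_pos ha hint hP

end Crest.Agent.S0423
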