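import Crest.Agent.S0423_B

set_option autoImplicit false

namespace Crest.Agent.S0423

open MeasureTheory Set Real

lemma E0_mono : Monotone E0 := by
  intro x y h
  unfold E0
  split_ifs with h1 h2
  · exact le_rfl
  · exact absurd (h1.trans h) h2
  · exact zero_le_one
  · exact le_rfl

lemma E0_nonneg (r : ℝ) : 0 ≤ E0 r := by
  unfold E0; split_ifs <;> norm_num

lemma E0_le_one (r : ℝ) : E0 r ≤ 1 := by
  unfold E0; split_ifs <;> norm_num

lemma E0_of_nonneg {r : ℝ} (h : 0 ≤ r) : E0 r = 1 := by
  unfold E0; rw [if_pos h]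

lemma E0_of_neg {r : ℝ} (h : r < 0) : E0 r = 0 := by
  unfold E0; rw [if_neg (not_le.mpr h)]

lemma integral_t_exp {γ : ℝ} (hγ : 0 < γ) : ∫ t in Ioi (0:ℝ), t * exp (-(γ * t)) = 1 / γ ^ 2 := by
  have h := Real.integral_rpow_mul_exp_neg_mul_Ioi (a := 2) (r := γ) (by norm_num) hγ
  have e : (2:ℝ) - 1 = 1 := by norm_num
  rw [e, Real.Gamma_two, mul_one] at h
  simp only [rpow_one] at h
  rw [h]
  rw [show (2:ℝ) = ((2:ℕ):ℝ) by norm_num, rpow_natCast]
  simp

lemma integrableOn_t_exp {γ : ℝ} (hγ : 0 < γ) :
    IntegrableOn (fun t => t * exp (-(γ * t))) (Ioi (0:ℝ)) := by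
  by_contra h
  have h1 := integral_undef h
  rw [integral_t_exp hγ] at h1
  have : 0 < 1 / γ ^ 2 := by positivity
  linarith

lemma E0_shift_eq_of_nonneg {s : ℝ} (hs : 0 ≤ s) :
    (fun y => E0 (y + s) - E0 y) = (Ico (-s) 0).indicator (fun _ => (1:ℝ)) := by
  ext y
  by_cases h1 : 0 ≤ y
  · rw [E0_of_nonneg h1, E0_of_nonneg (by linarith), indicator_of_notMem]
    · ring
    · intro h; exact absurd h.2 (not_lt.mpr h1)
  · have h1 := not_le.mp h1
    by_cases h2 : 0 ≤ y + s
    · rw [E0_of_nonneg h2, E0_of_neg h1, indicator_of_mem]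
      · ring
      · exact ⟨by linarith, h1⟩
    · rw [E0_of_neg (not_le.mp h2), E0_of_neg h1, indicator_of_notMem]
      · ring
      · intro h; exact h2 (by linarith [h.1])

lemma E0_shift_eq_of_nonpos {s : ℝ} (hs : s ≤ 0) :
    (fun y => E0 (y + s) - E0 y) = (Ico 0 (-s)).indicator (fun _ => (-1:ℝ)) := by
  ext y
  by_cases h1 : 0 ≤ y
  · by_cases h2 : 0 ≤ y + s
    · rw [E0_of_nonneg h2, E0_of_nonneg h1, indicator_of_notMem]
      · ring
      · intro h; linarith [h.2]
    · rw [E0_of_neg (not_le.mp h2), E0_of_nonneg h1, indicator_of_mem]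
      · ring
      · exact ⟨h1, by linarith [not_le.mp h2]⟩
  · have h1 := not_le.mp h1
    rw [E0_of_neg h1, E0_of_neg (by linarith), indicator_of_notMem]
    · ring
    · intro h; linarith [h.1]

lemma E0_shift_integrable (s : ℝ) : Integrable (fun y => E0 (y + s) - E0 y) := by
  rcases le_total 0 s with hs | hs
  · rw [E0_shift_eq_of_nonneg hs]
    exact (integrable_indicator_iff measurableSet_Ico).mpr (integrableOn_const (by simp))
  · rw [E0_shift_eq_of_nonpos hs]
    exact (integrable_indicator_iff measurableSet_Ico).mpr (integrableOn_const (by simp))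

lemma E0_shift_integral (s : ℝ) : ∫ y, (E0 (y + s) - E0 y) = s := by
  rcases le_total 0 s with hs | hs
  · rw [E0_shift_eq_of_nonneg hs, integral_indicator measurableSet_Ico]
    simp [hs]
  · rw [E0_shift_eq_of_nonpos hs, integral_indicator measurableSet_Ico]
    simp [hs]

lemma E0_shift_norm (s : ℝ) : ∫ y, ‖E0 (y + s) - E0 y‖ = |s| := by
  rcases le_total 0 s with hs | hs
  · have : (fun y => ‖E0 (y + s) - E0 y‖) = (Ico (-s) 0).indicator (fun _ => (1:ℝ)) := by
      ext y
      rw [congrFun (E0_shift_eq_of_nonneg hs) y]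
      by_cases h : y ∈ Ico (-s) 0
      · rw [indicator_of_mem h]; simp
      · rw [indicator_of_notMem h]; simp
    rw [this, integral_indicator measurableSet_Ico]
    simp [hs, abs_of_nonneg hs]
  · have : (fun y => ‖E0 (y + s) - E0 y‖) = (Ico 0 (-s)).indicator (fun _ => (1:ℝ)) := by
      ext y
      rw [congrFun (E0_shift_eq_of_nonpos hs) y]
      by_cases h : y ∈ Ico 0 (-s)
      · rw [indicator_of_mem h, indicator_of_mem h]; simp
      · rw [indicator_of_notMem h, indicator_of_notMem h]; simp
    rw [this, integral_indicator measurableSet_Ico]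
    simp [hs, abs_of_nonpos hs]


/-- The class of distribution functions we work with. -/
structure Good (F : ℝ → ℝ) (m : ℝ) : Prop where
  mono : Monotone F
  nonneg : ∀ r, 0 ≤ F r
  le_one : ∀ r, F r ≤ 1
  conn : ∀ A κ : ℝ, 0 < A → 0 < κ → OrdConnected {r | A * exp (κ * r) < F r}
  integrable : Integrable (fun r => F r - E0 r)
  mean : ∫ r, (F r - E0 r) = m

lemma good_E0 : Good E0 0 where
  mono := E0_mono
  nonneg := E0_nonneg
  le_one := E0_le_one
  conn := by
    intro A κ hA hκ
    constructor
    intro x hx z hz y hy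
    simp only [mem_setOf_eq] at hx hz ⊢
    have hx0 : 0 ≤ x := by
      by_contra h
      rw [E0_of_neg (not_le.mp h)] at hx
      have := mul_pos hA (exp_pos (κ * x))
      linarith
    rw [E0_of_nonneg (hx0.trans hy.1)]
    have h1 : A * exp (κ * y) ≤ A * exp (κ * z) := by
      apply mul_le_mul_of_nonneg_left _ hA.le
      apply exp_le_exp.mpr
      exact mul_le_mul_of_nonneg_left hy.2 hκ.le
    have := E0_le_one z
    linarith
  integrable := by simp
  mean := by simp

section
variable {F : ℝ → ℝ}

lemma S_int_of_bdd (hm : Monotone F) (h0 : ∀ r, 0 ≤ F r) (h1 : ∀ r, F r ≤ 1) (a y : ℝ) :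
    IntegrableOn (fun t => F (y + a * t) * exp (-t)) (Ioi 0) :=
  S_integrable hm.measurable (C := 1) (fun z => by rw [abs_of_nonneg (h0 z)]; exact h1 z) a y

lemma S_monotone (hm : Monotone F) (h0 : ∀ r, 0 ≤ F r) (h1 : ∀ r, F r ≤ 1) (a : ℝ) :
    Monotone (S a F) := by
  intro y y' h
  unfold S
  refine integral_mono (S_int_of_bdd hm h0 h1 a y) (S_int_of_bdd hm h0 h1 a y') fun t => ?_
  exact mul_le_mul_of_nonneg_right (hm (by linarith)) (exp_pos _).le

lemma S_nonneg (h0 : ∀ r, 0 ≤ F r) (a y : ℝ) : 0 ≤ S a F y := by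
  unfold S
  exact setIntegral_nonneg measurableSet_Ioi fun t _ => mul_nonneg (h0 _) (exp_pos _).le

lemma S_le_one (hm : Monotone F) (h0 : ∀ r, 0 ≤ F r) (h1 : ∀ r, F r ≤ 1) (a y : ℝ) :
    S a F y ≤ 1 := by
  have := S_le_S (φ := F) (ψ := fun _ => 1) (a := a) (y := y) (S_int_of_bdd hm h0 h1 a y)
    (by simpa using integrableOn_exp_neg_Ioi 0) h1
  rwa [S_const] at this

lemma conn_S (hm : Monotone F) (h0 : ∀ r, 0 ≤ F r) (h1 : ∀ r, F r ≤ 1)
    (hc : ∀ A κ : ℝ, 0 < A → 0 < κ → OrdConnected {r | A * exp (κ * r) < F r}) (a : ℝ)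
    (A κ : ℝ) (hA : 0 < A) (hκ : 0 < κ) : OrdConnected {r | A * exp (κ * r) < S a F r} := by
  have hFi := S_int_of_bdd hm h0 h1 a
  by_cases hκa : κ * a < 1
  · have hA'pos : 0 < A * (1 - κ * a) := mul_pos hA (by linarith)
    have hEi : ∀ y, IntegrableOn
        (fun t => (fun z => A * (1 - κ * a) * exp (κ * z)) (y + a * t) * exp (-t)) (Ioi 0) := by
      intro y
      have : IntegrableOn (fun t => A * (1 - κ * a) * (exp (κ * (y + a * t)) * exp (-t))) (Ioi 0) :=
        (integrableOn_exp_lin hκa y).const_mul (A * (1 - κ * a))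
      refine this.congr_fun (fun t _ => ?_) measurableSet_Ioi
      simp only
      ring
    have hDi : ∀ y, IntegrableOn
        (fun t => (fun z => F z - A * (1 - κ * a) * exp (κ * z)) (y + a * t) * exp (-t))
        (Ioi 0) := by
      intro y
      have : IntegrableOn (fun t => F (y + a * t) * exp (-t)
          - (fun z => A * (1 - κ * a) * exp (κ * z)) (y + a * t) * exp (-t)) (Ioi 0) :=
        (hFi y).sub (hEi y)
      refine this.congr_fun (fun t _ => ?_) measurableSet_Ioi
      simp only
      ring
    have hSD : ∀ y, S a (fun z => F z - A * (1 - κ * a) * exp (κ * z)) y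
        = S a F y - A * exp (κ * y) := by
      intro y
      rw [S_sub (hFi y) (hEi y), S_const_mul, S_exp hκa]
      have : 1 - κ * a ≠ 0 := by linarith
      field_simp
    have hP : OrdConnected {z | 0 < (fun z => F z - A * (1 - κ * a) * exp (κ * z)) z} := by
      have := hc _ κ hA'pos hκ
      have e : {z | 0 < (fun z => F z - A * (1 - κ * a) * exp (κ * z)) z}
          = {r | A * (1 - κ * a) * exp (κ * r) < F r} := by
        ext z
        simp only [mem_setOf_eq, sub_pos]
      rw [e]
      exact this
    have h3 := sign_pattern a hDi hP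
    have e : {r | A * exp (κ * r) < S a F r}
        = {y | 0 < S a (fun z => F z - A * (1 - κ * a) * exp (κ * z)) y} := by
      ext y
      simp only [mem_setOf_eq]
      rw [hSD, sub_pos]
    rw [e]
    exact h3
  · have hκa : 1 ≤ κ * a := not_lt.mp hκa
    have ha : 0 < a := by
      by_contra h
      have := mul_nonpos_of_nonneg_of_nonpos hκ.le (not_lt.mp h)
      linarith
    constructor
    intro y1 _ y3 h3 y2 h2
    simp only [mem_setOf_eq] at h3 ⊢
    have m2 := S_markov (hFi y2) (x0 := (y3 - y2) / a) (div_nonneg (by linarith [h2.2]) ha.le)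
    have e2 : y2 + a * ((y3 - y2) / a) = y3 := by field_simp; ring
    rw [e2] at m2
    have p2 : 0 ≤ ∫ t in Ioc 0 ((y3 - y2) / a), F (y2 + a * t) * exp (-t) :=
      setIntegral_nonneg measurableSet_Ioc fun t _ => mul_nonneg (h0 _) (exp_pos _).le
    have h4 : exp (-((y3 - y2) / a)) * (A * exp (κ * y3)) < exp (-((y3 - y2) / a)) * S a F y3 :=
      mul_lt_mul_of_pos_left h3 (exp_pos _)
    have h5 : A * exp (κ * y2) ≤ exp (-((y3 - y2) / a)) * (A * exp (κ * y3)) := by
      have : exp (-((y3 - y2) / a)) * (A * exp (κ * y3))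
          = A * exp (-((y3 - y2) / a) + κ * y3) := by rw [exp_add]; ring
      rw [this]
      apply mul_le_mul_of_nonneg_left _ hA.le
      apply exp_le_exp.mpr
      have h6 : (y3 - y2) / a ≤ κ * (y3 - y2) := by
        rw [div_le_iff₀ ha]
        have : 0 ≤ (y3 - y2) * (κ * a - 1) := mul_nonneg (by linarith [h2.2]) (by linarith)
        nlinarith
      linarith
    linarith


lemma mean_S (hm : Monotone F) (h0 : ∀ r, 0 ≤ F r) (h1 : ∀ r, F r ≤ 1) {m : ℝ}
    (hI : Integrable (fun r => F r - E0 r)) (hmean : ∫ r, (F r - E0 r) = m) (a : ℝ) :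
    Integrable (fun r => S a F r - E0 r) ∧ ∫ r, (S a F r - E0 r) = m + a := by
  have hFm : Measurable F := hm.measurable
  have hEm : Measurable E0 := E0_mono.measurable
  have hf1 : Integrable (fun p : ℝ × ℝ => (F (p.1 + a * p.2) - E0 (p.1 + a * p.2)) * exp (-p.2))
      ((volume : Measure ℝ).prod (volume.restrict (Ioi 0))) := by
    rw [integrable_prod_iff']
    · constructor
      · refine Filter.Eventually.of_forall fun t => ?_
        exact (hI.comp_add_right (a * t)).mul_const (exp (-t))
      · have : (fun t => ∫ y, ‖(F (y + a * t) - E0 (y + a * t)) * exp (-t)‖)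
            = fun t => (∫ y, ‖F y - E0 y‖) * exp (-t) := by
          ext t
          simp_rw [norm_mul, Real.norm_of_nonneg (exp_pos _).le]
          rw [integral_mul_const]
          rw [integral_add_right_eq_self (fun y => ‖F y - E0 y‖)]
        rw [this]
        exact (integrableOn_exp_neg_Ioi 0).const_mul _
    · apply Measurable.aestronglyMeasurable
      apply Measurable.mul
      · exact (hFm.comp (by fun_prop)).sub (hEm.comp (by fun_prop))
      · fun_prop
  have hf2 : Integrable (fun p : ℝ × ℝ => (E0 (p.1 + a * p.2) - E0 p.1) * exp (-p.2))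
      ((volume : Measure ℝ).prod (volume.restrict (Ioi 0))) := by
    rw [integrable_prod_iff']
    · constructor
      · refine Filter.Eventually.of_forall fun t => ?_
        exact (E0_shift_integrable (a * t)).mul_const (exp (-t))
      · have : (fun t => ∫ y, ‖(E0 (y + a * t) - E0 y) * exp (-t)‖)
            = fun t => |a * t| * exp (-t) := by
          ext t
          simp_rw [norm_mul, Real.norm_of_nonneg (exp_pos _).le]
          rw [integral_mul_const, E0_shift_norm]
        rw [this]
        have h2 : IntegrableOn (fun t => |a| * (t * exp (-(1 * t)))) (Ioi (0:ℝ)) :=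
          (integrableOn_t_exp one_pos).const_mul _
        refine h2.congr_fun (fun t ht => ?_) measurableSet_Ioi
        simp only [abs_mul, abs_of_pos (show (0:ℝ) < t from ht), one_mul]
        ring
    · apply Measurable.aestronglyMeasurable
      apply Measurable.mul
      · exact (hEm.comp (by fun_prop)).sub (hEm.comp (by fun_prop))
      · fun_prop
  have hf : Integrable (Function.uncurry fun (y t : ℝ) => (F (y + a * t) - E0 y) * exp (-t))
      ((volume : Measure ℝ).prod (volume.restrict (Ioi 0))) := by
    refine (hf1.add hf2).congr (Filter.Eventually.of_forall fun p => ?_)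
    simp only [Pi.add_apply, Function.uncurry]
    ring
  have hS : ∀ y, S a F y - E0 y = ∫ t in Ioi (0:ℝ), (F (y + a * t) - E0 y) * exp (-t) := by
    intro y
    have e : (fun t => (F (y + a * t) - E0 y) * exp (-t))
        = fun t => F (y + a * t) * exp (-t) - E0 y * exp (-t) := by
      ext t; ring
    rw [e, integral_sub (S_int_of_bdd hm h0 h1 a y) ((integrableOn_exp_neg_Ioi 0).const_mul _),
      integral_const_mul, integral_exp_neg_Ioi_zero, mul_one]
    rfl
  constructor
  · have := hf.integral_prod_left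
    refine this.congr (Filter.Eventually.of_forall fun y => ?_)
    simp only [Function.uncurry]
    rw [hS]
  · simp_rw [hS]
    rw [integral_integral_swap hf]
    have hin : ∀ t : ℝ, ∫ y, (F (y + a * t) - E0 y) * exp (-t) = (m + a * t) * exp (-t) := by
      intro t
      rw [integral_mul_const]
      congr 1
      have e : (fun y => F (y + a * t) - E0 y)
          = fun y => (F (y + a * t) - E0 (y + a * t)) + (E0 (y + a * t) - E0 y) := by
        ext y; ring
      rw [e, integral_add (hI.comp_add_right (a * t)) (E0_shift_integrable _),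
        E0_shift_integral, integral_add_right_eq_self (fun y => F y - E0 y), hmean]
    simp_rw [hin]
    have e : (fun t => (m + a * t) * exp (-t))
        = fun t => m * exp (-t) + a * (t * exp (-(1 * t))) := by
      ext t; rw [one_mul]; ring
    rw [e, integral_add ((integrableOn_exp_neg_Ioi 0).const_mul _)
      ((integrableOn_t_exp one_pos).const_mul _), integral_const_mul, integral_const_mul,
      integral_exp_neg_Ioi_zero, integral_t_exp one_pos]
    norm_num

lemma good_S {m : ℝ} (h : Good F m) (a : ℝ) : Good (S a F) (m + a) where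
  mono := S_monotone h.mono h.nonneg h.le_one a
  nonneg := S_nonneg h.nonneg a
  le_one := S_le_one h.mono h.nonneg h.le_one a
  conn := conn_S h.mono h.nonneg h.le_one h.conn a
  integrable := (mean_S h.mono h.nonneg h.le_one h.integrable h.mean a).1
  mean := (mean_S h.mono h.nonneg h.le_one h.integrable h.mean a).2

end

end Crest.Agent.S0423
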