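import Crest.Agent.S0423_C

set_option autoImplicit false

namespace Crest.Agent.S0423

open MeasureTheory Set Real

lemma three_point {x y z : ℝ} (hx : 0 ≤ x) (hxy : x ≤ y) (hyz : y ≤ z) :
    (z - y) * negMulLog x + (y - x) * negMulLog z ≤ (z - x) * negMulLog y := by
  rcases (hxy.trans hyz).eq_or_lt with h | h
  · have h1 : y = x := le_antisymm (by linarith) hxy
    subst h1
    have h2 : z = y := h.symm
    subst h2
    simp
  · have hd : 0 < z - x := by linarith
    have hc := Real.concaveOn_negMulLog.2 (show x ∈ Ici (0:ℝ) from hx)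
      (show z ∈ Ici (0:ℝ) from hx.trans (hxy.trans hyz))
      (show 0 ≤ (z - y) / (z - x) from div_nonneg (by linarith) hd.le)
      (show 0 ≤ (y - x) / (z - x) from div_nonneg (by linarith) hd.le) (by field_simp; ring)
    have e : ((z - y) / (z - x)) • x + ((y - x) / (z - x)) • z = y := by
      simp only [smul_eq_mul]
      field_simp
      ring
    rw [e] at hc
    simp only [smul_eq_mul] at hc
    have := mul_le_mul_of_nonneg_left hc hd.le
    have e2 : (z - x) * ((z - y) / (z - x) * negMulLog x + (y - x) / (z - x) * negMulLog z)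
        = (z - y) * negMulLog x + (y - x) * negMulLog z := by
      field_simp
    rw [e2] at this
    exact this

lemma negMulLog_chord {s1 s2 : ℝ} (h1 : 0 ≤ s1) (h12 : s1 < s2) :
    ∃ α β : ℝ, (∀ x, s1 ≤ x → x ≤ s2 → α + β * x ≤ negMulLog x) ∧
      (∀ x, 0 ≤ x → x ≤ s1 → negMulLog x ≤ α + β * x) ∧
      (∀ x, s2 ≤ x → negMulLog x ≤ α + β * x) := by
  have hd : 0 < s2 - s1 := by linarith
  have key : ∀ x, (s2 - s1) * (negMulLog s1 - (negMulLog s2 - negMulLog s1) / (s2 - s1) * s1
        + (negMulLog s2 - negMulLog s1) / (s2 - s1) * x)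
        = (s2 - x) * negMulLog s1 + (x - s1) * negMulLog s2 := by
    intro x
    field_simp
    ring
  refine ⟨negMulLog s1 - (negMulLog s2 - negMulLog s1) / (s2 - s1) * s1,
    (negMulLog s2 - negMulLog s1) / (s2 - s1), ?_, ?_, ?_⟩
  · intro x hx1 hx2
    refine le_of_mul_le_mul_left ?_ hd
    rw [key]
    exact three_point h1 hx1 hx2
  · intro x hx1 hx2
    refine le_of_mul_le_mul_left ?_ hd
    rw [key]
    have := three_point hx1 hx2 h12.le
    linarith
  · intro x hx1
    refine le_of_mul_le_mul_left ?_ hd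
    rw [key]
    have := three_point h1 h12.le hx1
    linarith

lemma negMulLog_tangent {s : ℝ} (hs : 0 < s) {x : ℝ} (hx : 0 ≤ x) :
    negMulLog x ≤ negMulLog s + (-log s - 1) * (x - s) := by
  rcases hx.eq_or_lt with h | h
  · subst h
    simp only [negMulLog]
    nlinarith
  · have h1 := Real.log_le_sub_one_of_pos (div_pos hs h)
    rw [log_div hs.ne' h.ne'] at h1
    have h2 := mul_le_mul_of_nonneg_left h1 h.le
    have e : x * (s / x - 1) = s - x := by field_simp
    rw [e] at h2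
    simp only [negMulLog]
    nlinarith

lemma negMulLog_le_one {x : ℝ} (hx : 0 ≤ x) : negMulLog x ≤ 1 := by
  have := negMulLog_tangent one_pos hx
  simp at this
  linarith

lemma sep {P : Set ℝ} (hP : P.OrdConnected) {ℓ : ℝ → ℝ} (hm : Monotone ℓ) (h0 : ∀ r, 0 < ℓ r)
    (h1 : ∀ r, ℓ r ≤ 1) :
    ∃ α β : ℝ, (∀ r ∈ P, α + β * ℓ r ≤ negMulLog (ℓ r)) ∧
      (∀ r, r ∉ P → negMulLog (ℓ r) ≤ α + β * ℓ r) := by
  by_cases hne : P.Nonempty
  · have hbb : BddBelow (ℓ '' P) := ⟨0, by rintro _ ⟨r, _, rfl⟩; exact (h0 r).le⟩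
    have hba : BddAbove (ℓ '' P) := ⟨1, by rintro _ ⟨r, _, rfl⟩; exact h1 r⟩
    have hne' : (ℓ '' P).Nonempty := hne.image ℓ
    set s1 := sInf (ℓ '' P) with hs1
    set s2 := sSup (ℓ '' P) with hs2
    have hlo : ∀ r ∈ P, s1 ≤ ℓ r := fun r hr => csInf_le hbb ⟨r, hr, rfl⟩
    have hhi : ∀ r ∈ P, ℓ r ≤ s2 := fun r hr => le_csSup hba ⟨r, hr, rfl⟩
    have hs1nn : 0 ≤ s1 := le_csInf hne' (by rintro _ ⟨r, _, rfl⟩; exact (h0 r).le)
    have hout : ∀ r, r ∉ P → ℓ r ≤ s1 ∨ s2 ≤ ℓ r := by
      intro r hr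
      by_cases hA : ∀ x ∈ P, r ≤ x
      · left
        exact le_csInf hne' (by rintro _ ⟨x, hx, rfl⟩; exact hm (hA x hx))
      · right
        push Not at hA
        obtain ⟨x, hx, hxr⟩ := hA
        apply csSup_le hne'
        rintro _ ⟨z, hz, rfl⟩
        apply hm
        by_contra hcon
        exact hr (hP.out hx hz ⟨hxr.le, (not_le.mp hcon).le⟩)
    obtain ⟨r0, hr0⟩ := hne
    rcases ((hlo r0 hr0).trans (hhi r0 hr0)).eq_or_lt with h12 | h12
    · -- degenerate
      have hs : 0 < s1 := by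
        have : ℓ r0 = s1 := le_antisymm (by rw [h12]; exact hhi r0 hr0) (hlo r0 hr0)
        rw [← this]; exact h0 r0
      refine ⟨negMulLog s1 - (-log s1 - 1) * s1, -log s1 - 1, ?_, ?_⟩
      · intro r hr
        have : ℓ r = s1 := le_antisymm (by rw [h12]; exact hhi r hr) (hlo r hr)
        rw [this]
        linarith
      · intro r _
        have := negMulLog_tangent hs (h0 r).le
        linarith
    · obtain ⟨α, β, hin, hl, hr⟩ := negMulLog_chord hs1nn h12
      refine ⟨α, β, fun r hr' => hin _ (hlo r hr') (hhi r hr'), fun r hr' => ?_⟩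
      rcases hout r hr' with h | h
      · exact hl _ (h0 r).le h
      · exact hr _ h
  · refine ⟨1, 0, fun r hr => absurd ⟨r, hr⟩ hne, fun r _ => ?_⟩
    have := negMulLog_le_one (h0 r).le
    linarith


/-- comparison lemma -/
lemma cmp {F Ft ℓ : ℝ → ℝ} (hm : Monotone ℓ) (h0 : ∀ r, 0 < ℓ r) (h1 : ∀ r, ℓ r ≤ 1)
    (hD : Integrable (fun r => F r - Ft r))
    (hz : ∫ r, (F r - Ft r) = 0) (hl : ∫ r, ℓ r * (F r - Ft r) = 0)
    (hc : OrdConnected {r | Ft r < F r}) :
    0 ≤ ∫ r, negMulLog (ℓ r) * (F r - Ft r) := by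
  obtain ⟨α, β, hin, hout⟩ := sep hc hm h0 h1
  have hlD : Integrable (fun r => ℓ r * (F r - Ft r)) :=
    hD.bdd_mul (c := 1) hm.measurable.aestronglyMeasurable
      (Filter.Eventually.of_forall fun r => by
        rw [Real.norm_of_nonneg (h0 r).le]; exact h1 r)
  have hwD : Integrable (fun r => negMulLog (ℓ r) * (F r - Ft r)) :=
    hD.bdd_mul (c := 1)
      ((continuous_negMulLog.measurable.comp hm.measurable).aestronglyMeasurable)
      (Filter.Eventually.of_forall fun r => by
        rw [Real.norm_of_nonneg (negMulLog_nonneg (h0 r).le (h1 r))]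
        exact negMulLog_le_one (h0 r).le)
  have hpt : ∀ r, 0 ≤ (negMulLog (ℓ r) - α - β * ℓ r) * (F r - Ft r) := by
    intro r
    by_cases hr : Ft r < F r
    · exact mul_nonneg (by linarith [hin r hr]) (by linarith)
    · exact mul_nonneg_of_nonpos_of_nonpos (by linarith [hout r hr]) (by linarith [not_lt.mp hr])
  have h3 : 0 ≤ ∫ r, (negMulLog (ℓ r) - α - β * ℓ r) * (F r - Ft r) := integral_nonneg hpt
  have e : (fun r => (negMulLog (ℓ r) - α - β * ℓ r) * (F r - Ft r))
      = fun r => negMulLog (ℓ r) * (F r - Ft r) - α * (F r - Ft r) - β * (ℓ r * (F r - Ft r)) := by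
    ext r; ring
  have hs1 : Integrable (fun r => negMulLog (ℓ r) * (F r - Ft r) - α * (F r - Ft r)) :=
    hwD.sub (hD.const_mul α)
  rw [e, integral_sub hs1 (hlD.const_mul β),
    integral_sub hwD (hD.const_mul α), integral_const_mul, integral_const_mul, hz, hl] at h3
  linarith

end Crest.Agent.S0423
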