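import Crest.Agent.S0423_D

set_option autoImplicit false

namespace Crest.Agent.S0423

open MeasureTheory Set Real

/-- density of the sum of two independent mean one exponentials -/
noncomputable def w0 (t : ℝ) : ℝ := if 0 < t then t * exp (-t) else 0

/-- convolution with `w0` -/
noncomputable def Cw (F : ℝ → ℝ) (y : ℝ) : ℝ := ∫ t, w0 t * F (y - t)

/-- distribution function of the sum of two independent mean one exponentials -/
noncomputable def G (y : ℝ) : ℝ := if y ≤ 0 then 0 else 1 - (1 + y) * exp (-y)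

lemma w0_eq_indicator : w0 = (Ioi (0:ℝ)).indicator (fun t => t * exp (-(1 * t))) := by
  ext t
  unfold w0
  by_cases h : 0 < t
  · rw [if_pos h, indicator_of_mem (show t ∈ Ioi (0:ℝ) from h), one_mul]
  · rw [if_neg h, indicator_of_notMem (show t ∉ Ioi (0:ℝ) from h)]

lemma w0_nonneg (t : ℝ) : 0 ≤ w0 t := by
  unfold w0
  split_ifs with h
  · exact mul_nonneg h.le (exp_pos _).le
  · exact le_rfl

lemma w0_integrable : Integrable w0 := by
  rw [w0_eq_indicator, integrable_indicator_iff measurableSet_Ioi]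
  exact integrableOn_t_exp one_pos

lemma w0_integral : ∫ t, w0 t = 1 := by
  rw [w0_eq_indicator, integral_indicator measurableSet_Ioi, integral_t_exp one_pos]
  norm_num

lemma w0_measurable : Measurable w0 := by
  rw [w0_eq_indicator]
  exact Measurable.indicator (by fun_prop) measurableSet_Ioi

lemma Cw_integrable {F : ℝ → ℝ} (hm : Measurable F) {C : ℝ} (hC : ∀ y, |F y| ≤ C) (y : ℝ) :
    Integrable (fun t => w0 t * F (y - t)) := by
  refine w0_integrable.mul_bdd (c := C) ?_ ?_
  · exact (hm.comp (by fun_prop)).aestronglyMeasurable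
  · exact Filter.Eventually.of_forall fun t => by simpa using hC _

lemma Cw_mono {F : ℝ → ℝ} (hm : Monotone F) (h0 : ∀ r, 0 ≤ F r) (h1 : ∀ r, F r ≤ 1) :
    Monotone (Cw F) := by
  have hb : ∀ y, |F y| ≤ 1 := fun z => by rw [abs_of_nonneg (h0 z)]; exact h1 z
  intro y y' h
  unfold Cw
  refine integral_mono (Cw_integrable hm.measurable hb y) (Cw_integrable hm.measurable hb y')
    fun t => ?_
  exact mul_le_mul_of_nonneg_left (hm (by linarith)) (w0_nonneg t)

lemma Cw_nonneg {F : ℝ → ℝ} (h0 : ∀ r, 0 ≤ F r) (y : ℝ) : 0 ≤ Cw F y :=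
  integral_nonneg fun t => mul_nonneg (w0_nonneg t) (h0 _)

lemma Cw_le_one {F : ℝ → ℝ} (hm : Monotone F) (h0 : ∀ r, 0 ≤ F r) (h1 : ∀ r, F r ≤ 1) (y : ℝ) :
    Cw F y ≤ 1 := by
  have hb : ∀ y, |F y| ≤ 1 := fun z => by rw [abs_of_nonneg (h0 z)]; exact h1 z
  rw [← w0_integral]
  unfold Cw
  refine integral_mono (Cw_integrable hm.measurable hb y) w0_integrable fun t => ?_
  have := mul_le_mul_of_nonneg_left (h1 (y - t)) (w0_nonneg t)
  simpa using this

/-- Fubini: the two averaging operations commute -/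
lemma Cw_S {F : ℝ → ℝ} (hm : Measurable F) {C : ℝ} (hC : ∀ y, |F y| ≤ C) (a y : ℝ) :
    Cw (S a F) y = S a (Cw F) y := by
  unfold Cw S
  have hint : Integrable (Function.uncurry fun (t s : ℝ) => w0 t * (F (y - t + a * s) * exp (-s)))
      ((volume : Measure ℝ).prod (volume.restrict (Ioi 0))) := by
    have h1 : Integrable (fun z : ℝ × ℝ => w0 z.1 * exp (-z.2))
        ((volume : Measure ℝ).prod (volume.restrict (Ioi 0))) :=
      w0_integrable.mul_prod (integrableOn_exp_neg_Ioi 0)
    have h2 := h1.bdd_mul (f := fun z : ℝ × ℝ => F (y - z.1 + a * z.2)) (c := C)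
      (hm.comp (by fun_prop)).aestronglyMeasurable
      (Filter.Eventually.of_forall fun z => by simpa using hC _)
    refine h2.congr (Filter.Eventually.of_forall fun z => ?_)
    simp only [Function.uncurry]
    ring
  simp_rw [← integral_const_mul]
  rw [integral_integral_swap hint]
  congr 1
  ext s
  rw [← integral_mul_const]
  congr 1
  ext t
  have : y - t + a * s = y + a * s - t := by ring
  rw [this]
  ring


lemma G_of_nonneg {y : ℝ} (hy : 0 ≤ y) : G y = 1 - (1 + y) * exp (-y) := by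
  unfold G
  rcases hy.eq_or_lt with h | h
  · subst h; simp
  · rw [if_neg (not_le.mpr h)]

lemma G_of_nonpos {y : ℝ} (hy : y ≤ 0) : G y = 0 := by
  unfold G; rw [if_pos hy]

lemma integral_t_exp_Ioc {y : ℝ} (hy : 0 ≤ y) :
    ∫ t in Ioc 0 y, t * exp (-t) = 1 - (1 + y) * exp (-y) := by
  rw [← intervalIntegral.integral_of_le hy]
  have hd : ∀ x ∈ uIcc 0 y, HasDerivAt (fun t : ℝ => -((1 + t) * exp (-t))) (x * exp (-x)) x := by
    intro x _
    have h1 : HasDerivAt (fun t : ℝ => 1 + t) 1 x := (hasDerivAt_id x).const_add 1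
    have h2 : HasDerivAt (fun t : ℝ => exp (-t)) (exp (-x) * (-1)) x :=
      (Real.hasDerivAt_exp (-x)).comp x (hasDerivAt_neg x)
    have h3 : HasDerivAt (fun t : ℝ => -((1 + t) * exp (-t)))
        (-(1 * exp (-x) + (1 + x) * (exp (-x) * (-1)))) x := (h1.mul h2).neg
    exact h3.congr_deriv (by ring)
  rw [intervalIntegral.integral_eq_sub_of_hasDerivAt hd
    (Continuous.intervalIntegrable (by fun_prop) _ _)]
  simp
  ring

lemma Cw_E0 (y : ℝ) : Cw E0 y = G y := by
  unfold Cw
  rcases le_or_gt y 0 with hy | hy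
  · rw [G_of_nonpos hy]
    have : (fun t => w0 t * E0 (y - t)) = fun _ => 0 := by
      ext t
      by_cases ht : 0 < t
      · rw [E0_of_neg (by linarith), mul_zero]
      · unfold w0; rw [if_neg ht, zero_mul]
    rw [this]; simp
  · rw [G_of_nonneg hy.le, ← integral_t_exp_Ioc hy.le, ← integral_indicator measurableSet_Ioc]
    congr 1
    ext t
    by_cases ht : t ∈ Ioc 0 y
    · rw [indicator_of_mem ht, E0_of_nonneg (by linarith [ht.2]), mul_one]
      unfold w0; rw [if_pos ht.1]
    · rw [indicator_of_notMem ht]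
      by_cases ht0 : 0 < t
      · have : y < t := by
          by_contra h
          exact ht ⟨ht0, not_lt.mp h⟩
        rw [E0_of_neg (by linarith), mul_zero]
      · unfold w0; rw [if_neg ht0, zero_mul]

lemma G_mono : Monotone G := by
  have : G = Cw E0 := by ext y; rw [Cw_E0]
  rw [this]; exact Cw_mono E0_mono E0_nonneg E0_le_one

lemma G_nonneg (y : ℝ) : 0 ≤ G y := by
  rw [← Cw_E0]; exact Cw_nonneg E0_nonneg y

lemma G_le_one (y : ℝ) : G y ≤ 1 := by
  rw [← Cw_E0]; exact Cw_le_one E0_mono E0_nonneg E0_le_one y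

lemma integral_exp_neg_mul {γ : ℝ} (hγ : 0 < γ) : ∫ t in Ioi (0:ℝ), exp (-(γ * t)) = 1 / γ := by
  have := integral_exp_mul_Ioi (a := -γ) (by linarith) 0
  simp only [neg_mul, mul_zero, exp_zero] at this
  rw [this]
  field_simp

lemma integrableOn_exp_neg_mul {γ : ℝ} (hγ : 0 < γ) :
    IntegrableOn (fun t => exp (-(γ * t))) (Ioi (0:ℝ)) := by
  have := integrableOn_exp_mul_Ioi (a := -γ) (by linarith) 0
  simpa only [neg_mul] using this

lemma S_G_of_nonneg {p y : ℝ} (hp : 0 ≤ p) (hy : 0 ≤ y) :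
    S p G y = 1 - exp (-y) * ((1 + y) / (1 + p) + p / (1 + p) ^ 2) := by
  unfold S
  have hγ : 0 < 1 + p := by linarith
  have e : ∀ t ∈ Ioi (0:ℝ), G (y + p * t) * exp (-t)
      = exp (-t) - (exp (-y) * (1 + y)) * exp (-((1 + p) * t))
        - (exp (-y) * p) * (t * exp (-((1 + p) * t))) := by
    intro t ht
    have ht : 0 < t := ht
    rw [G_of_nonneg (by positivity)]
    have e1 : exp (-(y + p * t)) * exp (-t) = exp (-y) * exp (-((1 + p) * t)) := by
      rw [← exp_add, ← exp_add]; congr 1; ring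
    have : (1 - (1 + (y + p * t)) * exp (-(y + p * t))) * exp (-t)
        = exp (-t) - (1 + (y + p * t)) * (exp (-(y + p * t)) * exp (-t)) := by ring
    rw [this, e1]
    ring
  rw [setIntegral_congr_fun measurableSet_Ioi e]
  have i1 := integrableOn_exp_neg_Ioi 0
  have i2 : IntegrableOn (fun t => (exp (-y) * (1 + y)) * exp (-((1 + p) * t))) (Ioi (0:ℝ)) :=
    (integrableOn_exp_neg_mul hγ).const_mul _
  have i3 : IntegrableOn (fun t => (exp (-y) * p) * (t * exp (-((1 + p) * t)))) (Ioi (0:ℝ)) :=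
    (integrableOn_t_exp hγ).const_mul _
  have i12 : IntegrableOn (fun t => exp (-t) - (exp (-y) * (1 + y)) * exp (-((1 + p) * t)))
      (Ioi (0:ℝ)) := i1.sub i2
  rw [integral_sub i12 i3, integral_sub i1 i2, integral_const_mul, integral_const_mul,
    integral_exp_neg_Ioi_zero, integral_exp_neg_mul hγ, integral_t_exp hγ]
  field_simp
  ring

lemma S_G_of_neg {p y : ℝ} (hp : 0 < p) (hy : y ≤ 0) :
    S p G y = exp (y / p) * (p ^ 2 / (1 + p) ^ 2) := by
  have hi := S_int_of_bdd G_mono G_nonneg G_le_one p y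
  rw [S_markov hi (x0 := -y / p) (div_nonneg (by linarith) hp.le)]
  have e1 : y + p * (-y / p) = 0 := by field_simp; ring
  rw [e1, S_G_of_nonneg hp.le le_rfl]
  have e2 : ∫ t in Ioc 0 (-y / p), G (y + p * t) * exp (-t) = 0 := by
    apply setIntegral_eq_zero_of_forall_eq_zero
    intro t ht
    have : t * p ≤ -y := by
      have := ht.2
      rwa [le_div_iff₀ hp] at this
    rw [G_of_nonpos (by linarith), zero_mul]
  rw [e2]
  have e3 : -(-y / p) = y / p := by ring
  rw [e3]
  have : 1 + p ≠ 0 := by linarith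
  simp only [neg_zero, exp_zero]
  field_simp
  ring

lemma S_E0 {p : ℝ} (hp : 0 < p) (y : ℝ) : S p E0 y = min 1 (exp (y / p)) := by
  have h0 : ∀ z, 0 ≤ z → S p E0 z = 1 := by
    intro z hz
    unfold S
    have e : ∀ t ∈ Ioi (0:ℝ), E0 (z + p * t) * exp (-t) = exp (-t) := by
      intro t ht
      have ht : 0 < t := ht
      rw [E0_of_nonneg (by positivity), one_mul]
    rw [setIntegral_congr_fun measurableSet_Ioi e, integral_exp_neg_Ioi_zero]
  rcases le_or_gt 0 y with hy | hy
  · rw [h0 y hy, min_eq_left]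
    exact one_le_exp (by positivity)
  · have hi := S_int_of_bdd E0_mono E0_nonneg E0_le_one p y
    rw [S_markov hi (x0 := -y / p) (div_nonneg (by linarith) hp.le)]
    have e1 : y + p * (-y / p) = 0 := by field_simp; ring
    rw [e1, h0 0 le_rfl, integral_Ioc_eq_integral_Ioo]
    have e2 : ∫ t in Ioo 0 (-y / p), E0 (y + p * t) * exp (-t) = 0 := by
      apply setIntegral_eq_zero_of_forall_eq_zero
      intro t ht
      have : t * p < -y := by
        have := ht.2
        rwa [lt_div_iff₀ hp] at this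
      rw [E0_of_neg (by linarith), zero_mul]
    rw [e2]
    have e3 : -(-y / p) = y / p := by ring
    rw [e3, min_eq_right]
    · ring
    · apply exp_le_one_iff.mpr
      exact div_nonpos_of_nonpos_of_nonneg hy.le hp.le

end Crest.Agent.S0423
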