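import Crest.Agent.S0423_E

set_option autoImplicit false

namespace Crest.Agent.S0423

open MeasureTheory Set Real

noncomputable def ell (c r : ℝ) : ℝ := min 1 (exp (r - c))

noncomputable def Fp (p r : ℝ) : ℝ := min 1 (exp (r / p - 1))

lemma ell_mono (c : ℝ) : Monotone (ell c) := by
  intro x y h
  unfold ell
  exact min_le_min le_rfl (exp_le_exp.mpr (by linarith))

lemma ell_pos (c r : ℝ) : 0 < ell c r := lt_min one_pos (exp_pos _)

lemma ell_le_one (c r : ℝ) : ell c r ≤ 1 := min_le_left _ _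

lemma w0_sub_eq (c r : ℝ) : w0 (c - r) = negMulLog (ell c r) := by
  unfold w0 ell
  by_cases h : 0 < c - r
  · rw [if_pos h, min_eq_right (exp_le_one_iff.mpr (by linarith))]
    unfold negMulLog
    rw [log_exp]
    have : -(c - r) = r - c := by ring
    rw [this]
    ring
  · rw [if_neg h, min_eq_left (one_le_exp (by linarith))]
    simp

lemma Cw_eq (F : ℝ → ℝ) (c : ℝ) : Cw F c = ∫ r, negMulLog (ell c r) * F r := by
  unfold Cw
  rw [← integral_sub_left_eq_self (fun r => negMulLog (ell c r) * F r) volume c]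
  congr 1
  ext t
  rw [← w0_sub_eq]
  congr 2
  ring

lemma wF_integrable {F : ℝ → ℝ} (hm : Measurable F) {C : ℝ} (hC : ∀ y, |F y| ≤ C) (c : ℝ) :
    Integrable (fun r => negMulLog (ell c r) * F r) := by
  have h1 : Integrable (fun r => w0 (c - r)) := w0_integrable.comp_sub_left c
  simp_rw [w0_sub_eq] at h1
  exact h1.mul_bdd (c := C) hm.aestronglyMeasurable
    (Filter.Eventually.of_forall fun t => by simpa using hC _)

lemma Cw_sub {F Ft : ℝ → ℝ} (hm : Measurable F) {C : ℝ} (hC : ∀ y, |F y| ≤ C)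
    (hm' : Measurable Ft) {C' : ℝ} (hC' : ∀ y, |Ft y| ≤ C') (c : ℝ) :
    ∫ r, negMulLog (ell c r) * (F r - Ft r) = Cw F c - Cw Ft c := by
  rw [Cw_eq, Cw_eq, ← integral_sub (wF_integrable hm hC c) (wF_integrable hm' hC' c)]
  congr 1
  ext r
  ring

lemma Fp_eq {p : ℝ} (hp : 0 < p) (r : ℝ) : Fp p r = S p E0 (r - p) := by
  rw [S_E0 hp]
  unfold Fp
  congr 2
  field_simp

lemma Fp_mono {p : ℝ} (hp : 0 < p) : Monotone (Fp p) := by
  intro x y h
  unfold Fp
  refine min_le_min le_rfl (exp_le_exp.mpr ?_)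
  have := div_le_div_of_nonneg_right h hp.le
  linarith

lemma Fp_nonneg (p r : ℝ) : 0 ≤ Fp p r := le_min zero_le_one (exp_pos _).le

lemma Fp_le_one (p r : ℝ) : Fp p r ≤ 1 := min_le_left _ _

lemma Fp_abs_le (p r : ℝ) : |Fp p r| ≤ 1 := by
  rw [abs_of_nonneg (Fp_nonneg p r)]; exact Fp_le_one p r

lemma E0_abs_le (r : ℝ) : |E0 r| ≤ 1 := by
  rw [abs_of_nonneg (E0_nonneg r)]; exact E0_le_one r

lemma Fp_sub_eq {p : ℝ} (hp : 0 < p) :
    (fun r => Fp p r - E0 r)
      = fun r => (S p E0 (r + -p) - E0 (r + -p)) + (E0 (r + -p) - E0 r) := by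
  ext r
  rw [Fp_eq hp]
  ring_nf

lemma Fp_integrable {p : ℝ} (hp : 0 < p) : Integrable (fun r => Fp p r - E0 r) := by
  rw [Fp_sub_eq hp]
  exact ((good_S good_E0 p).integrable.comp_add_right (-p)).add (E0_shift_integrable (-p))

lemma Fp_mean {p : ℝ} (hp : 0 < p) : ∫ r, (Fp p r - E0 r) = 0 := by
  rw [Fp_sub_eq hp, integral_add ((good_S good_E0 p).integrable.comp_add_right (-p))
    (E0_shift_integrable (-p)), E0_shift_integral,
    integral_add_right_eq_self (fun r => S p E0 r - E0 r), (good_S good_E0 p).mean]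
  ring

lemma Cw_Fp {p : ℝ} (hp : 0 < p) (c : ℝ) : Cw (Fp p) c = S p G (c - p) := by
  have h1 : Cw (Fp p) c = Cw (S p E0) (c - p) := by
    unfold Cw
    congr 1
    ext t
    rw [Fp_eq hp]
    congr 2
    ring
  rw [h1, Cw_S E0_mono.measurable E0_abs_le]
  congr 1
  ext y
  exact Cw_E0 y

lemma Fp_set {F : ℝ → ℝ} (h1 : ∀ r, F r ≤ 1) (p : ℝ) :
    {r | Fp p r < F r} = {r | exp (-1) * exp (1 / p * r) < F r} := by
  ext r
  simp only [mem_setOf_eq]
  have e : exp (-1) * exp (1 / p * r) = exp (r / p - 1) := by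
    rw [← exp_add]; congr 1; ring
  rw [e]
  unfold Fp
  constructor
  · intro h
    rcases min_lt_iff.mp h with h' | h'
    · exact absurd (h1 r) (not_le.mpr h')
    · exact h'
  · intro h
    exact lt_of_le_of_lt (min_le_right _ _) h

end Crest.Agent.S0423
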