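import Crest.Agent.S0423_F

set_option autoImplicit false

namespace Crest.Agent.S0423

open MeasureTheory Set Real

lemma Bp_le : (4/9 : ℝ) * exp (-(1/3)) ≤ 8/25 := by
  have h := Real.quadratic_le_exp_of_nonneg (show (0:ℝ) ≤ 1/3 by norm_num)
  have h2 : (25/18:ℝ) ≤ exp (1/3) := by
    have : (1:ℝ) + 1/3 + (1/3)^2/2 = 25/18 := by norm_num
    linarith
  rw [exp_neg]
  have hE : 0 < exp (1/3) := exp_pos _
  rw [mul_inv_le_iff₀ hE]
  nlinarith

lemma value_large {p : ℝ} (hp : 0 < p) :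
    (4/9 : ℝ) * exp (-(1/3)) ≤ exp ((4/3 - p) / p) * (p ^ 2 / (1 + p) ^ 2) := by
  set z : ℝ := 2 * (1 + p) / (3 * p) with hz
  have hzpos : 0 < z := by positivity
  have h1 : z ≤ exp (z - 1) := by linarith [add_one_le_exp (z - 1)]
  have h2 : z ^ 2 ≤ exp (z - 1) ^ 2 := by
    apply pow_le_pow_left₀ hzpos.le h1
  have h3 : exp (z - 1) ^ 2 = exp ((4/3 - p) / p) * exp (1/3) := by
    rw [← exp_add, sq, ← exp_add]
    congr 1
    rw [hz]
    field_simp
    ring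
  rw [h3] at h2
  rw [exp_neg]
  have hE : 0 < exp (1/3) := exp_pos _
  rw [mul_inv_le_iff₀ hE]
  calc (4/9 : ℝ) = z ^ 2 * (p ^ 2 / (1 + p) ^ 2) := by
        rw [hz]; field_simp; ring
    _ ≤ (exp ((4/3 - p) / p) * exp (1/3)) * (p ^ 2 / (1 + p) ^ 2) :=
        mul_le_mul_of_nonneg_right h2 (by positivity)
    _ = _ := by ring

lemma value_small {p : ℝ} (hp : 0 ≤ p) (hp' : p ≤ 4/3) :
    (8/25 : ℝ) ≤ 1 - exp (-(4/3 - p)) * ((1 + (4/3 - p)) / (1 + p) + p / (1 + p) ^ 2) := by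
  set y : ℝ := 4/3 - p with hy
  have hy0 : 0 ≤ y := by linarith
  have hy1 : y ≤ 4/3 := by linarith
  have hpy : p = 4/3 - y := by linarith
  have hT : 1 + y + y ^ 2 / 2 + y ^ 3 / 6 ≤ exp y := by
    have := Real.sum_le_exp_of_nonneg hy0 4
    simp only [Finset.sum_range_succ, Finset.sum_range_zero, Nat.factorial] at this
    norm_num at this
    linarith
  have hTpos : 0 < 1 + y + y ^ 2 / 2 + y ^ 3 / 6 := by positivity
  have hN : 0 ≤ (1 + y) / (1 + p) + p / (1 + p) ^ 2 := by positivity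
  have h1 : exp (-y) ≤ (1 + y + y ^ 2 / 2 + y ^ 3 / 6)⁻¹ := by
    rw [exp_neg]
    exact inv_anti₀ hTpos hT
  have h2 : (1 + y) / (1 + p) + p / (1 + p) ^ 2 ≤ 17/25 * (1 + y + y ^ 2 / 2 + y ^ 3 / 6) := by
    have e : (1 + y) / (1 + p) + p / (1 + p) ^ 2 = ((1 + y) * (1 + p) + p) / (1 + p) ^ 2 := by
      field_simp
    rw [e, div_le_iff₀ (by positivity)]
    rw [hpy]
    nlinarith [mul_nonneg hy0 (sub_nonneg.mpr hy1), mul_nonneg (mul_nonneg hy0 hy0) (sub_nonneg.mpr hy1),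
      mul_nonneg (mul_nonneg (mul_nonneg hy0 hy0) hy0) (sub_nonneg.mpr hy1), pow_nonneg hy0 3,
      pow_nonneg hy0 4, pow_nonneg hy0 5, mul_nonneg hy0 hy0]
  have h3 : exp (-y) * ((1 + y) / (1 + p) + p / (1 + p) ^ 2) ≤ 17/25 := by
    calc exp (-y) * ((1 + y) / (1 + p) + p / (1 + p) ^ 2)
        ≤ (1 + y + y ^ 2 / 2 + y ^ 3 / 6)⁻¹ * (17/25 * (1 + y + y ^ 2 / 2 + y ^ 3 / 6)) :=
          mul_le_mul h1 h2 hN (inv_nonneg.mpr hTpos.le)
      _ = 17/25 := by field_simp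
  linarith

lemma value_all {p : ℝ} (hp : 0 < p) : (4/9 : ℝ) * exp (-(1/3)) ≤ S p G (4/3 - p) := by
  rcases le_or_gt p (4/3) with h | h
  · rw [S_G_of_nonneg hp.le (by linarith)]
    exact Bp_le.trans (value_small hp.le h)
  · rw [S_G_of_neg hp (by linarith)]
    exact value_large hp

lemma value_zero : (4/9 : ℝ) * exp (-(1/3)) ≤ G (4/3) := by
  have := value_small (p := 0) le_rfl (by norm_num)
  rw [G_of_nonneg (by norm_num)]
  refine Bp_le.trans (this.trans (le_of_eq ?_))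
  norm_num
  ring

end Crest.Agent.S0423
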