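import Crest.Agent.S0423_G

set_option autoImplicit false

namespace Crest.Agent.S0423

open MeasureTheory Set Real

noncomputable def q (c p : ℝ) : ℝ := ∫ r, ell c r * (Fp p r - E0 r)

lemma ell_mul_integrable (c : ℝ) {D : ℝ → ℝ} (hD : Integrable D) :
    Integrable (fun r => ell c r * D r) :=
  hD.bdd_mul (c := 1) (ell_mono c).measurable.aestronglyMeasurable
    (Filter.Eventually.of_forall fun r => by
      rw [Real.norm_of_nonneg (ell_pos c r).le]; exact ell_le_one c r)

lemma Fp_scale {p : ℝ} (r : ℝ) : Fp p r = Fp 1 (r / p) := by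
  unfold Fp; rw [div_one]

lemma E0_scale {p : ℝ} (hp : 0 < p) (r : ℝ) : E0 r = E0 (r / p) := by
  by_cases h : 0 ≤ r
  · rw [E0_of_nonneg h, E0_of_nonneg (div_nonneg h hp.le)]
  · rw [E0_of_neg (not_le.mp h), E0_of_neg (div_neg_of_neg_of_pos (not_le.mp h) hp)]

lemma q_abs_le (c : ℝ) {p : ℝ} (hp : 0 < p) : |q c p| ≤ p * ∫ u, |Fp 1 u - E0 u| := by
  unfold q
  calc |∫ r, ell c r * (Fp p r - E0 r)| ≤ ∫ r, |ell c r * (Fp p r - E0 r)| :=
        abs_integral_le_integral_abs
    _ ≤ ∫ r, |Fp p r - E0 r| := by
        refine integral_mono (ell_mul_integrable c (Fp_integrable hp)).abs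
          (Fp_integrable hp).abs fun r => ?_
        simp only
        rw [abs_mul, abs_of_pos (ell_pos c r)]
        exact mul_le_of_le_one_left (abs_nonneg _) (ell_le_one c r)
    _ = ∫ r, (fun u => |Fp 1 u - E0 u|) (r / p) := by
        congr 1
        ext r
        simp only
        rw [← Fp_scale, ← E0_scale hp]
    _ = p * ∫ u, |Fp 1 u - E0 u| := by
        rw [Measure.integral_comp_div (fun u => |Fp 1 u - E0 u|) p, abs_of_pos hp, smul_eq_mul]

lemma q_le {c : ℝ} (hc : 0 < c) {p : ℝ} (hp : 0 < p) :
    q c p ≤ c - (1 - exp (-c)) * exp (-1) * p := by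
  have hI := Fp_integrable hp
  have h1 : q c p = - ∫ r, (1 - ell c r) * (Fp p r - E0 r) := by
    unfold q
    have e : (fun r => (1 - ell c r) * (Fp p r - E0 r))
        = fun r => (Fp p r - E0 r) - ell c r * (Fp p r - E0 r) := by
      ext r; ring
    rw [e, integral_sub hI (ell_mul_integrable c hI), Fp_mean hp]
    ring
  rw [h1]
  set κ0 : ℝ := (1 - exp (-c)) * exp (-1) with hκ0
  have hκ0nn : 0 ≤ κ0 := by
    apply mul_nonneg _ (exp_pos _).le
    have : exp (-c) ≤ 1 := exp_le_one_iff.mpr (by linarith)
    linarith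
  have i1 : Integrable ((Iio (0:ℝ)).indicator fun r => κ0 * exp (1 / p * r)) := by
    rw [integrable_indicator_iff measurableSet_Iio]
    exact ((integrableOn_exp_mul_Iic (by positivity) 0).mono_set Iio_subset_Iic_self).const_mul _
  have i2 : Integrable ((Icc (0:ℝ) c).indicator fun _ => (1:ℝ)) := by
    rw [integrable_indicator_iff measurableSet_Icc]
    exact integrableOn_const (by simp)
  have hlb : ∫ r, ((Iio (0:ℝ)).indicator (fun r => κ0 * exp (1 / p * r)) r
      - (Icc (0:ℝ) c).indicator (fun _ => (1:ℝ)) r) = κ0 * p - c := by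
    rw [integral_sub i1 i2, integral_indicator measurableSet_Iio,
      integral_indicator measurableSet_Icc, integral_const_mul, ← integral_Iic_eq_integral_Iio,
      integral_exp_mul_Iic (by positivity) 0]
    simp [hc.le]
  have hI2 : Integrable (fun r => (1 - ell c r) * (Fp p r - E0 r)) := by
    have e : (fun r => (1 - ell c r) * (Fp p r - E0 r))
        = fun r => (Fp p r - E0 r) - ell c r * (Fp p r - E0 r) := by
      ext r; ring
    rw [e]
    exact hI.sub (ell_mul_integrable c hI)
  have hmono : ∫ r, ((Iio (0:ℝ)).indicator (fun r => κ0 * exp (1 / p * r)) r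
      - (Icc (0:ℝ) c).indicator (fun _ => (1:ℝ)) r) ≤ ∫ r, (1 - ell c r) * (Fp p r - E0 r) := by
    refine integral_mono (i1.sub i2) hI2 fun r => ?_
    simp only
    have hl0 := (ell_pos c r).le
    have hl1 := ell_le_one c r
    rcases lt_or_ge r 0 with hr | hr
    · rw [indicator_of_mem (show r ∈ Iio (0:ℝ) from hr),
        indicator_of_notMem (show r ∉ Icc (0:ℝ) c from fun h => absurd h.1 (not_le.mpr hr)),
        E0_of_neg hr]
      have e1 : Fp p r = exp (-1) * exp (1 / p * r) := by
        unfold Fp
        rw [min_eq_right, ← exp_add]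
        · congr 1; ring
        · apply exp_le_one_iff.mpr
          have := div_neg_of_neg_of_pos hr hp
          linarith
      have e2 : ell c r ≤ exp (-c) := by
        unfold ell
        exact (min_le_right _ _).trans (exp_le_exp.mpr (by linarith))
      rw [e1, hκ0]
      have hpos : 0 ≤ exp (-1) * exp (1 / p * r) := by positivity
      nlinarith
    · rw [indicator_of_notMem (show r ∉ Iio (0:ℝ) from not_lt.mpr hr), E0_of_nonneg hr]
      have hF0 := Fp_nonneg p r
      have hF1 := Fp_le_one p r
      rcases le_or_gt r c with hrc | hrc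
      · rw [indicator_of_mem (show r ∈ Icc (0:ℝ) c from ⟨hr, hrc⟩)]
        nlinarith
      · rw [indicator_of_notMem (show r ∉ Icc (0:ℝ) c from fun h => absurd h.2 (not_le.mpr hrc))]
        have : ell c r = 1 := by
          unfold ell
          exact min_eq_left (one_le_exp (by linarith))
        rw [this]
        simp
  rw [hlb] at hmono
  linarith

lemma Fp_dom {p p2 : ℝ} (hp : 0 < p) (h : p ≤ p2) (r : ℝ) :
    |Fp p r - E0 r| ≤ |Fp p2 r - E0 r| := by
  have hp2 : 0 < p2 := lt_of_lt_of_le hp h
  rcases lt_or_ge r 0 with hr | hr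
  · rw [E0_of_neg hr, sub_zero, sub_zero, abs_of_nonneg (Fp_nonneg _ _),
      abs_of_nonneg (Fp_nonneg _ _)]
    unfold Fp
    refine min_le_min le_rfl (exp_le_exp.mpr ?_)
    have : r / p ≤ r / p2 := by
      rw [div_le_div_iff₀ hp hp2]
      nlinarith
    linarith
  · rw [E0_of_nonneg hr, abs_of_nonpos (by linarith [Fp_le_one p r]),
      abs_of_nonpos (by linarith [Fp_le_one p2 r])]
    have : Fp p2 r ≤ Fp p r := by
      unfold Fp
      refine min_le_min le_rfl (exp_le_exp.mpr ?_)
      have : r / p2 ≤ r / p := div_le_div_of_nonneg_left hr hp h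
      linarith
    linarith

lemma q_continuousOn (c : ℝ) {p1 p2 : ℝ} (hp1 : 0 < p1) (h12 : p1 ≤ p2) :
    ContinuousOn (q c) (Icc p1 p2) := by
  unfold q
  refine continuousOn_of_dominated (bound := fun r => |Fp p2 r - E0 r|) ?_ ?_ ?_ ?_
  · intro p hp
    exact (ell_mul_integrable c (Fp_integrable (lt_of_lt_of_le hp1 hp.1))).aestronglyMeasurable
  · intro p hp
    refine Filter.Eventually.of_forall fun r => ?_
    rw [Real.norm_eq_abs, abs_mul, abs_of_pos (ell_pos c r)]
    exact (mul_le_of_le_one_left (abs_nonneg _) (ell_le_one c r)).trans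
      (Fp_dom (lt_of_lt_of_le hp1 hp.1) hp.2 r)
  · exact (Fp_integrable (lt_of_lt_of_le hp1 h12)).abs
  · refine Filter.Eventually.of_forall fun r => ?_
    unfold Fp
    apply ContinuousOn.mul continuousOn_const
    apply ContinuousOn.sub _ continuousOn_const
    apply ContinuousOn.inf continuousOn_const
    apply Real.continuous_exp.comp_continuousOn
    apply ContinuousOn.sub _ continuousOn_const
    apply ContinuousOn.div continuousOn_const continuousOn_id
    intro p hp
    exact (lt_of_lt_of_le hp1 hp.1).ne'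

end Crest.Agent.S0423
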