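import Crest.Agent.S0423_H

set_option autoImplicit false

namespace Crest.Agent.S0423

open MeasureTheory Set Real

theorem main_ineq {F : ℝ → ℝ} (h : Good F 0) : (4/9 : ℝ) * exp (-(1/3)) ≤ Cw F (4/3) := by
  have hFm := h.mono.measurable
  have hFb : ∀ y, |F y| ≤ 1 := fun z => by rw [abs_of_nonneg (h.nonneg z)]; exact h.le_one z
  have hQ0le : ∫ r, ell (4/3) r * (F r - E0 r) ≤ 0 := by
    have hpt : ∀ r, (ell (4/3) r - ell (4/3) 0) * (F r - E0 r) ≤ 0 := by
      intro r
      rcases lt_or_ge r 0 with hr | hr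
      · rw [E0_of_neg hr]
        exact mul_nonpos_of_nonpos_of_nonneg (by linarith [ell_mono (4/3) hr.le])
          (by linarith [h.nonneg r])
      · rw [E0_of_nonneg hr]
        exact mul_nonpos_of_nonneg_of_nonpos (by linarith [ell_mono (4/3) hr])
          (by linarith [h.le_one r])
    have h1 : ∫ r, (ell (4/3) r - ell (4/3) 0) * (F r - E0 r) ≤ 0 := integral_nonpos hpt
    have e : (fun r => (ell (4/3) r - ell (4/3) 0) * (F r - E0 r))
        = fun r => ell (4/3) r * (F r - E0 r) - ell (4/3) 0 * (F r - E0 r) := by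
      ext r; ring
    rw [e, integral_sub (ell_mul_integrable _ h.integrable) (h.integrable.const_mul _),
      integral_const_mul, h.mean] at h1
    linarith
  rcases hQ0le.eq_or_lt with hz | hneg
  · have hconn : OrdConnected {r | E0 r < F r} := by
      constructor
      intro x hx z hz y hy
      simp only [mem_setOf_eq] at hx hz ⊢
      have hz0 : z < 0 := by
        by_contra hcon
        rw [E0_of_nonneg (not_lt.mp hcon)] at hz
        linarith [h.le_one z]
      rw [E0_of_neg (lt_of_le_of_lt hy.2 hz0)]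
      have := h.mono hy.1
      linarith [E0_nonneg x]
    have := cmp (ell_mono (4/3)) (ell_pos _) (ell_le_one _) h.integrable h.mean hz hconn
    rw [Cw_sub hFm hFb E0_mono.measurable E0_abs_le, Cw_E0] at this
    linarith [value_zero]
  · set Q0 := ∫ r, ell (4/3) r * (F r - E0 r) with hQ0
    set K := ∫ u, |Fp 1 u - E0 u| with hKdef
    have hK : 0 ≤ K := integral_nonneg (fun _ => abs_nonneg _)
    have hp1 : 0 < -Q0 / (K + 1) := div_pos (by linarith) (by linarith)
    have hq1 : Q0 ≤ q (4/3) (-Q0 / (K + 1)) := by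
      have h1 := q_abs_le (4/3) hp1
      have h2 : -Q0 / (K + 1) * K ≤ -Q0 := by
        rw [div_mul_eq_mul_div, div_le_iff₀ (by linarith)]
        nlinarith
      have h3 := neg_abs_le (q (4/3) (-Q0 / (K + 1)))
      linarith
    have hκ0 : 0 < (1 - exp (-(4/3:ℝ))) * exp (-1) := by
      apply mul_pos _ (exp_pos _)
      have : exp (-(4/3:ℝ)) < 1 := Real.exp_lt_one_iff.mpr (by norm_num)
      linarith
    set κ0 := (1 - exp (-(4/3:ℝ))) * exp (-1) with hκ0def
    have h12 : -Q0 / (K + 1) ≤ max (-Q0 / (K + 1)) ((4/3 - Q0) / κ0) := le_max_left _ _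
    have hp2 : 0 < max (-Q0 / (K + 1)) ((4/3 - Q0) / κ0) := lt_of_lt_of_le hp1 h12
    have hq2 : q (4/3) (max (-Q0 / (K + 1)) ((4/3 - Q0) / κ0)) ≤ Q0 := by
      have h1 := q_le (c := 4/3) (by norm_num) hp2
      have h2 : (4/3 - Q0) / κ0 ≤ max (-Q0 / (K + 1)) ((4/3 - Q0) / κ0) := le_max_right _ _
      rw [div_le_iff₀ hκ0] at h2
      linarith
    obtain ⟨p, hp, hqp⟩ := intermediate_value_Icc' h12 (q_continuousOn (4/3) hp1 h12) ⟨hq2, hq1⟩
    have hp0 : 0 < p := lt_of_lt_of_le hp1 hp.1
    have e : (fun r => F r - Fp p r) = fun r => (F r - E0 r) - (Fp p r - E0 r) := by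
      ext r; ring
    have hD : Integrable (fun r => F r - Fp p r) := by
      rw [e]; exact h.integrable.sub (Fp_integrable hp0)
    have hz : ∫ r, (F r - Fp p r) = 0 := by
      rw [e, integral_sub h.integrable (Fp_integrable hp0), h.mean, Fp_mean hp0]
      ring
    have hl : ∫ r, ell (4/3) r * (F r - Fp p r) = 0 := by
      have e2 : (fun r => ell (4/3) r * (F r - Fp p r))
          = fun r => ell (4/3) r * (F r - E0 r) - ell (4/3) r * (Fp p r - E0 r) := by
        ext r; ring
      rw [e2, integral_sub (ell_mul_integrable _ h.integrable)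
        (ell_mul_integrable _ (Fp_integrable hp0))]
      have : q (4/3) p = ∫ r, ell (4/3) r * (Fp p r - E0 r) := rfl
      rw [← this, hqp]
      ring
    have hconn : OrdConnected {r | Fp p r < F r} := by
      rw [Fp_set h.le_one]
      exact h.conn _ _ (exp_pos _) (by positivity)
    have := cmp (ell_mono (4/3)) (ell_pos _) (ell_le_one _) hD hz hl hconn
    rw [Cw_sub hFm hFb (Fp_mono hp0).measurable (Fp_abs_le p), Cw_Fp hp0] at this
    linarith [value_all hp0]

end Crest.Agent.S0423
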