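import Crest.Agent.S0423_A
import Crest.Agent.S0423_I

set_option autoImplicit false

namespace Crest.Agent.S0423

open MeasureTheory Set Real

lemma J_eq_It {φ : ℝ → ℝ} (hm : Measurable φ) {C : ℝ} (hC : ∀ y, |φ y| ≤ C) :
    ∀ (N : ℕ) (a : Fin N → ℝ) (y : ℝ), J N a (fun s => φ (y + s)) = It N a φ y := by
  intro N
  induction N with
  | zero =>
    intro a y
    rw [J_zero]
    simp [It]
  | succ N ih =>
    intro a y
    rw [J_succ a (φ := fun s => φ (y + s))
      (hm.comp (by fun_prop : Measurable fun s : ℝ => y + s)) (fun s => hC _)]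
    simp only [It]
    unfold S
    congr 1
    ext t
    congr 1
    have : (fun s => φ (y + (a 0 * t + s))) = fun s => φ ((y + a 0 * t) + s) := by
      ext s; rw [add_assoc]
    rw [this, ih]

lemma good_It : ∀ (N : ℕ) (a : Fin N → ℝ), Good (It N a E0) (∑ i, a i) := by
  intro N
  induction N with
  | zero => intro a; simpa [It] using good_E0
  | succ N ih =>
    intro a
    have := good_S (ih (fun i => a i.succ)) (a 0)
    have e : ∑ i, a i = ∑ i : Fin N, a i.succ + a 0 := by
      rw [Fin.sum_univ_succ, add_comm]
    rw [e]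
    exact this

lemma It_G : ∀ (N : ℕ) (a : Fin N → ℝ), It N a G = Cw (It N a E0) := by
  intro N
  induction N with
  | zero => intro a; ext y; simp only [It]; rw [Cw_E0]
  | succ N ih =>
    intro a
    ext y
    simp only [It]
    rw [ih]
    have hg := good_It N (fun i => a i.succ)
    rw [Cw_S hg.mono.measurable (C := 1)
      (fun z => by rw [abs_of_nonneg (hg.nonneg z)]; exact hg.le_one z)]

lemma It_one : ∀ (N : ℕ) (a : Fin N → ℝ) (y : ℝ), It N a (fun _ => 1) y = 1 := by
  intro N
  induction N with
  | zero => intro a y; simp [It]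
  | succ N ih =>
    intro a y
    simp only [It]
    have : It N (fun i => a i.succ) (fun _ => 1) = fun _ => 1 := by
      ext z; exact ih _ z
    rw [this, S_const]

lemma G_abs_le (y : ℝ) : |G y| ≤ 1 := by
  rw [abs_of_nonneg (G_nonneg y)]; exact G_le_one y

/-- the integral of the statement in terms of the one-dimensional objects -/
lemma J_one_sub_G (N : ℕ) (a : Fin N → ℝ) (c : ℝ) :
    J N a (fun s => 1 - G (c + s)) = 1 - Cw (It N a E0) c := by
  have h1 : J N a (fun s => G (c + s)) = Cw (It N a E0) c := by
    rw [J_eq_It G_mono.measurable G_abs_le, It_G]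
  have h2 : J N a (fun _ => 1) = 1 := by
    have := J_eq_It (φ := fun _ => (1:ℝ)) measurable_const (C := 1) (by simp) N a 0
    rw [It_one] at this
    exact this
  have h3 : J N a (fun s => 1 - G (c + s)) = J N a (fun _ => 1) - J N a (fun s => G (c + s)) := by
    unfold J
    rw [restrict_orthant]
    rw [← integral_sub (integrable_J a (φ := fun _ => (1:ℝ)) measurable_const (C := 1) (by simp))
      (integrable_J a (φ := fun s => G (c + s))
        (G_mono.measurable.comp (by fun_prop : Measurable fun s : ℝ => c + s)) (C := 1)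
        (fun s => G_abs_le _))]
    congr 1
    ext x
    ring
  rw [h3, h1, h2]

theorem upper_bound (N : ℕ) (a : Fin N → ℝ) (ha : ∑ i, a i = 0) :
    J N a (fun s => 1 - G (4/3 + s)) ≤ 1 - (4/9 : ℝ) * exp (-(1/3)) := by
  rw [J_one_sub_G]
  have hg := good_It N a
  rw [ha] at hg
  linarith [main_ineq hg]

end Crest.Agent.S0423
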